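import Crest.Agent.R298.TyF_452

/-!
R298 (S0452), helper452: uniqueness of types modulo the final sort (van Benthem Jutting) for
arbitrary specifications, over list contexts and over function contexts; uniqueness of the
types of neutral terms; the relation `FS`.
-/

set_option autoImplicit false

namespace Crest.Agent.R298.Uniq452

open Crest.LogicCS.PTS Crest.LogicCS.PTS.Term Relation
open Crest.Agent.R298.Sub452 Crest.Agent.R298.Par452 Crest.Agent.R298.Ty452
open Crest.Agent.R298.TyF452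

universe u
variable {S : Type u} {P : Spec S}

/-- equality of types modulo the final sort -/
inductive FS : Term S → Term S → Prop
  | eq {A B : Term S} : BetaEq A B → FS A B
  | sort {A B : Term S} {s t : S} : BetaEq A (sort s) → BetaEq B (sort t) → FS A B
  | pi {A B C A' B' : Term S} : BetaEq A (pi C A') → BetaEq B (pi C B') → FS A' B' → FS A B

theorem FS.refl (A : Term S) : FS A A := .eq (.refl _)

theorem FS.symm {A B : Term S} (h : FS A B) : FS B A := by
  induction h with
  | eq e => exact .eq (BetaEq.symm e)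
  | sort e e' => exact .sort e' e
  | pi e e' _ ih => exact .pi e' e ih

theorem FS.left {A A' B : Term S} (h : FS A B) (e : BetaEq A' A) : FS A' B := by
  cases h with
  | eq e' => exact .eq (BetaEq.trans e e')
  | sort e1 e2 => exact .sort (BetaEq.trans e e1) e2
  | pi e1 e2 h => exact .pi (BetaEq.trans e e1) e2 h

theorem FS.right {A B B' : Term S} (h : FS A B) (e : BetaEq B B') : FS A B' :=
  (h.symm.left (BetaEq.symm e)).symm

theorem FS.trans {A B C : Term S} (h : FS A B) (h' : FS B C) : FS A C := by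
  induction h generalizing C with
  | eq e => exact h'.left e
  | sort e1 e2 =>
      cases h' with
      | eq e => exact .sort e1 (BetaEq.trans (BetaEq.symm e) e2)
      | sort _ e4 => exact .sort e1 e4
      | pi e3 _ _ => exact absurd (BetaEq.trans (BetaEq.symm e2) e3) not_sort_pi
  | pi e1 e2 _ ih =>
      cases h' with
      | eq e => exact .pi e1 (BetaEq.trans (BetaEq.symm e) e2) (by assumption)
      | sort e3 _ => exact absurd (BetaEq.trans (BetaEq.symm e3) e2) not_sort_pi
      | pi e3 e4 h3 =>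
          obtain ⟨e5, e6⟩ := pi_inj (BetaEq.trans (BetaEq.symm e2) e3)
          exact .pi e1 (BetaEq.trans e4 (BetaEq.pi (BetaEq.symm e5) (.refl _)))
            (ih (h3.left e6))

theorem FS.sub {A B : Term S} (h : FS A B) : ∀ σ : ℕ → Term S, FS (sub σ A) (sub σ B) := by
  induction h with
  | eq e => intro σ; exact .eq (BetaEq.sub e σ)
  | sort e e' => intro σ; exact .sort (BetaEq.sub e σ) (BetaEq.sub e' σ)
  | pi e e' _ ih => intro σ; exact .pi (BetaEq.sub e σ) (BetaEq.sub e' σ) (ih _)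

theorem FS.ren {A B : Term S} (h : FS A B) (ρ : ℕ → ℕ) : FS (ren ρ A) (ren ρ B) := by
  rw [ren_eq_sub, ren_eq_sub]; exact h.sub _

theorem FS.pi_inv {A B C D : Term S} (h : FS (.pi A B) (.pi C D)) : BetaEq A C ∧ FS B D := by
  cases h with
  | eq e => obtain ⟨a, b⟩ := pi_inj e; exact ⟨a, .eq b⟩
  | sort e _ => exact absurd (BetaEq.symm e) not_sort_pi
  | pi e1 e2 h =>
      obtain ⟨a, b⟩ := pi_inj e1
      obtain ⟨c, d⟩ := pi_inj e2
      exact ⟨BetaEq.trans a (BetaEq.symm c), (h.left b).right (BetaEq.symm d)⟩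

/-- a product is `FS`-related only to products -/
theorem FS.pi_left {A B C : Term S} (h : FS (.pi A B) C) :
    ∃ B', BetaEq C (.pi A B') ∧ FS B B' := by
  cases h with
  | eq e => exact ⟨B, BetaEq.symm e, .refl _⟩
  | sort e _ => exact absurd (BetaEq.symm e) not_sort_pi
  | pi e1 e2 h =>
      obtain ⟨a, b⟩ := pi_inj e1
      exact ⟨_, BetaEq.trans e2 (BetaEq.pi (BetaEq.symm a) (.refl _)), h.left b⟩

theorem FS.sort_left {C : Term S} {s : S} (h : FS (.sort s) C) : ∃ t, BetaEq C (.sort t) := by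
  cases h with
  | eq e => exact ⟨s, BetaEq.symm e⟩
  | sort _ e => exact ⟨_, e⟩
  | pi e _ _ => exact absurd e not_sort_pi

theorem FS.congr_pi {A A' B B' : Term S} (e : BetaEq A A') (h : FS B B') :
    FS (.pi A B) (.pi A' B') :=
  .pi (.refl _) (BetaEq.pi (BetaEq.symm e) (.refl _)) h

/-! ### uniqueness over list contexts -/

theorem uniq {M : Term S} : ∀ {Γ : List (Term S)} {A B : Term S}, Typed P Γ M A →
    Typed P Γ M B → FS A B := by
  induction M with
  | var i =>
      intro Γ A B h h'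
      obtain ⟨C, l, e⟩ := gen_var h
      obtain ⟨C', l', e'⟩ := gen_var h'
      rw [l.unique l'] at e
      exact .eq (BetaEq.trans e (BetaEq.symm e'))
  | sort s =>
      intro Γ A B h h'
      obtain ⟨C, l, e⟩ := gen_sort h
      obtain ⟨C', l', e'⟩ := gen_sort h'
      exact .sort e e'
  | app M N ih _ =>
      intro Γ A B h h'
      obtain ⟨A1, B1, h1, h2, e⟩ := gen_app h
      obtain ⟨A2, B2, h3, h4, e'⟩ := gen_app h'
      obtain ⟨_, h5⟩ := (ih h1 h3).pi_inv
      exact ((h5.sub _).left e).right (BetaEq.symm e')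
  | lam C M _ ih =>
      intro Γ A B h h'
      obtain ⟨B1, s1, h1, h2, e⟩ := gen_lam h
      obtain ⟨B2, s2, h3, h4, e'⟩ := gen_lam h'
      exact .pi e e' (ih h1 h3)
  | pi C M _ _ =>
      intro Γ A B h h'
      obtain ⟨s1, s2, s3, _, _, _, e⟩ := gen_pi h
      obtain ⟨t1, t2, t3, _, _, _, e'⟩ := gen_pi h'
      exact .sort e e'

/-! ### uniqueness over function contexts -/

theorem funiq {M : Term S} : ∀ {D : ℕ → Term S} {A B : Term S}, TyF P D M A →
    TyF P D M B → FS A B := by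
  induction M with
  | var i =>
      intro D A B h h'
      obtain ⟨_, e⟩ := fgen_var h _ rfl
      obtain ⟨_, e'⟩ := fgen_var h' _ rfl
      exact .eq (BetaEq.trans e (BetaEq.symm e'))
  | sort s =>
      intro D A B h h'
      obtain ⟨C, l, e⟩ := fgen_sort h _ rfl
      obtain ⟨C', l', e'⟩ := fgen_sort h' _ rfl
      exact .sort e e'
  | app M N ih _ =>
      intro D A B h h'
      obtain ⟨A1, B1, h1, h2, e⟩ := fgen_app h _ _ rfl
      obtain ⟨A2, B2, h3, h4, e'⟩ := fgen_app h' _ _ rfl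
      obtain ⟨_, h5⟩ := (ih h1 h3).pi_inv
      exact ((h5.sub _).left e).right (BetaEq.symm e')
  | lam C M _ ih =>
      intro D A B h h'
      obtain ⟨B1, s1, h1, h2, e⟩ := fgen_lam h _ _ rfl
      obtain ⟨B2, s2, h3, h4, e'⟩ := fgen_lam h' _ _ rfl
      exact .pi e e' (ih h1 h3)
  | pi C M _ _ =>
      intro D A B h h'
      obtain ⟨s1, s2, s3, _, _, _, e⟩ := fgen_pi h _ _ rfl
      obtain ⟨t1, t2, t3, _, _, _, e'⟩ := fgen_pi h' _ _ rfl
      exact .sort e e'

/-! ### neutral terms have unique types -/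

/-- terms with a variable at the head of a spine -/
inductive Neu : Term S → Prop
  | var (i : ℕ) : Neu (.var i)
  | app {M : Term S} (N : Term S) : Neu M → Neu (.app M N)

theorem neu_uniq {M : Term S} (n : Neu M) : ∀ {Γ : List (Term S)} {A B : Term S},
    Typed P Γ M A → Typed P Γ M B → BetaEq A B := by
  induction n with
  | var i =>
      intro Γ A B h h'
      obtain ⟨C, l, e⟩ := gen_var h
      obtain ⟨C', l', e'⟩ := gen_var h'
      rw [l.unique l'] at e
      exact BetaEq.trans e (BetaEq.symm e')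
  | app N _ ih =>
      intro Γ A B h h'
      obtain ⟨A1, B1, h1, h2, e⟩ := gen_app h
      obtain ⟨A2, B2, h3, h4, e'⟩ := gen_app h'
      obtain ⟨_, h5⟩ := pi_inj (ih h1 h3)
      exact BetaEq.trans e (BetaEq.trans (BetaEq.sub h5 _) (BetaEq.symm e'))

theorem fneu_uniq {M : Term S} (n : Neu M) : ∀ {D : ℕ → Term S} {A B : Term S},
    TyF P D M A → TyF P D M B → BetaEq A B := by
  induction n with
  | var i =>
      intro D A B h h'
      obtain ⟨_, e⟩ := fgen_var h _ rfl
      obtain ⟨_, e'⟩ := fgen_var h' _ rfl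
      exact BetaEq.trans e (BetaEq.symm e')
  | app N _ ih =>
      intro D A B h h'
      obtain ⟨A1, B1, h1, h2, e⟩ := fgen_app h _ _ rfl
      obtain ⟨A2, B2, h3, h4, e'⟩ := fgen_app h' _ _ rfl
      obtain ⟨_, h5⟩ := pi_inj (ih h1 h3)
      exact BetaEq.trans e (BetaEq.trans (BetaEq.sub h5 _) (BetaEq.symm e'))

theorem fneu_sort_uniq {M : Term S} (n : Neu M) {D : ℕ → Term S} {s t : S}
    (h : TyF P D M (.sort s)) (h' : TyF P D M (.sort t)) : s = t :=
  sort_inj (fneu_uniq n h h')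

theorem neu_sort_uniq {M : Term S} (n : Neu M) {Γ : List (Term S)} {s t : S}
    (h : Typed P Γ M (.sort s)) (h' : Typed P Γ M (.sort t)) : s = t :=
  sort_inj (neu_uniq n h h')

/-! ### the sorts of a type -/

/-- the sorts of a type over a function context -/
def Sg (P : Spec S) (D : ℕ → Term S) (T : Term S) (s : S) : Prop :=
  ∃ T', BetaEq T T' ∧ TyF P D T' (.sort s)

theorem Sg.of {D : ℕ → Term S} {T : Term S} {s : S} (h : TyF P D T (.sort s)) : Sg P D T s :=
  ⟨T, .refl _, h⟩

theorem Sg.conv {D : ℕ → Term S} {T T' : Term S} {s : S} (h : Sg P D T s) (e : BetaEq T' T) :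
    Sg P D T' s := by
  obtain ⟨T0, e0, h0⟩ := h
  exact ⟨T0, BetaEq.trans e e0, h0⟩

theorem Sg.red {D : ℕ → Term S} (w : WfF P D) {T : Term S} {s : S} (h : Sg P D T s) :
    ∃ T', Red T T' ∧ TyF P D T' (.sort s) := by
  obtain ⟨T0, e0, h0⟩ := h
  obtain ⟨K, r1, r2⟩ := betaEq_iff.1 e0
  exact ⟨K, r1, FSR w h0 r2⟩

/-- on a normal type the sorts are the types of the term -/
theorem Sg.normal {D : ℕ → Term S} (w : WfF P D) {T : Term S} (n : Normal T) {s : S} :
    Sg P D T s ↔ TyF P D T (.sort s) := by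
  constructor
  · intro h
    obtain ⟨T', r, h'⟩ := h.red w
    rw [normal_red n r] at h'
    exact h'
  · exact Sg.of

theorem Sg.sub {D D' : ℕ → Term S} {T : Term S} {s : S} {σ : ℕ → Term S} (h : Sg P D T s)
    (hs : SubF P σ D D') : Sg P D' (Sub452.sub σ T) s := by
  obtain ⟨T0, e0, h0⟩ := h
  exact ⟨_, BetaEq.sub e0 σ, tyf_sub h0 hs⟩

theorem Sg.ren {D D' : ℕ → Term S} {T : Term S} {s : S} {ρ : ℕ → ℕ} (h : Sg P D T s)
    (hs : RenF ρ D D') : Sg P D' (Sub452.ren ρ T) s := by
  obtain ⟨T0, e0, h0⟩ := h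
  exact ⟨_, BetaEq.ren e0 ρ, tyf_ren h0 hs⟩

theorem Sg.inst {D : ℕ → Term S} (w : WfF P D) {A B N : Term S} {s : S}
    (h : Sg P (fcons A D) B s) (hN : TyF P D N A) : Sg P D (Sub452.inst N B) s := by
  obtain ⟨T0, e0, h0⟩ := h
  exact ⟨_, BetaEq.sub e0 _, tyf_inst w h0 hN⟩

/-- the sorts of a product -/
theorem Sg.pi_inv {D : ℕ → Term S} (w : WfF P D) {A B : Term S} {c : S}
    (h : Sg P D (.pi A B) c) :
    ∃ a b, P.rule a b c ∧ Sg P D A a ∧ ∃ A', Red A A' ∧ TyF P D A' (.sort a) ∧
      Sg P (fcons A' D) B b := by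
  obtain ⟨T', r, h'⟩ := h.red w
  obtain ⟨A', B', rfl, rA, rB⟩ := red_pi r
  obtain ⟨s₁, s₂, s₃, a, b, ru, e⟩ := fgen_pi h' _ _ rfl
  have hc : c = s₃ := sort_inj e
  subst hc
  exact ⟨s₁, s₂, ru, ⟨A', rA.eq, a⟩, A', rA, a, ⟨B', rB.eq, b⟩⟩

end Crest.Agent.R298.Uniq452
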