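import Crest.Agent.R298.Ty_452

/-!
R298 (S0452), helper657: free variable bounds, injective renamings, and STRENGTHENING for normal
subjects in an arbitrary specification (checking / inference along the normal form).
-/

set_option autoImplicit false

namespace Crest.Agent.R298.Str657

open Crest.LogicCS.PTS Crest.LogicCS.PTS.Term Relation
open Crest.Agent.R298.Sub452 Crest.Agent.R298.Par452 Crest.Agent.R298.Ty452

universe u
variable {S : Type u} {P : Spec S}

/-! ### free variable bounds -/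

/-- all free variables of the term are below `n` -/
def Fb : Term S → ℕ → Prop
  | var i, n => i < n
  | sort _, _ => True
  | app M N, n => Fb M n ∧ Fb N n
  | lam A M, n => Fb A n ∧ Fb M (n + 1)
  | pi A B, n => Fb A n ∧ Fb B (n + 1)

@[simp] theorem fb_var (i n : ℕ) : Fb (S := S) (var i) n ↔ i < n := Iff.rfl
@[simp] theorem fb_sort (s : S) (n : ℕ) : Fb (sort s) n ↔ True := Iff.rfl
@[simp] theorem fb_app (M N : Term S) (n : ℕ) : Fb (app M N) n ↔ Fb M n ∧ Fb N n := Iff.rfl
@[simp] theorem fb_lam (M N : Term S) (n : ℕ) : Fb (lam M N) n ↔ Fb M n ∧ Fb N (n + 1) := Iff.rfl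
@[simp] theorem fb_pi (M N : Term S) (n : ℕ) : Fb (pi M N) n ↔ Fb M n ∧ Fb N (n + 1) := Iff.rfl

theorem Fb.mono {M : Term S} {n m : ℕ} (h : Fb M n) (hnm : n ≤ m) : Fb M m := by
  induction M generalizing n m with
  | var i => exact lt_of_lt_of_le h hnm
  | sort s => trivial
  | app M N h1 h2 => exact ⟨h1 h.1 hnm, h2 h.2 hnm⟩
  | lam A M h1 h2 => exact ⟨h1 h.1 hnm, h2 h.2 (Nat.succ_le_succ hnm)⟩
  | pi A M h1 h2 => exact ⟨h1 h.1 hnm, h2 h.2 (Nat.succ_le_succ hnm)⟩

theorem exists_fb (M : Term S) : ∃ n, Fb M n := by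
  induction M with
  | var i => exact ⟨i + 1, Nat.lt_succ_self i⟩
  | sort s => exact ⟨0, trivial⟩
  | app M N h1 h2 =>
      obtain ⟨n, hn⟩ := h1
      obtain ⟨m, hm⟩ := h2
      exact ⟨max n m, hn.mono (le_max_left _ _), hm.mono (le_max_right _ _)⟩
  | lam A M h1 h2 =>
      obtain ⟨n, hn⟩ := h1
      obtain ⟨m, hm⟩ := h2
      exact ⟨max n m, hn.mono (le_max_left _ _), hm.mono (by omega)⟩
  | pi A M h1 h2 =>
      obtain ⟨n, hn⟩ := h1
      obtain ⟨m, hm⟩ := h2
      exact ⟨max n m, hn.mono (le_max_left _ _), hm.mono (by omega)⟩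

theorem up_congr {ρ τ : ℕ → ℕ} {n : ℕ} (h : ∀ i, i < n → ρ i = τ i) :
    ∀ i, i < n + 1 → up ρ i = up τ i := by
  intro i hi
  cases i with
  | zero => rfl
  | succ i => simp only [up_succ]; rw [h i (by omega)]

theorem ren_congr {M : Term S} {n : ℕ} {ρ τ : ℕ → ℕ} (h : Fb M n) (e : ∀ i, i < n → ρ i = τ i) :
    ren ρ M = ren τ M := by
  induction M generalizing n ρ τ with
  | var i => simp only [ren_var]; rw [e i h]
  | sort s => rfl
  | app M N h1 h2 => simp only [ren_app]; rw [h1 h.1 e, h2 h.2 e]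
  | lam A M h1 h2 => simp only [ren_lam]; rw [h1 h.1 e, h2 h.2 (up_congr e)]
  | pi A M h1 h2 => simp only [ren_pi]; rw [h1 h.1 e, h2 h.2 (up_congr e)]

theorem ups_congr {σ τ : ℕ → Term S} {n : ℕ} (h : ∀ i, i < n → σ i = τ i) :
    ∀ i, i < n + 1 → ups σ i = ups τ i := by
  intro i hi
  cases i with
  | zero => rfl
  | succ i => simp only [ups_succ]; rw [h i (by omega)]

theorem sub_congr {M : Term S} {n : ℕ} {σ τ : ℕ → Term S} (h : Fb M n)
    (e : ∀ i, i < n → σ i = τ i) : sub σ M = sub τ M := by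
  induction M generalizing n σ τ with
  | var i => simp only [sub_var]; rw [e i h]
  | sort s => rfl
  | app M N h1 h2 => simp only [sub_app]; rw [h1 h.1 e, h2 h.2 e]
  | lam A M h1 h2 => simp only [sub_lam]; rw [h1 h.1 e, h2 h.2 (ups_congr e)]
  | pi A M h1 h2 => simp only [sub_pi]; rw [h1 h.1 e, h2 h.2 (ups_congr e)]

theorem fb_ren {M : Term S} {n m : ℕ} {ρ : ℕ → ℕ} (h : Fb M n) (e : ∀ i, i < n → ρ i < m) :
    Fb (ren ρ M) m := by
  have hup : ∀ {n m : ℕ} {ρ : ℕ → ℕ}, (∀ i, i < n → ρ i < m) →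
      ∀ i, i < n + 1 → up ρ i < m + 1 := by
    intro n m ρ e i hi
    cases i with
    | zero => simp
    | succ i => simp only [up_succ]; have := e i (by omega); omega
  induction M generalizing n m ρ with
  | var i => exact e i h
  | sort s => trivial
  | app M N h1 h2 => exact ⟨h1 h.1 e, h2 h.2 e⟩
  | lam A M h1 h2 => exact ⟨h1 h.1 e, h2 h.2 (hup e)⟩
  | pi A M h1 h2 => exact ⟨h1 h.1 e, h2 h.2 (hup e)⟩

theorem fb_of_ren {M : Term S} {n m : ℕ} {ρ : ℕ → ℕ} (h : Fb (ren ρ M) m)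
    (e : ∀ i, ρ i < m → i < n) : Fb M n := by
  have hup : ∀ {n m : ℕ} {ρ : ℕ → ℕ}, (∀ i, ρ i < m → i < n) →
      ∀ i, up ρ i < m + 1 → i < n + 1 := by
    intro n m ρ e i hi
    cases i with
    | zero => simp
    | succ i => simp only [up_succ] at hi; have := e i (by omega); omega
  induction M generalizing n m ρ with
  | var i => exact e i h
  | sort s => trivial
  | app M N h1 h2 => exact ⟨h1 h.1 e, h2 h.2 e⟩
  | lam A M h1 h2 => exact ⟨h1 h.1 e, h2 h.2 (hup e)⟩
  | pi A M h1 h2 => exact ⟨h1 h.1 e, h2 h.2 (hup e)⟩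

theorem fb_sub {M : Term S} {n m : ℕ} {σ : ℕ → Term S} (h : Fb M n)
    (e : ∀ i, i < n → Fb (σ i) m) : Fb (sub σ M) m := by
  have hup : ∀ {n m : ℕ} {σ : ℕ → Term S}, (∀ i, i < n → Fb (σ i) m) →
      ∀ i, i < n + 1 → Fb (ups σ i) (m + 1) := by
    intro n m σ e i hi
    cases i with
    | zero => simp
    | succ i => exact fb_ren (e i (by omega)) (fun j hj => Nat.succ_lt_succ hj)
  induction M generalizing n m σ with
  | var i => exact e i h
  | sort s => trivial
  | app M N h1 h2 => exact ⟨h1 h.1 e, h2 h.2 e⟩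
  | lam A M h1 h2 => exact ⟨h1 h.1 e, h2 h.2 (hup e)⟩
  | pi A M h1 h2 => exact ⟨h1 h.1 e, h2 h.2 (hup e)⟩

theorem fb_inst {M N : Term S} {n : ℕ} (h : Fb M (n + 1)) (h' : Fb N n) : Fb (inst N M) n := by
  refine fb_sub h (fun i hi => ?_)
  cases i with
  | zero => exact h'
  | succ i => simp only [scons_succ, fb_var]; omega

theorem fb_wk {M : Term S} {n : ℕ} (h : Fb M n) : Fb (wk M) (n + 1) :=
  fb_ren h (fun _ hj => Nat.succ_lt_succ hj)

/-- subject and type of a typed judgment live in the context -/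
theorem typed_fb {Γ : List (Term S)} {M A : Term S} (h : Typed P Γ M A) :
    Fb M Γ.length ∧ Fb A Γ.length := by
  refine typed_ind (P := P) (motive := fun Γ M A => Fb M Γ.length ∧ Fb A Γ.length)
    ?_ ?_ ?_ ?_ ?_ ?_ ?_ h
  · intro s₁ s₂ _; exact ⟨trivial, trivial⟩
  · intro Γ A s _ ih; exact ⟨by simp, fb_wk ih.1⟩
  · intro Γ M B A s _ _ ih _; exact ⟨fb_wk ih.1, fb_wk ih.2⟩
  · intro Γ A B s₁ s₂ s₃ _ _ _ ih ih'; exact ⟨⟨ih.1, ih'.1⟩, trivial⟩
  · intro Γ A M B s _ _ ih ih'; exact ⟨⟨ih'.1.1, ih.1⟩, ih'.1⟩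
  · intro Γ M N A B _ _ ih ih'; exact ⟨⟨ih.1, ih'.1⟩, fb_inst ih.2.2 ih'.1⟩
  · intro Γ M A B s _ _ _ ih ih'; exact ⟨ih.1, ih'.1⟩

theorem lk_fb {Γ : List (Term S)} {i : ℕ} {A : Term S} (w : Wf P Γ) (h : Lk Γ i A) :
    Fb A Γ.length := (typed_fb (var_wf h w)).2

/-! ### injective renamings -/

theorem up_inj {ρ : ℕ → ℕ} (h : Function.Injective ρ) : Function.Injective (up ρ) := by
  intro i j e
  cases i with
  | zero => cases j with
    | zero => rfl
    | succ j => simp at e
  | succ i => cases j with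
    | zero => simp at e
    | succ j =>
        simp only [up_succ] at e
        rw [h (Nat.succ.inj e)]

theorem ren_inj {ρ : ℕ → ℕ} (h : Function.Injective ρ) {M N : Term S} (e : ren ρ M = ren ρ N) :
    M = N := by
  induction M generalizing ρ N with
  | var i =>
      cases N with
      | var j =>
          simp only [ren_var] at e
          injection e with e
          rw [h e]
      | _ => cases e
  | sort s =>
      cases N with
      | sort t => simpa using e
      | _ => cases e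
  | app M1 M2 h1 h2 =>
      cases N with
      | app N1 N2 =>
          simp only [ren_app] at e
          injection e with e1 e2
          rw [h1 h e1, h2 h e2]
      | _ => cases e
  | lam M1 M2 h1 h2 =>
      cases N with
      | lam N1 N2 =>
          simp only [ren_lam] at e
          injection e with e1 e2
          rw [h1 h e1, h2 (up_inj h) e2]
      | _ => cases e
  | pi M1 M2 h1 h2 =>
      cases N with
      | pi N1 N2 =>
          simp only [ren_pi] at e
          injection e with e1 e2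
          rw [h1 h e1, h2 (up_inj h) e2]
      | _ => cases e

theorem red_ren_inv {M N : Term S} {ρ : ℕ → ℕ} (h : Red (ren ρ M) N) :
    ∃ M', Red M M' ∧ N = ren ρ M' := by
  induction h with
  | refl => exact ⟨M, .refl, rfl⟩
  | tail _ b ih =>
      obtain ⟨M', r, e⟩ := ih
      rw [e] at b
      obtain ⟨M'', b', e'⟩ := beta_ren_inv b
      exact ⟨M'', r.tail b', e'⟩

theorem eq_ren_inv {M N : Term S} {ρ : ℕ → ℕ} (hρ : Function.Injective ρ)
    (h : BetaEq (ren ρ M) (ren ρ N)) : BetaEq M N := by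
  obtain ⟨Q, r, r'⟩ := CR h
  obtain ⟨M', a, e⟩ := red_ren_inv r
  obtain ⟨N', b, e'⟩ := red_ren_inv r'
  have : M' = N' := ren_inj hρ (e.symm.trans e')
  subst this
  exact betaEq_iff.2 ⟨M', a, b⟩

theorem normal_ren {M : Term S} {ρ : ℕ → ℕ} : Normal (ren ρ M) ↔ Normal M := by
  constructor
  · intro h N b
    exact h _ (Beta.ren b ρ)
  · intro h N b
    obtain ⟨M', b', _⟩ := beta_ren_inv b
    exact h _ b'

theorem wn_ren {M : Term S} {ρ : ℕ → ℕ} : WN (ren ρ M) ↔ WN M := by
  constructor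
  · rintro ⟨N, r, n⟩
    obtain ⟨M', r', e⟩ := red_ren_inv r
    subst e
    exact ⟨M', r', normal_ren.1 n⟩
  · rintro ⟨N, r, n⟩
    exact ⟨ren ρ N, Red.ren r ρ, normal_ren.2 n⟩

/-! ### pieces of normal terms -/

theorem normal_app {M N : Term S} (h : Normal (app M N)) :
    Normal M ∧ Normal N ∧ ∀ A B, M ≠ lam A B :=
  ⟨fun _ b => h _ (.appL _ b), fun _ b => h _ (.appR _ b),
    fun A B e => by subst e; exact h _ (Beta.redex A B N)⟩

theorem normal_lam {M N : Term S} (h : Normal (lam M N)) : Normal M ∧ Normal N :=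
  ⟨fun _ b => h _ (.lamA _ b), fun _ b => h _ (.lamM _ b)⟩

theorem normal_pi {M N : Term S} (h : Normal (pi M N)) : Normal M ∧ Normal N :=
  ⟨fun _ b => h _ (.piA _ b), fun _ b => h _ (.piB _ b)⟩

/-! ### strengthening -/

/-- `A` may be the type of something in `Γ` -/
def TyOk (P : Spec S) (Γ : List (Term S)) (A : Term S) : Prop :=
  (∃ s, A = sort s) ∨ ∃ s, Typed P Γ A (sort s)

theorem conv_to {Γ : List (Term S)} {M A B : Term S} (h : Typed P Γ M A) (e : BetaEq A B)
    (hB : TyOk P Γ B) : Typed P Γ M B := by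
  rcases hB with ⟨s, rfl⟩ | ⟨s, hB⟩
  · exact typed_sort_of_eq h e
  · exact .conv h hB e

/-- inference form of strengthening -/
def Inf (P : Spec S) (M : Term S) : Prop :=
  ∀ {ρ : ℕ → ℕ} {Γ Γ' : List (Term S)} {A' : Term S}, Function.Injective ρ → RenOk ρ Γ Γ' →
    Wf P Γ → Fb M Γ.length → Typed P Γ' (ren ρ M) A' →
    ∃ A, Typed P Γ M A ∧ BetaEq A' (ren ρ A)

/-- checking form of strengthening -/
def Chk (P : Spec S) (M : Term S) : Prop :=
  ∀ {ρ : ℕ → ℕ} {Γ Γ' : List (Term S)} {A' A : Term S}, Function.Injective ρ → RenOk ρ Γ Γ' →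
    Wf P Γ → Fb M Γ.length → Typed P Γ' (ren ρ M) A' → TyOk P Γ A → BetaEq A' (ren ρ A) →
    Typed P Γ M A

theorem Inf.chk {M : Term S} (h : Inf P M) : Chk P M := by
  intro ρ Γ Γ' A' A hρ hr w fb ht hA e
  obtain ⟨A0, h0, e0⟩ := h hρ hr w fb ht
  exact conv_to h0 (eq_ren_inv hρ (BetaEq.trans (BetaEq.symm e0) e)) hA

theorem str_aux (M : Term S) : Normal M →
    ((∀ A0 M0, M ≠ lam A0 M0) → Inf P M) ∧ Chk P M := by
  induction M with
  | var i =>
      intro _
      have hI : Inf P (var i : Term S) := by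
        intro ρ Γ Γ' A' hρ hr w fb ht
        obtain ⟨A, hl⟩ := Lk.exists_of_lt (Γ := Γ) fb
        obtain ⟨B, hB, e⟩ := gen_var ht
        have := hB.unique (hr _ _ hl)
        subst this
        exact ⟨A, var_wf hl w, e⟩
      exact ⟨fun _ => hI, hI.chk⟩
  | sort s =>
      intro _
      have hI : Inf P (sort s : Term S) := by
        intro ρ Γ Γ' A' hρ hr w fb ht
        obtain ⟨s', a, e⟩ := gen_sort ht
        exact ⟨sort s', ax_wf w a, e⟩
      exact ⟨fun _ => hI, hI.chk⟩
  | app M1 N ih1 ih2 =>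
      intro hn
      obtain ⟨n1, n2, n3⟩ := normal_app hn
      have hI : Inf P (app M1 N : Term S) := by
        intro ρ Γ Γ' A' hρ hr w fb ht
        obtain ⟨A1, B1, hM, hN, e⟩ := gen_app ht
        obtain ⟨T1, t1, e1⟩ := (ih1 n1).1 n3 hρ hr w fb.1 hM
        obtain ⟨A2, B2, r2, ra, rb⟩ := red_of_eq_pi (BetaEq.symm e1)
        obtain ⟨T2, r3, e3⟩ := red_ren_inv r2
        cases T2 with
        | pi A3 B3 =>
            simp only [ren_pi] at e3
            injection e3 with e4 e5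
            subst e4; subst e5
            have t3 := typed_red_type t1 r3
            obtain ⟨s, hp⟩ := pi_typed t3
            obtain ⟨s₁, s₂, s₃, a, b, c, d⟩ := gen_pi hp
            have hN' := (ih2 n2).2 hρ hr w fb.2 hN (.inr ⟨_, a⟩) (Red.eq ra)
            refine ⟨_, t_appl t3 hN', BetaEq.trans e ?_⟩
            rw [ren_inst]
            exact BetaEq.inst (BetaEq.refl _) (Red.eq rb)
        | _ => cases e3
      exact ⟨fun _ => hI, hI.chk⟩
  | pi E F ih1 ih2 =>
      intro hn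
      obtain ⟨n1, n2⟩ := normal_pi hn
      have hI : Inf P (pi E F : Term S) := by
        intro ρ Γ Γ' A' hρ hr w fb ht
        obtain ⟨s₁, s₂, s₃, a, b, c, d⟩ := gen_pi ht
        have a' := (ih1 n1).2 hρ hr w fb.1 a (.inl ⟨s₁, rfl⟩) (BetaEq.refl _)
        have b' := (ih2 n2).2 (up_inj hρ) (hr.up E) (.cons w a') fb.2 b (.inl ⟨s₂, rfl⟩)
          (BetaEq.refl _)
        exact ⟨sort s₃, .prod a' b' c, d⟩
      exact ⟨fun _ => hI, hI.chk⟩
  | lam E M0 ih1 ih2 =>
      intro hn
      obtain ⟨n1, n2⟩ := normal_lam hn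
      refine ⟨fun h => absurd rfl (h E M0), ?_⟩
      intro ρ Γ Γ' A' A hρ hr w fb ht hA e
      obtain ⟨B', s', hM, hp, e1⟩ := gen_lam ht
      obtain ⟨A2, B2, r2, ra, rb⟩ := red_of_eq_pi (BetaEq.trans (BetaEq.symm e) e1)
      have hA2 : A2 = ren ρ E := normal_red (normal_ren.2 n1) ra
      subst hA2
      obtain ⟨T2, r3, e3⟩ := red_ren_inv r2
      cases T2 with
      | pi A3 B3 =>
          simp only [ren_pi] at e3
          injection e3 with e4 e5
          have hA3 : A3 = E := (ren_inj hρ e4).symm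
          subst hA3; subst e5
          have hAs : ∃ s, Typed P Γ A (sort s) := by
            rcases hA with ⟨s, rfl⟩ | h
            · have := red_sort r3
              cases this
            · exact h
          obtain ⟨s, hAs⟩ := hAs
          have hpi := SR hAs r3
          obtain ⟨s₁, s₂, s₃, a, b, c, d⟩ := gen_pi hpi
          have hM0 := (ih2 n2).2 (up_inj hρ) (hr.up A3) (.cons w a) fb.2 hM (.inr ⟨_, b⟩)
            (Red.eq rb)
          exact .conv (.abs hM0 hpi) hAs (BetaEq.symm (Red.eq r3))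
      | _ => cases e3

/-- strengthening along an injective renaming, checking form -/
theorem str_chk {M : Term S} (hn : Normal M) {ρ : ℕ → ℕ} {Γ Γ' : List (Term S)} {A : Term S}
    (hρ : Function.Injective ρ) (hr : RenOk ρ Γ Γ') (w : Wf P Γ) (fb : Fb M Γ.length)
    (hA : TyOk P Γ A) (h : Typed P Γ' (ren ρ M) (ren ρ A)) : Typed P Γ M A :=
  (str_aux M hn).2 hρ hr w fb h hA (BetaEq.refl _)

/-- strengthening: the sorts of a normal type do not depend on the ambient context -/
theorem str_sort {M : Term S} (hn : Normal M) {ρ : ℕ → ℕ} {Γ Γ' : List (Term S)} {s : S}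
    (hρ : Function.Injective ρ) (hr : RenOk ρ Γ Γ') (w : Wf P Γ) (fb : Fb M Γ.length)
    (h : Typed P Γ' (ren ρ M) (sort s)) : Typed P Γ M (sort s) :=
  str_chk hn hρ hr w fb (.inl ⟨s, rfl⟩) h

/-- strengthening, inference form: for subjects which are not abstractions -/
theorem str_inf {M : Term S} (hn : Normal M) (hl : ∀ A0 M0, M ≠ lam A0 M0) {ρ : ℕ → ℕ}
    {Γ Γ' : List (Term S)} {A' : Term S}
    (hρ : Function.Injective ρ) (hr : RenOk ρ Γ Γ') (w : Wf P Γ) (fb : Fb M Γ.length)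
    (h : Typed P Γ' (ren ρ M) A') : ∃ A, Typed P Γ M A ∧ BetaEq A' (ren ρ A) :=
  (str_aux M hn).1 hl hρ hr w fb h

end Crest.Agent.R298.Str657
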