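import Crest.Agent.R298.TyF_452
import Crest.Agent.R298.Str_657

/-!
R298 (S0452), helper657: STRENGTHENING over function contexts, relative to a set `X` of variables
(so that fresh names, padded contexts, ... are instances): first for normal subjects without any
hypothesis, then for all subjects when the legal terms are weakly normalising.
-/

set_option autoImplicit false

namespace Crest.Agent.R298.StrF657

open Crest.LogicCS.PTS Crest.LogicCS.PTS.Term Relation
open Crest.Agent.R298.Sub452 Crest.Agent.R298.Par452 Crest.Agent.R298.Ty452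
open Crest.Agent.R298.TyF452
open Crest.Agent.R298.Str657 (normal_app normal_lam normal_pi)

universe u
variable {S : Type u} {P : Spec S}

/-! ### free variables in a set -/

/-- the set `X` under a binder -/
def upS (X : Set ℕ) : Set ℕ := {i | i = 0 ∨ ∃ j ∈ X, i = j + 1}

@[simp] theorem zero_mem_upS (X : Set ℕ) : 0 ∈ upS X := Or.inl rfl

@[simp] theorem succ_mem_upS {X : Set ℕ} {i : ℕ} : i + 1 ∈ upS X ↔ i ∈ X := by
  constructor
  · rintro (h | ⟨j, hj, e⟩)
    · cases h
    · cases e; exact hj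
  · intro h; exact Or.inr ⟨i, h, rfl⟩

theorem upS_mono {X Y : Set ℕ} (h : X ⊆ Y) : upS X ⊆ upS Y := by
  intro i hi
  cases i with
  | zero => simp
  | succ i => rw [succ_mem_upS] at hi ⊢; exact h hi

/-- all free variables of the term are in `X` -/
def Fv : Term S → Set ℕ → Prop
  | var i, X => i ∈ X
  | sort _, _ => True
  | app M N, X => Fv M X ∧ Fv N X
  | lam A M, X => Fv A X ∧ Fv M (upS X)
  | pi A B, X => Fv A X ∧ Fv B (upS X)

@[simp] theorem fv_var (i : ℕ) (X : Set ℕ) : Fv (S := S) (var i) X ↔ i ∈ X := Iff.rfl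
@[simp] theorem fv_sort (s : S) (X : Set ℕ) : Fv (sort s) X ↔ True := Iff.rfl
@[simp] theorem fv_app (M N : Term S) (X : Set ℕ) : Fv (app M N) X ↔ Fv M X ∧ Fv N X := Iff.rfl
@[simp] theorem fv_lam (M N : Term S) (X : Set ℕ) :
    Fv (lam M N) X ↔ Fv M X ∧ Fv N (upS X) := Iff.rfl
@[simp] theorem fv_pi (M N : Term S) (X : Set ℕ) :
    Fv (pi M N) X ↔ Fv M X ∧ Fv N (upS X) := Iff.rfl

theorem Fv.mono {M : Term S} {X Y : Set ℕ} (h : Fv M X) (hXY : X ⊆ Y) : Fv M Y := by
  induction M generalizing X Y with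
  | var i => exact hXY h
  | sort s => trivial
  | app M N h1 h2 => exact ⟨h1 h.1 hXY, h2 h.2 hXY⟩
  | lam A M h1 h2 => exact ⟨h1 h.1 hXY, h2 h.2 (upS_mono hXY)⟩
  | pi A M h1 h2 => exact ⟨h1 h.1 hXY, h2 h.2 (upS_mono hXY)⟩

theorem fv_ren {M : Term S} {X Y : Set ℕ} {ρ : ℕ → ℕ} (h : Fv M X) (e : ∀ i ∈ X, ρ i ∈ Y) :
    Fv (ren ρ M) Y := by
  have hup : ∀ {X Y : Set ℕ} {ρ : ℕ → ℕ}, (∀ i ∈ X, ρ i ∈ Y) →
      ∀ i ∈ upS X, up ρ i ∈ upS Y := by
    intro X Y ρ e i hi
    cases i with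
    | zero => simp
    | succ i => rw [succ_mem_upS] at hi; rw [up_succ, succ_mem_upS]; exact e i hi
  induction M generalizing X Y ρ with
  | var i => exact e i h
  | sort s => trivial
  | app M N h1 h2 => exact ⟨h1 h.1 e, h2 h.2 e⟩
  | lam A M h1 h2 => exact ⟨h1 h.1 e, h2 h.2 (hup e)⟩
  | pi A M h1 h2 => exact ⟨h1 h.1 e, h2 h.2 (hup e)⟩

theorem fv_of_ren {M : Term S} {X Y : Set ℕ} {ρ : ℕ → ℕ} (h : Fv (ren ρ M) Y)
    (e : ∀ i, ρ i ∈ Y → i ∈ X) : Fv M X := by
  have hup : ∀ {X Y : Set ℕ} {ρ : ℕ → ℕ}, (∀ i, ρ i ∈ Y → i ∈ X) →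
      ∀ i, up ρ i ∈ upS Y → i ∈ upS X := by
    intro X Y ρ e i hi
    cases i with
    | zero => simp
    | succ i => rw [up_succ, succ_mem_upS] at hi; rw [succ_mem_upS]; exact e i hi
  induction M generalizing X Y ρ with
  | var i => exact e i h
  | sort s => trivial
  | app M N h1 h2 => exact ⟨h1 h.1 e, h2 h.2 e⟩
  | lam A M h1 h2 => exact ⟨h1 h.1 e, h2 h.2 (hup e)⟩
  | pi A M h1 h2 => exact ⟨h1 h.1 e, h2 h.2 (hup e)⟩

theorem fv_wk {M : Term S} {X : Set ℕ} (h : Fv M X) : Fv (wk M) (upS X) :=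
  fv_ren h (fun i hi => by rw [Nat.succ_eq_add_one, succ_mem_upS]; exact hi)

theorem fv_sub {M : Term S} {X Y : Set ℕ} {σ : ℕ → Term S} (h : Fv M X)
    (e : ∀ i ∈ X, Fv (σ i) Y) : Fv (sub σ M) Y := by
  have hup : ∀ {X Y : Set ℕ} {σ : ℕ → Term S}, (∀ i ∈ X, Fv (σ i) Y) →
      ∀ i ∈ upS X, Fv (ups σ i) (upS Y) := by
    intro X Y σ e i hi
    cases i with
    | zero => simp
    | succ i => rw [succ_mem_upS] at hi; exact fv_wk (e i hi)
  induction M generalizing X Y σ with
  | var i => exact e i h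
  | sort s => trivial
  | app M N h1 h2 => exact ⟨h1 h.1 e, h2 h.2 e⟩
  | lam A M h1 h2 => exact ⟨h1 h.1 e, h2 h.2 (hup e)⟩
  | pi A M h1 h2 => exact ⟨h1 h.1 e, h2 h.2 (hup e)⟩

theorem fv_inst {M N : Term S} {X : Set ℕ} (h : Fv M (upS X)) (h' : Fv N X) :
    Fv (inst N M) X := by
  refine fv_sub h (fun i hi => ?_)
  cases i with
  | zero => exact h'
  | succ i => rw [succ_mem_upS] at hi; exact hi

theorem fv_beta {M N : Term S} (b : Beta M N) : ∀ {X : Set ℕ}, Fv M X → Fv N X := by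
  induction b with
  | redex A M N =>
      intro X h
      rw [subst_eq]
      exact fv_inst h.1.2 h.2
  | appL _ _ ih => intro X h; exact ⟨ih h.1, h.2⟩
  | appR _ _ ih => intro X h; exact ⟨h.1, ih h.2⟩
  | lamA _ _ ih => intro X h; exact ⟨ih h.1, h.2⟩
  | lamM _ _ ih => intro X h; exact ⟨h.1, ih h.2⟩
  | piA _ _ ih => intro X h; exact ⟨ih h.1, h.2⟩
  | piB _ _ ih => intro X h; exact ⟨h.1, ih h.2⟩

theorem fv_red {M N : Term S} {X : Set ℕ} (r : Red M N) (h : Fv M X) : Fv N X := by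
  induction r with
  | refl => exact h
  | tail _ b ih => exact fv_beta b ih

theorem fv_univ (M : Term S) : Fv M Set.univ := by
  have e : upS Set.univ = Set.univ := by
    ext i; cases i with
    | zero => simp
    | succ i => simp
  induction M with
  | var i => trivial
  | sort s => trivial
  | app M N h1 h2 => exact ⟨h1, h2⟩
  | lam A M h1 h2 => exact ⟨h1, by rw [e]; exact h2⟩
  | pi A M h1 h2 => exact ⟨h1, by rw [e]; exact h2⟩

theorem ren_congr_on {M : Term S} {X : Set ℕ} {ρ τ : ℕ → ℕ} (h : Fv M X)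
    (e : ∀ i ∈ X, ρ i = τ i) : ren ρ M = ren τ M := by
  have hup : ∀ {X : Set ℕ} {ρ τ : ℕ → ℕ}, (∀ i ∈ X, ρ i = τ i) →
      ∀ i ∈ upS X, up ρ i = up τ i := by
    intro X ρ τ e i hi
    cases i with
    | zero => simp
    | succ i => rw [succ_mem_upS] at hi; simp only [up_succ]; rw [e i hi]
  induction M generalizing X ρ τ with
  | var i => simp only [ren_var]; rw [e i h]
  | sort s => rfl
  | app M N h1 h2 => simp only [ren_app]; rw [h1 h.1 e, h2 h.2 e]
  | lam A M h1 h2 => simp only [ren_lam]; rw [h1 h.1 e, h2 h.2 (hup e)]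
  | pi A M h1 h2 => simp only [ren_pi]; rw [h1 h.1 e, h2 h.2 (hup e)]

theorem sub_congr_on {M : Term S} {X : Set ℕ} {σ τ : ℕ → Term S} (h : Fv M X)
    (e : ∀ i ∈ X, σ i = τ i) : sub σ M = sub τ M := by
  have hup : ∀ {X : Set ℕ} {σ τ : ℕ → Term S}, (∀ i ∈ X, σ i = τ i) →
      ∀ i ∈ upS X, ups σ i = ups τ i := by
    intro X σ τ e i hi
    cases i with
    | zero => simp
    | succ i => rw [succ_mem_upS] at hi; simp only [ups_succ]; rw [e i hi]
  induction M generalizing X σ τ with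
  | var i => simp only [sub_var]; rw [e i h]
  | sort s => rfl
  | app M N h1 h2 => simp only [sub_app]; rw [h1 h.1 e, h2 h.2 e]
  | lam A M h1 h2 => simp only [sub_lam]; rw [h1 h.1 e, h2 h.2 (hup e)]
  | pi A M h1 h2 => simp only [sub_pi]; rw [h1 h.1 e, h2 h.2 (hup e)]

theorem injOn_up {ρ : ℕ → ℕ} {X : Set ℕ} (h : Set.InjOn ρ X) : Set.InjOn (up ρ) (upS X) := by
  intro i hi j hj e
  cases i with
  | zero => cases j with
    | zero => rfl
    | succ j => simp at e
  | succ i => cases j with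
    | zero => simp at e
    | succ j =>
        rw [succ_mem_upS] at hi hj
        simp only [up_succ, Nat.add_right_cancel_iff] at e
        rw [h hi hj e]

theorem ren_inj_on {ρ : ℕ → ℕ} {X : Set ℕ} (h : Set.InjOn ρ X) {M N : Term S} (hM : Fv M X)
    (hN : Fv N X) (e : ren ρ M = ren ρ N) : M = N := by
  induction M generalizing ρ N X with
  | var i =>
      cases N with
      | var j =>
          simp only [ren_var] at e
          injection e with e
          rw [h hM hN e]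
      | _ => cases e
  | sort s =>
      cases N with
      | sort t => simpa using e
      | _ => cases e
  | app M1 M2 h1 h2 =>
      cases N with
      | app N1 N2 =>
          simp only [ren_app] at e
          injection e with e1 e2
          rw [h1 h hM.1 hN.1 e1, h2 h hM.2 hN.2 e2]
      | _ => cases e
  | lam M1 M2 h1 h2 =>
      cases N with
      | lam N1 N2 =>
          simp only [ren_lam] at e
          injection e with e1 e2
          rw [h1 h hM.1 hN.1 e1, h2 (injOn_up h) hM.2 hN.2 e2]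
      | _ => cases e
  | pi M1 M2 h1 h2 =>
      cases N with
      | pi N1 N2 =>
          simp only [ren_pi] at e
          injection e with e1 e2
          rw [h1 h hM.1 hN.1 e1, h2 (injOn_up h) hM.2 hN.2 e2]
      | _ => cases e

theorem eq_ren_inv_on {M N : Term S} {ρ : ℕ → ℕ} {X : Set ℕ} (hρ : Set.InjOn ρ X)
    (hM : Fv M X) (hN : Fv N X) (h : BetaEq (ren ρ M) (ren ρ N)) : BetaEq M N := by
  obtain ⟨Q, r, r'⟩ := CR h
  obtain ⟨M', a, e⟩ := TyF452.red_ren_inv r
  obtain ⟨N', b, e'⟩ := TyF452.red_ren_inv r'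
  have : M' = N' := ren_inj_on hρ (fv_red a hM) (fv_red b hN) (e.symm.trans e')
  subst this
  exact betaEq_iff.2 ⟨M', a, b⟩

/-! ### strengthening -/

/-- `ρ` embeds the part `X` of `D` into `D'` -/
structure RenX (ρ : ℕ → ℕ) (X : Set ℕ) (D D' : ℕ → Term S) : Prop where
  inj : Set.InjOn ρ X
  fv : ∀ i ∈ X, Fv (D i) X
  eq : ∀ i ∈ X, D' (ρ i) = ren ρ (D i)

theorem RenX.up {ρ : ℕ → ℕ} {X : Set ℕ} {D D' : ℕ → Term S} (h : RenX ρ X D D') {A : Term S}
    (hA : Fv A X) : RenX (up ρ) (upS X) (fcons A D) (fcons (ren ρ A) D') := by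
  refine ⟨injOn_up h.inj, ?_, ?_⟩
  · intro i hi
    cases i with
    | zero => exact fv_wk hA
    | succ i => rw [succ_mem_upS] at hi; exact fv_wk (h.fv i hi)
  · intro i hi
    cases i with
    | zero => simp only [up_zero, fcons_zero, ren_up_wk]
    | succ i =>
        rw [succ_mem_upS] at hi
        simp only [up_succ, fcons_succ, ren_up_wk, h.eq i hi]

/-- `A` may be the type of something over `D` -/
def TyOkF (P : Spec S) (D : ℕ → Term S) (A : Term S) : Prop :=
  (∃ s, A = sort s) ∨ ∃ s, TyF P D A (sort s)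

theorem fconv_to {D : ℕ → Term S} {M A B : Term S} (w : WfF P D) (h : TyF P D M A)
    (e : BetaEq A B) (hB : TyOkF P D B) : TyF P D M B := by
  rcases hB with ⟨s, rfl⟩ | ⟨s, hB⟩
  · exact tyf_sort_of_eq w h e
  · exact .conv h hB e

/-- inference form of strengthening -/
def InfF (P : Spec S) (M : Term S) : Prop :=
  ∀ {ρ : ℕ → ℕ} {X : Set ℕ} {D D' : ℕ → Term S} {A' : Term S}, RenX ρ X D D' →
    WfF P D → Fv M X → TyF P D' (ren ρ M) A' →
    ∃ A, TyF P D M A ∧ Fv A X ∧ BetaEq A' (ren ρ A)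

/-- checking form of strengthening -/
def ChkF (P : Spec S) (M : Term S) : Prop :=
  ∀ {ρ : ℕ → ℕ} {X : Set ℕ} {D D' : ℕ → Term S} {A' A : Term S}, RenX ρ X D D' →
    WfF P D → Fv M X → TyF P D' (ren ρ M) A' → TyOkF P D A → Fv A X → BetaEq A' (ren ρ A) →
    TyF P D M A

theorem InfF.chk {M : Term S} (h : InfF P M) : ChkF P M := by
  intro ρ X D D' A' A hr w fv ht hA fA e
  obtain ⟨A0, h0, f0, e0⟩ := h hr w fv ht
  exact fconv_to w h0 (eq_ren_inv_on hr.inj f0 fA (BetaEq.trans (BetaEq.symm e0) e)) hA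

theorem strF_aux (M : Term S) : Normal M →
    ((∀ A0 M0, M ≠ lam A0 M0) → InfF P M) ∧ ChkF P M := by
  induction M with
  | var i =>
      intro _
      have hI : InfF P (var i : Term S) := by
        intro ρ X D D' A' hr w fv ht
        obtain ⟨_, e⟩ := fgen_var ht _ rfl
        rw [hr.eq i fv] at e
        exact ⟨D i, tyf_var w i, hr.fv i fv, e⟩
      exact ⟨fun _ => hI, hI.chk⟩
  | sort s =>
      intro _
      have hI : InfF P (sort s : Term S) := by
        intro ρ X D D' A' hr w fv ht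
        obtain ⟨s', a, e⟩ := fgen_sort ht _ rfl
        exact ⟨sort s', .ax a, trivial, e⟩
      exact ⟨fun _ => hI, hI.chk⟩
  | app M1 N ih1 ih2 =>
      intro hn
      obtain ⟨n1, n2, n3⟩ := normal_app hn
      have hI : InfF P (app M1 N : Term S) := by
        intro ρ X D D' A' hr w fv ht
        obtain ⟨A1, B1, hM, hN, e⟩ := fgen_app ht _ _ rfl
        obtain ⟨T1, t1, f1, e1⟩ := (ih1 n1).1 n3 hr w fv.1 hM
        obtain ⟨A2, B2, r2, ra, rb⟩ := red_of_eq_pi (BetaEq.symm e1)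
        obtain ⟨T2, r3, e3⟩ := TyF452.red_ren_inv r2
        have f3 := fv_red r3 f1
        cases T2 with
        | pi A3 B3 =>
            simp only [ren_pi] at e3
            injection e3 with e4 e5
            subst e4; subst e5
            have t3 := tyf_red_type w t1 r3
            obtain ⟨s, hp⟩ := fpi_typed w t3
            obtain ⟨s₁, s₂, s₃, a, b, c, d⟩ := fgen_pi hp _ _ rfl
            have hN' := (ih2 n2).2 hr w fv.2 hN (.inr ⟨_, a⟩) f3.1 (Red.eq ra)
            refine ⟨_, .appl t3 hN', fv_inst f3.2 fv.2, BetaEq.trans e ?_⟩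
            rw [ren_inst]
            exact BetaEq.inst (BetaEq.refl _) (Red.eq rb)
        | _ => cases e3
      exact ⟨fun _ => hI, hI.chk⟩
  | pi E F ih1 ih2 =>
      intro hn
      obtain ⟨n1, n2⟩ := normal_pi hn
      have hI : InfF P (pi E F : Term S) := by
        intro ρ X D D' A' hr w fv ht
        obtain ⟨s₁, s₂, s₃, a, b, c, d⟩ := fgen_pi ht _ _ rfl
        have a' := (ih1 n1).2 hr w fv.1 a (.inl ⟨s₁, rfl⟩) trivial (BetaEq.refl _)
        have b' := (ih2 n2).2 (hr.up fv.1) (w.cons a') fv.2 b (.inl ⟨s₂, rfl⟩) trivial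
          (BetaEq.refl _)
        exact ⟨sort s₃, .prod a' b' c, trivial, d⟩
      exact ⟨fun _ => hI, hI.chk⟩
  | lam E M0 ih1 ih2 =>
      intro hn
      obtain ⟨n1, n2⟩ := normal_lam hn
      refine ⟨fun h => absurd rfl (h E M0), ?_⟩
      intro ρ X D D' A' A hr w fv ht hA fA e
      obtain ⟨B', s', hM, hp, e1⟩ := fgen_lam ht _ _ rfl
      obtain ⟨A2, B2, r2, ra, rb⟩ := red_of_eq_pi (BetaEq.trans (BetaEq.symm e) e1)
      have hA2 : A2 = ren ρ E := normal_red (TyF452.normal_ren n1 ρ) ra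
      subst hA2
      obtain ⟨T2, r3, e3⟩ := TyF452.red_ren_inv r2
      have f3 := fv_red r3 fA
      cases T2 with
      | pi A3 B3 =>
          simp only [ren_pi] at e3
          injection e3 with e4 e5
          have hA3 : A3 = E := (ren_inj_on hr.inj fv.1 f3.1 e4).symm
          subst hA3; subst e5
          have hAs : ∃ s, TyF P D A (sort s) := by
            rcases hA with ⟨s, rfl⟩ | h
            · have := red_sort r3
              cases this
            · exact h
          obtain ⟨s, hAs⟩ := hAs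
          have hpi := FSR w hAs r3
          obtain ⟨s₁, s₂, s₃, a, b, c, d⟩ := fgen_pi hpi _ _ rfl
          have hM0 := (ih2 n2).2 (hr.up fv.1) (w.cons a) fv.2 hM (.inr ⟨_, b⟩) f3.2
            (Red.eq rb)
          exact .conv (.abs hM0 hpi) hAs (BetaEq.symm (Red.eq r3))
      | _ => cases e3

/-- strengthening for normal subjects, checking form -/
theorem strF_chk {M : Term S} (hn : Normal M) {ρ : ℕ → ℕ} {X : Set ℕ} {D D' : ℕ → Term S}
    {A : Term S} (hr : RenX ρ X D D') (w : WfF P D) (fv : Fv M X) (hA : TyOkF P D A)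
    (fA : Fv A X) (h : TyF P D' (ren ρ M) (ren ρ A)) : TyF P D M A :=
  (strF_aux M hn).2 hr w fv h hA fA (BetaEq.refl _)

/-- strengthening for normal types -/
theorem strF_sort {M : Term S} (hn : Normal M) {ρ : ℕ → ℕ} {X : Set ℕ} {D D' : ℕ → Term S}
    {s : S} (hr : RenX ρ X D D') (w : WfF P D) (fv : Fv M X)
    (h : TyF P D' (ren ρ M) (sort s)) : TyF P D M (sort s) :=
  strF_chk hn hr w fv (.inl ⟨s, rfl⟩) trivial h

/-- strengthening, inference form: for normal subjects which are not abstractions -/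
theorem strF_inf {M : Term S} (hn : Normal M) (hl : ∀ A0 M0, M ≠ lam A0 M0) {ρ : ℕ → ℕ}
    {X : Set ℕ} {D D' : ℕ → Term S} {A' : Term S} (hr : RenX ρ X D D') (w : WfF P D)
    (fv : Fv M X) (h : TyF P D' (ren ρ M) A') :
    ∃ A, TyF P D M A ∧ Fv A X ∧ BetaEq A' (ren ρ A) :=
  (strF_aux M hn).1 hl hr w fv h

/-- STRENGTHENING for all subjects, when the legal terms are weakly normalising -/
theorem strF (hP : ∀ (Γ : List (Term S)) (M : Term S), Legal P Γ M → WN M) (M : Term S) :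
    ∀ {ρ : ℕ → ℕ} {X : Set ℕ} {D D' : ℕ → Term S} {A' : Term S}, RenX ρ X D D' →
      Good P D → WfF P D' → Fv M X → TyF P D' (ren ρ M) A' →
      ∃ A, TyF P D M A ∧ Fv A X ∧ BetaEq A' (ren ρ A) := by
  induction M with
  | var i =>
      intro ρ X D D' A' hr g _ fv ht
      obtain ⟨_, e⟩ := fgen_var ht _ rfl
      rw [hr.eq i fv] at e
      exact ⟨D i, tyf_var g.wf i, hr.fv i fv, e⟩
  | sort s =>
      intro ρ X D D' A' hr g _ fv ht
      obtain ⟨s', a, e⟩ := fgen_sort ht _ rfl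
      exact ⟨sort s', .ax a, trivial, e⟩
  | app M1 N ih1 ih2 =>
      intro ρ X D D' A' hr g w' fv ht
      obtain ⟨A1, B1, hM, hN, e⟩ := fgen_app ht _ _ rfl
      obtain ⟨T1, t1, f1, e1⟩ := ih1 hr g w' fv.1 hM
      obtain ⟨A2, B2, r2, ra, rb⟩ := red_of_eq_pi (BetaEq.symm e1)
      obtain ⟨T2, r3, e3⟩ := TyF452.red_ren_inv r2
      have f3 := fv_red r3 f1
      cases T2 with
      | pi A3 B3 =>
          simp only [ren_pi] at e3
          injection e3 with e4 e5
          subst e4; subst e5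
          have t3 := tyf_red_type g.wf t1 r3
          obtain ⟨s, hp⟩ := fpi_typed g.wf t3
          obtain ⟨s₁, s₂, s₃, a, b, c, d⟩ := fgen_pi hp _ _ rfl
          obtain ⟨A4, t4, f4, e4⟩ := ih2 hr g w' fv.2 hN
          have e5 : BetaEq A4 A3 := eq_ren_inv_on hr.inj f4 f3.1
            (BetaEq.trans (BetaEq.symm e4) (Red.eq ra))
          refine ⟨_, .appl t3 (.conv t4 a e5), fv_inst f3.2 fv.2, BetaEq.trans e ?_⟩
          rw [ren_inst]
          exact BetaEq.inst (BetaEq.refl _) (Red.eq rb)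
      | _ => cases e3
  | pi E F ih1 ih2 =>
      intro ρ X D D' A' hr g w' fv ht
      obtain ⟨s₁, s₂, s₃, a, b, c, d⟩ := fgen_pi ht _ _ rfl
      obtain ⟨A1, t1, f1, e1⟩ := ih1 hr g w' fv.1 a
      have a' : TyF P D E (sort s₁) := tyf_sort_of_eq g.wf t1
        (eq_ren_inv_on (N := sort s₁) hr.inj f1 trivial (BetaEq.symm e1))
      obtain ⟨A2, t2, f2, e2⟩ := ih2 (hr.up fv.1) (g.cons a') (w'.cons a) fv.2 b
      have b' : TyF P (fcons E D) F (sort s₂) := tyf_sort_of_eq (g.wf.cons a') t2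
        (eq_ren_inv_on (N := sort s₂) (hr.up fv.1).inj f2 trivial (BetaEq.symm e2))
      exact ⟨sort s₃, .prod a' b' c, trivial, d⟩
  | lam E M0 ih1 ih2 =>
      intro ρ X D D' A' hr g w' fv ht
      obtain ⟨B', s', hM, hp, e1⟩ := fgen_lam ht _ _ rfl
      obtain ⟨t₁, t₂, t₃, hE, _, _, _⟩ := fgen_pi hp _ _ rfl
      obtain ⟨A1, u1, f1, e2⟩ := ih1 hr g w' fv.1 hE
      have a' : TyF P D E (sort t₁) := tyf_sort_of_eq g.wf u1
        (eq_ren_inv_on (N := sort t₁) hr.inj f1 trivial (BetaEq.symm e2))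
      obtain ⟨B1, u2, f2, e3⟩ := ih2 (hr.up fv.1) (g.cons a') (w'.cons hE) fv.2 hM
      obtain ⟨B2, r2, nB2⟩ := ((g.cons a').wn hP u2).2
      have u3 := tyf_red_type (g.cons a').wf u2 r2
      have f3 := fv_red r2 f2
      have e4 : BetaEq B' (ren (up ρ) B2) := BetaEq.trans e3 (Red.eq (Red.ren r2 _))
      have r4 : Red B' (ren (up ρ) B2) := red_of_eq_normal e4 (TyF452.normal_ren nB2 _)
      have hp2 := FSR w' hp (Red.pi (.refl : Red (ren ρ E) (ren ρ E)) r4)
      obtain ⟨s₁, s₂, s₃, a2, b2, c2, d2⟩ := fgen_pi hp2 _ _ rfl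
      obtain ⟨A3, u4, f4, e5⟩ := ih1 hr g w' fv.1 a2
      have a3 : TyF P D E (sort s₁) := tyf_sort_of_eq g.wf u4
        (eq_ren_inv_on (N := sort s₁) hr.inj f4 trivial (BetaEq.symm e5))
      have b3 : TyF P (fcons E D) B2 (sort s₂) :=
        strF_sort nB2 (hr.up fv.1) (g.wf.cons a3) f3 b2
      refine ⟨pi E B2, .abs u3 (.prod a3 b3 c2), ⟨fv.1, f3⟩, BetaEq.trans e1 ?_⟩
      exact BetaEq.pi (BetaEq.refl _) e4

/-- strengthening along a globally injective renaming -/
theorem strF_ren (hP : ∀ (Γ : List (Term S)) (M : Term S), Legal P Γ M → WN M) {M : Term S}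
    {ρ : ℕ → ℕ} {D D' : ℕ → Term S} {A' : Term S} (hρ : Function.Injective ρ)
    (hr : RenF ρ D D') (g : Good P D) (w' : WfF P D') (ht : TyF P D' (ren ρ M) A') :
    ∃ A, TyF P D M A ∧ BetaEq A' (ren ρ A) := by
  obtain ⟨A, a, _, b⟩ := strF hP M (X := Set.univ)
    ⟨fun i _ j _ e => hρ e, fun i _ => fv_univ _, fun i _ => hr i⟩ g w' (fv_univ _) ht
  exact ⟨A, a, b⟩

/-- strengthening for types, all subjects -/
theorem strF_ty (hP : ∀ (Γ : List (Term S)) (M : Term S), Legal P Γ M → WN M) {M : Term S}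
    {ρ : ℕ → ℕ} {X : Set ℕ} {D D' : ℕ → Term S} {A : Term S} (hr : RenX ρ X D D')
    (g : Good P D) (w' : WfF P D') (fv : Fv M X) (hA : TyOkF P D A) (fA : Fv A X)
    (ht : TyF P D' (ren ρ M) (ren ρ A)) : TyF P D M A := by
  obtain ⟨A0, a, f, b⟩ := strF hP M hr g w' fv ht
  exact fconv_to g.wf a (BetaEq.symm (eq_ren_inv_on hr.inj fA f b)) hA

end Crest.Agent.R298.StrF657
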