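import Crest.Agent.R298.World_657
import Crest.Agent.R298.StrF_657

/-!
R298 (S0452), helper657: the WORLD over function contexts: `exists_world`, lists inside the world,
embedding of every well formed list context by an injective renaming, fresh names.
-/

set_option autoImplicit false

namespace Crest.Agent.R298.World657

open Crest.LogicCS.PTS Crest.LogicCS.PTS.Term Relation
open Crest.Agent.R298.Sub452 Crest.Agent.R298.Par452 Crest.Agent.R298.Ty452
open Crest.Agent.R298.TyF452 Crest.Agent.R298.StrF657
open Crest.Agent.R298.Str657 (Fb exists_fb ren_congr fb_ren typed_fb lk_fb)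

universe u
variable {S : Type u} {P : Spec S}

/-! ### `Fb` and `Fv` -/

theorem upS_lt (n : ℕ) : upS {i | i < n} = {i | i < n + 1} := by
  ext i
  cases i with
  | zero => simp
  | succ i => simp

theorem fb_iff_fv {M : Term S} {n : ℕ} : Fb M n ↔ Fv M {i | i < n} := by
  induction M generalizing n with
  | var i => exact Iff.rfl
  | sort s => exact Iff.rfl
  | app M N h1 h2 => exact and_congr h1 h2
  | lam A M h1 h2 => exact and_congr h1 (by rw [upS_lt]; exact h2)
  | pi A M h1 h2 => exact and_congr h1 (by rw [upS_lt]; exact h2)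

/-! ### an injective extension of `rv n` -/

/-- the involution exchanging names and indices below `n`, the identity above -/
def rw' (n i : ℕ) : ℕ := if i < n then n - 1 - i else i

theorem rw'_inj (n : ℕ) : Function.Injective (rw' n) := by
  intro i j h
  unfold rw' at h
  split_ifs at h <;> omega

theorem rw'_eq {n i : ℕ} (h : i < n) : rw' n i = rv n i := by simp [rw', rv, h]

theorem ren_rw' {M : Term S} {n : ℕ} (h : Fb M n) : ren (rw' n) M = ren (rv n) M :=
  ren_congr h (fun _ hi => rw'_eq hi)

/-! ### from the list form to function contexts -/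

theorem WD.tyf {D : ℕ → Term S} (h : WD P D) {n : ℕ} {M A : Term S} (t : At P D n M A) :
    TyF P D M A := by
  have := typed_tyf t.ty (D := D) (ρ := rv n) (fun i B hl => by
    obtain ⟨hi, rfl⟩ := lk_lst_inv (fun n => (h n).1) hl
    rw [ren_rv_rv]
    exact ((h _).1).mono (le_of_lt (rv_lt hi)))
  rwa [ren_rv_rv t.fm, ren_rv_rv t.fa] at this

theorem WD.wff {D : ℕ → Term S} (h : WD P D) : WfF P D := by
  intro n
  obtain ⟨f, s, hs⟩ := h n
  exact ⟨s, h.tyf (n := n) ⟨f, trivial, hs⟩⟩

theorem WD.good {D : ℕ → Term S} (h : WD P D) : Good P D := by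
  refine ⟨h.wff, fun n => ⟨lst D n, rw' n, h.wf n, rw'_inj n, fun i hi => ?_⟩⟩
  rw [rw'_eq hi, ren_rw' (((h i).1).mono (le_of_lt hi))]
  exact lk_lst (fun n => (h n).1) hi

/-- a typed term over the world lives over all sufficiently long lists -/
theorem WD.ev {D : ℕ → Term S} (h : WD P D) {M A : Term S} (t : TyF P D M A) :
    ∃ n₀, ∀ n, n₀ ≤ n → At P D n M A := by
  obtain ⟨n₀, h₀⟩ := tyf_fin t
  obtain ⟨n₁, h₁⟩ := exists_fb M
  obtain ⟨n₂, h₂⟩ := exists_fb A
  refine ⟨max n₀ (max n₁ n₂), fun n hn => ?_⟩
  have l0 : n₀ ≤ n := le_trans (le_max_left _ _) hn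
  have l1 : n₁ ≤ n := le_trans (le_trans (le_max_left _ _) (le_max_right _ _)) hn
  have l2 : n₂ ≤ n := le_trans (le_trans (le_max_right _ _) (le_max_right _ _)) hn
  refine ⟨h₁.mono l1, h₂.mono l2, ?_⟩
  exact h₀ (lst D n) (rv n) (h.wf n)
    (fun i hi => lk_lst (fun n => (h n).1) (lt_of_lt_of_le hi l0))

theorem WD.tyf_iff {D : ℕ → Term S} (h : WD P D) {M A : Term S} :
    TyF P D M A ↔ ∃ n, At P D n M A :=
  ⟨fun t => by obtain ⟨n, hn⟩ := h.ev t; exact ⟨n, hn n le_rfl⟩, fun ⟨_, t⟩ => h.tyf t⟩

/-- a WORLD: a good function context with types in level form, in which every legal type has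
arbitrarily late names -/
structure World (P : Spec S) (D : ℕ → Term S) : Prop where
  good : Good P D
  lev : ∀ k, Fb (D k) k
  lst : WD P D
  full : ∀ (A : Term S) (s : S), TyF P D A (sort s) → ∀ m, ∃ k, m ≤ k ∧ D k = A

/-- EXISTENCE OF THE WORLD -/
theorem exists_world (P : Spec S) [Countable S] (h0 : ∃ s t, P.ax s t) :
    ∃ D : ℕ → Term S, World P D := by
  obtain ⟨D, hD, hF⟩ := exists_wlist P h0
  refine ⟨D, hD.good, fun k => (hD k).1, hD, ?_⟩
  intro A s t m
  obtain ⟨n, hn⟩ := hD.ev t
  obtain ⟨k, h1, _, h3⟩ := hF A s n (hn n le_rfl) m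
  exact ⟨k, h1, h3⟩

/-- some axiom is used in every derivation -/
theorem exists_ax {Γ : List (Term S)} {M A : Term S} (h : Typed P Γ M A) : ∃ s t, P.ax s t := by
  induction h with
  | ax a => exact ⟨_, _, a⟩
  | start _ ih => exact ih
  | weak _ _ ih _ => exact ih
  | prod _ _ _ ih _ => exact ih
  | abs _ _ ih _ => exact ih
  | appl _ _ ih _ => exact ih
  | conv _ _ _ ih _ => exact ih

theorem exists_ax_of_legal {Γ : List (Term S)} {M : Term S} (h : Legal P Γ M) :
    ∃ s t, P.ax s t := by
  obtain ⟨N, h | h⟩ := h
  · exact exists_ax h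
  · exact exists_ax h

/-- a name of type `A` that does not occur in finitely many given terms -/
theorem World.fresh {D : ℕ → Term S} (w : World P D) {A : Term S} {s : S}
    (h : TyF P D A (sort s)) (m : ℕ) : ∃ k, m ≤ k ∧ D k = A ∧ TyF P D (var k) A := by
  obtain ⟨k, h1, h2⟩ := w.full A s h m
  refine ⟨k, h1, h2, ?_⟩
  have := tyf_var w.good.wf k
  rwa [h2] at this

theorem exists_bound (n : ℕ) (ρ : ℕ → ℕ) : ∃ m, ∀ i, i < n → ρ i < m := by
  induction n with
  | zero => exact ⟨0, fun i hi => by omega⟩
  | succ n ih =>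
      obtain ⟨m, hm⟩ := ih
      refine ⟨max m (ρ n + 1), fun i hi => ?_⟩
      rcases Nat.lt_succ_iff_lt_or_eq.1 hi with h | rfl
      · exact lt_of_lt_of_le (hm i h) (le_max_left _ _)
      · exact lt_of_lt_of_le (Nat.lt_succ_self _) (le_max_right _ _)

/-- EMBEDDING of a well formed list context into the world by an injective renaming -/
theorem World.embed {D : ℕ → Term S} (w : World P D) {Γ : List (Term S)} (hΓ : Wf P Γ) :
    ∃ ρ : ℕ → ℕ, Function.Injective ρ ∧ ∀ i B, Lk Γ i B → D (ρ i) = ren ρ B := by
  induction hΓ with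
  | nil => exact ⟨fun i => i, fun _ _ h => h, fun i B hl => by cases hl⟩
  | @cons Γ A s hw hA ih =>
      obtain ⟨ρ, hρ, hl⟩ := ih
      have hA' : TyF P D (ren ρ A) (sort s) := typed_tyf hA hl
      obtain ⟨m, hm⟩ := exists_bound Γ.length ρ
      obtain ⟨k, hk, e⟩ := w.full _ _ hA' m
      let τ : ℕ → ℕ := fun i => if i = 0 then k else
        if i ≤ Γ.length then ρ (i - 1) else k + i
      have τ0 : τ 0 = k := by simp [τ]
      have τs : ∀ i, i < Γ.length → τ (i + 1) = ρ i := by
        intro i hi
        have h1 : i + 1 ≤ Γ.length := hi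
        simp [τ, h1]
      have τc : ∀ {M : Term S}, Fb M Γ.length → ren τ (wk M) = ren ρ M := by
        intro M hM
        rw [wk, ren_ren]
        exact ren_congr hM (fun i hi => τs i hi)
      refine ⟨τ, ?_, ?_⟩
      · intro i j h
        by_cases hi : i = 0
        · by_cases hj : j = 0
          · rw [hi, hj]
          · subst hi
            by_cases hj' : j ≤ Γ.length
            · have := hm (j - 1) (by omega)
              simp only [τ, hj, hj', if_true, if_false] at h
              omega
            · simp only [τ, hj, hj', if_true, if_false] at h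
              omega
        · by_cases hi' : i ≤ Γ.length
          · have h1 := hm (i - 1) (by omega)
            by_cases hj : j = 0
            · subst hj
              simp only [τ, hi, hi', if_true, if_false] at h
              omega
            · by_cases hj' : j ≤ Γ.length
              · simp only [τ, hi, hi', hj, hj', if_true, if_false] at h
                have := hρ h
                omega
              · simp only [τ, hi, hi', hj, hj', if_true, if_false] at h
                omega
          · by_cases hj : j = 0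
            · subst hj
              simp only [τ, hi, hi', if_true, if_false] at h
              omega
            · by_cases hj' : j ≤ Γ.length
              · have h1 := hm (j - 1) (by omega)
                simp only [τ, hi, hi', hj, hj', if_true, if_false] at h
                omega
              · simp only [τ, hi, hi', hj, hj', if_false] at h
                omega
      · intro i B hlk
        cases hlk with
        | zero _ _ =>
            have hfA : Fb A Γ.length := (typed_fb hA).1
            rw [τc hfA, τ0, e]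
        | @succ _ i B _ hlk =>
            rw [τc (lk_fb hw hlk), τs i hlk.lt]
            exact hl _ _ hlk

/-- every typed judgment lives in the world -/
theorem World.embed_typed {D : ℕ → Term S} (w : World P D) {Γ : List (Term S)} {M A : Term S}
    (h : Typed P Γ M A) : ∃ ρ : ℕ → ℕ, Function.Injective ρ ∧
      TyF P D (ren ρ M) (ren ρ A) := by
  obtain ⟨ρ, hρ, hl⟩ := w.embed (twf h)
  exact ⟨ρ, hρ, typed_tyf h hl⟩

/-- a world is a typed substitution target for every list context -/
theorem World.embed_legal {D : ℕ → Term S} (w : World P D) {Γ : List (Term S)} {M : Term S}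
    (h : Legal P Γ M) : ∃ (ρ : ℕ → ℕ) (N : Term S), Function.Injective ρ ∧
      (TyF P D (ren ρ M) N ∨ TyF P D N (ren ρ M)) := by
  obtain ⟨N, h | h⟩ := h
  · obtain ⟨ρ, hρ, t⟩ := w.embed_typed h
    exact ⟨ρ, _, hρ, .inl t⟩
  · obtain ⟨ρ, hρ, t⟩ := w.embed_typed h
    exact ⟨ρ, _, hρ, .inr t⟩

/-! ### fresh names -/

/-- the renaming `0 ↦ k`, `i + 1 ↦ i` -/
def nm (k : ℕ) : ℕ → ℕ
  | 0 => k
  | i + 1 => i

@[simp] theorem nm_zero (k : ℕ) : nm k 0 = k := rfl
@[simp] theorem nm_succ (k i : ℕ) : nm k (i + 1) = i := rfl

theorem inst_var (k : ℕ) (M : Term S) : inst (var k) M = ren (nm k) M := by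
  rw [ren_eq_sub]
  show sub _ M = _
  congr 1
  funext i
  cases i with
  | zero => rfl
  | succ i => rfl

/-- the variables of a term under one binder whose names are below `k` -/
def below (k : ℕ) : Set ℕ := {i | i < k + 1}

theorem renX_nm {D : ℕ → Term S} (lev : ∀ k, Fb (D k) k) {k : ℕ} {A : Term S} (e : D k = A) :
    RenX (nm k) (below k) (fcons A D) D := by
  have hA : Fb A k := e ▸ lev k
  refine ⟨?_, ?_, ?_⟩
  · intro i hi j hj h
    simp only [below, Set.mem_ofPred_eq] at hi hj
    cases i with
    | zero => cases j with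
      | zero => rfl
      | succ j => simp only [nm_zero, nm_succ] at h; omega
    | succ i => cases j with
      | zero => simp only [nm_zero, nm_succ] at h; omega
      | succ j => simp only [nm_succ] at h; omega
  · intro i hi
    simp only [below, Set.mem_ofPred_eq] at hi
    rw [below, ← fb_iff_fv]
    cases i with
    | zero => exact fb_ren hA (fun _ h => Nat.succ_lt_succ h)
    | succ i =>
        exact fb_ren ((lev i).mono (by omega)) (fun _ h => Nat.succ_lt_succ h)
  · intro i hi
    cases i with
    | zero =>
        simp only [nm_zero, fcons_zero, wk, ren_ren, Nat.succ_eq_add_one, nm_succ, ren_id, e]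
    | succ i =>
        simp only [fcons_succ, wk, ren_ren, Nat.succ_eq_add_one, nm_succ, ren_id]

/-- FRESH NAMES, normal types: the sorts of a normal type do not change when the bound variable
is replaced by a name above all names of the type -/
theorem fresh_sort {D : ℕ → Term S} (wD : World P D) {k : ℕ} {A B : Term S} {s : S}
    (e : D k = A) (hn : Normal B) (fb : Fb B (k + 1))
    (h : TyF P D (inst (var k) B) (sort s)) : TyF P (fcons A D) B (sort s) := by
  rw [inst_var] at h
  obtain ⟨t, ht⟩ := wD.good.wf k
  exact strF_sort hn (renX_nm wD.lev e) (wD.good.wf.cons (e ▸ ht)) (fb_iff_fv.1 fb) h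

/-- FRESH NAMES, all subjects and types, under weak normalisation of the legal terms -/
theorem fresh_typed {D : ℕ → Term S} (wD : World P D)
    (hP : ∀ (Γ : List (Term S)) (M : Term S), Legal P Γ M → WN M)
    {k : ℕ} {A M C : Term S} (e : D k = A) (fb : Fb M (k + 1))
    (h : TyF P D (inst (var k) M) C) :
    ∃ B, TyF P (fcons A D) M B ∧ Fb B (k + 1) ∧ BetaEq C (inst (var k) B) := by
  rw [inst_var] at h
  obtain ⟨t, ht⟩ := wD.good.wf k
  obtain ⟨B, hB, f, eB⟩ := strF hP M (renX_nm wD.lev e) (wD.good.cons (e ▸ ht)) wD.good.wf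
    (fb_iff_fv.1 fb) h
  exact ⟨B, hB, fb_iff_fv.2 f, by rw [inst_var]; exact eB⟩

/-- the forward direction -/
theorem fresh_inst {D : ℕ → Term S} {k : ℕ} {A M B : Term S} (e : D k = A)
    (h : TyF P (fcons A D) M B) : TyF P D (inst (var k) M) (inst (var k) B) := by
  rw [inst_var, inst_var]
  refine tyf_ren h (fun i => ?_)
  cases i with
  | zero => simp only [nm_zero, fcons_zero, wk, ren_ren, Nat.succ_eq_add_one, nm_succ, ren_id, e]
  | succ i => simp only [nm_succ, fcons_succ, wk, ren_ren, Nat.succ_eq_add_one, ren_id]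

/-- names below `k` are a substitution target: all names of a term -/
theorem exists_fresh {D : ℕ → Term S} (wD : World P D) {A : Term S} {s : S}
    (h : TyF P D A (sort s)) (Ms : List (Term S)) :
    ∃ k, D k = A ∧ TyF P D (var k) A ∧ Fb A k ∧ ∀ M ∈ Ms, Fb M k := by
  have hb : ∃ m, ∀ M ∈ Ms, Fb M m := by
    induction Ms with
    | nil => exact ⟨0, fun M hM => by simp at hM⟩
    | cons M Ms ih =>
        obtain ⟨m, hm⟩ := ih
        obtain ⟨n, hn⟩ := exists_fb M
        refine ⟨max m n, fun N hN => ?_⟩
        rcases List.mem_cons.1 hN with rfl | hN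
        · exact hn.mono (le_max_right _ _)
        · exact (hm N hN).mono (le_max_left _ _)
  obtain ⟨m, hm⟩ := hb
  obtain ⟨k, h1, h2, h3⟩ := wD.fresh h m
  exact ⟨k, h2, h3, h2 ▸ wD.lev k, fun M hM => (hm M hM).mono h1⟩

end Crest.Agent.R298.World657
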