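import Crest.Agent.R298.MainF_865
import Crest.Agent.R298.WorldF_657
import Crest.Agent.R298.Uniq_452

/-!
R298 (S0452), helper833: insurance (I2), abstract adequacy over function contexts, part 1:
free variables of terms with memory, reduction and renaming, the class of a type,
the sets `Wn` (terms which reduce to a term without redexes of class `< k`) and `Ne`.
-/

set_option autoImplicit false

namespace Crest.Agent.R298.AAI833

open Crest.LogicCS.PTS Relation
open Crest.Agent.R298.Sub452 Crest.Agent.R298.Par452 Crest.Agent.R298.Ty452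
open Crest.Agent.R298.Mem360 Crest.Agent.R298.TyF452 Crest.Agent.R298.TyMF452
open Crest.Agent.R298.Main865 Crest.Agent.R298.StrF657 Crest.Agent.R298.World657
open Crest.Agent.R298.Str657 (Fb)
open Crest.Agent.R298.Mem360.MT (er emb er_emb IsL isL_of_dist dist mren msub mups mwk mscons minst
  er_mren er_msub er_mups er_mscons er_minst mren_mren msub_msub mren_eq_msub exists_dist
  dist_mren msub_mscons msub_mren mren_msub mren_minst)

universe u v
variable {S : Type u} {P : Spec S}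

/-! ### free variables of terms with memory -/

/-- all free variables (also those of the memories) are in `X` -/
def MFv : MT S → Set ℕ → Prop
  | .var i, X => i ∈ X
  | .sort _, _ => True
  | .app M N, X => MFv M X ∧ MFv N X
  | .lam A M, X => MFv A X ∧ MFv M (upS X)
  | .pi A B, X => MFv A X ∧ MFv B (upS X)
  | .mem M N, X => MFv M X ∧ MFv N X

theorem MFv.fv {M : MT S} {X : Set ℕ} (h : MFv M X) : Fv (er M) X := by
  induction M generalizing X with
  | var i => exact h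
  | sort s => trivial
  | app M N h1 h2 => exact ⟨h1 h.1, h2 h.2⟩
  | lam A M h1 h2 => exact ⟨h1 h.1, h2 h.2⟩
  | pi A M h1 h2 => exact ⟨h1 h.1, h2 h.2⟩
  | mem M N h1 h2 => exact h1 h.1

theorem MFv.mono {M : MT S} {X Y : Set ℕ} (h : MFv M X) (hXY : X ⊆ Y) : MFv M Y := by
  induction M generalizing X Y with
  | var i => exact hXY h
  | sort s => trivial
  | app M N h1 h2 => exact ⟨h1 h.1 hXY, h2 h.2 hXY⟩
  | lam A M h1 h2 => exact ⟨h1 h.1 hXY, h2 h.2 (upS_mono hXY)⟩
  | pi A M h1 h2 => exact ⟨h1 h.1 hXY, h2 h.2 (upS_mono hXY)⟩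
  | mem M N h1 h2 => exact ⟨h1 h.1 hXY, h2 h.2 hXY⟩

theorem mfv_ren {M : MT S} {X Y : Set ℕ} {ρ : ℕ → ℕ} (h : MFv M X) (e : ∀ i ∈ X, ρ i ∈ Y) :
    MFv (mren ρ M) Y := by
  have hup : ∀ {X Y : Set ℕ} {ρ : ℕ → ℕ}, (∀ i ∈ X, ρ i ∈ Y) →
      ∀ i ∈ upS X, up ρ i ∈ upS Y := by
    intro X Y ρ e i hi
    cases i with
    | zero => simp
    | succ i => rw [succ_mem_upS] at hi; rw [up_succ, succ_mem_upS]; exact e i hi
  induction M generalizing X Y ρ with
  | var i => exact e i h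
  | sort s => trivial
  | app M N h1 h2 => exact ⟨h1 h.1 e, h2 h.2 e⟩
  | lam A M h1 h2 => exact ⟨h1 h.1 e, h2 h.2 (hup e)⟩
  | pi A M h1 h2 => exact ⟨h1 h.1 e, h2 h.2 (hup e)⟩
  | mem M N h1 h2 => exact ⟨h1 h.1 e, h2 h.2 e⟩

theorem mfv_sub {M : MT S} {X Y : Set ℕ} {σ : ℕ → MT S} (h : MFv M X)
    (e : ∀ i ∈ X, MFv (σ i) Y) : MFv (msub σ M) Y := by
  have hup : ∀ {X Y : Set ℕ} {σ : ℕ → MT S}, (∀ i ∈ X, MFv (σ i) Y) →
      ∀ i ∈ upS X, MFv (mups σ i) (upS Y) := by
    intro X Y σ e i hi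
    cases i with
    | zero => exact zero_mem_upS _
    | succ i =>
        rw [succ_mem_upS] at hi
        exact mfv_ren (e i hi) (fun j hj => by rw [Nat.succ_eq_add_one, succ_mem_upS]; exact hj)
  induction M generalizing X Y σ with
  | var i => exact e i h
  | sort s => trivial
  | app M N h1 h2 => exact ⟨h1 h.1 e, h2 h.2 e⟩
  | lam A M h1 h2 => exact ⟨h1 h.1 e, h2 h.2 (hup e)⟩
  | pi A M h1 h2 => exact ⟨h1 h.1 e, h2 h.2 (hup e)⟩
  | mem M N h1 h2 => exact ⟨h1 h.1 e, h2 h.2 e⟩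

theorem mfv_minst {M N : MT S} {X : Set ℕ} (h : MFv M (upS X)) (h' : MFv N X) :
    MFv (minst N M) X := by
  refine mfv_sub h (fun i hi => ?_)
  cases i with
  | zero => exact h'
  | succ i => rw [succ_mem_upS] at hi; exact hi

theorem mfv_dist {F Q R : MT S} {X : Set ℕ} (hF : MFv F X) (hQ : MFv Q X)
    (h : dist F Q = some R) : MFv R X := by
  induction F generalizing R with
  | lam A M _ _ =>
      simp only [MT.dist, Option.some.injEq] at h
      subst h
      exact ⟨⟨mfv_minst hF.2 hQ, hQ⟩, hF.1⟩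
  | mem M N ih _ =>
      simp only [MT.dist, Option.map_eq_some_iff] at h
      obtain ⟨R', h, rfl⟩ := h
      exact ⟨ih hF.1 h, hF.2⟩
  | var i => cases h
  | sort i => cases h
  | app _ _ => cases h
  | pi _ _ => cases h

theorem mfv_step {M N : MT S} (b : MStep M N) : ∀ {X : Set ℕ}, MFv M X → MFv N X := by
  induction b with
  | beta h => intro X hM; exact mfv_dist hM.1 hM.2 h
  | appL _ _ ih => intro X h; exact ⟨ih h.1, h.2⟩
  | appR _ _ ih => intro X h; exact ⟨h.1, ih h.2⟩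
  | lamA _ _ ih => intro X h; exact ⟨ih h.1, h.2⟩
  | lamM _ _ ih => intro X h; exact ⟨h.1, ih h.2⟩
  | piA _ _ ih => intro X h; exact ⟨ih h.1, h.2⟩
  | piB _ _ ih => intro X h; exact ⟨h.1, ih h.2⟩
  | memP _ _ ih => intro X h; exact ⟨ih h.1, h.2⟩
  | memN _ _ ih => intro X h; exact ⟨h.1, ih h.2⟩

theorem mfv_red {M N : MT S} {X : Set ℕ} (r : MRed M N) (h : MFv M X) : MFv N X := by
  induction r with
  | refl => exact h
  | tail _ b ih => exact mfv_step b ih

theorem exists_mfv (M : MT S) : ∃ m, ∀ n, m ≤ n → MFv M {i | i < n} := by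
  induction M with
  | var i => exact ⟨i + 1, fun n hn => hn⟩
  | sort s => exact ⟨0, fun _ _ => trivial⟩
  | app M N h1 h2 =>
      obtain ⟨m1, h1⟩ := h1
      obtain ⟨m2, h2⟩ := h2
      exact ⟨max m1 m2, fun n hn => ⟨h1 n (le_trans (le_max_left _ _) hn),
        h2 n (le_trans (le_max_right _ _) hn)⟩⟩
  | lam M N h1 h2 =>
      obtain ⟨m1, h1⟩ := h1
      obtain ⟨m2, h2⟩ := h2
      refine ⟨max m1 m2, fun n hn => ⟨h1 n (le_trans (le_max_left _ _) hn), ?_⟩⟩
      rw [upS_lt]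
      exact h2 (n + 1) (le_trans (le_trans (le_max_right _ _) hn) (Nat.le_succ _))
  | pi M N h1 h2 =>
      obtain ⟨m1, h1⟩ := h1
      obtain ⟨m2, h2⟩ := h2
      refine ⟨max m1 m2, fun n hn => ⟨h1 n (le_trans (le_max_left _ _) hn), ?_⟩⟩
      rw [upS_lt]
      exact h2 (n + 1) (le_trans (le_trans (le_max_right _ _) hn) (Nat.le_succ _))
  | mem M N h1 h2 =>
      obtain ⟨m1, h1⟩ := h1
      obtain ⟨m2, h2⟩ := h2
      exact ⟨max m1 m2, fun n hn => ⟨h1 n (le_trans (le_max_left _ _) hn),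
        h2 n (le_trans (le_max_right _ _) hn)⟩⟩

/-! ### reduction and renaming -/

theorem isL_mren {F : MT S} {ρ : ℕ → ℕ} : IsL (mren ρ F) ↔ IsL F := by
  induction F with
  | mem F N ih _ => exact ih
  | var i => exact Iff.rfl
  | sort i => exact Iff.rfl
  | app _ _ => exact Iff.rfl
  | lam _ _ => exact Iff.rfl
  | pi _ _ => exact Iff.rfl

theorem mstep_ren_inv {M : MT S} : ∀ {ρ : ℕ → ℕ} {N : MT S}, MStep (mren ρ M) N →
    ∃ M', MStep M M' ∧ N = mren ρ M' := by
  induction M with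
  | var i => intro ρ N h; cases h
  | sort s => intro ρ N h; cases h
  | app M Q h1 h2 =>
      intro ρ N h
      rw [MT.mren_app] at h
      cases h with
      | beta h =>
          obtain ⟨R, hR⟩ := exists_dist (isL_mren.1 (isL_of_dist h)) Q
          have := dist_mren hR ρ
          rw [h] at this
          injection this with this
          exact ⟨R, .beta hR, this⟩
      | appL _ h =>
          obtain ⟨M', b, rfl⟩ := h1 h
          exact ⟨_, .appL _ b, rfl⟩
      | appR _ h =>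
          obtain ⟨M', b, rfl⟩ := h2 h
          exact ⟨_, .appR _ b, rfl⟩
  | lam A M h1 h2 =>
      intro ρ N h
      rw [MT.mren_lam] at h
      cases h with
      | lamA _ h =>
          obtain ⟨M', b, rfl⟩ := h1 h
          exact ⟨_, .lamA _ b, rfl⟩
      | lamM _ h =>
          obtain ⟨M', b, rfl⟩ := h2 h
          exact ⟨_, .lamM _ b, rfl⟩
  | pi A M h1 h2 =>
      intro ρ N h
      rw [MT.mren_pi] at h
      cases h with
      | piA _ h =>
          obtain ⟨M', b, rfl⟩ := h1 h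
          exact ⟨_, .piA _ b, rfl⟩
      | piB _ h =>
          obtain ⟨M', b, rfl⟩ := h2 h
          exact ⟨_, .piB _ b, rfl⟩
  | mem A M h1 h2 =>
      intro ρ N h
      rw [MT.mren_mem] at h
      cases h with
      | memP _ h =>
          obtain ⟨M', b, rfl⟩ := h1 h
          exact ⟨_, .memP _ b, rfl⟩
      | memN _ h =>
          obtain ⟨M', b, rfl⟩ := h2 h
          exact ⟨_, .memN _ b, rfl⟩

theorem mred_ren_inv {M N : MT S} {ρ : ℕ → ℕ} (h : MRed (mren ρ M) N) :
    ∃ M', MRed M M' ∧ N = mren ρ M' := by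
  generalize hK : mren ρ M = K at h
  induction h with
  | refl => exact ⟨M, .refl, hK.symm⟩
  | tail _ b ih =>
      obtain ⟨M', r, rfl⟩ := ih
      obtain ⟨M'', b', rfl⟩ := mstep_ren_inv b
      exact ⟨M'', r.tail b', rfl⟩

/-! ### retyping: the types of a term with memory are those of its erasure -/

theorem retype {M : MT S} : ∀ {D : ℕ → Term S} {A T : Term S}, WfF P D → TMF P D M A →
    TyF P D (er M) T → TMF P D M T := by
  induction M with
  | var i =>
      intro D A T w h h'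
      obtain ⟨⟨s, hs⟩, e⟩ := fgen_var h' i rfl
      rcases ftype_correct w h' with ⟨t, rfl⟩ | ⟨t, ht⟩
      · exact tmf_red_type w (TMF.var hs) (red_of_eq_sort (BetaEq.symm e))
      · exact .conv (TMF.var hs) (BetaEq.symm e) ht
  | sort s =>
      intro D A T w h h'
      obtain ⟨t, a, e⟩ := fgen_sort h' s rfl
      rcases ftype_correct w h' with ⟨t', rfl⟩ | ⟨t', ht⟩
      · have := sort_inj e
        subst this
        exact .sort a
      · exact .conv (.sort a) (BetaEq.symm e) ht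
  | app M N ih1 ih2 =>
      intro D A T w h h'
      obtain ⟨A1, B1, h1, h2, e⟩ := fgen_app h' _ _ rfl
      obtain ⟨A2, B2, h3, h4, e'⟩ := tmf_gen_app h _ _ rfl
      have k := TMF.app (ih1 w h3 h1) (ih2 w h4 h2)
      rcases ftype_correct w h' with ⟨t', rfl⟩ | ⟨t', ht⟩
      · exact tmf_red_type w k (red_of_eq_sort (BetaEq.symm e))
      · exact .conv k (BetaEq.symm e) ht
  | lam A0 M ih1 ih2 =>
      intro D A T w h h'
      obtain ⟨B1, s1, h1, h2, e⟩ := fgen_lam h' _ _ rfl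
      obtain ⟨B2, a, c, h3, h4, h5, e'⟩ := tmf_gen_lam h _ _ rfl
      have k := TMF.lam h3 (ih2 (w.cons h3.typed) h4 h1) h2
      rcases ftype_correct w h' with ⟨t', rfl⟩ | ⟨t', ht⟩
      · exact absurd e not_sort_pi
      · exact .conv k (BetaEq.symm e) ht
  | pi A0 M ih1 ih2 =>
      intro D A T w h h'
      obtain ⟨a, b, c, h1, h2, r, e⟩ := fgen_pi h' _ _ rfl
      obtain ⟨a', b', c', h3, h4, r', e'⟩ := tmf_gen_pi h _ _ rfl
      have k := TMF.pi (ih1 w h3 h1) (ih2 (w.cons h3.typed) h4 h2) r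
      rcases ftype_correct w h' with ⟨t', rfl⟩ | ⟨t', ht⟩
      · have := sort_inj e
        subst this
        exact k
      · exact .conv k (BetaEq.symm e) ht
  | mem M N ih1 ih2 =>
      intro D A T w h h'
      obtain ⟨h1, B, h2⟩ := tmf_gen_mem h _ _ rfl
      exact .mem (ih1 w h1 h') h2

/-! ### classes -/

/-- `T` has a sort of index at least `k` -/
def Ge (P : Spec S) (idx : S → ℕ) (k : ℕ) (D : ℕ → Term S) (T : Term S) : Prop :=
  ∃ s, SigF P D T s ∧ k ≤ idx s

variable {idx : S → ℕ} {k : ℕ}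

theorem Ge.conv {D : ℕ → Term S} {T T' : Term S} (h : Ge P idx k D T) (e : BetaEq T' T) :
    Ge P idx k D T' := by
  obtain ⟨s, ⟨T0, e0, h0⟩, hk⟩ := h
  exact ⟨s, ⟨T0, BetaEq.trans e e0, h0⟩, hk⟩

theorem Ge.of {D : ℕ → Term S} {T : Term S} {s : S} (h : TyF P D T (.sort s)) (hk : k ≤ idx s) :
    Ge P idx k D T := ⟨s, ⟨T, .refl _, h⟩, hk⟩

theorem Ge.mono {D : ℕ → Term S} {T : Term S} {j : ℕ} (h : Ge P idx k D T) (hj : j ≤ k) :
    Ge P idx j D T := by
  obtain ⟨s, h, hk⟩ := h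
  exact ⟨s, h, hj.trans hk⟩

theorem Ge.sub {D D' : ℕ → Term S} {T : Term S} {σ : ℕ → Term S} (h : Ge P idx k D T)
    (hs : SubF P σ D D') : Ge P idx k D' (sub σ T) := by
  obtain ⟨s, ⟨T0, e0, h0⟩, hk⟩ := h
  exact ⟨s, ⟨_, BetaEq.sub e0 σ, tyf_sub h0 hs⟩, hk⟩

theorem Ge.ren {D D' : ℕ → Term S} {T : Term S} {ρ : ℕ → ℕ} (h : Ge P idx k D T)
    (hs : RenF ρ D D') : Ge P idx k D' (ren ρ T) := by
  obtain ⟨s, ⟨T0, e0, h0⟩, hk⟩ := h
  exact ⟨s, ⟨_, BetaEq.ren e0 ρ, tyf_ren h0 hs⟩, hk⟩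

theorem Ge.inst {D : ℕ → Term S} (w : WfF P D) {A B N : Term S} (h : Ge P idx k (fcons A D) B)
    (hN : TyF P D N A) : Ge P idx k D (inst N B) :=
  h.sub ((SubF.var w).scons (by rwa [sub_id]))

/-- the components of a product of class `≥ k` have class `≥ k` -/
theorem Ge.pi_inv (hrk : ∀ a b c, P.rule a b c → idx c ≤ idx a ∧ idx c ≤ idx b)
    {D : ℕ → Term S} (w : WfF P D) {A B : Term S} {s : S} (hA : TyF P D A (.sort s))
    (h : Ge P idx k D (.pi A B)) : Ge P idx k D A ∧ Ge P idx k (fcons A D) B := by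
  obtain ⟨c, ⟨T0, e0, h0⟩, hk⟩ := h
  obtain ⟨K, r1, r2⟩ := betaEq_iff.1 e0
  obtain ⟨A', B', rfl, rA, rB⟩ := red_pi r1
  have h1 := FSR w h0 r2
  obtain ⟨a, b, c', ha, hb, ru, e⟩ := fgen_pi h1 _ _ rfl
  have hc : c = c' := sort_inj e
  subst hc
  obtain ⟨h3, h4⟩ := hrk _ _ _ ru
  refine ⟨⟨a, ⟨A', rA.eq, ha⟩, hk.trans h3⟩, b, ⟨B', rB.eq, ?_⟩, hk.trans h4⟩
  exact fctx_conv w hb ha hA (BetaEq.symm rA.eq)

end Crest.Agent.R298.AAI833
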