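import Crest.Agent.R298.AAI1_833

/-!
R298 (S0452), helper833: insurance (I2), abstract adequacy over function contexts, part 2:
the sets `Wn` and `Ne`, reflection of `NFF` through renamings (strengthening), binders.
-/

set_option autoImplicit false

namespace Crest.Agent.R298.AAI833

open Crest.LogicCS.PTS Relation
open Crest.Agent.R298.Sub452 Crest.Agent.R298.Par452 Crest.Agent.R298.Ty452
open Crest.Agent.R298.Mem360 Crest.Agent.R298.TyF452 Crest.Agent.R298.TyMF452
open Crest.Agent.R298.Main865 Crest.Agent.R298.StrF657 Crest.Agent.R298.World657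
open Crest.Agent.R298.Str657 (Fb)
open Crest.Agent.R298.Mem360.MT (er emb er_emb IsL isL_of_dist dist mren msub mups mwk mscons minst
  er_mren er_msub er_mups er_mscons er_minst mren_mren msub_msub mren_eq_msub exists_dist
  dist_mren msub_mscons msub_mren mren_msub mren_minst)

universe u v
variable {S : Type u} {P : Spec S} {idx : S → ℕ} {k : ℕ}

/-! ### `NFF` under conversion of contexts and renaming -/

/-- contexts with the same typings and convertible declarations give the same `NFF` -/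
theorem NFF.ctx {M : MT S} : ∀ {D D' : ℕ → Term S}, (∀ i, BetaEq (D i) (D' i)) → WfF P D →
    WfF P D' → (∀ {K C : Term S}, TyF P D K C → TyF P D' K C) → NFF P idx k D M →
    (∃ A, TMF P D M A) → NFF P idx k D' M := by
  induction M with
  | var i => intro _ _ _ _ _ _ _ _; trivial
  | sort s => intro _ _ _ _ _ _ _ _; trivial
  | app F Q ihF ihQ =>
      intro D D' e w w' ht ⟨h1, h2, h3⟩ ⟨A, hA⟩
      obtain ⟨A1, B1, hF, hQ, -⟩ := tmf_gen_app hA _ _ rfl
      refine ⟨ihF e w w' ht h1 ⟨_, hF⟩, ihQ e w w' ht h2 ⟨_, hQ⟩, fun hl => ?_⟩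
      obtain ⟨T, s, hT, ⟨T', e', hs⟩, hk⟩ := h3 hl
      exact ⟨T, s, ht hT, ⟨T', e', ht hs⟩, hk⟩
  | lam A0 M ihA ihM =>
      intro D D' e w w' ht ⟨h1, h2⟩ ⟨A, hA⟩
      obtain ⟨B, a, c, h3, h4, -, -⟩ := tmf_gen_lam hA _ _ rfl
      refine ⟨ihA e w w' ht h1 ⟨_, h3⟩, ihM ?_ (w.cons h3.typed) (w'.cons (ht h3.typed)) ?_ h2
        ⟨_, h4⟩⟩
      · intro i
        cases i with
        | zero => exact .refl _
        | succ i => exact BetaEq.ren (e i) _
      · intro K C hK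
        have hs : SubF P Term.var (fcons (er A0) D) (fcons (er A0) D') := by
          intro i
          rw [sub_id]
          cases i with
          | zero => exact tyf_var (w'.cons (ht h3.typed)) 0
          | succ i =>
              obtain ⟨s, hs⟩ := w i
              refine .conv (tyf_wk (tyf_var w' i) _) (tyf_wk (ht hs) _) ?_
              exact BetaEq.symm (BetaEq.ren (e i) _)
        have := tyf_sub hK hs
        rwa [sub_id, sub_id] at this
  | pi A0 M ihA ihM =>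
      intro D D' e w w' ht ⟨h1, h2⟩ ⟨A, hA⟩
      obtain ⟨a, b, c, h3, h4, -, -⟩ := tmf_gen_pi hA _ _ rfl
      refine ⟨ihA e w w' ht h1 ⟨_, h3⟩, ihM ?_ (w.cons h3.typed) (w'.cons (ht h3.typed)) ?_ h2
        ⟨_, h4⟩⟩
      · intro i
        cases i with
        | zero => exact .refl _
        | succ i => exact BetaEq.ren (e i) _
      · intro K C hK
        have hs : SubF P Term.var (fcons (er A0) D) (fcons (er A0) D') := by
          intro i
          rw [sub_id]
          cases i with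
          | zero => exact tyf_var (w'.cons (ht h3.typed)) 0
          | succ i =>
              obtain ⟨s, hs⟩ := w i
              refine .conv (tyf_wk (tyf_var w' i) _) (tyf_wk (ht hs) _) ?_
              exact BetaEq.symm (BetaEq.ren (e i) _)
        have := tyf_sub hK hs
        rwa [sub_id, sub_id] at this
  | mem M N ihM ihN =>
      intro D D' e w w' ht ⟨h1, h2⟩ ⟨A, hA⟩
      obtain ⟨h3, B, h4⟩ := tmf_gen_mem hA _ _ rfl
      exact ⟨ihM e w w' ht h1 ⟨_, h3⟩, ihN e w w' ht h2 ⟨_, h4⟩⟩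

/-- conversion of the last declaration -/
theorem NFF.cconv {D : ℕ → Term S} {A A' : Term S} {s s' : S} {M : MT S} {C : Term S}
    (w : WfF P D) (hA : TyF P D A (.sort s)) (hA' : TyF P D A' (.sort s')) (e : BetaEq A A')
    (h : NFF P idx k (fcons A D) M) (hM : TMF P (fcons A D) M C) :
    NFF P idx k (fcons A' D) M := by
  refine NFF.ctx ?_ (w.cons hA) (w.cons hA') (fun hK => fctx_conv w hK hA hA' e) h ⟨_, hM⟩
  intro i
  cases i with
  | zero => exact BetaEq.ren e _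
  | succ i => exact .refl _

theorem sigF_of_ren (hP : ∀ (Γ : List (Term S)) (M : Term S), Legal P Γ M → WN M)
    {ρ : ℕ → ℕ} {X : Set ℕ} {D D' : ℕ → Term S} {A K : Term S} {s : S} (hr : RenX ρ X D D')
    (g : Good P D) (w' : WfF P D') (hK : TyF P D K A) (fA : Fv A X)
    (h : SigF P D' (ren ρ A) s) : SigF P D A s := by
  obtain ⟨T', e', hs⟩ := h
  obtain ⟨N, r, hn⟩ := (g.wn hP hK).2
  have e1 : BetaEq T' (ren ρ N) := BetaEq.trans (BetaEq.symm e') (BetaEq.ren (Red.eq r) ρ)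
  have hN : TyF P D' (ren ρ N) (.sort s) := by
    obtain ⟨Q, r1, r2⟩ := betaEq_iff.1 e1
    have hq : Q = ren ρ N := normal_red (TyF452.normal_ren hn ρ) r2
    subst hq
    exact FSR w' hs r1
  exact ⟨N, Red.eq r, strF_sort hn hr g.wf (fv_red r fA) hN⟩

/-- reflection of `NFF` through a renaming which is injective on the free variables -/
theorem NFF.of_ren (hP : ∀ (Γ : List (Term S)) (M : Term S), Legal P Γ M → WN M) {M : MT S} :
    ∀ {ρ : ℕ → ℕ} {X : Set ℕ} {D D' : ℕ → Term S}, RenX ρ X D D' → RenF ρ D D' → Good P D →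
      WfF P D' → MFv M X → (∃ A, TMF P D M A) → NFF P idx k D' (mren ρ M) → NFF P idx k D M := by
  induction M with
  | var i => intro _ _ _ _ _ _ _ _ _ _ _; trivial
  | sort s => intro _ _ _ _ _ _ _ _ _ _ _; trivial
  | app F Q ihF ihQ =>
      intro ρ X D D' hr hf g w' fv ⟨A, hA⟩ h
      rw [MT.mren_app] at h
      obtain ⟨h1, h2, h3⟩ := h
      obtain ⟨A1, B1, hF, hQ, -⟩ := tmf_gen_app hA _ _ rfl
      refine ⟨ihF hr hf g w' fv.1 ⟨_, hF⟩ h1, ihQ hr hf g w' fv.2 ⟨_, hQ⟩ h2, fun hl => ?_⟩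
      obtain ⟨T, s, hT, hs, hk⟩ := h3 (isL_mren.2 hl)
      rw [er_mren] at hT
      obtain ⟨A0, h0, f0, e0⟩ := strF hP (er F) hr g w' fv.1.fv hT
      refine ⟨A0, s, h0, sigF_of_ren hP hr g w' h0 f0 ?_, hk⟩
      obtain ⟨T', e', hs⟩ := hs
      exact ⟨T', BetaEq.trans (BetaEq.symm e0) e', hs⟩
  | lam A0 M ihA ihM =>
      intro ρ X D D' hr hf g w' fv ⟨A, hA⟩ h
      rw [MT.mren_lam] at h
      obtain ⟨h1, h2⟩ := h
      obtain ⟨B, a, c, h3, h4, -, -⟩ := tmf_gen_lam hA _ _ rfl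
      refine ⟨ihA hr hf g w' fv.1 ⟨_, h3⟩ h1, ihM (hr.up fv.1.fv) (hf.up _) (g.cons h3.typed) ?_
        fv.2 ⟨_, h4⟩ ?_⟩
      · exact w'.cons (tyf_ren h3.typed hf)
      · rw [er_mren] at h2; exact h2
  | pi A0 M ihA ihM =>
      intro ρ X D D' hr hf g w' fv ⟨A, hA⟩ h
      rw [MT.mren_pi] at h
      obtain ⟨h1, h2⟩ := h
      obtain ⟨a, b, c, h3, h4, -, -⟩ := tmf_gen_pi hA _ _ rfl
      refine ⟨ihA hr hf g w' fv.1 ⟨_, h3⟩ h1, ihM (hr.up fv.1.fv) (hf.up _) (g.cons h3.typed) ?_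
        fv.2 ⟨_, h4⟩ ?_⟩
      · exact w'.cons (tyf_ren h3.typed hf)
      · rw [er_mren] at h2; exact h2
  | mem M N ihM ihN =>
      intro ρ X D D' hr hf g w' fv ⟨A, hA⟩ h
      rw [MT.mren_mem] at h
      obtain ⟨h1, h2⟩ := h
      obtain ⟨h3, B, h4⟩ := tmf_gen_mem hA _ _ rfl
      exact ⟨ihM hr hf g w' fv.1 ⟨_, h3⟩ h1, ihN hr hf g w' fv.2 ⟨_, h4⟩ h2⟩

/-! ### the sets `Wn` and `Ne` -/

/-- `M` reduces to a term all of whose redexes have class `≥ k` -/
def Wn (P : Spec S) (idx : S → ℕ) (k : ℕ) (D : ℕ → Term S) (M : MT S) : Prop :=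
  ∃ M', MRed M M' ∧ NFF P idx k D M'

theorem Wn.exp {D : ℕ → Term S} {M N : MT S} (r : MRed M N) (h : Wn P idx k D N) :
    Wn P idx k D M := by
  obtain ⟨N', r', h'⟩ := h
  exact ⟨N', r.trans r', h'⟩

theorem Wn.mem {D : ℕ → Term S} {M N : MT S} (h : Wn P idx k D M) (h' : Wn P idx k D N) :
    Wn P idx k D (.mem M N) := by
  obtain ⟨M', r, h⟩ := h
  obtain ⟨N', r', h'⟩ := h'
  exact ⟨_, MRed.mem r r', h, h'⟩

theorem Wn.var (D : ℕ → Term S) (i : ℕ) : Wn P idx k D (.var i) := ⟨_, .refl, trivial⟩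

theorem Wn.sort (D : ℕ → Term S) (s : S) : Wn P idx k D (.sort s) := ⟨_, .refl, trivial⟩

/-- application of a function with a type of class `≥ k` -/
theorem Wn.app_ge {D : ℕ → Term S} (w : WfF P D) {F Q : MT S} {T : Term S}
    (h : Wn P idx k D F) (h' : Wn P idx k D Q) (hF : TMF P D F T) (hT : Ge P idx k D T) :
    Wn P idx k D (.app F Q) := by
  obtain ⟨F', r, h⟩ := h
  obtain ⟨Q', r', h'⟩ := h'
  refine ⟨_, MRed.app r r', h, h', fun _ => ?_⟩
  obtain ⟨s, hs, hk⟩ := hT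
  exact ⟨T, s, (tmf_SR w hF r).typed, hs, hk⟩

/-- neutral terms -/
inductive Ne (P : Spec S) (idx : S → ℕ) (k : ℕ) (D : ℕ → Term S) : MT S → Prop
  | var (i : ℕ) : Ne P idx k D (.var i)
  | app {F Q : MT S} : Ne P idx k D F → Wn P idx k D Q → Ne P idx k D (.app F Q)
  | mem {M N : MT S} : Ne P idx k D M → Wn P idx k D N → Ne P idx k D (.mem M N)

theorem Ne.aux {D : ℕ → Term S} {M : MT S} (h : Ne P idx k D M) :
    ∃ M', MRed M M' ∧ NFF P idx k D M' ∧ ¬ IsL M' := by
  induction h with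
  | var i => exact ⟨_, .refl, trivial, fun h => h⟩
  | app _ hQ ih =>
      obtain ⟨F', r, h, hl⟩ := ih
      obtain ⟨Q', r', h'⟩ := hQ
      exact ⟨_, MRed.app r r', ⟨h, h', fun h => absurd h hl⟩, fun h => h⟩
  | mem _ hQ ih =>
      obtain ⟨F', r, h, hl⟩ := ih
      obtain ⟨Q', r', h'⟩ := hQ
      exact ⟨_, MRed.mem r r', ⟨h, h'⟩, hl⟩

theorem Ne.wn {D : ℕ → Term S} {M : MT S} (h : Ne P idx k D M) : Wn P idx k D M := by
  obtain ⟨M', r, h, _⟩ := h.aux
  exact ⟨M', r, h⟩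

/-! ### binders -/

theorem Wn.lam {D : ℕ → Term S} {A M : MT S} {s : S} {B : Term S} (w : WfF P D)
    (h : Wn P idx k D A) (hA : TMF P D A (.sort s)) (h' : Wn P idx k (fcons (er A) D) M)
    (hM : TMF P (fcons (er A) D) M B) : Wn P idx k D (.lam A M) := by
  obtain ⟨A', r, h⟩ := h
  obtain ⟨M', r', h'⟩ := h'
  have hA' := tmf_SR w hA r
  refine ⟨_, MRed.lam r r', h, ?_⟩
  exact NFF.cconv w hA.typed hA'.typed (er_red r).eq h' (tmf_SR (w.cons hA.typed) hM r')

theorem Wn.pi {D : ℕ → Term S} {A M : MT S} {s : S} {B : Term S} (w : WfF P D)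
    (h : Wn P idx k D A) (hA : TMF P D A (.sort s)) (h' : Wn P idx k (fcons (er A) D) M)
    (hM : TMF P (fcons (er A) D) M B) : Wn P idx k D (.pi A M) := by
  obtain ⟨A', r, h⟩ := h
  obtain ⟨M', r', h'⟩ := h'
  have hA' := tmf_SR w hA r
  refine ⟨_, MRed.pi r r', h, ?_⟩
  exact NFF.cconv w hA.typed hA'.typed (er_red r).eq h' (tmf_SR (w.cons hA.typed) hM r')

theorem minst_var (k : ℕ) (M : MT S) : minst (.var k) M = mren (nm k) M := by
  rw [mren_eq_msub]
  show msub _ M = _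
  congr 1
  funext i
  cases i with
  | zero => rfl
  | succ i => rfl

theorem renF_nm {D : ℕ → Term S} {k : ℕ} {A : Term S} (e : D k = A) :
    RenF (nm k) (fcons A D) D := by
  intro i
  cases i with
  | zero => simp only [nm_zero, fcons_zero, wk, ren_ren, Nat.succ_eq_add_one, nm_succ, ren_id, e]
  | succ i => simp only [nm_succ, fcons_succ, wk, ren_ren, Nat.succ_eq_add_one, ren_id]

/-- abstraction of a fresh name -/
theorem Wn.bind (hP : ∀ (Γ : List (Term S)) (M : Term S), Legal P Γ M → WN M)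
    {D : ℕ → Term S} (wD : World P D) {n : ℕ} {A B : Term S} {s : S} {M : MT S} (e : D n = A)
    (hA : TyF P D A (.sort s)) (hM : TMF P (fcons A D) M B) (fv : MFv M {i | i < n + 1})
    (h : Wn P idx k D (minst (.var n) M)) : Wn P idx k (fcons A D) M := by
  obtain ⟨M', r, h⟩ := h
  rw [minst_var] at r
  obtain ⟨M'', r', rfl⟩ := mred_ren_inv r
  refine ⟨M'', r', ?_⟩
  exact NFF.of_ren hP (renX_nm wD.lev e) (renF_nm e) (wD.good.cons hA) wD.good.wf
    (mfv_red r' fv) ⟨_, tmf_SR (wD.good.wf.cons hA) hM r'⟩ h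

end Crest.Agent.R298.AAI833
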