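import Crest.Agent.R298.AAI2_833

/-!
R298 (S0452), helper833: insurance (I2), abstract adequacy over ONE WORLD `D0`, part 3:
the structure `WStage` (R0)-(R8), Lemma U, the fundamental lemma and `wniW_of_stage`.
-/

set_option autoImplicit false

namespace Crest.Agent.R298.AAI833

open Crest.LogicCS.PTS Relation
open Crest.Agent.R298.Sub452 Crest.Agent.R298.Par452 Crest.Agent.R298.Ty452
open Crest.Agent.R298.Mem360 Crest.Agent.R298.TyF452 Crest.Agent.R298.TyMF452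
open Crest.Agent.R298.Main865 Crest.Agent.R298.StrF657 Crest.Agent.R298.World657
open Crest.Agent.R298.Uniq452 (FS funiq)
open Crest.Agent.R298.Str657 (Fb)
open Crest.Agent.R298.Mem360.MT (er emb er_emb IsL isL_of_dist dist mren msub mups mwk mscons minst
  er_mren er_msub er_mups er_mscons er_minst mren_mren msub_msub mren_eq_msub exists_dist
  dist_mren msub_mscons msub_mren mren_msub mren_minst)

universe u v w
variable {S : Type u} {P : Spec S} {idx : S → ℕ} {i : ℕ}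

/-- the erased substitution -/
abbrev es (σ : ℕ → MT S) : ℕ → Term S := fun x => er (σ x)

/-- weak normalisation of stage `i` in the world `D0` -/
def WNiW (P : Spec S) (idx : S → ℕ) (i : ℕ) (D0 : ℕ → Term S) : Prop :=
  ∀ (M : MT S) (A : Term S), TMF P D0 M A → NFF P idx i D0 M →
    ∃ M', MRed M M' ∧ NFF P idx (i + 1) D0 M'

/-- a stage model at level `i` in the world `D0` -/
structure WStage (P : Spec S) (idx : S → ℕ) (i : ℕ) (D0 : ℕ → Term S) where
  /-- environments -/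
  Env : Type w
  /-- substitution -/
  sb : Env → ℕ → MT S
  /-- `Ok G ρ`: `ρ` is an environment for the source context `G` -/
  Ok : (ℕ → Term S) → Env → Prop
  /-- `Ext G A ρ ρ'`: `ρ'` extends `ρ` by an admissible value for a variable of type `A` -/
  Ext : (ℕ → Term S) → Term S → Env → Env → Prop
  /-- realizers -/
  R : (ℕ → Term S) → Env → Term S → MT S → Prop
  msb : ∀ {G ρ}, Good P G → Ok G ρ → MSubF P (sb ρ) G D0
  ext_ok : ∀ {G A s ρ ρ'}, Good P G → Ok G ρ → TyF P G A (.sort s) → Ext G A ρ ρ' →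
    Ok (fcons A G) ρ'
  ext_sb : ∀ {G A s ρ ρ'}, Good P G → Ok G ρ → TyF P G A (.sort s) → Ext G A ρ ρ' →
    ∀ x, sb ρ' (x + 1) = sb ρ x
  /-- realizers are weakly normalising -/
  R_W : ∀ {G ρ T v}, Good P G → Ok G ρ → TyOkF P G T → Ge P idx i G T → R G ρ T v →
    Wn P idx (i + 1) D0 v
  /-- neutral terms are realizers -/
  R_ne : ∀ {G ρ T v}, Good P G → Ok G ρ → TyOkF P G T → Ge P idx i G T →
    TMF P D0 v (sub (es (sb ρ)) T) → Ne P idx (i + 1) D0 v → R G ρ T v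
  /-- head expansion -/
  R_beta : ∀ {G ρ T F Q v}, Good P G → Ok G ρ → TyOkF P G T → Ge P idx i G T →
    TMF P D0 (.app F Q) (sub (es (sb ρ)) T) → dist F Q = some v → R G ρ T v →
    R G ρ T (.app F Q)
  /-- memory -/
  R_mem : ∀ {G ρ T v n B}, Good P G → Ok G ρ → TyOkF P G T → Ge P idx i G T →
    TMF P D0 n B → Wn P idx (i + 1) D0 n → R G ρ T v → R G ρ T (.mem v n)
  /-- conversion of the type -/
  R_conv : ∀ {G ρ T T' v}, Good P G → Ok G ρ → TyOkF P G T → TyOkF P G T' → Ge P idx i G T →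
    BetaEq T T' → R G ρ T v → R G ρ T' v
  /-- types which are high at run time -/
  R_high : ∀ {G ρ T v}, Good P G → Ok G ρ → TyOkF P G T → Ge P idx i G T →
    Ge P idx (i + 1) D0 (sub (es (sb ρ)) T) → TMF P D0 v (sub (es (sb ρ)) T) →
    Wn P idx (i + 1) D0 v → R G ρ T v
  /-- sorts -/
  R_sort : ∀ {G ρ s v}, Good P G → Ok G ρ → Ge P idx i G (.sort s) →
    TMF P D0 v (.sort s) → Wn P idx (i + 1) D0 v → R G ρ (.sort s) v
  /-- products, introduction -/
  R_pi : ∀ {G ρ A B s v}, Good P G → Ok G ρ → TyF P G (.pi A B) (.sort s) →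
    Ge P idx i G (.pi A B) → ¬ Ge P idx (i + 1) D0 (sub (es (sb ρ)) (.pi A B)) →
    TMF P D0 v (sub (es (sb ρ)) (.pi A B)) → Wn P idx (i + 1) D0 v →
    (∀ ρ', Ext G A ρ ρ' → R (fcons A G) ρ' B (.app v (sb ρ' 0))) → R G ρ (.pi A B) v
  /-- products, elimination -/
  R_app : ∀ {G ρ A B s v ρ'}, Good P G → Ok G ρ → TyF P G (.pi A B) (.sort s) →
    Ge P idx i G (.pi A B) → ¬ Ge P idx (i + 1) D0 (sub (es (sb ρ)) (.pi A B)) →
    R G ρ (.pi A B) v → Ext G A ρ ρ' → R (fcons A G) ρ' B (.app v (sb ρ' 0))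
  /-- instances: the semantic content -/
  R_inst : ∀ {G ρ A B s} {N : MT S}, Good P G → Ok G ρ → TyF P G (.pi A B) (.sort s) →
    Ge P idx i G (.pi A B) → ¬ Ge P idx (i + 1) D0 (sub (es (sb ρ)) (.pi A B)) →
    TMF P G N A → R G ρ A (msub (sb ρ) N) →
    ∃ ρ', Ext G A ρ ρ' ∧ sb ρ' 0 = msub (sb ρ) N ∧
      ∀ v, TMF P D0 v (sub (es (sb ρ)) (inst (er N) B)) → R (fcons A G) ρ' B v →
        R G ρ (inst (er N) B) v
  /-- fresh variables, one term at a time -/
  fresh : ∀ {G ρ A s}, Good P G → Ok G ρ → TyF P G A (.sort s) → ∀ M : MT S,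
    (∃ B, TMF P (fcons A G) M B) → ∃ ρ', Ok (fcons A G) ρ' ∧
      (Wn P idx (i + 1) D0 (msub (sb ρ') M) →
        Wn P idx (i + 1) (fcons (sub (es (sb ρ)) A) D0) (msub (mups (sb ρ)) M))
  /-- variables -/
  var_R : ∀ {G ρ x}, Good P G → Ok G ρ → Ge P idx i G (G x) → R G ρ (G x) (sb ρ x)
  var_Ne : ∀ {G ρ x}, Good P G → Ok G ρ → ¬ Ge P idx i G (G x) →
    Ne P idx (i + 1) D0 (sb ρ x)
  /-- the identity environment, one term at a time -/
  ident : ∀ M : MT S, (∃ A, TMF P D0 M A) → ∃ ρ, Ok D0 ρ ∧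
    (Wn P idx (i + 1) D0 (msub (sb ρ) M) → Wn P idx (i + 1) D0 M)

/-- the side condition on the index -/
def Mono (P : Spec S) (idx : S → ℕ) : Prop :=
  ∀ a b c, P.rule a b c → idx c ≤ idx a ∧ idx c ≤ idx b

theorem tyOk_of {D : ℕ → Term S} {T : Term S} {s : S} (h : TyF P D T (.sort s)) :
    TyOkF P D T := .inr ⟨s, h⟩

theorem tyOk_red {D : ℕ → Term S} {T T' : Term S} (w : WfF P D) (h : TyOkF P D T)
    (r : Red T T') : TyOkF P D T' := by
  rcases h with ⟨s, rfl⟩ | ⟨s, h⟩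
  · rw [red_sort r]; exact .inl ⟨s, rfl⟩
  · exact .inr ⟨s, FSR w h r⟩

theorem tmf_to {D : ℕ → Term S} {M : MT S} {A B : Term S} (w : WfF P D) (h : TMF P D M A)
    (e : BetaEq A B) (hB : TyOkF P D B) : TMF P D M B := by
  rcases hB with ⟨s, rfl⟩ | ⟨s, hB⟩
  · exact tmf_sort_of_eq w h e
  · exact .conv h e hB

variable {D0 : ℕ → Term S}

section

variable (St : WStage.{u, w} P idx i D0)

theorem es_ext {G : ℕ → Term S} {A : Term S} {s : S} {ρ ρ' : St.Env} (g : Good P G)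
    (h : St.Ok G ρ) (hA : TyF P G A (.sort s)) (he : St.Ext G A ρ ρ') :
    es (St.sb ρ') = scons (er (St.sb ρ' 0)) (es (St.sb ρ)) := by
  funext x
  cases x with
  | zero => rfl
  | succ x => show er _ = er _; rw [St.ext_sb g h hA he]

theorem sub_ext {G : ℕ → Term S} {A B : Term S} {s : S} {ρ ρ' : St.Env} (g : Good P G)
    (h : St.Ok G ρ) (hA : TyF P G A (.sort s)) (he : St.Ext G A ρ ρ') :
    sub (es (St.sb ρ')) B = inst (er (St.sb ρ' 0)) (sub (ups (es (St.sb ρ))) B) := by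
  rw [es_ext St g h hA he, sub_scons]

theorem tmf_ext_zero {G : ℕ → Term S} {A : Term S} {s : S} {ρ ρ' : St.Env} (g : Good P G)
    (h : St.Ok G ρ) (hA : TyF P G A (.sort s)) (he : St.Ext G A ρ ρ') :
    TMF P D0 (St.sb ρ' 0) (sub (es (St.sb ρ)) A) := by
  have := St.msb (g.cons hA) (St.ext_ok g h hA he) 0
  rw [fcons_zero] at this
  have e : sub (es (St.sb ρ')) (wk A) = sub (es (St.sb ρ)) A := by
    rw [wk, sub_ren, es_ext St g h hA he]
    rfl
  rwa [← e]

theorem sb_ty {G : ℕ → Term S} {T : Term S} {ρ : St.Env} (g : Good P G)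
    (h : St.Ok G ρ) (hT : TyOkF P G T) : TyOkF P D0 (sub (es (St.sb ρ)) T) := by
  rcases hT with ⟨s, rfl⟩ | ⟨s, hT⟩
  · exact .inl ⟨s, rfl⟩
  · exact .inr ⟨s, tyf_sub hT (St.msb g h).subF⟩

/-- **Lemma U**: types of the same term -/
theorem lemU (hrk : Mono P idx) (w0 : WfF P D0) {T1 T2 : Term S} (hfs : FS T1 T2) :
    ∀ {U1 U2 : Term S}, BetaEq U1 T1 → BetaEq U2 T2 → ∀ {G : ℕ → Term S} {ρ : St.Env} {v : MT S},
      Good P G → St.Ok G ρ → TyOkF P G U1 → TyOkF P G U2 → Ge P idx i G U1 →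
      TMF P D0 v (sub (es (St.sb ρ)) U1) → TMF P D0 v (sub (es (St.sb ρ)) U2) →
      ((Ge P idx i G U2 ∧ St.R G ρ U2 v) ∨
        (Wn P idx (i + 1) D0 v ∧ Ge P idx (i + 1) D0 (sub (es (St.sb ρ)) U2))) →
      St.R G ρ U1 v := by
  induction hfs with
  | @eq A B e =>
      intro U1 U2 e1 e2 G ρ v g ho t1 t2 h1 m1 m2 hd
      have e12 : BetaEq U2 U1 :=
        BetaEq.trans e2 (BetaEq.trans (BetaEq.symm e) (BetaEq.symm e1))
      rcases hd with ⟨h2, hR⟩ | ⟨hW, hH⟩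
      · exact St.R_conv g ho t2 t1 h2 e12 hR
      · exact St.R_high g ho t1 h1 (hH.conv (BetaEq.sub (BetaEq.symm e12) _)) m1 hW
  | @sort A B s t e e' =>
      intro U1 U2 e1 e2 G ρ v g ho t1 t2 h1 m1 m2 hd
      have hW : Wn P idx (i + 1) D0 v := by
        rcases hd with ⟨h2, hR⟩ | ⟨hW, -⟩
        · exact St.R_W g ho t2 h2 hR
        · exact hW
      have e3 : BetaEq U1 (.sort s) := BetaEq.trans e1 e
      have hs : Ge P idx i G (.sort s) := h1.conv (BetaEq.symm e3)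
      have m3 : TMF P D0 v (.sort s) := tmf_sort_of_eq w0 m1 (BetaEq.sub e3 (es (St.sb ρ)))
      exact St.R_conv g ho (.inl ⟨s, rfl⟩) t1 hs (BetaEq.symm e3) (St.R_sort g ho hs m3 hW)
  | @pi A B C A' B' e e' _ ih =>
      intro U1 U2 e1 e2 G ρ v g ho t1 t2 h1 m1 m2 hd
      have hW : Wn P idx (i + 1) D0 v := by
        rcases hd with ⟨h2, hR⟩ | ⟨hW, -⟩
        · exact St.R_W g ho t2 h2 hR
        · exact hW
      by_cases hi1 : Ge P idx (i + 1) D0 (sub (es (St.sb ρ)) U1)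
      · exact St.R_high g ho t1 h1 hi1 m1 hW
      -- common forms
      obtain ⟨C1, A1, r1, rC1, rA1⟩ := red_of_eq_pi (BetaEq.trans e1 e)
      obtain ⟨C2, B2, r2, rC2, rB2⟩ := red_of_eq_pi (BetaEq.trans e2 e')
      obtain ⟨C3, q1, q2⟩ : ∃ C3, Red C1 C3 ∧ Red C2 C3 :=
        CR (BetaEq.trans (BetaEq.symm (Red.eq rC1)) (Red.eq rC2))
      have r1' : Red U1 (.pi C3 A1) := r1.trans (Red.pi q1 .refl)
      have r2' : Red U2 (.pi C3 B2) := r2.trans (Red.pi q2 .refl)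
      have k1 := tyOk_red g.wf t1 r1'
      have k2 := tyOk_red g.wf t2 r2'
      obtain ⟨s1, k1⟩ : ∃ s, TyF P G (.pi C3 A1) (.sort s) := by
        rcases k1 with ⟨s, e⟩ | h
        · cases e
        · exact h
      obtain ⟨s2, k2⟩ : ∃ s, TyF P G (.pi C3 B2) (.sort s) := by
        rcases k2 with ⟨s, e⟩ | h
        · cases e
        · exact h
      obtain ⟨a1, b1, c1, j1, j2, -, -⟩ := fgen_pi k1 _ _ rfl
      obtain ⟨a2, b2, c2, j3, j4, -, -⟩ := fgen_pi k2 _ _ rfl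
      have g1 : Ge P idx i G (.pi C3 A1) := h1.conv (BetaEq.symm (Red.eq r1'))
      obtain ⟨gC, gA⟩ := Ge.pi_inv hrk g.wf j1 g1
      have hi1' : ¬ Ge P idx (i + 1) D0 (sub (es (St.sb ρ)) (.pi C3 A1)) :=
        fun h => hi1 (h.conv (BetaEq.sub (Red.eq r1') _))
      have hs := (St.msb g ho).subF
      have tyP1 := tyf_sub k1 hs
      have m1' : TMF P D0 v (sub (es (St.sb ρ)) (.pi C3 A1)) :=
        .conv m1 (BetaEq.sub (Red.eq r1') _) tyP1
      have m2' : TMF P D0 v (sub (es (St.sb ρ)) (.pi C3 B2)) :=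
        .conv m2 (BetaEq.sub (Red.eq r2') _) (tyf_sub k2 hs)
      refine St.R_conv g ho (tyOk_of k1) t1 g1 (BetaEq.symm (Red.eq r1')) ?_
      refine St.R_pi g ho k1 g1 hi1' m1' hW ?_
      intro ρ' he
      have g' := g.cons j1
      have ho' := St.ext_ok g ho j1 he
      have mw : TMF P D0 (St.sb ρ' 0) (sub (es (St.sb ρ)) C3) := tmf_ext_zero St g ho j1 he
      have hwk : Ge P idx i (fcons C3 G) (fcons C3 G 0) := by
        rw [fcons_zero]; exact gC.ren (RenF.wk G C3)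
      have wW : Wn P idx (i + 1) D0 (St.sb ρ' 0) := by
        refine St.R_W g' ho' (T := fcons C3 G 0) ?_ hwk (St.var_R g' ho' hwk)
        rw [fcons_zero]
        exact .inr ⟨_, tyf_wk j1 C3⟩
      have n1 : TMF P D0 (.app v (St.sb ρ' 0)) (sub (es (St.sb ρ')) A1) := by
        rw [sub_ext St g ho j1 he]
        exact .app m1' mw
      have n2 : TMF P D0 (.app v (St.sb ρ' 0)) (sub (es (St.sb ρ')) B2) := by
        rw [sub_ext St g ho j1 he]
        exact .app m2' mw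
      refine ih (Red.eq rA1).symm (Red.eq rB2).symm g' ho' (tyOk_of j2) (tyOk_of j4) gA n1 n2 ?_
      by_cases hi2 : Ge P idx (i + 1) D0 (sub (es (St.sb ρ)) U2)
      · right
        have hi3 : Ge P idx (i + 1) D0 (sub (es (St.sb ρ)) (.pi C3 B2)) :=
          hi2.conv (BetaEq.sub (BetaEq.symm (Red.eq r2')) _)
        refine ⟨Wn.app_ge w0 hW wW m2' hi3, ?_⟩
        rw [sub_ext St g ho j1 he]
        exact (Ge.pi_inv hrk w0 (tyf_sub j1 hs) hi3).2.inst w0 mw.typed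
      · left
        rcases hd with ⟨h2, hR⟩ | ⟨-, hH⟩
        · have g2 : Ge P idx i G (.pi C3 B2) := h2.conv (BetaEq.symm (Red.eq r2'))
          refine ⟨(Ge.pi_inv hrk g.wf j3 g2).2, ?_⟩
          have hi3 : ¬ Ge P idx (i + 1) D0 (sub (es (St.sb ρ)) (.pi C3 B2)) :=
            fun h => hi2 (h.conv (BetaEq.sub (Red.eq r2') _))
          exact St.R_app g ho k2 g2 hi3 (St.R_conv g ho t2 (tyOk_of k2) h2 (Red.eq r2') hR) he
        · exact absurd hH hi2

end

end Crest.Agent.R298.AAI833
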