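import Crest.Agent.R298.AAI3_833

/-!
R298 (S0452), helper833: insurance (I2), abstract adequacy over ONE WORLD `D0`, part 4:
the fundamental lemma, `wniW_of_stage`, and the assembly of the stages over one world.
-/

set_option autoImplicit false

namespace Crest.Agent.R298.AAI833

open Crest.LogicCS.PTS Relation
open Crest.Agent.R298.Sub452 Crest.Agent.R298.Par452 Crest.Agent.R298.Ty452
open Crest.Agent.R298.Mem360 Crest.Agent.R298.TyF452 Crest.Agent.R298.TyMF452
open Crest.Agent.R298.Main865 Crest.Agent.R298.StrF657 Crest.Agent.R298.World657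
open Crest.Agent.R298.Uniq452 (FS funiq)
open Crest.Agent.R298.Str657 (Fb)
open Crest.Agent.R298.Mem360.MT (er emb er_emb IsL isL_of_dist dist mren msub mups mwk mscons minst
  er_mren er_msub er_mups er_mscons er_minst mren_mren msub_msub mren_eq_msub exists_dist
  dist_mren msub_mscons msub_mren mren_msub mren_minst)

universe u v w
variable {S : Type u} {P : Spec S} {idx : S → ℕ} {i : ℕ} {D0 : ℕ → Term S}

/-- **the fundamental lemma** -/
theorem fund (St : WStage.{u, w} P idx i D0) (hrk : Mono P idx) (w0 : WfF P D0) (M : MT S) :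
    ∀ {G : ℕ → Term S} {ρ : St.Env} {A0 : Term S}, Good P G → St.Ok G ρ → TMF P G M A0 →
      NFF P idx i G M →
      Wn P idx (i + 1) D0 (msub (St.sb ρ) M) ∧
      (∀ T, TyF P G (er M) T → Ge P idx i G T → St.R G ρ T (msub (St.sb ρ) M)) ∧
      ((∃ A B, TyF P G (er M) (.pi A B)) → (∀ T, TyF P G (er M) T → ¬ Ge P idx i G T) →
        ¬ IsL M → Ne P idx (i + 1) D0 (msub (St.sb ρ) M)) := by
  induction M with
  | var x =>
      intro G ρ A0 g ho hM _
      obtain ⟨⟨s, hs⟩, -⟩ := fgen_var hM.typed x rfl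
      have okx : TyOkF P G (G x) := .inr ⟨s, hs⟩
      by_cases hg : Ge P idx i G (G x)
      · have hR := St.var_R g ho hg
        refine ⟨St.R_W g ho okx hg hR, ?_, ?_⟩
        · intro T hT hgT
          obtain ⟨-, e⟩ := fgen_var hT x rfl
          exact St.R_conv g ho okx (ftype_correct g.wf hT) hg (BetaEq.symm e) hR
        · intro _ hlow _
          exact absurd hg (hlow _ (.var hs))
      · have hN := St.var_Ne g ho hg
        refine ⟨hN.wn, ?_, fun _ _ _ => hN⟩
        intro T hT hgT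
        obtain ⟨-, e⟩ := fgen_var hT x rfl
        exact absurd (hgT.conv (BetaEq.symm e)) hg
  | sort s =>
      intro G ρ A0 g ho hM _
      refine ⟨Wn.sort _ _, ?_, ?_⟩
      · intro T hT hgT
        obtain ⟨t, a, e⟩ := fgen_sort hT s rfl
        have hg : Ge P idx i G (.sort t) := hgT.conv (BetaEq.symm e)
        exact St.R_conv g ho (.inl ⟨t, rfl⟩) (ftype_correct g.wf hT) hg (BetaEq.symm e)
          (St.R_sort g ho hg (.sort a) (Wn.sort _ _))
      · rintro ⟨A, B, h⟩ _ _
        obtain ⟨t, a, e⟩ := fgen_sort h s rfl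
        exact absurd (BetaEq.symm e) not_sort_pi
  | pi A B ihA ihB =>
      intro G ρ A0 g ho hM hn
      obtain ⟨a, b, c, hA, hB, r, -⟩ := tmf_gen_pi hM _ _ rfl
      have hs := St.msb g ho
      have g' := g.cons hA.typed
      have hA' := tmf_sub hA hs
      have wA := (ihA g ho hA hn.1).1
      obtain ⟨ρ', ho', hf⟩ := St.fresh g ho hA.typed B ⟨_, hB⟩
      have wB := hf (ihB g' ho' hB hn.2).1
      have e1 : er (msub (St.sb ρ) A) = sub (es (St.sb ρ)) (er A) := er_msub _ _
      have hB' : TMF P (fcons (er (msub (St.sb ρ) A)) D0) (msub (mups (St.sb ρ)) B)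
          (.sort b) := by
        rw [e1]
        exact tmf_sub hB (hs.ups (by have := hA'.typed; rwa [e1] at this))
      have hW : Wn P idx (i + 1) D0 (msub (St.sb ρ) (.pi A B)) := by
        refine Wn.pi w0 wA hA' ?_ hB'
        rw [e1]; exact wB
      refine ⟨hW, ?_, ?_⟩
      · intro T hT hgT
        obtain ⟨a', b', c', hA1, hB1, r', e⟩ := fgen_pi hT _ _ rfl
        have hg : Ge P idx i G (.sort c') := hgT.conv (BetaEq.symm e)
        have ht : TMF P G (.pi A B) (.sort c') :=
          retype g.wf hM (.prod hA1 hB1 r')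
        exact St.R_conv g ho (.inl ⟨c', rfl⟩) (ftype_correct g.wf hT) hg (BetaEq.symm e)
          (St.R_sort g ho hg (tmf_sub ht hs) hW)
      · rintro ⟨A', B', h⟩ _ _
        obtain ⟨_, _, t, _, _, _, e⟩ := fgen_pi h _ _ rfl
        exact absurd (BetaEq.symm e) not_sort_pi
  | lam A M ihA ihM =>
      intro G ρ A0 g ho hM hn
      obtain ⟨B, a, c, hA, hB, hp, -⟩ := tmf_gen_lam hM _ _ rfl
      have hs := St.msb g ho
      have g' := g.cons hA.typed
      have hA' := tmf_sub hA hs
      have wA := (ihA g ho hA hn.1).1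
      obtain ⟨ρ1, ho1, hf⟩ := St.fresh g ho hA.typed M ⟨_, hB⟩
      have wB := hf (ihM g' ho1 hB hn.2).1
      have e1 : er (msub (St.sb ρ) A) = sub (es (St.sb ρ)) (er A) := er_msub _ _
      have hB' : TMF P (fcons (er (msub (St.sb ρ) A)) D0) (msub (mups (St.sb ρ)) M)
          (sub (ups (es (St.sb ρ))) B) := by
        rw [e1]
        have := tmf_sub hB (hs.ups (by have := hA'.typed; rwa [e1] at this))
        rwa [er_mups] at this
      have hW : Wn P idx (i + 1) D0 (msub (St.sb ρ) (.lam A M)) := by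
        refine Wn.lam w0 wA hA' ?_ hB'
        rw [e1]; exact wB
      refine ⟨hW, ?_, fun _ _ hl => absurd trivial hl⟩
      intro T hT hgT
      obtain ⟨B1, s1, hB1, hp1, e⟩ := fgen_lam hT _ _ rfl
      have okT := ftype_correct g.wf hT
      have hMT : TMF P G (.lam A M) T := retype g.wf hM hT
      have hvT := tmf_sub hMT hs
      by_cases hh : Ge P idx (i + 1) D0 (sub (es (St.sb ρ)) T)
      · exact St.R_high g ho okT hgT hh hvT hW
      have hg : Ge P idx i G (.pi (er A) B1) := hgT.conv (BetaEq.symm e)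
      have hh' : ¬ Ge P idx (i + 1) D0 (sub (es (St.sb ρ)) (.pi (er A) B1)) :=
        fun h => hh (h.conv (BetaEq.sub e _))
      have hvP : TMF P D0 (msub (St.sb ρ) (.lam A M)) (sub (es (St.sb ρ)) (.pi (er A) B1)) :=
        .conv hvT (BetaEq.sub e _) (tyf_sub hp1 hs.subF)
      refine St.R_conv g ho (tyOk_of hp1) okT hg (BetaEq.symm e) ?_
      refine St.R_pi g ho hp1 hg hh' hvP hW ?_
      intro ρ' he
      have ho' := St.ext_ok g ho hA.typed he
      have gB := (Ge.pi_inv hrk g.wf hA.typed hg).2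
      have gA := (Ge.pi_inv hrk g.wf hA.typed hg).1
      have okB : TyOkF P (fcons (er A) G) B1 := ftype_correct g'.wf hB1
      have ih2 := (ihM g' ho' hB hn.2).2.1 B1 hB1 gB
      have mw : TMF P D0 (St.sb ρ' 0) (sub (es (St.sb ρ)) (er A)) :=
        tmf_ext_zero St g ho hA.typed he
      have hwk : Ge P idx i (fcons (er A) G) (fcons (er A) G 0) := by
        rw [fcons_zero]; exact gA.ren (RenF.wk G _)
      have wW : Wn P idx (i + 1) D0 (St.sb ρ' 0) := by
        refine St.R_W g' ho' (T := fcons (er A) G 0) ?_ hwk (St.var_R g' ho' hwk)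
        rw [fcons_zero]
        exact .inr ⟨_, tyf_wk hA.typed _⟩
      have e2 : minst (St.sb ρ' 0) (msub (mups (St.sb ρ)) M) = msub (St.sb ρ') M := by
        rw [← msub_mscons]
        congr 1
        funext x
        cases x with
        | zero => rfl
        | succ x => exact (St.ext_sb g ho hA.typed he x).symm
      have hd : dist (msub (St.sb ρ) (.lam A M)) (St.sb ρ' 0) =
          some (.mem (.mem (msub (St.sb ρ') M) (St.sb ρ' 0)) (msub (St.sb ρ) A)) := by
        rw [MT.msub_lam, MT.dist_lam, e2]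
      refine St.R_beta g' ho' okB gB ?_ hd ?_
      · rw [sub_ext St g ho hA.typed he]
        exact .app hvP mw
      · exact St.R_mem g' ho' okB gB hA' wA (St.R_mem g' ho' okB gB mw wW ih2)
  | app F N ihF ihN =>
      intro G ρ A0 g ho hM hn
      obtain ⟨A, B, hF, hN, -⟩ := tmf_gen_app hM _ _ rfl
      have hs := St.msb g ho
      obtain ⟨hn1, hn2, hn3⟩ := hn
      obtain ⟨wF, rF, nF⟩ := ihF g ho hF hn1
      obtain ⟨wN, rN, -⟩ := ihN g ho hN hn2
      by_cases hc : ∃ T, TyF P G (er F) T ∧ Ge P idx i G T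
      · obtain ⟨TF, hTF, gTF⟩ := hc
        obtain ⟨B', e1, -⟩ := (funiq hF.typed hTF).pi_left
        obtain ⟨A2, B2, r2, rA, -⟩ := red_of_eq_pi e1
        have hF2 : TyF P G (er F) (.pi A2 B2) := tyf_red_type g.wf hTF r2
        obtain ⟨s, hp⟩ := fpi_typed g.wf hF2
        have gp : Ge P idx i G (.pi A2 B2) := gTF.conv (BetaEq.symm (Red.eq r2))
        obtain ⟨a, b, c, hA2, hB2, -, -⟩ := fgen_pi hp _ _ rfl
        obtain ⟨gA, gB⟩ := Ge.pi_inv hrk g.wf hA2 gp
        have hN2 : TMF P G N A2 := .conv hN (Red.eq rA) hA2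
        have hFm : TMF P G F (.pi A2 B2) := retype g.wf hF hF2
        have vF := tmf_sub hFm hs
        have vN := tmf_sub hN2 hs
        have tyI : TyF P G (inst (er N) B2) (.sort b) := tyf_inst g.wf hB2 hN2.typed
        have gI : Ge P idx i G (inst (er N) B2) := gB.inst g.wf hN2.typed
        have happ : TMF P G (.app F N) (inst (er N) B2) := .app hFm hN2
        have vapp := tmf_sub happ hs
        have key : Wn P idx (i + 1) D0 (msub (St.sb ρ) (.app F N)) ∧
            ((Ge P idx i G (inst (er N) B2) ∧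
                St.R G ρ (inst (er N) B2) (msub (St.sb ρ) (.app F N))) ∨
              (Wn P idx (i + 1) D0 (msub (St.sb ρ) (.app F N)) ∧
                Ge P idx (i + 1) D0 (sub (es (St.sb ρ)) (inst (er N) B2)))) := by
          by_cases hh : Ge P idx (i + 1) D0 (sub (es (St.sb ρ)) (.pi A2 B2))
          · have hW : Wn P idx (i + 1) D0 (msub (St.sb ρ) (.app F N)) :=
              Wn.app_ge w0 wF wN vF hh
            refine ⟨hW, Or.inr ⟨hW, ?_⟩⟩
            have h4 := (Ge.pi_inv hrk w0 (tyf_sub hA2 hs.subF) hh).2.inst w0 vN.typed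
            rw [sub_inst]
            rwa [er_msub] at h4
          · have hRp := rF _ hF2 gp
            obtain ⟨ρ', he, h0, hi⟩ := St.R_inst g ho hp gp hh hN2 (rN _ hN2.typed gA)
            have h5 := St.R_app g ho hp gp hh hRp he
            rw [h0] at h5
            have h6 : St.R G ρ (inst (er N) B2) (msub (St.sb ρ) (.app F N)) := hi _ vapp h5
            exact ⟨St.R_W g ho (tyOk_of tyI) gI h6, Or.inl ⟨gI, h6⟩⟩
        refine ⟨key.1, ?_, ?_⟩
        · intro T hT hgT
          have hMT : TMF P G (.app F N) T := retype g.wf hM hT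
          exact lemU St hrk w0 (funiq hT happ.typed) (.refl _) (.refl _) g ho
            (ftype_correct g.wf hT) (tyOk_of tyI) hgT (tmf_sub hMT hs) vapp key.2
        · intro _ hlow _
          exact absurd gI (hlow _ happ.typed)
      · have hl : ¬ IsL F := by
          intro hl
          obtain ⟨T, s, hT, hs', hk⟩ := hn3 hl
          exact hc ⟨T, hT, s, hs', hk⟩
        have hNe := nF ⟨_, _, hF.typed⟩ (fun T hT hg => hc ⟨T, hT, hg⟩) hl
        have hNe' : Ne P idx (i + 1) D0 (msub (St.sb ρ) (.app F N)) := .app hNe wN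
        refine ⟨hNe'.wn, ?_, fun _ _ _ => hNe'⟩
        intro T hT hgT
        exact St.R_ne g ho (ftype_correct g.wf hT) hgT (tmf_sub (retype g.wf hM hT) hs) hNe'
  | mem M N ihM ihN =>
      intro G ρ A0 g ho hM hn
      obtain ⟨hM1, B, hN1⟩ := tmf_gen_mem hM _ _ rfl
      have hs := St.msb g ho
      obtain ⟨w1, r1, n1⟩ := ihM g ho hM1 hn.1
      obtain ⟨w2, -, -⟩ := ihN g ho hN1 hn.2
      refine ⟨w1.mem w2, ?_, ?_⟩
      · intro T hT hgT
        exact St.R_mem g ho (ftype_correct g.wf hT) hgT (tmf_sub hN1 hs) w2 (r1 T hT hgT)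
      · intro hp hlow hl
        exact .mem (n1 hp hlow hl) w2

/-- **a stage model in the world gives the stage** -/
theorem wniW_of_stage (St : WStage.{u, w} P idx i D0) (hrk : Mono P idx) (g0 : Good P D0) :
    WNiW P idx i D0 := by
  intro M A hM hn
  obtain ⟨ρ, ho, hi⟩ := St.ident M ⟨A, hM⟩
  exact hi (fund St hrk g0.wf M g0 ho hM hn).1

/-- **assembly of the stages over one world** -/
theorem assemblyW {N : ℕ} (hi : IsIdx P idx N) (g0 : Good P D0)
    (h : ∀ i, 0 < i → WNiW P idx i D0) {M : MT S} {A : Term S} (hM : TMF P D0 M A) : MWN M := by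
  have key : ∀ k, ∃ M', MRed M M' ∧ NFF P idx (k + 1) D0 M' := by
    intro k
    induction k with
    | zero => exact ⟨M, .refl, NFF.one hi hM g0.wf⟩
    | succ k ih =>
        obtain ⟨M', hr, hn⟩ := ih
        obtain ⟨M'', hr', hn'⟩ := h (k + 1) (Nat.succ_pos k) M' A (tmf_SR g0.wf hM hr) hn
        exact ⟨M'', hr.trans hr', hn'⟩
  obtain ⟨M', hr, hn⟩ := key N
  exact ⟨M', hr, fun K hK => NFF.normal hi.le hK hn⟩

/-- strong normalisation passes from a renamed term -/
theorem sn_of_ren {M : Term S} {ρ : ℕ → ℕ} (h : SN (ren ρ M)) : SN M := by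
  rintro ⟨f, hf0, hf⟩
  exact h ⟨fun n => ren ρ (f n), by show ren ρ (f 0) = _; rw [hf0], fun n => Beta.ren (hf n) ρ⟩

/-- **the stages over one world give strong normalisation of all legal terms** -/
theorem sn_of_world {N : ℕ} (hi : IsIdx P idx N) (wD : World P D0)
    (h : ∀ i, 0 < i → WNiW P idx i D0) {Γ : List (Term S)} {M : Term S} (hM : Legal P Γ M) :
    SN M := by
  have typed_sn : ∀ {K A : Term S}, Typed P Γ K A → SN K := by
    intro K A hK
    obtain ⟨ρ, _, hK'⟩ := wD.embed_typed hK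
    exact sn_of_ren (sn_of_wn_emb (assemblyW hi wD.good h (tmf_emb hK')))
  obtain ⟨K, h | h⟩ := hM
  · exact typed_sn h
  · rcases type_correct h with ⟨s, e⟩ | ⟨s, hs⟩
    · rintro ⟨f, hf0, hf⟩
      have h0 := hf 0
      rw [hf0, e] at h0
      cases h0
    · exact typed_sn hs

/-- block (a) over worlds -/
def BlockAW : Prop := ∀ (n : ℕ) (P : Spec (Fin n)) (idx : Fin n → ℕ) (N : ℕ), Std P →
  IsIdx P idx N → ∀ i, 0 < i → (Scc795.Unary P (Lvl idx i) ∨ Scc795.Even P (Lvl idx i)) →
    ∀ D0, World P D0 → WNiW P idx i D0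

/-- block (T) over worlds -/
def BlockTW (Fat : FatPred) : Prop := ∀ (n : ℕ) (P : Spec (Fin n)) (idx : Fin n → ℕ) (N : ℕ),
  Std P → IsIdx P idx N → ∀ i, 0 < i → ¬ Fat n P (Lvl idx i) →
    ∀ D0, World P D0 → WNiW P idx i D0

theorem sn_of_blocksW (Fat : FatPred) (hA : BlockAW) (hT : BlockTW Fat) (hP : BlockP Fat)
    (n : ℕ) (P : Spec (Fin n)) (hS : Std P) (Γ : List (Term (Fin n))) (M : Term (Fin n))
    (hM : Legal P Γ M) : SN M := by
  obtain ⟨idx, N, h1, h2, h3, h4⟩ := Scc795.exists_idx (P := P)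
    ⟨Set.toFinite _, Set.toFinite _⟩
  have hi : IsIdx P idx N := ⟨h1, h2, h3, h4⟩
  obtain ⟨D0, wD⟩ := exists_world P (exists_ax_of_legal hM)
  refine sn_of_world hi wD (fun i hpos => ?_) hM
  rcases Scc795.trichotomy P (Lvl idx i) with h | h | h
  · exact hA n P idx N hS hi i hpos (Or.inl h) D0 wD
  · exact hA n P idx N hS hi i hpos (Or.inr h) D0 wD
  · exact hT n P idx N hS hi i hpos (fun hf => hP n P _ hS (hi.isScc hpos) h hf) D0 wD

/-- **S0452 from the three blocks**, world form. -/
theorem s0452_ofW (Fat : FatPred) (hA : BlockAW) (hT : BlockTW Fat) (hP : BlockP Fat)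
    (T : Type u) (P : Spec T)
    (h : ∀ (Γ : List (Term T)) (M : Term T), Legal P Γ M → WN M) (Γ : List (Term T))
    (M : Term T) (hM : Legal P Γ M) : SN M :=
  Real582.s0452_of_fin_realized
    (fun n P₀ hr hw Γ₀ M₀ hM₀ => sn_of_blocksW Fat hA hT hP n P₀ ⟨hr, hw⟩ Γ₀ M₀ hM₀) T P h Γ M hM

end Crest.Agent.R298.AAI833
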