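import Crest.Agent.R298.StM_961

/-!
R298 (S0452), helper961: the fundamental lemma of abstract adequacy, `Stage J idx i → WNi J idx i`.
-/

set_option autoImplicit false

namespace Crest.Agent.R298.AA961

open Crest.LogicCS.PTS Crest.LogicCS.PTS.Term Relation
open Crest.Agent.R298.Sub452 Crest.Agent.R298.Par452 Crest.Agent.R298.Mem360
open Crest.Agent.R298.Mem360.MT Crest.Agent.R298.Jd961 Crest.Agent.R298.Jd961.Jd
open Crest.Agent.R298.MW961

universe u v w

variable {S : Type u} {P : Spec S} {C : Type v} {J : Jd P C} {idx : S → ℕ}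

theorem tyOk_sub {G D : C} {T : Term S} {σ : ℕ → Term S} (h : TyOk J G T) (w : J.Wf D)
    (hs : Sb J σ G D) : TyOk J D (sub σ T) := by
  rcases h with ⟨s, rfl⟩ | ⟨s, h⟩
  · exact .inl ⟨s, rfl⟩
  · exact .inr ⟨s, J.tsub h w hs⟩

theorem tyOk_of {G : C} {M T : Term S} (h : J.T G M T) : TyOk J G T := J.type_correct h

theorem tyOk_typed {G : C} {T A B : Term S} (h : TyOk J G T) (e : BetaEq T (.pi A B)) :
    ∃ s, J.T G T (.sort s) := by
  rcases h with ⟨s, rfl⟩ | h
  · exact (not_sort_pi e).elim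
  · exact h

/-- instantiation of a codomain after a renaming -/
theorem sub_ext {es es' : ℕ → Term S} {r : ℕ → ℕ} (h : ∀ x, es' (x + 1) = ren r (es x))
    (B : Term S) : sub es' B = inst (es' 0) (ren (up r) (sub (ups es) B)) := by
  have h1 : es' = scons (es' 0) (fun x => ren r (es x)) := by
    funext x
    cases x with
    | zero => rfl
    | succ x => exact h x
  conv_lhs => rw [h1]
  rw [sub_scons, ren_sub, ren_comp_ups]

theorem msub_ext {es es' : ℕ → MT S} {r : ℕ → ℕ} (h : ∀ x, es' (x + 1) = mren r (es x))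
    (B : MT S) : msub es' B = minst (es' 0) (mren (up r) (msub (mups es) B)) := by
  have h1 : es' = mscons (es' 0) (fun x => mren r (es x)) := by
    funext x
    cases x with
    | zero => rfl
    | succ x => exact h x
  conv_lhs => rw [h1]
  rw [msub_mscons, mren_msub, mren_comp_mups]

section

variable {i : ℕ} (X : Stage0.{u, v, w} J idx i)

/-- the erased substitution of an environment -/
abbrev es (ρ : X.Env) : ℕ → Term S := fun x => er (X.sb ρ x)

variable {X}

theorem es_ext {G : C} {A : Term S} {ρ ρ' : X.Env} {r : ℕ → ℕ} (o : X.Ok G ρ)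
    (h : X.Ext G A ρ r ρ') (x : ℕ) : es X ρ' (x + 1) = ren r (es X ρ x) := by
  simp only [es, X.ext_sb o h, er_mren]

theorem typ {G : C} {ρ : X.Env} {M : MT S} {T : Term S} (o : X.Ok G ρ) (hM : MOk J M G)
    (h : J.T G (er M) T) : MOk J (msub (X.sb ρ) M) (X.tgt ρ) ∧
      J.T (X.tgt ρ) (er (msub (X.sb ρ) M)) (sub (es X ρ) T) := by
  refine ⟨hM.msub (X.wf o) (X.msb o), ?_⟩
  rw [er_msub]
  exact J.tsub h (X.wf o) (X.msb o).1

/-- values of variables are weakly normalising -/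
theorem env_W {G : C} {ρ : X.Env} {x : ℕ} {A : Term S} (w : J.Wf G) (o : X.Ok G ρ)
    (h : J.Dc G x A) : W J idx (i + 1) (X.tgt ρ) (X.sb ρ x) := by
  by_cases hc : Cg J idx i G A
  · exact X.R_W w o (tyOk_of (J.tvar w h)) hc (X.var_R w o h hc)
  · exact (X.var_Ne w o h hc).w

theorem app_typ {G : C} {ρ ρ' : X.Env} {r : ℕ → ℕ} {A B : Term S} {v : MT S}
    (o : X.Ok G ρ) (he : X.Ext G A ρ r ρ') (hm : MOk J v (X.tgt ρ))
    (hv : J.T (X.tgt ρ) (er v) (sub (es X ρ) (.pi A B))) :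
    MOk J (.app (mren r v) (X.sb ρ' 0)) (X.tgt ρ') ∧
      J.T (X.tgt ρ') (er (.app (mren r v) (X.sb ρ' 0))) (sub (es X ρ') B) := by
  have o' := X.ext_ok o he
  have hr := X.ext_ren o he
  have w' := X.wf o'
  have h0 : J.Dc (J.cons A G) 0 (wk A) := J.dc_zero.2 rfl
  have hw := (X.msb o').1 0 _ h0
  have e1 : sub (fun x => er (X.sb ρ' x)) (wk A) = ren r (sub (es X ρ) A) := by
    rw [wk, sub_ren, ren_sub]
    congr 1
    funext x
    exact es_ext o he x
  rw [e1] at hw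
  have hv' := tren hv w' hr
  rw [sub_pi, ren_pi, ← er_mren] at hv'
  have h2 := J.tappl hv' hw
  have e2 := sub_ext (es_ext o he) B
  rw [e2]
  exact ⟨⟨⟨_, h2⟩, hm.mren w' hr, (X.msb o').2 0 _ h0⟩, h2⟩

theorem hi_cod (hrule : ∀ a b c, P.rule a b c → idx c ≤ idx a ∧ idx c ≤ idx b)
    {k : ℕ} {G : C} {ρ ρ' : X.Env} {r : ℕ → ℕ} {A B : Term S} {s : S}
    (o : X.Ok G ρ) (he : X.Ext G A ρ r ρ') (hp : J.T G (.pi A B) (.sort s))
    (hk : Cg J idx k (X.tgt ρ) (sub (es X ρ) (.pi A B))) :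
    Cg J idx k (X.tgt ρ') (sub (es X ρ') B) := by
  have o' := X.ext_ok o he
  have hr := X.ext_ren o he
  have w' := X.wf o'
  have h1 := hk.ren w' hr
  rw [sub_pi, ren_pi] at h1
  have h2 := tren (J.tsub hp (X.wf o) (X.msb o).1) w' hr
  rw [sub_pi, ren_pi] at h2
  obtain ⟨s', hs'⟩ := dom_pi h2
  obtain ⟨-, h3⟩ := h1.of_pi hrule w' (BetaEq.refl _) hs'
  have h0 : J.Dc (J.cons A G) 0 (wk A) := J.dc_zero.2 rfl
  have hw := (X.msb o').1 0 _ h0
  have e1 : sub (fun x => er (X.sb ρ' x)) (wk A) = ren r (sub (es X ρ) A) := by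
    rw [wk, sub_ren, ren_sub]
    congr 1
    funext x
    exact es_ext o he x
  rw [e1] at hw
  rw [sub_ext (es_ext o he) B]
  exact h3.sub w' (sb_scons (sb_var w') (by rwa [sub_id]))

/-- **Lemma U** -/
theorem lemU (hrule : ∀ a b c, P.rule a b c → idx c ≤ idx a ∧ idx c ≤ idx b)
    {T1 T2 : Term S} (h : TE T1 T2) : ∀ {U1 U2 : Term S}, BetaEq U1 T1 → BetaEq U2 T2 →
    ∀ {G : C} {ρ : X.Env} {v : MT S}, J.Wf G → X.Ok G ρ → TyOk J G U1 → TyOk J G U2 →
    Cg J idx i G U1 → MOk J v (X.tgt ρ) → J.T (X.tgt ρ) (er v) (sub (es X ρ) U1) →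
    J.T (X.tgt ρ) (er v) (sub (es X ρ) U2) → W J idx (i + 1) (X.tgt ρ) v →
    (Cg J idx i G U2 ∧ X.R G ρ U2 v) ∨ Cg J idx (i + 1) (X.tgt ρ) (sub (es X ρ) U2) →
    X.R G ρ U1 v := by
  induction h with
  | @eq A B e =>
      intro U1 U2 e1 e2 G ρ v w o t1 t2 c1 mv v1 v2 wv hd
      have e3 : BetaEq U2 U1 := BetaEq.trans e2 (BetaEq.trans (BetaEq.symm e) (BetaEq.symm e1))
      rcases hd with ⟨c2, hR⟩ | hh
      · exact X.R_conv w o t2 t1 c2 e3 hR
      · exact X.R_high w o t1 c1 (hh.conv (BetaEq.sub e3 _)) mv v1 wv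
  | @srt A B s t eA eB =>
      intro U1 U2 e1 e2 G ρ v w o t1 t2 c1 mv v1 v2 wv hd
      have e3 : BetaEq U1 (.sort s) := BetaEq.trans e1 eA
      refine X.R_conv w o (.inl ⟨s, rfl⟩) t1 (c1.conv e3) (BetaEq.symm e3) ?_
      refine X.R_sort w o (c1.conv e3) mv ?_ wv
      exact sort_of_eq v1 (BetaEq.sub e3 _)
  | @prd A B D E E' eA eB _ ih =>
      intro U1 U2 e1 e2 G ρ v w o t1 t2 c1 mv v1 v2 wv hd
      have e1' := BetaEq.trans e1 eA
      have e2' := BetaEq.trans e2 eB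
      obtain ⟨A1, B1, r1, a1, b1⟩ := red_of_eq_pi e1'
      obtain ⟨A2, B2, r2, a2, b2⟩ := red_of_eq_pi e2'
      obtain ⟨A3, a13, a23⟩ := confluence a1 a2
      have r1' : Red U1 (.pi A3 B1) := r1.trans (Red.pi a13 .refl)
      have r2' : Red U2 (.pi A3 B2) := r2.trans (Red.pi a23 .refl)
      obtain ⟨s1, hs1⟩ := tyOk_typed t1 e1'
      obtain ⟨s2, hs2⟩ := tyOk_typed t2 e2'
      have p1 := J.sr hs1 r1'
      have p2 := J.sr hs2 r2'
      have c1' := c1.conv (Red.eq r1')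
      have q1 := J.tconv v1 (J.tsub p1 (X.wf o) (X.msb o).1) (BetaEq.sub (Red.eq r1') _)
      have q2 := J.tconv v2 (J.tsub p2 (X.wf o) (X.msb o).1) (BetaEq.sub (Red.eq r2') _)
      have hd' : (Cg J idx i G (.pi A3 B2) ∧ X.R G ρ (.pi A3 B2) v) ∨
          Cg J idx (i + 1) (X.tgt ρ) (sub (es X ρ) (.pi A3 B2)) := by
        rcases hd with ⟨c2, hR⟩ | hh
        · exact .inl ⟨c2.conv (Red.eq r2'), X.R_conv w o t2 (.inr ⟨s2, p2⟩) c2 (Red.eq r2') hR⟩
        · exact .inr (hh.conv (BetaEq.sub (Red.eq r2') _))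
      refine X.R_conv w o (.inr ⟨s1, p1⟩) t1 c1' (BetaEq.symm (Red.eq r1')) ?_
      by_cases hh1 : Cg J idx (i + 1) (X.tgt ρ) (sub (es X ρ) (.pi A3 B1))
      · exact X.R_high w o (.inr ⟨s1, p1⟩) c1' hh1 mv q1 wv
      refine X.R_pi w o p1 c1' hh1 mv q1 wv ?_
      intro r ρ' he
      obtain ⟨s3, hA3⟩ := dom_pi p1
      have w3 := J.wf_cons w hA3
      have o' := X.ext_ok o he
      obtain ⟨m', v1'⟩ := app_typ o he mv q1
      obtain ⟨-, v2'⟩ := app_typ o he mv q2
      obtain ⟨_, _, _, _, hB1, _⟩ := J.gen_pi p1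
      obtain ⟨_, _, _, _, hB2, _⟩ := J.gen_pi p2
      obtain ⟨-, cB1⟩ := c1'.of_pi hrule w (BetaEq.refl _) hA3
      have hd3 : W J idx (i + 1) (X.tgt ρ') (.app (mren r v) (X.sb ρ' 0)) ∧
          ((Cg J idx i (J.cons A3 G) B2 ∧
            X.R (J.cons A3 G) ρ' B2 (.app (mren r v) (X.sb ρ' 0))) ∨
          Cg J idx (i + 1) (X.tgt ρ') (sub (es X ρ') B2)) := by
        by_cases hh2 : Cg J idx (i + 1) (X.tgt ρ) (sub (es X ρ) (.pi A3 B2))
        · refine ⟨?_, .inr (hi_cod hrule o he p2 hh2)⟩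
          have hr := X.ext_ren o he
          have w' := X.wf o'
          refine W.app_high (wv.mren mv (X.wf o) w' hr) (env_W w3 o' (J.dc_zero.2 rfl))
            (T := ren r (sub (es X ρ) (.pi A3 B2))) ?_ (hh2.ren w' hr)
          rw [er_mren]
          exact tren q2 w' hr
        · rcases hd' with ⟨c2, hR⟩ | hh
          · obtain ⟨-, cB2⟩ := c2.of_pi hrule w (BetaEq.refl _) hA3
            have h3 := X.R_app w o p2 c2 hh2 hR he
            exact ⟨X.R_W w3 o' (.inr ⟨_, hB2⟩) cB2 h3, .inl ⟨cB2, h3⟩⟩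
          · exact (hh2 hh).elim
      exact ih (BetaEq.symm (Red.eq b1)) (BetaEq.symm (Red.eq b2)) w3 o' (.inr ⟨_, hB1⟩)
        (.inr ⟨_, hB2⟩) cB1 m' v1' v2' hd3.1 hd3.2

/-- **the fundamental lemma** -/
theorem fund (hrule : ∀ a b c, P.rule a b c → idx c ≤ idx a ∧ idx c ≤ idx b)
    (M : MT S) : ∀ {G : C} {ρ : X.Env}, J.Wf G → X.Ok G ρ → MOk J M G → NF J idx i M G →
    W J idx (i + 1) (X.tgt ρ) (msub (X.sb ρ) M) ∧
    (∀ T, J.T G (er M) T → Cg J idx i G T → X.R G ρ T (msub (X.sb ρ) M)) ∧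
    ((∃ A B, J.T G (er M) (.pi A B)) → (∀ T, J.T G (er M) T → ¬ Cg J idx i G T) → ¬ IsL M →
      Ne J idx (i + 1) (X.tgt ρ) (msub (X.sb ρ) M)) := by
  induction M with
  | var x =>
      intro G ρ w o mM nM
      obtain ⟨A, hA⟩ := mM
      obtain ⟨B, hB, e⟩ := J.gen_var hA
      have hvB := J.tvar w hB
      by_cases hc : Cg J idx i G B
      · have hR := X.var_R w o hB hc
        refine ⟨X.R_W w o (tyOk_of hvB) hc hR, ?_, ?_⟩
        · intro T hT cT
          obtain ⟨B', hB', e'⟩ := J.gen_var hT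
          obtain rfl := J.dc_unique hB hB'
          exact X.R_conv w o (tyOk_of hvB) (tyOk_of hT) hc (BetaEq.symm e') hR
        · intro _ hl
          exact (hl B hvB hc).elim
      · have hN := X.var_Ne w o hB hc
        refine ⟨hN.w, ?_, fun _ _ _ => hN⟩
        intro T hT cT
        obtain ⟨B', hB', e'⟩ := J.gen_var hT
        obtain rfl := J.dc_unique hB hB'
        exact (hc (cT.conv e')).elim
  | sort s =>
      intro G ρ w o mM nM
      refine ⟨W.sort s, ?_, ?_⟩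
      · intro T hT cT
        obtain ⟨s', hs', e⟩ := J.gen_sort hT
        have hT' : J.T G (er (.sort s : MT S)) (.sort s') := sort_of_eq hT e
        refine X.R_conv w o (.inl ⟨s', rfl⟩) (tyOk_of hT) (cT.conv e) (BetaEq.symm e) ?_
        obtain ⟨m', h'⟩ := typ (X := X) o mM hT'
        exact X.R_sort w o (cT.conv e) m' h' (W.sort s)
      · rintro ⟨A, B, h⟩
        obtain ⟨s', _, e⟩ := J.gen_sort h
        exact (not_sort_pi (BetaEq.symm e)).elim
  | app F N ihF ihN =>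
      intro G ρ w o mM nM
      obtain ⟨⟨D, hD⟩, mF, mN⟩ := mM
      obtain ⟨nL, nF, nN⟩ := nM
      obtain ⟨F1, F2, F3⟩ := ihF w o mF nF
      obtain ⟨N1, N2, -⟩ := ihN w o mN nN
      obtain ⟨A, B, hF, hN, -⟩ := J.gen_app hD
      by_cases hc : ∃ T, J.T G (er F) T ∧ Cg J idx i G T
      · obtain ⟨T, hT, cT⟩ := hc
        obtain ⟨B', eT, -⟩ := (jutting J hF hT).left_pi
        obtain ⟨A1, B1, r1, a1, b1⟩ := red_of_eq_pi eT
        have hF1 := red_type hT r1
        have c1 := cT.conv (Red.eq r1)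
        obtain ⟨s1, hp⟩ := pi_typed hF1
        obtain ⟨s2, hA1⟩ := dom_pi hp
        have hN1 : J.T G (er N) A1 := J.tconv hN hA1 (Red.eq a1)
        obtain ⟨cA1, cB1⟩ := c1.of_pi hrule w (BetaEq.refl _) hA1
        have hap : J.T G (er (.app F N)) (inst (er N) B1) := J.tappl hF1 hN1
        have cI : Cg J idx i G (inst (er N) B1) :=
          cB1.sub w (sb_scons (sb_var w) (by rwa [sub_id]))
        have mA : MOk J (.app F N) G := ⟨⟨D, hD⟩, mF, mN⟩
        obtain ⟨mF', tF'⟩ := typ (X := X) o mF hF1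
        obtain ⟨mN', tN'⟩ := typ (X := X) o mN hN1
        have hd : W J idx (i + 1) (X.tgt ρ) (msub (X.sb ρ) (.app F N)) ∧
            ((Cg J idx i G (inst (er N) B1) ∧
              X.R G ρ (inst (er N) B1) (msub (X.sb ρ) (.app F N))) ∨
            Cg J idx (i + 1) (X.tgt ρ) (sub (es X ρ) (inst (er N) B1))) := by
          by_cases hh : Cg J idx (i + 1) (X.tgt ρ) (sub (es X ρ) (.pi A1 B1))
          · refine ⟨W.app_high F1 N1 tF' hh, .inr ?_⟩
            rw [sub_pi] at hh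
            have h4 := J.tsub hA1 (X.wf o) (X.msb o).1
            obtain ⟨-, h3⟩ := hh.of_pi hrule (X.wf o) (BetaEq.refl _) h4
            rw [sub_inst]
            rw [er_msub] at tN'
            exact h3.sub (X.wf o) (sb_scons (sb_var (X.wf o)) (by rwa [sub_id]))
          · have hRF := F2 _ hF1 c1
            have hRN := N2 _ hN1 cA1
            obtain ⟨ρ', he, et, e0, hinc⟩ := X.R_inst w o hp c1 hh mN hN1 hRN
            have h5 := X.R_app w o hp c1 hh hRF he
            rw [mren_id, e0] at h5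
            obtain ⟨m5, -⟩ := typ (X := X) o mA hap
            have h6 := hinc _ m5 h5
            exact ⟨X.R_W w o (tyOk_of hap) cI h6, .inl ⟨cI, h6⟩⟩
        refine ⟨hd.1, ?_, ?_⟩
        · intro T' hT' cT'
          obtain ⟨m5, t5⟩ := typ (X := X) o mA hT'
          obtain ⟨-, t6⟩ := typ (X := X) o mA hap
          exact lemU hrule (jutting J hT' hap) (BetaEq.refl _) (BetaEq.refl _) w o (tyOk_of hT')
            (tyOk_of hap) cT' m5 t5 t6 hd.1 hd.2
        · intro _ hl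
          exact (hl _ hap cI).elim
      · have hl : ∀ T, J.T G (er F) T → ¬ Cg J idx i G T := fun T h1 h2 => hc ⟨T, h1, h2⟩
        have hnL : ¬ IsL F := fun h => by
          obtain ⟨T, h1, h2⟩ := nL h
          exact hl T h1 h2
        have hNe := (F3 ⟨A, B, hF⟩ hl hnL).app N1
        refine ⟨hNe.w, ?_, fun _ _ _ => hNe⟩
        intro T hT cT
        have mA : MOk J (.app F N) G := ⟨⟨D, hD⟩, mF, mN⟩
        obtain ⟨m5, t5⟩ := typ (X := X) o mA hT
        exact X.R_ne w o (tyOk_of hT) cT m5 t5 hNe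
  | lam A M ihA ihM =>
      intro G ρ w o mM nM
      have mL := mM
      obtain ⟨⟨D, hD⟩, mA, mM⟩ := mM
      obtain ⟨nA, nM⟩ := nM
      obtain ⟨s0, hs0⟩ := dom_lam hD
      obtain ⟨A1, -, -⟩ := ihA w o mA nA
      have w1 := J.wf_cons w hs0
      have hW : W J idx (i + 1) (X.tgt ρ) (msub (X.sb ρ) (.lam A M)) := by
        obtain ⟨r, ρ', he, hf⟩ := X.fresh w o hs0 M mM
        obtain ⟨M1, -, -⟩ := ihM w1 (X.ext_ok o he) mM nM
        have h1 := hf M1
        rw [← er_msub] at h1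
        exact W.lam A1 h1 (typ (X := X) o mL hD).1 (X.wf o)
      refine ⟨hW, ?_, fun _ _ h => (h trivial).elim⟩
      intro T hT cT
      obtain ⟨B, s, hM, hp, e⟩ := J.gen_lam hT
      have cP := cT.conv e
      have hL : J.T G (er (.lam A M)) (.pi (er A) B) := J.tabs hM hp
      obtain ⟨m5, t5⟩ := typ (X := X) o mL hL
      refine X.R_conv w o (.inr ⟨s, hp⟩) (tyOk_of hT) cP (BetaEq.symm e) ?_
      by_cases hh : Cg J idx (i + 1) (X.tgt ρ) (sub (es X ρ) (.pi (er A) B))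
      · exact X.R_high w o (.inr ⟨s, hp⟩) cP hh m5 t5 hW
      refine X.R_pi w o hp cP hh m5 t5 hW ?_
      intro r ρ' he
      have o' := X.ext_ok o he
      have hr := X.ext_ren o he
      have w' := X.wf o'
      obtain ⟨m6, t6⟩ := app_typ o he m5 t5
      obtain ⟨-, cB⟩ := cP.of_pi hrule w (BetaEq.refl _) hs0
      have tB : TyOk J (J.cons (er A) G) B := tyOk_of hM
      obtain ⟨-, M2, -⟩ := ihM w1 o' mM nM
      have hR := M2 B hM cB
      have hd : dist (mren r (msub (X.sb ρ) (.lam A M))) (X.sb ρ' 0) =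
          some (mem (mem (msub (X.sb ρ') M) (X.sb ρ' 0)) (mren r (msub (X.sb ρ) A))) := by
        rw [msub_lam, mren_lam, dist_lam, msub_ext (X.ext_sb o he) M]
      refine X.R_beta w1 o' tB cB m6 t6 hd ?_
      have mA' := (mA.msub (X.wf o) (X.msb o)).mren w' hr
      have h0 : J.Dc (J.cons (er A) G) 0 (wk (er A)) := J.dc_zero.2 rfl
      refine X.R_mem w1 o' tB cB mA' (A1.mren (mA.msub (X.wf o) (X.msb o)) (X.wf o) w' hr) ?_
      exact X.R_mem w1 o' tB cB ((X.msb o').2 0 _ h0) (env_W w1 o' h0) hR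
  | pi A M ihA ihM =>
      intro G ρ w o mM nM
      have mL := mM
      obtain ⟨⟨D, hD⟩, mA, mM⟩ := mM
      obtain ⟨nA, nM⟩ := nM
      obtain ⟨s0, hs0⟩ := dom_pi hD
      obtain ⟨A1, -, -⟩ := ihA w o mA nA
      have w1 := J.wf_cons w hs0
      have hW : W J idx (i + 1) (X.tgt ρ) (msub (X.sb ρ) (.pi A M)) := by
        obtain ⟨r, ρ', he, hf⟩ := X.fresh w o hs0 M mM
        obtain ⟨M1, -, -⟩ := ihM w1 (X.ext_ok o he) mM nM
        have h1 := hf M1
        rw [← er_msub] at h1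
        exact W.pi A1 h1 (typ (X := X) o mL hD).1 (X.wf o)
      refine ⟨hW, ?_, ?_⟩
      · intro T hT cT
        obtain ⟨_, _, s', _, _, _, e⟩ := J.gen_pi hT
        have hT' : J.T G (er (.pi A M)) (.sort s') := sort_of_eq hT e
        refine X.R_conv w o (.inl ⟨s', rfl⟩) (tyOk_of hT) (cT.conv e) (BetaEq.symm e) ?_
        obtain ⟨m', h'⟩ := typ (X := X) o mL hT'
        exact X.R_sort w o (cT.conv e) m' h' hW
      · rintro ⟨A', B', h⟩
        obtain ⟨_, _, s', _, _, _, e⟩ := J.gen_pi h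
        exact (not_sort_pi (BetaEq.symm e)).elim
  | mem M N ihM ihN =>
      intro G ρ w o mM nM
      obtain ⟨M1, M2, M3⟩ := ihM w o mM.1 nM.1
      obtain ⟨N1, -, -⟩ := ihN w o mM.2 nM.2
      refine ⟨M1.mem N1, ?_, ?_⟩
      · intro T hT cT
        exact X.R_mem w o (tyOk_of hT) cT (mM.2.msub (X.wf o) (X.msb o)) N1 (M2 T hT cT)
      · intro h1 h2 h3
        exact (M3 h1 h2 h3).mem N1

end

/-- **abstract adequacy** -/
theorem WNi_of_stage (hrule : ∀ a b c, P.rule a b c → idx c ≤ idx a ∧ idx c ≤ idx b)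
    {i : ℕ} (X : Stage.{u, v, w} J idx i) : WNi J idx i := by
  intro G M w mM nM
  obtain ⟨ρ, o, h⟩ := X.ident w M mM
  exact h (fund (X := X.toStage0) hrule M w o mM nM).1

/-- abstract adequacy at one context with an identity environment -/
theorem W_of_stage0 (hrule : ∀ a b c, P.rule a b c → idx c ≤ idx a ∧ idx c ≤ idx b)
    {i : ℕ} (X : Stage0.{u, v, w} J idx i) {G : C} {ρ : X.Env} (w : J.Wf G) (o : X.Ok G ρ)
    (ht : X.tgt ρ = G) (hs : X.sb ρ = MT.var) {M : MT S} (hM : MOk J M G)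
    (nM : NF J idx i M G) : W J idx (i + 1) G M := by
  have h := (fund (X := X) hrule M w o hM nM).1
  rwa [ht, hs, msub_id] at h

/-- assembly of the stages: weak normalisation of legal memory terms -/
theorem mwn_of_stages {N : ℕ} (hN : ∀ s, idx s ≤ N) (h : ∀ i, i ≤ N → WNi J idx i) {G : C}
    {M : MT S} (w : J.Wf G) (hM : MOk J M G) : MWN M := by
  have key : ∀ k, k ≤ N + 1 → W J idx k G M := by
    intro k
    induction k with
    | zero => intro _; exact ⟨M, .refl, NF.zero hM⟩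
    | succ k ih =>
        intro hk
        obtain ⟨M', r, hM'⟩ := ih (by omega)
        exact (h k (by omega) G M' w (hM.red w r) hM').expand r
  obtain ⟨M', r, hM'⟩ := key (N + 1) le_rfl
  exact ⟨M', r, hM'.normal fun s => by have := hN s; omega⟩

end Crest.Agent.R298.AA961
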