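import Crest.Agent.R298.TyMF_452
import Crest.Agent.R298.Uniq_452

/-!
R298 (S0452), helper226: normal forms up to a stage, over function contexts; the sets `W`
(terms which reduce to a term without redexes of class `≤ i`) and `Ne` (rigid neutral terms);
classes of types (`Cls`).
-/

set_option autoImplicit false

namespace Crest.Agent.R298.AAf226

open Crest.LogicCS.PTS Crest.LogicCS.PTS.Term Relation
open Crest.Agent.R298.Sub452 Crest.Agent.R298.Par452 Crest.Agent.R298.Ty452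
open Crest.Agent.R298.TyF452 Crest.Agent.R298.Uniq452
open Crest.Agent.R298.Mem360 Crest.Agent.R298.TyM452 Crest.Agent.R298.TyMF452
open Crest.Agent.R298.Mem360.MT (er mren mwk mups msub mscons minst IsL dist)

universe u
variable {S : Type u} {P : Spec S} {idx : S → ℕ}

/-! ### classes -/

/-- some sort of the type `T` has index `≥ k` -/
def Cls (P : Spec S) (idx : S → ℕ) (k : ℕ) (D : ℕ → Term S) (T : Term S) : Prop :=
  ∃ s, Sg P D T s ∧ k ≤ idx s

/-- the index does not increase along the rules -/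
def Mono (P : Spec S) (idx : S → ℕ) : Prop :=
  ∀ a b c, P.rule a b c → idx c ≤ idx a ∧ idx c ≤ idx b

theorem Cls.of {k : ℕ} {D : ℕ → Term S} {T : Term S} {s : S} (h : TyF P D T (sort s))
    (hk : k ≤ idx s) : Cls P idx k D T := ⟨s, .of h, hk⟩

theorem Cls.conv {k : ℕ} {D : ℕ → Term S} {T T' : Term S} (h : Cls P idx k D T)
    (e : BetaEq T' T) : Cls P idx k D T' := by
  obtain ⟨s, h, hk⟩ := h
  exact ⟨s, h.conv e, hk⟩

theorem Cls.mono {k l : ℕ} (hl : l ≤ k) {D : ℕ → Term S} {T : Term S} (h : Cls P idx k D T) :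
    Cls P idx l D T := by
  obtain ⟨s, h, hk⟩ := h
  exact ⟨s, h, hl.trans hk⟩

theorem Cls.sub {k : ℕ} {D D' : ℕ → Term S} {T : Term S} {σ : ℕ → Term S}
    (h : Cls P idx k D T) (hs : SubF P σ D D') : Cls P idx k D' (Sub452.sub σ T) := by
  obtain ⟨s, h, hk⟩ := h
  exact ⟨s, h.sub hs, hk⟩

theorem Cls.ren {k : ℕ} {D D' : ℕ → Term S} {T : Term S} {ρ : ℕ → ℕ}
    (h : Cls P idx k D T) (hs : RenF ρ D D') : Cls P idx k D' (Sub452.ren ρ T) := by
  obtain ⟨s, h, hk⟩ := h
  exact ⟨s, h.ren hs, hk⟩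

theorem Cls.inst {k : ℕ} {D : ℕ → Term S} (w : WfF P D) {A B N : Term S}
    (h : Cls P idx k (fcons A D) B) (hN : TyF P D N A) : Cls P idx k D (Sub452.inst N B) := by
  obtain ⟨s, h, hk⟩ := h
  exact ⟨s, h.inst w hN, hk⟩

/-- context conversion as a substitution -/
theorem subF_ctx {D : ℕ → Term S} {A A' : Term S} {s s' : S} (w : WfF P D)
    (hA : TyF P D A (sort s)) (hA' : TyF P D A' (sort s')) (e : BetaEq A A') :
    SubF P Term.var (fcons A D) (fcons A' D) := by
  intro i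
  rw [sub_id]
  cases i with
  | zero =>
      refine .conv (TyF.var (D := fcons A' D) (i := 0) (tyf_wk hA' _)) (tyf_wk hA _) ?_
      exact BetaEq.symm (BetaEq.ren e _)
  | succ i => exact tyf_wk (tyf_var w i) _

theorem Cls.ctx {k : ℕ} {D : ℕ → Term S} {A A' B : Term S} {s s' : S} (w : WfF P D)
    (h : Cls P idx k (fcons A D) B) (hA : TyF P D A (sort s)) (hA' : TyF P D A' (sort s'))
    (e : BetaEq A A') : Cls P idx k (fcons A' D) B := by
  have := h.sub (subF_ctx w hA hA' e)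
  rwa [sub_id] at this

theorem Cls.pi_left (hm : Mono P idx) {k : ℕ} {D : ℕ → Term S} (w : WfF P D) {A B : Term S}
    (h : Cls P idx k D (pi A B)) : Cls P idx k D A := by
  obtain ⟨s, h, hk⟩ := h
  obtain ⟨a, b, r, hA, -⟩ := h.pi_inv w
  exact ⟨a, hA, hk.trans (hm _ _ _ r).1⟩

theorem Cls.pi_right (hm : Mono P idx) {k : ℕ} {D : ℕ → Term S} (w : WfF P D) {A B : Term S}
    {s₀ : S} (hA : TyF P D A (sort s₀)) (h : Cls P idx k D (pi A B)) :
    Cls P idx k (fcons A D) B := by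
  obtain ⟨s, h, hk⟩ := h
  obtain ⟨a, b, r, -, A', rA, hA', hB⟩ := h.pi_inv w
  have : Cls P idx k (fcons A' D) B := ⟨b, hB, hk.trans (hm _ _ _ r).2⟩
  exact this.ctx w hA' hA (BetaEq.symm rA.eq)

/-- a class `≥ k` type is convertible with a type of a sort of index `≥ k` -/
theorem Cls.red {k : ℕ} {D : ℕ → Term S} (w : WfF P D) {T : Term S} (h : Cls P idx k D T) :
    ∃ T' s, Red T T' ∧ TyF P D T' (sort s) ∧ k ≤ idx s := by
  obtain ⟨s, h, hk⟩ := h
  obtain ⟨T', r, h'⟩ := h.red w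
  exact ⟨T', s, r, h', hk⟩

/-! ### conversion of types of terms with memory -/

theorem tmf_conv' {D : ℕ → Term S} (w : WfF P D) {M : MT S} {A T : Term S}
    (h : TMF P D M A) (e : BetaEq A T) (hT : TyF P D (er M) T) : TMF P D M T := by
  rcases ftype_correct w hT with ⟨s, rfl⟩ | ⟨s, hs⟩
  · exact tmf_sort_of_eq w h e
  · exact .conv h e hs

/-- a typed term with memory has all types of its erasure -/
theorem tmf_of_tyf {M : MT S} : ∀ {D : ℕ → Term S} {C T : Term S}, WfF P D → TMF P D M C →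
    TyF P D (er M) T → TMF P D M T := by
  induction M with
  | var i =>
      intro D C T w h hT
      obtain ⟨_, e⟩ := fgen_var hT _ rfl
      exact tmf_conv' w (tmf_var w i) (BetaEq.symm e) hT
  | sort s =>
      intro D C T w h hT
      obtain ⟨s', a, e⟩ := fgen_sort hT _ rfl
      exact tmf_conv' w (.sort a) (BetaEq.symm e) hT
  | app F N ihF ihN =>
      intro D C T w h hT
      obtain ⟨A1, B1, h1, h2, -⟩ := tmf_gen_app h _ _ rfl
      obtain ⟨A, B, h3, h4, e⟩ := fgen_app hT _ _ rfl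
      exact tmf_conv' w (.app (ihF w h1 h3) (ihN w h2 h4)) (BetaEq.symm e) hT
  | lam A M ihA ihM =>
      intro D C T w h hT
      obtain ⟨B1, a, c, h1, h2, h3, -⟩ := tmf_gen_lam h _ _ rfl
      obtain ⟨B, s, h4, h5, e⟩ := fgen_lam hT _ _ rfl
      exact tmf_conv' w (.lam h1 (ihM (w.cons h1.typed) h2 h4) h5) (BetaEq.symm e) hT
  | pi A B ihA ihB =>
      intro D C T w h hT
      obtain ⟨a, b, c, h1, h2, -, -⟩ := tmf_gen_pi h _ _ rfl
      obtain ⟨a', b', c', h3, h4, r, e⟩ := fgen_pi hT _ _ rfl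
      exact tmf_conv' w (.pi (ihA w h1 h3) (ihB (w.cons h1.typed) h2 h4) r) (BetaEq.symm e) hT
  | mem M N ihM ihN =>
      intro D C T w h hT
      obtain ⟨h1, B, h2⟩ := tmf_gen_mem h _ _ rfl
      exact .mem (ihM w h1 hT) h2

/-! ### normal forms up to a stage -/

/-- every application node whose function part is an abstraction (under memories) has a type one
of whose sorts has index `≥ k` -/
def NFf (P : Spec S) (idx : S → ℕ) (k : ℕ) : (ℕ → Term S) → MT S → Prop
  | _, .var _ => True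
  | _, .sort _ => True
  | D, .app F Q => NFf P idx k D F ∧ NFf P idx k D Q ∧
      (IsL F → ∃ T s, TyF P D (er F) T ∧ Sg P D T s ∧ k ≤ idx s)
  | D, .lam A M => NFf P idx k D A ∧ NFf P idx k (fcons (er A) D) M
  | D, .pi A B => NFf P idx k D A ∧ NFf P idx k (fcons (er A) D) B
  | D, .mem M N => NFf P idx k D M ∧ NFf P idx k D N

theorem isL_of_mren {F : MT S} {ρ : ℕ → ℕ} (h : IsL (mren ρ F)) : IsL F := by
  induction F with
  | lam A P _ _ => trivial
  | mem F N ih _ => exact ih h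
  | var i => exact h.elim
  | sort s => exact h.elim
  | app M N _ _ => exact h.elim
  | pi M N _ _ => exact h.elim

theorem NFf.mren {k : ℕ} {M : MT S} : ∀ {D D' : ℕ → Term S} {ρ : ℕ → ℕ}, RenF ρ D D' →
    NFf P idx k D M → NFf P idx k D' (MT.mren ρ M) := by
  induction M with
  | var i => intro D D' ρ _ _; trivial
  | sort s => intro D D' ρ _ _; trivial
  | app F Q ihF ihQ =>
      intro D D' ρ hr ⟨h1, h2, h3⟩
      refine ⟨ihF hr h1, ihQ hr h2, fun hl => ?_⟩
      obtain ⟨T, s, hT, hs, hk⟩ := h3 (isL_of_mren hl)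
      refine ⟨_, s, ?_, hs.ren hr, hk⟩
      rw [MT.er_mren]
      exact tyf_ren hT hr
  | lam A M ihA ihM =>
      intro D D' ρ hr ⟨h1, h2⟩
      refine ⟨ihA hr h1, ?_⟩
      rw [MT.er_mren]
      exact ihM (hr.up _) h2
  | pi A M ihA ihM =>
      intro D D' ρ hr ⟨h1, h2⟩
      refine ⟨ihA hr h1, ?_⟩
      rw [MT.er_mren]
      exact ihM (hr.up _) h2
  | mem A M ihA ihM => intro D D' ρ hr ⟨h1, h2⟩; exact ⟨ihA hr h1, ihM hr h2⟩

/-- normal forms up to a stage are stable under conversion of the context -/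
theorem NFf.ctx {k : ℕ} {M : MT S} : ∀ {D D' : ℕ → Term S} {C : Term S},
    SubF P Term.var D D' → TMF P D M C → NFf P idx k D M → NFf P idx k D' M := by
  induction M with
  | var i => intro D D' C _ _ _; trivial
  | sort s => intro D D' C _ _ _; trivial
  | app F Q ihF ihQ =>
      intro D D' C hr hM ⟨h1, h2, h3⟩
      obtain ⟨A, B, hF, hQ, -⟩ := tmf_gen_app hM _ _ rfl
      refine ⟨ihF hr hF h1, ihQ hr hQ h2, fun hl => ?_⟩
      obtain ⟨T, s, hT, hs, hk⟩ := h3 hl
      have a := tyf_sub hT hr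
      have b := hs.sub hr
      rw [sub_id] at a b
      rw [sub_id] at a
      exact ⟨_, s, a, b, hk⟩
  | lam A M ihA ihM =>
      intro D D' C hr hM ⟨h1, h2⟩
      obtain ⟨B, a, c, hA, hM', -, -⟩ := tmf_gen_lam hM _ _ rfl
      have hA' := tyf_sub hA.typed hr
      have key := hr.ups hA'
      rw [ups_var, sub_id] at key
      exact ⟨ihA hr hA h1, ihM key hM' h2⟩
  | pi A M ihA ihM =>
      intro D D' C hr hM ⟨h1, h2⟩
      obtain ⟨a, b, c, hA, hM', -, -⟩ := tmf_gen_pi hM _ _ rfl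
      have hA' := tyf_sub hA.typed hr
      have key := hr.ups hA'
      rw [ups_var, sub_id] at key
      exact ⟨ihA hr hA h1, ihM key hM' h2⟩
  | mem A M ihA ihM =>
      intro D D' C hr hM ⟨h1, h2⟩
      obtain ⟨h3, B, h4⟩ := tmf_gen_mem hM _ _ rfl
      exact ⟨ihA hr h3 h1, ihM hr h4 h2⟩

/-! ### the set `W` -/

/-- `M` reduces to a term without redexes of class `≤ i` -/
def W (P : Spec S) (idx : S → ℕ) (i : ℕ) (D : ℕ → Term S) (M : MT S) : Prop :=
  ∃ M', MRed M M' ∧ NFf P idx (i + 1) D M'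

theorem W.var (i : ℕ) (D : ℕ → Term S) (k : ℕ) : W P idx i D (.var k) := ⟨_, .refl, trivial⟩
theorem W.sort (i : ℕ) (D : ℕ → Term S) (s : S) : W P idx i D (.sort s) := ⟨_, .refl, trivial⟩

theorem W.mem {i : ℕ} {D : ℕ → Term S} {M N : MT S} (h : W P idx i D M) (h' : W P idx i D N) :
    W P idx i D (.mem M N) := by
  obtain ⟨M', r, n⟩ := h
  obtain ⟨N', r', n'⟩ := h'
  exact ⟨_, MRed.mem r r', n, n'⟩

theorem W.expand {i : ℕ} {D : ℕ → Term S} {M N : MT S} (h : W P idx i D N) (r : MRed M N) :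
    W P idx i D M := by
  obtain ⟨M', r', n⟩ := h
  exact ⟨M', r.trans r', n⟩

theorem W.mren {i : ℕ} {D D' : ℕ → Term S} {M : MT S} {ρ : ℕ → ℕ} (h : W P idx i D M)
    (hr : RenF ρ D D') : W P idx i D' (MT.mren ρ M) := by
  obtain ⟨M', r, n⟩ := h
  exact ⟨_, MRed.mren r ρ, n.mren hr⟩

theorem W.lam {i : ℕ} {D : ℕ → Term S} (w : WfF P D) {A M : MT S} {B : Term S} {a : S}
    (hA : TMF P D A (.sort a)) (hM : TMF P (fcons (er A) D) M B) (h : W P idx i D A)
    (h' : W P idx i (fcons (er A) D) M) : W P idx i D (.lam A M) := by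
  obtain ⟨A', r, n⟩ := h
  obtain ⟨M', r', n'⟩ := h'
  refine ⟨_, MRed.lam r r', n, ?_⟩
  have hA' := tmf_SR w hA r
  exact n'.ctx (subF_ctx w hA.typed hA'.typed (er_red r).eq)
    (tmf_SR (w.cons hA.typed) hM r')

theorem W.pi {i : ℕ} {D : ℕ → Term S} (w : WfF P D) {A M : MT S} {B : Term S} {a : S}
    (hA : TMF P D A (.sort a)) (hM : TMF P (fcons (er A) D) M B) (h : W P idx i D A)
    (h' : W P idx i (fcons (er A) D) M) : W P idx i D (.pi A M) := by
  obtain ⟨A', r, n⟩ := h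
  obtain ⟨M', r', n'⟩ := h'
  refine ⟨_, MRed.pi r r', n, ?_⟩
  have hA' := tmf_SR w hA r
  exact n'.ctx (subF_ctx w hA.typed hA'.typed (er_red r).eq)
    (tmf_SR (w.cons hA.typed) hM r')

/-- applications at a high type are rigid -/
theorem W.app_high {i : ℕ} {D : ℕ → Term S} (w : WfF P D) {F Q : MT S} {T : Term S}
    (hF : TMF P D F T) (hT : Cls P idx (i + 1) D T) (h : W P idx i D F) (h' : W P idx i D Q) :
    W P idx i D (.app F Q) := by
  obtain ⟨F', r, n⟩ := h
  obtain ⟨Q', r', n'⟩ := h'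
  refine ⟨_, MRed.app r r', n, n', fun _ => ?_⟩
  obtain ⟨s, hs, hk⟩ := hT
  exact ⟨T, s, (tmf_SR w hF r).typed, hs, hk⟩

/-! ### rigid neutral terms -/

/-- rigid neutral terms -/
inductive Ne (P : Spec S) (idx : S → ℕ) (i : ℕ) (D : ℕ → Term S) : MT S → Prop
  | var (k : ℕ) : Ne P idx i D (.var k)
  | app {M Q : MT S} : Ne P idx i D M → W P idx i D Q → Ne P idx i D (.app M Q)
  | mem {M N : MT S} : Ne P idx i D M → W P idx i D N → Ne P idx i D (.mem M N)

theorem Ne.red {i : ℕ} {D : ℕ → Term S} {M : MT S} (h : Ne P idx i D M) :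
    ∃ M', MRed M M' ∧ NFf P idx (i + 1) D M' ∧ ¬ IsL M' := by
  induction h with
  | var k => exact ⟨_, .refl, trivial, fun h => h⟩
  | app _ h ih =>
      obtain ⟨M', r, n, hl⟩ := ih
      obtain ⟨Q', r', n'⟩ := h
      exact ⟨_, MRed.app r r', ⟨n, n', fun h => absurd h hl⟩, fun h => h⟩
  | mem _ h ih =>
      obtain ⟨M', r, n, hl⟩ := ih
      obtain ⟨Q', r', n'⟩ := h
      exact ⟨_, MRed.mem r r', ⟨n, n'⟩, fun h => hl h⟩

theorem Ne.W {i : ℕ} {D : ℕ → Term S} {M : MT S} (h : Ne P idx i D M) : W P idx i D M := by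
  obtain ⟨M', r, n, -⟩ := h.red
  exact ⟨M', r, n⟩

theorem Ne.mren {i : ℕ} {D D' : ℕ → Term S} {M : MT S} {ρ : ℕ → ℕ} (h : Ne P idx i D M)
    (hr : RenF ρ D D') : Ne P idx i D' (MT.mren ρ M) := by
  induction h with
  | var k => exact .var _
  | app _ h ih => exact .app ih (h.mren hr)
  | mem _ h ih => exact .mem ih (h.mren hr)

end Crest.Agent.R298.AAf226
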