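import Crest.Agent.R298.AAf1_226

/-!
R298 (S0452), helper226: ABSTRACT ADEQUACY over function contexts (doc 2282, section 2):
a stage model at `i` gives `W` for every typed term without redexes of class `< i`.
-/

set_option autoImplicit false

namespace Crest.Agent.R298.AAf226

open Crest.LogicCS.PTS Crest.LogicCS.PTS.Term Relation
open Crest.Agent.R298.Sub452 Crest.Agent.R298.Par452 Crest.Agent.R298.Ty452
open Crest.Agent.R298.TyF452 Crest.Agent.R298.Uniq452
open Crest.Agent.R298.Mem360 Crest.Agent.R298.TyM452 Crest.Agent.R298.TyMF452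
open Crest.Agent.R298.Mem360.MT (er mren mwk mups msub mscons minst IsL dist)

universe u v
variable {S : Type u} {P : Spec S} {idx : S → ℕ}

/-- erasure of a substitution -/
abbrev es (σ : ℕ → MT S) : ℕ → Term S := fun n => er (σ n)

/-- **Stage model** at stage `i` (fields = (R0)-(R7) of doc 2282; (R4) = `r_inst` only for legal
products of class `≥ i` which are not high at run time; `fresh` = (R5)). -/
structure StageModel (P : Spec S) (idx : S → ℕ) (i : ℕ) where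
  /-- environments over a source context -/
  E : (ℕ → Term S) → Type v
  /-- target context -/
  tgt : ∀ {G : ℕ → Term S}, E G → ℕ → Term S
  /-- substitution -/
  sg : ∀ {G : ℕ → Term S}, E G → ℕ → MT S
  /-- extensions, along a renaming of the target context -/
  Ext : ∀ {G : ℕ → Term S}, E G → ∀ A : Term S, (ℕ → ℕ) → E (fcons A G) → Prop
  /-- realizers -/
  R : ∀ {G : ℕ → Term S}, E G → Term S → MT S → Prop
  wf_src : ∀ {G : ℕ → Term S}, E G → WfF P G
  wf_tgt : ∀ {G : ℕ → Term S} (ρ : E G), WfF P (tgt ρ)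
  sg_typed : ∀ {G : ℕ → Term S} (ρ : E G), MSubF P (sg ρ) G (tgt ρ)
  ext_ren : ∀ {G : ℕ → Term S} {ρ : E G} {A : Term S} {r : ℕ → ℕ} {ρ' : E (fcons A G)},
    Ext ρ A r ρ' → RenF r (tgt ρ) (tgt ρ')
  ext_sg : ∀ {G : ℕ → Term S} {ρ : E G} {A : Term S} {r : ℕ → ℕ} {ρ' : E (fcons A G)},
    Ext ρ A r ρ' → ∀ n, sg ρ' (n + 1) = mren r (sg ρ n)
  r_typed : ∀ {G : ℕ → Term S} (ρ : E G) {T : Term S} {v : MT S}, Cls P idx i G T → R ρ T v →
    TMF P (tgt ρ) v (sub (es (sg ρ)) T)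
  r_W : ∀ {G : ℕ → Term S} (ρ : E G) {T : Term S} {v : MT S}, Cls P idx i G T → R ρ T v →
    W P idx i (tgt ρ) v
  r_ne : ∀ {G : ℕ → Term S} (ρ : E G) {T : Term S} {v : MT S}, Cls P idx i G T →
    Ne P idx i (tgt ρ) v → TMF P (tgt ρ) v (sub (es (sg ρ)) T) → R ρ T v
  r_exp : ∀ {G : ℕ → Term S} (ρ : E G) {T : Term S} {F Q K : MT S}, Cls P idx i G T →
    R ρ T K → dist F Q = some K → TMF P (tgt ρ) (.app F Q) (sub (es (sg ρ)) T) →
    R ρ T (.app F Q)
  r_mem : ∀ {G : ℕ → Term S} (ρ : E G) {T C : Term S} {v n : MT S}, Cls P idx i G T →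
    R ρ T v → W P idx i (tgt ρ) n → TMF P (tgt ρ) n C → R ρ T (.mem v n)
  r_conv : ∀ {G : ℕ → Term S} (ρ : E G) {T T' : Term S} {v : MT S}, Cls P idx i G T →
    BetaEq T T' → R ρ T v → R ρ T' v
  r_high : ∀ {G : ℕ → Term S} (ρ : E G) {T : Term S} {v : MT S}, Cls P idx i G T →
    Cls P idx (i + 1) (tgt ρ) (sub (es (sg ρ)) T) → TMF P (tgt ρ) v (sub (es (sg ρ)) T) →
    W P idx i (tgt ρ) v → R ρ T v
  r_sort : ∀ {G : ℕ → Term S} (ρ : E G) {s : S} {v : MT S}, Cls P idx i G (sort s) →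
    TMF P (tgt ρ) v (sort s) → W P idx i (tgt ρ) v → R ρ (sort s) v
  r_pi_elim : ∀ {G : ℕ → Term S} (ρ : E G) {A B : Term S} {c : S} {v : MT S},
    TyF P G (pi A B) (sort c) → i ≤ idx c →
    ¬ Cls P idx (i + 1) (tgt ρ) (sub (es (sg ρ)) (pi A B)) → R ρ (pi A B) v →
    ∀ {r : ℕ → ℕ} {ρ' : E (fcons A G)}, Ext ρ A r ρ' → R ρ' B (.app (mren r v) (sg ρ' 0))
  r_pi_intro : ∀ {G : ℕ → Term S} (ρ : E G) {A B : Term S} {c : S} {v : MT S},
    TyF P G (pi A B) (sort c) → i ≤ idx c →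
    ¬ Cls P idx (i + 1) (tgt ρ) (sub (es (sg ρ)) (pi A B)) →
    TMF P (tgt ρ) v (sub (es (sg ρ)) (pi A B)) → W P idx i (tgt ρ) v →
    (∀ (r : ℕ → ℕ) (ρ' : E (fcons A G)), Ext ρ A r ρ' → R ρ' B (.app (mren r v) (sg ρ' 0))) →
    R ρ (pi A B) v
  r_inst : ∀ {G : ℕ → Term S} (ρ : E G) {A B : Term S} {c : S} {N : MT S},
    TyF P G (pi A B) (sort c) → i ≤ idx c →
    ¬ Cls P idx (i + 1) (tgt ρ) (sub (es (sg ρ)) (pi A B)) → TMF P G N A →
    R ρ A (msub (sg ρ) N) →
    ∃ ρ' : E (fcons A G), Ext ρ A (fun n => n) ρ' ∧ sg ρ' 0 = msub (sg ρ) N ∧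
      ∀ v, R ρ' B v → R ρ (inst (er N) B) v
  fresh : ∀ {G : ℕ → Term S} (ρ : E G) {A : Term S} {a : S}, TyF P G A (sort a) →
    ∃ (r : ℕ → ℕ) (ρ' : E (fcons A G)), Ext ρ A r ρ' ∧
      ∀ (M : MT S) (C : Term S), TMF P (fcons A G) M C →
        W P idx i (tgt ρ') (msub (sg ρ') M) →
        W P idx i (fcons (sub (es (sg ρ)) A) (tgt ρ)) (msub (mups (sg ρ)) M)
  var_cls : ∀ {G : ℕ → Term S} (ρ : E G) (x : ℕ), Cls P idx i G (G x) → R ρ (G x) (sg ρ x)
  var_low : ∀ {G : ℕ → Term S} (ρ : E G) (x : ℕ), ¬ Cls P idx i G (G x) →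
    ∃ k, sg ρ x = .var k

variable {i : ℕ}

namespace StageModel

section ext
variable (m : StageModel.{u, v} P idx i) {G : ℕ → Term S} {ρ : m.E G} {A : Term S} {r : ℕ → ℕ}
  {ρ' : m.E (fcons A G)}

theorem ext_es (h : m.Ext ρ A r ρ') :
    es (m.sg ρ') = scons (er (m.sg ρ' 0)) (fun n => ren r (es (m.sg ρ) n)) := by
  funext n
  cases n with
  | zero => rfl
  | succ n =>
      show er (m.sg ρ' (n + 1)) = ren r (er (m.sg ρ n))
      rw [m.ext_sg h n, MT.er_mren]

theorem ext_wk (h : m.Ext ρ A r ρ') (X : Term S) :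
    sub (es (m.sg ρ')) (wk X) = ren r (sub (es (m.sg ρ)) X) := by
  rw [m.ext_es h, wk, sub_ren, ren_sub]
  rfl

theorem ext_inst (h : m.Ext ρ A r ρ') (X : Term S) :
    inst (er (m.sg ρ' 0)) (ren (up r) (sub (ups (es (m.sg ρ))) X)) = sub (es (m.sg ρ')) X := by
  rw [m.ext_es h, sub_scons, ren_sub]
  congr 2
  funext n
  cases n with
  | zero => rfl
  | succ n =>
      show ren (up r) (wk (es (m.sg ρ) n)) = wk (ren r (es (m.sg ρ) n))
      simp only [wk, ren_ren, Nat.succ_eq_add_one, up_succ]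

theorem ext_minst (h : m.Ext ρ A r ρ') (M : MT S) :
    minst (m.sg ρ' 0) (mren (up r) (msub (mups (m.sg ρ)) M)) = msub (m.sg ρ') M := by
  have e : m.sg ρ' = mscons (m.sg ρ' 0) (fun n => mren r (m.sg ρ n)) := by
    funext n
    cases n with
    | zero => rfl
    | succ n => exact m.ext_sg h n
  rw [MT.mren_msub, MT.mren_comp_mups, ← MT.msub_mscons, ← e]

theorem sg0_typed (h : m.Ext ρ A r ρ') :
    TMF P (m.tgt ρ') (m.sg ρ' 0) (ren r (sub (es (m.sg ρ)) A)) := by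
  have := m.sg_typed ρ' 0
  rw [fcons_zero] at this
  rw [← m.ext_wk h]
  exact this

theorem sg0_W (ρ' : m.E (fcons A G)) : W P idx i (m.tgt ρ') (m.sg ρ' 0) := by
  by_cases hc : Cls P idx i (fcons A G) ((fcons A G) 0)
  · exact m.r_W ρ' hc (m.var_cls ρ' 0 hc)
  · obtain ⟨k, hk⟩ := m.var_low ρ' 0 hc
    rw [hk]; exact W.var i _ k

theorem app_typed (h : m.Ext ρ A r ρ') {B : Term S} {v : MT S}
    (hv : TMF P (m.tgt ρ) v (sub (es (m.sg ρ)) (pi A B))) :
    TMF P (m.tgt ρ') (.app (mren r v) (m.sg ρ' 0)) (sub (es (m.sg ρ')) B) := by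
  have a := tmf_ren hv (m.ext_ren h)
  rw [sub_pi, ren_pi] at a
  have b := TMF.app a (m.sg0_typed h)
  rw [m.ext_inst h] at b
  exact b

theorem cod_high (hm : Mono P idx) (h : m.Ext ρ A r ρ') {B : Term S} {s : S}
    (hA : TyF P G A (sort s))
    (hh : Cls P idx (i + 1) (m.tgt ρ) (sub (es (m.sg ρ)) (pi A B))) :
    Cls P idx (i + 1) (m.tgt ρ') (sub (es (m.sg ρ')) B) := by
  have hT := hh.ren (m.ext_ren h)
  rw [sub_pi, ren_pi] at hT
  have hA' := tyf_ren (tyf_sub hA (m.sg_typed ρ).subF) (m.ext_ren h)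
  have := (hT.pi_right hm (m.wf_tgt ρ') hA').inst (m.wf_tgt ρ') (m.sg0_typed h).typed
  rw [m.ext_inst h] at this
  exact this

end ext

/-- realizers do not depend on the final sort -/
theorem fs (m : StageModel.{u, v} P idx i) (hm : Mono P idx) {T₁ T₂ : Term S}
    (h : FS T₁ T₂) : ∀ {G : ℕ → Term S} (ρ : m.E G) {v : MT S}, Cls P idx i G T₁ →
      Cls P idx i G T₂ → (∃ T' s, BetaEq T₁ T' ∧ TyF P G T' (sort s) ∧
        TMF P (m.tgt ρ) v (sub (es (m.sg ρ)) T')) → m.R ρ T₂ v → m.R ρ T₁ v := by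
  induction h with
  | eq e => intro G ρ v _ h2 _ hv; exact m.r_conv ρ h2 (BetaEq.symm e) hv
  | @sort A B s t e e' =>
      intro G ρ v h1 h2 ⟨T', s', eT, _, ht⟩ hv
      have h1' : Cls P idx i G (sort s) := h1.conv (BetaEq.symm e)
      refine m.r_conv ρ h1' (BetaEq.symm e) (m.r_sort ρ h1' ?_ (m.r_W ρ h2 hv))
      exact tmf_sort_of_eq (m.wf_tgt ρ) ht
        (BetaEq.sub (BetaEq.trans (BetaEq.symm eT) e) (es (m.sg ρ)))
  | @pi A B C A' B' e e' hfs ih =>
      intro G ρ v h1 h2 ⟨T', s', eT, _, ht⟩ hv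
      have wG := m.wf_src ρ
      -- typed representatives with the same domain
      obtain ⟨T1, s1, r1, t1, k1⟩ := h1.red wG
      obtain ⟨T2, s2, r2, t2, k2⟩ := h2.red wG
      obtain ⟨C1, A1, q1, q2, q3⟩ := red_of_eq_pi (BetaEq.trans (BetaEq.symm r1.eq) e)
      obtain ⟨C2, B2, q4, q5, q6⟩ := red_of_eq_pi (BetaEq.trans (BetaEq.symm r2.eq) e')
      obtain ⟨C3, p1, p2⟩ := confluence q2 q5
      have t1' : TyF P G (pi C3 A1) (sort s1) :=
        FSR wG (FSR wG t1 q1) (Red.pi p1 .refl)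
      have t2' : TyF P G (pi C3 B2) (sort s2) :=
        FSR wG (FSR wG t2 q4) (Red.pi p2 .refl)
      have e1 : BetaEq (pi C3 A1) A :=
        BetaEq.symm (Red.eq ((r1.trans q1).trans (Red.pi p1 .refl)))
      have e2 : BetaEq (pi C3 B2) B :=
        BetaEq.symm (Red.eq ((r2.trans q4).trans (Red.pi p2 .refl)))
      obtain ⟨c0, hC3⟩ := fpi_dom t1'
      have hv2 : m.R ρ (pi C3 B2) v := m.r_conv ρ h2 (BetaEq.symm e2) hv
      have c1 : Cls P idx i G (pi C3 A1) := .of t1' k1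
      have c2 : Cls P idx i G (pi C3 B2) := .of t2' k2
      have ht1 : TMF P (m.tgt ρ) v (sub (es (m.sg ρ)) (pi C3 A1)) :=
        .conv ht (BetaEq.sub (BetaEq.trans (BetaEq.symm eT) (BetaEq.symm e1)) _)
          (tyf_sub t1' (m.sg_typed ρ).subF)
      have ht2 : TMF P (m.tgt ρ) v (sub (es (m.sg ρ)) (pi C3 B2)) := m.r_typed ρ c2 hv2
      have hW : W P idx i (m.tgt ρ) v := m.r_W ρ c2 hv2
      refine m.r_conv ρ c1 e1 ?_
      by_cases hh1 : Cls P idx (i + 1) (m.tgt ρ) (sub (es (m.sg ρ)) (pi C3 A1))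
      · exact m.r_high ρ c1 hh1 ht1 hW
      refine m.r_pi_intro ρ t1' k1 hh1 ht1 hW ?_
      intro r ρ' hext
      have cA : Cls P idx i (fcons C3 G) A1 := c1.pi_right hm wG hC3
      have cB : Cls P idx i (fcons C3 G) B2 := c2.pi_right hm wG hC3
      have eA : BetaEq A1 A' := BetaEq.symm q3.eq
      have eB : BetaEq B2 B' := BetaEq.symm q6.eq
      have hbA := m.app_typed hext ht1
      have hbB := m.app_typed hext ht2
      have hRB : m.R ρ' B2 (.app (mren r v) (m.sg ρ' 0)) := by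
        by_cases hh2 : Cls P idx (i + 1) (m.tgt ρ) (sub (es (m.sg ρ)) (pi C3 B2))
        · exact m.r_high ρ' cB (m.cod_high hm hext hC3 hh2) hbB
            (W.app_high (m.wf_tgt ρ') (tmf_ren ht2 (m.ext_ren hext)) (hh2.ren (m.ext_ren hext))
              (hW.mren (m.ext_ren hext)) (m.sg0_W ρ'))
        · exact m.r_pi_elim ρ t2' k2 hh2 hv2 hext
      have cA' : Cls P idx i (fcons C3 G) A' := cA.conv (BetaEq.symm eA)
      have cB' : Cls P idx i (fcons C3 G) B' := cB.conv (BetaEq.symm eB)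
      obtain ⟨-, b1, c1', -, hA1, -, -⟩ := fgen_pi t1' _ _ rfl
      exact m.r_conv ρ' cA' (BetaEq.symm eA)
        (ih ρ' cA' cB' ⟨A1, b1, BetaEq.symm eA, hA1, hbA⟩ (m.r_conv ρ' cB eB hRB))

/-- realizers for all types of a term, from one -/
theorem fs' (m : StageModel.{u, v} P idx i) (hm : Mono P idx) {G : ℕ → Term S} (ρ : m.E G)
    {T₁ T₂ : Term S} {v : MT S} (h : FS T₁ T₂) (h1 : Cls P idx i G T₁) (h2 : Cls P idx i G T₂)
    (ht : TMF P (m.tgt ρ) v (sub (es (m.sg ρ)) T₁)) (hv : m.R ρ T₂ v) : m.R ρ T₁ v := by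
  obtain ⟨T', s', r, t, -⟩ := h1.red (m.wf_src ρ)
  exact m.fs hm h ρ h1 h2 ⟨T', s', r.eq, t, tmf_red_type (m.wf_tgt ρ) ht (Red.sub r _)⟩ hv

/-- **ABSTRACT ADEQUACY**: the fundamental lemma of a stage model. -/
theorem fundamental (m : StageModel.{u, v} P idx i) (hm : Mono P idx) {M : MT S} :
    ∀ {G : ℕ → Term S} {C : Term S} (ρ : m.E G), TMF P G M C → NFf P idx i G M →
      W P idx i (m.tgt ρ) (msub (m.sg ρ) M) ∧
      (∀ T, TyF P G (er M) T → Cls P idx i G T → m.R ρ T (msub (m.sg ρ) M)) ∧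
      ((∃ A B, TyF P G (er M) (pi A B)) → (∀ T, TyF P G (er M) T → ¬ Cls P idx i G T) →
        ¬ IsL M → Ne P idx i (m.tgt ρ) (msub (m.sg ρ) M)) := by
  induction M with
  | var x =>
      intro G C ρ h hn
      have key : ∀ T, TyF P G (.var x) T → Cls P idx i G T → m.R ρ T (m.sg ρ x) := by
        intro T hT hc
        obtain ⟨_, e⟩ := fgen_var hT _ rfl
        have hc' : Cls P idx i G (G x) := hc.conv (BetaEq.symm e)
        exact m.r_conv ρ hc' (BetaEq.symm e) (m.var_cls ρ x hc')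
      refine ⟨?_, key, ?_⟩
      · by_cases hc : Cls P idx i G (G x)
        · exact m.r_W ρ hc (m.var_cls ρ x hc)
        · obtain ⟨k, hk⟩ := m.var_low ρ x hc
          rw [MT.msub_var, hk]; exact W.var i _ k
      · intro _ hlow _
        obtain ⟨k, hk⟩ := m.var_low ρ x (hlow _ (tyf_var (m.wf_src ρ) x))
        rw [MT.msub_var, hk]; exact .var k
  | sort s =>
      intro G C ρ h hn
      refine ⟨W.sort i _ s, ?_, ?_⟩
      · intro T hT hc
        obtain ⟨t, a, e⟩ := fgen_sort hT _ rfl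
        have hc' : Cls P idx i G (sort t) := hc.conv (BetaEq.symm e)
        exact m.r_conv ρ hc' (BetaEq.symm e) (m.r_sort ρ hc' (.sort a) (W.sort i _ s))
      · rintro ⟨A, B, hT⟩ _ _
        obtain ⟨t, a, e⟩ := fgen_sort hT _ rfl
        exact (not_sort_pi (BetaEq.symm e)).elim
  | pi A B ihA ihB =>
      intro G C ρ h hn
      obtain ⟨a, b, c, hA, hB, ru, e⟩ := tmf_gen_pi h _ _ rfl
      obtain ⟨hn1, hn2⟩ := hn
      have hW : W P idx i (m.tgt ρ) (msub (m.sg ρ) (.pi A B)) := by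
        have hA' := tmf_sub hA (m.sg_typed ρ)
        obtain ⟨r, ρ', hext, hf⟩ := m.fresh ρ hA.typed
        have hBW := hf B _ hB (ihB ρ' hB hn2).1
        have hB' := tmf_sub hB ((m.sg_typed ρ).ups (by
          have := hA'.typed; rw [MT.er_msub] at this; exact this))
        exact W.pi (B := Sub452.sub (es (mups (m.sg ρ))) (sort b)) (m.wf_tgt ρ) hA'
          (by rw [MT.er_msub]; exact hB') (ihA ρ hA hn1).1 (by rw [MT.er_msub]; exact hBW)
      refine ⟨hW, ?_, ?_⟩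
      · intro T hT hc
        obtain ⟨a', b', c', _, _, _, e'⟩ := fgen_pi hT _ _ rfl
        have hc' : Cls P idx i G (sort c') := hc.conv (BetaEq.symm e')
        refine m.r_conv ρ hc' (BetaEq.symm e') (m.r_sort ρ hc' ?_ hW)
        have h1 : TMF P G (.pi A B) (sort c') := by
          have := tmf_of_tyf (m.wf_src ρ) h (T := T) hT
          exact tmf_sort_of_eq (m.wf_src ρ) this e'
        exact tmf_sub h1 (m.sg_typed ρ)
      · rintro ⟨A', B', hT⟩ _ _
        obtain ⟨_, _, t, _, _, _, e⟩ := fgen_pi hT _ _ rfl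
        exact (not_sort_pi (BetaEq.symm e)).elim
  | mem M N ihM ihN =>
      intro G C ρ h hn
      obtain ⟨h1, B, h2⟩ := tmf_gen_mem h _ _ rfl
      obtain ⟨hn1, hn2⟩ := hn
      obtain ⟨a1, a2, a3⟩ := ihM ρ h1 hn1
      obtain ⟨b1, b2, b3⟩ := ihN ρ h2 hn2
      have hN' := tmf_sub h2 (m.sg_typed ρ)
      refine ⟨a1.mem b1, ?_, ?_⟩
      · intro T hT hc
        exact m.r_mem ρ hc (a2 T hT hc) b1 hN'
      · intro hp hl hI
        exact .mem (a3 hp hl hI) b1
  | lam A M ihA ihM =>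
      intro G C ρ h hn
      have wG := m.wf_src ρ
      obtain ⟨B, a, c, hA, hM, hp, e⟩ := tmf_gen_lam h _ _ rfl
      obtain ⟨hn1, hn2⟩ := hn
      have hA' := tmf_sub hA (m.sg_typed ρ)
      have hAW := (ihA ρ hA hn1).1
      have hW : W P idx i (m.tgt ρ) (msub (m.sg ρ) (.lam A M)) := by
        obtain ⟨r, ρ', hext, hf⟩ := m.fresh ρ hA.typed
        have hBW := hf M _ hM (ihM ρ' hM hn2).1
        have hB' := tmf_sub hM ((m.sg_typed ρ).ups (by
          have := hA'.typed; rw [MT.er_msub] at this; exact this))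
        exact W.lam (B := Sub452.sub (es (mups (m.sg ρ))) B) (m.wf_tgt ρ) hA'
          (by rw [MT.er_msub]; exact hB') hAW (by rw [MT.er_msub]; exact hBW)
      refine ⟨hW, ?_, fun _ _ hI => absurd trivial hI⟩
      intro T hT hc
      -- the product type of the abstraction
      obtain ⟨B1, s1, hM1, hp1, e1⟩ := fgen_lam hT _ _ rfl
      have hc1 : Cls P idx i G (pi (er A) B1) := hc.conv (BetaEq.symm e1)
      refine m.r_conv ρ hc1 (BetaEq.symm e1) ?_
      have hlam : TMF P G (.lam A M) (pi (er A) B1) :=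
        .lam hA (tmf_of_tyf (wG.cons hA.typed) hM hM1) hp1
      have hlam' := tmf_sub hlam (m.sg_typed ρ)
      by_cases hh : Cls P idx (i + 1) (m.tgt ρ) (sub (es (m.sg ρ)) (pi (er A) B1))
      · exact m.r_high ρ hc1 hh hlam' hW
      -- a sort of the product of index `≥ i`
      obtain ⟨T1, s2, r1, t1, k1⟩ := hc1.red wG
      obtain ⟨A2, B2, rfl, q1, q2⟩ := red_pi r1
      have e2 : BetaEq (pi A2 B2) (pi (er A) B1) := BetaEq.symm (Red.pi q1 q2).eq
      have hh2 : ¬ Cls P idx (i + 1) (m.tgt ρ) (sub (es (m.sg ρ)) (pi A2 B2)) := fun h' =>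
        hh (h'.conv (BetaEq.symm (BetaEq.sub e2 _)))
      obtain ⟨s3, hA2⟩ := fpi_dom t1
      refine m.r_conv ρ (.of t1 k1) e2 ?_
      refine m.r_pi_intro ρ t1 k1 hh2
        (.conv hlam' (BetaEq.sub (BetaEq.symm e2) _) (tyf_sub t1 (m.sg_typed ρ).subF)) hW ?_
      intro r ρ' hext
      have eA : BetaEq (er A) A2 := q1.eq
      have tM1 : TMF P (fcons (er A) G) M B1 := tmf_of_tyf (wG.cons hA.typed) hM hM1
      have tM2 : TMF P (fcons A2 G) M B1 := tmf_ctx_conv wG tM1 hA.typed hA2 eA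
      have nM2 : NFf P idx i (fcons A2 G) M := hn2.ctx (subF_ctx wG hA.typed hA2 eA) tM1
      have cB2 : Cls P idx i (fcons A2 G) B2 := (Cls.of t1 k1).pi_right hm wG hA2
      have cB1 : Cls P idx i (fcons A2 G) B1 := cB2.conv q2.eq
      have hR := m.r_conv ρ' cB1 q2.eq ((ihM ρ' tM2 nM2).2.1 B1 tM2.typed cB1)
      have hR1 := m.r_mem ρ' cB2 hR (m.sg0_W ρ') (m.sg0_typed hext)
      have hR2 := m.r_mem ρ' cB2 hR1 (hAW.mren (m.ext_ren hext))
        (tmf_ren hA' (m.ext_ren hext))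
      refine m.r_exp ρ' cB2 hR2 ?_ (m.app_typed hext
        (.conv hlam' (BetaEq.sub (BetaEq.symm e2) _) (tyf_sub t1 (m.sg_typed ρ).subF)))
      rw [MT.msub_lam, MT.mren_lam, MT.dist_lam, m.ext_minst hext]
  | app F N ihF ihN =>
      intro G C ρ h hn
      have wG := m.wf_src ρ
      obtain ⟨A', B', hF, hN, -⟩ := tmf_gen_app h _ _ rfl
      obtain ⟨hn1, hn2, hn3⟩ := hn
      obtain ⟨f1, f2, f3⟩ := ihF ρ hF hn1
      obtain ⟨g1, g2, -⟩ := ihN ρ hN hn2
      have htT : ∀ T, TyF P G (er (.app F N)) T →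
          TMF P (m.tgt ρ) (msub (m.sg ρ) (.app F N)) (sub (es (m.sg ρ)) T) := fun T hT =>
        tmf_sub (tmf_of_tyf wG h hT) (m.sg_typed ρ)
      by_cases hcl : ∃ T, TyF P G (er F) T ∧ Cls P idx i G T
      · obtain ⟨T, hT, hc⟩ := hcl
        -- a product of class `≥ i` which is a type of `F`
        obtain ⟨T', s, r1, t1, k1⟩ := hc.red wG
        have hT' : TyF P G (er F) T' := tyf_red_type wG hT r1
        obtain ⟨B1, e1, -⟩ := (funiq hF.typed hT').pi_left
        obtain ⟨A2, B2, q0, q1, q2⟩ := red_of_eq_pi e1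
        have t2 : TyF P G (pi A2 B2) (sort s) := FSR wG t1 q0
        have c2 : Cls P idx i G (pi A2 B2) := .of t2 k1
        have tF : TyF P G (er F) (pi A2 B2) := tyf_red_type wG hT' q0
        have hF2 : TMF P G F (pi A2 B2) := tmf_of_tyf wG hF tF
        obtain ⟨s2, hA2⟩ := fpi_dom t2
        have hN2 : TMF P G N A2 := .conv hN q1.eq hA2
        have rF : m.R ρ (pi A2 B2) (msub (m.sg ρ) F) := f2 _ tF c2
        have rN : m.R ρ A2 (msub (m.sg ρ) N) := g2 _ hN2.typed (c2.pi_left hm wG)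
        have tA : TyF P G (er (.app F N)) (inst (er N) B2) := (TMF.app hF2 hN2).typed
        have cA : Cls P idx i G (inst (er N) B2) := (c2.pi_right hm wG hA2).inst wG hN2.typed
        have key : W P idx i (m.tgt ρ) (msub (m.sg ρ) (.app F N)) ∧
            m.R ρ (inst (er N) B2) (msub (m.sg ρ) (.app F N)) := by
          by_cases hh : Cls P idx (i + 1) (m.tgt ρ) (sub (es (m.sg ρ)) (pi A2 B2))
          · have hWa : W P idx i (m.tgt ρ) (msub (m.sg ρ) (.app F N)) :=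
              W.app_high (m.wf_tgt ρ) (tmf_sub hF2 (m.sg_typed ρ)) hh f1 g1
            refine ⟨hWa, m.r_high ρ cA ?_ (htT _ tA) hWa⟩
            rw [sub_pi] at hh
            have a := (hh.pi_right hm (m.wf_tgt ρ) (tyf_sub hA2 (m.sg_typed ρ).subF)).inst
              (m.wf_tgt ρ) (tyf_sub hN2.typed (m.sg_typed ρ).subF)
            rw [← sub_inst] at a
            exact a
          · obtain ⟨ρ', hext, h0, htr⟩ := m.r_inst ρ t2 k1 hh hN2 rN
            have a := m.r_pi_elim ρ t2 k1 hh rF hext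
            rw [MT.mren_id, h0] at a
            have b := htr _ a
            exact ⟨m.r_W ρ cA b, b⟩
        refine ⟨key.1, ?_, fun _ hl _ => absurd cA (hl _ tA)⟩
        intro T'' hT'' hc''
        exact m.fs' hm ρ (funiq hT'' tA) hc'' cA (htT _ hT'') key.2
      · have hl : ∀ T, TyF P G (er F) T → ¬ Cls P idx i G T := fun T h1 h2 => hcl ⟨T, h1, h2⟩
        have hI : ¬ IsL F := fun hI => by
          obtain ⟨T, s, h1, h2, h3⟩ := hn3 hI
          exact hl T h1 ⟨s, h2, h3⟩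
        have ne : Ne P idx i (m.tgt ρ) (msub (m.sg ρ) (.app F N)) :=
          .app (f3 ⟨A', B', hF.typed⟩ hl hI) g1
        exact ⟨ne.W, fun T hT hc => m.r_ne ρ hc ne (htT T hT), fun _ _ _ => ne⟩

/-- **the identity environment**: every typed term without redexes of class `< i` reduces to a
term without redexes of class `≤ i` -/
theorem wni (m : StageModel.{u, v} P idx i) (hm : Mono P idx) {G : ℕ → Term S} (ρ : m.E G)
    (ht : m.tgt ρ = G) (hs : m.sg ρ = MT.var) {M : MT S} {C : Term S} (h : TMF P G M C)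
    (hn : NFf P idx i G M) : W P idx i G M := by
  have := (m.fundamental hm ρ h hn).1
  rwa [hs, ht, MT.msub_id] at this

end StageModel

end Crest.Agent.R298.AAf226
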