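import Mathlib.Tactic.Tauto
import Mathlib.Logic.Basic

/-!
R298 (S0452), part P, helper997: the paradox of doc 2233 (A) (helper201) as a pure theorem about
2-valued (Henkin) truth data.  Nothing here depends on type theory.

`U`, `PU`, `PPU` = the D-bound elements of levels 0, 1, 2 over the carrier `X := U`;
`mU Z x`, `mP T S` = truth of the memberships; `code T : U`; `E w v` = truth of `v F_w`.
`law0` = the only use of type instantiation.
`Data` lists the finitely many comprehension instances that are needed (laws only up to `↔`).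
`Fm`-version at the end: comprehension for all formulas of a small many-sorted language.
-/

set_option autoImplicit false

namespace Crest.Agent.R298.AbsPar997

universe u v w

section
variable {U : Type u} {PU : Type v} {PPU : Type w}
variable (mU : PU → U → Prop) (mP : PPU → PU → Prop) (code : PPU → U) (E : U → U → Prop)

/-- inclusion of level-1 objects -/
def Sub (S S' : PU) : Prop := ∀ x, mU S x → mU S' x

/-- Leibniz equality on `U` (symmetric form) -/
def Leq (a b : U) : Prop := ∀ Z, mU Z a ↔ mU Z b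

/-- `T' == child(T,S)` -/
def IsChild (T' T : PPU) (S : PU) : Prop :=
  ∀ S', mP T' S' ↔ (mP T S' ∧ Sub mU S' S ∧ ¬ Sub mU S S')

/-- well-founded elements -/
def WF (a : U) : Prop := ∀ Z : PU, (∀ v, (∀ w, E w v → mU Z w) → mU Z v) → mU Z a

/-- transitive closure of `E` -/
def Es (w v : U) : Prop :=
  ∀ Z : PU, (∀ x, E x v → mU Z x) → (∀ x y, mU Z y → E x y → mU Z x) → mU Z w

/-- `w ≤ v` -/
def Le (w v : U) : Prop := Leq mU w v ∨ Es mU E w v

/-- `S == dn(w)` -/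
def IsDn (S : PU) (w : U) : Prop := ∀ x, mU S x ↔ Le mU E x w

/-- `T == B(w)` -/
def IsB (T : PPU) (w : U) : Prop := ∀ S, mP T S ↔ ∃ x, Es mU E x w ∧ IsDn mU E S x

/-- law (0) together with the ten comprehension instances -/
structure Data : Prop where
  law0 : ∀ w T, E w (code T) ↔ ∃ S, mP T S ∧ ∃ T', IsChild mU mP T' T S ∧ Leq mU (code T') w
  c1 : ∀ w, ∃ D : PU, ∀ x, mU D x ↔ Le mU E x w
  c2 : ∀ v, ∃ Z : PU, ∀ w, mU Z w ↔ ∃ x, E x v ∧ Le mU E w x
  c3 : ∀ x, ∃ Z : PU, ∀ y, mU Z y ↔ E x y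
  c4 : ∀ Z : PU, ∃ Z' : PU, ∀ v, mU Z' v ↔ (mU Z v ∧ ∀ w, E w v → mU Z w)
  c5 : ∃ Z : PU, ∀ x, mU Z x ↔ WF mU E x
  c6 : ∃ Z : PU, ∀ x, mU Z x ↔ ¬ Es mU E x x
  c8 : ∀ a, ∃ T : PPU, IsB mU mP E T a
  c9 : ∃ Z : PU, ∀ a, mU Z a ↔
    ∀ w, Le mU E w a → WF mU E w → ∀ T : PPU, IsB mU mP E T w → WF mU E (code T)
  c10 : ∃ T : PPU, ∀ S, mP T S ↔ ∃ a, WF mU E a ∧ IsDn mU E S a
  c11 : ∃ Z : PU, ∀ a, mU Z a ↔ (WF mU E a → ∀ T : PPU, IsB mU mP E T a → ¬ E (code T) a)

variable {mU mP code E}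

theorem Leq.refl (a : U) : Leq mU a a := fun _ => Iff.rfl
theorem Leq.symm {a b : U} (h : Leq mU a b) : Leq mU b a := fun Z => (h Z).symm
theorem Leq.trans {a b c : U} (h : Leq mU a b) (h' : Leq mU b c) : Leq mU a c :=
  fun Z => (h Z).trans (h' Z)

theorem WF.leq {a b : U} (h : Leq mU a b) (ha : WF mU E a) : WF mU E b :=
  fun Z hZ => (h Z).1 (ha Z hZ)

theorem WF.intro {v : U} (h : ∀ x, E x v → WF mU E x) : WF mU E v :=
  fun Z hZ => hZ v (fun w hw => h w hw Z hZ)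

theorem Es.base {w v : U} (h : E w v) : Es mU E w v := fun _ h1 _ => h1 w h

theorem Es.trans {w v u : U} (h : Es mU E w v) (h' : Es mU E v u) : Es mU E w u :=
  fun Z h1 h2 => h Z (fun x hx => h2 x v (h' Z h1 h2) hx) h2

theorem Es.leq_left {x w v : U} (h : Leq mU x w) (h' : Es mU E w v) : Es mU E x v :=
  fun Z h1 h2 => (h Z).2 (h' Z h1 h2)

namespace Data
variable (D : Data mU mP code E)
include D

theorem E_right {x y y' : U} (h : Leq mU y y') (h' : E x y) : E x y' := by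
  obtain ⟨Z, hZ⟩ := D.c3 x
  exact (hZ y').1 ((h Z).1 ((hZ y).2 h'))

theorem Es_right {x y y' : U} (h : Leq mU y y') (h' : Es mU E x y) : Es mU E x y' :=
  fun Z h1 h2 => h' Z (fun z hz => h1 z (D.E_right h hz)) h2

theorem le_trans {a b c : U} (h : Le mU E a b) (h' : Le mU E b c) : Le mU E a c := by
  rcases h with h | h
  · rcases h' with h' | h'
    · exact Or.inl (h.trans h')
    · exact Or.inr (h'.leq_left h)
  · rcases h' with h' | h'
    · exact Or.inr (D.Es_right h' h)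
    · exact Or.inr (h.trans h')

/-- (1c) -/
theorem Es_last {w v : U} (h : Es mU E w v) : ∃ x, E x v ∧ Le mU E w x := by
  obtain ⟨Z, hZ⟩ := D.c2 v
  refine (hZ w).1 (h Z (fun x hx => (hZ x).2 ⟨x, hx, Or.inl (Leq.refl x)⟩) ?_)
  intro x y hy hxy
  obtain ⟨z, hz, hyz⟩ := (hZ y).1 hy
  exact (hZ x).2 ⟨z, hz, D.le_trans (Or.inr (Es.base hxy)) hyz⟩

theorem WF_step {w v : U} (hv : WF mU E v) (h : E w v) : WF mU E w := by
  intro Z hZ
  obtain ⟨Z', hZ'⟩ := D.c4 Z
  have : mU Z' v := by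
    refine hv Z' (fun x hx => (hZ' x).2 ⟨hZ x (fun y hy => ((hZ' y).1 (hx y hy)).1),
      fun y hy => ((hZ' y).1 (hx y hy)).1⟩)
  exact ((hZ' v).1 this).2 w h

/-- (1d) -/
theorem WF_Es {w v : U} (hv : WF mU E v) (h : Es mU E w v) : WF mU E w := by
  obtain ⟨Z, hZ⟩ := D.c5
  refine (hZ w).1 (h Z (fun x hx => (hZ x).2 (D.WF_step hv hx)) ?_)
  intro x y hy hxy
  exact (hZ x).2 (D.WF_step ((hZ y).1 hy) hxy)

/-- (1e) -/
theorem Es_irrefl {v : U} (hv : WF mU E v) : ¬ Es mU E v v := by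
  obtain ⟨Z, hZ⟩ := D.c6
  refine (hZ v).1 (hv Z (fun a ha => (hZ a).2 (fun haa => ?_)))
  obtain ⟨x, hx, hax⟩ := D.Es_last haa
  have hxx : ¬ Es mU E x x := (hZ x).1 (ha x hx)
  rcases hax with hax | hax
  · exact hxx (Es.base (D.E_right hax hx))
  · exact hxx ((Es.base hx).trans hax)

omit D in
theorem dn_self {S : PU} {w : U} (h : IsDn mU E S w) : mU S w := (h w).2 (Or.inl (Leq.refl w))

theorem sub_iff {S S' : PU} {w w' : U} (h : IsDn mU E S w) (h' : IsDn mU E S' w') :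
    Sub mU S' S ↔ Le mU E w' w := by
  constructor
  · intro hs
    exact (h w').1 (hs w' (dn_self h'))
  · intro hs x hx
    exact (h x).2 (D.le_trans ((h' x).1 hx) hs)

/-- (2) -/
theorem strict_iff {S S' : PU} {w w' : U} (hw : WF mU E w) (h : IsDn mU E S w)
    (h' : IsDn mU E S' w') : (Sub mU S' S ∧ ¬ Sub mU S S') ↔ Es mU E w' w := by
  rw [D.sub_iff h h', D.sub_iff h' h]
  constructor
  · rintro ⟨h1, h2⟩
    rcases h1 with h1 | h1
    · exact absurd (Or.inl h1.symm) h2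
    · exact h1
  · intro h1
    refine ⟨Or.inr h1, ?_⟩
    rintro (h2 | h2)
    · exact D.Es_irrefl hw (h1.leq_left h2)
    · exact D.Es_irrefl hw (h2.trans h1)

/-- (3) -/
theorem child_B {v w : U} {T T' : PPU} {S : PU} (hv : WF mU E v) (hT : IsB mU mP E T v)
    (hwv : Es mU E w v) (hS : IsDn mU E S w) :
    IsChild mU mP T' T S ↔ IsB mU mP E T' w := by
  have hw := D.WF_Es hv hwv
  have key : ∀ S', (mP T S' ∧ Sub mU S' S ∧ ¬ Sub mU S S') ↔
      ∃ x, Es mU E x w ∧ IsDn mU E S' x := by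
    intro S'
    constructor
    · rintro ⟨h1, h2⟩
      obtain ⟨x, hx, hxS⟩ := (hT S').1 h1
      exact ⟨x, (D.strict_iff hw hS hxS).1 h2, hxS⟩
    · rintro ⟨x, hx, hxS⟩
      exact ⟨(hT S').2 ⟨x, hx.trans hwv, hxS⟩, (D.strict_iff hw hS hxS).2 hx⟩
  constructor
  · intro h S'
    exact (h S').trans (key S')
  · intro h S'
    exact (h S').trans (key S').symm

/-- (4) -/
theorem bar_mono {v w : U} {T T1 : PPU} (hv : WF mU E v) (hwv : Es mU E w v)
    (hT : IsB mU mP E T v) (hT1 : IsB mU mP E T1 w) : E (code T1) (code T) := by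
  obtain ⟨S, hS⟩ := D.c1 w
  exact (D.law0 _ _).2 ⟨S, (hT S).2 ⟨w, hwv, hS⟩, T1, (D.child_B hv hT hwv hS).2 hT1,
    Leq.refl _⟩

/-- (5) -/
theorem WF_bar {a : U} {T : PPU} (ha : WF mU E a) (hT : IsB mU mP E T a) :
    WF mU E (code T) := by
  obtain ⟨Z, hZ⟩ := D.c9
  refine (hZ a).1 (ha Z (fun b hb => (hZ b).2 ?_)) a (Or.inl (Leq.refl a)) ha T hT
  -- the statement for all `w` with `Es w b`
  have hyp : ∀ w, Es mU E w b → WF mU E w → ∀ T : PPU, IsB mU mP E T w → WF mU E (code T) := by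
    intro w hw
    obtain ⟨y, hy, hwy⟩ := D.Es_last hw
    exact (hZ y).1 (hb y hy) w hwy
  intro w hwb hw T hT
  rcases hwb with hwb | hwb
  · refine WF.intro (fun x hx => ?_)
    obtain ⟨S, hS, T', hT', hx'⟩ := (D.law0 x T).1 hx
    obtain ⟨z, hz, hzS⟩ := (hT S).1 hS
    have hB := (D.child_B hw hT hz hzS).1 hT'
    exact WF.leq hx' (hyp z (D.Es_right hwb hz) (D.WF_Es hw hz) T' hB)
  · exact hyp w hwb hw T hT

/-- the contradiction -/
theorem false : False := by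
  obtain ⟨TO, hTO⟩ := D.c10
  have childO : ∀ {b : U} {T' : PPU} {S : PU}, WF mU E b → IsDn mU E S b →
      (IsChild mU mP T' TO S ↔ IsB mU mP E T' b) := by
    intro b T' S hb hS
    have key : ∀ S', (mP TO S' ∧ Sub mU S' S ∧ ¬ Sub mU S S') ↔
        ∃ x, Es mU E x b ∧ IsDn mU E S' x := by
      intro S'
      constructor
      · rintro ⟨h1, h2⟩
        obtain ⟨x, hx, hxS⟩ := (hTO S').1 h1
        exact ⟨x, (D.strict_iff hb hS hxS).1 h2, hxS⟩
      · rintro ⟨x, hx, hxS⟩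
        exact ⟨(hTO S').2 ⟨x, D.WF_Es hb hx, hxS⟩, (D.strict_iff hb hS hxS).2 hx⟩
    constructor
    · intro h S'
      exact (h S').trans (key S')
    · intro h S'
      exact (h S').trans (key S').symm
  -- (6)
  have hO : WF mU E (code TO) := by
    refine WF.intro (fun x hx => ?_)
    obtain ⟨S, hS, T', hT', hx'⟩ := (D.law0 x TO).1 hx
    obtain ⟨b, hb, hbS⟩ := (hTO S).1 hS
    exact WF.leq hx' (D.WF_bar hb ((childO hb hbS).1 hT'))
  -- (7)
  obtain ⟨T1, hT1⟩ := D.c8 (code TO)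
  have h7 : E (code T1) (code TO) := by
    obtain ⟨S, hS⟩ := D.c1 (code TO)
    exact (D.law0 _ _).2 ⟨S, (hTO S).2 ⟨_, hO, hS⟩, T1, (childO hO hS).2 hT1, Leq.refl _⟩
  -- (8)
  obtain ⟨Z, hZ⟩ := D.c11
  refine (hZ (code TO)).1 (hO Z (fun a ha => (hZ a).2 ?_)) hO T1 hT1 h7
  intro hwa T hT hE
  obtain ⟨T2, hT2⟩ := D.c8 (code T)
  have hy := D.WF_step hwa hE
  exact (hZ (code T)).1 (ha (code T) hE) hy T2 hT2 (D.bar_mono hwa (Es.base hE) hT hT2)

end Data
end

end Crest.Agent.R298.AbsPar997
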