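import Mathlib.Tactic
import Crest.Agent.R298.AbsPar_997

/-!
R298 (S0452), part P, helper997: the abstract paradox with comprehension for all formulas of a
small 3-sorted language.  Sorts: 0 = `U`, 1 = `PU`, 2 = `PPU`; de Bruijn indices per sort.
-/

set_option autoImplicit false

namespace Crest.Agent.R298.AbsFm997

open Crest.Agent.R298.AbsPar997

/-- `U`-terms -/
inductive Tm
  | var : ℕ → Tm
  | code : ℕ → Tm

/-- formulas: atoms `Z x`, `T S`, `E s t`; implication, falsum, quantifiers over the 3 sorts -/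
inductive Fm
  | mU : ℕ → Tm → Fm
  | mP : ℕ → ℕ → Fm
  | E : Tm → Tm → Fm
  | fls : Fm
  | imp : Fm → Fm → Fm
  | all0 : Fm → Fm
  | all1 : Fm → Fm
  | all2 : Fm → Fm

universe u v w
variable {U : Type u} {PU : Type v} {PPU : Type w}

/-- push a value on an environment -/
def push {α : Type*} (x : α) (ρ : ℕ → α) : ℕ → α
  | 0 => x
  | n + 1 => ρ n

@[simp] theorem push_zero {α : Type*} (x : α) (ρ : ℕ → α) : push x ρ 0 = x := rfl
@[simp] theorem push_succ {α : Type*} (x : α) (ρ : ℕ → α) (n : ℕ) : push x ρ (n + 1) = ρ n := rfl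
@[simp] theorem push_one {α : Type*} (x : α) (ρ : ℕ → α) : push x ρ 1 = ρ 0 := rfl
@[simp] theorem push_two {α : Type*} (x : α) (ρ : ℕ → α) : push x ρ 2 = ρ 1 := rfl
@[simp] theorem push_three {α : Type*} (x : α) (ρ : ℕ → α) : push x ρ 3 = ρ 2 := rfl

section
variable (mU : PU → U → Prop) (mP : PPU → PU → Prop) (code : PPU → U) (E : U → U → Prop)

/-- value of a `U`-term -/
def tm (ρ0 : ℕ → U) (ρ2 : ℕ → PPU) : Tm → U
  | .var i => ρ0 i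
  | .code i => code (ρ2 i)

/-- satisfaction -/
def sat : Fm → (ℕ → U) → (ℕ → PU) → (ℕ → PPU) → Prop
  | .mU i t, ρ0, ρ1, ρ2 => mU (ρ1 i) (tm code ρ0 ρ2 t)
  | .mP i j, _, ρ1, ρ2 => mP (ρ2 i) (ρ1 j)
  | .E s t, ρ0, _, ρ2 => E (tm code ρ0 ρ2 s) (tm code ρ0 ρ2 t)
  | .fls, _, _, _ => False
  | .imp φ ψ, ρ0, ρ1, ρ2 => sat φ ρ0 ρ1 ρ2 → sat ψ ρ0 ρ1 ρ2
  | .all0 φ, ρ0, ρ1, ρ2 => ∀ x, sat φ (push x ρ0) ρ1 ρ2
  | .all1 φ, ρ0, ρ1, ρ2 => ∀ x, sat φ ρ0 (push x ρ1) ρ2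
  | .all2 φ, ρ0, ρ1, ρ2 => ∀ x, sat φ ρ0 ρ1 (push x ρ2)
end

namespace Fm

def neg (φ : Fm) : Fm := .imp φ .fls
def and (φ ψ : Fm) : Fm := neg (.imp φ (neg ψ))
def or (φ ψ : Fm) : Fm := .imp (neg φ) ψ
def iff (φ ψ : Fm) : Fm := and (.imp φ ψ) (.imp ψ φ)
def ex0 (φ : Fm) : Fm := neg (.all0 (neg φ))

/-- `a =_U b` for `U`-variables (under no new level-1 binder) -/
def leq (a b : ℕ) : Fm := .all1 (iff (.mU 0 (.var a)) (.mU 0 (.var b)))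

/-- `Es a b` -/
def es (a b : ℕ) : Fm :=
  .all1 (.imp (.all0 (.imp (.E (.var 0) (.var (b + 1))) (.mU 0 (.var 0))))
    (.imp (.all0 (.all0 (.imp (.mU 0 (.var 0)) (.imp (.E (.var 1) (.var 0)) (.mU 0 (.var 1))))))
      (.mU 0 (.var a))))

/-- `a ≤ b` -/
def le (a b : ℕ) : Fm := or (leq a b) (es a b)

/-- `WF t` for a `U`-term `t` given with its lift -/
def wf (t : Tm) : Fm :=
  .all1 (.imp (.all0 (.imp (.all0 (.imp (.E (.var 0) (.var 1)) (.mU 0 (.var 0))))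
    (.mU 0 (.var 0)))) (.mU 0 t))

/-- `S == dn w`, `S` = level-1 variable `i`, `w` = level-0 variable `a` -/
def isDn (i a : ℕ) : Fm := .all0 (iff (.mU i (.var 0)) (le 0 (a + 1)))

/-- `T == B(a)`, `T` = level-2 variable `i`, `a` = level-0 variable -/
def isB (i a : ℕ) : Fm :=
  .all1 (iff (.mP i 0) (ex0 (and (es 0 (a + 1)) (isDn 0 0))))

end Fm

section
variable {mU : PU → U → Prop} {mP : PPU → PU → Prop} {code : PPU → U} {E : U → U → Prop}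
variable (ρ0 : ℕ → U) (ρ1 : ℕ → PU) (ρ2 : ℕ → PPU)

local notation "⟪" φ "⟫" => sat mU mP code E φ

@[simp] theorem sat_neg (φ : Fm) : sat mU mP code E (Fm.neg φ) ρ0 ρ1 ρ2 ↔
    ¬ sat mU mP code E φ ρ0 ρ1 ρ2 := Iff.rfl

@[simp] theorem sat_and (φ ψ : Fm) : sat mU mP code E (Fm.and φ ψ) ρ0 ρ1 ρ2 ↔
    (sat mU mP code E φ ρ0 ρ1 ρ2 ∧ sat mU mP code E ψ ρ0 ρ1 ρ2) := by
  simp only [Fm.and, Fm.neg, sat]; tauto

@[simp] theorem sat_or (φ ψ : Fm) : sat mU mP code E (Fm.or φ ψ) ρ0 ρ1 ρ2 ↔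
    (sat mU mP code E φ ρ0 ρ1 ρ2 ∨ sat mU mP code E ψ ρ0 ρ1 ρ2) := by
  simp only [Fm.or, Fm.neg, sat]; tauto

@[simp] theorem sat_iff (φ ψ : Fm) : sat mU mP code E (Fm.iff φ ψ) ρ0 ρ1 ρ2 ↔
    (sat mU mP code E φ ρ0 ρ1 ρ2 ↔ sat mU mP code E ψ ρ0 ρ1 ρ2) := by
  rw [Fm.iff, sat_and]; simp only [sat]; tauto

@[simp] theorem sat_ex0 (φ : Fm) : sat mU mP code E (Fm.ex0 φ) ρ0 ρ1 ρ2 ↔
    ∃ x, sat mU mP code E φ (push x ρ0) ρ1 ρ2 := by
  simp only [Fm.ex0, Fm.neg, sat]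
  constructor
  · intro h
    by_contra hc
    exact h (fun x hx => hc ⟨x, hx⟩)
  · rintro ⟨x, hx⟩ h
    exact h x hx

@[simp] theorem sat_leq (a b : ℕ) : sat mU mP code E (Fm.leq a b) ρ0 ρ1 ρ2 ↔
    Leq mU (ρ0 a) (ρ0 b) := by
  simp only [Fm.leq, sat, sat_iff, tm, push_zero, Leq]

@[simp] theorem sat_es (a b : ℕ) : sat mU mP code E (Fm.es a b) ρ0 ρ1 ρ2 ↔
    Es mU E (ρ0 a) (ρ0 b) := by
  simp only [Fm.es, sat, tm, push_zero, push_succ, Es]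

@[simp] theorem sat_le (a b : ℕ) : sat mU mP code E (Fm.le a b) ρ0 ρ1 ρ2 ↔
    Le mU E (ρ0 a) (ρ0 b) := by
  rw [Fm.le, sat_or, sat_leq, sat_es, Le]

@[simp] theorem sat_wf (t : Tm) : sat mU mP code E (Fm.wf t) ρ0 ρ1 ρ2 ↔
    WF mU E (tm code ρ0 ρ2 t) := by
  simp only [Fm.wf, sat, tm, push_zero, push_one, WF]

@[simp] theorem sat_isDn (i a : ℕ) : sat mU mP code E (Fm.isDn i a) ρ0 ρ1 ρ2 ↔
    IsDn mU E (ρ1 i) (ρ0 a) := by
  simp only [Fm.isDn, sat, sat_iff, sat_le, tm, push_zero, push_succ, IsDn]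

@[simp] theorem sat_isB (i a : ℕ) : sat mU mP code E (Fm.isB i a) ρ0 ρ1 ρ2 ↔
    IsB mU mP E (ρ2 i) (ρ0 a) := by
  simp only [Fm.isB, sat, sat_iff, sat_ex0, sat_and, sat_es, sat_isDn, push_zero, push_succ, IsB]

/-- The abstract paradox: law (0) and comprehension (up to `↔`) for all formulas of the
3-sorted language, at level 1 and at level 2, is contradictory. -/
theorem false_of_comprehension (u0 : U) (Z0 : PU) (T0 : PPU)
    (law0 : ∀ w T, E w (code T) ↔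
      ∃ S, mP T S ∧ ∃ T', IsChild mU mP T' T S ∧ Leq mU (code T') w)
    (comp1 : ∀ (φ : Fm) (ρ0 : ℕ → U) (ρ1 : ℕ → PU) (ρ2 : ℕ → PPU),
      ∃ Z : PU, ∀ x, mU Z x ↔ sat mU mP code E φ (push x ρ0) ρ1 ρ2)
    (comp2 : ∀ (φ : Fm) (ρ0 : ℕ → U) (ρ1 : ℕ → PU) (ρ2 : ℕ → PPU),
      ∃ T : PPU, ∀ S, mP T S ↔ sat mU mP code E φ ρ0 (push S ρ1) ρ2) : False := by
  let e0 : ℕ → U := fun _ => u0
  let e1 : ℕ → PU := fun _ => Z0
  let e2 : ℕ → PPU := fun _ => T0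
  have D : Data mU mP code E :=
    { law0 := law0
      c1 := fun w => by
        obtain ⟨Z, hZ⟩ := comp1 (Fm.le 0 1) (push w e0) e1 e2
        exact ⟨Z, fun x => by rw [hZ x, sat_le]; simp⟩
      c2 := fun v => by
        obtain ⟨Z, hZ⟩ := comp1 (Fm.ex0 (Fm.and (.E (.var 0) (.var 2)) (Fm.le 1 0)))
          (push v e0) e1 e2
        exact ⟨Z, fun x => by rw [hZ x]; simp [sat, tm]⟩
      c3 := fun a => by
        obtain ⟨Z, hZ⟩ := comp1 (.E (.var 1) (.var 0)) (push a e0) e1 e2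
        exact ⟨Z, fun x => by rw [hZ x]; simp [sat, tm]⟩
      c4 := fun Y => by
        obtain ⟨Z, hZ⟩ := comp1 (Fm.and (.mU 0 (.var 0))
          (.all0 (.imp (.E (.var 0) (.var 1)) (.mU 0 (.var 0))))) e0 (push Y e1) e2
        exact ⟨Z, fun x => by rw [hZ x]; simp [sat, tm]⟩
      c5 := by
        obtain ⟨Z, hZ⟩ := comp1 (Fm.wf (.var 0)) e0 e1 e2
        exact ⟨Z, fun x => by rw [hZ x]; simp [tm]⟩
      c6 := by
        obtain ⟨Z, hZ⟩ := comp1 (Fm.neg (Fm.es 0 0)) e0 e1 e2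
        exact ⟨Z, fun x => by rw [hZ x]; simp⟩
      c8 := fun a => by
        obtain ⟨T, hT⟩ := comp2 (Fm.ex0 (Fm.and (Fm.es 0 1) (Fm.isDn 0 0))) (push a e0) e1 e2
        exact ⟨T, fun S => by rw [hT S]; simp⟩
      c9 := by
        obtain ⟨Z, hZ⟩ := comp1 (.all0 (.imp (Fm.le 0 1) (.imp (Fm.wf (.var 0))
          (.all2 (.imp (Fm.isB 0 0) (Fm.wf (.code 0))))))) e0 e1 e2
        exact ⟨Z, fun x => by rw [hZ x]; simp [sat, tm]⟩
      c10 := by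
        obtain ⟨T, hT⟩ := comp2 (Fm.ex0 (Fm.and (Fm.wf (.var 0)) (Fm.isDn 0 0))) e0 e1 e2
        exact ⟨T, fun S => by rw [hT S]; simp [tm]⟩
      c11 := by
        obtain ⟨Z, hZ⟩ := comp1 (.imp (Fm.wf (.var 0))
          (.all2 (.imp (Fm.isB 0 0) (Fm.neg (.E (.code 0) (.var 0)))))) e0 e1 e2
        exact ⟨Z, fun x => by rw [hZ x]; simp [sat, tm]⟩ }
  exact D.false

end

end Crest.Agent.R298.AbsFm997
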