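import Mathlib

/-!
R298 (S0452), part P, abstract form of the paradox of doc 2233 (posets coded as families of sets
ordered by inclusion).  Pure Lean, no pure type systems: the syntax side has to provide a
structure `PSys` (closed terms of three types, truth of membership, `code`, truth of `E`)
with comprehension for ten explicit predicates and the law of `E (w, code T)`.
-/

set_option autoImplicit false

namespace Crest.Agent.R298.AbsP498

universe u v w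

/-- `E0` = closed objects of the universe `U` (carrier instance), `E1` = closed sets of those,
`E2` = closed families of sets. -/
structure PSys (E0 : Type u) (E1 : Type v) (E2 : Type w) where
  m1 : E1 → E0 → Prop
  m2 : E2 → E1 → Prop
  code : E2 → E0
  El : E0 → E0 → Prop

namespace PSys

variable {E0 : Type u} {E1 : Type v} {E2 : Type w} (P : PSys E0 E1 E2)

/-- Leibniz equality (one direction) -/
def Eqv (x y : E0) : Prop := ∀ Z : E1, P.m1 Z x → P.m1 Z y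

/-- `Z` closed under taking elements of elements -/
def Down (Z : E1) : Prop := ∀ a b : E0, P.m1 Z b → P.El a b → P.m1 Z a

/-- reflexive transitive closure of `El` -/
def Le (x y : E0) : Prop := ∀ Z : E1, P.m1 Z y → P.Down Z → P.m1 Z x

/-- transitive closure of `El` -/
def Lt (x y : E0) : Prop := ∃ z : E0, P.El z y ∧ P.Le x z

def Prog (Z : E1) : Prop := ∀ v : E0, (∀ w : E0, P.El w v → P.m1 Z w) → P.m1 Z v

def WF (u : E0) : Prop := ∀ Z : E1, P.Prog Z → P.m1 Z u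

def Sub (S S' : E1) : Prop := ∀ x : E0, P.m1 S x → P.m1 S' x

/-- `T'` is (extensionally) the family of members of `T` strictly inside `S` -/
def IsChild (T : E2) (S : E1) (T' : E2) : Prop :=
  ∀ S' : E1, P.m2 T' S' ↔ (P.m2 T S' ∧ P.Sub S' S ∧ ¬ P.Sub S S')

/-- `S` is (extensionally) the down set of `w` -/
def IsDn (S : E1) (y : E0) : Prop := ∀ x : E0, P.m1 S x ↔ P.Le x y

/-- `T` is (extensionally) the family of the down sets of the points below `u` -/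
def IsB (T : E2) (y : E0) : Prop := ∀ S : E1, P.m2 T S ↔ ∃ x : E0, P.Lt x y ∧ P.IsDn S x

/-- comprehension instance, level 0 -/
def C1 (φ : E0 → Prop) : Prop := ∃ Z : E1, ∀ x, P.m1 Z x ↔ φ x

/-- comprehension instance, level 1 -/
def C2 (φ : E1 → Prop) : Prop := ∃ T : E2, ∀ S, P.m2 T S ↔ φ S

/-- The law of `E(w, code T)`. -/
def Law : Prop := ∀ (x : E0) (T : E2),
  P.El x (P.code T) ↔ ∃ S : E1, P.m2 T S ∧ ∃ T' : E2, P.IsChild T S T' ∧ P.Eqv (P.code T') x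

/-- the ten comprehension instances -/
structure Compr : Prop where
  c1 : ∀ a : E0, P.C1 (fun b => P.El a b)
  c2 : ∀ y : E0, P.C1 (fun x => P.Eqv x y ∨ P.Lt x y)
  c3 : ∀ y : E0, P.C1 (fun x => P.Le x y)
  c4 : P.C1 (fun x => P.WF x)
  c5 : ∀ Z : E1, P.C1 (fun x => ∀ y, P.El y x → P.m1 Z y)
  c6 : P.C1 (fun x => ¬ P.Lt x x)
  c7 : P.C1 (fun x => P.WF x → ∀ y, P.Le y x → ∀ T, P.IsB T y → P.WF (P.code T))
  c8 : P.C1 (fun x => P.WF x → ∀ T, P.IsB T x → ¬ P.El (P.code T) x)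
  d1 : ∀ y : E0, P.C2 (fun S => ∃ x : E0, P.Lt x y ∧ P.IsDn S x)
  d2 : P.C2 (fun S => ∃ x : E0, P.WF x ∧ P.IsDn S x)

variable {P}

lemma Eqv.refl (x : E0) : P.Eqv x x := fun _ h => h

lemma Le.refl (x : E0) : P.Le x x := fun _ h _ => h

lemma Le.trans {x y z : E0} (h1 : P.Le x y) (h2 : P.Le y z) : P.Le x z :=
  fun Z hz hd => h1 Z (h2 Z hz hd) hd

lemma Le.of_el {x y : E0} (h : P.El x y) : P.Le x y := fun _ hz hd => hd _ _ hz h

lemma Lt.le {x y : E0} (h : P.Lt x y) : P.Le x y := by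
  obtain ⟨z, h1, h2⟩ := h
  exact h2.trans (Le.of_el h1)

lemma Lt.of_el {x y : E0} (h : P.El x y) : P.Lt x y := ⟨x, h, Le.refl x⟩

lemma Lt.of_le_of_lt {x y z : E0} (h1 : P.Le x y) (h2 : P.Lt y z) : P.Lt x z := by
  obtain ⟨w', h3, h4⟩ := h2
  exact ⟨w', h3, h1.trans h4⟩

lemma Eqv.le {x y : E0} (h : P.Eqv x y) : P.Le y x := fun Z hx _ => h Z hx

section
variable (C : P.Compr)
include C

/-- decomposition of `Le` -/
lemma dec {x y : E0} (h : P.Le x y) : P.Eqv x y ∨ P.Lt x y := by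
  obtain ⟨Z, hZ⟩ := C.c2 y
  refine (hZ x).1 (h Z ((hZ y).2 (Or.inl (Eqv.refl y))) ?_)
  intro a b hb hab
  refine (hZ a).2 ?_
  rcases (hZ b).1 hb with h1 | h1
  · obtain ⟨Z', hZ'⟩ := C.c1 a
    exact Or.inr (Lt.of_el ((hZ' y).1 (h1 Z' ((hZ' b).2 hab))))
  · exact Or.inr (Lt.of_le_of_lt (Le.of_el hab) h1)

lemma Lt.of_lt_of_le {x y z : E0} (h1 : P.Lt x y) (h2 : P.Le y z) : P.Lt x z := by
  rcases dec C h2 with h | h
  · obtain ⟨w', h3, h4⟩ := h1
    obtain ⟨Z', hZ'⟩ := C.c1 w'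
    exact ⟨w', (hZ' z).1 (h Z' ((hZ' y).2 h3)), h4⟩
  · exact Lt.of_le_of_lt h1.le h

omit C in
lemma Lt.trans' {x y z : E0} (h1 : P.Lt x y) (h2 : P.Lt y z) : P.Lt x z :=
  Lt.of_le_of_lt h1.le h2

lemma WF.el {x y : E0} (hy : P.WF y) (h : P.El x y) : P.WF x := by
  intro Z hZ
  obtain ⟨Z', hZ'⟩ := C.c5 Z
  refine (hZ' y).1 (hy Z' ?_) x h
  intro v hv
  refine (hZ' v).2 ?_
  intro a ha
  exact hZ a ((hZ' a).1 (hv a ha))

lemma WF.le {x y : E0} (hy : P.WF y) (h : P.Le x y) : P.WF x := by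
  obtain ⟨Z, hZ⟩ := C.c4
  refine (hZ x).1 (h Z ((hZ y).2 hy) ?_)
  intro a b hb hab
  exact (hZ a).2 (WF.el C ((hZ b).1 hb) hab)

omit C in
lemma WF.intro {v : E0} (h : ∀ w, P.El w v → P.WF w) : P.WF v := by
  intro Z hZ
  exact hZ v fun w hw => h w hw Z hZ

lemma WF.irrefl {x : E0} (hx : P.WF x) : ¬ P.Lt x x := by
  obtain ⟨Z, hZ⟩ := C.c6
  refine (hZ x).1 (hx Z ?_)
  intro v hv
  refine (hZ v).2 ?_
  rintro ⟨w1, h1, h2⟩
  refine (hZ w1).1 (hv w1 h1) ?_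
  exact Lt.of_lt_of_le C (Lt.of_el h1) h2

lemma exDn (y : E0) : ∃ S, P.IsDn S y := C.c3 y

lemma exB (y : E0) : ∃ T, P.IsB T y := C.d1 y

omit C in
lemma IsDn.sub_iff {S S' : E1} {x y : E0} (h : P.IsDn S x) (h' : P.IsDn S' y) :
    P.Sub S S' ↔ P.Le x y := by
  constructor
  · intro hs
    exact (h' x).1 (hs x ((h x).2 (Le.refl x)))
  · intro hl z hz
    exact (h' z).2 (((h z).1 hz).trans hl)

/-- (2) -/
lemma strict_iff {S S' : E1} {x y : E0} (h : P.IsDn S x) (h' : P.IsDn S' y) (hy : P.WF y) :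
    (P.Sub S S' ∧ ¬ P.Sub S' S) ↔ P.Lt x y := by
  rw [h.sub_iff h', h'.sub_iff h]
  constructor
  · rintro ⟨h1, h2⟩
    rcases dec C h1 with h3 | h3
    · exact absurd h3.le h2
    · exact h3
  · intro h1
    refine ⟨h1.le, fun h2 => ?_⟩
    exact WF.irrefl C hy (Lt.of_le_of_lt h2 h1)

/-- (3) -/
lemma child_iff {v x : E0} {T : E2} {S : E1} (hv : P.WF v) (hT : P.IsB T v) (hx : P.Lt x v)
    (hS : P.IsDn S x) (T' : E2) : P.IsChild T S T' ↔ P.IsB T' x := by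
  have hxw : P.WF x := WF.le C hv hx.le
  have key : ∀ S', (P.m2 T S' ∧ P.Sub S' S ∧ ¬ P.Sub S S') ↔
      ∃ z : E0, P.Lt z x ∧ P.IsDn S' z := by
    intro S'
    constructor
    · rintro ⟨h1, h2⟩
      obtain ⟨z, hz, hz'⟩ := (hT S').1 h1
      exact ⟨z, (strict_iff C hz' hS hxw).1 h2, hz'⟩
    · rintro ⟨z, hz, hz'⟩
      exact ⟨(hT S').2 ⟨z, Lt.trans' hz hx, hz'⟩, (strict_iff C hz' hS hxw).2 hz⟩
  constructor
  · intro h S'
    rw [h S', key S']
  · intro h S'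
    rw [h S', key S']

/-- (3'), for the big family -/
lemma child_iff' {x : E0} {T : E2} {S : E1} (hT : ∀ S, P.m2 T S ↔ ∃ x : E0, P.WF x ∧ P.IsDn S x)
    (hx : P.WF x) (hS : P.IsDn S x) (T' : E2) : P.IsChild T S T' ↔ P.IsB T' x := by
  have key : ∀ S', (P.m2 T S' ∧ P.Sub S' S ∧ ¬ P.Sub S S') ↔
      ∃ z : E0, P.Lt z x ∧ P.IsDn S' z := by
    intro S'
    constructor
    · rintro ⟨h1, h2⟩
      obtain ⟨z, hz, hz'⟩ := (hT S').1 h1
      exact ⟨z, (strict_iff C hz' hS hx).1 h2, hz'⟩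
    · rintro ⟨z, hz, hz'⟩
      exact ⟨(hT S').2 ⟨z, WF.le C hx hz.le, hz'⟩, (strict_iff C hz' hS hx).2 hz⟩
  constructor
  · intro h S'
    rw [h S', key S']
  · intro h S'
    rw [h S', key S']

variable (L : P.Law)
include L

/-- (5) -/
lemma wf_code {v : E0} (hv : P.WF v) {T : E2} (hT : P.IsB T v) : P.WF (P.code T) := by
  obtain ⟨Z, hZ⟩ := C.c7
  refine (hZ v).1 (hv Z ?_) hv v (Le.refl v) T hT
  clear hv hT T v
  intro v ih
  refine (hZ v).2 ?_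
  intro hv y hy T hT
  rcases dec C hy with h | h
  · refine WF.intro fun a ha => ?_
    obtain ⟨S, hS, T', hT', he⟩ := (L a T).1 ha
    obtain ⟨x, hx, hSx⟩ := (hT S).1 hS
    have hyw : P.WF y := WF.le C hv hy
    have hB : P.IsB T' x := (child_iff C hyw hT hx hSx T').1 hT'
    obtain ⟨w1, h1, h2⟩ := hx
    obtain ⟨Z1, hZ1⟩ := C.c1 w1
    have h3 : P.El w1 v := (hZ1 v).1 (h Z1 ((hZ1 y).2 h1))
    have h4 : P.WF (P.code T') := (hZ w1).1 (ih w1 h3) (WF.el C hv h3) x h2 T' hB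
    obtain ⟨Z2, hZ2⟩ := C.c4
    exact (hZ2 a).1 (he Z2 ((hZ2 _).2 h4))
  · obtain ⟨w1, h1, h2⟩ := h
    exact (hZ w1).1 (ih w1 h1) (WF.el C hv h1) y h2 T hT

/-- (8) -/
lemma not_el_code {v : E0} (hv : P.WF v) {T : E2} (hT : P.IsB T v) : ¬ P.El (P.code T) v := by
  obtain ⟨Z, hZ⟩ := C.c8
  refine (hZ v).1 (hv Z ?_) hv T hT
  clear hv hT T v
  intro v ih
  refine (hZ v).2 ?_
  intro hv T hT hel
  have h1 := (hZ (P.code T)).1 (ih _ hel) (WF.el C hv hel)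
  obtain ⟨T', hT'⟩ := exB C (P.code T)
  refine h1 T' hT' ?_
  obtain ⟨S, hS⟩ := exDn C (P.code T)
  have hlt : P.Lt (P.code T) v := Lt.of_el hel
  exact (L _ _).2 ⟨S, (hT S).2 ⟨_, hlt, hS⟩, T', (child_iff C hv hT hlt hS T').2 hT', Eqv.refl _⟩

/-- The paradox. -/
theorem paradox : False := by
  obtain ⟨TO, hTO⟩ := C.d2
  have hwf : P.WF (P.code TO) := by
    refine WF.intro fun a ha => ?_
    obtain ⟨S, hS, T', hT', he⟩ := (L a TO).1 ha
    obtain ⟨x, hx, hSx⟩ := (hTO S).1 hS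
    have hB : P.IsB T' x := (child_iff' C hTO hx hSx T').1 hT'
    have h4 : P.WF (P.code T') := wf_code C L hx hB
    obtain ⟨Z2, hZ2⟩ := C.c4
    exact (hZ2 a).1 (he Z2 ((hZ2 _).2 h4))
  obtain ⟨T', hT'⟩ := exB C (P.code TO)
  refine not_el_code C L hwf hT' ?_
  obtain ⟨S, hS⟩ := exDn C (P.code TO)
  exact (L _ _).2 ⟨S, (hTO S).2 ⟨_, hwf, hS⟩, T', (child_iff' C hTO hwf hS T').2 hT', Eqv.refl _⟩

end

end PSys

end Crest.Agent.R298.AbsP498
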