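import Mathlib.Tactic
import Mathlib.Data.List.Basic
import Mathlib.Order.WellFounded
import Crest.Prelude.Def_PTS

/-!
R298 (S0452), helper595: the reduction to finite specifications whose type of sorts is `Fin n`
(in particular sorts in `Type 0`), for every universe of the frozen statement.

Main theorem: `reduce_fin`.
-/

set_option autoImplicit false

namespace Crest.Agent.R298.Fin595

open Crest.LogicCS.PTS Crest.LogicCS.PTS.Term

universe u v

/-- replace every sort `s` of a term by `f s` -/
def smap {S : Type u} {T : Type v} (f : S → T) : Term S → Term T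
  | var i => var i
  | sort s => sort (f s)
  | app M N => app (smap f M) (smap f N)
  | lam A M => lam (smap f A) (smap f M)
  | pi A B => pi (smap f A) (smap f B)

section
variable {S : Type u} {T : Type v} (f : S → T)

@[simp] theorem smap_var (i : ℕ) : smap f (var i) = var i := rfl
@[simp] theorem smap_sort (s : S) : smap f (sort s) = sort (f s) := rfl
@[simp] theorem smap_app (M N : Term S) : smap f (app M N) = app (smap f M) (smap f N) := rfl
@[simp] theorem smap_lam (A M : Term S) : smap f (lam A M) = lam (smap f A) (smap f M) := rfl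
@[simp] theorem smap_pi (A B : Term S) : smap f (pi A B) = pi (smap f A) (smap f B) := rfl

theorem smap_shift (c : ℕ) (M : Term S) : smap f (shift c M) = shift c (smap f M) := by
  induction M generalizing c with
  | var i =>
      by_cases h : i < c
      · simp [shift, h]
      · simp [shift, h]
  | sort s => rfl
  | app M N h1 h2 => simp [shift, h1, h2]
  | lam A M h1 h2 => simp [shift, h1, h2]
  | pi A B h1 h2 => simp [shift, h1, h2]

theorem smap_shiftBy (n : ℕ) (M : Term S) : smap f (shiftBy n M) = shiftBy n (smap f M) := by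
  induction n with
  | zero => rfl
  | succ n ih => simp only [shiftBy, smap_shift, ih]

theorem smap_substAt (k : ℕ) (N M : Term S) :
    smap f (substAt k N M) = substAt k (smap f N) (smap f M) := by
  induction M generalizing k with
  | var i =>
      by_cases h : i < k
      · simp [substAt, h]
      · by_cases h' : i = k
        · simp [substAt, h', smap_shiftBy]
        · simp [substAt, h, h']
  | sort s => rfl
  | app M N h1 h2 => simp [substAt, h1, h2]
  | lam A M h1 h2 => simp [substAt, h1, h2]
  | pi A B h1 h2 => simp [substAt, h1, h2]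

theorem smap_subst (N M : Term S) : smap f (subst N M) = subst (smap f N) (smap f M) :=
  smap_substAt f 0 N M

/-- beta steps are preserved by every sort map -/
theorem beta_smap {M N : Term S} (h : Beta M N) : Beta (smap f M) (smap f N) := by
  induction h with
  | redex A M N =>
      rw [smap_subst]
      exact Beta.redex _ _ _
  | appL N _ ih => exact Beta.appL _ ih
  | appR M _ ih => exact Beta.appR _ ih
  | lamA M _ ih => exact Beta.lamA _ ih
  | lamM A _ ih => exact Beta.lamM _ ih
  | piA B _ ih => exact Beta.piA _ ih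
  | piB A _ ih => exact Beta.piB _ ih

/-- beta steps of a mapped term are mapped beta steps -/
theorem beta_smap_inv {M : Term S} {N : Term T} (h : Beta (smap f M) N) :
    ∃ M', Beta M M' ∧ smap f M' = N := by
  induction M generalizing N with
  | var i => cases h
  | sort s => cases h
  | app M N ih1 ih2 =>
      rw [smap_app] at h
      generalize hM : smap f M = X at h
      cases h with
      | redex A B N' =>
          cases M with
          | var i => cases hM
          | sort s => cases hM
          | app _ _ => cases hM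
          | pi _ _ => cases hM
          | lam A0 B0 =>
              rw [smap_lam] at hM
              injection hM with e1 e2
              subst e1 e2
              exact ⟨subst N B0, Beta.redex _ _ _, smap_subst f N B0⟩
      | appL _ h =>
          subst hM
          obtain ⟨M', h1, h2⟩ := ih1 h
          exact ⟨app M' N, Beta.appL _ h1, by rw [smap_app, h2]⟩
      | appR _ h =>
          subst hM
          obtain ⟨N', h1, h2⟩ := ih2 h
          exact ⟨app M N', Beta.appR _ h1, by rw [smap_app, h2]⟩
  | lam A M ih1 ih2 =>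
      rw [smap_lam] at h
      cases h with
      | lamA _ h =>
          obtain ⟨A', h1, h2⟩ := ih1 h
          exact ⟨lam A' M, Beta.lamA _ h1, by rw [smap_lam, h2]⟩
      | lamM _ h =>
          obtain ⟨M', h1, h2⟩ := ih2 h
          exact ⟨lam A M', Beta.lamM _ h1, by rw [smap_lam, h2]⟩
  | pi A B ih1 ih2 =>
      rw [smap_pi] at h
      cases h with
      | piA _ h =>
          obtain ⟨A', h1, h2⟩ := ih1 h
          exact ⟨pi A' B, Beta.piA _ h1, by rw [smap_pi, h2]⟩
      | piB _ h =>
          obtain ⟨B', h1, h2⟩ := ih2 h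
          exact ⟨pi A B', Beta.piB _ h1, by rw [smap_pi, h2]⟩

theorem betaEq_smap {M N : Term S} (h : BetaEq M N) : BetaEq (smap f M) (smap f N) := by
  induction h with
  | rel _ _ h => exact .rel _ _ (beta_smap f h)
  | refl _ => exact .refl _
  | symm _ _ _ ih => exact .symm _ _ ih
  | trans _ _ _ _ _ ih1 ih2 => exact .trans _ _ _ ih1 ih2

theorem red_smap_inv {M : Term S} {N : Term T}
    (h : Relation.ReflTransGen Beta (smap f M) N) :
    ∃ M', Relation.ReflTransGen Beta M M' ∧ smap f M' = N := by
  induction h with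
  | refl => exact ⟨M, .refl, rfl⟩
  | tail _ h ih =>
      obtain ⟨M1, h1, rfl⟩ := ih
      obtain ⟨M2, h2, rfl⟩ := beta_smap_inv f h
      exact ⟨M2, h1.tail h2, rfl⟩

/-- weak normalization is reflected by every sort map -/
theorem wn_of_smap {M : Term S} (h : WN (smap f M)) : WN M := by
  obtain ⟨N, h1, h2⟩ := h
  obtain ⟨M', h3, rfl⟩ := red_smap_inv f h1
  exact ⟨M', h3, fun K hK => h2 _ (beta_smap f hK)⟩

/-- strong normalization is reflected by every sort map -/
theorem sn_of_smap {M : Term S} (h : SN (smap f M)) : SN M := by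
  rintro ⟨g, hg, hs⟩
  exact h ⟨fun n => smap f (g n), by simp [hg], fun n => beta_smap f (hs n)⟩

/-- strong normalization is preserved by every sort map -/
theorem sn_smap {M : Term S} (h : SN M) : SN (smap f M) := by
  rintro ⟨g, hg, hs⟩
  choose! F hF1 hF2 using
    (fun (K : Term S) (N : Term T) (h : Beta (smap f K) N) => beta_smap_inv f h)
  let k : ℕ → Term S := fun n => Nat.rec M (fun n K => F K (g (n + 1))) n
  have hk : ∀ n, smap f (k n) = g n := by
    intro n
    induction n with
    | zero => exact hg.symm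
    | succ n ih =>
        have : Beta (smap f (k n)) (g (n + 1)) := by rw [ih]; exact hs n
        exact hF2 _ _ this
  refine h ⟨k, rfl, fun n => ?_⟩
  have : Beta (smap f (k n)) (g (n + 1)) := by rw [hk n]; exact hs n
  exact hF1 _ _ this

/-- weak normalization is preserved by every sort map -/
theorem wn_smap {M : Term S} (h : WN M) : WN (smap f M) := by
  obtain ⟨N, h1, h2⟩ := h
  refine ⟨smap f N, ?_, fun K hK => ?_⟩
  · clear h2
    induction h1 with
    | refl => exact .refl
    | tail _ h ih => exact ih.tail (beta_smap f h)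
  · obtain ⟨K', h3, _⟩ := beta_smap_inv f hK
    exact h2 _ h3

end

/-! ### typing -/

section
variable {S : Type u} {T : Type v}

/-- pull back a specification along a map of sorts -/
def comap (e : T → S) (P : Spec S) : Spec T where
  ax a b := P.ax (e a) (e b)
  rule a b c := P.rule (e a) (e b) (e c)

/-- typing is preserved by a map of sorts that preserves axioms and rules -/
theorem typed_smap (f : S → T) {P : Spec S} {Q : Spec T}
    (hax : ∀ a b, P.ax a b → Q.ax (f a) (f b))
    (hrule : ∀ a b c, P.rule a b c → Q.rule (f a) (f b) (f c))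
    {Γ : List (Term S)} {M A : Term S} (h : Typed P Γ M A) :
    Typed Q (Γ.map (smap f)) (smap f M) (smap f A) := by
  induction h with
  | ax h => exact Typed.ax (hax _ _ h)
  | start _ ih =>
      rw [List.map_cons, smap_shift]
      exact Typed.start ih
  | weak _ _ ih1 ih2 =>
      rw [List.map_cons, smap_shift, smap_shift]
      exact Typed.weak ih1 ih2
  | prod _ _ hr ih1 ih2 =>
      exact Typed.prod ih1 ih2 (hrule _ _ _ hr)
  | abs _ _ ih1 ih2 => exact Typed.abs ih1 ih2
  | appl _ _ ih1 ih2 =>
      rw [smap_subst]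
      exact Typed.appl ih1 ih2
  | conv _ _ hb ih1 ih2 => exact Typed.conv ih1 ih2 (betaEq_smap f hb)

theorem typed_comap (e : T → S) {P : Spec S} {Γ : List (Term T)} {M A : Term T}
    (h : Typed (comap e P) Γ M A) :
    Typed P (Γ.map (smap e)) (smap e M) (smap e A) :=
  typed_smap e (fun _ _ h => h) (fun _ _ _ h => h) h

theorem legal_comap (e : T → S) {P : Spec S} {Γ : List (Term T)} {M : Term T}
    (h : Legal (comap e P) Γ M) : Legal P (Γ.map (smap e)) (smap e M) := by
  obtain ⟨N, h | h⟩ := h
  · exact ⟨smap e N, .inl (typed_comap e h)⟩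
  · exact ⟨smap e N, .inr (typed_comap e h)⟩

/-- a derivation uses finitely many axioms and rules: it can be copied along every map `g` of
sorts with a section-like inverse `e` on a suitable finite set of sorts -/
theorem typed_finite {P : Spec S} {Γ : List (Term S)} {M A : Term S} (h : Typed P Γ M A) :
    ∃ F : Set S, F.Finite ∧ ∀ (T : Type v) (e : T → S) (g : S → T),
      (∀ s ∈ F, e (g s) = s) →
      Typed (comap e P) (Γ.map (smap g)) (smap g M) (smap g A) := by
  induction h with
  | @ax s₁ s₂ h =>
      refine ⟨{s₁, s₂}, by simp, fun T e g hg => Typed.ax ?_⟩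
      show P.ax (e (g s₁)) (e (g s₂))
      rw [hg s₁ (by simp), hg s₂ (by simp)]
      exact h
  | start _ ih =>
      obtain ⟨F, hF, ih⟩ := ih
      refine ⟨F, hF, fun T e g hg => ?_⟩
      rw [List.map_cons, smap_shift]
      exact Typed.start (ih T e g hg)
  | weak _ _ ih1 ih2 =>
      obtain ⟨F1, hF1, ih1⟩ := ih1
      obtain ⟨F2, hF2, ih2⟩ := ih2
      refine ⟨F1 ∪ F2, hF1.union hF2, fun T e g hg => ?_⟩
      rw [List.map_cons, smap_shift, smap_shift]
      exact Typed.weak (ih1 T e g fun s hs => hg s (.inl hs)) (ih2 T e g fun s hs => hg s (.inr hs))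
  | @prod Γ A B s₁ s₂ s₃ _ _ hr ih1 ih2 =>
      obtain ⟨F1, hF1, ih1⟩ := ih1
      obtain ⟨F2, hF2, ih2⟩ := ih2
      refine ⟨(F1 ∪ F2) ∪ {s₁, s₂, s₃}, (hF1.union hF2).union (by simp), fun T e g hg => ?_⟩
      refine Typed.prod (ih1 T e g fun s hs => hg s (.inl (.inl hs)))
        (ih2 T e g fun s hs => hg s (.inl (.inr hs))) ?_
      show P.rule (e (g s₁)) (e (g s₂)) (e (g s₃))
      rw [hg s₁ (by simp), hg s₂ (by simp), hg s₃ (by simp)]
      exact hr
  | abs _ _ ih1 ih2 =>
      obtain ⟨F1, hF1, ih1⟩ := ih1
      obtain ⟨F2, hF2, ih2⟩ := ih2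
      exact ⟨F1 ∪ F2, hF1.union hF2, fun T e g hg =>
        Typed.abs (ih1 T e g fun s hs => hg s (.inl hs)) (ih2 T e g fun s hs => hg s (.inr hs))⟩
  | appl _ _ ih1 ih2 =>
      obtain ⟨F1, hF1, ih1⟩ := ih1
      obtain ⟨F2, hF2, ih2⟩ := ih2
      refine ⟨F1 ∪ F2, hF1.union hF2, fun T e g hg => ?_⟩
      rw [smap_subst]
      exact Typed.appl (ih1 T e g fun s hs => hg s (.inl hs))
        (ih2 T e g fun s hs => hg s (.inr hs))
  | conv _ _ hb ih1 ih2 =>
      obtain ⟨F1, hF1, ih1⟩ := ih1
      obtain ⟨F2, hF2, ih2⟩ := ih2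
      exact ⟨F1 ∪ F2, hF1.union hF2, fun T e g hg =>
        Typed.conv (ih1 T e g fun s hs => hg s (.inl hs))
          (ih2 T e g fun s hs => hg s (.inr hs)) (betaEq_smap g hb)⟩

theorem nonempty_sort {P : Spec S} {Γ : List (Term S)} {M A : Term S} (h : Typed P Γ M A) :
    Nonempty S := by
  induction h with
  | @ax s₁ _ _ => exact ⟨s₁⟩
  | start _ ih => exact ih
  | weak _ _ ih _ => exact ih
  | prod _ _ _ ih _ => exact ih
  | abs _ _ ih _ => exact ih
  | appl _ _ ih _ => exact ih
  | conv _ _ _ ih _ => exact ih

/-- a finite set of sorts is covered by some `Fin n` -/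
theorem cover {F : Set S} (hF : F.Finite) (hS : Nonempty S) :
    ∃ (n : ℕ) (e : Fin n → S) (g : S → Fin n), ∀ s ∈ F, e (g s) = s := by
  classical
  obtain ⟨s₀⟩ := hS
  obtain ⟨l, hl⟩ : ∃ l : List S, ∀ s ∈ F, s ∈ l :=
    ⟨hF.toFinset.toList, fun s hs => by simpa using hs⟩
  let e : Fin (l.length + 1) → S := fun i => l.getD i s₀
  refine ⟨l.length + 1, e, Function.invFun e, fun s hs => Function.invFun_eq ?_⟩
  obtain ⟨i, hi, he⟩ := List.getElem_of_mem (hl s hs)
  exact ⟨⟨i, by omega⟩, by simp [e, List.getD, hi, he]⟩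

end

/-- **Finite specifications over `Fin n` suffice.** -/
theorem reduce_fin
    (H : ∀ (n : ℕ) (P : Spec (Fin n)), (∀ (Γ : List (Term (Fin n))) (M : Term (Fin n)),
      Legal P Γ M → WN M) → ∀ (Γ : List (Term (Fin n))) (M : Term (Fin n)), Legal P Γ M → SN M)
    {S : Type u} (P : Spec S) (h : ∀ (Γ : List (Term S)) (M : Term S), Legal P Γ M → WN M)
    (Γ : List (Term S)) (M : Term S) (hM : Legal P Γ M) : SN M := by
  have key : ∀ (Γ : List (Term S)) (M A : Term S), Typed P Γ M A → SN M ∧ SN A := by
    intro Γ M A hT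
    obtain ⟨F, hF, hcopy⟩ := typed_finite.{u, 0} hT
    obtain ⟨n, e, g, he⟩ := cover hF (nonempty_sort hT)
    have hT' := hcopy (Fin n) e g he
    have hn := H n (comap e P) fun Γ' M' hM' => wn_of_smap e (h _ _ (legal_comap e hM'))
    exact ⟨sn_of_smap g (hn _ _ ⟨_, .inl hT'⟩), sn_of_smap g (hn _ _ ⟨_, .inr hT'⟩)⟩
  obtain ⟨N, hM | hM⟩ := hM
  · exact (key _ _ _ hM).1
  · exact (key _ _ _ hM).2

/-! ### the frozen `SN` is accessibility -/

theorem sn_iff_acc {S : Type u} (M : Term S) : SN M ↔ Acc (fun N K : Term S => Beta K N) M := by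
  constructor
  · intro h
    by_contra hc
    obtain ⟨g, hg, hs⟩ := (not_acc_iff_exists_descending_chain (x := M)).1 hc
    exact h ⟨g, hg, hs⟩
  · intro h
    rintro ⟨g, hg, hs⟩
    exact (not_acc_iff_exists_descending_chain (x := M)).2 ⟨g, hg, hs⟩ h

end Crest.Agent.R298.Fin595
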