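import Crest.Agent.R298.Ty_452
import Crest.Agent.R298.Fin_595

/-!
R298 (S0452), helper734: THE ATOM EXTENSION.

`Pp P : Spec (S ⊕ S)` has the sorts, axioms and rules of `P` and, for every sort `s` of `P` that is
inhabited in some context, one more axiom `inl s : inr s`, so that fresh type variables ("atoms")
`X : s` may be declared in contexts for EVERY inhabited sort `s` (also for top sorts).

Main theorem `wn_Pp`: if every legal expression of `P` is weakly normalizing, so is every legal
expression of `Pp P`.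
-/

set_option autoImplicit false

namespace Crest.Agent.R298.At734

open Crest.LogicCS.PTS Crest.LogicCS.PTS.Term Relation
open Crest.Agent.R298.Sub452 Crest.Agent.R298.Par452 Crest.Agent.R298.Ty452
open Crest.Agent.R298.Fin595

universe u v
variable {S : Type u} {T : Type v}

/-! ### sort maps and the substitution calculus -/

theorem smap_ren (f : S → T) (ρ : ℕ → ℕ) (M : Term S) :
    smap f (ren ρ M) = ren ρ (smap f M) := by
  induction M generalizing ρ with
  | var i => rfl
  | sort s => rfl
  | app M N h1 h2 => simp [h1, h2]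
  | lam A M h1 h2 => simp [h1, h2]
  | pi A B h1 h2 => simp [h1, h2]

theorem smap_ups (f : S → T) (σ : ℕ → Term S) :
    (fun i => smap f (ups σ i)) = ups (fun i => smap f (σ i)) := by
  funext i
  cases i with
  | zero => rfl
  | succ i => simp only [ups_succ, wk, smap_ren]

theorem smap_sub (f : S → T) (σ : ℕ → Term S) (M : Term S) :
    smap f (sub σ M) = sub (fun i => smap f (σ i)) (smap f M) := by
  induction M generalizing σ with
  | var i => rfl
  | sort s => rfl
  | app M N h1 h2 => simp [h1, h2]
  | lam A M h1 h2 => simp [h1, h2, smap_ups]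
  | pi A B h1 h2 => simp [h1, h2, smap_ups]

theorem smap_inst (f : S → T) (N M : Term S) :
    smap f (inst N M) = inst (smap f N) (smap f M) := by
  simp only [inst, smap_sub]
  congr 1
  funext i
  cases i <;> rfl

/-! ### substitutions by normal terms which are not abstractions -/

/-- normal and not an abstraction -/
def NN (M : Term S) : Prop := Normal M ∧ ∀ A B, M ≠ lam A B

theorem NN.var (i : ℕ) : NN (S := S) (var i) :=
  ⟨(fun N h => by cases h), (fun A B h => by cases h)⟩

theorem NN.ren {M : Term S} (h : NN M) (ρ : ℕ → ℕ) : NN (ren ρ M) := by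
  refine ⟨fun N hN => ?_, fun A B e => ?_⟩
  · obtain ⟨M', h1, -⟩ := beta_ren_inv hN
    exact h.1 _ h1
  · cases M with
    | lam A' B' => exact h.2 _ _ rfl
    | var i => cases e
    | sort i => cases e
    | app _ _ => cases e
    | pi _ _ => cases e

theorem NN.ups {σ : ℕ → Term S} (h : ∀ i, NN (σ i)) : ∀ i, NN (ups σ i)
  | 0 => NN.var 0
  | i + 1 => (h i).ren _

/-- such substitutions create no redex -/
theorem beta_sub_inv {M N : Term S} {σ : ℕ → Term S} (hσ : ∀ i, NN (σ i))
    (h : Beta (sub σ M) N) : ∃ M', Beta M M' ∧ N = sub σ M' := by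
  induction M generalizing σ N with
  | var i => exact ((hσ i).1 _ h).elim
  | sort s => cases h
  | app M1 M2 ih1 ih2 =>
      rw [sub_app] at h
      generalize hX : sub σ M1 = X at h
      cases h with
      | redex A M _ =>
          cases M1 with
          | var i => exact ((hσ i).2 _ _ hX).elim
          | sort s => cases hX
          | app _ _ => cases hX
          | pi _ _ => cases hX
          | lam A0 M0 =>
              rw [sub_lam] at hX
              injection hX with e1 e2
              subst e1 e2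
              refine ⟨_, beta_redex A0 M0 M2, ?_⟩
              rw [subst_eq, sub_inst]
      | appL _ h =>
          subst hX
          obtain ⟨M', a, b⟩ := ih1 hσ h
          exact ⟨_, .appL _ a, by rw [b]; rfl⟩
      | appR _ h =>
          subst hX
          obtain ⟨M', a, b⟩ := ih2 hσ h
          exact ⟨_, .appR _ a, by rw [b]; rfl⟩
  | lam M1 M2 ih1 ih2 =>
      rw [sub_lam] at h
      cases h with
      | lamA _ h =>
          obtain ⟨M', a, b⟩ := ih1 hσ h
          exact ⟨_, .lamA _ a, by rw [b]; rfl⟩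
      | lamM _ h =>
          obtain ⟨M', a, b⟩ := ih2 (NN.ups hσ) h
          exact ⟨_, .lamM _ a, by rw [b]; rfl⟩
  | pi M1 M2 ih1 ih2 =>
      rw [sub_pi] at h
      cases h with
      | piA _ h =>
          obtain ⟨M', a, b⟩ := ih1 hσ h
          exact ⟨_, .piA _ a, by rw [b]; rfl⟩
      | piB _ h =>
          obtain ⟨M', a, b⟩ := ih2 (NN.ups hσ) h
          exact ⟨_, .piB _ a, by rw [b]; rfl⟩

theorem red_sub_inv {M N : Term S} {σ : ℕ → Term S} (hσ : ∀ i, NN (σ i))
    (h : Red (sub σ M) N) : ∃ M', Red M M' ∧ N = sub σ M' := by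
  induction h with
  | refl => exact ⟨M, .refl, rfl⟩
  | tail _ h ih =>
      obtain ⟨M1, h1, rfl⟩ := ih
      obtain ⟨M2, h2, rfl⟩ := beta_sub_inv hσ h
      exact ⟨M2, h1.tail h2, rfl⟩

/-- weak normalization is reflected by substitutions of normal terms that are not abstractions -/
theorem wn_of_sub {M : Term S} {σ : ℕ → Term S} (hσ : ∀ i, NN (σ i)) (h : WN (sub σ M)) :
    WN M := by
  obtain ⟨N, h1, h2⟩ := h
  obtain ⟨M', h3, rfl⟩ := red_sub_inv hσ h1
  exact ⟨M', h3, fun K hK => h2 _ (Beta.sub hK σ)⟩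

/-! ### concatenation of contexts -/

section
variable {P : Spec S}

theorem Lk.append_left {Θ : List (Term S)} {i : ℕ} {A : Term S} (h : Lk Θ i A)
    (Δ : List (Term S)) : Lk (Θ ++ Δ) i A := by
  induction h with
  | zero A Γ => exact .zero _ _
  | succ B _ ih => exact .succ _ ih

theorem Lk.append_right {Δ : List (Term S)} {i : ℕ} {A : Term S} (h : Lk Δ i A)
    (Θ : List (Term S)) : Lk (Θ ++ Δ) (i + Θ.length) (ren (fun i => i + Θ.length) A) := by
  induction Θ with
  | nil => simpa [ren_id] using h
  | cons B Θ ih =>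
      have := Lk.succ B ih
      rw [wk, ren_ren] at this
      exact this

theorem RenOk.left (Θ Δ : List (Term S)) : RenOk (fun i => i) Θ (Θ ++ Δ) :=
  fun _ _ h => by rw [ren_id]; exact Lk.append_left h Δ

theorem RenOk.right (Θ Δ : List (Term S)) : RenOk (fun i => i + Θ.length) Δ (Θ ++ Δ) :=
  fun _ _ h => Lk.append_right h Θ

theorem Wf.append {Θ Δ : List (Term S)} (h : Wf P Θ) (h' : Wf P Δ) : Wf P (Θ ++ Δ) := by
  induction h with
  | nil => exact h'
  | @cons Γ A s _ h ih =>
      refine .cons (s := s) ih ?_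
      have := typed_ren h ih (RenOk.left _ Δ)
      rwa [ren_id, ren_id] at this

theorem Typed.append_left {Θ Δ : List (Term S)} {M A : Term S} (h : Typed P Θ M A)
    (h' : Wf P Δ) : Typed P (Θ ++ Δ) M A := by
  have := typed_ren h (Wf.append (twf h) h') (RenOk.left _ Δ)
  rwa [ren_id, ren_id] at this

end

/-! ### the atom extension -/

/-- the sort `s` is inhabited in some context -/
def Inh (P : Spec S) (s : S) : Prop := ∃ Θ B, Typed P Θ B (sort s)

/-- the atom extension -/
def Pp (P : Spec S) : Spec (S ⊕ S) where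
  ax
    | .inl s, .inl t => P.ax s t
    | .inl s, .inr t => s = t ∧ Inh P s
    | .inr _, _ => False
  rule
    | .inl a, .inl b, .inl c => P.rule a b c
    | _, _, _ => False

/-- forget the copies -/
abbrev dn : Term (S ⊕ S) → Term S := smap (Sum.elim id id)

variable {P : Spec S}

theorem Pp_rule {a b c : S ⊕ S} (h : (Pp P).rule a b c) :
    ∃ a' b' c', a = .inl a' ∧ b = .inl b' ∧ c = .inl c' ∧ P.rule a' b' c' := by
  rcases a with a | a <;> rcases b with b | b <;> rcases c with c | c <;>
    first
    | exact ⟨a, b, c, rfl, rfl, rfl, h⟩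
    | exact (h : False).elim

theorem not_typed_inr {Γ : List (Term (S ⊕ S))} {s : S} {C : Term (S ⊕ S)}
    (h : Typed (Pp P) Γ (sort (.inr s)) C) : False := by
  obtain ⟨s', h, -⟩ := gen_sort h
  exact h

theorem wk_eq_sort {M : Term S} {s : S} (h : wk M = sort s) : M = sort s := by
  cases M with
  | sort t => exact h
  | var i => cases h
  | app _ _ => cases h
  | lam _ _ => cases h
  | pi _ _ => cases h

/-- a typed term is not convertible with a sort `inr s` -/
theorem not_eq_inr {Γ : List (Term (S ⊕ S))} {s : S} {M C : Term (S ⊕ S)}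
    (h : Typed (Pp P) Γ M C) (e : BetaEq M (sort (.inr s))) : False :=
  not_typed_inr (SR h (red_of_eq_sort e))

/-- the terms of type `inr t` -/
theorem exceptional {Γ : List (Term (S ⊕ S))} {M A : Term (S ⊕ S)} (h : Typed (Pp P) Γ M A) :
    ∀ t, A = sort (.inr t) → M = sort (.inl t) := by
  refine typed_ind (P := Pp P) (motive := fun _ M A => ∀ t, A = sort (.inr t) → M = sort (.inl t))
    ?_ ?_ ?_ ?_ ?_ ?_ ?_ h
  · intro s₁ s₂ a t e
    injection e with e
    subst e
    rcases s₁ with s | s
    · obtain ⟨rfl, -⟩ : s = t ∧ Inh P s := a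
      rfl
    · exact (a : False).elim
  · intro Γ A s h _ t e
    have := wk_eq_sort e
    subst this
    exact (not_typed_inr h).elim
  · intro Γ M B A s h h' ih _ t e
    rw [ih t (wk_eq_sort e)]
    rfl
  · intro Γ A B s₁ s₂ s₃ h h' r _ _ t e
    injection e with e
    subst e
    obtain ⟨a, b, c, -, -, e, -⟩ := Pp_rule r
    cases e
  · intro Γ A M B s _ _ _ _ t e; cases e
  · intro Γ M N A B h h' _ _ t e
    obtain ⟨s, hp⟩ := pi_typed h
    obtain ⟨s₁, s₂, s₃, hA, hB, r, -⟩ := gen_pi hp
    have := typed_inst hB h'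
    rw [e] at this
    exact (not_typed_inr this).elim
  · intro Γ M A B s h h' e' _ _ t e
    subst e
    exact (not_typed_inr h').elim

/-- transfer substitutions -/
def SubT (P : Spec S) (σ : ℕ → Term S) (Γ : List (Term (S ⊕ S))) (Δ : List (Term S)) : Prop :=
  ∀ i A, Lk Γ i A → Typed P Δ (σ i) (sub σ (dn A))

theorem dn_wk (A : Term (S ⊕ S)) : dn (wk A) = wk (dn A) := smap_ren _ _ _

theorem SubT.ups {σ : ℕ → Term S} {Γ : List (Term (S ⊕ S))} {Δ : List (Term S)}
    (h : SubT P σ Γ Δ) {A : Term (S ⊕ S)} {s : S}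
    (hA : Typed P Δ (sub σ (dn A)) (sort s)) :
    SubT P (ups σ) (A :: Γ) (sub σ (dn A) :: Δ) := by
  intro i B hl
  cases hl with
  | zero _ _ => rw [dn_wk, sub_wk]; exact t_start hA
  | succ _ hl => rw [dn_wk, sub_wk]; exact t_weak (h _ _ hl) hA

/-- transfer from the atom extension to `P` -/
theorem transfer {Γ : List (Term (S ⊕ S))} {M A : Term (S ⊕ S)} (h : Typed (Pp P) Γ M A) :
    ∀ {Δ : List (Term S)} {σ : ℕ → Term S}, Wf P Δ → SubT P σ Γ Δ → (∀ s, A ≠ sort (.inr s)) →
      Typed P Δ (sub σ (dn M)) (sub σ (dn A)) := by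
  refine typed_ind (P := Pp P) (motive := fun Γ M A => ∀ {Δ : List (Term S)} {σ : ℕ → Term S},
    Wf P Δ → SubT P σ Γ Δ → (∀ s, A ≠ sort (.inr s)) →
      Typed P Δ (sub σ (dn M)) (sub σ (dn A))) ?_ ?_ ?_ ?_ ?_ ?_ ?_ h
  · intro s₁ s₂ a Δ σ w _ hA
    rcases s₁ with s | s
    · rcases s₂ with t | t
      · exact ax_wf w a
      · exact (hA t rfl).elim
    · exact (a : False).elim
  · intro Γ A s _ _ Δ σ w hr _
    exact hr 0 _ (.zero _ _)
  · intro Γ M B A s _ _ ih _ Δ σ w hr hB
    have := ih (Δ := Δ) (σ := fun i => σ (Nat.succ i)) w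
      (fun i C hl => by
        have := hr _ _ (Lk.succ A hl)
        simpa only [dn_wk, wk, sub_ren] using this)
      (fun s e => hB s (by rw [e]; rfl))
    simpa only [dn_wk, wk, sub_ren] using this
  · intro Γ A B s₁ s₂ s₃ h h' r ih ih' Δ σ w hr _
    obtain ⟨a, b, c, rfl, rfl, rfl, r'⟩ := Pp_rule r
    have ha : Typed P Δ (sub σ (dn A)) (sort a) := ih w hr (fun s e => by cases e)
    have hb : Typed P (sub σ (dn A) :: Δ) (sub (ups σ) (dn B)) (sort b) :=
      ih' (.cons w ha) (hr.ups ha) (fun s e => by cases e)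
    exact .prod ha hb r'
  · intro Γ A M B s h h' ih ih' Δ σ w hr _
    obtain ⟨s₁, s₂, s₃, hA, hB, r, e⟩ := gen_pi h'
    obtain ⟨a, b, c, rfl, rfl, rfl, r'⟩ := Pp_rule r
    have hs := sort_inj e
    subst hs
    have hp : Typed P Δ (pi (sub σ (dn A)) (sub (ups σ) (dn B))) (sort c) :=
      ih' w hr (fun s e => by cases e)
    obtain ⟨s', hA'⟩ := pi_dom hp
    refine .abs (ih (.cons w hA') (hr.ups hA') ?_) hp
    intro t e
    subst e
    exact not_typed_inr hB
  · intro Γ M N A B h h' ih ih' Δ σ w hr _
    obtain ⟨s, hp⟩ := pi_typed h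
    obtain ⟨s₁, s₂, s₃, hA, hB, r, e⟩ := gen_pi hp
    have h1 : Typed P Δ (sub σ (dn M)) (pi (sub σ (dn A)) (sub (ups σ) (dn B))) :=
      ih w hr (fun s e => by cases e)
    have h2 : Typed P Δ (sub σ (dn N)) (sub σ (dn A)) :=
      ih' w hr (fun s e => by subst e; exact not_typed_inr hA)
    have := t_appl h1 h2
    show Typed P Δ (app (sub σ (dn M)) (sub σ (dn N))) (sub σ (dn (inst N B)))
    rw [dn, smap_inst, sub_inst]
    exact this
  · intro Γ M A B s h h' e ih ih' Δ σ w hr hB
    have h1 := ih w hr (fun t e' => by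
      subst e'
      exact not_eq_inr h' (BetaEq.symm e))
    have e' : BetaEq (sub σ (dn A)) (sub σ (dn B)) := BetaEq.sub (betaEq_smap _ e) σ
    rcases s with s | s
    · have h2 : Typed P Δ (sub σ (dn B)) (sort s) := ih' w hr (fun s e => by cases e)
      exact .conv h1 h2 e'
    · have := exceptional h' s rfl
      subst this
      exact typed_sort_of_eq h1 e'

/-- every context of the atom extension can be instantiated in `P` -/
theorem exists_subT (h : ∀ (Γ : List (Term S)) (M : Term S), Legal P Γ M → WN M)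
    {Γ : List (Term (S ⊕ S))} (w : Wf (Pp P) Γ) :
    ∃ (Δ : List (Term S)) (σ : ℕ → Term S), Wf P Δ ∧ SubT P σ Γ Δ ∧ ∀ i, NN (σ i) := by
  induction w with
  | nil => exact ⟨[], var, .nil, (fun i A hl => by cases hl), NN.var⟩
  | @cons Γ A s w hA ih =>
      obtain ⟨Δ, σ, wΔ, hσ, hn⟩ := ih
      rcases s with s | s
      · have hA' : Typed P Δ (sub σ (dn A)) (sort s) :=
          transfer hA wΔ hσ (fun s e => by cases e)
        exact ⟨_, _, .cons wΔ hA', hσ.ups hA', NN.ups hn⟩
      · have e := exceptional hA s rfl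
        subst e
        obtain ⟨s', hax, e⟩ := gen_sort hA
        have e := sort_inj e
        subst e
        obtain ⟨-, Θ, B, hB⟩ : s = s ∧ Inh P s := hax
        obtain ⟨B', hr, hn'⟩ := h _ _ ⟨_, .inl hB⟩
        have hB' := SR hB hr
        have hW := Wf.append (twf hB) wΔ
        have hN : NN B' := by
          refine ⟨hn', fun A M e => ?_⟩
          subst e
          obtain ⟨_, _, _, _, e⟩ := gen_lam hB'
          exact not_sort_pi e
        refine ⟨Θ ++ Δ, scons B' (fun i => ren (fun i => i + Θ.length) (σ i)), hW, ?_, ?_⟩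
        · intro i A hl
          cases hl with
          | zero _ _ =>
              exact Typed.append_left hB' wΔ
          | @succ _ i A _ hl =>
              have h1 := typed_ren (hσ _ _ hl) hW (RenOk.right Θ Δ)
              rw [ren_sub] at h1
              rw [dn_wk, wk, sub_ren]
              exact h1
        · intro i
          cases i with
          | zero => exact hN
          | succ i => exact (hn i).ren _

/-- **weak normalization passes to the atom extension** -/
theorem wn_Pp (h : ∀ (Γ : List (Term S)) (M : Term S), Legal P Γ M → WN M)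
    (Γ : List (Term (S ⊕ S))) (M : Term (S ⊕ S)) (hM : Legal (Pp P) Γ M) : WN M := by
  have key : ∀ (Γ : List (Term (S ⊕ S))) (M A : Term (S ⊕ S)), Typed (Pp P) Γ M A → WN M := by
    intro Γ M A hT
    by_cases hA : ∃ s, A = sort (.inr s)
    · obtain ⟨s, rfl⟩ := hA
      rw [exceptional hT s rfl]
      exact ⟨_, .refl, fun N hN => by cases hN⟩
    · obtain ⟨Δ, σ, w, hσ, hn⟩ := exists_subT h (twf hT)
      have h1 := transfer hT w hσ (fun s e => hA ⟨s, e⟩)
      exact wn_of_smap _ (wn_of_sub hn (h _ _ ⟨_, .inl h1⟩))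
  obtain ⟨N, hM | hM⟩ := hM
  · exact key _ _ _ hM
  · rcases type_correct hM with ⟨s, rfl⟩ | ⟨s, hs⟩
    · exact ⟨_, .refl, fun N hN => by cases hN⟩
    · exact key _ _ _ hs

end Crest.Agent.R298.At734
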