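import Crest.Agent.R298.TyF_452

/-!
R298 (S0452), helper795: typing over partial function contexts.  A name `i` is undefined in
`D : ℕ → Term S` when `D i = var i` (then `var i` is not typable).  Extension of contexts needs no
weakening of terms.
-/

set_option autoImplicit false

namespace Crest.Agent.R298.TyP795

open Crest.LogicCS.PTS Crest.LogicCS.PTS.Term Relation
open Crest.Agent.R298.Sub452 Crest.Agent.R298.Par452 Crest.Agent.R298.Ty452
open Crest.Agent.R298.TyF452

universe u
variable {S : Type u} {P : Spec S}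

/-- the name `i` is declared in `D` -/
def Dm (D : ℕ → Term S) (i : ℕ) : Prop := D i ≠ var i

theorem dm_zero (A : Term S) (D : ℕ → Term S) : Dm (fcons A D) 0 := by
  intro h
  cases A <;> simp [fcons, wk] at h

theorem dm_succ {A : Term S} {D : ℕ → Term S} {i : ℕ} : Dm (fcons A D) (i + 1) ↔ Dm D i := by
  unfold Dm
  rw [not_iff_not]
  constructor
  · intro h
    simp only [fcons_succ] at h
    generalize D i = T at h
    cases T <;> simp [wk] at h
    rw [h]
  · intro h
    simp only [fcons_succ, h, wk, ren_var]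

theorem not_typed_undef {D : ℕ → Term S} {M T : Term S} (h : TyF P D M T) :
    ∀ i, M = var i → Dm D i := by
  induction h with
  | ax _ => intro i h; cases h
  | @var D i s h ih =>
      intro j hj hd
      injection hj with hj
      subst hj
      exact ih i hd hd
  | prod _ _ _ _ _ => intro i h; cases h
  | abs _ _ _ _ => intro i h; cases h
  | appl _ _ _ _ => intro i h; cases h
  | conv _ _ _ ih _ => exact ih

theorem dm_of_typed {D : ℕ → Term S} {i : ℕ} {T : Term S} (h : TyF P D (var i) T) : Dm D i :=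
  not_typed_undef h i rfl

theorem dm_of_decl {D : ℕ → Term S} {i : ℕ} {T : Term S} (h : TyF P D (D i) T) : Dm D i := by
  intro hd
  rw [hd] at h
  exact dm_of_typed h hd

/-- renaming on declared names -/
def RenP (ρ : ℕ → ℕ) (D E : ℕ → Term S) : Prop := ∀ i, Dm D i → E (ρ i) = ren ρ (D i)

theorem RenP.up {ρ : ℕ → ℕ} {D E : ℕ → Term S} (h : RenP ρ D E) (A : Term S) :
    RenP (up ρ) (fcons A D) (fcons (ren ρ A) E) := by
  intro i hi
  cases i with
  | zero => simp only [up_zero, fcons_zero, ren_up_wk]
  | succ i => simp only [up_succ, fcons_succ, ren_up_wk, h i (dm_succ.1 hi)]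

theorem RenP.succ (A : Term S) (D : ℕ → Term S) : RenP Nat.succ D (fcons A D) :=
  fun _ _ => rfl

theorem ren_id' (M : Term S) : ren id M = M := ren_id M

theorem tyF_ren {D : ℕ → Term S} {M A : Term S} (h : TyF P D M A) :
    ∀ {E : ℕ → Term S} {ρ : ℕ → ℕ}, RenP ρ D E → TyF P E (ren ρ M) (ren ρ A) := by
  induction h with
  | ax a => intro E ρ _; exact .ax a
  | @var D i s h ih =>
      intro E ρ hr
      have h1 := ih hr
      have h2 := hr i (dm_of_decl h)
      rw [← h2] at h1 ⊢
      exact .var h1
  | prod _ _ r ih₁ ih₂ => intro E ρ hr; exact .prod (ih₁ hr) (ih₂ (hr.up _)) r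
  | abs _ _ ih₁ ih₂ => intro E ρ hr; exact .abs (ih₁ (hr.up _)) (ih₂ hr)
  | appl _ _ ih₁ ih₂ =>
      intro E ρ hr
      rw [ren_inst]
      exact .appl (ih₁ hr) (ih₂ hr)
  | conv _ _ e ih₁ ih₂ => intro E ρ hr; exact .conv (ih₁ hr) (ih₂ hr) (BetaEq.ren e ρ)

theorem tyF_wk {D : ℕ → Term S} {M A : Term S} (h : TyF P D M A) (B : Term S) :
    TyF P (fcons B D) (wk M) (wk A) := tyF_ren h (RenP.succ B D)

/-- extension of partial contexts -/
def Le (D E : ℕ → Term S) : Prop := ∀ i, Dm D i → E i = D i

theorem Le.refl (D : ℕ → Term S) : Le D D := fun _ _ => rfl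

theorem Le.dm {D E : ℕ → Term S} (h : Le D E) {i : ℕ} (hi : Dm D i) : Dm E i := by
  unfold Dm at *
  rw [h i hi]; exact hi

theorem Le.trans {D E F : ℕ → Term S} (h₁ : Le D E) (h₂ : Le E F) : Le D F :=
  fun i hi => (h₂ i (h₁.dm hi)).trans (h₁ i hi)

theorem Le.fcons {D E : ℕ → Term S} (h : Le D E) (A : Term S) : Le (fcons A D) (fcons A E) := by
  intro i hi
  cases i with
  | zero => rfl
  | succ i => simp only [fcons_succ, h i (dm_succ.1 hi)]

theorem Le.renP {D E : ℕ → Term S} (h : Le D E) : RenP (fun i => i) D E := by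
  intro i hi
  rw [ren_id]
  exact h i hi

theorem tyF_mono {D E : ℕ → Term S} {M A : Term S} (h : TyF P D M A) (l : Le D E) :
    TyF P E M A := by
  have := tyF_ren h l.renP
  rwa [ren_id, ren_id] at this

/-! ### substitution -/

/-- typed substitution (on declared names) -/
def SubP (P : Spec S) (σ : ℕ → Term S) (D E : ℕ → Term S) : Prop :=
  ∀ i s, TyF P D (D i) (sort s) → TyF P E (sub σ (D i)) (sort s) →
    TyF P E (σ i) (sub σ (D i))

/-- strong form: the image of every declared name is typed -/
def SubA (P : Spec S) (σ : ℕ → Term S) (D E : ℕ → Term S) : Prop :=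
  ∀ i, Dm D i → TyF P E (σ i) (sub σ (D i))

theorem SubA.ups {σ : ℕ → Term S} {D E : ℕ → Term S} (h : SubA P σ D E) {A : Term S} {s : S}
    (hA : TyF P E (sub σ A) (sort s)) : SubA P (ups σ) (fcons A D) (fcons (sub σ A) E) := by
  intro i hi
  cases i with
  | zero =>
      simp only [ups_zero, fcons_zero, sub_wk]
      have : TyF P (fcons (sub σ A) E) (fcons (sub σ A) E 0) (sort s) := tyF_wk hA _
      exact TyF.var this
  | succ i =>
      simp only [ups_succ, fcons_succ, sub_wk]
      exact tyF_wk (h i (dm_succ.1 hi)) _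

theorem tyF_sub {D : ℕ → Term S} {M A : Term S} (h : TyF P D M A) :
    ∀ {E : ℕ → Term S} {σ : ℕ → Term S}, SubA P σ D E → TyF P E (sub σ M) (sub σ A) := by
  induction h with
  | ax a => intro E σ _; exact .ax a
  | @var D i s h ih =>
      intro E σ hr
      exact hr i (dm_of_decl h)
  | prod _ _ r ih₁ ih₂ =>
      intro E σ hr
      have a := ih₁ hr
      exact .prod a (ih₂ (hr.ups a)) r
  | @abs D A M B s h₁ h₂ ih₁ ih₂ =>
      intro E σ hr
      have b := ih₂ hr
      have hA : ∀ {E' : ℕ → Term S} {X Y : Term S}, TyF P E' X Y → ∀ A' B', X = pi A' B' →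
          ∃ s', TyF P E' A' (sort s') := by
        intro E' X Y hXY
        induction hXY with
        | ax _ => intro A' B' h; cases h
        | var _ _ => intro A' B' h; cases h
        | prod h _ _ _ _ => intro A' B' e; injection e with e1 e2; subst e1; exact ⟨_, h⟩
        | abs _ _ _ _ => intro A' B' h; cases h
        | appl _ _ _ _ => intro A' B' h; cases h
        | conv _ _ _ ih _ => exact ih
      obtain ⟨s', a⟩ := hA b _ _ rfl
      exact .abs (ih₁ (hr.ups a)) b
  | appl _ _ ih₁ ih₂ =>
      intro E σ hr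
      rw [sub_inst]
      exact .appl (ih₁ hr) (ih₂ hr)
  | conv _ _ e ih₁ ih₂ => intro E σ hr; exact .conv (ih₁ hr) (ih₂ hr) (BetaEq.sub e σ)

theorem pi_dom {D : ℕ → Term S} {A B C : Term S} (h : TyF P D (pi A B) C) :
    ∃ s, TyF P D A (sort s) := by
  have hA : ∀ {E' : ℕ → Term S} {X Y : Term S}, TyF P E' X Y → ∀ A' B', X = pi A' B' →
      ∃ s', TyF P E' A' (sort s') := by
    intro E' X Y hXY
    induction hXY with
    | ax _ => intro A' B' h; cases h
    | var _ _ => intro A' B' h; cases h
    | prod h _ _ _ _ => intro A' B' e; injection e with e1 e2; subst e1; exact ⟨_, h⟩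
    | abs _ _ _ _ => intro A' B' h; cases h
    | appl _ _ _ _ => intro A' B' h; cases h
    | conv _ _ _ ih _ => exact ih
  exact hA h _ _ rfl

/-- a context all of whose declared types are typed -/
def WfP (P : Spec S) (D : ℕ → Term S) : Prop := ∀ i, Dm D i → ∃ s, TyF P D (D i) (sort s)

theorem WfP.fcons {D : ℕ → Term S} (h : WfP P D) {A : Term S} {s : S}
    (hA : TyF P D A (sort s)) : WfP P (fcons A D) := by
  intro i hi
  cases i with
  | zero => exact ⟨s, tyF_wk hA _⟩
  | succ i =>
      obtain ⟨s', h'⟩ := h i (dm_succ.1 hi)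
      exact ⟨s', tyF_wk h' _⟩

theorem tyF_var {D : ℕ → Term S} (h : WfP P D) {i : ℕ} (hi : Dm D i) : TyF P D (var i) (D i) := by
  obtain ⟨s, h'⟩ := h i hi
  exact .var h'

theorem SubA.var {D : ℕ → Term S} (h : WfP P D) : SubA P var D D := by
  intro i hi
  rw [sub_id]
  exact tyF_var h hi

theorem SubA.scons {σ : ℕ → Term S} {D E : ℕ → Term S} (h : SubA P σ D E) {N A : Term S}
    (hN : TyF P E N (sub σ A)) : SubA P (scons N σ) (fcons A D) E := by
  intro i hi
  cases i with
  | zero => simpa only [fcons_zero, wk, sub_ren, Nat.succ_eq_add_one, scons_succ, scons_zero] using hN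
  | succ i =>
      have := h i (dm_succ.1 hi)
      simpa only [fcons_succ, wk, sub_ren, Nat.succ_eq_add_one, scons_succ] using this

theorem SubA.comp_ren {σ : ℕ → Term S} {ρ : ℕ → ℕ} {C D E : ℕ → Term S} (hr : RenP ρ C D)
    (hd : ∀ i, Dm C i → Dm D (ρ i)) (h : SubA P σ D E) : SubA P (fun i => σ (ρ i)) C E := by
  intro i hi
  have := h (ρ i) (hd i hi)
  rw [hr i hi, sub_ren] at this
  exact this

theorem tyF_inst {D : ℕ → Term S} (w : WfP P D) {A M B N : Term S}
    (h : TyF P (fcons A D) M B) (hN : TyF P D N A) : TyF P D (inst N M) (inst N B) :=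
  tyF_sub h ((SubA.var w).scons (by rwa [sub_id]))

/-! ### free names -/

/-- all free names of the term satisfy `X` -/
def FvIn : (ℕ → Prop) → Term S → Prop
  | X, var i => X i
  | _, sort _ => True
  | X, app M N => FvIn X M ∧ FvIn X N
  | X, lam A M => FvIn X A ∧ FvIn (fun i => match i with | 0 => True | j + 1 => X j) M
  | X, pi A B => FvIn X A ∧ FvIn (fun i => match i with | 0 => True | j + 1 => X j) B

/-- shift of a predicate on names under a binder -/
def ux (X : ℕ → Prop) : ℕ → Prop := fun i => match i with | 0 => True | j + 1 => X j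

theorem FvIn.mono {X Y : ℕ → Prop} (h : ∀ i, X i → Y i) {M : Term S} (hM : FvIn X M) :
    FvIn Y M := by
  induction M generalizing X Y with
  | var i => exact h i hM
  | sort s => trivial
  | app M N h1 h2 => exact ⟨h1 h hM.1, h2 h hM.2⟩
  | lam A M h1 h2 =>
      refine ⟨h1 h hM.1, h2 (X := ux X) (Y := ux Y) ?_ hM.2⟩
      intro i; cases i with
      | zero => exact fun _ => trivial
      | succ i => exact h i
  | pi A M h1 h2 =>
      refine ⟨h1 h hM.1, h2 (X := ux X) (Y := ux Y) ?_ hM.2⟩
      intro i; cases i with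
      | zero => exact fun _ => trivial
      | succ i => exact h i

theorem ren_congr {X : ℕ → Prop} {ρ τ : ℕ → ℕ} (h : ∀ i, X i → ρ i = τ i) {M : Term S}
    (hM : FvIn X M) : ren ρ M = ren τ M := by
  induction M generalizing X ρ τ with
  | var i => simp only [ren_var, h i hM]
  | sort s => rfl
  | app M N h1 h2 => simp only [ren_app, h1 h hM.1, h2 h hM.2]
  | lam A M h1 h2 =>
      simp only [ren_lam, h1 h hM.1]
      congr 1
      refine h2 (X := ux X) ?_ hM.2
      intro i; cases i with
      | zero => exact fun _ => rfl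
      | succ i => intro hi; simp only [up_succ, h i hi]
  | pi A M h1 h2 =>
      simp only [ren_pi, h1 h hM.1]
      congr 1
      refine h2 (X := ux X) ?_ hM.2
      intro i; cases i with
      | zero => exact fun _ => rfl
      | succ i => intro hi; simp only [up_succ, h i hi]

theorem sub_congr {X : ℕ → Prop} {σ τ : ℕ → Term S} (h : ∀ i, X i → σ i = τ i) {M : Term S}
    (hM : FvIn X M) : sub σ M = sub τ M := by
  induction M generalizing X σ τ with
  | var i => simp only [sub_var, h i hM]
  | sort s => rfl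
  | app M N h1 h2 => simp only [sub_app, h1 h hM.1, h2 h hM.2]
  | lam A M h1 h2 =>
      simp only [sub_lam, h1 h hM.1]
      congr 1
      refine h2 (X := ux X) ?_ hM.2
      intro i; cases i with
      | zero => exact fun _ => rfl
      | succ i => intro hi; simp only [ups_succ, h i hi]
  | pi A M h1 h2 =>
      simp only [sub_pi, h1 h hM.1]
      congr 1
      refine h2 (X := ux X) ?_ hM.2
      intro i; cases i with
      | zero => exact fun _ => rfl
      | succ i => intro hi; simp only [ups_succ, h i hi]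

theorem FvIn.ren {X Y : ℕ → Prop} {ρ : ℕ → ℕ} (h : ∀ i, X i → Y (ρ i)) {M : Term S}
    (hM : FvIn X M) : FvIn Y (ren ρ M) := by
  induction M generalizing X Y ρ with
  | var i => exact h i hM
  | sort s => trivial
  | app M N h1 h2 => exact ⟨h1 h hM.1, h2 h hM.2⟩
  | lam A M h1 h2 =>
      refine ⟨h1 h hM.1, h2 (X := ux X) (Y := ux Y) ?_ hM.2⟩
      intro i; cases i with
      | zero => exact fun _ => trivial
      | succ i => exact h i
  | pi A M h1 h2 =>
      refine ⟨h1 h hM.1, h2 (X := ux X) (Y := ux Y) ?_ hM.2⟩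
      intro i; cases i with
      | zero => exact fun _ => trivial
      | succ i => exact h i

theorem FvIn.of_ren {X : ℕ → Prop} {ρ : ℕ → ℕ} {M : Term S}
    (hM : FvIn X (Sub452.ren ρ M)) : FvIn (fun i => X (ρ i)) M := by
  induction M generalizing X ρ with
  | var i => exact hM
  | sort s => trivial
  | app M N h1 h2 => exact ⟨h1 hM.1, h2 hM.2⟩
  | lam A M h1 h2 =>
      refine ⟨h1 hM.1, ?_⟩
      have := h2 (X := ux X) (ρ := up ρ) hM.2
      refine FvIn.mono ?_ this
      intro i; cases i with
      | zero => exact fun _ => trivial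
      | succ i => exact fun h => h
  | pi A M h1 h2 =>
      refine ⟨h1 hM.1, ?_⟩
      have := h2 (X := ux X) (ρ := up ρ) hM.2
      refine FvIn.mono ?_ this
      intro i; cases i with
      | zero => exact fun _ => trivial
      | succ i => exact fun h => h

theorem FvIn.sub {X Y : ℕ → Prop} {σ : ℕ → Term S} (h : ∀ i, X i → FvIn Y (σ i)) {M : Term S}
    (hM : FvIn X M) : FvIn Y (sub σ M) := by
  induction M generalizing X Y σ with
  | var i => exact h i hM
  | sort s => trivial
  | app M N h1 h2 => exact ⟨h1 h hM.1, h2 h hM.2⟩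
  | lam A M h1 h2 =>
      refine ⟨h1 h hM.1, h2 (X := ux X) (Y := ux Y) ?_ hM.2⟩
      intro i; cases i with
      | zero => exact fun _ => trivial
      | succ i => exact fun hi => FvIn.ren (X := Y) (Y := ux Y) (ρ := Nat.succ) (fun j hj => hj) (h i hi)
  | pi A M h1 h2 =>
      refine ⟨h1 h hM.1, h2 (X := ux X) (Y := ux Y) ?_ hM.2⟩
      intro i; cases i with
      | zero => exact fun _ => trivial
      | succ i => exact fun hi => FvIn.ren (X := Y) (Y := ux Y) (ρ := Nat.succ) (fun j hj => hj) (h i hi)

/-- free names of a typed term are declared -/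
theorem fv_typed {D : ℕ → Term S} {M A : Term S} (h : TyF P D M A) : FvIn (Dm D) M := by
  induction h with
  | ax _ => trivial
  | var h _ => exact dm_of_decl h
  | prod _ _ _ ih₁ ih₂ =>
      refine ⟨ih₁, FvIn.mono ?_ ih₂⟩
      intro i; cases i with
      | zero => exact fun _ => trivial
      | succ i => exact fun h => dm_succ.1 h
  | abs _ _ ih₁ ih₂ =>
      refine ⟨ih₂.1, FvIn.mono ?_ ih₁⟩
      intro i; cases i with
      | zero => exact fun _ => trivial
      | succ i => exact fun h => dm_succ.1 h
  | appl _ _ ih₁ ih₂ => exact ⟨ih₁, ih₂⟩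
  | conv _ _ _ ih _ => exact ih

end Crest.Agent.R298.TyP795
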