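import Crest.Agent.R298.Base_525
import Crest.Agent.R298.TyP_795

/-!
R298 (S0452), helper525: THE BASE CONTEXT of the paradox side, function context form (partial
contexts of 795), and transport between list contexts and partial function contexts.
-/

set_option autoImplicit false

namespace Crest.Agent.R298.Base525

open Crest.LogicCS.PTS Crest.LogicCS.PTS.Term Relation
open Crest.Agent.R298.Sub452 Crest.Agent.R298.Par452 Crest.Agent.R298.Ty452
open Crest.Agent.R298.Scc795 Crest.Agent.R298.TyF452 Crest.Agent.R298.TyP795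

universe u
variable {T : Type u} {Q : Spec T}

/-! ### lists and partial function contexts -/

/-- the partial function context of a list -/
def padP : List (Term T) → ℕ → Term T
  | [] => var
  | A :: Γ => fcons A (padP Γ)

theorem lk_padP {Γ : List (Term T)} {i : ℕ} {A : Term T} (h : Lk Γ i A) : padP Γ i = A := by
  induction h with
  | zero A Γ => rfl
  | succ B _ ih => rw [padP, fcons_succ, ih]

theorem padP_lk {Γ : List (Term T)} : ∀ {i : ℕ}, Dm (padP Γ) i → Lk Γ i (padP Γ i) := by
  induction Γ with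
  | nil => intro i h; exact (h rfl).elim
  | cons A Γ ih =>
      intro i h
      cases i with
      | zero => exact .zero _ _
      | succ i => exact .succ _ (ih (dm_succ.1 h))

theorem not_dm_padP {Γ : List (Term T)} {i : ℕ} (h : Γ.length ≤ i) : ¬ Dm (padP Γ) i := by
  intro h'
  have := (padP_lk h').lt
  omega

/-- from lists to partial contexts -/
theorem tyF_padP {Γ : List (Term T)} {M A : Term T} (h : Typed Q Γ M A) :
    TyF Q (padP Γ) M A := typed_tyf_id h (fun _ _ hl => lk_padP hl)

/-- from partial contexts to lists -/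
theorem typed_of_tyF {D : ℕ → Term T} {M A : Term T} (h : TyF Q D M A) :
    ∀ {Γ : List (Term T)}, Wf Q Γ → (∀ i, Dm D i → Lk Γ i (D i)) → Typed Q Γ M A := by
  induction h with
  | ax a => intro Γ w _; exact ax_wf w a
  | @var D i s h _ => intro Γ w hl; exact var_wf (hl i (dm_of_decl h)) w
  | @prod D A B s₁ s₂ s₃ _ _ r ih ih' =>
      intro Γ w hl
      have a := ih w hl
      refine .prod a (ih' (.cons w a) ?_) r
      intro i hi
      cases i with
      | zero => exact .zero _ _
      | succ i => exact .succ _ (hl i (dm_succ.1 hi))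
  | @abs D A M B s _ _ ih ih' =>
      intro Γ w hl
      have b : Typed Q Γ (pi A B) (sort s) := ih' w hl
      obtain ⟨s', a⟩ := Ty452.pi_dom b
      refine .abs (ih (.cons w a) ?_) b
      intro i hi
      cases i with
      | zero => exact .zero _ _
      | succ i => exact .succ _ (hl i (dm_succ.1 hi))
  | appl _ _ ih ih' => intro Γ w hl; exact t_appl (ih w hl) (ih' w hl)
  | conv _ _ e ih ih' => intro Γ w hl; exact .conv (ih w hl) (ih' w hl) e

theorem tyF_padP_iff {Γ : List (Term T)} (w : Wf Q Γ) {M A : Term T} :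
    TyF Q (padP Γ) M A ↔ Typed Q Γ M A :=
  ⟨fun h => typed_of_tyF h w (fun _ hi => padP_lk hi), tyF_padP⟩

theorem wfP_padP {Γ : List (Term T)} (w : Wf Q Γ) : WfP Q (padP Γ) := by
  induction w with
  | nil => intro i h; exact (h rfl).elim
  | @cons Γ A s _ hA ih => exact ih.fcons (tyF_padP hA)

/-- **the base context, partial function context form** -/
theorem exists_base [Finite T] (Q : Spec T) (D : Set T) (hD : IsScc Q D)
    (hax : ∀ s ∈ RS Q, ∃ t, Q.ax s t) (hwn : ∀ Γ M, Legal Q Γ M → WN M) :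
    ∃ (D0 : ℕ → Term T) (R E e : T → Term T), WfP Q D0 ∧
      (∃ n, ∀ i, n ≤ i → ¬ Dm D0 i) ∧
      (∀ b ∈ RS Q, TyF Q D0 (R b) (sort b)) ∧
      (∀ a ∈ RS Q, TyF Q D0 (E a) (sort a)) ∧
      (∀ a ∈ RS Q, TyF Q D0 (e a) (E a)) ∧
      (∀ b ∈ Bs Q D, ∀ b' ∈ Bs Q D, ∃ C, TyF Q (fcons (R b) D0) C (wk (R b'))) ∧
      (∀ b ∈ RS Q, ¬ ∃ M, TyF Q D0 M (R b)) := by
  obtain ⟨Γ, E, e, F, w, h1, h2, h3, h4, h5⟩ := exists_list_base Q D hD hax hwn
  refine ⟨padP Γ, fun b => var (F b), fun a => var (E a), fun a => var (e a), wfP_padP w,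
    ⟨Γ.length, fun i hi => not_dm_padP hi⟩, fun b hb => tyF_padP (var_wf (h3 b hb) w),
    fun a ha => tyF_padP (var_wf (h1 a ha) w), fun a ha => tyF_padP (var_wf (h2 a ha) w), ?_, ?_⟩
  · intro b hb b' hb'
    obtain ⟨C, hC⟩ := h4 b hb b' hb'
    exact ⟨C, tyF_padP hC⟩
  · rintro b hb ⟨M, hM⟩
    exact h5 b hb ⟨M, (tyF_padP_iff w).1 hM⟩

end Crest.Agent.R298.Base525
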