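import Crest.Prelude.Def_PTS

set_option autoImplicit false

/-!
R298, helper795: monotonicity of `Typed` in the specification and "finite spec without loss of
generality".
-/

namespace Crest.Agent.R298.Fin795

open Crest.LogicCS.PTS Crest.LogicCS.PTS.Term

universe u

variable {S : Type u}

/-- `P ≤ Q` : `P` is a sub-specification of `Q` (same sorts). -/
def Le (P Q : Spec S) : Prop :=
  (∀ a b, P.ax a b → Q.ax a b) ∧ (∀ a b c, P.rule a b c → Q.rule a b c)

theorem Le.refl (P : Spec S) : Le P P := ⟨fun _ _ h => h, fun _ _ _ h => h⟩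

theorem Le.trans {P Q R : Spec S} (h₁ : Le P Q) (h₂ : Le Q R) : Le P R :=
  ⟨fun a b h => h₂.1 a b (h₁.1 a b h), fun a b c h => h₂.2 a b c (h₁.2 a b c h)⟩

theorem Typed.mono {P Q : Spec S} (h : Le P Q) {Γ : List (Term S)} {M A : Term S}
    (d : Typed P Γ M A) : Typed Q Γ M A := by
  induction d with
  | ax h' => exact Typed.ax (h.1 _ _ h')
  | start _ ih => exact Typed.start ih
  | weak _ _ ih₁ ih₂ => exact Typed.weak ih₁ ih₂
  | prod _ _ hr ih₁ ih₂ => exact Typed.prod ih₁ ih₂ (h.2 _ _ _ hr)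
  | abs _ _ ih₁ ih₂ => exact Typed.abs ih₁ ih₂
  | appl _ _ ih₁ ih₂ => exact Typed.appl ih₁ ih₂
  | conv _ _ hb ih₁ ih₂ => exact Typed.conv ih₁ ih₂ hb

theorem Legal.mono {P Q : Spec S} (h : Le P Q) {Γ : List (Term S)} {M : Term S}
    (d : Legal P Γ M) : Legal Q Γ M := by
  obtain ⟨N, hN⟩ := d
  exact ⟨N, hN.imp (Typed.mono h) (Typed.mono h)⟩

/-- The specification with axiom set `X` and rule set `R`. -/
def mk (X : Set (S × S)) (R : Set (S × S × S)) : Spec S where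
  ax a b := (a, b) ∈ X
  rule a b c := (a, b, c) ∈ R

/-- Finite specification: finitely many axioms and rules (the sort type may be infinite). -/
def Finite (P : Spec S) : Prop :=
  {p : S × S | P.ax p.1 p.2}.Finite ∧ {p : S × S × S | P.rule p.1 p.2.1 p.2.2}.Finite

/-- Union of two specifications. -/
def sup (P Q : Spec S) : Spec S where
  ax a b := P.ax a b ∨ Q.ax a b
  rule a b c := P.rule a b c ∨ Q.rule a b c

theorem le_sup_left (P Q : Spec S) : Le P (sup P Q) := ⟨fun _ _ h => Or.inl h, fun _ _ _ h => Or.inl h⟩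
theorem le_sup_right (P Q : Spec S) : Le Q (sup P Q) := ⟨fun _ _ h => Or.inr h, fun _ _ _ h => Or.inr h⟩

theorem sup_le {P Q R : Spec S} (h₁ : Le P R) (h₂ : Le Q R) : Le (sup P Q) R :=
  ⟨fun a b h => h.elim (h₁.1 a b) (h₂.1 a b), fun a b c h => h.elim (h₁.2 a b c) (h₂.2 a b c)⟩

theorem Finite.sup {P Q : Spec S} (hP : Finite P) (hQ : Finite Q) : Finite (sup P Q) := by
  constructor
  · refine (hP.1.union hQ.1).subset ?_
    rintro ⟨a, b⟩ h
    exact h
  · refine (hP.2.union hQ.2).subset ?_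
    rintro ⟨a, b, c⟩ h
    exact h

/-- The empty specification. -/
def bot : Spec S where
  ax _ _ := False
  rule _ _ _ := False

theorem finite_bot : Finite (bot : Spec S) := by
  constructor
  · refine Set.finite_empty.subset ?_
    rintro ⟨a, b⟩ h
    exact h
  · refine Set.finite_empty.subset ?_
    rintro ⟨a, b, c⟩ h
    exact h

theorem bot_le (P : Spec S) : Le bot P := ⟨fun _ _ h => h.elim, fun _ _ _ h => h.elim⟩

/-- One axiom. -/
def axSpec (a b : S) : Spec S where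
  ax x y := x = a ∧ y = b
  rule _ _ _ := False

theorem finite_axSpec (a b : S) : Finite (axSpec a b) := by
  constructor
  · refine (Set.finite_singleton (a, b)).subset ?_
    rintro ⟨x, y⟩ ⟨h1, h2⟩
    simp only at h1 h2
    subst h1 h2
    rfl
  · refine Set.finite_empty.subset ?_
    rintro ⟨x, y, z⟩ h
    exact h

/-- One rule. -/
def ruleSpec (a b c : S) : Spec S where
  ax _ _ := False
  rule x y z := x = a ∧ y = b ∧ z = c

theorem finite_ruleSpec (a b c : S) : Finite (ruleSpec a b c) := by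
  constructor
  · refine Set.finite_empty.subset ?_
    rintro ⟨x, y⟩ h
    exact h
  · refine (Set.finite_singleton (a, b, c)).subset ?_
    rintro ⟨x, y, z⟩ ⟨h1, h2, h3⟩
    simp only at h1 h2 h3
    subst h1 h2 h3
    rfl

theorem exists_finite {P : Spec S} {Γ : List (Term S)} {M A : Term S} (d : Typed P Γ M A) :
    ∃ P₀ : Spec S, Finite P₀ ∧ Le P₀ P ∧ Typed P₀ Γ M A := by
  induction d with
  | @ax s₁ s₂ h' =>
      refine ⟨axSpec s₁ s₂, finite_axSpec _ _, ⟨?_, fun _ _ _ h => h.elim⟩, Typed.ax ⟨rfl, rfl⟩⟩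
      rintro a b ⟨rfl, rfl⟩
      exact h'
  | start _ ih =>
      obtain ⟨P₀, f, l, t⟩ := ih
      exact ⟨P₀, f, l, Typed.start t⟩
  | weak _ _ ih₁ ih₂ =>
      obtain ⟨P₁, f₁, l₁, t₁⟩ := ih₁
      obtain ⟨P₂, f₂, l₂, t₂⟩ := ih₂
      exact ⟨sup P₁ P₂, f₁.sup f₂, sup_le l₁ l₂,
        Typed.weak (Typed.mono (le_sup_left _ _) t₁) (Typed.mono (le_sup_right _ _) t₂)⟩
  | @prod Γ A B s₁ s₂ s₃ _ _ hr ih₁ ih₂ =>
      obtain ⟨P₁, f₁, l₁, t₁⟩ := ih₁
      obtain ⟨P₂, f₂, l₂, t₂⟩ := ih₂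
      refine ⟨sup (sup P₁ P₂) (ruleSpec s₁ s₂ s₃), (f₁.sup f₂).sup (finite_ruleSpec _ _ _),
        sup_le (sup_le l₁ l₂) ⟨fun _ _ h => h.elim, ?_⟩, ?_⟩
      · rintro a b c ⟨rfl, rfl, rfl⟩
        exact hr
      · refine Typed.prod
          (Typed.mono ((le_sup_left _ _).trans (le_sup_left _ _)) t₁)
          (Typed.mono ((le_sup_right _ _).trans (le_sup_left _ _)) t₂) (Or.inr ⟨rfl, rfl, rfl⟩)
  | abs _ _ ih₁ ih₂ =>
      obtain ⟨P₁, f₁, l₁, t₁⟩ := ih₁
      obtain ⟨P₂, f₂, l₂, t₂⟩ := ih₂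
      exact ⟨sup P₁ P₂, f₁.sup f₂, sup_le l₁ l₂,
        Typed.abs (Typed.mono (le_sup_left _ _) t₁) (Typed.mono (le_sup_right _ _) t₂)⟩
  | appl _ _ ih₁ ih₂ =>
      obtain ⟨P₁, f₁, l₁, t₁⟩ := ih₁
      obtain ⟨P₂, f₂, l₂, t₂⟩ := ih₂
      exact ⟨sup P₁ P₂, f₁.sup f₂, sup_le l₁ l₂,
        Typed.appl (Typed.mono (le_sup_left _ _) t₁) (Typed.mono (le_sup_right _ _) t₂)⟩
  | conv _ _ hb ih₁ ih₂ =>
      obtain ⟨P₁, f₁, l₁, t₁⟩ := ih₁
      obtain ⟨P₂, f₂, l₂, t₂⟩ := ih₂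
      exact ⟨sup P₁ P₂, f₁.sup f₂, sup_le l₁ l₂,
        Typed.conv (Typed.mono (le_sup_left _ _) t₁) (Typed.mono (le_sup_right _ _) t₂) hb⟩

theorem exists_finite_legal {P : Spec S} {Γ : List (Term S)} {M : Term S} (d : Legal P Γ M) :
    ∃ P₀ : Spec S, Finite P₀ ∧ Le P₀ P ∧ Legal P₀ Γ M := by
  obtain ⟨N, hN | hN⟩ := d
  · obtain ⟨P₀, f, l, t⟩ := exists_finite hN
    exact ⟨P₀, f, l, N, Or.inl t⟩
  · obtain ⟨P₀, f, l, t⟩ := exists_finite hN
    exact ⟨P₀, f, l, N, Or.inr t⟩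

/-- All legal terms are weakly normalizing. -/
def WNSpec (P : Spec S) : Prop := ∀ (Γ : List (Term S)) (M : Term S), Legal P Γ M → WN M

/-- All legal terms are strongly normalizing. -/
def SNSpec (P : Spec S) : Prop := ∀ (Γ : List (Term S)) (M : Term S), Legal P Γ M → SN M

theorem WNSpec.mono {P Q : Spec S} (h : Le P Q) (hQ : WNSpec Q) : WNSpec P :=
  fun Γ M hM => hQ Γ M (Legal.mono h hM)

/-- **Finite specification without loss of generality.** -/
theorem of_finite (H : ∀ P : Spec S, Finite P → WNSpec P → SNSpec P) (P : Spec S)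
    (h : WNSpec P) : SNSpec P := by
  intro Γ M hM
  obtain ⟨P₀, f, l, t⟩ := exists_finite_legal hM
  exact H P₀ f (WNSpec.mono l h) Γ M t

/-- The literal shape of S0452 from the finite case. -/
theorem s0452_of_finite (H : ∀ (S : Type u) (P : Spec S), Finite P → WNSpec P → SNSpec P)
    (S : Type u) (P : Spec S)
    (h : ∀ (Γ : List (Term S)) (M : Term S), Legal P Γ M → WN M) (Γ : List (Term S))
    (M : Term S) (hM : Legal P Γ M) : SN M :=
  of_finite (H S) P h Γ M hM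

end Crest.Agent.R298.Fin795
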