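import Crest.Prelude.Def_PTS
import Crest.Agent.R298.Fin_595
import Crest.Agent.R298.Fin_795

set_option autoImplicit false

/-!
R298, helper582: every rule is realized, without loss of generality.

`realize P` keeps all axioms of `P` and only those rules `(a,b,c)` for which there are legal
`Γ ⊢ A : a` and `A :: Γ ⊢ B : b`.  It has exactly the same judgements as `P`, and each of its rules
is realized inside itself.
-/

namespace Crest.Agent.R298.Real582

open Crest.LogicCS.PTS Crest.LogicCS.PTS.Term

universe u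

variable {S : Type u}

/-- `(a,b)` is realized as a pair (domain, codomain) of a product: there are `Γ ⊢ A : a` and
`A :: Γ ⊢ B : b`. -/
def RealPair (P : Spec S) (a b : S) : Prop :=
  ∃ (Γ : List (Term S)) (A B : Term S), Typed P Γ A (sort a) ∧ Typed P (A :: Γ) B (sort b)

/-- The realized sub-specification. -/
def realize (P : Spec S) : Spec S where
  ax := P.ax
  rule a b c := P.rule a b c ∧ RealPair P a b

theorem realize_le (P : Spec S) : Fin795.Le (realize P) P :=
  ⟨fun _ _ h => h, fun _ _ _ h => h.1⟩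

theorem typed_realize {P : Spec S} {Γ : List (Term S)} {M A : Term S} (d : Typed P Γ M A) :
    Typed (realize P) Γ M A := by
  induction d with
  | ax h => exact Typed.ax (P := realize P) h
  | start _ ih => exact Typed.start ih
  | weak _ _ ih₁ ih₂ => exact Typed.weak ih₁ ih₂
  | @prod Γ A B s₁ s₂ s₃ d₁ d₂ hr ih₁ ih₂ =>
      exact Typed.prod ih₁ ih₂ ⟨hr, Γ, A, B, d₁, d₂⟩
  | abs _ _ ih₁ ih₂ => exact Typed.abs ih₁ ih₂
  | appl _ _ ih₁ ih₂ => exact Typed.appl ih₁ ih₂
  | conv _ _ hb ih₁ ih₂ => exact Typed.conv ih₁ ih₂ hb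

theorem typed_realize_iff {P : Spec S} {Γ : List (Term S)} {M A : Term S} :
    Typed (realize P) Γ M A ↔ Typed P Γ M A :=
  ⟨fun d => Fin795.Typed.mono (realize_le P) d, fun d => typed_realize d⟩

theorem legal_realize_iff {P : Spec S} {Γ : List (Term S)} {M : Term S} :
    Legal (realize P) Γ M ↔ Legal P Γ M := by
  simp only [Legal, typed_realize_iff]

/-- All rules are realized. -/
def Realized (P : Spec S) : Prop := ∀ a b c, P.rule a b c → RealPair P a b

theorem realized_realize (P : Spec S) : Realized (realize P) := by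
  rintro a b c ⟨_, Γ, A, B, h₁, h₂⟩
  exact ⟨Γ, A, B, typed_realize h₁, typed_realize h₂⟩

theorem realized_idem {P : Spec S} (h : Realized P) {a b c : S} :
    (realize P).rule a b c ↔ P.rule a b c :=
  ⟨fun h' => h'.1, fun h' => ⟨h', h a b c h'⟩⟩

/-- **Every rule realized, without loss of generality** (same sorts). -/
theorem of_realized (H : ∀ P : Spec S, Realized P → Fin795.WNSpec P → Fin795.SNSpec P)
    (P : Spec S) (h : Fin795.WNSpec P) : Fin795.SNSpec P := by
  intro Γ M hM
  refine H (realize P) (realized_realize P) (fun Γ' M' hM' => ?_) Γ M (legal_realize_iff.2 hM)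
  exact h Γ' M' (legal_realize_iff.1 hM')

/-- Version with finiteness (finitely many axioms and rules, any type of sorts). -/
theorem of_finite_realized
    (H : ∀ P : Spec S, Fin795.Finite P → Realized P → Fin795.WNSpec P → Fin795.SNSpec P)
    (P : Spec S) (h : Fin795.WNSpec P) : Fin795.SNSpec P := by
  refine Fin795.of_finite (fun P₀ f h₀ => ?_) P h
  have hf : Fin795.Finite (realize P₀) := by
    refine ⟨f.1, f.2.subset ?_⟩
    rintro ⟨a, b, c⟩ ⟨h', _⟩
    exact h'
  intro Γ M hM
  refine H (realize P₀) hf (realized_realize P₀) (fun Γ' M' hM' => ?_) Γ M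
    (legal_realize_iff.2 hM)
  exact h₀ Γ' M' (legal_realize_iff.1 hM')

/-- Every sort occurring in a rule `(a,b,c)` of a realized specification has a type in some
context. -/
theorem Realized.inh_a {P : Spec S} (h : Realized P) {a b c : S} (hr : P.rule a b c) :
    ∃ (Γ : List (Term S)) (A : Term S), Typed P Γ A (sort a) := by
  obtain ⟨Γ, A, B, h₁, _⟩ := h a b c hr
  exact ⟨Γ, A, h₁⟩

theorem Realized.inh_b {P : Spec S} (h : Realized P) {a b c : S} (hr : P.rule a b c) :
    ∃ (Γ : List (Term S)) (A : Term S), Typed P Γ A (sort b) := by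
  obtain ⟨Γ, A, B, _, h₂⟩ := h a b c hr
  exact ⟨A :: Γ, B, h₂⟩

theorem Realized.inh_c {P : Spec S} (h : Realized P) {a b c : S} (hr : P.rule a b c) :
    ∃ (Γ : List (Term S)) (A : Term S), Typed P Γ A (sort c) := by
  obtain ⟨Γ, A, B, h₁, h₂⟩ := h a b c hr
  exact ⟨Γ, pi A B, Typed.prod h₁ h₂ hr⟩

/-- **S0452 from the case: sorts `Fin n`, all rules realized.** -/
theorem s0452_of_fin_realized
    (H : ∀ (n : ℕ) (P : Spec (Fin n)), Realized P →
      (∀ Γ M, Legal P Γ M → WN M) → ∀ Γ M, Legal P Γ M → SN M)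
    (T : Type u) (P : Spec T)
    (h : ∀ (Γ : List (Term T)) (M : Term T), Legal P Γ M → WN M) (Γ : List (Term T))
    (M : Term T) (hM : Legal P Γ M) : SN M := by
  refine Fin595.reduce_fin (fun n P₀ h₀ => ?_) P h Γ M hM
  exact of_realized (fun P₁ h₁ h₂ => H n P₁ h₁ h₂) P₀ h₀

end Crest.Agent.R298.Real582
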