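import Crest.Agent.R298.Fin_795

set_option autoImplicit false

/-!
R298, helper795: the sort graph of a finite rule set, stage index, signed walks inside a strongly
connected component and the trichotomy unary / even / bipolar.

Edges: `a → c` (sign `false`, i.e. minus) and `b → c` (sign `true`, i.e. plus) for every rule
`(a, b, c)`.
-/

namespace Crest.Agent.R298.Scc795

open Crest.LogicCS.PTS Crest.Agent.R298.Fin795

universe u

variable {S : Type u}

/-- Minus edge (domain step). -/
def NEdge (P : Spec S) (a c : S) : Prop := ∃ b, P.rule a b c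

/-- Plus edge (codomain step). -/
def PEdge (P : Spec S) (b c : S) : Prop := ∃ a, P.rule a b c

/-- Edge of the sort graph. -/
def Edge (P : Spec S) (x y : S) : Prop := NEdge P x y ∨ PEdge P x y

/-- Reachability in the sort graph. -/
def Reach (P : Spec S) : S → S → Prop := Relation.ReflTransGen (Edge P)

/-- Mutual reachability. -/
def Mut (P : Spec S) (x y : S) : Prop := Reach P x y ∧ Reach P y x

theorem Reach.refl (P : Spec S) (x : S) : Reach P x x := Relation.ReflTransGen.refl
theorem Reach.trans {P : Spec S} {x y z : S} (h₁ : Reach P x y) (h₂ : Reach P y z) :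
    Reach P x z := Relation.ReflTransGen.trans h₁ h₂
theorem Reach.of_edge {P : Spec S} {x y : S} (h : Edge P x y) : Reach P x y :=
  Relation.ReflTransGen.single h

theorem Mut.refl (P : Spec S) (x : S) : Mut P x x := ⟨Reach.refl P x, Reach.refl P x⟩
theorem Mut.symm {P : Spec S} {x y : S} (h : Mut P x y) : Mut P y x := ⟨h.2, h.1⟩
theorem Mut.trans {P : Spec S} {x y z : S} (h₁ : Mut P x y) (h₂ : Mut P y z) : Mut P x z :=
  ⟨h₁.1.trans h₂.1, h₂.2.trans h₁.2⟩

theorem edge_dom {P : Spec S} {a b c : S} (h : P.rule a b c) : Edge P a c := Or.inl ⟨b, h⟩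
theorem edge_cod {P : Spec S} {a b c : S} (h : P.rule a b c) : Edge P b c := Or.inr ⟨a, h⟩

/-- The sorts occurring in rules. -/
def RS (P : Spec S) : Set S := {x | ∃ a b c, P.rule a b c ∧ (x = a ∨ x = b ∨ x = c)}

theorem edge_left {P : Spec S} {x y : S} (h : Edge P x y) : x ∈ RS P := by
  obtain ⟨b, h⟩ | ⟨a, h⟩ := h
  · exact ⟨_, _, _, h, Or.inl rfl⟩
  · exact ⟨_, _, _, h, Or.inr (Or.inl rfl)⟩

theorem edge_right {P : Spec S} {x y : S} (h : Edge P x y) : y ∈ RS P := by
  obtain ⟨b, h⟩ | ⟨a, h⟩ := h
  · exact ⟨_, _, _, h, Or.inr (Or.inr rfl)⟩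
  · exact ⟨_, _, _, h, Or.inr (Or.inr rfl)⟩

theorem finite_RS {P : Spec S} (hP : Finite P) : (RS P).Finite := by
  have h1 := hP.2.image (fun p => p.1)
  have h2 := hP.2.image (fun p => p.2.1)
  have h3 := hP.2.image (fun p => p.2.2)
  refine ((h1.union h2).union h3).subset ?_
  rintro x ⟨a, b, c, h, rfl | rfl | rfl⟩
  · exact Or.inl (Or.inl ⟨(x, b, c), h, rfl⟩)
  · exact Or.inl (Or.inr ⟨(a, x, c), h, rfl⟩)
  · exact Or.inr ⟨(a, b, x), h, rfl⟩

theorem mem_RS_of_mut {P : Spec S} {x y : S} (hx : x ∈ RS P) (h : Mut P x y) : y ∈ RS P := by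
  rcases Relation.ReflTransGen.cases_tail h.1 with h1 | ⟨z, _, h1⟩
  · subst h1; exact hx
  · exact edge_right h1

/-- The setoid of mutual reachability. -/
def mutSetoid (P : Spec S) : Setoid S where
  r := Mut P
  iseqv := ⟨Mut.refl P, Mut.symm, Mut.trans⟩

open Classical in
/-- Representative of the strongly connected component. -/
noncomputable def rep (P : Spec S) (x : S) : S := (Quotient.mk (mutSetoid P) x).out

theorem rep_mut (P : Spec S) (x : S) : Mut P (rep P x) x :=
  Quotient.exact (s := mutSetoid P) (Quotient.out_eq _)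

theorem rep_eq_iff (P : Spec S) {x y : S} : rep P x = rep P y ↔ Mut P x y := by
  constructor
  · intro h
    exact (rep_mut P x).symm.trans (h ▸ rep_mut P y)
  · intro h
    unfold rep
    rw [Quotient.sound (s := mutSetoid P) h]

/-- **Stage index**: non-increasing along edges, constant exactly on strongly connected components
of rule sorts, positive exactly on rule sorts, bounded. -/
theorem exists_idx {P : Spec S} (hP : Finite P) :
    ∃ (idx : S → ℕ) (N : ℕ), (∀ x, idx x ≤ N) ∧ (∀ x, 0 < idx x ↔ x ∈ RS P) ∧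
      (∀ x y, Edge P x y → idx y ≤ idx x) ∧
      (∀ x y, x ∈ RS P → y ∈ RS P → (idx x = idx y ↔ Mut P x y)) := by
  classical
  set V : Finset S := (finite_RS hP).toFinset with hV
  have memV : ∀ x, x ∈ V ↔ x ∈ RS P := fun x => by simp [hV]
  set n := V.card with hn
  let e : S → ℕ := fun x => if h : x ∈ V then (V.equivFin ⟨x, h⟩ : ℕ) else 0
  have elt : ∀ x, x ∈ V → e x < n := by
    intro x hx
    simp only [e, dif_pos hx]
    exact (V.equivFin ⟨x, hx⟩).2
  have einj : ∀ x y, x ∈ V → y ∈ V → e x = e y → x = y := by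
    intro x y hx hy h
    simp only [e, dif_pos hx, dif_pos hy] at h
    have := V.equivFin.injective (Fin.ext h)
    exact congrArg Subtype.val this
  let f : S → ℕ := fun x => (V.filter (fun v => Reach P x v)).card
  let idx : S → ℕ := fun x => if x ∈ V then 1 + f x * n + e (rep P x) else 0
  have frange : ∀ x, f x ≤ n := fun x => Finset.card_filter_le _ _
  have repV : ∀ x, x ∈ V → rep P x ∈ V := by
    intro x hx
    rw [memV] at hx ⊢
    exact mem_RS_of_mut hx (rep_mut P x).symm
  have fmono : ∀ x y, Reach P x y → f y ≤ f x := by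
    intro x y h
    refine Finset.card_le_card ?_
    intro v hv
    rw [Finset.mem_filter] at hv ⊢
    exact ⟨hv.1, h.trans hv.2⟩
  have fstrict : ∀ x y, x ∈ V → Reach P x y → ¬ Reach P y x → f y < f x := by
    intro x y hx h hn
    refine Finset.card_lt_card ?_
    rw [Finset.ssubset_iff_of_subset]
    · refine ⟨x, ?_, ?_⟩
      · rw [Finset.mem_filter]; exact ⟨hx, Reach.refl P x⟩
      · rw [Finset.mem_filter]; exact fun h' => hn h'.2
    · intro v hv
      rw [Finset.mem_filter] at hv ⊢
      exact ⟨hv.1, h.trans hv.2⟩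
  have flt : ∀ x y, x ∈ V → y ∈ V → f y < f x →
      1 + f y * n + e (rep P y) < 1 + f x * n + e (rep P x) := by
    intro x y hx hy h
    have h1 : e (rep P y) < n := elt _ (repV y hy)
    have h2 : (f y + 1) * n ≤ f x * n := Nat.mul_le_mul_right n h
    have h3 : (f y + 1) * n = f y * n + n := by ring
    omega
  refine ⟨idx, 1 + n * n + n, ?_, ?_, ?_, ?_⟩
  · intro x
    simp only [idx]
    split_ifs with h
    · have h1 : e (rep P x) < n := elt _ (repV x h)
      have h2 : f x * n ≤ n * n := Nat.mul_le_mul_right n (frange x)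
      omega
    · omega
  · intro x
    simp only [idx]
    split_ifs with h
    · exact ⟨fun _ => (memV x).1 h, fun _ => by omega⟩
    · exact ⟨fun h' => absurd h' (lt_irrefl 0), fun h' => absurd ((memV x).2 h') h⟩
  · intro x y h
    have hx : x ∈ V := (memV x).2 (edge_left h)
    have hy : y ∈ V := (memV y).2 (edge_right h)
    simp only [idx, if_pos hx, if_pos hy]
    by_cases hr : Reach P y x
    · have hm : Mut P x y := ⟨Reach.of_edge h, hr⟩
      have h1 : rep P x = rep P y := (rep_eq_iff P).2 hm
      have h2 : f x = f y := le_antisymm (fmono y x hr) (fmono x y (Reach.of_edge h))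
      rw [h1, h2]
    · exact (flt x y hx hy (fstrict x y hx (Reach.of_edge h) hr)).le
  · intro x y hx' hy'
    have hx : x ∈ V := (memV x).2 hx'
    have hy : y ∈ V := (memV y).2 hy'
    simp only [idx, if_pos hx, if_pos hy]
    constructor
    · intro h
      have h2 : f x = f y := by
        rcases lt_trichotomy (f x) (f y) with hlt | heq | hgt
        · have := flt y x hy hx hlt; omega
        · exact heq
        · have := flt x y hx hy hgt; omega
      rw [h2] at h
      have h3 : e (rep P x) = e (rep P y) := by omega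
      exact (rep_eq_iff P).1 (einj _ _ (repV x hx) (repV y hy) h3)
    · intro hm
      have h1 : rep P x = rep P y := (rep_eq_iff P).2 hm
      have h2 : f x = f y := le_antisymm (fmono y x hm.2) (fmono x y hm.1)
      rw [h1, h2]

/-- Signed walks inside a set `D` of sorts (`true` = plus). -/
inductive Walk (P : Spec S) (D : Set S) : Bool → S → S → Prop
  | nil {x : S} : x ∈ D → Walk P D true x x
  | neg {s : Bool} {a b c d : S} : P.rule a b c → a ∈ D → Walk P D s c d → Walk P D (!s) a d
  | pos {s : Bool} {a b c d : S} : P.rule a b c → b ∈ D → Walk P D s c d → Walk P D s b d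

theorem Walk.left {P : Spec S} {D : Set S} {s : Bool} {x y : S} (h : Walk P D s x y) : x ∈ D := by
  cases h with
  | nil h => exact h
  | neg _ h _ => exact h
  | pos _ h _ => exact h

theorem Walk.right {P : Spec S} {D : Set S} {s : Bool} {x y : S} (h : Walk P D s x y) :
    y ∈ D := by
  induction h with
  | nil h => exact h
  | neg _ _ _ ih => exact ih
  | pos _ _ _ ih => exact ih

theorem Walk.comp {P : Spec S} {D : Set S} {s t : Bool} {x y z : S} (h₁ : Walk P D s x y)
    (h₂ : Walk P D t y z) : Walk P D (s == t) x z := by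
  induction h₁ with
  | nil _ => simpa using h₂
  | @neg s' a b c d hr ha _ ih =>
      have := Walk.neg hr ha (ih h₂)
      cases s' <;> cases t <;> exact this
  | pos hr hb _ ih => exact Walk.pos hr hb (ih h₂)

/-- `D` is a strongly connected component of rule sorts. -/
def IsScc (P : Spec S) (D : Set S) : Prop :=
  (∀ x ∈ D, x ∈ RS P) ∧ (∀ x ∈ D, ∀ y, y ∈ D ↔ Mut P x y)

theorem isScc_level {P : Spec S} {idx : S → ℕ} (h0 : ∀ x, 0 < idx x ↔ x ∈ RS P)
    (h1 : ∀ x y, x ∈ RS P → y ∈ RS P → (idx x = idx y ↔ Mut P x y)) {i : ℕ} (hi : 0 < i) :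
    IsScc P {x | idx x = i} := by
  refine ⟨fun x hx => (h0 x).1 (by rw [Set.mem_ofPred_eq] at hx; omega), ?_⟩
  intro x hx y
  have hxR : x ∈ RS P := (h0 x).1 (by rw [Set.mem_ofPred_eq] at hx; omega)
  rw [Set.mem_ofPred_eq] at hx
  constructor
  · intro hy
    rw [Set.mem_ofPred_eq] at hy
    exact (h1 x y hxR ((h0 y).1 (by omega))).1 (by omega)
  · intro hm
    have := (h1 x y hxR (mem_RS_of_mut hxR hm)).2 hm
    rw [Set.mem_ofPred_eq]
    omega

theorem IsScc.walk_of_reach {P : Spec S} {D : Set S} (hD : IsScc P D) {x y : S}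
    (h : Reach P x y) (hx : x ∈ D) (hy : y ∈ D) : ∃ s, Walk P D s x y := by
  induction h using Relation.ReflTransGen.head_induction_on with
  | refl => exact ⟨true, Walk.nil hy⟩
  | @head a c hac hcb ih =>
      have hc : c ∈ D := by
        rw [hD.2 a hx c]
        exact ⟨Reach.of_edge hac, Reach.trans hcb ((hD.2 a hx y).1 hy).2⟩
      obtain ⟨s, hs⟩ := ih hc
      rcases hac with ⟨b, hr⟩ | ⟨b, hr⟩
      · exact ⟨!s, Walk.neg hr hx hs⟩
      · exact ⟨s, Walk.pos hr hx hs⟩

theorem IsScc.exists_walk {P : Spec S} {D : Set S} (hD : IsScc P D) {x y : S}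
    (hx : x ∈ D) (hy : y ∈ D) : ∃ s, Walk P D s x y :=
  hD.walk_of_reach ((hD.2 x hx y).1 hy).1 hx hy

/-- No rule with all three sorts in `D`. -/
def Unary (P : Spec S) (D : Set S) : Prop :=
  ∀ a b c, P.rule a b c → c ∈ D → ¬ (a ∈ D ∧ b ∈ D)

/-- 2-colourable: domain steps flip the colour, codomain steps keep it. -/
def Even (P : Spec S) (D : Set S) : Prop :=
  ∃ χ : S → Bool, ∀ a b c, P.rule a b c → c ∈ D →
    (a ∈ D → χ a = !(χ c)) ∧ (b ∈ D → χ b = χ c)

/-- Neither unary nor even. -/
def Bipolar (P : Spec S) (D : Set S) : Prop := ¬ Unary P D ∧ ¬ Even P D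

theorem trichotomy (P : Spec S) (D : Set S) : Unary P D ∨ Even P D ∨ Bipolar P D := by
  unfold Bipolar
  by_cases h1 : Unary P D
  · exact Or.inl h1
  · by_cases h2 : Even P D
    · exact Or.inr (Or.inl h2)
    · exact Or.inr (Or.inr ⟨h1, h2⟩)

theorem not_unary {P : Spec S} {D : Set S} (h : ¬ Unary P D) :
    ∃ a b c, P.rule a b c ∧ a ∈ D ∧ b ∈ D ∧ c ∈ D := by
  unfold Unary at h
  push Not at h
  obtain ⟨a, b, c, hr, hc, ha, hb⟩ := h
  exact ⟨a, b, c, hr, ha, hb, hc⟩

/-- In a strongly connected component that is not 2-colourable there are walks of both signs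
between any two sorts. -/
theorem IsScc.walk_both {P : Spec S} {D : Set S} (hD : IsScc P D) (h : ¬ Even P D) {x y : S}
    (hx : x ∈ D) (hy : y ∈ D) (s : Bool) : Walk P D s x y := by
  classical
  -- a negative closed walk at `x`
  have key : Walk P D false x x := by
    by_contra hno
    apply h
    have uniq : ∀ y ∈ D, ∀ s t, Walk P D s x y → Walk P D t x y → s = t := by
      intro y hy s t hs ht
      obtain ⟨r, hr⟩ := hD.exists_walk hy hx
      have h1 := hs.comp hr
      have h2 := ht.comp hr
      cases s <;> cases t <;> cases r <;> simp_all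
    refine ⟨fun z => decide (Walk P D true x z), ?_⟩
    have chi : ∀ z ∈ D, Walk P D (decide (Walk P D true x z)) x z := by
      intro z hz
      obtain ⟨s, hs⟩ := hD.exists_walk hx hz
      by_cases ht : Walk P D true x z
      · rwa [decide_eq_true ht]
      · rw [decide_eq_false ht]
        cases s
        · exact hs
        · exact absurd hs ht
    intro a b c hr hc
    constructor
    · intro ha
      have h1 : Walk P D false a c := by simpa using Walk.neg hr ha (Walk.nil hc)
      have h2 := (chi a ha).comp h1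
      have h3 := uniq c hc _ _ h2 (chi c hc)
      have h4 : ∀ p q : Bool, (p == false) = q → p = !q := by decide
      exact h4 _ _ h3
    · intro hb
      have h1 : Walk P D true b c := Walk.pos hr hb (Walk.nil hc)
      have h2 := (chi b hb).comp h1
      have h3 := uniq c hc _ _ h2 (chi c hc)
      have h4 : ∀ p q : Bool, (p == true) = q → p = q := by decide
      exact h4 _ _ h3
  obtain ⟨t, ht⟩ := hD.exists_walk hx hy
  by_cases hst : s = t
  · rw [hst]; exact ht
  · have := key.comp ht
    cases s <;> cases t <;> simp_all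

end Crest.Agent.R298.Scc795
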