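import Crest.Agent.R298.NoNf_525
import Crest.Agent.R298.At1_734
import Crest.Agent.R298.Real_582
import Crest.Agent.R298.Scc_795

/-!
R298 (S0452), helper525: THE BASE CONTEXT of the paradox side, list form.

`Q : Spec T` finite, all rule sorts have a type (an axiom), `Q` weakly normalizing, `D` a strongly
connected set of sorts.  There is a context `Γ` with

* for every rule sort `s`: atoms `E s`, `F s : s` and an inhabitant `e s : E s`;
* for all `b, b'` which are codomain sorts of rules `(a, b, c)` with `a, c ∈ D`: a term of type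
  `F b'` in `F b :: Γ`;
* no `F b` is inhabited.

Applied to the atom extension `Pp P` of 734.
-/

set_option autoImplicit false

namespace Crest.Agent.R298.Base525

open Crest.LogicCS.PTS Crest.LogicCS.PTS.Term Relation
open Crest.Agent.R298.Sub452 Crest.Agent.R298.Par452 Crest.Agent.R298.Ty452
open Crest.Agent.R298.NoNf525 Crest.Agent.R298.Scc795

universe u
variable {T : Type u} {Q : Spec T}

theorem wk_imp (A B : Term T) : wk (pi A (wk B)) = pi (wk A) (wk (wk B)) :=
  congrArg (pi (wk A)) (ren_up_wk Nat.succ B)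

/-! ### entailment in a context -/

/-- `A` entails `B` in `Γ` -/
def Imp (Q : Spec T) (Γ : List (Term T)) (A B : Term T) : Prop :=
  ∃ C, Typed Q (A :: Γ) C (wk B)

theorem Imp.refl {Γ : List (Term T)} {A : Term T} {s : T} (h : Typed Q Γ A (sort s)) :
    Imp Q Γ A A := ⟨var 0, t_start h⟩

theorem Imp.trans {Γ : List (Term T)} {A B C : Term T} (h : Imp Q Γ A B) (h' : Imp Q Γ B C) :
    Imp Q Γ A C := by
  obtain ⟨M, hM⟩ := h
  obtain ⟨N, hN⟩ := h'
  obtain ⟨w, s, hA⟩ := (twf hM).tail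
  have hs : SubOk Q (scons M (fun i => var (i + 1))) (B :: Γ) (A :: Γ) := by
    intro i K hl
    cases hl with
    | zero _ _ =>
        have : sub (scons M (fun i => var (i + 1))) (wk B) = wk B := by
          rw [wk, sub_ren, ren_eq_sub]
          rfl
        rw [this]
        exact hM
    | @succ _ i K _ hl =>
        have : sub (scons M (fun i => var (i + 1))) (wk K) = wk K := by
          rw [wk, sub_ren, ren_eq_sub]
          rfl
        rw [this]
        exact var_wf (.succ _ hl) (.cons w hA)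
  have := typed_sub hN (.cons w hA) hs
  have e : sub (scons M (fun i => var (i + 1))) (wk C) = wk C := by
    rw [wk, sub_ren, ren_eq_sub]
    rfl
  rw [e] at this
  exact ⟨_, this⟩

theorem Imp.weak {Γ : List (Term T)} {A B K : Term T} {s : T} (h : Imp Q Γ A B)
    (hK : Typed Q Γ K (sort s)) : Imp Q (K :: Γ) (wk A) (wk B) := by
  obtain ⟨M, hM⟩ := h
  obtain ⟨w, t, hA⟩ := (twf hM).tail
  refine ⟨ren (up Nat.succ) M, ?_⟩
  have := typed_ren hM (.cons (.cons w hK) (t_weak hA hK)) ((RenOk.wk Γ K).up A)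
  rwa [ren_up_wk] at this

theorem Imp.mp {Γ : List (Term T)} {A B M : Term T} (h : Imp Q Γ A B) (hM : Typed Q Γ M A) :
    ∃ N, Typed Q Γ N B := by
  obtain ⟨C, hC⟩ := h
  have := typed_inst hC hM
  rw [inst_wk] at this
  exact ⟨_, this⟩

/-! ### the atoms -/

/-- the atoms `E s`, `F s` and the inhabitants `e s` for the sorts of `l` -/
structure Ats (Q : Spec T) (l : T → Prop) (Γ : List (Term T)) (v : ℕ → Bool)
    (E e F : T → ℕ) : Prop where
  wf : Wf Q Γ
  good : Good v Γ
  hE : ∀ s, l s → Lk Γ (E s) (sort s)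
  vE : ∀ s, l s → v (E s) = true
  he : ∀ s, l s → Lk Γ (e s) (var (E s))
  hF : ∀ s, l s → Lk Γ (F s) (sort s)
  vF : ∀ s, l s → v (F s) = false

open Classical in
theorem exists_ats (Q : Spec T) (l : List T) (hl : ∀ s ∈ l, ∃ t, Q.ax s t) :
    ∃ Γ v E e F, Ats Q (· ∈ l) Γ v E e F := by
  induction l with
  | nil =>
      exact ⟨[], fun _ => true, fun _ => 0, fun _ => 0, fun _ => 0, .nil, .nil _,
        by simp, by simp, by simp, by simp, by simp⟩
  | cons s l ih =>
      obtain ⟨Γ, v, E, e, F, h⟩ := ih (fun t ht => hl t (List.mem_cons_of_mem _ ht))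
      obtain ⟨t, ht⟩ := hl s List.mem_cons_self
      have w1 : Wf Q (sort s :: Γ) := .cons h.wf (ax_wf h.wf ht)
      have g1 : Good (vcons true v) (sort s :: Γ) := h.good.consSort true s
      have l1 : Lk (sort s :: Γ) 0 (sort s) := Lk.zero (sort s) Γ
      have t1 : Typed Q (sort s :: Γ) (var 0) (sort s) := var_wf l1 w1
      have w2 : Wf Q (var 0 :: sort s :: Γ) := .cons w1 t1
      have g2 : Good (vcons true (vcons true v)) (var 0 :: sort s :: Γ) :=
        g1.cons true (Tv.atom (S := T) (v := vcons true v) 0) (.refl _)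
      have w3 : Wf Q (sort s :: var 0 :: sort s :: Γ) := .cons w2 (ax_wf w2 ht)
      have g3 : Good (vcons false (vcons true (vcons true v))) (sort s :: var 0 :: sort s :: Γ) :=
        g2.consSort false s
      refine ⟨_, _, fun r => if r = s then 2 else E r + 3, fun r => if r = s then 1 else e r + 3,
        fun r => if r = s then 0 else F r + 3, w3, g3, ?_, ?_, ?_, ?_, ?_⟩
      · intro r hr
        by_cases hrs : r = s
        · subst hrs
          rw [if_pos rfl]
          exact .succ _ (.succ _ l1)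
        · rw [if_neg hrs]
          have hr' : r ∈ l := by simpa [hrs] using hr
          exact .succ _ (.succ _ (.succ _ (h.hE r hr')))
      · intro r hr
        by_cases hrs : r = s
        · subst hrs
          rw [if_pos rfl]
          rfl
        · rw [if_neg hrs]
          have hr' : r ∈ l := by simpa [hrs] using hr
          exact h.vE r hr'
      · intro r hr
        by_cases hrs : r = s
        · subst hrs
          rw [if_pos rfl, if_pos rfl]
          exact .succ _ (Lk.zero (var 0) _)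
        · rw [if_neg hrs, if_neg hrs]
          have hr' : r ∈ l := by simpa [hrs] using hr
          exact .succ _ (.succ _ (.succ _ (h.he r hr')))
      · intro r hr
        by_cases hrs : r = s
        · subst hrs
          rw [if_pos rfl]
          exact Lk.zero (sort r) _
        · rw [if_neg hrs]
          have hr' : r ∈ l := by simpa [hrs] using hr
          exact .succ _ (.succ _ (.succ _ (h.hF r hr')))
      · intro r hr
        by_cases hrs : r = s
        · subst hrs
          rw [if_pos rfl]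
          rfl
        · rw [if_neg hrs]
          have hr' : r ∈ l := by simpa [hrs] using hr
          exact h.vF r hr'

section
variable {l : T → Prop} {Γ : List (Term T)} {v : ℕ → Bool} {E e F : T → ℕ}

/-- one more declaration of true simple type -/
theorem Ats.cons (h : Ats Q l Γ v E e F) {K : Term T} {s : T} (hK : Typed Q Γ K (sort s))
    (hv : Tv v K true) : Ats Q l (K :: Γ) (vcons true v) (fun r => E r + 1) (fun r => e r + 1)
      (fun r => F r + 1) where
  wf := .cons h.wf hK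
  good := h.good.cons true hv (.refl _)
  hE := fun s hs => .succ _ (h.hE s hs)
  vE := fun s hs => h.vE s hs
  he := fun s hs => .succ _ (h.he s hs)
  hF := fun s hs => .succ _ (h.hF s hs)
  vF := fun s hs => h.vF s hs

theorem Ats.tE (h : Ats Q l Γ v E e F) {s : T} (hs : l s) : Typed Q Γ (var (E s)) (sort s) :=
  var_wf (h.hE s hs) h.wf

theorem Ats.te (h : Ats Q l Γ v E e F) {s : T} (hs : l s) : Typed Q Γ (var (e s)) (var (E s)) :=
  var_wf (h.he s hs) h.wf

theorem Ats.tF (h : Ats Q l Γ v E e F) {s : T} (hs : l s) : Typed Q Γ (var (F s)) (sort s) :=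
  var_wf (h.hF s hs) h.wf

theorem Ats.tvE (h : Ats Q l Γ v E e F) {s : T} (hs : l s) : Tv (S := T) v (var (E s)) true := by
  have := Tv.atom (S := T) (v := v) (E s)
  rwa [h.vE s hs] at this

theorem Ats.tvF (h : Ats Q l Γ v E e F) {s : T} (hs : l s) : Tv (S := T) v (var (F s)) false := by
  have := Tv.atom (S := T) (v := v) (F s)
  rwa [h.vF s hs] at this

theorem Ats.con (h : Ats Q l Γ v E e F) (hwn : ∀ M, Legal Q Γ M → WN M) {s : T} (hs : l s) :
    ¬ ∃ M, Typed Q Γ M (var (F s)) := by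
  rintro ⟨M, hM⟩
  exact no_wn h.good hM (hwn M ⟨_, .inl hM⟩) (h.tvF hs)

/-! ### codomain walks and converters -/

/-- walks consisting of codomain steps -/
inductive Cw (Q : Spec T) : T → T → Prop
  | nil (x : T) : Cw Q x x
  | snoc {x y z a : T} : Cw Q x y → Q.rule a y z → Cw Q x z

/-- `(a, b, c)` with `a, c ∈ D` followed by a codomain walk `c ⇝ a'` and `(a', b', c')` -/
def Elem (Q : Spec T) (D : Set T) (b b' : T) : Prop :=
  ∃ a c a' c', Q.rule a b c ∧ a ∈ D ∧ c ∈ D ∧ Cw Q c a' ∧ Q.rule a' b' c' ∧ a' ∈ D ∧ c' ∈ D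

/-- formation of a non-dependent product -/
theorem t_imp {A B : Term T} {a b c : T} (hA : Typed Q Γ A (sort a)) (hB : Typed Q Γ B (sort b))
    (hr : Q.rule a b c) : Typed Q Γ (pi A (wk B)) (sort c) :=
  .prod hA (t_weak hB hA) hr

theorem chain (h : Ats Q l Γ v E e F) (hl : ∀ s ∈ RS Q, l s) {G : Term T} {g x y : T}
    (hG : Typed Q Γ G (sort g)) (hc : Cw Q x y) :
    ∀ A, Typed Q Γ A (sort x) → Tv v A false → Imp Q Γ G A →
      ∃ A', Typed Q Γ A' (sort y) ∧ Tv v A' false ∧ Imp Q Γ G A' := by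
  induction hc with
  | nil => intro A h1 h2 h3; exact ⟨A, h1, h2, h3⟩
  | @snoc y z a _ hr ih =>
      intro A h1 h2 h3
      obtain ⟨A', h4, h5, M, h6⟩ := ih A h1 h2 h3
      have la : l a := hl a ⟨_, _, _, hr, Or.inl rfl⟩
      refine ⟨pi (var (E a)) (wk A'), t_imp (h.tE la) h4 hr, ?_, ?_⟩
      · exact Tv.arrow (h.tvE la) h5
      · refine ⟨lam (wk (var (E a))) (wk M), ?_⟩
        have hE' := t_weak (h.tE la) hG
        have h7 : Typed Q (wk (var (E a)) :: G :: Γ) (wk M) (wk (wk A')) := t_weak h6 hE'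
        have h8 : Typed Q (G :: Γ) (wk (pi (var (E a)) (wk A'))) (wk (sort z)) :=
          t_weak (t_imp (h.tE la) h4 hr) hG
        rw [wk_imp] at h8 ⊢
        exact Typed.abs h7 h8

theorem elem_typed {D : Set T} (h : Ats Q l Γ v E e F) (hl : ∀ s ∈ RS Q, l s) {b b' : T}
    (hb : Elem Q D b b') : ∃ K k, Typed Q Γ K (sort k) ∧ Tv v K true ∧
      Imp Q (K :: Γ) (wk (var (F b))) (wk (var (F b'))) := by
  obtain ⟨a, c, a', c', r, ha, hc, hw, r', ha', hc'⟩ := hb
  have la : l a := hl a ⟨_, _, _, r, Or.inl rfl⟩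
  have lb : l b := hl b ⟨_, _, _, r, Or.inr (Or.inl rfl)⟩
  have lb' : l b' := hl b' ⟨_, _, _, r', Or.inr (Or.inl rfl)⟩
  -- the first type `E a → F b`
  have h0 : Imp Q Γ (var (F b)) (pi (var (E a)) (wk (var (F b)))) := by
    refine ⟨lam (wk (var (E a))) (wk (var 0)), ?_⟩
    have hE' := t_weak (h.tE la) (h.tF lb)
    have h7 : Typed Q (wk (var (E a)) :: var (F b) :: Γ) (wk (var 0)) (wk (wk (var (F b)))) :=
      t_weak (t_start (h.tF lb)) hE'
    have h8 := t_weak (t_imp (h.tE la) (h.tF lb) r) (h.tF lb)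
    rw [wk_imp] at h8 ⊢
    exact Typed.abs h7 h8
  have v0 : Tv v (pi (var (E a)) (wk (var (F b)))) false := Tv.arrow (h.tvE la) (h.tvF lb)
  obtain ⟨A', h4, h5, M, h6⟩ := chain h hl (h.tF lb) hw _ (t_imp (h.tE la) (h.tF lb) r) v0 h0
  have hK := t_imp h4 (h.tF lb') r'
  refine ⟨pi A' (wk (var (F b'))), c', hK, Tv.arrow h5 (h.tvF lb'), ?_⟩
  -- the converter applied
  obtain ⟨N, hN⟩ := Imp.weak ⟨M, h6⟩ hK
  refine ⟨app (wk (var 0)) N, ?_⟩
  have h10 : Typed Q (wk (var (F b)) :: pi A' (wk (var (F b'))) :: Γ) (wk (var 0))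
      (wk (wk (pi A' (wk (var (F b')))))) :=
    t_weak (t_start hK) (t_weak (h.tF lb) hK)
  rw [wk_imp, wk_imp] at h10
  have h11 := t_appl h10 hN
  rw [inst_wk] at h11
  exact h11

end

/-- the context with the converters -/
theorem exists_conv (Q : Spec T) (D : Set T) (l : List T) (hax : ∀ s ∈ l, ∃ t, Q.ax s t)
    (hl : ∀ s ∈ RS Q, s ∈ l) (L : List (T × T)) (hL : ∀ p ∈ L, Elem Q D p.1 p.2) :
    ∃ Γ v E e F, Ats Q (· ∈ l) Γ v E e F ∧
      ∀ p ∈ L, Imp Q Γ (var (F p.1)) (var (F p.2)) := by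
  induction L with
  | nil =>
      obtain ⟨Γ, v, E, e, F, h⟩ := exists_ats Q l hax
      exact ⟨Γ, v, E, e, F, h, by simp⟩
  | cons p L ih =>
      obtain ⟨Γ, v, E, e, F, h, h'⟩ := ih (fun q hq => hL q (List.mem_cons_of_mem _ hq))
      obtain ⟨K, k, hK, hv, hi⟩ := elem_typed h hl (hL p List.mem_cons_self)
      refine ⟨K :: Γ, _, _, _, _, h.cons hK hv, ?_⟩
      intro q hq
      rcases List.mem_cons.1 hq with rfl | hq
      · exact hi
      · exact (h' q hq).weak hK

/-- codomain sorts of the rules with domain and product sort in `D` -/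
def Bs (Q : Spec T) (D : Set T) : Set T := {b | ∃ a c, Q.rule a b c ∧ a ∈ D ∧ c ∈ D}

theorem conn_aux {D : Set T} {R : T → T → Prop} (hR : ∀ b b', Elem Q D b b' → R b b')
    (ht : ∀ x y z, R x y → R y z → R x z) {s : Bool} {x a' : T} (hw : Walk Q D s x a') :
    ∀ a b c b' c', Q.rule a b c → a ∈ D → c ∈ D → Cw Q c x → Q.rule a' b' c' → c' ∈ D →
      R b b' := by
  induction hw with
  | nil hx =>
      intro a b c b' c' r ha hc hcw r' hc'
      exact hR _ _ ⟨a, c, _, c', r, ha, hc, hcw, r', hx, hc'⟩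
  | @neg s x b'' c'' d hr hx hw ih =>
      intro a b c b' c' r ha hc hcw r' hc'
      have h1 : R b b'' := hR _ _ ⟨a, c, x, c'', r, ha, hc, hcw, hr, hx, hw.left⟩
      exact ht _ _ _ h1 (ih x b'' c'' b' c' hr hx hw.left (.nil _) r' hc')
  | @pos s a2 x c'' d hr hx hw ih =>
      intro a b c b' c' r ha hc hcw r' hc'
      exact ih a b c b' c' r ha hc (hcw.snoc hr) r' hc'

theorem conn {D : Set T} (hD : IsScc Q D) {R : T → T → Prop}
    (hR : ∀ b b', Elem Q D b b' → R b b') (ht : ∀ x y z, R x y → R y z → R x z) {b b' : T}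
    (hb : b ∈ Bs Q D) (hb' : b' ∈ Bs Q D) : R b b' := by
  obtain ⟨a, c, r, ha, hc⟩ := hb
  obtain ⟨a', c', r', ha', hc'⟩ := hb'
  obtain ⟨s, hw⟩ := hD.exists_walk hc ha'
  exact conn_aux hR ht hw a b c b' c' r ha hc (.nil _) r' hc'

/-- **the base context, list form** -/
theorem exists_list_base [Finite T] (Q : Spec T) (D : Set T) (hD : IsScc Q D)
    (hax : ∀ s ∈ RS Q, ∃ t, Q.ax s t) (hwn : ∀ Γ M, Legal Q Γ M → WN M) :
    ∃ (Γ : List (Term T)) (E e F : T → ℕ), Wf Q Γ ∧
      (∀ s ∈ RS Q, Lk Γ (E s) (sort s)) ∧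
      (∀ s ∈ RS Q, Lk Γ (e s) (var (E s))) ∧
      (∀ s ∈ RS Q, Lk Γ (F s) (sort s)) ∧
      (∀ b ∈ Bs Q D, ∀ b' ∈ Bs Q D, Imp Q Γ (var (F b)) (var (F b'))) ∧
      (∀ s ∈ RS Q, ¬ ∃ M, Typed Q Γ M (var (F s))) := by
  classical
  obtain ⟨l0, hl0⟩ : ∃ l : List T, ∀ s, s ∈ l := by
    have := Fintype.ofFinite T
    exact ⟨Finset.univ.toList, by simp⟩
  let l := l0.filter (fun s => s ∈ RS Q)
  have hl : ∀ s ∈ RS Q, s ∈ l := fun s hs => List.mem_filter.2 ⟨hl0 s, by simpa using hs⟩
  have hl' : ∀ s ∈ l, s ∈ RS Q := fun s hs => by simpa using (List.mem_filter.1 hs).2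
  obtain ⟨L0, hL0⟩ : ∃ L : List (T × T), ∀ p, p ∈ L := by
    have := Fintype.ofFinite T
    exact ⟨Finset.univ.toList, by simp⟩
  let L := L0.filter (fun p => Elem Q D p.1 p.2)
  have hL : ∀ p ∈ L, Elem Q D p.1 p.2 := fun p hp => by simpa using (List.mem_filter.1 hp).2
  have hL' : ∀ p, Elem Q D p.1 p.2 → p ∈ L :=
    fun p hp => List.mem_filter.2 ⟨hL0 p, by simpa using hp⟩
  obtain ⟨Γ, v, E, e, F, h, hc⟩ :=
    exists_conv Q D l (fun s hs => hax s (hl' s hs)) hl L hL
  refine ⟨Γ, E, e, F, h.wf, fun s hs => h.hE s (hl s hs), fun s hs => h.he s (hl s hs),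
    fun s hs => h.hF s (hl s hs), ?_, fun s hs => h.con (hwn Γ) (hl s hs)⟩
  intro b hb b' hb'
  exact conn hD (R := fun b b' => Imp Q Γ (var (F b)) (var (F b')))
    (fun b b' hbb' => hc (b, b') (hL' _ hbb')) (fun x y z => Imp.trans) hb hb'

end Crest.Agent.R298.Base525
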