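import Crest.Agent.R298.FatW_95
import Crest.Agent.R298.At1_734
import Crest.Agent.R298.Real_582

/-!
R298 (S0452), helper95: transport of the sort-level data of the paradox side from `P` to the atom
extension `Pp P` of 734: components, unary / even / bipolar, `RelS`, `HS`, `Op`, `Bd`, `FatW`.
-/

set_option autoImplicit false

namespace Crest.Agent.R298.FatP95

open Crest.LogicCS.PTS Crest.Agent.R298.Fin795 Crest.Agent.R298.Scc795 Crest.Agent.R298.Fl113
open Crest.Agent.R298.At734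

universe u

variable {S : Type u} {P : Spec S} {D : Set S}

/-- the component in the atom extension -/
def up' (D : Set S) : Set (S ⊕ S) := Sum.inl '' D

theorem rule_up {a b c : S} (h : P.rule a b c) :
    (Pp P).rule (Sum.inl a) (Sum.inl b) (Sum.inl c) := h

theorem ax_up {a b : S} (h : P.ax a b) : (Pp P).ax (Sum.inl a) (Sum.inl b) := h

theorem mem_up {x : S} : (Sum.inl x : S ⊕ S) ∈ up' D ↔ x ∈ D := by
  constructor
  · rintro ⟨y, hy, e⟩
    cases e
    exact hy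
  · intro h
    exact ⟨x, h, rfl⟩

theorem edge_up {x y : S} (h : Edge P x y) : Edge (Pp P) (Sum.inl x) (Sum.inl y) := by
  rcases h with ⟨b, h⟩ | ⟨a, h⟩
  · exact Or.inl ⟨Sum.inl b, rule_up h⟩
  · exact Or.inr ⟨Sum.inl a, rule_up h⟩

theorem edge_dn {x y : S ⊕ S} (h : Edge (Pp P) x y) :
    ∃ x0 y0, x = Sum.inl x0 ∧ y = Sum.inl y0 ∧ Edge P x0 y0 := by
  rcases h with ⟨b, h⟩ | ⟨a, h⟩
  · obtain ⟨a', b', c', rfl, rfl, rfl, h⟩ := Pp_rule h
    exact ⟨_, _, rfl, rfl, Or.inl ⟨_, h⟩⟩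
  · obtain ⟨a', b', c', rfl, rfl, rfl, h⟩ := Pp_rule h
    exact ⟨_, _, rfl, rfl, Or.inr ⟨_, h⟩⟩

theorem reach_up {x y : S} (h : Reach P x y) : Reach (Pp P) (Sum.inl x) (Sum.inl y) := by
  induction h with
  | refl => exact Relation.ReflTransGen.refl
  | tail _ h ih => exact ih.tail (edge_up h)

theorem reach_dn {x : S} {y : S ⊕ S} (h : Reach (Pp P) (Sum.inl x) y) :
    ∃ y0, y = Sum.inl y0 ∧ Reach P x y0 := by
  induction h with
  | refl => exact ⟨x, rfl, Relation.ReflTransGen.refl⟩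
  | tail _ h ih =>
      obtain ⟨y0, rfl, h1⟩ := ih
      obtain ⟨a, b, e, rfl, h2⟩ := edge_dn h
      cases e
      exact ⟨b, rfl, h1.tail h2⟩

theorem mut_up {x y : S} : Mut (Pp P) (Sum.inl x) (Sum.inl y) ↔ Mut P x y := by
  constructor
  · rintro ⟨h1, h2⟩
    obtain ⟨y0, e, h1⟩ := reach_dn h1
    obtain ⟨x0, e', h2⟩ := reach_dn h2
    cases e
    cases e'
    exact ⟨h1, h2⟩
  · rintro ⟨h1, h2⟩
    exact ⟨reach_up h1, reach_up h2⟩

theorem rs_up {x : S} (h : x ∈ RS P) : (Sum.inl x : S ⊕ S) ∈ RS (Pp P) := by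
  obtain ⟨a, b, c, h, h1 | h1 | h1⟩ := h
  · exact ⟨_, _, _, rule_up h, Or.inl (by rw [h1])⟩
  · exact ⟨_, _, _, rule_up h, Or.inr (Or.inl (by rw [h1]))⟩
  · exact ⟨_, _, _, rule_up h, Or.inr (Or.inr (by rw [h1]))⟩

theorem rs_dn {x : S ⊕ S} (h : x ∈ RS (Pp P)) : ∃ x0 ∈ RS P, x = Sum.inl x0 := by
  obtain ⟨a, b, c, h, h1⟩ := h
  obtain ⟨a', b', c', rfl, rfl, rfl, h⟩ := Pp_rule h
  rcases h1 with rfl | rfl | rfl
  · exact ⟨a', ⟨_, _, _, h, Or.inl rfl⟩, rfl⟩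
  · exact ⟨b', ⟨_, _, _, h, Or.inr (Or.inl rfl)⟩, rfl⟩
  · exact ⟨c', ⟨_, _, _, h, Or.inr (Or.inr rfl)⟩, rfl⟩

/-- the component stays a component -/
theorem isScc_up (h : IsScc P D) : IsScc (Pp P) (up' D) := by
  constructor
  · rintro _ ⟨x, hx, rfl⟩
    exact rs_up (h.1 x hx)
  · rintro _ ⟨x, hx, rfl⟩ y
    constructor
    · rintro ⟨y, hy, rfl⟩
      exact mut_up.2 ((h.2 x hx y).1 hy)
    · intro hm
      obtain ⟨y0, rfl, _⟩ := reach_dn hm.1
      exact mem_up.2 ((h.2 x hx y0).2 (mut_up.1 hm))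

theorem not_unary_up (h : ¬ Unary P D) : ¬ Unary (Pp P) (up' D) := by
  intro hu
  obtain ⟨a, b, c, hr, ha, hb, hc⟩ := not_unary h
  exact hu _ _ _ (rule_up hr) (mem_up.2 hc) ⟨mem_up.2 ha, mem_up.2 hb⟩

theorem not_even_up (h : ¬ Even P D) : ¬ Even (Pp P) (up' D) := by
  rintro ⟨χ, hχ⟩
  apply h
  refine ⟨fun x => χ (Sum.inl x), ?_⟩
  intro a b c hr hc
  have := hχ _ _ _ (rule_up hr) (mem_up.2 hc)
  exact ⟨fun ha => this.1 (mem_up.2 ha), fun hb => this.2 (mem_up.2 hb)⟩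

/-- bipolarity is kept -/
theorem bipolar_up (h : Bipolar P D) : Bipolar (Pp P) (up' D) :=
  ⟨not_unary_up h.1, not_even_up h.2⟩

/-! ### relevance data -/

theorem relS_up {t : S} (h : RelS P D t) : RelS (Pp P) (up' D) (Sum.inl t) := by
  induction h with
  | base hs ha => exact .base (mem_up.2 hs) (ax_up ha)
  | up r _ ih => exact .up (rule_up r) ih

theorem hs_up {w a : S} (h : HS P w a) : HS (Pp P) (Sum.inl w) (Sum.inl a) := by
  induction h with
  | base ha => exact .base (ax_up ha)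
  | up r _ ih => exact .up (rule_up r) ih

theorem op_up {x y : S} {e : Bool} (h : Op P D e x y) :
    Op (Pp P) (up' D) e (Sum.inl x) (Sum.inl y) := by
  induction h with
  | nil x => exact .nil _
  | cod r _ ih => exact .cod (rule_up r) ih
  | dom r hb _ ih => exact .dom (rule_up r) (relS_up hb) ih

theorem bd_up {v : S} (h : Bd P D v) : Bd (Pp P) (up' D) (Sum.inl v) := by
  obtain ⟨b, c, r, hb, hc⟩ := h
  exact ⟨_, _, rule_up r, mem_up.2 hb, mem_up.2 hc⟩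

/-- the fat configuration in the atom extension -/
theorem fatW_up (h : FatW P D) : FatW (Pp P) (up' D) := by
  obtain ⟨u, a, b, c, r, hs, ⟨e1, al⟩, ⟨e2, xi⟩, ⟨x, y, z, f, g, r', hy, ux, zu⟩,
    ⟨v1, hv1, hb1⟩, ⟨v2, hv2, hb2⟩⟩ := h
  exact ⟨_, _, _, _, rule_up r, hs_up hs, ⟨e1, op_up al⟩, ⟨e2, op_up xi⟩,
    ⟨_, _, _, f, g, rule_up r', relS_up hy, op_up ux, op_up zu⟩,
    ⟨_, op_up hv1, bd_up hb1⟩, ⟨_, op_up hv2, bd_up hb2⟩⟩

/-- in a realized specification every rule sort is inhabited in the sense of 734 -/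
theorem inh_of_rs (hR : Real582.Realized P) {x : S} (h : x ∈ RS P) : Inh P x := by
  obtain ⟨a, b, c, h, rfl | rfl | rfl⟩ := h
  · exact hR.inh_a h
  · exact hR.inh_b h
  · exact hR.inh_c h

end Crest.Agent.R298.FatP95
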