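import Crest.Agent.R298.Hen1_795

/-!
R298 (S0452), helper795: Henkin block, part 2.  Base contexts, stable types, walk formers and the
existence of a maximal consistent Henkin context.
-/

set_option autoImplicit false

namespace Crest.Agent.R298.Hen795

open Crest.LogicCS.PTS Crest.LogicCS.PTS.Term Relation
open Crest.Agent.R298.Sub452 Crest.Agent.R298.Par452 Crest.Agent.R298.Ty452
open Crest.Agent.R298.TyF452 Crest.Agent.R298.TyP795 Crest.Agent.R298.Scc795

universe u
variable {S : Type u} {P : Spec S} {Dd : Set S}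

/-! ### closed objects at depth `k` -/

/-- a closed object under `k` binders -/
def lift (k : ℕ) (M : Term S) : Term S := ren (fun i => i + k) M

theorem lift_zero (M : Term S) : lift 0 M = M := ren_id M

theorem wk_lift (k : ℕ) (M : Term S) : wk (lift k M) = lift (k + 1) M := by
  simp only [lift, wk, ren_ren]
  rfl

theorem sub_lift {σ : ℕ → Term S} {k k' : ℕ} (h : ∀ i, σ (i + k) = var (i + k')) (M : Term S) :
    sub σ (lift k M) = lift k' M := by
  simp only [lift, sub_ren, h]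
  exact (ren_eq_sub _ M).symm

theorem ups_base {σ : ℕ → Term S} {k k' : ℕ} (h : ∀ i, σ (i + k) = var (i + k')) :
    ∀ i, ups σ (i + (k + 1)) = var (i + (k' + 1)) := by
  intro i
  have : ups σ (i + (k + 1)) = wk (σ (i + k)) := rfl
  rw [this, h]
  rfl

theorem inst_lift (N M : Term S) (k : ℕ) : inst N (lift (k + 1) M) = lift k M := by
  rw [← wk_lift, inst_wk]

/-- codomain sorts of domain steps inside `Dd` -/
def Bs (P : Spec S) (Dd : Set S) : Set S := {b | ∃ a c, P.rule a b c ∧ a ∈ Dd ∧ c ∈ Dd}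

theorem bs_rs {b : S} (h : b ∈ Bs P Dd) : b ∈ RS P := by
  obtain ⟨a, c, r, _, _⟩ := h
  exact ⟨a, b, c, r, Or.inr (Or.inl rfl)⟩

/-- The data of a base context: answer types `R b`, inhabited types `E a` with inhabitant `e a`,
converters between the answer types of `Dd`, consistency. -/
structure Base (P : Spec S) (Dd : Set S) where
  D0 : ℕ → Term S
  R : S → Term S
  E : S → Term S
  e : S → Term S
  wf : WfP P D0
  fin : {i | Dm D0 i}.Finite
  hR : ∀ b ∈ RS P, TyF P D0 (R b) (sort b)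
  hE : ∀ a ∈ RS P, TyF P D0 (E a) (sort a)
  he : ∀ a ∈ RS P, TyF P D0 (e a) (E a)
  conv : ∀ b ∈ Bs P Dd, ∀ b' ∈ Bs P Dd, ∃ C, TyF P (fcons (R b) D0) C (wk (R b'))
  con : ∀ b ∈ Bs P Dd, ¬ ∃ M, TyF P D0 M (R b)

/-- `F` is a context over the base with `k` local variables -/
def Over (B : Base P Dd) (k : ℕ) (F : ℕ → Term S) : Prop := RenP (fun i => i + k) B.D0 F

theorem Over.cons {B : Base P Dd} {k : ℕ} {F : ℕ → Term S} (h : Over B k F) (A : Term S) :
    Over B (k + 1) (fcons A F) := by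
  intro i hi
  have h1 := h i hi
  have : fcons A F (i + (k + 1)) = wk (F (i + k)) := rfl
  show fcons A F (i + (k + 1)) = _
  simp only at h1
  rw [this, h1]
  exact wk_lift k _

theorem Over.of_le {B : Base P Dd} {F : ℕ → Term S} (h : Le B.D0 F) : Over B 0 F := h.renP

theorem Over.typed {B : Base P Dd} {k : ℕ} {F : ℕ → Term S} (h : Over B k F) {M A : Term S}
    (hM : TyF P B.D0 M A) : TyF P F (lift k M) (lift k A) := tyF_ren hM h

theorem Over.subA {B : Base P Dd} {k : ℕ} {F : ℕ → Term S} (h : Over B k F) :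
    SubA P (fun i => var (i + k)) B.D0 F := by
  intro i hi
  obtain ⟨s, hs⟩ := B.wf i hi
  have h1 : TyF P F (lift k (B.D0 i)) (sort s) := h.typed hs
  have h2 : F (i + k) = lift k (B.D0 i) := h i hi
  rw [← ren_eq_sub]
  show TyF P F (var (i + k)) (lift k (B.D0 i))
  rw [← h2] at h1 ⊢
  exact .var h1

/-- inhabited -/
def Inh (P : Spec S) (F : ℕ → Term S) (X : Term S) : Prop := ∃ M, TyF P F M X

/-- inconsistent -/
def Inc (B : Base P Dd) (k : ℕ) (F : ℕ → Term S) : Prop :=
  ∃ b ∈ Bs P Dd, Inh P F (lift k (B.R b))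

theorem Inh.mono {F G : ℕ → Term S} {X : Term S} (h : Inh P F X) (l : Le F G) : Inh P G X := by
  obtain ⟨M, hM⟩ := h
  exact ⟨M, tyF_mono hM l⟩

theorem Inh.wk {F : ℕ → Term S} {X : Term S} (h : Inh P F X) (A : Term S) :
    Inh P (fcons A F) (wk X) := by
  obtain ⟨M, hM⟩ := h
  exact ⟨_, tyF_wk hM A⟩

theorem Inc.mono {B : Base P Dd} {k : ℕ} {F G : ℕ → Term S} (h : Inc B k F) (l : Le F G) :
    Inc B k G := by
  obtain ⟨b, hb, h⟩ := h
  exact ⟨b, hb, h.mono l⟩

theorem Inc.wk {B : Base P Dd} {k : ℕ} {F : ℕ → Term S} (h : Inc B k F) (A : Term S) :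
    Inc B (k + 1) (fcons A F) := by
  obtain ⟨b, hb, h⟩ := h
  refine ⟨b, hb, ?_⟩
  rw [← wk_lift]
  exact h.wk A

theorem Inc.all {B : Base P Dd} {k : ℕ} {F : ℕ → Term S} (ho : Over B k F) (h : Inc B k F) {b' : S}
    (hb' : b' ∈ Bs P Dd) : Inh P F (lift k (B.R b')) := by
  obtain ⟨b, hb, M, hM⟩ := h
  obtain ⟨C, hC⟩ := B.conv b hb b' hb'
  have hs : SubA P (scons M (fun i => var (i + k))) (fcons (B.R b) B.D0) F := by
    refine ho.subA.scons ?_
    rw [← ren_eq_sub]
    exact hM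
  refine ⟨sub (scons M (fun i => var (i + k))) C, ?_⟩
  have := tyF_sub hC hs
  have h2 : sub (scons M (fun i => var (i + k))) (Sub452.wk (B.R b')) = lift k (B.R b') := by
    simp only [Sub452.wk, sub_ren, Nat.succ_eq_add_one, scons_succ]
    exact (ren_eq_sub _ _).symm
  rwa [h2] at this

/-! ### stable types -/

/-- stable types: products with target an answer type of `Dd` (`n` = number of arguments) -/
inductive StabN (B : Base P Dd) : ℕ → ℕ → Term S → Prop
  | base {k : ℕ} {b : S} : b ∈ Bs P Dd → StabN B 0 k (lift k (B.R b))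
  | pi {n k : ℕ} {A T : Term S} : StabN B n (k + 1) T → StabN B (n + 1) k (pi A T)

/-- stable types at depth `k` -/
def Stab (B : Base P Dd) (k : ℕ) (T : Term S) : Prop := ∃ n, StabN B n k T

theorem StabN.sub {B : Base P Dd} {n k : ℕ} {T : Term S} (h : StabN B n k T) :
    ∀ {σ : ℕ → Term S} {k' : ℕ}, (∀ i, σ (i + k) = var (i + k')) → StabN B n k' (sub σ T) := by
  induction h with
  | base hb =>
      intro σ k' hs
      rw [sub_lift hs]
      exact .base hb
  | pi _ ih =>
      intro σ k' hs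
      exact .pi (ih (ups_base hs))

theorem Stab.sub {B : Base P Dd} {k k' : ℕ} {T : Term S} (h : Stab B k T) {σ : ℕ → Term S}
    (hs : ∀ i, σ (i + k) = var (i + k')) : Stab B k' (sub σ T) := by
  obtain ⟨n, h⟩ := h
  exact ⟨n, h.sub hs⟩

theorem inst_base (N : Term S) (k : ℕ) : ∀ i, scons N var (i + (k + 1)) = var (S := S) (i + k) :=
  fun _ => rfl

theorem Stab.inst {B : Base P Dd} {k : ℕ} {T : Term S} (h : Stab B (k + 1) T) (N : Term S) :
    Stab B k (inst N T) := h.sub (inst_base N k)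

theorem Stab.wk {B : Base P Dd} {k : ℕ} {T : Term S} (h : Stab B k T) :
    Stab B (k + 1) (Sub452.wk T) := by
  have := h.sub (σ := fun i => var (Nat.succ i)) (k' := k + 1) (fun _ => rfl)
  rwa [← ren_eq_sub] at this

theorem Stab.inh {B : Base P Dd} {k : ℕ} {T : Term S} (h : Stab B k T) :
    ∀ {F : ℕ → Term S} {s : S}, Over B k F → TyF P F T (sort s) → Inc B k F → Inh P F T := by
  obtain ⟨n, h⟩ := h
  induction h with
  | base hb => intro F s ho _ hi; exact hi.all ho hb
  | @pi n k A T _ ih =>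
      intro F s ho ht hi
      obtain ⟨s₁, s₂, s₃, hA, hT, r, -⟩ := gen_pi ht
      obtain ⟨M, hM⟩ := ih (ho.cons A) hT (hi.wk A)
      exact ⟨lam A M, .abs hM ht⟩

/-! ### good stages -/

/-- consistent finite extension of the base -/
structure GoodC (B : Base P Dd) (D : ℕ → Term S) : Prop where
  le : Le B.D0 D
  wf : WfP P D
  fin : {i | Dm D i}.Finite
  con : ¬ Inc B 0 D

theorem GoodC.base (B : Base P Dd) : GoodC B B.D0 where
  le := Le.refl _
  wf := B.wf
  fin := B.fin
  con := by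
    rintro ⟨b, hb, h⟩
    rw [lift_zero] at h
    exact B.con b hb h

theorem GoodC.over {B : Base P Dd} {D : ℕ → Term S} (g : GoodC B D) : Over B 0 D :=
  Over.of_le g.le

theorem GoodC.fresh {B : Base P Dd} {D : ℕ → Term S} (g : GoodC B D) : ∃ k, ¬ Dm D k := by
  by_contra h
  push Not at h
  have : {i | Dm D i} = Set.univ := Set.eq_univ_of_forall h
  have h2 := g.fin
  rw [this] at h2
  exact Set.infinite_univ h2

theorem finite_upd {D : ℕ → Term S} (hf : {i | Dm D i}.Finite) {k : ℕ} {A : Term S}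
    (hA : A ≠ var k) : {i | Dm (upd D k A) i}.Finite := by
  refine (hf.insert k).subset ?_
  intro i hi
  have : Dm (upd D k A) i := hi
  rw [dm_upd hA] at this
  exact this

/-- inconsistency of a one-name extension comes from the local extension -/
theorem inc_local {B : Base P Dd} {D : ℕ → Term S} (g : GoodC B D) {k : ℕ} (hk : ¬ Dm D k)
    {A : Term S} {s : S} (hA : TyF P D A (sort s)) (h : Inc B 0 (upd D k A)) :
    Inc B 1 (fcons A D) := by
  obtain ⟨b, hb, M, hM⟩ := h
  refine ⟨b, hb, ren (rot k) M, ?_⟩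
  have h1 := abstract_name g.wf hk hA hM
  have h2 : FvIn (Dm D) (lift 0 (B.R b)) := by
    rw [lift_zero]
    exact fv_typed (tyF_mono (B.hR b (bs_rs hb)) g.le)
  rwa [ren_rot hk h2, wk_lift] at h1

theorem GoodC.upd {B : Base P Dd} {D : ℕ → Term S} (g : GoodC B D) {k : ℕ} (hk : ¬ Dm D k)
    {A : Term S} {s : S} (hA : TyF P D A (sort s)) (h : ¬ Inc B 1 (fcons A D)) :
    GoodC B (upd D k A) where
  le := g.le.trans (le_upd hk A)
  wf := wfP_upd g.wf hk hA
  fin := finite_upd g.fin (ne_var_of_typed hk hA)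
  con := fun hc => h (inc_local g hk hA hc)

/-- abstracting a fresh name in an instance -/
theorem rot_inst {D : ℕ → Term S} {k : ℕ} (hk : ¬ Dm D k) {A T : Term S}
    (hT : FvIn (Dm (fcons A D)) T) : ren (rot k) (inst (var k) T) = T := by
  rw [ren_inst]
  simp only [ren_var]
  have h0 : rot k k = 0 := by simp [rot]
  rw [h0]
  simp only [inst, sub_ren]
  have : sub (fun i => scons (var 0) var (up (rot k) i)) T = sub var T := by
    refine sub_congr (X := Dm (fcons A D)) ?_ hT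
    intro i hi
    cases i with
    | zero => rfl
    | succ i =>
        have hi' : Dm D i := dm_succ.1 hi
        have : i ≠ k := fun h => hk (h ▸ hi')
        simp [rot, this]
  rw [this, sub_id]

theorem inh_local {B : Base P Dd} {D : ℕ → Term S} (g : GoodC B D) {k : ℕ} (hk : ¬ Dm D k)
    {A T : Term S} {s s' : S} (hA : TyF P D A (sort s)) (hT : TyF P (fcons A D) T (sort s'))
    (h : Inh P (Hen795.upd D k A) (inst (var k) T)) : Inh P (fcons A D) T := by
  obtain ⟨M, hM⟩ := h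
  have h1 := abstract_name g.wf hk hA hM
  rw [rot_inst hk (fv_typed hT)] at h1
  exact ⟨_, h1⟩

/-- `T` is refuted over `D` (in all extensions) -/
def Ref (B : Base P Dd) (D : ℕ → Term S) (T : Term S) : Prop :=
  ∀ E, Le D E → Inh P E T → Inc B 0 E

theorem step_pi {B : Base P Dd} {D : ℕ → Term S} (g : GoodC B D) {A T : Term S} {s : S}
    (ht : TyF P D (pi A T) (sort s)) (hT : Stab B 1 T) (hn : ¬ Inh P D (pi A T)) :
    ∃ k, ¬ Dm D k ∧ GoodC B (upd D k A) ∧ ¬ Inh P (upd D k A) (inst (var k) T) ∧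
      (∃ s', TyF P (upd D k A) (inst (var k) T) (sort s')) := by
  obtain ⟨k, hk⟩ := g.fresh
  obtain ⟨s₁, s₂, s₃, hA, hTt, r, -⟩ := gen_pi ht
  refine ⟨k, hk, g.upd hk hA ?_, ?_, s₂, name_local g.wf hk hA hTt⟩
  · intro hi
    obtain ⟨M, hM⟩ := hT.inh (g.over.cons A) hTt hi
    exact hn ⟨lam A M, .abs hM ht⟩
  · intro hi
    obtain ⟨M, hM⟩ := inh_local g hk hA hTt hi
    exact hn ⟨lam A M, .abs hM ht⟩

theorem Ref.mono {B : Base P Dd} {D E : ℕ → Term S} {T : Term S} (h : Ref B D T) (l : Le D E) :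
    Ref B E T := fun F hF hi => h F (l.trans hF) hi

theorem refute {B : Base P Dd} (n : ℕ) : ∀ {T : Term S} {D : ℕ → Term S} {s : S},
    StabN B n 0 T → GoodC B D → TyF P D T (sort s) → ¬ Inh P D T →
    ∃ D', Le D D' ∧ GoodC B D' ∧ Ref B D' T := by
  induction n with
  | zero =>
      intro T D s hT g ht hn
      cases hT with
      | base hb => exact ⟨D, Le.refl _, g, fun E _ hi => ⟨_, hb, hi⟩⟩
  | succ n ih =>
      intro T D s hT g ht hn
      cases hT with
      | @pi _ _ A T hT' =>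
          obtain ⟨k, hk, g1, hn1, s1, ht1⟩ := step_pi g ht ⟨n, hT'⟩ hn
          obtain ⟨D', hD', g', hr⟩ := ih (hT'.sub (inst_base (var k) 0)) g1 ht1 hn1
          refine ⟨D', (le_upd hk A).trans hD', g', ?_⟩
          rintro E hE ⟨M, hM⟩
          refine hr E hE ⟨app M (var k), .appl hM ?_⟩
          have h1 : Dm (upd D k A) k := by
            obtain ⟨s₁, s₂, s₃, hA, -, -, -⟩ := gen_pi ht
            rw [dm_upd (ne_var_of_typed hk hA)]
            exact Or.inl rfl
          have h2 := tyF_var g1.wf h1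
          rw [upd_self] at h2
          exact tyF_mono h2 (hD'.trans hE)

/-- witnesses -/
theorem witness {B : Base P Dd} {D : ℕ → Term S} (g : GoodC B D) {A T : Term S} {s : S}
    (ht : TyF P D (pi A T) (sort s)) (hT : Stab B 1 T) (hn : ¬ Inh P D (pi A T)) :
    ∃ D' k, Le D D' ∧ GoodC B D' ∧ TyF P D' (var k) A ∧ Ref B D' (inst (var k) T) := by
  obtain ⟨k, hk, g1, hn1, s1, ht1⟩ := step_pi g ht hT hn
  obtain ⟨n, hT'⟩ := hT
  obtain ⟨D', hD', g', hr⟩ := refute n (hT'.sub (inst_base (var k) 0)) g1 ht1 hn1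
  refine ⟨D', k, (le_upd hk A).trans hD', g', ?_, hr⟩
  have h1 : Dm (upd D k A) k := by
    obtain ⟨s₁, s₂, s₃, hA, -, -, -⟩ := gen_pi ht
    rw [dm_upd (ne_var_of_typed hk hA)]
    exact Or.inl rfl
  have h2 := tyF_var g1.wf h1
  rw [upd_self] at h2
  exact tyF_mono h2 hD'

/-! ### the chain -/

/-- requirements: decide a type, witness a product, declare a name -/
abbrev Req (S : Type u) := Term S ⊕ (Term S × Term S) ⊕ ℕ

/-- the requirement is fulfilled when passing from `D` to `D'` -/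
def Done (B : Base P Dd) (D D' : ℕ → Term S) : Req S → Prop
  | Sum.inl X => (∃ s, TyF P D X (sort s)) → Inh P D' X ∨ Inc B 1 (fcons X D)
  | Sum.inr (Sum.inl (A, T)) => (∃ s, TyF P D (pi A T) (sort s)) → Stab B 1 T →
      ¬ Inh P D (pi A T) → ∃ k, TyF P D' (var k) A ∧ Ref B D' (inst (var k) T)
  | Sum.inr (Sum.inr i) => Dm D' i

theorem exists_step {B : Base P Dd} (hne : ∃ a, a ∈ RS P) {D : ℕ → Term S} (g : GoodC B D)
    (r : Req S) : ∃ D', Le D D' ∧ GoodC B D' ∧ Done B D D' r := by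
  rcases r with X | ⟨A, T⟩ | i
  · by_cases h : (∃ s, TyF P D X (sort s)) ∧ ¬ Inc B 1 (fcons X D)
    · obtain ⟨⟨s, hX⟩, hc⟩ := h
      obtain ⟨k, hk⟩ := g.fresh
      have g1 := g.upd hk hX hc
      refine ⟨upd D k X, le_upd hk X, g1, fun _ => Or.inl ⟨var k, ?_⟩⟩
      have h1 : Dm (upd D k X) k := by
        rw [dm_upd (ne_var_of_typed hk hX)]
        exact Or.inl rfl
      have h2 := tyF_var g1.wf h1
      rwa [upd_self] at h2
    · refine ⟨D, Le.refl _, g, fun hs => Or.inr ?_⟩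
      by_contra hc
      exact h ⟨hs, hc⟩
  · by_cases h : (∃ s, TyF P D (pi A T) (sort s)) ∧ Stab B 1 T ∧ ¬ Inh P D (pi A T)
    · obtain ⟨⟨s, ht⟩, hT, hn⟩ := h
      obtain ⟨D', k, hD', g', h1, h2⟩ := witness g ht hT hn
      exact ⟨D', hD', g', fun _ _ _ => ⟨k, h1, h2⟩⟩
    · exact ⟨D, Le.refl _, g, fun h1 h2 h3 => absurd ⟨h1, h2, h3⟩ h⟩
  · by_cases h : Dm D i
    · exact ⟨D, Le.refl _, g, h⟩
    · obtain ⟨a, ha⟩ := hne
      have hE := tyF_mono (B.hE a ha) g.le
      have he := tyF_mono (B.he a ha) g.le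
      refine ⟨upd D i (B.E a), le_upd h _, g.upd h hE ?_, ?_⟩
      · rintro ⟨b, hb, M, hM⟩
        refine g.con ⟨b, hb, inst (B.e a) M, ?_⟩
        have := tyF_inst g.wf hM he
        rwa [inst_lift] at this
      · show Dm (upd D i (B.E a)) i
        rw [dm_upd (ne_var_of_typed h hE)]
        exact Or.inl rfl

/-- maximal consistent context with witnesses -/
structure Hen (B : Base P Dd) (D : ℕ → Term S) : Prop where
  le : Le B.D0 D
  wf : WfF P D
  con : ¬ Inc B 0 D
  max : ∀ X s, TyF P D X (sort s) → Inh P D X ∨ Inc B 1 (fcons X D)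
  wit : ∀ A T s, TyF P D (pi A T) (sort s) → Stab B 1 T → ¬ Inh P D (pi A T) →
    ∃ M, TyF P D M A ∧ ¬ Inh P D (inst M T)

theorem exists_henkin [Countable S] (B : Base P Dd) (hne : ∃ a, a ∈ RS P) :
    ∃ D, Hen B D := by
  classical
  obtain ⟨f, hf⟩ := exists_fair (Req S)
  -- the chain
  let step : {D // GoodC B D} → Req S → {D // GoodC B D} := fun D r =>
    ⟨Classical.choose (exists_step hne D.2 r),
      (Classical.choose_spec (exists_step hne D.2 r)).2.1⟩
  let C' : ℕ → {D // GoodC B D} := fun n => Nat.rec ⟨B.D0, GoodC.base B⟩ (fun n D => step D (f n)) n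
  let C : ℕ → ℕ → Term S := fun n => (C' n).1
  have hstep : ∀ n, Le (C n) (C (n + 1)) ∧ Done B (C n) (C (n + 1)) (f n) := by
    intro n
    have := Classical.choose_spec (exists_step hne (C' n).2 (f n))
    exact ⟨this.1, this.2.2⟩
  have hgood : ∀ n, GoodC B (C n) := fun n => (C' n).2
  obtain ⟨E, hE⟩ := exists_union (fun n => (hstep n).1)
  have hcomp : ∀ {M A : Term S}, TyF P E M A → ∃ n, ∀ m, n ≤ m → TyF P (C m) M A := by
    intro M A h
    obtain ⟨n, hn⟩ := compact h hE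
    exact ⟨n, fun m hm => tyF_mono hn (hE.mono' hm)⟩
  have hdm : ∀ i, Dm E i := by
    intro i
    obtain ⟨n, -, hn⟩ := hf (Sum.inr (Sum.inr i)) 0
    have := (hstep n).2
    rw [hn] at this
    exact (hE.le (n + 1)).dm this
  have hwf : WfF P E := by
    intro i
    obtain ⟨n, hn⟩ := hE.ex i (hdm i)
    have hd : Dm (C n) i := by
      unfold Dm; rw [hn]; exact hdm i
    obtain ⟨s, hs⟩ := (hgood n).wf i hd
    rw [hn] at hs
    exact ⟨s, tyF_mono hs (hE.le n)⟩
  refine ⟨E, (hgood 0).le.trans (hE.le 0), hwf, ?_, ?_, ?_⟩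
  · rintro ⟨b, hb, M, hM⟩
    obtain ⟨n, hn⟩ := hcomp hM
    exact (hgood n).con ⟨b, hb, M, hn n le_rfl⟩
  · intro X s hX
    obtain ⟨n, hn⟩ := hcomp hX
    obtain ⟨m, hm, hfm⟩ := hf (Sum.inl X) n
    have := (hstep m).2
    rw [hfm] at this
    rcases this ⟨s, hn m hm⟩ with h | h
    · exact Or.inl (h.mono (hE.le (m + 1)))
    · exact Or.inr (h.mono ((hE.le m).fcons X))
  · intro A T s ht hT hnI
    obtain ⟨n, hn⟩ := hcomp ht
    obtain ⟨m, hm, hfm⟩ := hf (Sum.inr (Sum.inl (A, T))) n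
    have := (hstep m).2
    rw [hfm] at this
    obtain ⟨k, h1, h2⟩ := this ⟨s, hn m hm⟩ hT (fun h => hnI (h.mono (hE.le m)))
    refine ⟨var k, tyF_mono h1 (hE.le (m + 1)), ?_⟩
    intro hi
    have hinc := h2 E (hE.le (m + 1)) hi
    obtain ⟨b, hb, M, hM⟩ := hinc
    obtain ⟨n', hn'⟩ := hcomp hM
    exact (hgood n').con ⟨b, hb, M, hn' n' le_rfl⟩

end Crest.Agent.R298.Hen795
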