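import Crest.Agent.R298.Pad_734
import Crest.Agent.R298.Base_525
import Crest.Agent.R298.Hen2_795
import Crest.Agent.R298.FatP_95

/-!
R298 (S0452), helper734 (with 525): the structure `Hen795.Base` for the atom extension, from
`Base525.exists_list_base` and `Pad734`.
-/

set_option autoImplicit false

namespace Crest.Agent.R298.BaseF734

open Crest.LogicCS.PTS Crest.LogicCS.PTS.Term Relation
open Crest.Agent.R298.Sub452 Crest.Agent.R298.Par452 Crest.Agent.R298.Ty452
open Crest.Agent.R298.TyF452 Crest.Agent.R298.TyP795 Crest.Agent.R298.Scc795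
open Crest.Agent.R298.Pad734

universe u
variable {T : Type u}

/-- **the base context, function form** -/
theorem exists_base [_root_.Finite T] (Q : Spec T) (D : Set T) (hD : IsScc Q D)
    (hax : ∀ s ∈ RS Q, ∃ t, Q.ax s t) (hwn : ∀ Γ M, Legal Q Γ M → WN M) :
    ∃ (B : Hen795.Base Q D) (R E e : T → ℕ),
      (∀ s, B.R s = var (R s)) ∧ (∀ s, B.E s = var (E s)) ∧ (∀ s, B.e s = var (e s)) := by
  obtain ⟨Γ, E, e, F, w, hE, he, hF, hc, hn⟩ := Base525.exists_list_base Q D hD hax hwn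
  refine ⟨{
    D0 := pad Γ
    R := fun s => var (F s)
    E := fun s => var (E s)
    e := fun s => var (e s)
    wf := wfP_pad w
    fin := dm_pad_finite Γ
    hR := fun s hs => typed_pad (var_wf (hF s hs) w)
    hE := fun s hs => typed_pad (var_wf (hE s hs) w)
    he := fun s hs => typed_pad (var_wf (he s hs) w)
    conv := ?_
    con := ?_ }, F, E, e, fun _ => rfl, fun _ => rfl, fun _ => rfl⟩
  · intro b hb b' hb'
    obtain ⟨C, hC⟩ := hc b hb b' hb'
    exact ⟨C, typed_pad hC⟩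
  · rintro b hb ⟨M, hM⟩
    exact hn b (Hen795.bs_rs hb) ⟨M, typed_of_pad hM w⟩

/-- **the base for the atom extension of a standard specification** -/
theorem exists_base_up {S : Type u} [_root_.Finite S] (P : Spec S) (D : Set S)
    (hR : Real582.Realized P) (hwn : ∀ Γ M, Legal P Γ M → WN M) (hD : IsScc P D) :
    ∃ (B : Hen795.Base (At734.Pp P) (FatP95.up' D)) (R E e : S ⊕ S → ℕ),
      (∀ s, B.R s = var (R s)) ∧ (∀ s, B.E s = var (E s)) ∧ (∀ s, B.e s = var (e s)) := by
  refine exists_base _ _ (FatP95.isScc_up hD) ?_ (At734.wn_Pp hwn)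
  intro s hs
  obtain ⟨x, hx, rfl⟩ := FatP95.rs_dn hs
  exact ⟨Sum.inr x, rfl, FatP95.inh_of_rs hR hx⟩

/-- the Henkin context over the base -/
theorem exists_hen_up {S : Type u} [_root_.Finite S] (P : Spec S) (D : Set S)
    (hR : Real582.Realized P) (hwn : ∀ Γ M, Legal P Γ M → WN M) (hD : IsScc P D)
    (hne : ∃ a, a ∈ D) :
    ∃ (B : Hen795.Base (At734.Pp P) (FatP95.up' D)) (R E e : S ⊕ S → ℕ) (Ds : ℕ → Term (S ⊕ S)),
      (∀ s, B.R s = var (R s)) ∧ (∀ s, B.E s = var (E s)) ∧ (∀ s, B.e s = var (e s)) ∧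
      Hen795.Hen B Ds := by
  obtain ⟨B, R, E, e, h1, h2, h3⟩ := exists_base_up P D hR hwn hD
  obtain ⟨a, ha⟩ := hne
  have := Fintype.ofFinite S
  obtain ⟨Ds, hDs⟩ := Hen795.exists_henkin B ⟨Sum.inl a, FatP95.rs_up (hD.1 a ha)⟩
  exact ⟨B, R, E, e, Ds, h1, h2, h3, hDs⟩

end Crest.Agent.R298.BaseF734
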