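import Crest.Agent.R298.Hen2_795

/-!
R298 (S0452), helper795: Henkin block, part 3.  Walk formers and truth laws.
-/

set_option autoImplicit false

namespace Crest.Agent.R298.Hen795

open Crest.LogicCS.PTS Crest.LogicCS.PTS.Term Relation
open Crest.Agent.R298.Sub452 Crest.Agent.R298.Par452 Crest.Agent.R298.Ty452
open Crest.Agent.R298.TyF452 Crest.Agent.R298.TyP795 Crest.Agent.R298.Scc795

universe u
variable {S : Type u} {P : Spec S} {Dd : Set S}

/-! ### walk formers -/

/-- steps: `dom b` is `X ↦ X → R b`, `cod a` is `X ↦ E a → X` -/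
inductive St (S : Type u) : Type u
  | dom (b : S) : St S
  | cod (a : S) : St S

/-- the type former of a walk at depth `k` -/
def wform (B : Base P Dd) (k : ℕ) : List (St S) → Term S → Term S
  | [], X => X
  | St.dom b :: w, X => wform B k w (pi X (lift (k + 1) (B.R b)))
  | St.cod a :: w, X => wform B k w (pi (lift k (B.E a)) (wk X))

@[simp] theorem wform_nil (B : Base P Dd) (k : ℕ) (X : Term S) : wform B k [] X = X := rfl
@[simp] theorem wform_dom (B : Base P Dd) (k : ℕ) (b : S) (w : List (St S)) (X : Term S) :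
    wform B k (St.dom b :: w) X = wform B k w (pi X (lift (k + 1) (B.R b))) := rfl
@[simp] theorem wform_cod (B : Base P Dd) (k : ℕ) (a : S) (w : List (St S)) (X : Term S) :
    wform B k (St.cod a :: w) X = wform B k w (pi (lift k (B.E a)) (wk X)) := rfl

/-- walks in `Dd` with their code -/
inductive WL (P : Spec S) (Dd : Set S) : List (St S) → Bool → S → S → Prop
  | nil {x : S} : x ∈ Dd → WL P Dd [] true x x
  | dom {w : List (St S)} {s : Bool} {a b c d : S} : P.rule a b c → a ∈ Dd →
      WL P Dd w s c d → WL P Dd (St.dom b :: w) (!s) a d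
  | cod {w : List (St S)} {s : Bool} {a b c d : S} : P.rule a b c → b ∈ Dd →
      WL P Dd w s c d → WL P Dd (St.cod a :: w) s b d

theorem WL.left {w : List (St S)} {s : Bool} {x y : S} (h : WL P Dd w s x y) : x ∈ Dd := by
  cases h with
  | nil h => exact h
  | dom _ h _ => exact h
  | cod _ h _ => exact h

theorem WL.right {w : List (St S)} {s : Bool} {x y : S} (h : WL P Dd w s x y) : y ∈ Dd := by
  induction h with
  | nil h => exact h
  | dom _ _ _ ih => exact ih
  | cod _ _ _ ih => exact ih

theorem WL.comp {w w' : List (St S)} {s t : Bool} {x y z : S} (h₁ : WL P Dd w s x y)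
    (h₂ : WL P Dd w' t y z) : WL P Dd (w ++ w') (s == t) x z := by
  induction h₁ with
  | nil _ => simpa using h₂
  | @dom w s' a b c d hr ha _ ih =>
      have := WL.dom hr ha (ih h₂)
      cases s' <;> cases t <;> exact this
  | cod hr hb _ ih => exact WL.cod hr hb (ih h₂)

theorem exists_WL {s : Bool} {x y : S} (h : Walk P Dd s x y) : ∃ w, WL P Dd w s x y := by
  induction h with
  | nil h => exact ⟨_, .nil h⟩
  | neg hr ha _ ih =>
      obtain ⟨w, hw⟩ := ih
      exact ⟨_, .dom hr ha hw⟩
  | pos hr hb _ ih =>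
      obtain ⟨w, hw⟩ := ih
      exact ⟨_, .cod hr hb hw⟩

/-- the walk contains a domain step -/
def HasDom (w : List (St S)) : Prop := ∃ b, St.dom b ∈ w

theorem WL.hasDom_aux {w : List (St S)} {s : Bool} {x y : S} (h : WL P Dd w s x y) :
    s = false → HasDom w := by
  induction h with
  | nil _ => intro h; cases h
  | @dom w s a b c d _ _ _ _ => exact fun _ => ⟨b, List.mem_cons_self⟩
  | cod _ _ _ ih =>
      intro hs
      obtain ⟨b, hb⟩ := ih hs
      exact ⟨b, List.mem_cons_of_mem _ hb⟩

theorem WL.hasDom_of_false {w : List (St S)} {x y : S} (h : WL P Dd w false x y) : HasDom w :=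
  h.hasDom_aux rfl

/-- walks of both signs containing a domain step, in a component that is not 2-colourable -/
theorem exists_WL_dom (hD : IsScc P Dd) (h : ¬ Even P Dd) {x y : S} (hx : x ∈ Dd) (hy : y ∈ Dd)
    (s : Bool) : ∃ w, WL P Dd w s x y ∧ HasDom w := by
  obtain ⟨w, hw⟩ := exists_WL (hD.walk_both h hx hx false)
  obtain ⟨w', hw'⟩ := exists_WL (hD.walk_both h hx hy (!s))
  refine ⟨w ++ w', ?_, ?_⟩
  · have := hw.comp hw'
    cases s <;> exact this
  · obtain ⟨b, hb⟩ := hw.hasDom_of_false
    exact ⟨b, List.mem_append_left _ hb⟩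

theorem wform_append (B : Base P Dd) (k : ℕ) (w w' : List (St S)) (X : Term S) :
    wform B k (w ++ w') X = wform B k w' (wform B k w X) := by
  induction w generalizing X with
  | nil => rfl
  | cons st w ih =>
      cases st <;> simp only [List.cons_append, wform_dom, wform_cod, ih]

theorem wform_sub (B : Base P Dd) {σ : ℕ → Term S} {k k' : ℕ}
    (h : ∀ i, σ (i + k) = var (i + k')) (w : List (St S)) (X : Term S) :
    sub σ (wform B k w X) = wform B k' w (sub σ X) := by
  induction w generalizing X with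
  | nil => rfl
  | cons st w ih =>
      cases st with
      | dom b => simp only [wform_dom, ih, sub_pi, sub_lift (ups_base h)]
      | cod a => simp only [wform_cod, ih, sub_pi, sub_lift h, sub_wk]

theorem wform_wk (B : Base P Dd) (k : ℕ) (w : List (St S)) (X : Term S) :
    wk (wform B k w X) = wform B (k + 1) w (wk X) := by
  have := wform_sub B (σ := fun i => var (Nat.succ i)) (k := k) (k' := k + 1) (fun _ => rfl) w X
  rwa [← ren_eq_sub, ← ren_eq_sub] at this

theorem wform_inst (B : Base P Dd) (k : ℕ) (w : List (St S)) (N X : Term S) :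
    inst N (wform B (k + 1) w X) = wform B k w (inst N X) := wform_sub B (inst_base N k) w X

theorem wform_typed {B : Base P Dd} {k : ℕ} {F : ℕ → Term S} (ho : Over B k F)
    {w : List (St S)} {s : Bool} {x y : S} (h : WL P Dd w s x y) :
    ∀ {X : Term S}, TyF P F X (sort x) → TyF P F (wform B k w X) (sort y) := by
  induction h with
  | nil _ => exact fun h => h
  | @dom w s a b c d r _ _ ih =>
      intro X hX
      refine ih (.prod hX ?_ r)
      have h1 := (ho.cons X).typed (B.hR b ⟨a, b, c, r, Or.inr (Or.inl rfl)⟩)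
      exact h1
  | @cod w s a b c d r _ _ ih =>
      intro X hX
      refine ih (.prod ?_ (tyF_wk hX _) r)
      have h1 := ho.typed (B.hE a ⟨a, b, c, r, Or.inl rfl⟩)
      exact h1

theorem Stab.step_cod {B : Base P Dd} {k : ℕ} {X A : Term S} (h : Stab B k X) :
    Stab B k (pi A (Sub452.wk X)) := by
  obtain ⟨n, hn⟩ := h.wk
  exact ⟨n + 1, .pi hn⟩

theorem Stab.wform {B : Base P Dd} {k : ℕ} {w : List (St S)} {s : Bool} {x y : S}
    (h : WL P Dd w s x y) : ∀ {X : Term S}, Stab B k X → Stab B k (Hen795.wform B k w X) := by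
  induction h with
  | nil _ => exact fun h => h
  | @dom w s a b c d r ha hw ih =>
      intro X _
      exact ih ⟨1, .pi (.base ⟨a, c, r, ha, hw.left⟩)⟩
  | cod _ _ _ ih =>
      intro X hX
      exact ih hX.step_cod

theorem stab_wform {B : Base P Dd} {k : ℕ} {w : List (St S)} {s : Bool} {x y : S}
    (h : WL P Dd w s x y) : ∀ {X : Term S}, HasDom w → Stab B k (wform B k w X) := by
  induction h with
  | nil _ =>
      rintro X ⟨b, hb⟩
      cases hb
  | @dom w s a b c d r ha hw ih =>
      intro X _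
      exact Stab.wform hw ⟨1, .pi (.base ⟨a, c, r, ha, hw.left⟩)⟩
  | @cod w s a b c d _ _ _ ih =>
      rintro X ⟨b', hb'⟩
      refine ih ⟨b', ?_⟩
      simpa using hb'

/-! ### truth -/

section Truth

variable {B : Base P Dd} {D : ℕ → Term S}

theorem Hen.over (h : Hen B D) : Over B 0 D := Over.of_le h.le

theorem Hen.dm (_h : Hen B D) : WfP P D := fun i _ => _h.wf i

theorem Inh.conv {F : ℕ → Term S} {X Y : Term S} {s : S} (h : Inh P F X)
    (hY : TyF P F Y (sort s)) (e : BetaEq X Y) : Inh P F Y := by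
  obtain ⟨M, hM⟩ := h
  exact ⟨M, .conv hM hY e⟩

/-- a domain step negates -/
theorem tr_dom (h : Hen B D) {a b c : S} (r : P.rule a b c) (ha : a ∈ Dd) (hc : c ∈ Dd)
    {A : Term S} (hA : TyF P D A (sort a)) :
    Inh P D (pi A (lift 1 (B.R b))) ↔ ¬ Inh P D A := by
  have hb : b ∈ Bs P Dd := ⟨a, c, r, ha, hc⟩
  constructor
  · rintro ⟨M, hM⟩ ⟨N, hN⟩
    refine h.con ⟨b, hb, app M N, ?_⟩
    have := TyF.appl hM hN
    rwa [inst_lift] at this
  · intro hn
    rcases h.max A a hA with h1 | h1
    · exact absurd h1 hn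
    · obtain ⟨M, hM⟩ := h1.all (h.over.cons A) hb
      refine ⟨lam A M, .abs hM (.prod hA ?_ r)⟩
      exact (h.over.cons A).typed (B.hR b (bs_rs hb))

/-- a codomain step is neutral -/
theorem tr_cod (h : Hen B D) {a b c : S} (r : P.rule a b c)
    {X : Term S} (hX : TyF P D X (sort b)) :
    Inh P D (pi (lift 0 (B.E a)) (wk X)) ↔ Inh P D X := by
  have ha : a ∈ RS P := ⟨a, b, c, r, Or.inl rfl⟩
  constructor
  · rintro ⟨M, hM⟩
    have := TyF.appl hM (h.over.typed (B.he a ha))
    rw [inst_wk] at this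
    exact ⟨_, this⟩
  · rintro ⟨M, hM⟩
    refine ⟨lam (lift 0 (B.E a)) (wk M), .abs (tyF_wk hM _) (.prod ?_ (tyF_wk hX _) r)⟩
    exact h.over.typed (B.hE a ha)

/-- truth of a walk former -/
theorem tr_w (h : Hen B D) {w : List (St S)} {s : Bool} {x y : S} (hw : WL P Dd w s x y) :
    ∀ {X : Term S}, TyF P D X (sort x) →
      (Inh P D (wform B 0 w X) ↔ (s = true ↔ Inh P D X)) := by
  induction hw with
  | nil _ => intro X _; simp
  | @dom w s a b c d r ha hw ih =>
      intro X hX
      have h1 : TyF P D (pi X (lift 1 (B.R b))) (sort c) :=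
        .prod hX ((h.over.cons X).typed (B.hR b ⟨a, b, c, r, Or.inr (Or.inl rfl)⟩)) r
      rw [wform_dom, ih h1, tr_dom h r ha hw.left hX]
      cases s <;> simp
  | @cod w s a b c d r _ _ ih =>
      intro X hX
      have h1 : TyF P D (pi (lift 0 (B.E a)) (wk X)) (sort c) :=
        .prod (h.over.typed (B.hE a ⟨a, b, c, r, Or.inl rfl⟩)) (tyF_wk hX _) r
      rw [wform_cod, ih h1, tr_cod h r hX]

/-- implication -/
theorem tr_imp (h : Hen B D) {a b c : S} (r : P.rule a b c)
    {A X : Term S} (hA : TyF P D A (sort a)) (hX : TyF P D X (sort b)) (hs : Stab B 0 X) :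
    Inh P D (pi A (wk X)) ↔ (Inh P D A → Inh P D X) := by
  have ht : TyF P D (pi A (wk X)) (sort c) := .prod hA (tyF_wk hX _) r
  constructor
  · rintro ⟨M, hM⟩ ⟨N, hN⟩
    have := TyF.appl hM hN
    rw [inst_wk] at this
    exact ⟨_, this⟩
  · intro hi
    rcases h.max A a hA with h1 | h1
    · obtain ⟨M, hM⟩ := hi h1
      exact ⟨lam A (wk M), .abs (tyF_wk hM _) ht⟩
    · obtain ⟨M, hM⟩ := hs.wk.inh (h.over.cons A) (tyF_wk hX A) h1
      exact ⟨lam A M, .abs hM ht⟩

/-- universal quantification over an arbitrary type -/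
theorem tr_all (h : Hen B D) {a b c : S} (r : P.rule a b c)
    {A X : Term S} (hA : TyF P D A (sort a)) (hX : TyF P (fcons A D) X (sort b))
    (hs : Stab B 1 X) :
    Inh P D (pi A X) ↔ ∀ M, TyF P D M A → Inh P D (inst M X) := by
  have ht : TyF P D (pi A X) (sort c) := .prod hA hX r
  constructor
  · rintro ⟨M, hM⟩ N hN
    exact ⟨_, TyF.appl hM hN⟩
  · intro hi
    by_contra hn
    obtain ⟨M, hM, hM'⟩ := h.wit A X c ht hs hn
    exact hM' (hi M hM)

end Truth

/-- **The Henkin context**: existence and all truth laws in one statement. -/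
theorem henkin [Countable S] (B : Base P Dd) (hne : ∃ a, a ∈ RS P) :
    ∃ D, Le B.D0 D ∧ WfF P D ∧ Over B 0 D ∧ Hen B D := by
  obtain ⟨D, h⟩ := exists_henkin B hne
  exact ⟨D, h.le, h.wf, h.over, h⟩

end Crest.Agent.R298.Hen795
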