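import Crest.Agent.R298.Base2_525
import Crest.Agent.R298.Hen3_795

/-!
R298 (S0452), helper525: the literal base context `Hen795.Base Q D`, and the Henkin context of a
weakly normalizing specification with atoms.
-/

set_option autoImplicit false

namespace Crest.Agent.R298.Base525

open Crest.LogicCS.PTS Crest.LogicCS.PTS.Term Relation
open Crest.Agent.R298.Sub452 Crest.Agent.R298.Par452 Crest.Agent.R298.Ty452
open Crest.Agent.R298.Scc795 Crest.Agent.R298.TyF452 Crest.Agent.R298.TyP795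

universe u
variable {T : Type u}

/-- **795's base context exists** -/
theorem nonempty_base [Finite T] (Q : Spec T) (D : Set T) (hD : IsScc Q D)
    (hax : ∀ s ∈ RS Q, ∃ t, Q.ax s t) (hwn : ∀ Γ M, Legal Q Γ M → WN M) :
    Nonempty (Hen795.Base Q D) := by
  obtain ⟨D0, R, E, e, wf, ⟨n, hn⟩, hR, hE, he, conv, con⟩ := exists_base Q D hD hax hwn
  refine ⟨⟨D0, R, E, e, wf, (Set.finite_lt_nat n).subset ?_, hR, hE, he,
    fun b hb b' hb' => conv b hb b' hb', fun b hb => con b (Hen795.bs_rs hb)⟩⟩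
  intro i hi
  by_contra h
  exact hn i (not_lt.1 h) hi

/-- **the Henkin context of a weakly normalizing specification with atoms** -/
theorem exists_hen [Finite T] (Q : Spec T) (D : Set T) (hD : IsScc Q D) (hne : D.Nonempty)
    (hax : ∀ s ∈ RS Q, ∃ t, Q.ax s t) (hwn : ∀ Γ M, Legal Q Γ M → WN M) :
    ∃ (B : Hen795.Base Q D) (F : ℕ → Term T), Le B.D0 F ∧ WfF Q F ∧ Hen795.Over B 0 F ∧
      Hen795.Hen B F := by
  obtain ⟨B⟩ := nonempty_base Q D hD hax hwn
  obtain ⟨x, hx⟩ := hne
  obtain ⟨F, h1, h2, h3, h4⟩ := Hen795.henkin B ⟨x, hD.1 x hx⟩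
  exact ⟨B, F, h1, h2, h3, h4⟩

end Crest.Agent.R298.Base525
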