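import Crest.Agent.R298.Mem_360

/-!
R298 (S0452), helper360: conservation for the memory calculus.
Church-Rosser (parallel reduction) and a measure which increases at every step give
`MWN M → MSN M` (Klop, Nederpelt); the lifting lemma then gives `MWN (emb M) → SN M`.
-/

set_option autoImplicit false

namespace Crest.Agent.R298.Mem360

open Crest.LogicCS.PTS Relation
open Crest.Agent.R298.Sub452 Crest.Agent.R298.Par452
open MT

universe u
variable {S : Type u}

/-! ### parallel reduction -/

/-- parallel reduction of memory terms -/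
inductive MPR : MT S → MT S → Prop
  | var (i : ℕ) : MPR (var i) (var i)
  | sort (s : S) : MPR (sort s) (sort s)
  | app {M M' N N' : MT S} : MPR M M' → MPR N N' → MPR (app M N) (app M' N')
  | lam {M M' N N' : MT S} : MPR M M' → MPR N N' → MPR (lam M N) (lam M' N')
  | pi {M M' N N' : MT S} : MPR M M' → MPR N N' → MPR (pi M N) (pi M' N')
  | mem {M M' N N' : MT S} : MPR M M' → MPR N N' → MPR (mem M N) (mem M' N')
  | beta {F F' Q Q' R : MT S} : IsL F → MPR F F' → MPR Q Q' → dist F' Q' = some R →
      MPR (app F Q) R

theorem MPR.refl (M : MT S) : MPR M M := by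
  induction M with
  | var i => exact .var i
  | sort s => exact .sort s
  | app M N h1 h2 => exact .app h1 h2
  | lam A M h1 h2 => exact .lam h1 h2
  | pi A B h1 h2 => exact .pi h1 h2
  | mem A B h1 h2 => exact .mem h1 h2

theorem MPR.of_step {M M' : MT S} (h : MStep M M') : MPR M M' := by
  induction h with
  | beta h => exact .beta (isL_of_dist h) (MPR.refl _) (MPR.refl _) h
  | appL N _ ih => exact .app ih (MPR.refl _)
  | appR M _ ih => exact .app (MPR.refl _) ih
  | lamA M _ ih => exact .lam ih (MPR.refl _)
  | lamM A _ ih => exact .lam (MPR.refl _) ih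
  | piA B _ ih => exact .pi ih (MPR.refl _)
  | piB A _ ih => exact .pi (MPR.refl _) ih
  | memP N _ ih => exact .mem ih (MPR.refl _)
  | memN P _ ih => exact .mem (MPR.refl _) ih

theorem MPR.red {M M' : MT S} (h : MPR M M') : MRed M M' := by
  induction h with
  | var i => exact .refl
  | sort s => exact .refl
  | app _ _ h1 h2 => exact MRed.app h1 h2
  | lam _ _ h1 h2 => exact MRed.lam h1 h2
  | pi _ _ h1 h2 => exact MRed.pi h1 h2
  | mem _ _ h1 h2 => exact MRed.mem h1 h2
  | beta _ _ _ hd h1 h2 => exact (MRed.app h1 h2).tail (.beta hd)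

theorem MPR.mren {M M' : MT S} (h : MPR M M') (ρ : ℕ → ℕ) : MPR (mren ρ M) (mren ρ M') := by
  induction h generalizing ρ with
  | var i => exact .var _
  | sort s => exact .sort s
  | app _ _ h1 h2 => exact .app (h1 ρ) (h2 ρ)
  | lam _ _ h1 h2 => exact .lam (h1 ρ) (h2 _)
  | pi _ _ h1 h2 => exact .pi (h1 ρ) (h2 _)
  | mem _ _ h1 h2 => exact .mem (h1 ρ) (h2 ρ)
  | beta hl _ _ hd h1 h2 =>
      refine .beta ?_ (h1 ρ) (h2 ρ) (dist_mren hd ρ)
      rw [mren_eq_msub]
      exact isL_msub hl _

theorem mups_mpr {σ τ : ℕ → MT S} (h : ∀ i, MPR (σ i) (τ i)) : ∀ i, MPR (mups σ i) (mups τ i)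
  | 0 => .var 0
  | i + 1 => (h i).mren _

theorem MPR.msub {M M' : MT S} (h : MPR M M') {σ τ : ℕ → MT S} (hs : ∀ i, MPR (σ i) (τ i)) :
    MPR (msub σ M) (msub τ M') := by
  induction h generalizing σ τ with
  | var i => exact hs i
  | sort s => exact .sort s
  | app _ _ h1 h2 => exact .app (h1 hs) (h2 hs)
  | lam _ _ h1 h2 => exact .lam (h1 hs) (h2 (mups_mpr hs))
  | pi _ _ h1 h2 => exact .pi (h1 hs) (h2 (mups_mpr hs))
  | mem _ _ h1 h2 => exact .mem (h1 hs) (h2 hs)
  | beta hl _ _ hd h1 h2 => exact .beta (isL_msub hl _) (h1 hs) (h2 hs) (dist_msub hd τ)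

theorem MPR.minst {M M' N N' : MT S} (h : MPR M M') (h' : MPR N N') :
    MPR (minst N M) (minst N' M') := by
  refine MPR.msub h ?_
  intro i
  cases i with
  | zero => exact h'
  | succ i => exact .var i

/-- parallel reduction preserves contractions at a distance -/
theorem mpr_dist {F F' Q Q' R : MT S} (hF : MPR F F') (hQ : MPR Q Q') (h : dist F Q = some R) :
    ∃ R', dist F' Q' = some R' ∧ MPR R R' := by
  induction F generalizing F' R with
  | lam A P _ _ =>
      rw [dist_lam, Option.some.injEq] at h
      subst h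
      cases hF with
      | lam h1 h2 => exact ⟨_, rfl, .mem (.mem (h2.minst hQ) hQ) h1⟩
  | mem F N ih _ =>
      rw [dist_mem, Option.map_eq_some_iff] at h
      obtain ⟨R', hR', rfl⟩ := h
      cases hF with
      | mem h1 h2 =>
          obtain ⟨R'', h3, h4⟩ := ih h1 hR'
          exact ⟨_, by rw [dist_mem, h3]; rfl, .mem h4 h2⟩
  | var i => simp at h
  | sort s => simp at h
  | app M N _ _ => simp at h
  | pi M N _ _ => simp at h

/-- complete development -/
noncomputable def mcd : MT S → MT S
  | var i => var i
  | sort s => sort s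
  | app F Q => (dist (mcd F) (mcd Q)).elim (app (mcd F) (mcd Q))
      (fun R => @ite _ (IsL F) (Classical.propDecidable _) R (app (mcd F) (mcd Q)))
  | lam A M => lam (mcd A) (mcd M)
  | pi A B => pi (mcd A) (mcd B)
  | mem P N => mem (mcd P) (mcd N)

theorem isL_mcd {F : MT S} (h : IsL F) : IsL (mcd F) := by
  induction F with
  | lam A P _ _ => rw [mcd]; trivial
  | mem F N ih _ => rw [mcd]; exact ih h
  | var i => exact h.elim
  | sort s => exact h.elim
  | app M N _ _ => exact h.elim
  | pi M N _ _ => exact h.elim

theorem mcd_app_isL {F Q : MT S} (h : IsL F) :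
    ∃ R, dist (mcd F) (mcd Q) = some R ∧ mcd (app F Q) = R := by
  obtain ⟨R, hR⟩ := exists_dist (isL_mcd h) (mcd Q)
  refine ⟨R, hR, ?_⟩
  rw [mcd, hR, Option.elim_some, if_pos h]

theorem mcd_app_not {F Q : MT S} (h : ¬ IsL F) : mcd (app F Q) = app (mcd F) (mcd Q) := by
  rw [mcd]
  cases hd : dist (mcd F) (mcd Q) with
  | none => rfl
  | some R => rw [Option.elim_some, if_neg h]

theorem mpr_isL {F F' : MT S} (h : MPR F F') (hl : IsL F) : IsL F' := by
  induction F generalizing F' with
  | lam A P _ _ =>
      cases h with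
      | lam h1 h2 => trivial
  | mem F N ih _ =>
      cases h with
      | mem h1 h2 =>
          rw [isL_mem] at hl ⊢
          exact ih h1 hl
  | var i => exact hl.elim
  | sort s => exact hl.elim
  | app M N _ _ => exact hl.elim
  | pi M N _ _ => exact hl.elim

/-- triangle property -/
theorem MPR.tri {M M' : MT S} (h : MPR M M') : MPR M' (mcd M) := by
  induction h with
  | var i => exact .var i
  | sort s => exact .sort s
  | app hM hN h1 h2 =>
      rename_i M M' N N'
      by_cases hl : IsL M
      · obtain ⟨R, hR, he⟩ := mcd_app_isL (Q := N) hl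
        rw [he]
        exact .beta (mpr_isL hM hl) h1 h2 hR
      · rw [mcd_app_not hl]
        exact .app h1 h2
  | lam _ _ h1 h2 => rw [mcd]; exact .lam h1 h2
  | pi _ _ h1 h2 => rw [mcd]; exact .pi h1 h2
  | mem _ _ h1 h2 => rw [mcd]; exact .mem h1 h2
  | beta hl hF hQ hd h1 h2 =>
      rename_i F F' Q Q' R0
      obtain ⟨R, hR, he⟩ := mcd_app_isL (Q := Q) hl
      rw [he]
      obtain ⟨R', h3, h4⟩ := mpr_dist h1 h2 hd
      rw [hR, Option.some.injEq] at h3
      rw [h3]
      exact h4

theorem mpr_strip {M N : MT S} (h : ReflTransGen MPR M N) :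
    ∀ {N'}, MPR M N' → ∃ K, MPR N K ∧ ReflTransGen MPR N' K := by
  induction h with
  | refl =>
      intro N' h
      exact ⟨N', h, .refl⟩
  | tail _ h1 ih =>
      intro N' h
      obtain ⟨K, hK, hK'⟩ := ih h
      exact ⟨_, h1.tri, hK'.tail hK.tri⟩

theorem mpr_confl {M N N' : MT S} (h : ReflTransGen MPR M N) (h' : ReflTransGen MPR M N') :
    ∃ K, ReflTransGen MPR N K ∧ ReflTransGen MPR N' K := by
  induction h' with
  | refl => exact ⟨N, .refl, h⟩
  | tail _ h1 ih =>
      obtain ⟨K, hK, hK'⟩ := ih
      obtain ⟨L, hL, hL'⟩ := mpr_strip hK' h1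
      exact ⟨L, hK.tail hL, hL'⟩

theorem mred_iff {M N : MT S} : MRed M N ↔ ReflTransGen MPR M N := by
  constructor
  · intro h
    induction h with
    | refl => exact .refl
    | tail _ h ih => exact ih.tail (MPR.of_step h)
  · intro h
    induction h with
    | refl => exact .refl
    | tail _ h ih => exact ih.trans h.red

/-- Church-Rosser for memory terms -/
theorem mconfluence {M N N' : MT S} (h : MRed M N) (h' : MRed M N') :
    ∃ K, MRed N K ∧ MRed N' K := by
  obtain ⟨K, h1, h2⟩ := mpr_confl (mred_iff.1 h) (mred_iff.1 h')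
  exact ⟨K, mred_iff.2 h1, mred_iff.2 h2⟩

theorem mnormal_red {M N : MT S} (h : MNormal M) (r : MRed M N) : N = M := by
  induction r with
  | refl => rfl
  | tail _ h1 ih =>
      subst ih
      exact (h _ h1).elim

theorem mred_normal {M N N' : MT S} (h : MRed M N) (h' : MRed M N') (hn : MNormal N') :
    MRed N N' := by
  obtain ⟨K, h1, h2⟩ := mconfluence h h'
  rw [mnormal_red hn h2] at h1
  exact h1

theorem MWN.of_red {M N : MT S} (h : MWN M) (r : MRed M N) : MWN N := by
  obtain ⟨K, h1, h2⟩ := h
  exact ⟨K, mred_normal r h1 h2, h2⟩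

/-! ### the increasing measure -/

/-- size -/
def msz : MT S → ℕ
  | var _ => 1
  | sort _ => 1
  | app M N => 1 + msz M + msz N
  | lam A M => 1 + msz A + msz M
  | pi A B => 1 + msz A + msz B
  | mem P N => 1 + msz P + msz N

/-- sum of the sizes of the subterms headed by a memory node -/
def mmu : MT S → ℕ
  | var _ => 0
  | sort _ => 0
  | app M N => mmu M + mmu N
  | lam A M => mmu A + mmu M
  | pi A B => mmu A + mmu B
  | mem P N => (1 + msz P + msz N) + mmu P + mmu N

theorem msz_pos (M : MT S) : 1 ≤ msz M := by
  cases M <;> simp only [msz] <;> omega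

theorem msz_mren (ρ : ℕ → ℕ) (M : MT S) : msz (mren ρ M) = msz M := by
  induction M generalizing ρ with
  | var i => rfl
  | sort s => rfl
  | app M N h1 h2 => simp only [mren_app, msz, h1, h2]
  | lam A M h1 h2 => simp only [mren_lam, msz, h1, h2]
  | pi A B h1 h2 => simp only [mren_pi, msz, h1, h2]
  | mem A B h1 h2 => simp only [mren_mem, msz, h1, h2]

theorem le_msz_msub (σ : ℕ → MT S) (M : MT S) : msz M ≤ msz (msub σ M) := by
  induction M generalizing σ with
  | var i => exact msz_pos _
  | sort s => exact le_rfl
  | app M N h1 h2 =>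
      have := h1 σ; have := h2 σ
      simp only [msub_app, msz]; omega
  | lam A M h1 h2 =>
      have := h1 σ; have := h2 (mups σ)
      simp only [msub_lam, msz]; omega
  | pi A B h1 h2 =>
      have := h1 σ; have := h2 (mups σ)
      simp only [msub_pi, msz]; omega
  | mem A B h1 h2 =>
      have := h1 σ; have := h2 σ
      simp only [msub_mem, msz]; omega

theorem le_mmu_msub (σ : ℕ → MT S) (M : MT S) : mmu M ≤ mmu (msub σ M) := by
  induction M generalizing σ with
  | var i => exact Nat.zero_le _
  | sort s => exact le_rfl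
  | app M N h1 h2 =>
      have := h1 σ; have := h2 σ
      simp only [msub_app, mmu]; omega
  | lam A M h1 h2 =>
      have := h1 σ; have := h2 (mups σ)
      simp only [msub_lam, mmu]; omega
  | pi A B h1 h2 =>
      have := h1 σ; have := h2 (mups σ)
      simp only [msub_pi, mmu]; omega
  | mem A B h1 h2 =>
      have := h1 σ; have := h2 σ
      have := le_msz_msub σ A; have := le_msz_msub σ B
      simp only [msub_mem, mmu]; omega

theorem dist_measure {F Q R : MT S} (h : dist F Q = some R) :
    msz F + msz Q + 1 ≤ msz R ∧ mmu F + mmu Q < mmu R := by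
  induction F generalizing R with
  | lam A P _ _ =>
      rw [dist_lam, Option.some.injEq] at h
      subst h
      have h1 := le_msz_msub (mscons Q MT.var) P
      have h2 := le_mmu_msub (mscons Q MT.var) P
      simp only [msz, mmu, minst]
      omega
  | mem F N ih _ =>
      rw [dist_mem, Option.map_eq_some_iff] at h
      obtain ⟨R', hR', rfl⟩ := h
      have h1 := ih hR'
      simp only [msz, mmu]
      omega
  | var i => simp at h
  | sort s => simp at h
  | app M N _ _ => simp at h
  | pi M N _ _ => simp at h

theorem step_measure {M N : MT S} (h : MStep M N) : msz M ≤ msz N ∧ mmu M < mmu N := by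
  induction h with
  | beta h =>
      have := dist_measure h
      simp only [msz, mmu]
      omega
  | appL N _ ih => simp only [msz, mmu]; omega
  | appR M _ ih => simp only [msz, mmu]; omega
  | lamA M _ ih => simp only [msz, mmu]; omega
  | lamM A _ ih => simp only [msz, mmu]; omega
  | piA B _ ih => simp only [msz, mmu]; omega
  | piB A _ ih => simp only [msz, mmu]; omega
  | memP N _ ih => simp only [msz, mmu]; omega
  | memN P _ ih => simp only [msz, mmu]; omega

theorem red_measure {M N : MT S} (h : MRed M N) : mmu M ≤ mmu N := by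
  induction h with
  | refl => exact le_rfl
  | tail _ h ih => exact ih.trans (step_measure h).2.le

/-! ### conservation -/

/-- weak normalisation implies strong normalisation for memory terms -/
theorem MSN.of_mwn {M : MT S} (h : MWN M) : MSN M := by
  obtain ⟨N0, h0, hn⟩ := h
  suffices H : ∀ k : ℕ, ∀ M : MT S, MRed M N0 → mmu N0 - mmu M ≤ k → MSN M from H _ M h0 le_rfl
  intro k
  induction k with
  | zero =>
      intro M hM hk
      refine Acc.intro _ fun M' hM' => ?_
      have h1 := (step_measure hM').2
      have h2 := red_measure (mred_normal (.single hM') hM hn)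
      omega
  | succ k ih =>
      intro M hM hk
      refine Acc.intro _ fun M' hM' => ?_
      have h1 := (step_measure hM').2
      have h2 := mred_normal (.single hM') hM hn
      have h3 := red_measure h2
      exact ih M' h2 (by omega)

/-- strong normalisation of a memory term gives strong normalisation of its erasure -/
theorem acc_er {M : MT S} (h : MSN M) : Acc (fun N K => Beta K N) (er M) := by
  induction h with
  | intro M _ ih =>
      refine Acc.intro _ fun N hN => ?_
      obtain ⟨M', hM', rfl⟩ := lift_step hN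
      exact ih M' hM'

theorem sn_of_acc {M : Term S} (h : Acc (fun N K => Beta K N) M) : SN M := by
  induction h with
  | intro M _ ih =>
      rintro ⟨f, h0, hf⟩
      exact ih (f 1) (by rw [← h0]; exact hf 0) ⟨fun n => f (n + 1), rfl, fun n => hf (n + 1)⟩

theorem sn_er_of_msn {M : MT S} (h : MSN M) : SN (er M) := sn_of_acc (acc_er h)

theorem sn_er_of_mwn {M : MT S} (h : MWN M) : SN (er M) := sn_er_of_msn (MSN.of_mwn h)

/-- main interface: a pure term whose memory version is weakly normalising is SN -/
theorem sn_of_wn_emb {M : Term S} (h : MWN (emb M)) : SN M := by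
  have := sn_er_of_mwn h
  rwa [er_emb] at this

end Crest.Agent.R298.Mem360
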