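import Crest.Agent.R298.Par_452

/-!
R298 (S0452), helper360: the raw memory calculus.
`MT` = raw terms with one more constructor `mem P N` ("P, remember N"; its meaning is `P`).
Reduction `MStep`: beta at a distance, `app F Q → R` when `dist F Q = some R`, where
`dist (lam A P) Q = mem (mem P[Q] Q) A` and memories in front of the abstraction are kept outside.
-/

set_option autoImplicit false

namespace Crest.Agent.R298.Mem360

open Crest.LogicCS.PTS Crest.LogicCS.PTS.Term Relation
open Crest.Agent.R298.Sub452 Crest.Agent.R298.Par452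

universe u

/-- raw terms with memory -/
inductive MT (S : Type u) : Type u
  | var : ℕ → MT S
  | sort : S → MT S
  | app : MT S → MT S → MT S
  | lam : MT S → MT S → MT S
  | pi : MT S → MT S → MT S
  | mem : MT S → MT S → MT S

variable {S : Type u}

namespace MT

/-- parallel renaming -/
def mren (ρ : ℕ → ℕ) : MT S → MT S
  | var i => var (ρ i)
  | sort s => sort s
  | app M N => app (mren ρ M) (mren ρ N)
  | lam A M => lam (mren ρ A) (mren (up ρ) M)
  | pi A B => pi (mren ρ A) (mren (up ρ) B)
  | mem M N => mem (mren ρ M) (mren ρ N)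

/-- the weakening renaming on terms -/
abbrev mwk (M : MT S) : MT S := mren Nat.succ M

/-- extension of a substitution under a binder -/
def mups (σ : ℕ → MT S) : ℕ → MT S
  | 0 => var 0
  | i + 1 => mwk (σ i)

/-- parallel substitution -/
def msub (σ : ℕ → MT S) : MT S → MT S
  | var i => σ i
  | sort s => sort s
  | app M N => app (msub σ M) (msub σ N)
  | lam A M => lam (msub σ A) (msub (mups σ) M)
  | pi A B => pi (msub σ A) (msub (mups σ) B)
  | mem M N => mem (msub σ M) (msub σ N)

/-- `mscons N σ`: `N` for index 0, `σ i` for `i+1` -/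
def mscons (N : MT S) (σ : ℕ → MT S) : ℕ → MT S
  | 0 => N
  | i + 1 => σ i

@[simp] theorem mups_zero (σ : ℕ → MT S) : mups σ 0 = var 0 := rfl
@[simp] theorem mups_succ (σ : ℕ → MT S) (i : ℕ) : mups σ (i + 1) = mwk (σ i) := rfl
@[simp] theorem mscons_zero (N : MT S) (σ : ℕ → MT S) : mscons N σ 0 = N := rfl
@[simp] theorem mscons_succ (N : MT S) (σ : ℕ → MT S) (i : ℕ) : mscons N σ (i + 1) = σ i := rfl

@[simp] theorem mren_var (ρ : ℕ → ℕ) (i : ℕ) : mren (S := S) ρ (var i) = var (ρ i) := rfl
@[simp] theorem mren_sort (ρ : ℕ → ℕ) (s : S) : mren ρ (sort s) = sort s := rfl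
@[simp] theorem mren_app (ρ : ℕ → ℕ) (M N : MT S) :
    mren ρ (app M N) = app (mren ρ M) (mren ρ N) := rfl
@[simp] theorem mren_lam (ρ : ℕ → ℕ) (M N : MT S) :
    mren ρ (lam M N) = lam (mren ρ M) (mren (up ρ) N) := rfl
@[simp] theorem mren_pi (ρ : ℕ → ℕ) (M N : MT S) :
    mren ρ (pi M N) = pi (mren ρ M) (mren (up ρ) N) := rfl
@[simp] theorem mren_mem (ρ : ℕ → ℕ) (M N : MT S) :
    mren ρ (mem M N) = mem (mren ρ M) (mren ρ N) := rfl
@[simp] theorem msub_var (σ : ℕ → MT S) (i : ℕ) : msub σ (var i) = σ i := rfl
@[simp] theorem msub_sort (σ : ℕ → MT S) (s : S) : msub σ (sort s) = sort s := rfl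
@[simp] theorem msub_app (σ : ℕ → MT S) (M N : MT S) :
    msub σ (app M N) = app (msub σ M) (msub σ N) := rfl
@[simp] theorem msub_lam (σ : ℕ → MT S) (M N : MT S) :
    msub σ (lam M N) = lam (msub σ M) (msub (mups σ) N) := rfl
@[simp] theorem msub_pi (σ : ℕ → MT S) (M N : MT S) :
    msub σ (pi M N) = pi (msub σ M) (msub (mups σ) N) := rfl
@[simp] theorem msub_mem (σ : ℕ → MT S) (M N : MT S) :
    msub σ (mem M N) = mem (msub σ M) (msub σ N) := rfl

theorem mren_id (M : MT S) : mren (fun i => i) M = M := by
  induction M with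
  | var i => rfl
  | sort s => rfl
  | app M N h1 h2 => simp [h1, h2]
  | lam A M h1 h2 => simp [h1, up_id, h2]
  | pi A B h1 h2 => simp [h1, up_id, h2]
  | mem M N h1 h2 => simp [h1, h2]

theorem mren_mren (ρ τ : ℕ → ℕ) (M : MT S) : mren τ (mren ρ M) = mren (fun i => τ (ρ i)) M := by
  induction M generalizing ρ τ with
  | var i => rfl
  | sort s => rfl
  | app M N h1 h2 => simp [h1, h2]
  | lam A M h1 h2 => simp [h1, h2, up_comp]
  | pi A B h1 h2 => simp [h1, h2, up_comp]
  | mem M N h1 h2 => simp [h1, h2]

theorem mups_var : mups (S := S) var = var := by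
  funext i; cases i <;> rfl

theorem msub_id (M : MT S) : msub var M = M := by
  induction M with
  | var i => rfl
  | sort s => rfl
  | app M N h1 h2 => simp [h1, h2]
  | lam A M h1 h2 => simp [h1, mups_var, h2]
  | pi A B h1 h2 => simp [h1, mups_var, h2]
  | mem M N h1 h2 => simp [h1, h2]

theorem mups_ren (ρ : ℕ → ℕ) : mups (S := S) (fun i => var (ρ i)) = fun i => var (up ρ i) := by
  funext i; cases i <;> rfl

theorem mren_eq_msub (ρ : ℕ → ℕ) (M : MT S) : mren ρ M = msub (fun i => var (ρ i)) M := by
  induction M generalizing ρ with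
  | var i => rfl
  | sort s => rfl
  | app M N h1 h2 => simp [h1, h2]
  | lam A M h1 h2 => simp only [mren_lam, msub_lam, mups_ren, h1, h2]
  | pi A B h1 h2 => simp only [mren_pi, msub_pi, mups_ren, h1, h2]
  | mem M N h1 h2 => simp [h1, h2]

theorem mups_comp_ren (σ : ℕ → MT S) (ρ : ℕ → ℕ) :
    (fun i => mups σ (up ρ i)) = mups (fun i => σ (ρ i)) := by
  funext i; cases i <;> rfl

theorem msub_mren (σ : ℕ → MT S) (ρ : ℕ → ℕ) (M : MT S) :
    msub σ (mren ρ M) = msub (fun i => σ (ρ i)) M := by
  induction M generalizing ρ σ with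
  | var i => rfl
  | sort s => rfl
  | app M N h1 h2 => simp [h1, h2]
  | lam A M h1 h2 => simp [h1, h2, mups_comp_ren]
  | pi A B h1 h2 => simp [h1, h2, mups_comp_ren]
  | mem M N h1 h2 => simp [h1, h2]

theorem mren_comp_mups (σ : ℕ → MT S) (ρ : ℕ → ℕ) :
    (fun i => mren (up ρ) (mups σ i)) = mups (fun i => mren ρ (σ i)) := by
  funext i
  cases i with
  | zero => rfl
  | succ i =>
      simp only [mups_succ, mwk, mren_mren]
      rfl

theorem mren_msub (σ : ℕ → MT S) (ρ : ℕ → ℕ) (M : MT S) :
    mren ρ (msub σ M) = msub (fun i => mren ρ (σ i)) M := by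
  induction M generalizing ρ σ with
  | var i => rfl
  | sort s => rfl
  | app M N h1 h2 => simp [h1, h2]
  | lam A M h1 h2 => simp [h1, h2, mren_comp_mups]
  | pi A B h1 h2 => simp [h1, h2, mren_comp_mups]
  | mem M N h1 h2 => simp [h1, h2]

theorem msub_mwk (σ : ℕ → MT S) (M : MT S) : msub (mups σ) (mwk M) = mwk (msub σ M) := by
  simp only [mwk, msub_mren, mren_msub, Nat.succ_eq_add_one, mups_succ]

theorem msub_comp_mups (σ τ : ℕ → MT S) :
    (fun i => msub (mups τ) (mups σ i)) = mups (fun i => msub τ (σ i)) := by
  funext i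
  cases i with
  | zero => rfl
  | succ i => simp only [mups_succ, msub_mwk]

theorem msub_msub (σ τ : ℕ → MT S) (M : MT S) :
    msub τ (msub σ M) = msub (fun i => msub τ (σ i)) M := by
  induction M generalizing σ τ with
  | var i => rfl
  | sort s => rfl
  | app M N h1 h2 => simp [h1, h2]
  | lam A M h1 h2 => simp [h1, h2, msub_comp_mups]
  | pi A B h1 h2 => simp [h1, h2, msub_comp_mups]
  | mem M N h1 h2 => simp [h1, h2]

/-- instantiation of index 0 -/
abbrev minst (N M : MT S) : MT S := msub (mscons N var) M

theorem minst_mwk (N M : MT S) : minst N (mwk M) = M := by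
  simp only [minst, mwk, msub_mren, Nat.succ_eq_add_one, mscons_succ, msub_id]

theorem msub_minst (σ : ℕ → MT S) (N M : MT S) :
    msub σ (minst N M) = minst (msub σ N) (msub (mups σ) M) := by
  simp only [minst, msub_msub]
  congr 1
  funext i
  cases i with
  | zero => rfl
  | succ i =>
      simp only [mscons_succ, msub_var, mups_succ, mwk, msub_mren, Nat.succ_eq_add_one, msub_id]

theorem mren_minst (ρ : ℕ → ℕ) (N M : MT S) :
    mren ρ (minst N M) = minst (mren ρ N) (mren (up ρ) M) := by
  simp only [mren_eq_msub, msub_minst, mups_ren]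

theorem msub_mscons (σ : ℕ → MT S) (N M : MT S) :
    msub (mscons N σ) M = minst N (msub (mups σ) M) := by
  simp only [minst, msub_msub]
  congr 1
  funext i
  cases i with
  | zero => rfl
  | succ i =>
      simp only [mscons_succ, mups_succ, mwk, msub_mren, Nat.succ_eq_add_one, msub_id]

/-! ### erasure and embedding -/

/-- erase all memory -/
def er : MT S → Term S
  | var i => .var i
  | sort s => .sort s
  | app M N => .app (er M) (er N)
  | lam A M => .lam (er A) (er M)
  | pi A B => .pi (er A) (er B)
  | mem M _ => er M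

/-- a pure term as a memory term -/
def emb : Term S → MT S
  | .var i => var i
  | .sort s => sort s
  | .app M N => app (emb M) (emb N)
  | .lam A M => lam (emb A) (emb M)
  | .pi A B => pi (emb A) (emb B)

@[simp] theorem er_var (i : ℕ) : er (S := S) (var i) = .var i := rfl
@[simp] theorem er_sort (s : S) : er (sort s) = .sort s := rfl
@[simp] theorem er_app (M N : MT S) : er (app M N) = .app (er M) (er N) := rfl
@[simp] theorem er_lam (M N : MT S) : er (lam M N) = .lam (er M) (er N) := rfl
@[simp] theorem er_pi (M N : MT S) : er (pi M N) = .pi (er M) (er N) := rfl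
@[simp] theorem er_mem (M N : MT S) : er (mem M N) = er M := rfl

@[simp] theorem er_emb (M : Term S) : er (emb M) = M := by
  induction M with
  | var i => rfl
  | sort s => rfl
  | app M N h1 h2 => simp [emb, h1, h2]
  | lam A M h1 h2 => simp [emb, h1, h2]
  | pi A B h1 h2 => simp [emb, h1, h2]

theorem er_mren (ρ : ℕ → ℕ) (M : MT S) : er (mren ρ M) = ren ρ (er M) := by
  induction M generalizing ρ with
  | var i => rfl
  | sort s => rfl
  | app M N h1 h2 => simp [h1, h2]
  | lam A M h1 h2 => simp [h1, h2]
  | pi A B h1 h2 => simp [h1, h2]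
  | mem M N h1 h2 => simp [h1]

theorem er_mups (σ : ℕ → MT S) : (fun i => er (mups σ i)) = ups (fun i => er (σ i)) := by
  funext i
  cases i with
  | zero => rfl
  | succ i => simp only [mups_succ, ups_succ, mwk, wk, er_mren]

theorem er_msub (σ : ℕ → MT S) (M : MT S) : er (msub σ M) = sub (fun i => er (σ i)) (er M) := by
  induction M generalizing σ with
  | var i => rfl
  | sort s => rfl
  | app M N h1 h2 => simp [h1, h2]
  | lam A M h1 h2 => simp [h1, h2, er_mups]
  | pi A B h1 h2 => simp [h1, h2, er_mups]
  | mem M N h1 h2 => simp [h1]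

theorem er_mscons (N : MT S) (σ : ℕ → MT S) :
    (fun i => er (mscons N σ i)) = scons (er N) (fun i => er (σ i)) := by
  funext i; cases i <;> rfl

theorem er_minst (N M : MT S) : er (minst N M) = inst (er N) (er M) := by
  rw [minst, er_msub, er_mscons]
  rfl

theorem emb_ren (ρ : ℕ → ℕ) (M : Term S) : emb (ren ρ M) = mren ρ (emb M) := by
  induction M generalizing ρ with
  | var i => rfl
  | sort s => rfl
  | app M N h1 h2 => simp [emb, h1, h2]
  | lam A M h1 h2 => simp [emb, h1, h2]
  | pi A B h1 h2 => simp [emb, h1, h2]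

theorem emb_ups (σ : ℕ → Term S) : (fun i => emb (ups σ i)) = mups (fun i => emb (σ i)) := by
  funext i
  cases i with
  | zero => rfl
  | succ i => simp only [mups_succ, ups_succ, mwk, wk, emb_ren]

theorem emb_sub (σ : ℕ → Term S) (M : Term S) :
    emb (sub σ M) = msub (fun i => emb (σ i)) (emb M) := by
  induction M generalizing σ with
  | var i => rfl
  | sort s => rfl
  | app M N h1 h2 => simp [emb, h1, h2]
  | lam A M h1 h2 => simp [emb, h1, h2, emb_ups]
  | pi A B h1 h2 => simp [emb, h1, h2, emb_ups]

theorem emb_inst (N M : Term S) : emb (inst N M) = minst (emb N) (emb M) := by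
  rw [inst, emb_sub, minst]
  congr 1
  funext i; cases i <;> rfl

/-! ### contraction at a distance -/

/-- contractum of `app F Q` when `F` is an abstraction under finitely many memories -/
def dist : MT S → MT S → Option (MT S)
  | lam A P, Q => some (mem (mem (minst Q P) Q) A)
  | mem F N, Q => (dist F Q).map fun R => mem R N
  | var _, _ => none
  | sort _, _ => none
  | app _ _, _ => none
  | pi _ _, _ => none

@[simp] theorem dist_lam (A P Q : MT S) : dist (lam A P) Q = some (mem (mem (minst Q P) Q) A) := rfl
@[simp] theorem dist_mem (F N Q : MT S) :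
    dist (mem F N) Q = (dist F Q).map fun R => mem R N := rfl
@[simp] theorem dist_var (i : ℕ) (Q : MT S) : dist (var i) Q = none := rfl
@[simp] theorem dist_sort (s : S) (Q : MT S) : dist (sort s) Q = none := rfl
@[simp] theorem dist_app (M N Q : MT S) : dist (app M N) Q = none := rfl
@[simp] theorem dist_pi (M N Q : MT S) : dist (pi M N) Q = none := rfl

/-- `F` is an abstraction under finitely many memories -/
def IsL : MT S → Prop
  | lam _ _ => True
  | mem F _ => IsL F
  | var _ => False
  | sort _ => False
  | app _ _ => False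
  | pi _ _ => False

@[simp] theorem isL_lam (A P : MT S) : IsL (lam A P) := trivial
@[simp] theorem isL_mem (F N : MT S) : IsL (mem F N) ↔ IsL F := Iff.rfl
@[simp] theorem not_isL_var (i : ℕ) : ¬ IsL (var i : MT S) := fun h => h
@[simp] theorem not_isL_sort (s : S) : ¬ IsL (sort s : MT S) := fun h => h
@[simp] theorem not_isL_app (M N : MT S) : ¬ IsL (app M N) := fun h => h
@[simp] theorem not_isL_pi (M N : MT S) : ¬ IsL (pi M N) := fun h => h

theorem isL_of_dist {F Q R : MT S} (h : dist F Q = some R) : IsL F := by
  induction F generalizing R with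
  | lam A P _ _ => trivial
  | mem F N ih _ =>
      rw [dist_mem, Option.map_eq_some_iff] at h
      obtain ⟨R', hR', _⟩ := h
      exact ih hR'
  | var i => simp at h
  | sort s => simp at h
  | app M N _ _ => simp at h
  | pi M N _ _ => simp at h

theorem exists_dist {F : MT S} (h : IsL F) (Q : MT S) : ∃ R, dist F Q = some R := by
  induction F with
  | lam A P _ _ => exact ⟨_, rfl⟩
  | mem F N ih _ =>
      obtain ⟨R, hR⟩ := ih h
      exact ⟨mem R N, by simp [hR]⟩
  | var i => exact h.elim
  | sort s => exact h.elim
  | app M N _ _ => exact h.elim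
  | pi M N _ _ => exact h.elim

theorem dist_msub {F Q R : MT S} (h : dist F Q = some R) (σ : ℕ → MT S) :
    dist (msub σ F) (msub σ Q) = some (msub σ R) := by
  induction F generalizing R with
  | lam A P _ _ =>
      rw [dist_lam, Option.some.injEq] at h
      subst h
      simp only [msub_lam, dist_lam, msub_mem, msub_minst]
  | mem F N ih _ =>
      rw [dist_mem, Option.map_eq_some_iff] at h
      obtain ⟨R', hR', rfl⟩ := h
      simp only [msub_mem, dist_mem, ih hR', Option.map_some]
  | var i => simp at h
  | sort s => simp at h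
  | app M N _ _ => simp at h
  | pi M N _ _ => simp at h

theorem dist_mren {F Q R : MT S} (h : dist F Q = some R) (ρ : ℕ → ℕ) :
    dist (mren ρ F) (mren ρ Q) = some (mren ρ R) := by
  rw [mren_eq_msub, mren_eq_msub, mren_eq_msub]
  exact dist_msub h _

theorem isL_msub {F : MT S} (h : IsL F) (σ : ℕ → MT S) : IsL (msub σ F) := by
  induction F with
  | lam A P _ _ => trivial
  | mem F N ih _ => exact ih h
  | var i => exact h.elim
  | sort s => exact h.elim
  | app M N _ _ => exact h.elim
  | pi M N _ _ => exact h.elim

/-- erasing a contraction at a distance gives a beta contraction -/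
theorem dist_er {F Q R : MT S} (h : dist F Q = some R) :
    ∃ A P, er F = .lam A P ∧ er R = inst (er Q) P := by
  induction F generalizing R with
  | lam A P _ _ =>
      rw [dist_lam, Option.some.injEq] at h
      subst h
      exact ⟨er A, er P, rfl, by simp only [er_mem, er_minst]⟩
  | mem F N ih _ =>
      rw [dist_mem, Option.map_eq_some_iff] at h
      obtain ⟨R', hR', rfl⟩ := h
      obtain ⟨A, P, h1, h2⟩ := ih hR'
      exact ⟨A, P, h1, h2⟩
  | var i => simp at h
  | sort s => simp at h
  | app M N _ _ => simp at h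
  | pi M N _ _ => simp at h

theorem isL_of_er {F : MT S} {A P : Term S} (h : er F = .lam A P) : IsL F := by
  induction F with
  | lam A P _ _ => trivial
  | mem F N ih _ => exact ih h
  | var i => simp at h
  | sort s => simp at h
  | app M N _ _ => simp at h
  | pi M N _ _ => simp at h

end MT

open MT

/-! ### one step reduction -/

/-- one step of reduction of memory terms -/
inductive MStep : MT S → MT S → Prop
  | beta {F Q R : MT S} : dist F Q = some R → MStep (app F Q) R
  | appL {M M' : MT S} (N : MT S) : MStep M M' → MStep (app M N) (app M' N)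
  | appR (M : MT S) {N N' : MT S} : MStep N N' → MStep (app M N) (app M N')
  | lamA {A A' : MT S} (M : MT S) : MStep A A' → MStep (lam A M) (lam A' M)
  | lamM (A : MT S) {M M' : MT S} : MStep M M' → MStep (lam A M) (lam A M')
  | piA {A A' : MT S} (B : MT S) : MStep A A' → MStep (pi A B) (pi A' B)
  | piB (A : MT S) {B B' : MT S} : MStep B B' → MStep (pi A B) (pi A B')
  | memP {P P' : MT S} (N : MT S) : MStep P P' → MStep (mem P N) (mem P' N)
  | memN (P : MT S) {N N' : MT S} : MStep N N' → MStep (mem P N) (mem P N')

/-- many steps -/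
abbrev MRed : MT S → MT S → Prop := ReflTransGen MStep

/-- no step starts here -/
def MNormal (M : MT S) : Prop := ∀ N, ¬ MStep M N

/-- weak normalisation of memory terms -/
def MWN (M : MT S) : Prop := ∃ N, MRed M N ∧ MNormal N

/-- strong normalisation of memory terms -/
def MSN (M : MT S) : Prop := Acc (fun a b => MStep b a) M

theorem MStep.msub {M M' : MT S} (h : MStep M M') (σ : ℕ → MT S) :
    MStep (msub σ M) (msub σ M') := by
  induction h generalizing σ with
  | beta h => exact .beta (dist_msub h σ)
  | appL N _ ih => exact .appL _ (ih σ)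
  | appR M _ ih => exact .appR _ (ih σ)
  | lamA M _ ih => exact .lamA _ (ih σ)
  | lamM A _ ih => exact .lamM _ (ih _)
  | piA B _ ih => exact .piA _ (ih σ)
  | piB A _ ih => exact .piB _ (ih _)
  | memP N _ ih => exact .memP _ (ih σ)
  | memN P _ ih => exact .memN _ (ih σ)

theorem MStep.mren {M M' : MT S} (h : MStep M M') (ρ : ℕ → ℕ) :
    MStep (mren ρ M) (mren ρ M') := by
  rw [mren_eq_msub, mren_eq_msub]; exact MStep.msub h _

theorem MRed.app {M M' N N' : MT S} (h : MRed M M') (h' : MRed N N') :
    MRed (app M N) (app M' N') :=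
  (h.lift (fun x => MT.app x N) (fun _ _ h => .appL _ h)).trans
    (h'.lift (fun x => MT.app M' x) (fun _ _ h => .appR _ h))

theorem MRed.lam {M M' N N' : MT S} (h : MRed M M') (h' : MRed N N') :
    MRed (lam M N) (lam M' N') :=
  (h.lift (fun x => MT.lam x N) (fun _ _ h => .lamA _ h)).trans
    (h'.lift (fun x => MT.lam M' x) (fun _ _ h => .lamM _ h))

theorem MRed.pi {M M' N N' : MT S} (h : MRed M M') (h' : MRed N N') :
    MRed (pi M N) (pi M' N') :=
  (h.lift (fun x => MT.pi x N) (fun _ _ h => .piA _ h)).trans
    (h'.lift (fun x => MT.pi M' x) (fun _ _ h => .piB _ h))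

theorem MRed.mem {M M' N N' : MT S} (h : MRed M M') (h' : MRed N N') :
    MRed (mem M N) (mem M' N') :=
  (h.lift (fun x => MT.mem x N) (fun _ _ h => .memP _ h)).trans
    (h'.lift (fun x => MT.mem M' x) (fun _ _ h => .memN _ h))

theorem MRed.msub {M M' : MT S} (h : MRed M M') (σ : ℕ → MT S) :
    MRed (msub σ M) (msub σ M') :=
  h.lift (MT.msub σ) (fun _ _ h => MStep.msub h σ)

theorem MRed.mren {M M' : MT S} (h : MRed M M') (ρ : ℕ → ℕ) :
    MRed (mren ρ M) (mren ρ M') :=
  h.lift (MT.mren ρ) (fun _ _ h => MStep.mren h ρ)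

theorem mups_mred {σ τ : ℕ → MT S} (h : ∀ i, MRed (σ i) (τ i)) : ∀ i, MRed (mups σ i) (mups τ i)
  | 0 => .refl
  | i + 1 => (h i).mren _

theorem mred_msub {σ τ : ℕ → MT S} (h : ∀ i, MRed (σ i) (τ i)) (M : MT S) :
    MRed (msub σ M) (msub τ M) := by
  induction M generalizing σ τ with
  | var i => exact h i
  | sort s => exact .refl
  | app M N h1 h2 => exact MRed.app (h1 h) (h2 h)
  | lam A M h1 h2 => exact MRed.lam (h1 h) (h2 (mups_mred h))
  | pi A B h1 h2 => exact MRed.pi (h1 h) (h2 (mups_mred h))
  | mem M N h1 h2 => exact MRed.mem (h1 h) (h2 h)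

theorem mred_minst {N N' M M' : MT S} (h : MRed N N') (h' : MRed M M') :
    MRed (minst N M) (minst N' M') := by
  refine (MRed.msub h' _).trans (mred_msub ?_ _)
  intro i
  cases i with
  | zero => exact h
  | succ i => exact .refl

/-- (C3) a step of memory terms is erased to nothing or to one beta step -/
theorem er_step {M M' : MT S} (h : MStep M M') : er M = er M' ∨ Beta (er M) (er M') := by
  induction h with
  | beta h =>
      obtain ⟨A, P, h1, h2⟩ := dist_er h
      right
      rw [er_app, h1, h2]
      exact beta_redex _ _ _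
  | appL N _ ih =>
      rcases ih with ih | ih
      · left; simp [ih]
      · right; exact .appL _ ih
  | appR M _ ih =>
      rcases ih with ih | ih
      · left; simp [ih]
      · right; exact .appR _ ih
  | lamA M _ ih =>
      rcases ih with ih | ih
      · left; simp [ih]
      · right; exact .lamA _ ih
  | lamM A _ ih =>
      rcases ih with ih | ih
      · left; simp [ih]
      · right; exact .lamM _ ih
  | piA B _ ih =>
      rcases ih with ih | ih
      · left; simp [ih]
      · right; exact .piA _ ih
  | piB A _ ih =>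
      rcases ih with ih | ih
      · left; simp [ih]
      · right; exact .piB _ ih
  | memP N _ ih => simpa using ih
  | memN P _ ih => left; rfl

theorem er_red {M M' : MT S} (h : MRed M M') : Red (er M) (er M') := by
  induction h with
  | refl => exact .refl
  | tail _ h ih =>
      rcases er_step h with h | h
      · rwa [← h]
      · exact ih.tail h

/-- (C2) a beta step of the erasure lifts to one step of memory terms -/
theorem lift_step {M : MT S} {N : Term S} (h : Beta (er M) N) : ∃ M', MStep M M' ∧ er M' = N := by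
  induction M generalizing N with
  | var i => cases h
  | sort s => cases h
  | app M Q h1 h2 =>
      rw [er_app] at h
      generalize hM : er M = F at h
      generalize hQ : er Q = G at h
      cases h with
      | redex A P N =>
          obtain ⟨R, hR⟩ := exists_dist (isL_of_er hM) Q
          obtain ⟨A', P', e1, e2⟩ := dist_er hR
          rw [hM] at e1
          injection e1 with e3 e4
          refine ⟨R, .beta hR, ?_⟩
          rw [e2, subst_eq, hQ, ← e4]
      | appL N h =>
          subst hM
          obtain ⟨M', hM', rfl⟩ := h1 h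
          exact ⟨_, .appL _ hM', by simp [hQ]⟩
      | appR M h =>
          subst hQ
          obtain ⟨M', hM', rfl⟩ := h2 h
          exact ⟨_, .appR _ hM', by simp [hM]⟩
  | lam A M h1 h2 =>
      rw [er_lam] at h
      generalize hA : er A = F at h
      generalize hM : er M = G at h
      cases h with
      | lamA N h =>
          subst hA
          obtain ⟨M', hM', rfl⟩ := h1 h
          exact ⟨_, .lamA _ hM', by simp [hM]⟩
      | lamM N h =>
          subst hM
          obtain ⟨M', hM', rfl⟩ := h2 h
          exact ⟨_, .lamM _ hM', by simp [hA]⟩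
  | pi A M h1 h2 =>
      rw [er_pi] at h
      generalize hA : er A = F at h
      generalize hM : er M = G at h
      cases h with
      | piA N h =>
          subst hA
          obtain ⟨M', hM', rfl⟩ := h1 h
          exact ⟨_, .piA _ hM', by simp [hM]⟩
      | piB N h =>
          subst hM
          obtain ⟨M', hM', rfl⟩ := h2 h
          exact ⟨_, .piB _ hM', by simp [hA]⟩
  | mem M N h1 _ =>
      obtain ⟨M', hM', rfl⟩ := h1 h
      exact ⟨_, .memP _ hM', rfl⟩

end Crest.Agent.R298.Mem360
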