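import Crest.Agent.R298.Ty_452
import Crest.Agent.R298.Mem_360

/-!
R298 (S0452), helper452: typing of terms with memory.  Contexts and types are frozen
terms (erased); only the subject carries memories.
-/

set_option autoImplicit false

namespace Crest.Agent.R298.TyM452

open Crest.LogicCS.PTS Relation
open Crest.Agent.R298.Sub452 Crest.Agent.R298.Par452 Crest.Agent.R298.Ty452
open Crest.Agent.R298.Mem360
open Crest.Agent.R298.Mem360.MT (er emb mren mwk mups msub mscons minst er_mren er_mups er_msub
  er_minst er_emb emb_ren msub_id mren_id)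

universe u
variable {S : Type u} {P : Spec S}

/-- typing of terms with memory -/
inductive TM (P : Spec S) : List (Term S) → MT S → Term S → Prop
  | var {Γ : List (Term S)} {i : ℕ} {A : Term S} : Wf P Γ → Lk Γ i A → TM P Γ (.var i) A
  | sort {Γ : List (Term S)} {s t : S} : Wf P Γ → P.ax s t → TM P Γ (.sort s) (.sort t)
  | pi {Γ : List (Term S)} {A B : MT S} {a b c : S} : TM P Γ A (.sort a) →
      TM P (er A :: Γ) B (.sort b) → P.rule a b c → TM P Γ (.pi A B) (.sort c)
  | lam {Γ : List (Term S)} {A M : MT S} {B : Term S} {a c : S} : TM P Γ A (.sort a) →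
      TM P (er A :: Γ) M B → Typed P Γ (.pi (er A) B) (.sort c) →
      TM P Γ (.lam A M) (.pi (er A) B)
  | app {Γ : List (Term S)} {M N : MT S} {A B : Term S} : TM P Γ M (.pi A B) → TM P Γ N A →
      TM P Γ (.app M N) (inst (er N) B)
  | mem {Γ : List (Term S)} {M N : MT S} {A B : Term S} : TM P Γ M A → TM P Γ N B →
      TM P Γ (.mem M N) A
  | conv {Γ : List (Term S)} {M : MT S} {A A' : Term S} {s : S} : TM P Γ M A → BetaEq A A' →
      Typed P Γ A' (.sort s) → TM P Γ M A'

theorem TM.typed {Γ : List (Term S)} {M : MT S} {A : Term S} (h : TM P Γ M A) :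
    Typed P Γ (er M) A := by
  induction h with
  | var w l => exact var_wf l w
  | sort w a => exact ax_wf w a
  | pi _ _ r ih ih' => exact .prod ih ih' r
  | lam _ _ h _ ih => exact .abs ih h
  | app _ _ ih ih' => exact t_appl ih ih'
  | mem _ _ ih _ => exact ih
  | conv _ e h ih => exact .conv ih h e

theorem TM.wf {Γ : List (Term S)} {M : MT S} {A : Term S} (h : TM P Γ M A) : Wf P Γ :=
  twf h.typed

/-! ### renaming and substitution -/

theorem tm_ren {Γ : List (Term S)} {M : MT S} {A : Term S} (h : TM P Γ M A) :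
    ∀ {Δ : List (Term S)} {ρ : ℕ → ℕ}, Wf P Δ → RenOk ρ Γ Δ →
      TM P Δ (mren ρ M) (ren ρ A) := by
  induction h with
  | var w l => intro Δ ρ w' r; exact .var w' (r _ _ l)
  | sort w a => intro Δ ρ w' r; exact .sort w' a
  | pi hA _ r ih ih' =>
      intro Δ ρ w' hr
      have a := ih w' hr
      refine .pi a ?_ r
      rw [er_mren]
      refine ih' ?_ (hr.up _)
      have := a.typed
      rw [er_mren] at this
      exact .cons w' this
  | @lam Γ A M B a c hA hM hp ih ih' =>
      intro Δ ρ w' hr
      have a := ih w' hr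
      have b : Typed P Δ (.pi (ren ρ (er A)) (ren (up ρ) B)) (.sort c) := typed_ren hp w' hr
      have := a.typed
      rw [er_mren] at this
      simp only [ren_pi]
      have key := TM.lam (P := P) (Γ := Δ) (A := mren ρ A) (M := mren (up ρ) M)
        (B := ren (up ρ) B) (a := _) (c := c) a
        (by rw [er_mren]; exact ih' (.cons w' this) (hr.up _)) (by rw [er_mren]; exact b)
      rw [er_mren] at key
      exact key
  | app _ _ ih ih' =>
      intro Δ ρ w' hr
      rw [ren_inst, ← er_mren]
      exact .app (ih w' hr) (ih' w' hr)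
  | mem _ _ ih ih' => intro Δ ρ w' hr; exact .mem (ih w' hr) (ih' w' hr)
  | conv _ e hs ih =>
      intro Δ ρ w' hr
      exact .conv (ih w' hr) (BetaEq.ren e ρ) (typed_ren hs w' hr)

theorem tm_wk {Γ : List (Term S)} {M : MT S} {A B : Term S} {s : S} (h : TM P Γ M A)
    (hB : Typed P Γ B (.sort s)) : TM P (B :: Γ) (mwk M) (wk A) :=
  tm_ren h (.cons h.wf hB) (RenOk.wk Γ B)

/-- `σ` is a substitution (by terms with memory) from `Γ` to `Δ` -/
def MSubOk (P : Spec S) (σ : ℕ → MT S) (Γ Δ : List (Term S)) : Prop :=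
  ∀ i A, Lk Γ i A → TM P Δ (σ i) (sub (fun i => er (σ i)) A)

theorem MSubOk.subOk {σ : ℕ → MT S} {Γ Δ : List (Term S)} (h : MSubOk P σ Γ Δ) :
    SubOk P (fun i => er (σ i)) Γ Δ := fun i A hl => (h i A hl).typed

theorem MSubOk.ups {σ : ℕ → MT S} {Γ Δ : List (Term S)} (h : MSubOk P σ Γ Δ) {A : Term S} {s : S}
    (hA : Typed P Δ (sub (fun i => er (σ i)) A) (.sort s)) :
    MSubOk P (mups σ) (A :: Γ) (sub (fun i => er (σ i)) A :: Δ) := by
  intro i B hl
  rw [er_mups]
  cases hl with
  | zero _ _ => rw [sub_wk]; exact .var (.cons (twf hA) hA) (.zero _ _)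
  | succ _ hl => rw [sub_wk]; exact tm_wk (h _ _ hl) hA

theorem tm_sub {Γ : List (Term S)} {M : MT S} {A : Term S} (h : TM P Γ M A) :
    ∀ {Δ : List (Term S)} {σ : ℕ → MT S}, Wf P Δ → MSubOk P σ Γ Δ →
      TM P Δ (msub σ M) (sub (fun i => er (σ i)) A) := by
  induction h with
  | var w l => intro Δ σ w' r; exact r _ _ l
  | sort w a => intro Δ σ w' r; exact .sort w' a
  | pi hA _ r ih ih' =>
      intro Δ σ w' hr
      have a := ih w' hr
      refine .pi a ?_ r
      have := a.typed
      rw [er_msub] at this ⊢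
      have key := ih' (.cons w' this) (hr.ups this)
      rw [er_mups] at key
      exact key
  | @lam Γ A M B a c hA hM hp ih ih' =>
      intro Δ σ w' hr
      have a := ih w' hr
      have b : Typed P Δ (.pi (sub (fun i => er (σ i)) (er A)) (sub (ups fun i => er (σ i)) B))
        (.sort c) := typed_sub hp w' hr.subOk
      have := a.typed
      rw [er_msub] at this
      have key0 := ih' (.cons w' this) (hr.ups this)
      rw [er_mups] at key0
      simp only [sub_pi]
      have key := TM.lam (P := P) (Γ := Δ) (A := msub σ A) (M := msub (mups σ) M)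
        (B := sub (ups fun i => er (σ i)) B) (a := _) (c := c) a
        (by rw [er_msub]; exact key0) (by rw [er_msub]; exact b)
      rw [er_msub] at key
      exact key
  | app _ _ ih ih' =>
      intro Δ σ w' hr
      rw [sub_inst, ← er_msub]
      exact .app (ih w' hr) (ih' w' hr)
  | mem _ _ ih ih' => intro Δ σ w' hr; exact .mem (ih w' hr) (ih' w' hr)
  | conv _ e hs ih =>
      intro Δ σ w' hr
      exact .conv (ih w' hr) (BetaEq.sub e _) (typed_sub hs w' hr.subOk)

theorem MSubOk.var {Γ : List (Term S)} (w : Wf P Γ) : MSubOk P .var Γ Γ := by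
  intro i A h
  have : sub (fun i => er (MT.var i)) A = A := sub_id A
  rw [this]
  exact .var w h

theorem MSubOk.scons {σ : ℕ → MT S} {Γ Δ : List (Term S)} (h : MSubOk P σ Γ Δ) {N : MT S}
    {A : Term S} (hN : TM P Δ N (sub (fun i => er (σ i)) A)) :
    MSubOk P (mscons N σ) (A :: Γ) Δ := by
  intro i B hl
  cases hl with
  | zero _ _ =>
      simpa only [wk, sub_ren, Nat.succ_eq_add_one, mscons] using hN
  | succ _ hl =>
      have := h _ _ hl
      simpa only [wk, sub_ren, Nat.succ_eq_add_one, mscons] using this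

theorem tm_inst {Γ : List (Term S)} {A B : Term S} {M N : MT S} (h : TM P (A :: Γ) M B)
    (hN : TM P Γ N A) : TM P Γ (minst N M) (inst (er N) B) := by
  have key := tm_sub h hN.wf ((MSubOk.var hN.wf).scons (N := N) (by
    have : sub (fun i => er (MT.var i)) A = A := sub_id A
    rwa [this]))
  have e : (fun i => er (mscons N MT.var i)) = scons (er N) Term.var := by
    funext i; cases i <;> rfl
  rw [e] at key
  exact key

/-- context conversion -/
theorem tm_ctx_conv {Γ : List (Term S)} {A A' B : Term S} {M : MT S} {s : S}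
    (h : TM P (A :: Γ) M B) (h' : Typed P Γ A' (.sort s)) (e : BetaEq A A') :
    TM P (A' :: Γ) M B := by
  obtain ⟨w, s₀, hA⟩ := h.wf.tail
  have w' : Wf P (A' :: Γ) := .cons w h'
  have hs : MSubOk P MT.var (A :: Γ) (A' :: Γ) := by
    intro i C hl
    have : sub (fun i => er (MT.var i)) C = C := sub_id C
    rw [this]
    cases hl with
    | zero _ _ =>
        refine .conv (.var w' (.zero _ _)) ?_ (t_weak hA h')
        exact BetaEq.symm (BetaEq.ren e _)
    | succ _ hl => exact .var w' (.succ _ hl)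
  have := tm_sub h w' hs
  have e1 : sub (fun i => er (MT.var i)) B = B := sub_id B
  rwa [e1, msub_id] at this

theorem tm_gen_pi {Γ : List (Term S)} {M : MT S} {C : Term S} (h : TM P Γ M C) :
    ∀ A B, M = .pi A B → ∃ a b c, TM P Γ A (.sort a) ∧ TM P (er A :: Γ) B (.sort b) ∧
      P.rule a b c ∧ BetaEq C (.sort c) := by
  induction h with
  | pi h1 h2 r _ _ =>
      intro A B e; cases e; exact ⟨_, _, _, h1, h2, r, .refl _⟩
  | conv h e' _ ih =>
      intro A B e
      obtain ⟨a, b, c, h1, h2, r, e2⟩ := ih A B e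
      exact ⟨a, b, c, h1, h2, r, BetaEq.trans (BetaEq.symm e') e2⟩
  | _ => intro A B e; cases e

theorem tm_gen_lam {Γ : List (Term S)} {M : MT S} {C : Term S} (h : TM P Γ M C) :
    ∀ A M', M = .lam A M' → ∃ B a c, TM P Γ A (.sort a) ∧ TM P (er A :: Γ) M' B ∧
      Typed P Γ (.pi (er A) B) (.sort c) ∧ BetaEq C (.pi (er A) B) := by
  induction h with
  | lam h1 h2 h3 _ _ =>
      intro A B e; cases e; exact ⟨_, _, _, h1, h2, h3, .refl _⟩
  | conv h e' _ ih =>
      intro A B e
      obtain ⟨a, b, c, h1, h2, r, e2⟩ := ih A B e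
      exact ⟨a, b, c, h1, h2, r, BetaEq.trans (BetaEq.symm e') e2⟩
  | _ => intro A B e; cases e

theorem tm_gen_app {Γ : List (Term S)} {M : MT S} {C : Term S} (h : TM P Γ M C) :
    ∀ M' N, M = .app M' N → ∃ A B, TM P Γ M' (.pi A B) ∧ TM P Γ N A ∧
      BetaEq C (inst (er N) B) := by
  induction h with
  | app h1 h2 _ _ =>
      intro A B e; cases e; exact ⟨_, _, h1, h2, .refl _⟩
  | conv h e' _ ih =>
      intro A B e
      obtain ⟨a, b, h1, h2, e2⟩ := ih A B e
      exact ⟨a, b, h1, h2, BetaEq.trans (BetaEq.symm e') e2⟩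
  | _ => intro A B e; cases e

theorem tm_gen_mem {Γ : List (Term S)} {M : MT S} {C : Term S} (h : TM P Γ M C) :
    ∀ M' N, M = .mem M' N → TM P Γ M' C ∧ ∃ B, TM P Γ N B := by
  induction h with
  | mem h1 h2 _ _ =>
      intro A B e; cases e; exact ⟨h1, _, h2⟩
  | conv h e' hs ih =>
      intro A B e
      obtain ⟨h1, h2⟩ := ih A B e
      exact ⟨.conv h1 e' hs, h2⟩
  | _ => intro A B e; cases e

theorem tm_gen_var {Γ : List (Term S)} {i : ℕ} {C : Term S} (h : TM P Γ (.var i) C) :
    ∃ A, Lk Γ i A ∧ BetaEq C A := gen_var h.typed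

theorem tm_gen_sort {Γ : List (Term S)} {s : S} {C : Term S} (h : TM P Γ (.sort s) C) :
    ∃ s', P.ax s s' ∧ BetaEq C (.sort s') := gen_sort h.typed

/-- every typed frozen term is a typed term with (empty) memory -/
theorem tm_emb {Γ : List (Term S)} {M A : Term S} (h : Typed P Γ M A) : TM P Γ (emb M) A := by
  refine typed_ind (P := P) (motive := fun Γ M A => TM P Γ (emb M) A)
    ?_ ?_ ?_ ?_ ?_ ?_ ?_ h
  · intro s₁ s₂ a; exact .sort .nil a
  · intro Γ A s h _; exact .var (.cons (twf h) h) (.zero _ _)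
  · intro Γ M B A s h h' ih _
    have := tm_wk ih h'
    rwa [mwk, ← emb_ren] at this
  · intro Γ A B s₁ s₂ s₃ _ _ r ih ih'
    exact .pi ih (by rw [er_emb]; exact ih') r
  · intro Γ A M B s _ h ih ih'
    obtain ⟨a, b, c, h1, h2, r, e⟩ := tm_gen_pi ih' _ _ rfl
    have := TM.lam (P := P) (A := emb A) (M := emb M) (B := B) (c := s) h1
      (by rw [er_emb]; exact ih) (by rw [er_emb]; exact h)
    rwa [er_emb] at this
  · intro Γ M N A B _ _ ih ih'
    have := TM.app ih ih'
    rwa [er_emb] at this
  · intro Γ M A B s _ h e ih _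
    exact .conv ih e h

theorem step_eq {M M' : MT S} (h : MStep M M') : BetaEq (er M) (er M') := by
  rcases er_step h with h | h
  · rw [h]; exact .refl _
  · exact .rel _ _ h

theorem step_red {M M' : MT S} (h : MStep M M') : Red (er M) (er M') := by
  rcases er_step h with h | h
  · rw [h]
  · exact .single h

theorem dist_tm {Γ : List (Term S)} {F Q R : MT S} {A B : Term S} (h : TM P Γ F (.pi A B))
    (hQ : TM P Γ Q A) (hd : MT.dist F Q = some R) : TM P Γ R (inst (er Q) B) := by
  induction F generalizing R with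
  | lam A0 M _ _ =>
      simp only [MT.dist, Option.some.injEq] at hd
      subst hd
      obtain ⟨B2, a, c, h3, h4, h5, e2⟩ := tm_gen_lam h _ _ rfl
      obtain ⟨e3, e4⟩ := pi_inj e2
      have hQ' : TM P Γ Q (er A0) := .conv hQ e3 h3.typed
      obtain ⟨s, hp⟩ := pi_typed h.typed
      obtain ⟨s₁, s₂, s₃, hA, hB, r, -⟩ := gen_pi hp
      have hT : Typed P Γ (inst (er Q) B) (.sort s₂) := typed_inst hB hQ.typed
      refine .mem (.mem (.conv (tm_inst h4 hQ') ?_ hT) hQ) h3
      exact BetaEq.symm (BetaEq.sub e4 _)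
  | mem M N ih _ =>
      simp only [MT.dist, Option.map_eq_some_iff] at hd
      obtain ⟨R', hd, rfl⟩ := hd
      obtain ⟨h3, B3, h4⟩ := tm_gen_mem h _ _ rfl
      exact .mem (ih h3 hd) h4
  | var i => cases hd
  | sort i => cases hd
  | app _ _ => cases hd
  | pi _ _ => cases hd

/-- subject reduction for terms with memory -/
theorem tm_sr {Γ : List (Term S)} {M : MT S} {A : Term S} (h : TM P Γ M A) :
    ∀ M', MStep M M' → TM P Γ M' A := by
  induction h with
  | var w l => intro M' b; cases b
  | sort w l => intro M' b; cases b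
  | pi hA hB r ih ih' =>
      intro M' b
      cases b with
      | piA _ b => exact .pi (ih _ b) (tm_ctx_conv hB (ih _ b).typed (step_eq b)) r
      | piB _ b => exact .pi hA (ih' _ b) r
  | lam hA hM hp ih ih' =>
      intro M' b
      cases b with
      | lamA _ b =>
          have hp' := SR hp (Red.pi (step_red b) .refl)
          refine .conv (.lam (ih _ b) (tm_ctx_conv hM (ih _ b).typed (step_eq b)) hp') ?_ hp
          exact BetaEq.symm (Red.pi (step_red b) .refl).eq
      | lamM _ b => exact .lam hA (ih' _ b) hp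
  | @app Γ M N A B h h' ih ih' =>
      intro M' b
      obtain ⟨s, hp⟩ := pi_typed h.typed
      obtain ⟨s₁, s₂, s₃, hA, hB, r, -⟩ := gen_pi hp
      cases b with
      | beta hd => exact dist_tm h h' hd
      | appL _ b => exact .app (ih _ b) h'
      | appR _ b =>
          refine .conv (.app h (ih' _ b)) ?_ (typed_inst hB h'.typed)
          exact BetaEq.symm (red_inst (step_red b) .refl).eq
  | mem h h' ih ih' =>
      intro M' b
      cases b with
      | memP _ b => exact .mem (ih _ b) h'
      | memN _ b => exact .mem h (ih' _ b)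
  | conv h e hs ih =>
      intro M' b
      exact .conv (ih _ b) e hs

theorem tm_SR {Γ : List (Term S)} {M M' : MT S} {A : Term S} (h : TM P Γ M A)
    (r : MRed M M') : TM P Γ M' A := by
  induction r with
  | refl => exact h
  | tail _ b ih => exact tm_sr ih _ b

/-- types of terms with memory -/
theorem tm_type_correct {Γ : List (Term S)} {M : MT S} {A : Term S} (h : TM P Γ M A) :
    (∃ s, A = .sort s) ∨ ∃ s, Typed P Γ A (.sort s) := type_correct h.typed

theorem tm_red_type {Γ : List (Term S)} {M : MT S} {A A' : Term S} (h : TM P Γ M A)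
    (r : Red A A') : TM P Γ M A' := by
  rcases tm_type_correct h with ⟨s, rfl⟩ | ⟨s, hA⟩
  · rw [red_sort r]; exact h
  · exact .conv h r.eq (SR hA r)

theorem tm_sort_of_eq {Γ : List (Term S)} {M : MT S} {A : Term S} {s : S} (h : TM P Γ M A)
    (e : BetaEq A (.sort s)) : TM P Γ M (.sort s) :=
  tm_red_type h (red_of_eq_sort e)

end Crest.Agent.R298.TyM452
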