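import Crest.Agent.R298.Real_582
import Crest.Agent.R298.Scc_795
import Crest.Agent.R298.Cons_360
import Crest.Agent.R298.TyM_452

/-!
R298 (S0452), helper865: MASTER ASSEMBLY.

`S0452` from three block theorems over finite specifications with realized rules:
* block (a): a level which is unary or 2-colourable is normalised (`WNi`);
* block (T): a level which is not fat is normalised (`WNi`);
* block (P): a bipolar fat level contradicts weak normalisation.
Literal forms: `IsIdx`, `Sig`, `NF`, `WNi`, `BlockA`, `BlockT`, `BlockP`.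
-/

set_option autoImplicit false

namespace Crest.Agent.R298.Main865

open Crest.LogicCS.PTS Relation
open Crest.Agent.R298.Sub452 Crest.Agent.R298.Par452 Crest.Agent.R298.Ty452
open Crest.Agent.R298.Mem360 Crest.Agent.R298.TyM452 Crest.Agent.R298.Scc795
open Crest.Agent.R298.Mem360.MT (er emb er_emb IsL isL_of_dist dist)

universe u

variable {S : Type u}

/-- `idx` is a stage index of `P` bounded by `N` (exactly what `Scc795.exists_idx` produces). -/
structure IsIdx (P : Spec S) (idx : S → ℕ) (N : ℕ) : Prop where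
  le : ∀ x, idx x ≤ N
  pos : ∀ x, 0 < idx x ↔ x ∈ RS P
  edge : ∀ x y, Edge P x y → idx y ≤ idx x
  eq_iff : ∀ x y, x ∈ RS P → y ∈ RS P → (idx x = idx y ↔ Mut P x y)

/-- the level sets of the index -/
def Lvl (idx : S → ℕ) (i : ℕ) : Set S := {x | idx x = i}

theorem IsIdx.rule_left {P : Spec S} {idx : S → ℕ} {N : ℕ} (h : IsIdx P idx N) {a b c : S}
    (r : P.rule a b c) : idx c ≤ idx a := h.edge _ _ (edge_dom r)

theorem IsIdx.rule_right {P : Spec S} {idx : S → ℕ} {N : ℕ} (h : IsIdx P idx N) {a b c : S}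
    (r : P.rule a b c) : idx c ≤ idx b := h.edge _ _ (edge_cod r)

theorem IsIdx.rule_pos {P : Spec S} {idx : S → ℕ} {N : ℕ} (h : IsIdx P idx N) {a b c : S}
    (r : P.rule a b c) : 0 < idx c := (h.pos c).2 ⟨a, b, c, r, Or.inr (Or.inr rfl)⟩

theorem IsIdx.isScc {P : Spec S} {idx : S → ℕ} {N : ℕ} (h : IsIdx P idx N) {i : ℕ}
    (hi : 0 < i) : IsScc P (Lvl idx i) := isScc_level h.pos h.eq_iff hi

/-- the sorts of a type, up to conversion -/
def Sig (P : Spec S) (Γ : List (Term S)) (T : Term S) (s : S) : Prop :=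
  ∃ T', BetaEq T T' ∧ Typed P Γ T' (.sort s)

/-- **`NF P idx k Γ M`**: every application node `F Q` of `M` whose function part is an
abstraction (under memories) has, in its local context, a type one of whose sorts has index at
least `k`. -/
def NF (P : Spec S) (idx : S → ℕ) (k : ℕ) : List (Term S) → MT S → Prop
  | _, .var _ => True
  | _, .sort _ => True
  | Γ, .app F Q => NF P idx k Γ F ∧ NF P idx k Γ Q ∧
      (IsL F → ∃ T s, Typed P Γ (er F) T ∧ Sig P Γ T s ∧ k ≤ idx s)
  | Γ, .lam A M => NF P idx k Γ A ∧ NF P idx k (er A :: Γ) M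
  | Γ, .pi A B => NF P idx k Γ A ∧ NF P idx k (er A :: Γ) B
  | Γ, .mem M N => NF P idx k Γ M ∧ NF P idx k Γ N

/-- **stage `i`**: terms without redexes of class `< i` reduce to terms without redexes of class
`≤ i` (arbitrary reduction steps are allowed). -/
def WNi (P : Spec S) (idx : S → ℕ) (i : ℕ) : Prop :=
  ∀ (Γ : List (Term S)) (M : MT S) (A : Term S), TM P Γ M A → NF P idx i Γ M →
    ∃ M', MRed M M' ∧ NF P idx (i + 1) Γ M'

theorem NF.mono {P : Spec S} {idx : S → ℕ} {j k : ℕ} (h : j ≤ k) {M : MT S} :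
    ∀ {Γ : List (Term S)}, NF P idx k Γ M → NF P idx j Γ M := by
  induction M with
  | var i => intro Γ _; trivial
  | sort s => intro Γ _; trivial
  | app F Q ihF ihQ =>
      intro Γ ⟨h1, h2, h3⟩
      refine ⟨ihF h1, ihQ h2, fun hl => ?_⟩
      obtain ⟨T, s, hT, hs, hk⟩ := h3 hl
      exact ⟨T, s, hT, hs, h.trans hk⟩
  | lam A M ihA ihM => intro Γ ⟨h1, h2⟩; exact ⟨ihA h1, ihM h2⟩
  | pi A M ihA ihM => intro Γ ⟨h1, h2⟩; exact ⟨ihA h1, ihM h2⟩
  | mem A M ihA ihM => intro Γ ⟨h1, h2⟩; exact ⟨ihA h1, ihM h2⟩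

/-- a typed term with memory has no redexes of class `0` -/
theorem NF.one {P : Spec S} {idx : S → ℕ} {N : ℕ} (hi : IsIdx P idx N) {Γ : List (Term S)}
    {M : MT S} {A : Term S} (h : TM P Γ M A) : NF P idx 1 Γ M := by
  induction h with
  | var _ _ => trivial
  | sort _ _ => trivial
  | pi _ _ _ ih ih' => exact ⟨ih, ih'⟩
  | lam _ _ _ ih ih' => exact ⟨ih, ih'⟩
  | @app Γ M N A B hM hN ih ih' =>
      refine ⟨ih, ih', fun _ => ?_⟩
      have ht := hM.typed
      rcases type_correct ht with ⟨s, e⟩ | ⟨s, hs⟩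
      · cases e
      · obtain ⟨a, b, c, h1, h2, r, e⟩ := gen_pi hs
        have hc : s = c := sort_inj e
        subst hc
        exact ⟨_, s, ht, ⟨_, .refl _, hs⟩, hi.rule_pos r⟩
  | mem _ _ ih ih' => exact ⟨ih, ih'⟩
  | conv _ _ _ ih => exact ih

/-- above the top level there are no redexes -/
theorem NF.normal {P : Spec S} {idx : S → ℕ} {N : ℕ} (hN : ∀ x, idx x ≤ N) {M M' : MT S}
    (hs : MStep M M') : ∀ {Γ : List (Term S)}, NF P idx (N + 1) Γ M → False := by
  induction hs with
  | beta h =>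
      intro Γ hn
      obtain ⟨T, s, _, _, hk⟩ := hn.2.2 (isL_of_dist h)
      have := hN s
      omega
  | appL _ _ ih => intro Γ hn; exact ih hn.1
  | appR _ _ ih => intro Γ hn; exact ih hn.2.1
  | lamA _ _ ih => intro Γ hn; exact ih hn.1
  | lamM _ _ ih => intro Γ hn; exact ih hn.2
  | piA _ _ ih => intro Γ hn; exact ih hn.1
  | piB _ _ ih => intro Γ hn; exact ih hn.2
  | memP _ _ ih => intro Γ hn; exact ih hn.1
  | memN _ _ ih => intro Γ hn; exact ih hn.2

/-- **assembly of the stages** -/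
theorem assembly {P : Spec S} {idx : S → ℕ} {N : ℕ} (hi : IsIdx P idx N)
    (h : ∀ i, 0 < i → WNi P idx i) {Γ : List (Term S)} {M : MT S} {A : Term S}
    (hM : TM P Γ M A) : MWN M := by
  have key : ∀ k, ∃ M', MRed M M' ∧ NF P idx (k + 1) Γ M' := by
    intro k
    induction k with
    | zero => exact ⟨M, .refl, NF.one hi hM⟩
    | succ k ih =>
        obtain ⟨M', hr, hn⟩ := ih
        obtain ⟨M'', hr', hn'⟩ := h (k + 1) (Nat.succ_pos k) Γ M' A (tm_SR hM hr) hn
        exact ⟨M'', hr.trans hr', hn'⟩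
  obtain ⟨M', hr, hn⟩ := key N
  exact ⟨M', hr, fun K hK => NF.normal hi.le hK hn⟩

/-- the sort-level interface: `Fat P D` is the (negated) hypothesis of the semantic block and the
hypothesis of the paradox block -/
abbrev FatPred := ∀ (n : ℕ), Spec (Fin n) → Set (Fin n) → Prop

/-- standing hypotheses on a finite specification -/
structure Std {n : ℕ} (P : Spec (Fin n)) : Prop where
  realized : Real582.Realized P
  wn : ∀ Γ M, Legal P Γ M → WN M

/-- block (a): unary or 2-colourable levels (doc 678 / 2282) -/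
def BlockA : Prop := ∀ (n : ℕ) (P : Spec (Fin n)) (idx : Fin n → ℕ) (N : ℕ), Std P →
  IsIdx P idx N → ∀ i, 0 < i → (Unary P (Lvl idx i) ∨ Even P (Lvl idx i)) → WNi P idx i

/-- block (T): levels which are not fat (docs 2275 / 2280) -/
def BlockT (Fat : FatPred) : Prop := ∀ (n : ℕ) (P : Spec (Fin n)) (idx : Fin n → ℕ) (N : ℕ),
  Std P → IsIdx P idx N → ∀ i, 0 < i → ¬ Fat n P (Lvl idx i) → WNi P idx i

/-- block (P): no bipolar fat level (docs 2267 / 2233) -/
def BlockP (Fat : FatPred) : Prop := ∀ (n : ℕ) (P : Spec (Fin n)) (D : Set (Fin n)), Std P →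
  IsScc P D → Bipolar P D → Fat n P D → False

theorem sn_of_blocks (Fat : FatPred) (hA : BlockA) (hT : BlockT Fat) (hP : BlockP Fat)
    (n : ℕ) (P : Spec (Fin n)) (hS : Std P) (Γ : List (Term (Fin n))) (M : Term (Fin n))
    (hM : Legal P Γ M) : SN M := by
  obtain ⟨idx, N, h1, h2, h3, h4⟩ := exists_idx (P := P)
    ⟨Set.toFinite _, Set.toFinite _⟩
  have hi : IsIdx P idx N := ⟨h1, h2, h3, h4⟩
  have hst : ∀ i, 0 < i → WNi P idx i := by
    intro i hpos
    rcases trichotomy P (Lvl idx i) with h | h | h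
    · exact hA n P idx N hS hi i hpos (Or.inl h)
    · exact hA n P idx N hS hi i hpos (Or.inr h)
    · exact hT n P idx N hS hi i hpos (fun hf => hP n P _ hS (hi.isScc hpos) h hf)
  have typed_sn : ∀ {K A : Term (Fin n)}, Typed P Γ K A → SN K := fun hK =>
    sn_of_wn_emb (assembly hi hst (tm_emb hK))
  obtain ⟨K, h | h⟩ := hM
  · exact typed_sn h
  · rcases type_correct h with ⟨s, e⟩ | ⟨s, hs⟩
    · rintro ⟨f, hf0, hf⟩
      have h0 := hf 0
      rw [hf0, e] at h0
      cases h0
    · exact typed_sn hs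

/-- **S0452 from the three blocks** (literal form of the frozen statement). -/
theorem s0452_of (Fat : FatPred) (hA : BlockA) (hT : BlockT Fat) (hP : BlockP Fat)
    (T : Type u) (P : Spec T)
    (h : ∀ (Γ : List (Term T)) (M : Term T), Legal P Γ M → WN M) (Γ : List (Term T))
    (M : Term T) (hM : Legal P Γ M) : SN M :=
  Real582.s0452_of_fin_realized
    (fun n P₀ hr hw Γ₀ M₀ hM₀ => sn_of_blocks Fat hA hT hP n P₀ ⟨hr, hw⟩ Γ₀ M₀ hM₀) T P h Γ M hM

end Crest.Agent.R298.Main865
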