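import Crest.Agent.R298.Scc_795

/-!
R298 (S0452), helper113: LEMMA F, sort-level data.

`D` is the current strongly connected component (stage).  `RelS t`: `t` is the sort of a kind with
leaf in `D`.  `Sg t e`: `t` is the sort of a type reachable from a `D`-bound type with sign `e`
(`true` = plus = an even number of domain steps).  `HS u a`: `a` is the sort of a kind with leaf
the universe `u`.  `Dn` = one downward step (domain or codomain) in the relevance graph.
`Fat` = both signs + reset binder + domain step in one strongly connected piece.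
-/

set_option autoImplicit false

namespace Crest.Agent.R298.Fl113

open Crest.LogicCS.PTS Crest.Agent.R298.Fin795

universe u

variable {S : Type u}

/-- sorts of kinds with leaf sort in `D` -/
inductive RelS (P : Spec S) (D : Set S) : S → Prop
  | base {s t : S} : s ∈ D → P.ax s t → RelS P D t
  | up {a b c : S} : P.rule a b c → RelS P D b → RelS P D c

/-- signed sorts: reachable from the sorts of the domains of products `(a,b,c)`, `b, c ∈ D` -/
inductive Sg (P : Spec S) (D : Set S) : S → Bool → Prop
  | base {a b c : S} : P.rule a b c → b ∈ D → c ∈ D → RelS P D a → Sg P D a true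
  | cod {a b c : S} {e : Bool} : P.rule a b c → RelS P D b → Sg P D c e → Sg P D b e
  | dom {a b c : S} {e : Bool} : P.rule a b c → RelS P D a → RelS P D b → Sg P D c e →
      Sg P D a (!e)

/-- `a` is the sort of a kind `E₁ → … → Eₙ → u` -/
inductive HS (P : Spec S) (u : S) : S → Prop
  | base {a : S} : P.ax u a → HS P u a
  | up {x y z : S} : P.rule x y z → HS P u y → HS P u z

/-- one downward step in the relevance graph -/
def Dn (P : Spec S) (D : Set S) (c x : S) : Prop :=
  (∃ a, P.rule a x c ∧ RelS P D x) ∨ (∃ b, P.rule x b c ∧ RelS P D x ∧ RelS P D b)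

/-- downward reachability -/
def Rd (P : Spec S) (D : Set S) : S → S → Prop := Relation.ReflTransGen (Dn P D)

theorem Rd.refl (P : Spec S) (D : Set S) (x : S) : Rd P D x x := Relation.ReflTransGen.refl
theorem Rd.trans {P : Spec S} {D : Set S} {x y z : S} (h : Rd P D x y) (h' : Rd P D y z) :
    Rd P D x z := Relation.ReflTransGen.trans h h'
theorem Rd.cod {P : Spec S} {D : Set S} {a b c : S} (h : P.rule a b c) (hb : RelS P D b) :
    Rd P D c b := Relation.ReflTransGen.single (Or.inl ⟨a, h, hb⟩)
theorem Rd.dom {P : Spec S} {D : Set S} {a b c : S} (h : P.rule a b c) (ha : RelS P D a)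
    (hb : RelS P D b) : Rd P D c a := Relation.ReflTransGen.single (Or.inr ⟨b, h, ha, hb⟩)

/-- the fat configuration: a universe `u` carrying both signs, with a reset binder and a domain
step in its strongly connected piece -/
def Fat (P : Spec S) (D : Set S) : Prop :=
  ∃ u a b c a' b' c' : S, Sg P D u true ∧ Sg P D u false ∧ RelS P D u ∧
    P.rule a b c ∧ HS P u a ∧ RelS P D b ∧ Rd P D u c ∧ Rd P D b u ∧
    P.rule a' b' c' ∧ RelS P D a' ∧ RelS P D b' ∧ Rd P D u c' ∧ Rd P D a' u

theorem Sg.dn {P : Spec S} {D : Set S} {c x : S} {e : Bool} (h : Sg P D c e) (h' : Dn P D c x) :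
    ∃ e', Sg P D x e' ∧ ∀ e'', Sg P D c e'' → Sg P D x (if e' = e then e'' else !e'') := by
  rcases h' with ⟨a, h1, h2⟩ | ⟨b, h1, h2, h3⟩
  · refine ⟨e, .cod h1 h2 h, fun e'' h'' => ?_⟩
    simpa using Sg.cod h1 h2 h''
  · refine ⟨!e, .dom h1 h2 h3 h, fun e'' h'' => ?_⟩
    have : (!e) ≠ e := by cases e <;> simp
    simpa [this] using Sg.dom h1 h2 h3 h''

/-- both signs -/
def Both (P : Spec S) (D : Set S) (x : S) : Prop := Sg P D x true ∧ Sg P D x false

theorem Both.cod {P : Spec S} {D : Set S} {a b c : S} (h : Both P D c) (r : P.rule a b c)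
    (hb : RelS P D b) : Both P D b := ⟨.cod r hb h.1, .cod r hb h.2⟩

theorem Both.dom {P : Spec S} {D : Set S} {a b c : S} (h : Both P D c) (r : P.rule a b c)
    (ha : RelS P D a) (hb : RelS P D b) : Both P D a := ⟨.dom r ha hb h.2, .dom r ha hb h.1⟩

/-- strictly below in the relevance graph -/
def Lo (P : Spec S) (D : Set S) (x w : S) : Prop := Rd P D w x ∧ ¬ Rd P D x w

theorem lo_wf (P : Spec S) (D : Set S) [_root_.Finite S] : WellFounded (Lo P D) := by
  have : IsTrans S (Lo P D) := ⟨fun x y z h h' => ⟨h'.1.trans h.1, fun h'' => h'.2 (h.1.trans h'')⟩⟩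
  have : Std.Irrefl (Lo P D) := ⟨fun x h => h.2 (Rd.refl P D x)⟩
  exact Finite.wellFounded_of_trans_of_irrefl _

/-- `RelS t` iff `t` is the sort of a kind with leaf `s ∈ D` -/
theorem relS_iff {P : Spec S} {D : Set S} {t : S} : RelS P D t ↔ ∃ s ∈ D, HS P s t := by
  constructor
  · intro h
    induction h with
    | base hs h => exact ⟨_, hs, .base h⟩
    | up r _ ih =>
        obtain ⟨s, hs, h⟩ := ih
        exact ⟨s, hs, .up r h⟩
  · rintro ⟨s, hs, h⟩
    induction h with
    | base h => exact .base hs h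
    | up r _ ih => exact .up r ih

/-! ### upward walks (operators `K : x ↦ Ω[K] : y`), the form consumed by the paradox side -/

/-- upward walk with parity (`true` = even number of domain steps);
`cod`: `K ↦ (E → K)`, `dom`: `K ↦ (K → N)`, `N : b` a kind with leaf in `D` -/
inductive Op (P : Spec S) (D : Set S) : Bool → S → S → Prop
  | nil (x : S) : Op P D true x x
  | cod {a x y z : S} {e : Bool} : P.rule a x y → Op P D e y z → Op P D e x z
  | dom {x b y z : S} {e : Bool} : P.rule x b y → RelS P D b → Op P D e y z → Op P D (!e) x z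

theorem Op.trans {P : Spec S} {D : Set S} {x y z : S} {e e' : Bool} (h : Op P D e x y)
    (h' : Op P D e' y z) : Op P D (e == e') x z := by
  induction h generalizing e' z with
  | nil x => cases e' <;> simpa using h'
  | cod r _ ih => exact .cod r (ih h')
  | @dom x b y w e r hb _ ih =>
      have := Op.dom r hb (ih h')
      cases e <;> cases e' <;> simpa using this

theorem Rd.op {P : Spec S} {D : Set S} {c x : S} (h : Rd P D c x) : ∃ e, Op P D e x c := by
  induction h with
  | refl => exact ⟨_, .nil _⟩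
  | @tail y z _ h ih =>
      obtain ⟨e, ih⟩ := ih
      rcases h with ⟨a, r, _⟩ | ⟨b, r, _, hb⟩
      · exact ⟨_, .cod r ih⟩
      · exact ⟨_, .dom r hb ih⟩

/-- `v` is the sort of `D`-bound types -/
def Bd (P : Spec S) (D : Set S) (v : S) : Prop := ∃ b c, P.rule v b c ∧ b ∈ D ∧ c ∈ D

theorem Sg.op {P : Spec S} {D : Set S} {x : S} {e : Bool} (h : Sg P D x e) :
    ∃ v, Op P D e x v ∧ Bd P D v := by
  induction h with
  | base r hb hc _ => exact ⟨_, .nil _, _, _, r, hb, hc⟩
  | cod r _ _ ih =>
      obtain ⟨v, h, hv⟩ := ih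
      exact ⟨v, .cod r h, hv⟩
  | dom r _ hb _ ih =>
      obtain ⟨v, h, hv⟩ := ih
      exact ⟨v, .dom r hb h, hv⟩

/-- the walk form of the fat configuration -/
def FatW (P : Spec S) (D : Set S) : Prop :=
  ∃ u a b c : S, P.rule a b c ∧ HS P u a ∧ (∃ e, Op P D e u b) ∧ (∃ e, Op P D e c u) ∧
    (∃ x y z e e', P.rule x y z ∧ RelS P D y ∧ Op P D e u x ∧ Op P D e' z u) ∧
    (∃ v, Op P D true u v ∧ Bd P D v) ∧ (∃ v, Op P D false u v ∧ Bd P D v)

theorem Fat.walks {P : Spec S} {D : Set S} (h : Fat P D) : FatW P D := by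
  obtain ⟨u, a, b, c, a', b', c', h1, h2, _, r, hs, _, hc, hb, r', _, hb', hc', ha'⟩ := h
  obtain ⟨e, he⟩ := ha'.op
  obtain ⟨e', he'⟩ := hc'.op
  exact ⟨u, a, b, c, r, hs, hb.op, hc.op, ⟨_, _, _, e, e', r', hb', he, he'⟩, h1.op, h2.op⟩

end Crest.Agent.R298.Fl113
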