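import Crest.Agent.R298.At1_734
import Crest.Agent.R298.Real_582
import Crest.Agent.R298.Scc_795
import Crest.Agent.R298.Fl1_113

/-!
R298 (S0452), helper525: transport of the sort-level data (strongly connected components, bipolar,
fat configuration) to the atom extension `Pp P` of 734, `D ↦ inl '' D`.
-/

set_option autoImplicit false

namespace Crest.Agent.R298.PpT525

open Crest.LogicCS.PTS Crest.LogicCS.PTS.Term
open Crest.Agent.R298.At734 Crest.Agent.R298.Scc795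

universe u
variable {S : Type u} {P : Spec S}

/-- the copy of `D` in the sorts of `Pp P` -/
abbrev Dl (D : Set S) : Set (S ⊕ S) := Sum.inl '' D

theorem mem_Dl {D : Set S} {x : S} : Sum.inl x ∈ Dl D ↔ x ∈ D :=
  ⟨fun ⟨y, hy, e⟩ => by injection e with e; exact e ▸ hy, fun h => ⟨x, h, rfl⟩⟩

theorem mem_Dl' {D : Set S} {x : S ⊕ S} : x ∈ Dl D ↔ ∃ y ∈ D, x = .inl y :=
  ⟨fun ⟨y, hy, e⟩ => ⟨y, hy, e.symm⟩, fun ⟨y, hy, e⟩ => ⟨y, hy, e.symm⟩⟩

theorem rule_iff {a b c : S} : (Pp P).rule (.inl a) (.inl b) (.inl c) ↔ P.rule a b c := Iff.rfl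

theorem ax_inl {a b : S} (h : P.ax a b) : (Pp P).ax (.inl a) (.inl b) := h

theorem nedge_iff {x y : S ⊕ S} :
    NEdge (Pp P) x y ↔ ∃ x' y', x = .inl x' ∧ y = .inl y' ∧ NEdge P x' y' := by
  constructor
  · rintro ⟨b, h⟩
    obtain ⟨a', b', c', rfl, rfl, rfl, r⟩ := Pp_rule h
    exact ⟨a', c', rfl, rfl, b', r⟩
  · rintro ⟨x', y', rfl, rfl, b, r⟩
    exact ⟨.inl b, r⟩

theorem pedge_iff {x y : S ⊕ S} :
    PEdge (Pp P) x y ↔ ∃ x' y', x = .inl x' ∧ y = .inl y' ∧ PEdge P x' y' := by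
  constructor
  · rintro ⟨b, h⟩
    obtain ⟨a', b', c', rfl, rfl, rfl, r⟩ := Pp_rule h
    exact ⟨b', c', rfl, rfl, a', r⟩
  · rintro ⟨x', y', rfl, rfl, b, r⟩
    exact ⟨.inl b, r⟩

theorem edge_iff {x y : S ⊕ S} :
    Edge (Pp P) x y ↔ ∃ x' y', x = .inl x' ∧ y = .inl y' ∧ Edge P x' y' := by
  simp only [Edge, nedge_iff, pedge_iff]
  constructor
  · rintro (⟨x', y', h1, h2, h⟩ | ⟨x', y', h1, h2, h⟩)
    · exact ⟨x', y', h1, h2, .inl h⟩
    · exact ⟨x', y', h1, h2, .inr h⟩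
  · rintro ⟨x', y', h1, h2, h | h⟩
    · exact .inl ⟨x', y', h1, h2, h⟩
    · exact .inr ⟨x', y', h1, h2, h⟩

theorem RS_iff {x : S ⊕ S} : x ∈ RS (Pp P) ↔ ∃ x', x = .inl x' ∧ x' ∈ RS P := by
  constructor
  · rintro ⟨a, b, c, h, h'⟩
    obtain ⟨a', b', c', rfl, rfl, rfl, r⟩ := Pp_rule h
    rcases h' with rfl | rfl | rfl
    · exact ⟨_, rfl, _, _, _, r, .inl rfl⟩
    · exact ⟨_, rfl, _, _, _, r, .inr (.inl rfl)⟩
    · exact ⟨_, rfl, _, _, _, r, .inr (.inr rfl)⟩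
  · rintro ⟨x', rfl, a, b, c, r, h⟩
    refine ⟨.inl a, .inl b, .inl c, r, ?_⟩
    rcases h with rfl | rfl | rfl
    · exact .inl rfl
    · exact .inr (.inl rfl)
    · exact .inr (.inr rfl)

theorem reach_inl {x y : S} (h : Reach P x y) : Reach (Pp P) (.inl x) (.inl y) := by
  induction h with
  | refl => exact Reach.refl _ _
  | tail _ h ih => exact ih.trans (Reach.of_edge (edge_iff.2 ⟨_, _, rfl, rfl, h⟩))

theorem reach_inv {x : S} {y : S ⊕ S} (h : Reach (Pp P) (.inl x) y) :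
    ∃ y', y = .inl y' ∧ Reach P x y' := by
  induction h with
  | refl => exact ⟨x, rfl, Reach.refl _ _⟩
  | tail _ h ih =>
      obtain ⟨y', rfl, h'⟩ := ih
      obtain ⟨a, b, h1, rfl, h2⟩ := edge_iff.1 h
      injection h1 with h1
      subst h1
      exact ⟨b, rfl, h'.trans (Reach.of_edge h2)⟩

theorem mut_iff {x : S} {y : S ⊕ S} :
    Mut (Pp P) (.inl x) y ↔ ∃ y', y = .inl y' ∧ Mut P x y' := by
  constructor
  · rintro ⟨h1, h2⟩
    obtain ⟨y', rfl, h3⟩ := reach_inv h1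
    obtain ⟨x', e, h4⟩ := reach_inv h2
    injection e with e
    subst e
    exact ⟨y', rfl, h3, h4⟩
  · rintro ⟨y', rfl, h1, h2⟩
    exact ⟨reach_inl h1, reach_inl h2⟩

theorem isScc {D : Set S} (h : IsScc P D) : IsScc (Pp P) (Dl D) := by
  constructor
  · rintro _ ⟨x, hx, rfl⟩
    exact RS_iff.2 ⟨x, rfl, h.1 x hx⟩
  · rintro _ ⟨x, hx, rfl⟩ y
    rw [mut_iff]
    constructor
    · rintro ⟨y', hy', rfl⟩
      exact ⟨y', rfl, (h.2 x hx y').1 hy'⟩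
    · rintro ⟨y', rfl, hy'⟩
      exact ⟨y', (h.2 x hx y').2 hy', rfl⟩

theorem unary_of {D : Set S} (h : Unary (Pp P) (Dl D)) : Unary P D := by
  rintro a b c r hc ⟨ha, hb⟩
  exact h (.inl a) (.inl b) (.inl c) r (mem_Dl.2 hc) ⟨mem_Dl.2 ha, mem_Dl.2 hb⟩

theorem even_of {D : Set S} (h : Even (Pp P) (Dl D)) : Even P D := by
  obtain ⟨χ, h⟩ := h
  refine ⟨fun x => χ (.inl x), fun a b c r hc => ?_⟩
  obtain ⟨h1, h2⟩ := h (.inl a) (.inl b) (.inl c) r (mem_Dl.2 hc)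
  exact ⟨fun ha => h1 (mem_Dl.2 ha), fun hb => h2 (mem_Dl.2 hb)⟩

theorem bipolar {D : Set S} (h : Bipolar P D) : Bipolar (Pp P) (Dl D) :=
  ⟨fun h' => h.1 (unary_of h'), fun h' => h.2 (even_of h')⟩

/-! ### the fat configuration -/

theorem hs {u a : S} (h : Fl113.HS P u a) : Fl113.HS (Pp P) (.inl u) (.inl a) := by
  induction h with
  | base h => exact .base (ax_inl h)
  | up r _ ih => exact .up (P := Pp P) (x := .inl _) (rule_iff.2 r) ih

theorem relS {D : Set S} {t : S} (h : Fl113.RelS P D t) : Fl113.RelS (Pp P) (Dl D) (.inl t) := by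
  induction h with
  | base hs h => exact .base (mem_Dl.2 hs) (ax_inl h)
  | up r _ ih => exact .up (P := Pp P) (a := .inl _) (rule_iff.2 r) ih

theorem op {D : Set S} {e : Bool} {x y : S} (h : Fl113.Op P D e x y) :
    Fl113.Op (Pp P) (Dl D) e (.inl x) (.inl y) := by
  induction h with
  | nil x => exact .nil _
  | cod r _ ih => exact .cod (P := Pp P) (a := .inl _) (rule_iff.2 r) ih
  | dom r h _ ih => exact .dom (P := Pp P) (rule_iff.2 r) (relS h) ih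

theorem bd {D : Set S} {v : S} (h : Fl113.Bd P D v) : Fl113.Bd (Pp P) (Dl D) (.inl v) := by
  obtain ⟨b, c, r, hb, hc⟩ := h
  exact ⟨.inl b, .inl c, r, mem_Dl.2 hb, mem_Dl.2 hc⟩

theorem fatW {D : Set S} (h : Fl113.FatW P D) : Fl113.FatW (Pp P) (Dl D) := by
  obtain ⟨u, a, b, c, r, h1, ⟨e1, h2⟩, ⟨e2, h3⟩, ⟨x, y, z, e3, e4, r', h4, h5, h6⟩,
    ⟨v1, h7, h8⟩, ⟨v2, h9, h10⟩⟩ := h
  exact ⟨.inl u, .inl a, .inl b, .inl c, r, hs h1, ⟨e1, op h2⟩, ⟨e2, op h3⟩,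
    ⟨.inl x, .inl y, .inl z, e3, e4, r', relS h4, op h5, op h6⟩,
    ⟨.inl v1, op h7, bd h8⟩, ⟨.inl v2, op h9, bd h10⟩⟩

/-! ### rule sorts have a type in `Pp P` -/

theorem exists_ax (h : Real582.Realized P) {s : S ⊕ S} (hs : s ∈ RS (Pp P)) :
    ∃ t, (Pp P).ax s t := by
  obtain ⟨x, rfl, a, b, c, r, hx⟩ := RS_iff.1 hs
  refine ⟨.inr x, rfl, ?_⟩
  rcases hx with rfl | rfl | rfl
  · exact h.inh_a r
  · exact h.inh_b r
  · exact h.inh_c r

end Crest.Agent.R298.PpT525
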