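import Crest.Agent.R298.Base2_525
import Crest.Agent.R298.PpT_525
import Crest.Agent.R298.Main_865

/-!
R298 (S0452), helper525: reduction of block (P) to an arbitrary finite specification `Q` in which
every rule sort has a type (axiom), so that atoms and the base context `Base525.exists_base` are
available.
-/

set_option autoImplicit false

namespace Crest.Agent.R298.BlkP525

open Crest.LogicCS.PTS Crest.LogicCS.PTS.Term
open Crest.Agent.R298.Scc795 Crest.Agent.R298.At734

/-- block (P) follows from its version over specifications with atoms -/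
theorem blockP_of
    (H : ∀ (T : Type) [Finite T] (Q : Spec T) (D : Set T), IsScc Q D → Bipolar Q D →
      Fl113.FatW Q D → (∀ s ∈ RS Q, ∃ t, Q.ax s t) →
      (∀ Γ M, Legal Q Γ M → WN M) → False) :
    Main865.BlockP (fun _ P D => Fl113.Fat P D) := by
  intro n P D hS hD hb hf
  exact H (Fin n ⊕ Fin n) (Pp P) (PpT525.Dl D) (PpT525.isScc hD) (PpT525.bipolar hb)
    (PpT525.fatW hf.walks) (fun s hs => PpT525.exists_ax hS.realized hs) (wn_Pp hS.wn)

end Crest.Agent.R298.BlkP525
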