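import Crest.Agent.R298.TyF_452

/-!
R298 (S0452), part P, helper987: wrappers along sort paths (doc 2233 (B)), generic in a two-valued
truth predicate (`Logic`).  Closed objects live over `Δ`; everything takes the depth `n` of the
current context over `Δ`.

`Path L r t`: kind steps leading from a type of sort `r` to a kind of sort `t`; `Om w n K` the
wrapped kind; `comp w n K a` (comprehension resp. evaluation point) and `test w n K G b`; the law
`Tr (test w 0 K (comp w 0 K a) b) ↔ Tr (pair a b)`.
-/

set_option autoImplicit false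

namespace Crest.Agent.R298.Tw987

open Crest.LogicCS.PTS Crest.LogicCS.PTS.Term Relation
open Crest.Agent.R298.Sub452 Crest.Agent.R298.Par452 Crest.Agent.R298.Ty452
open Crest.Agent.R298.TyF452

universe u
variable {S : Type u} {P : Spec S}

/-! ### depth -/

/-- a closed object at depth `n` -/
def lft (n : ℕ) (N : Term S) : Term S := ren (fun i => i + n) N

/-- `D` is a context of depth `n` over `Δ` -/
def Ext (Δ : ℕ → Term S) (n : ℕ) (D : ℕ → Term S) : Prop := ∀ i, D (i + n) = lft n (Δ i)

/-- `σ` goes from depth `n` to depth `m` and fixes the names of the base context -/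
def Base (n m : ℕ) (σ : ℕ → Term S) : Prop := ∀ i, σ (i + n) = var (i + m)

theorem lft_zero (N : Term S) : lft 0 N = N := ren_id N

theorem wk_lft (n : ℕ) (N : Term S) : wk (lft n N) = lft (n + 1) N := by
  simp only [lft, wk, ren_ren]; rfl

@[simp] theorem lft_sort (n : ℕ) (s : S) : lft n (sort s) = (sort s : Term S) := rfl

theorem Base.lft {n m : ℕ} {σ : ℕ → Term S} (h : Base n m σ) (N : Term S) :
    sub σ (lft n N) = lft m N := by
  simp only [Tw987.lft]
  rw [sub_ren, ren_eq_sub]
  congr 1
  funext i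
  exact h i

theorem Base.ups {n m : ℕ} {σ : ℕ → Term S} (h : Base n m σ) : Base (n + 1) (m + 1) (ups σ) :=
  fun i => by
    show wk (σ (i + n)) = _
    rw [h i]
    rfl

theorem Base.scons {n m : ℕ} {σ : ℕ → Term S} (h : Base n m σ) (N : Term S) :
    Base (n + 1) m (scons N σ) := fun i => h i

theorem Base.var (n : ℕ) : Base (S := S) n n Term.var := fun _ => rfl

theorem Base.succ (n : ℕ) : Base (S := S) n (n + 1) (fun i => Term.var (Nat.succ i)) := fun _ => rfl

theorem Base.inst (n : ℕ) (N : Term S) : Base (n + 1) n (Sub452.scons N Term.var) :=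
  (Base.var n).scons N

theorem Ext.zero (Δ : ℕ → Term S) : Ext Δ 0 Δ := fun _ => (lft_zero _).symm

theorem Ext.cons {Δ : ℕ → Term S} {n : ℕ} {D : ℕ → Term S} (h : Ext Δ n D) (A : Term S) :
    Ext Δ (n + 1) (fcons A D) := fun i => by
  show Sub452.wk (D (i + n)) = _
  rw [h i, wk_lft]

theorem Ext.ty {Δ : ℕ → Term S} {n : ℕ} {D : ℕ → Term S} (h : Ext Δ n D) {N A : Term S}
    (hN : TyF P Δ N A) : TyF P D (Tw987.lft n N) (Tw987.lft n A) := tyf_ren hN h

theorem wk_sub (M : Term S) : wk M = sub (fun i => var (Nat.succ i)) M := ren_eq_sub _ _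

/-! ### substitution without well-formedness of the target context -/

def SubG (P : Spec S) (σ : ℕ → Term S) (D D' : ℕ → Term S) : Prop :=
  ∀ i, TyF P D' (σ i) (sub σ (D i)) ∨ ∃ j, σ i = var j ∧ D' j = sub σ (D i)

theorem SubG.ups {σ : ℕ → Term S} {D D' : ℕ → Term S} (h : SubG P σ D D') (A : Term S) :
    SubG P (ups σ) (fcons A D) (fcons (sub σ A) D') := by
  intro i
  cases i with
  | zero => exact .inr ⟨0, rfl, (sub_wk _ _).symm⟩
  | succ i =>
      simp only [ups_succ, fcons_succ, sub_wk]
      rcases h i with h | ⟨j, h1, h2⟩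
      · exact .inl (tyf_wk h _)
      · exact .inr ⟨j + 1, by rw [h1]; rfl, by rw [fcons_succ, h2]⟩

theorem tyf_subG {D : ℕ → Term S} {M A : Term S} (h : TyF P D M A) :
    ∀ {D' : ℕ → Term S} {σ : ℕ → Term S}, SubG P σ D D' → TyF P D' (sub σ M) (sub σ A) := by
  induction h with
  | ax a => intro D' σ _; exact .ax a
  | @var D i s _ ih =>
      intro D' σ hr
      rcases hr i with h | ⟨j, h1, h2⟩
      · exact h
      · have := ih hr
        show TyF P D' (σ i) _
        rw [h1]
        rw [← h2] at this ⊢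
        exact .var this
  | prod _ _ r ih ih' => intro D' σ hr; exact .prod (ih hr) (ih' (hr.ups _)) r
  | abs _ _ ih ih' => intro D' σ hr; exact .abs (ih (hr.ups _)) (ih' hr)
  | appl _ _ ih ih' =>
      intro D' σ hr
      rw [sub_inst]
      exact .appl (ih hr) (ih' hr)
  | conv _ _ e ih ih' => intro D' σ hr; exact .conv (ih hr) (ih' hr) (BetaEq.sub e σ)

theorem SubG.inst {D : ℕ → Term S} {A N : Term S} (hN : TyF P D N A) :
    SubG P (scons N var) (fcons A D) D := by
  intro i
  cases i with
  | zero =>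
      left
      show TyF P D N (Sub452.inst N (wk A))
      rw [inst_wk]
      exact hN
  | succ i =>
      right
      refine ⟨i, rfl, ?_⟩
      show D i = Sub452.inst N (wk (D i))
      rw [inst_wk]

/-- substitution of one variable, no well-formedness needed -/
theorem tyf_inst' {D : ℕ → Term S} {A M B N : Term S} (h : TyF P (fcons A D) M B)
    (hN : TyF P D N A) : TyF P D (inst N M) (inst N B) := tyf_subG h (SubG.inst hN)

/-! ### the logic -/

/-- two-valued compositional truth for the types of the sort `o` over `Δ` -/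
structure Logic (P : Spec S) (Δ : ℕ → Term S) where
  /-- the sort of formulas -/
  o : S
  /-- truth of closed formulas -/
  Tr : Term S → Prop
  conv : ∀ {X Y : Term S}, TyF P Δ X (sort o) → TyF P Δ Y (sort o) → BetaEq X Y → (Tr X ↔ Tr Y)
  bot : ℕ → Term S
  bot_ty : ∀ {n : ℕ} {D : ℕ → Term S}, Ext Δ n D → TyF P D (bot n) (sort o)
  bot_sub : ∀ {n m : ℕ} {σ : ℕ → Term S}, Base n m σ → sub σ (bot n) = bot m
  bot_tr : ¬ Tr (bot 0)
  imp : ℕ → Term S → Term S → Term S
  imp_ty : ∀ {n : ℕ} {D : ℕ → Term S} {X Y : Term S}, Ext Δ n D → TyF P D X (sort o) →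
    TyF P D Y (sort o) → TyF P D (imp n X Y) (sort o)
  imp_sub : ∀ {n m : ℕ} {σ : ℕ → Term S} (X Y : Term S), Base n m σ →
    sub σ (imp n X Y) = imp m (sub σ X) (sub σ Y)
  imp_tr : ∀ {X Y : Term S}, TyF P Δ X (sort o) → TyF P Δ Y (sort o) →
    (Tr (imp 0 X Y) ↔ (Tr X → Tr Y))
  /-- sorts over which formulas can quantify -/
  Bd : S → Prop
  all : S → ℕ → Term S → Term S → Term S
  all_ty : ∀ {d : S} {n : ℕ} {D : ℕ → Term S} {K Z : Term S}, Bd d → Ext Δ n D →
    TyF P D K (sort d) → TyF P (fcons K D) Z (sort o) → TyF P D (all d n K Z) (sort o)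
  all_sub : ∀ {d : S} {n m : ℕ} {σ : ℕ → Term S} (K Z : Term S), Bd d → Base n m σ →
    sub σ (all d n K Z) = all d m (sub σ K) (sub (ups σ) Z)
  all_tr : ∀ {d : S} {K Z : Term S}, Bd d → TyF P Δ K (sort d) → TyF P (fcons K Δ) Z (sort o) →
    (Tr (all d 0 K Z) ↔ ∀ M, TyF P Δ M K → Tr (inst M Z))

variable {Δ : ℕ → Term S}

/-- leaf converters between the formula sort and the sort `s` -/
structure Cv (L : Logic P Δ) (s : S) where
  fwd : ℕ → Term S → Term S
  bwd : ℕ → Term S → Term S
  fwd_ty : ∀ {n : ℕ} {D : ℕ → Term S} {X : Term S}, Ext Δ n D → TyF P D X (sort L.o) →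
    TyF P D (fwd n X) (sort s)
  bwd_ty : ∀ {n : ℕ} {D : ℕ → Term S} {X : Term S}, Ext Δ n D → TyF P D X (sort s) →
    TyF P D (bwd n X) (sort L.o)
  fwd_sub : ∀ {n m : ℕ} {σ : ℕ → Term S} (X : Term S), Base n m σ →
    sub σ (fwd n X) = fwd m (sub σ X)
  bwd_sub : ∀ {n m : ℕ} {σ : ℕ → Term S} (X : Term S), Base n m σ →
    sub σ (bwd n X) = bwd m (sub σ X)
  bwd_eq : ∀ (n : ℕ) {X Y : Term S}, BetaEq X Y → BetaEq (bwd n X) (bwd n Y)
  law : ∀ {X : Term S}, TyF P Δ X (sort L.o) → (L.Tr (bwd 0 (fwd 0 X)) ↔ L.Tr X)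

/-- closed kind of sort `β` with leaf sort `s` -/
structure LK (P : Spec S) (Δ : ℕ → Term S) (β s : S) where
  N : Term S
  N_ty : TyF P Δ N (sort β)
  inn : ℕ → Term S → Term S
  out : ℕ → Term S → Term S
  inn_ty : ∀ {n : ℕ} {D : ℕ → Term S} {K : Term S}, Ext Δ n D → TyF P D K (sort s) →
    TyF P D (inn n K) (lft n N)
  out_ty : ∀ {n : ℕ} {D : ℕ → Term S} {G : Term S}, Ext Δ n D → TyF P D G (lft n N) →
    TyF P D (out n G) (sort s)
  inn_sub : ∀ {n m : ℕ} {σ : ℕ → Term S} (K : Term S), Base n m σ →
    sub σ (inn n K) = inn m (sub σ K)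
  out_sub : ∀ {n m : ℕ} {σ : ℕ → Term S} (G : Term S), Base n m σ →
    sub σ (out n G) = out m (sub σ G)
  out_eq : ∀ (n : ℕ) {G G' : Term S}, BetaEq G G' → BetaEq (out n G) (out n G')
  out_inn : ∀ (n : ℕ) (K : Term S), BetaEq (out n (inn n K)) K

/-- kind steps from sort `r` -/
inductive Path (L : Logic P Δ) (r : S) : S → Type u
  | nil : Path L r r
  | dom {a β c s : S} (w : Path L r a) (h : P.rule a β c) (F : LK P Δ β s) (C : Cv L s) :
      Path L r c
  | cod {α b c : S} (w : Path L r b) (h : P.rule α b c) (N e : Term S)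
      (hN : TyF P Δ N (sort α)) (he : TyF P Δ e N) : Path L r c

namespace Path
variable {L : Logic P Δ} {r : S}

/-- parity of the number of domain steps -/
def odd : {t : S} → Path L r t → Bool
  | _, .nil => false
  | _, .dom w _ _ _ => !w.odd
  | _, .cod w _ _ _ _ _ => w.odd

/-- the wrapped kind -/
def Om : {t : S} → Path L r t → ℕ → Term S → Term S
  | _, .nil, _, K => K
  | _, .dom w _ F _, n, K => pi (w.Om n K) (lft (n + 1) F.N)
  | _, .cod w _ N _ _ _, n, K => pi (lft n N) (wk (w.Om n K))

end Path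

/-! ### data -/

/-- weakening of data: `true` = formula data (one more variable), `false` = term data -/
def dwk (b : Bool) (a : Term S) : Term S := cond b (ren (up Nat.succ) a) (wk a)

def dsub (b : Bool) (σ : ℕ → Term S) (a : Term S) : Term S := cond b (sub (ups σ) a) (sub σ a)

/-- the value of the interaction of two data -/
def pair (b : Bool) (a c : Term S) : Term S := cond b (inst c a) (inst a c)

@[simp] theorem dwk_true (a : Term S) : dwk true a = ren (up Nat.succ) a := rfl
@[simp] theorem dwk_false (a : Term S) : dwk false a = wk a := rfl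
@[simp] theorem dsub_true (σ : ℕ → Term S) (a : Term S) : dsub true σ a = sub (ups σ) a := rfl
@[simp] theorem dsub_false (σ : ℕ → Term S) (a : Term S) : dsub false σ a = sub σ a := rfl
@[simp] theorem pair_true (a c : Term S) : pair true a c = inst c a := rfl
@[simp] theorem pair_false (a c : Term S) : pair false a c = inst a c := rfl

theorem pair_not (b : Bool) (a c : Term S) : pair (!b) a c = pair b c a := by cases b <;> rfl

theorem up_succ_sub (σ : ℕ → Term S) (a : Term S) :
    sub (ups (ups σ)) (ren (up Nat.succ) a) = ren (up Nat.succ) (sub (ups σ) a) := by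
  rw [sub_ren, ren_sub]
  congr 1
  funext i
  cases i with
  | zero => rfl
  | succ i =>
      show wk (wk (σ i)) = ren (up Nat.succ) (wk (σ i))
      rw [ren_up_wk]

theorem dsub_dwk (b : Bool) (σ : ℕ → Term S) (a : Term S) :
    dsub b (ups σ) (dwk b a) = dwk b (dsub b σ a) := by
  cases b with
  | true => exact up_succ_sub σ a
  | false => exact sub_wk σ a

theorem inst_up_succ (N a : Term S) :
    sub (ups (scons N var)) (ren (up Nat.succ) a) = a := by
  rw [sub_ren]
  conv_rhs => rw [← sub_id a]
  congr 1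
  funext i
  cases i with
  | zero => rfl
  | succ i => rfl

theorem dsub_inst_dwk (b : Bool) (N a : Term S) : dsub b (scons N var) (dwk b a) = a := by
  cases b with
  | true => exact inst_up_succ N a
  | false => exact inst_wk N a

theorem dwk_sub (b : Bool) (a : Term S) : dwk b a = dsub b (fun i => var (Nat.succ i)) a := by
  cases b with
  | true => simp only [dwk_true, dsub_true]; rw [ren_eq_sub, ups_ren]
  | false => exact wk_sub a

/-- typing of data -/
def DOk (L : Logic P Δ) (b : Bool) (D : ℕ → Term S) (K a : Term S) : Prop :=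
  cond b (TyF P (fcons K D) a (sort L.o)) (TyF P D a K)

theorem DOk.true {L : Logic P Δ} {D : ℕ → Term S} {K a : Term S} :
    DOk L true D K a ↔ TyF P (fcons K D) a (sort L.o) := Iff.rfl

theorem DOk.false {L : Logic P Δ} {D : ℕ → Term S} {K a : Term S} :
    DOk L false D K a ↔ TyF P D a K := Iff.rfl

theorem DOk.wk {L : Logic P Δ} {b : Bool} {D : ℕ → Term S} {K a : Term S} (h : DOk L b D K a)
    (A : Term S) : DOk L b (fcons A D) (Sub452.wk K) (dwk b a) := by
  cases b with
  | true => exact tyf_ren (A := sort L.o) h ((RenF.wk D A).up K)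
  | false => exact tyf_wk (show TyF P D a K from h) A

theorem DOk.pair {L : Logic P Δ} {b : Bool} {D : ℕ → Term S} {K a c : Term S} (h : DOk L b D K a)
    (h' : DOk L (!b) D K c) : TyF P D (Tw987.pair b a c) (sort L.o) := by
  cases b with
  | true => exact tyf_inst' (B := sort L.o) h h'
  | false => exact tyf_inst' (B := sort L.o) h' h

/-! ### comprehension and test -/

namespace Path
variable {L : Logic P Δ} {r : S}

/-- `(comp, test)` -/
def ct : {t : S} → Path L r t →
    (ℕ → Term S → Term S → Term S) × (ℕ → Term S → Term S → Term S → Term S)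
  | _, .nil => (fun _ _ a => a, fun _ _ G b => inst G b)
  | _, .dom w _ F C =>
      (fun n K a => lam (w.Om n K) (F.inn (n + 1) (C.fwd (n + 1)
        (w.ct.2 (n + 1) (wk K) (var 0) (dwk (!w.odd) a)))),
       fun n K G b => C.bwd n (F.out n (app G (w.ct.1 n K b))))
  | _, .cod w _ N e _ _ =>
      (fun n K a => lam (lft n N) (w.ct.1 (n + 1) (wk K) (dwk w.odd a)),
       fun n K G b => w.ct.2 n K (app G (lft n e)) b)

def comp {t : S} (w : Path L r t) : ℕ → Term S → Term S → Term S := w.ct.1
def test {t : S} (w : Path L r t) : ℕ → Term S → Term S → Term S → Term S := w.ct.2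

section eqs
variable {a β c s b α : S}

@[simp] theorem odd_nil : (nil : Path L r r).odd = false := rfl
@[simp] theorem odd_dom (w : Path L r a) (h : P.rule a β c) (F : LK P Δ β s) (C : Cv L s) :
    (dom w h F C).odd = !w.odd := rfl
@[simp] theorem odd_cod (w : Path L r b) (h : P.rule α b c) (N e : Term S)
    (hN : TyF P Δ N (sort α)) (he : TyF P Δ e N) : (cod w h N e hN he).odd = w.odd := rfl

theorem Om_nil (n : ℕ) (K : Term S) : (nil : Path L r r).Om n K = K := rfl
theorem Om_dom (w : Path L r a) (h : P.rule a β c) (F : LK P Δ β s) (C : Cv L s) (n : ℕ)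
    (K : Term S) : (dom w h F C).Om n K = pi (w.Om n K) (lft (n + 1) F.N) := rfl
theorem Om_cod (w : Path L r b) (h : P.rule α b c) (N e : Term S)
    (hN : TyF P Δ N (sort α)) (he : TyF P Δ e N) (n : ℕ) (K : Term S) :
    (cod w h N e hN he).Om n K = pi (lft n N) (wk (w.Om n K)) := rfl

theorem comp_nil (n : ℕ) (K x : Term S) : (nil : Path L r r).comp n K x = x := rfl
theorem comp_dom (w : Path L r a) (h : P.rule a β c) (F : LK P Δ β s) (C : Cv L s) (n : ℕ)
    (K x : Term S) : (dom w h F C).comp n K x = lam (w.Om n K) (F.inn (n + 1) (C.fwd (n + 1)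
        (w.test (n + 1) (wk K) (var 0) (dwk (!w.odd) x)))) := rfl
theorem comp_cod (w : Path L r b) (h : P.rule α b c) (N e : Term S)
    (hN : TyF P Δ N (sort α)) (he : TyF P Δ e N) (n : ℕ) (K x : Term S) :
    (cod w h N e hN he).comp n K x = lam (lft n N) (w.comp (n + 1) (wk K) (dwk w.odd x)) := rfl

theorem test_nil (n : ℕ) (K G x : Term S) : (nil : Path L r r).test n K G x = inst G x := rfl
theorem test_dom (w : Path L r a) (h : P.rule a β c) (F : LK P Δ β s) (C : Cv L s) (n : ℕ)
    (K G x : Term S) : (dom w h F C).test n K G x =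
      C.bwd n (F.out n (app G (w.comp n K x))) := rfl
theorem test_cod (w : Path L r b) (h : P.rule α b c) (N e : Term S)
    (hN : TyF P Δ N (sort α)) (he : TyF P Δ e N) (n : ℕ) (K G x : Term S) :
    (cod w h N e hN he).test n K G x = w.test n K (app G (lft n e)) x := rfl

end eqs

/-! #### commutation with substitutions -/

theorem Om_sub {t : S} (w : Path L r t) : ∀ {n m : ℕ} {σ : ℕ → Term S} (_ : Base n m σ)
    (K : Term S), sub σ (w.Om n K) = w.Om m (sub σ K) := by
  induction w with
  | nil => intro n m σ h K; rfl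
  | dom w _ F C ih =>
      intro n m σ h K
      rw [Om_dom, Om_dom, sub_pi, ih h, h.ups.lft]
  | cod w _ N e _ _ ih =>
      intro n m σ h K
      rw [Om_cod, Om_cod, sub_pi, h.lft, sub_wk, ih h]

theorem ct_sub {t : S} (w : Path L r t) : ∀ {n m : ℕ} {σ : ℕ → Term S} (_ : Base n m σ)
    (K : Term S), (∀ a, sub σ (w.comp n K a) = w.comp m (sub σ K) (dsub w.odd σ a)) ∧
      (∀ G b, sub σ (w.test n K G b) = w.test m (sub σ K) (sub σ G) (dsub (!w.odd) σ b)) := by
  induction w with
  | nil =>
      intro n m σ h K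
      refine ⟨fun a => rfl, fun G b => ?_⟩
      rw [test_nil, test_nil, sub_inst]
      rfl
  | dom w _ F C ih =>
      intro n m σ h K
      refine ⟨fun a => ?_, fun G b => ?_⟩
      · rw [comp_dom, comp_dom, sub_lam, Om_sub w h, F.inn_sub _ h.ups, C.fwd_sub _ h.ups,
          (ih h.ups _).2, sub_wk, odd_dom, dsub_dwk]
        rfl
      · rw [test_dom, test_dom, C.bwd_sub _ h, F.out_sub _ h, sub_app, (ih h _).1, odd_dom,
          Bool.not_not]
  | cod w _ N e _ _ ih =>
      intro n m σ h K
      refine ⟨fun a => ?_, fun G b => ?_⟩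
      · rw [comp_cod, comp_cod, sub_lam, h.lft, (ih h.ups _).1, sub_wk, odd_cod, dsub_dwk]
      · rw [test_cod, test_cod, (ih h _).2, sub_app, h.lft, odd_cod]

theorem comp_sub {t : S} (w : Path L r t) {n m : ℕ} {σ : ℕ → Term S} (h : Base n m σ)
    (K a : Term S) : sub σ (w.comp n K a) = w.comp m (sub σ K) (dsub w.odd σ a) :=
  (ct_sub w h K).1 a

theorem test_sub {t : S} (w : Path L r t) {n m : ℕ} {σ : ℕ → Term S} (h : Base n m σ)
    (K G b : Term S) :
    sub σ (w.test n K G b) = w.test m (sub σ K) (sub σ G) (dsub (!w.odd) σ b) :=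
  (ct_sub w h K).2 G b

theorem Om_wk {t : S} (w : Path L r t) (n : ℕ) (K : Term S) :
    wk (w.Om n K) = w.Om (n + 1) (wk K) := by
  rw [wk_sub, wk_sub, Om_sub w (Base.succ n)]

theorem comp_wk {t : S} (w : Path L r t) (n : ℕ) (K a : Term S) :
    wk (w.comp n K a) = w.comp (n + 1) (wk K) (dwk w.odd a) := by
  rw [wk_sub, wk_sub, dwk_sub, comp_sub w (Base.succ n)]

theorem test_wk {t : S} (w : Path L r t) (n : ℕ) (K G b : Term S) :
    wk (w.test n K G b) = w.test (n + 1) (wk K) (wk G) (dwk (!w.odd) b) := by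
  rw [wk_sub, wk_sub, wk_sub, dwk_sub, test_sub w (Base.succ n)]

theorem Om_inst {t : S} (w : Path L r t) (n : ℕ) (N K : Term S) :
    inst N (w.Om (n + 1) K) = w.Om n (inst N K) := Om_sub w (Base.inst n N) K

theorem comp_inst {t : S} (w : Path L r t) (n : ℕ) (N K a : Term S) :
    inst N (w.comp (n + 1) K a) = w.comp n (inst N K) (dsub w.odd (scons N var) a) :=
  comp_sub w (Base.inst n N) K a

theorem test_inst {t : S} (w : Path L r t) (n : ℕ) (N K G b : Term S) :
    inst N (w.test (n + 1) K G b) =
      w.test n (inst N K) (inst N G) (dsub (!w.odd) (scons N var) b) :=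
  test_sub w (Base.inst n N) K G b

/-! #### typing -/

theorem Om_ty {t : S} (w : Path L r t) : ∀ {n : ℕ} {D : ℕ → Term S} {K : Term S}, Ext Δ n D →
    TyF P D K (sort r) → TyF P D (w.Om n K) (sort t) := by
  induction w with
  | nil => intro n D K _ h; exact h
  | dom w hr F C ih =>
      intro n D K hD h
      exact .prod (ih hD h) ((hD.cons _).ty F.N_ty) hr
  | cod w hr N e hN _ ih =>
      intro n D K hD h
      exact .prod (hD.ty hN) (tyf_wk (ih hD h) _) hr

theorem ct_ty {t : S} (w : Path L r t) : ∀ {n : ℕ} {D : ℕ → Term S} {K : Term S}, Ext Δ n D →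
    TyF P D K (sort r) →
    (∀ {a : Term S}, DOk L w.odd D K a → TyF P D (w.comp n K a) (w.Om n K)) ∧
    (∀ {G b : Term S}, TyF P D G (w.Om n K) → DOk L (!w.odd) D K b →
      TyF P D (w.test n K G b) (sort L.o)) := by
  induction w with
  | nil =>
      intro n D K _ h
      refine ⟨fun ha => ha, fun hG hb => ?_⟩
      rw [test_nil]
      exact tyf_inst' (B := sort L.o) hb hG
  | dom w hr F C ih =>
      intro n D K hD h
      have hO := Om_ty w hD h
      refine ⟨fun ha => ?_, fun hG hb => ?_⟩
      · rw [comp_dom, Om_dom]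
        refine .abs ?_ (Om_ty (dom w hr F C) hD h)
        have hD' := hD.cons (w.Om n K)
        refine F.inn_ty hD' (C.fwd_ty hD' ?_)
        refine (ih hD' (tyf_wk h _)).2 ?_ (DOk.wk ha _)
        rw [← Om_wk]
        exact TyF.var (D := fcons (w.Om n K) D) (i := 0) (tyf_wk hO _)
      · rw [test_dom]
        refine C.bwd_ty hD (F.out_ty hD ?_)
        rw [odd_dom, Bool.not_not] at hb
        have := TyF.appl hG ((ih hD h).1 hb)
        rwa [← wk_lft, inst_wk] at this
  | cod w hr N e hN he ih =>
      intro n D K hD h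
      have hO := Om_ty w hD h
      refine ⟨fun ha => ?_, fun hG hb => ?_⟩
      · rw [comp_cod, Om_cod]
        refine .abs ?_ (Om_ty (cod w hr N e hN he) hD h)
        rw [Om_wk]
        exact (ih (hD.cons _) (tyf_wk h _)).1 (DOk.wk ha _)
      · rw [test_cod]
        refine (ih hD h).2 ?_ hb
        have := TyF.appl hG (hD.ty he)
        rwa [inst_wk] at this

theorem comp_ty {t : S} (w : Path L r t) {n : ℕ} {D : ℕ → Term S} {K a : Term S}
    (hD : Ext Δ n D) (hK : TyF P D K (sort r)) (ha : DOk L w.odd D K a) :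
    TyF P D (w.comp n K a) (w.Om n K) := (ct_ty w hD hK).1 ha

theorem test_ty {t : S} (w : Path L r t) {n : ℕ} {D : ℕ → Term S} {K G b : Term S}
    (hD : Ext Δ n D) (hK : TyF P D K (sort r)) (hG : TyF P D G (w.Om n K))
    (hb : DOk L (!w.odd) D K b) : TyF P D (w.test n K G b) (sort L.o) := (ct_ty w hD hK).2 hG hb

/-! #### beta -/

theorem test_eq {t : S} (w : Path L r t) : ∀ (n : ℕ) (K : Term S) {G G' : Term S} (b : Term S),
    BetaEq G G' → BetaEq (w.test n K G b) (w.test n K G' b) := by
  induction w with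
  | nil => intro n K G G' b h; exact BetaEq.inst h (.refl _)
  | dom w hr F C ih =>
      intro n K G G' b h
      rw [test_dom, test_dom]
      exact C.bwd_eq n (F.out_eq n (BetaEq.app h (.refl _)))
  | cod w hr N e hN he ih =>
      intro n K G G' b h
      rw [test_cod, test_cod]
      exact ih n K b (BetaEq.app h (.refl _))

/-- **the law** -/
theorem law {t : S} (w : Path L r t) : ∀ {K a b : Term S}, TyF P Δ K (sort r) →
    DOk L w.odd Δ K a → DOk L (!w.odd) Δ K b →
    (L.Tr (w.test 0 K (w.comp 0 K a) b) ↔ L.Tr (pair w.odd a b)) := by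
  have z := Ext.zero Δ
  induction w with
  | nil => intro K a b _ _ _; exact Iff.rfl
  | @dom a' β c s w hr F C ih =>
      intro K a b hK ha hb
      have hb' : DOk L w.odd Δ K b := by
        have := hb
        rwa [odd_dom, Bool.not_not] at this
      have ha' : DOk L (!w.odd) Δ K a := ha
      have h0 := test_ty w z hK (comp_ty w z hK hb') ha'
      have e : BetaEq ((dom w hr F C).test 0 K ((dom w hr F C).comp 0 K a) b)
          (C.bwd 0 (C.fwd 0 (w.test 0 K (w.comp 0 K b) a))) := by
        rw [test_dom, comp_dom]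
        refine C.bwd_eq 0 ?_
        refine BetaEq.trans (F.out_eq 0 ?_) (F.out_inn 0 _)
        refine BetaEq.trans (.rel _ _ (beta_redex _ _ _)) ?_
        show BetaEq (sub (scons (w.comp 0 K b) var) (F.inn 1 (C.fwd 1
          (w.test 1 (wk K) (var 0) (dwk (!w.odd) a))))) _
        rw [F.inn_sub _ (Base.inst 0 _), C.fwd_sub _ (Base.inst 0 _), test_sub w (Base.inst 0 _),
          dsub_inst_dwk]
        show BetaEq (F.inn 0 (C.fwd 0 (w.test 0 (inst (w.comp 0 K b) (wk K)) _ _))) _
        rw [inst_wk]
        exact .refl _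
      rw [L.conv (test_ty (dom w hr F C) z hK (comp_ty (dom w hr F C) z hK ha) hb)
        (C.bwd_ty z (C.fwd_ty z h0)) e, C.law h0, ih hK hb' ha', odd_dom, pair_not]
  | cod w hr N e hN he ih =>
      intro K a b hK ha hb
      have h0 := test_ty w z hK (comp_ty w z hK ha) hb
      have e' : BetaEq ((cod w hr N e hN he).test 0 K ((cod w hr N e hN he).comp 0 K a) b)
          (w.test 0 K (w.comp 0 K a) b) := by
        rw [test_cod, comp_cod]
        refine test_eq w 0 K b ?_
        refine BetaEq.trans (.rel _ _ (beta_redex _ _ _)) ?_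
        rw [comp_inst, dsub_inst_dwk, inst_wk]
        exact .refl _
      rw [L.conv (test_ty (cod w hr N e hN he) z hK (comp_ty (cod w hr N e hN he) z hK ha) hb)
        h0 e', ih hK ha hb, odd_cod]

/-! #### composition of paths -/

/-- `w'` after `w` -/
def append {t : S} (w : Path L r t) : {t' : S} → Path L t t' → Path L r t'
  | _, .nil => w
  | _, .dom w' h F C => .dom (w.append w') h F C
  | _, .cod w' h N e hN he => .cod (w.append w') h N e hN he

theorem append_odd {t : S} (w : Path L r t) {t' : S} (w' : Path L t t') :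
    (w.append w').odd = xor w.odd w'.odd := by
  induction w' with
  | nil => simp [append]
  | dom w' h F C ih => simp [append, ih]
  | cod w' h N e hN he ih => simp [append, ih]

theorem append_Om {t : S} (w : Path L r t) {t' : S} (w' : Path L t t') (n : ℕ) (K : Term S) :
    (w.append w').Om n K = w'.Om n (w.Om n K) := by
  induction w' with
  | nil => rfl
  | dom w' h F C ih => rw [append, Om_dom, Om_dom, ih]
  | cod w' h N e hN he ih => rw [append, Om_cod, Om_cod, ih]

theorem Om_eq {t : S} (w : Path L r t) (n : ℕ) {K K' : Term S} (h : BetaEq K K') :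
    BetaEq (w.Om n K) (w.Om n K') := by
  induction w with
  | nil => exact h
  | dom w hr F C ih => exact BetaEq.pi ih (.refl _)
  | cod w hr N e hN he ih => exact BetaEq.pi (.refl _) (BetaEq.ren ih _)

end Path

end Crest.Agent.R298.Tw987
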