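import Crest.Agent.R298.FatW_95
import Crest.Agent.R298.Tw1_987

/-!
R298 (S0452), helper95: kinds with a leaf (`LK`), paths (`Path`) of 987 from the sort-level data
(`HS`, `RelS`, `Op`) of 113, and the whole record consumed by the tower from `FatW`.
-/

set_option autoImplicit false

namespace Crest.Agent.R298.FatI95

open Crest.LogicCS.PTS Crest.LogicCS.PTS.Term Relation
open Crest.Agent.R298.Sub452 Crest.Agent.R298.Par452 Crest.Agent.R298.Ty452
open Crest.Agent.R298.TyF452 Crest.Agent.R298.Tw987 Crest.Agent.R298.Fl113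
open Crest.Agent.R298.Scc795

universe u
variable {S : Type u} {P : Spec S} {Δ : ℕ → Term S}

/-! ### closed kinds with a leaf -/

theorem lft_wk (n : ℕ) (N : Term S) : ren (up (fun i => i + n)) (wk N) = lft (n + 1) N := by
  rw [ren_up_wk]
  exact wk_lft n N

/-- the sort itself -/
def LK.base {s t : S} (h : P.ax s t) : LK P Δ t s where
  N := sort s
  N_ty := .ax h
  inn _ K := K
  out _ G := G
  inn_ty _ h := h
  out_ty _ h := h
  inn_sub _ _ := rfl
  out_sub _ _ := rfl
  out_eq _ _ _ h := h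
  out_inn _ _ := .refl _

/-- one more (inert, inhabited) closed domain -/
def LK.up {s x y z : S} (F : LK P Δ y s) (h : P.rule x y z) {E e : Term S}
    (hE : TyF P Δ E (sort x)) (he : TyF P Δ e E) : LK P Δ z s where
  N := pi E (wk F.N)
  N_ty := .prod hE (tyf_wk F.N_ty E) h
  inn n K := lam (lft n E) (F.inn (n + 1) (wk K))
  out n G := F.out n (app G (lft n e))
  inn_ty := by
    intro n D K hD hK
    have e1 : lft n (pi E (wk F.N)) = pi (lft n E) (lft (n + 1) F.N) := by
      rw [← lft_wk]; rfl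
    have hN : TyF P D (pi (lft n E) (lft (n + 1) F.N)) (sort z) := by
      rw [← e1]
      exact hD.ty (P := P) (A := sort z) (.prod hE (tyf_wk F.N_ty E) h)
    rw [e1]
    exact .abs (F.inn_ty (hD.cons _) (tyf_wk hK _)) hN
  out_ty := by
    intro n D G hD hG
    have e1 : lft n (pi E (wk F.N)) = pi (lft n E) (lft (n + 1) F.N) := by
      rw [← lft_wk]; rfl
    rw [e1] at hG
    refine F.out_ty hD ?_
    have := TyF.appl hG (hD.ty he)
    rwa [← wk_lft, inst_wk] at this
  inn_sub := by
    intro n m σ K hσ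
    rw [sub_lam, hσ.lft, F.inn_sub _ hσ.ups, sub_wk]
  out_sub := by
    intro n m σ G hσ
    rw [F.out_sub _ hσ, sub_app, hσ.lft]
  out_eq := by
    intro n G G' hG
    exact F.out_eq n (BetaEq.app hG (.refl _))
  out_inn := by
    intro n K
    refine BetaEq.trans (F.out_eq n ?_) (F.out_inn n K)
    refine BetaEq.trans (.rel _ _ (beta_redex _ _ _)) ?_
    have e1 : inst (lft n e) (F.inn (n + 1) (wk K)) = F.inn n K := by
      rw [show inst (lft n e) (F.inn (n + 1) (wk K)) =
        F.inn n (inst (lft n e) (wk K)) from F.inn_sub _ (Base.inst n _), inst_wk]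
    rw [e1]
    exact .refl _

/-- closed inhabited types of all rule sorts -/
def Atoms (P : Spec S) (Δ : ℕ → Term S) : Prop :=
  ∀ a ∈ RS P, ∃ E e, TyF P Δ E (sort a) ∧ TyF P Δ e E

theorem rs_dom {a b c : S} (h : P.rule a b c) : a ∈ RS P := ⟨a, b, c, h, Or.inl rfl⟩

theorem exists_lk (hA : Atoms P Δ) {s t : S} (h : HS P s t) : Nonempty (LK P Δ t s) := by
  induction h with
  | base h => exact ⟨LK.base h⟩
  | up r _ ih =>
      obtain ⟨F⟩ := ih
      obtain ⟨E, e, hE, he⟩ := hA _ (rs_dom r)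
      exact ⟨LK.up F r hE he⟩

variable {L : Logic P Δ} {D : Set S}

/-- extension of a path by an upward walk -/
theorem extend (hA : Atoms P Δ) (hC : ∀ s ∈ D, Nonempty (Cv L s)) {x y : S} {e : Bool}
    (h : Op P D e x y) : ∀ {r : S} (w : Path L r x), ∃ w' : Path L r y, w'.odd = xor w.odd (!e) := by
  induction h with
  | nil x => intro r w; exact ⟨w, by simp⟩
  | cod hr _ ih =>
      intro r w
      obtain ⟨E, e, hE, he⟩ := hA _ (rs_dom hr)
      obtain ⟨w', h'⟩ := ih (Path.cod w hr E e hE he)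
      exact ⟨w', by simpa using h'⟩
  | @dom x b y z e hr hb _ ih =>
      intro r w
      obtain ⟨s, hs, hb⟩ := relS_iff.1 hb
      obtain ⟨F⟩ := exists_lk hA hb
      obtain ⟨C⟩ := hC s hs
      obtain ⟨w', h'⟩ := ih (Path.dom w hr F C)
      refine ⟨w', ?_⟩
      rw [h', Path.odd_dom]
      cases w.odd <;> cases e <;> rfl

/-- **paths from upward walks** -/
theorem exists_path (hA : Atoms P Δ) (hC : ∀ s ∈ D, Nonempty (Cv L s)) {x y : S} {e : Bool}
    (h : Op P D e x y) : ∃ w : Path L x y, w.odd = !e := by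
  obtain ⟨w, hw⟩ := extend hA hC h (Path.nil (L := L) (r := x))
  exact ⟨w, by simpa using hw⟩

/-- **the record of the tower** (987's `Fat`) as an existence statement -/
theorem exists_data (hA : Atoms P Δ) (hC : ∀ s ∈ D, Nonempty (Cv L s)) (h : FatW P D) :
    ∃ (u au b c y db dy : S) (_ : LK P Δ au u) (_ : P.rule au b c)
      (al : Path L u b) (xi : Path L c u) (p : Path L b y) (q : Path L y b)
      (hb : Path L b db) (hy : Path L y dy),
      al.odd = xi.odd ∧ p.odd = true ∧ q.odd = true ∧ hb.odd = true ∧ hy.odd = true ∧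
      Bd P D db ∧ Bd P D dy := by
  obtain ⟨u, a, b, c, y, db, dy, e, r, hs, al, xi, p, q, hb, bdb, hy, bdy⟩ := FatW95.tower h
  obtain ⟨F⟩ := exists_lk hA hs
  obtain ⟨al', h1⟩ := exists_path (L := L) hA hC al
  obtain ⟨xi', h2⟩ := exists_path (L := L) hA hC xi
  obtain ⟨p', h3⟩ := exists_path (L := L) hA hC p
  obtain ⟨q', h4⟩ := exists_path (L := L) hA hC q
  obtain ⟨hb', h5⟩ := exists_path (L := L) hA hC hb
  obtain ⟨hy', h6⟩ := exists_path (L := L) hA hC hy
  exact ⟨u, a, b, c, y, db, dy, F, r, al', xi', p', q', hb', hy', by rw [h1, h2], h3, h4, h5, h6,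
    bdb, bdy⟩

end Crest.Agent.R298.FatI95
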