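import Crest.Agent.R298.MainF_865
import Crest.Agent.R298.WorldF_657
import Crest.Agent.R298.Fl1_113

/-!
R298 (S0452), helper865: MASTER ASSEMBLY over ONE WORLD.

The stages are needed at one world `D₀` (helper657's `World657.World`) only
(`WNiAt P idx i D₀`): a typed term is renamed into `D₀` once, at the start, and `SN` is reflected
by renamings.

Official blocks: `BlockAW`, `BlockTW FatP`, `BlockP FatP` with `FatP n P D := Fl113.Fat P D`;
`s0452_of_official` is the frozen statement from these three Props.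
-/

set_option autoImplicit false

namespace Crest.Agent.R298.Main865

open Crest.LogicCS.PTS Relation
open Crest.Agent.R298.Sub452 Crest.Agent.R298.Par452 Crest.Agent.R298.Ty452
open Crest.Agent.R298.Mem360 Crest.Agent.R298.TyF452 Crest.Agent.R298.TyMF452
open Crest.Agent.R298.Scc795 Crest.Agent.R298.World657
open Crest.Agent.R298.Mem360.MT (er emb er_emb IsL isL_of_dist dist)

universe u

variable {S : Type u}

/-- **stage `i` at the function context `D`** -/
def WNiAt (P : Spec S) (idx : S → ℕ) (i : ℕ) (D : ℕ → Term S) : Prop :=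
  ∀ (M : MT S) (A : Term S), TMF P D M A → NFF P idx i D M →
    ∃ M', MRed M M' ∧ NFF P idx (i + 1) D M'

/-- assembly of the stages at one good function context -/
theorem assemblyAt {P : Spec S} {idx : S → ℕ} {N : ℕ} (hi : IsIdx P idx N) {D : ℕ → Term S}
    (g : Good P D) (h : ∀ i, 0 < i → WNiAt P idx i D) {M : MT S} {A : Term S}
    (hM : TMF P D M A) : MWN M := by
  have key : ∀ k, ∃ M', MRed M M' ∧ NFF P idx (k + 1) D M' := by
    intro k
    induction k with
    | zero => exact ⟨M, .refl, NFF.one hi hM g.wf⟩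
    | succ k ih =>
        obtain ⟨M', hr, hn⟩ := ih
        obtain ⟨M'', hr', hn'⟩ := h (k + 1) (Nat.succ_pos k) M' A (tmf_SR g.wf hM hr) hn
        exact ⟨M'', hr.trans hr', hn'⟩
  obtain ⟨M', hr, hn⟩ := key N
  exact ⟨M', hr, fun K hK => NFF.normal hi.le hK hn⟩

theorem WNiF.at {P : Spec S} {idx : S → ℕ} {i : ℕ} (h : WNiF P idx i) {D : ℕ → Term S}
    (g : Good P D) : WNiAt P idx i D := fun M A hM hn => h D M A g hM hn

/-- strong normalisation is reflected by renamings -/
theorem sn_of_ren {M : Term S} {ρ : ℕ → ℕ} (h : SN (ren ρ M)) : SN M := by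
  rintro ⟨f, h0, hf⟩
  exact h ⟨fun n => ren ρ (f n), congrArg (ren ρ) h0, fun n => Beta.ren (hf n) ρ⟩

/-! ### the blocks -/

/-- block (a) at a world -/
def BlockAW : Prop := ∀ (n : ℕ) (P : Spec (Fin n)) (idx : Fin n → ℕ) (N : ℕ), Std P →
  IsIdx P idx N → ∀ D, World P D → ∀ i, 0 < i →
    (Unary P (Lvl idx i) ∨ Even P (Lvl idx i)) → WNiAt P idx i D

/-- block (T) at a world -/
def BlockTW (Fat : FatPred) : Prop := ∀ (n : ℕ) (P : Spec (Fin n)) (idx : Fin n → ℕ) (N : ℕ),
  Std P → IsIdx P idx N → ∀ D, World P D → ∀ i, 0 < i → ¬ Fat n P (Lvl idx i) →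
    WNiAt P idx i D

theorem BlockAF.w (h : BlockAF) : BlockAW :=
  fun n P idx N hS hi _ w i h0 hu => (h n P idx N hS hi i h0 hu).at w.good

theorem BlockTF.w {Fat : FatPred} (h : BlockTF Fat) : BlockTW Fat :=
  fun n P idx N hS hi _ w i h0 hu => (h n P idx N hS hi i h0 hu).at w.good

theorem sn_of_blocksW (Fat : FatPred) (hA : BlockAW) (hT : BlockTW Fat)
    (hP : BlockP Fat) (n : ℕ) (P : Spec (Fin n)) (hS : Std P) (Γ : List (Term (Fin n)))
    (M : Term (Fin n)) (hM : Legal P Γ M) : SN M := by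
  obtain ⟨idx, N, h1, h2, h3, h4⟩ := exists_idx (P := P)
    ⟨Set.toFinite _, Set.toFinite _⟩
  have hi : IsIdx P idx N := ⟨h1, h2, h3, h4⟩
  have typed_sn : ∀ {K A : Term (Fin n)}, Typed P Γ K A → SN K := by
    intro K A hK
    obtain ⟨D, w⟩ := exists_world P (typed_exists_ax hK)
    have hst : ∀ i, 0 < i → WNiAt P idx i D := by
      intro i hpos
      rcases trichotomy P (Lvl idx i) with h | h | h
      · exact hA n P idx N hS hi D w i hpos (Or.inl h)
      · exact hA n P idx N hS hi D w i hpos (Or.inr h)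
      · exact hT n P idx N hS hi D w i hpos (fun hf => hP n P _ hS (hi.isScc hpos) h hf)
    obtain ⟨ρ, -, hρ⟩ := w.embed (twf hK)
    exact sn_of_ren (sn_of_wn_emb (assemblyAt hi w.good hst (tmf_emb (typed_tyf hK hρ))))
  obtain ⟨K, h | h⟩ := hM
  · exact typed_sn h
  · rcases type_correct h with ⟨s, e⟩ | ⟨s, hs⟩
    · rintro ⟨f, hf0, hf⟩
      have h0 := hf 0
      rw [hf0, e] at h0
      cases h0
    · exact typed_sn hs

/-- **S0452 from the blocks**, one world form. -/
theorem s0452_ofW (Fat : FatPred) (hA : BlockAW) (hT : BlockTW Fat)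
    (hP : BlockP Fat) (T : Type u) (P : Spec T)
    (h : ∀ (Γ : List (Term T)) (M : Term T), Legal P Γ M → WN M) (Γ : List (Term T))
    (M : Term T) (hM : Legal P Γ M) : SN M :=
  Real582.s0452_of_fin_realized
    (fun n P₀ hr hw Γ₀ M₀ hM₀ => sn_of_blocksW Fat hA hT hP n P₀ ⟨hr, hw⟩ Γ₀ M₀ hM₀)
    T P h Γ M hM

/-! ### official form: helper113's fat configuration -/

/-- the official interface between the semantic block and the paradox block -/
def FatP : FatPred := fun _ P D => Fl113.Fat P D

/-- block (P) in walk form (what the paradox side proves) -/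
def BlockPW : Prop := ∀ (n : ℕ) (P : Spec (Fin n)) (D : Set (Fin n)), Std P →
  IsScc P D → Bipolar P D → Fl113.FatW P D → False

theorem BlockPW.p (h : BlockPW) : BlockP FatP :=
  fun n P D hS hD hB hF => h n P D hS hD hB (Fl113.Fat.walks hF)

/-- **S0452 from the three official blocks.** -/
theorem s0452_of_official (hA : BlockAW) (hT : BlockTW FatP) (hP : BlockPW) (T : Type u)
    (P : Spec T) (h : ∀ (Γ : List (Term T)) (M : Term T), Legal P Γ M → WN M)
    (Γ : List (Term T)) (M : Term T) (hM : Legal P Γ M) : SN M :=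
  s0452_ofW FatP hA hT hP.p T P h Γ M hM

end Crest.Agent.R298.Main865
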