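import Crest.Agent.R298.HenB_705
import Crest.Agent.R298.BlkP_525
import Crest.Agent.R298.BaseF_734
import Crest.Agent.R298.FatI_95
import Crest.Agent.R298.MainW_865

/-!
R298 (S0452), part P, helper705: assembly of block (P) from the tower theorem.
-/

set_option autoImplicit false

namespace Crest.Agent.R298.BlkQ705

open Crest.LogicCS.PTS Crest.LogicCS.PTS.Term
open Crest.Agent.R298.Sub452 Crest.Agent.R298.TyF452 Crest.Agent.R298.Scc795
open Crest.Agent.R298.Tw987

/-- the tower theorem -/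
def Tower : Prop := ∀ (S : Type) (P : Spec S) (Δ : ℕ → Term S) (L : Logic P Δ)
  (u au b c y db dy : S) (_ : LK P Δ au u) (_ : P.rule au b c)
  (al : Path L u b) (xi : Path L c u) (p : Path L b y) (q : Path L y b)
  (hb : Path L b db) (hy : Path L y dy),
  al.odd = xi.odd → p.odd = true → q.odd = true → hb.odd = true → hy.odd = true →
  L.Bd db → L.Bd dy → False

theorem atoms {S : Type} {P : Spec S} {Dd : Set S} {R E e : S → Term S} {Δ : ℕ → Term S}
    (H : LInst705.HenT P Dd R E e Δ) : FatI95.Atoms P Δ :=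
  fun a ha => ⟨E a, e a, H.hE a ha, H.he a ha⟩

theorem blkQ (HT : Tower) (T : Type) [Finite T] (Q : Spec T) (D : Set T) (hD : IsScc Q D)
    (hB : Bipolar Q D) (hF : Fl113.FatW Q D) (hax : ∀ s ∈ RS Q, ∃ t, Q.ax s t)
    (hwn : ∀ Γ M, Legal Q Γ M → WN M) : False := by
  obtain ⟨B, -⟩ := BaseF734.exists_base Q D hD hax hwn
  obtain ⟨a₀, b₀, c₀, r₀, ha, hb, hc⟩ := not_unary hB.1
  have := Finite.to_countable (α := T)
  obtain ⟨Δ, hΔ⟩ := Hen795.exists_henkin B ⟨a₀, hD.1 a₀ ha⟩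
  have H := HenB705.henT hΔ
  obtain ⟨u, au, b, c, y, db, dy, A, r, al, xi, p, q, pb, py, h1, h2, h3, h4, h5, h6, h7⟩ :=
    FatI95.exists_data (L := LInst705.logic H hD hB.2 r₀ ha hb hc) (atoms H)
      (fun s hs => ⟨LInst705.cv H hD hB.2 r₀ ha hb hc hs⟩) hF
  exact HT T Q Δ _ u au b c y db dy A r al xi p q pb py h1 h2 h3 h4 h5 h6 h7

/-- block (P), walk form, from the tower theorem -/
theorem blockPW_of (HT : Tower) : Main865.BlockPW := by
  intro n P D hS hD hb hf
  exact blkQ HT (Fin n ⊕ Fin n) (At734.Pp P) (PpT525.Dl D) (PpT525.isScc hD) (PpT525.bipolar hb)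
    (PpT525.fatW hf) (fun s hs => PpT525.exists_ax hS.realized hs) (At734.wn_Pp hS.wn)

end Crest.Agent.R298.BlkQ705
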