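import Crest.Agent.R298.MW_961

/-!
R298 (S0452), helper961: ABSTRACT ADEQUACY. A stage model at level `i` (structure `Stage`) gives
`WNi i`: every legal memory term all of whose redexes have class at least `i` reduces to one all
of whose redexes have class at least `i + 1`.
-/

set_option autoImplicit false

namespace Crest.Agent.R298.AA961

open Crest.LogicCS.PTS Crest.LogicCS.PTS.Term Relation
open Crest.Agent.R298.Sub452 Crest.Agent.R298.Par452 Crest.Agent.R298.Mem360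
open Crest.Agent.R298.Mem360.MT Crest.Agent.R298.Jd961 Crest.Agent.R298.Jd961.Jd
open Crest.Agent.R298.MW961

universe u v w

variable {S : Type u} {P : Spec S} {C : Type v} (J : Jd P C) (idx : S → ℕ)

/-- weak normalisation of stage `i` -/
def WNi (i : ℕ) : Prop := ∀ (G : C) (M : MT S), J.Wf G → MOk J M G → NF J idx i M G →
  W J idx (i + 1) G M

/-- a stage model at level `i`, without the identity environment -/
structure Stage0 (i : ℕ) where
  /-- environments -/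
  Env : Type w
  /-- target context -/
  tgt : Env → C
  /-- substitution -/
  sb : Env → ℕ → MT S
  /-- `Ok G ρ`: `ρ` is an environment for the source context `G` -/
  Ok : C → Env → Prop
  /-- `Ext G A ρ r ρ'`: `ρ'` extends the renaming of `ρ` by `r` by a value for a variable of
  type `A` -/
  Ext : C → Term S → Env → (ℕ → ℕ) → Env → Prop
  /-- realizers -/
  R : C → Env → Term S → MT S → Prop
  wf : ∀ {G ρ}, Ok G ρ → J.Wf (tgt ρ)
  msb : ∀ {G ρ}, Ok G ρ → MSb J (sb ρ) G (tgt ρ)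
  ext_ok : ∀ {G A ρ r ρ'}, Ok G ρ → Ext G A ρ r ρ' → Ok (J.cons A G) ρ'
  ext_ren : ∀ {G A ρ r ρ'}, Ok G ρ → Ext G A ρ r ρ' →
    Sb J (fun x => .var (r x)) (tgt ρ) (tgt ρ')
  ext_sb : ∀ {G A ρ r ρ'}, Ok G ρ → Ext G A ρ r ρ' → ∀ x, sb ρ' (x + 1) = mren r (sb ρ x)
  /-- realizers are weakly normalising -/
  R_W : ∀ {G ρ T v}, J.Wf G → Ok G ρ → TyOk J G T → Cg J idx i G T → R G ρ T v →
    W J idx (i + 1) (tgt ρ) v
  /-- neutral terms are realizers -/
  R_ne : ∀ {G ρ T v}, J.Wf G → Ok G ρ → TyOk J G T → Cg J idx i G T →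
    MOk J v (tgt ρ) → J.T (tgt ρ) (er v) (sub (fun x => er (sb ρ x)) T) →
    Ne J idx (i + 1) (tgt ρ) v → R G ρ T v
  /-- head expansion -/
  R_beta : ∀ {G ρ T F Q v}, J.Wf G → Ok G ρ → TyOk J G T → Cg J idx i G T →
    MOk J (.app F Q) (tgt ρ) →
    J.T (tgt ρ) (er (.app F Q)) (sub (fun x => er (sb ρ x)) T) →
    dist F Q = some v → R G ρ T v → R G ρ T (.app F Q)
  /-- memory -/
  R_mem : ∀ {G ρ T v n}, J.Wf G → Ok G ρ → TyOk J G T → Cg J idx i G T →
    MOk J n (tgt ρ) → W J idx (i + 1) (tgt ρ) n → R G ρ T v → R G ρ T (.mem v n)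
  /-- conversion of the type -/
  R_conv : ∀ {G ρ T T' v}, J.Wf G → Ok G ρ → TyOk J G T → TyOk J G T' → Cg J idx i G T →
    BetaEq T T' → R G ρ T v → R G ρ T' v
  /-- types which are high at run time -/
  R_high : ∀ {G ρ T v}, J.Wf G → Ok G ρ → TyOk J G T → Cg J idx i G T →
    Cg J idx (i + 1) (tgt ρ) (sub (fun x => er (sb ρ x)) T) →
    MOk J v (tgt ρ) → J.T (tgt ρ) (er v) (sub (fun x => er (sb ρ x)) T) →
    W J idx (i + 1) (tgt ρ) v → R G ρ T v
  /-- sorts -/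
  R_sort : ∀ {G ρ s v}, J.Wf G → Ok G ρ → Cg J idx i G (.sort s) →
    MOk J v (tgt ρ) → J.T (tgt ρ) (er v) (.sort s) → W J idx (i + 1) (tgt ρ) v →
    R G ρ (.sort s) v
  /-- products, introduction -/
  R_pi : ∀ {G ρ A B s v}, J.Wf G → Ok G ρ → J.T G (.pi A B) (.sort s) →
    Cg J idx i G (.pi A B) →
    ¬ Cg J idx (i + 1) (tgt ρ) (sub (fun x => er (sb ρ x)) (.pi A B)) →
    MOk J v (tgt ρ) → J.T (tgt ρ) (er v) (sub (fun x => er (sb ρ x)) (.pi A B)) →
    W J idx (i + 1) (tgt ρ) v →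
    (∀ r ρ', Ext G A ρ r ρ' → R (J.cons A G) ρ' B (.app (mren r v) (sb ρ' 0))) →
    R G ρ (.pi A B) v
  /-- products, elimination -/
  R_app : ∀ {G ρ A B s v r ρ'}, J.Wf G → Ok G ρ → J.T G (.pi A B) (.sort s) →
    Cg J idx i G (.pi A B) →
    ¬ Cg J idx (i + 1) (tgt ρ) (sub (fun x => er (sb ρ x)) (.pi A B)) →
    R G ρ (.pi A B) v → Ext G A ρ r ρ' → R (J.cons A G) ρ' B (.app (mren r v) (sb ρ' 0))
  /-- instances: the semantic content -/
  R_inst : ∀ {G ρ A B s} {N : MT S}, J.Wf G → Ok G ρ → J.T G (.pi A B) (.sort s) →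
    Cg J idx i G (.pi A B) →
    ¬ Cg J idx (i + 1) (tgt ρ) (sub (fun x => er (sb ρ x)) (.pi A B)) →
    MOk J N G → J.T G (er N) A → R G ρ A (msub (sb ρ) N) →
    ∃ ρ', Ext G A ρ (fun x => x) ρ' ∧ tgt ρ' = tgt ρ ∧ sb ρ' 0 = msub (sb ρ) N ∧
      ∀ v, MOk J v (tgt ρ) → R (J.cons A G) ρ' B v → R G ρ (inst (er N) B) v
  /-- fresh variables (the environment may depend on the term `M`) -/
  fresh : ∀ {G ρ A s}, J.Wf G → Ok G ρ → J.T G A (.sort s) → ∀ M : MT S, MOk J M (J.cons A G) →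
    ∃ r ρ', Ext G A ρ r ρ' ∧ (W J idx (i + 1) (tgt ρ') (msub (sb ρ') M) →
      W J idx (i + 1) (J.cons (sub (fun x => er (sb ρ x)) A) (tgt ρ)) (msub (mups (sb ρ)) M))
  /-- variables -/
  var_R : ∀ {G ρ x A}, J.Wf G → Ok G ρ → J.Dc G x A → Cg J idx i G A → R G ρ A (sb ρ x)
  var_Ne : ∀ {G ρ x A}, J.Wf G → Ok G ρ → J.Dc G x A → ¬ Cg J idx i G A →
    Ne J idx (i + 1) (tgt ρ) (sb ρ x)

/-- a stage model at level `i` -/
structure Stage (i : ℕ) extends Stage0.{u, v, w} J idx i where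
  /-- the identity environment (may depend on the term `M`) -/
  ident : ∀ {G}, J.Wf G → ∀ M : MT S, MOk J M G → ∃ ρ, Ok G ρ ∧
    (W J idx (i + 1) (tgt ρ) (msub (sb ρ) M) → W J idx (i + 1) G M)

end Crest.Agent.R298.AA961
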