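import Crest.Agent.R298.Brg_865
import Crest.Agent.R298.StM_961

/-!
R298 (S0452), helper865: the seam between helper961's stages over the abstract judgement
`Jd` (instance `lst P`, the frozen judgement) and the stages `Main865.WNi`.
-/

set_option autoImplicit false

namespace Crest.Agent.R298.Main865

open Crest.LogicCS.PTS Relation
open Crest.Agent.R298.Sub452 Crest.Agent.R298.Par452 Crest.Agent.R298.Ty452
open Crest.Agent.R298.Mem360 Crest.Agent.R298.TyM452 Crest.Agent.R298.Scc795
open Crest.Agent.R298.Jd961 Crest.Agent.R298.MW961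
open Crest.Agent.R298.Mem360.MT (er emb er_emb IsL isL_of_dist dist)

universe u

variable {S : Type u}

/-- a term with memory typed over a list context is legal in helper961's sense -/
theorem mok_of_tm {P : Spec S} {Γ : List (Term S)} {M : MT S} {A : Term S} (h : TM P Γ M A) :
    MOk (lst P) M Γ := by
  induction h with
  | var hl hA => exact ⟨_, TM.typed (.var hl hA)⟩
  | sort w a => exact ⟨_, TM.typed (.sort w a)⟩
  | pi hA hB r ih ih' => exact ⟨⟨_, (TM.pi hA hB r).typed⟩, ih, ih'⟩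
  | lam hA hM hp ih ih' => exact ⟨⟨_, (TM.lam hA hM hp).typed⟩, ih, ih'⟩
  | app hM hN ih ih' => exact ⟨⟨_, (TM.app hM hN).typed⟩, ih, ih'⟩
  | mem hM hN ih ih' => exact ⟨ih, ih'⟩
  | conv _ _ _ ih => exact ih

theorem nf_iff {P : Spec S} {idx : S → ℕ} {k : ℕ} {M : MT S} :
    ∀ {Γ : List (Term S)}, MW961.NF (lst P) idx k M Γ ↔ Main865.NF P idx k Γ M := by
  induction M with
  | var i => intro Γ; exact Iff.rfl
  | sort s => intro Γ; exact Iff.rfl
  | app F Q ihF ihQ =>
      intro Γ
      have h1 := ihF (Γ := Γ)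
      have h2 := ihQ (Γ := Γ)
      constructor
      · rintro ⟨h, hF, hQ⟩
        refine ⟨h1.1 hF, h2.1 hQ, fun hl => ?_⟩
        obtain ⟨T, hT, T', s, e, hs, hk⟩ := h hl
        exact ⟨T, s, hT, ⟨T', e, hs⟩, hk⟩
      · rintro ⟨hF, hQ, h⟩
        refine ⟨fun hl => ?_, h1.2 hF, h2.2 hQ⟩
        obtain ⟨T, s, hT, ⟨T', e, hs⟩, hk⟩ := h hl
        exact ⟨T, hT, T', s, e, hs, hk⟩
  | lam A M ihA ihM =>
      intro Γ
      exact and_congr ihA ihM
  | pi A M ihA ihM =>
      intro Γ
      exact and_congr ihA ihM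
  | mem A M ihA ihM =>
      intro Γ
      exact and_congr ihA ihM

/-- **helper961's stage `i` over list contexts gives the stage `i` of the assembly** -/
theorem wni_of_961 {P : Spec S} {idx : S → ℕ} {i : ℕ} (h : AA961.WNi (lst P) idx i) :
    WNi P idx i := by
  intro Γ M A hM hn
  obtain ⟨M', hr, hn'⟩ := h Γ M (twf hM.typed) (mok_of_tm hM) (nf_iff.2 hn)
  exact ⟨M', hr, nf_iff.1 hn'⟩

/-- block (a) in helper961's form -/
def BlockA961 : Prop := ∀ (n : ℕ) (P : Spec (Fin n)) (idx : Fin n → ℕ) (N : ℕ), Std P →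
  IsIdx P idx N → ∀ i, 0 < i → (Unary P (Lvl idx i) ∨ Even P (Lvl idx i)) →
    AA961.WNi (lst P) idx i

theorem BlockA961.a (h : BlockA961) : BlockA :=
  fun n P idx N hS hi i h0 hu => wni_of_961 (h n P idx N hS hi i h0 hu)

theorem BlockA961.w (h : BlockA961) : BlockAW := BlockA.w h.a

end Crest.Agent.R298.Main865
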