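import Crest.Agent.R298.G2T_488
import Crest.Agent.R298.SeamA_865

/-!
R298 (S0452), helper488: block (a) (unipolar levels) in the forms `BlockA961` and `BlockAW`
used by the assembly of helper865.
-/

set_option autoImplicit false

namespace Crest.Agent.R298.BlockA488

open Crest.LogicCS.PTS Crest.Agent.R298.Jd961 Crest.Agent.R298.Main865

/-- **block (a)** -/
theorem blockA961 : BlockA961 := by
  intro n P idx N hS hi i _ hu
  refine G2S488.wni_unipolar (J := lst P) ?_ (fun a b c r => ⟨hi.rule_left r, hi.rule_right r⟩) hu
  intro G A s w h
  exact hS.wn _ _ ⟨_, .inl h⟩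

/-- **block (a)**, world form -/
theorem blockAW : BlockAW := blockA961.w

end Crest.Agent.R298.BlockA488
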