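import Crest.Agent.R298.Tw2_987

/-!
R298 (S0452), part P, helper987: the Henkin structure of the tower satisfies `Law0`, `Comp1`, `Comp2`;
hence `Fat L` is contradictory.
-/

set_option autoImplicit false

namespace Crest.Agent.R298.Tw987

open Crest.LogicCS.PTS Crest.LogicCS.PTS.Term Relation
open Crest.Agent.R298.Sub452 Crest.Agent.R298.Par452 Crest.Agent.R298.Ty452
open Crest.Agent.R298.TyF452

universe u
variable {S : Type u} {P : Spec S} {Δ : ℕ → Term S}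

namespace Fat
variable {L : Logic P Δ} (F : Fat L)

/-! #### truth of the closed formulas -/

section tr

theorem le_tr {X Z Z' : Term S} (hX : TyF P Δ X (lft 0 F.A.N)) (hZ : TyF P Δ Z (F.C1y 0 X))
    (hZ' : TyF P Δ Z' (F.C1y 0 X)) : L.Tr (F.le 0 X Z Z') ↔ ∀ x, TyF P Δ x (F.C0 0 X) →
      L.Tr (F.m1 0 X Z (F.s0 0 X x)) → L.Tr (F.m1 0 X Z' (F.s0 0 X x)) := by
  have z := Ext.zero Δ
  have hK := F.C0_ty z hX
  have hX' := F.X_wk hX (F.C0 0 X)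
  have hD' := z.cons (F.C0 0 X)
  have hx := F.s0_ty hD' hX' (x := var 0) (by rw [← F.C0_wk]; exact var0 hK)
  have a1 := F.m1_ty hD' hX' (G := wk Z) (by rw [← F.C1y_wk]; exact tyf_wk hZ _) hx
  have a2 := F.m1_ty hD' hX' (G := wk Z') (by rw [← F.C1y_wk]; exact tyf_wk hZ' _) hx
  rw [le, L.all_tr F.bdb hK (L.imp_ty hD' a1 a2)]
  refine forall_congr' fun x => forall_congr' fun hx0 => ?_
  have hs := F.s0_ty z hX hx0
  simp only [L.imp_sub _ _ (Base.inst 0 x), F.m1_sub (Base.inst 0 x),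
    F.s0_sub (Base.inst 0 x), sub_scons_wk, sub_var, scons_zero]
  exact L.imp_tr (F.m1_ty z hX hZ hs) (F.m1_ty z hX hZ' hs)

theorem child_tr {X T Z T' : Term S} (hX : TyF P Δ X (lft 0 F.A.N)) (hT : TyF P Δ T (F.C2y 0 X))
    (hZ : TyF P Δ Z (F.C1y 0 X)) (hT' : TyF P Δ T' (F.C2y 0 X)) :
    L.Tr (F.child 0 X T Z T') ↔ ∀ x, TyF P Δ x (F.C1 0 X) →
      (L.Tr (F.m2 0 X T' (F.s1 0 X x)) ↔ (L.Tr (F.m2 0 X T (F.s1 0 X x)) ∧
        (L.Tr (F.le 0 X (F.s1 0 X x) Z) ∧ ¬ L.Tr (F.le 0 X Z (F.s1 0 X x))))) := by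
  have z := Ext.zero Δ
  have hK := F.C1_ty z hX
  have hX' := F.X_wk hX (F.C1 0 X)
  have hD' := z.cons (F.C1 0 X)
  have hx := F.s1_ty hD' hX' (x := var 0) (by rw [← F.C1_wk]; exact var0 hK)
  have wT : TyF P (fcons (F.C1 0 X) Δ) (wk T) (F.C2y (0 + 1) (wk X)) := by
    rw [← F.C2y_wk]; exact tyf_wk hT _
  have wT' : TyF P (fcons (F.C1 0 X) Δ) (wk T') (F.C2y (0 + 1) (wk X)) := by
    rw [← F.C2y_wk]; exact tyf_wk hT' _
  have wZ : TyF P (fcons (F.C1 0 X) Δ) (wk Z) (F.C1y (0 + 1) (wk X)) := by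
    rw [← F.C1y_wk]; exact tyf_wk hZ _
  rw [child, L.all_tr F.bdy hK (L.iff_ty hD' (F.m2_ty hD' hX' wT' hx)
    (L.and_ty hD' (F.m2_ty hD' hX' wT hx) (L.and_ty hD' (F.le_ty hD' hX' hx wZ)
      (L.neg_ty hD' (F.le_ty hD' hX' wZ hx)))))]
  refine forall_congr' fun x => forall_congr' fun hx0 => ?_
  have hs := F.s1_ty z hX hx0
  simp only [L.iff_sub (Base.inst 0 x), L.and_sub (Base.inst 0 x),
    L.neg_sub (Base.inst 0 x), F.m2_sub (Base.inst 0 x), F.le_sub (Base.inst 0 x),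
    F.s1_sub (Base.inst 0 x), sub_scons_wk, sub_var, scons_zero]
  have l1 := F.le_ty z hX hs hZ
  have l2 := F.le_ty z hX hZ hs
  rw [L.iff_tr (F.m2_ty z hX hT' hs) (L.and_ty z (F.m2_ty z hX hT hs)
    (L.and_ty z l1 (L.neg_ty z l2))), L.and_tr (F.m2_ty z hX hT hs)
    (L.and_ty z l1 (L.neg_ty z l2)), L.and_tr l1 (L.neg_ty z l2), L.neg_tr l2]

theorem eqc_tr {a w : Term S} (ha : TyF P Δ a (F.C0y 0 (F.A0 0)))
    (hw : TyF P Δ w (F.C0y 0 (F.A0 0))) : L.Tr (F.eqc 0 a w) ↔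
      ∀ x, TyF P Δ x (F.C1 0 (F.A0 0)) →
        (L.Tr (F.m1 0 (F.A0 0) (F.s1 0 (F.A0 0) x) a) →
          L.Tr (F.m1 0 (F.A0 0) (F.s1 0 (F.A0 0) x) w)) := by
  have z := Ext.zero Δ
  have hA := F.A0_ty z
  have hK := F.C1_ty z hA
  have hD' := z.cons (F.C1 0 (F.A0 0))
  have hA' := F.A0_ty hD'
  have hx := F.s1_ty hD' hA' (x := var 0) (by rw [← F.A0_wk, ← F.C1_wk]; exact var0 hK)
  have a1 := F.m1_ty hD' hA' hx (x := wk a) (by rw [← F.A0_wk, ← F.C0y_wk]; exact tyf_wk ha _)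
  have a2 := F.m1_ty hD' hA' hx (x := wk w) (by rw [← F.A0_wk, ← F.C0y_wk]; exact tyf_wk hw _)
  rw [eqc, L.all_tr F.bdy hK (L.imp_ty hD' a1 a2)]
  refine forall_congr' fun x => forall_congr' fun hx0 => ?_
  have hs := F.s1_ty z hA hx0
  simp only [L.imp_sub _ _ (Base.inst 0 x), F.m1_sub (Base.inst 0 x),
    F.s1_sub (Base.inst 0 x), F.A0_sub (Base.inst 0 x), sub_scons_wk, sub_var, scons_zero]
  exact L.imp_tr (F.m1_ty z hA hs ha) (F.m1_ty z hA hs hw)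

theorem Psi_tr {X T Z w : Term S} (hX : TyF P Δ X (lft 0 F.A.N)) (hT : TyF P Δ T (F.C2y 0 X))
    (hZ : TyF P Δ Z (F.C1y 0 X)) (hw : TyF P Δ w (F.C0y 0 (F.A0 0))) :
    L.Tr (F.Psi 0 X T Z w) ↔ ∃ T', TyF P Δ T' (F.C2 0 X) ∧
      (L.Tr (F.child 0 X T Z (F.s2 0 X T')) ∧
        L.Tr (F.eqc 0 (F.ccode 0 X (F.s2 0 X T')) w)) := by
  have z := Ext.zero Δ
  rw [Psi, L.ex_tr F.bdb (F.C2_ty z hX) (F.PsiD_ty z hX hT hZ hw)]
  refine exists_congr fun x => and_congr_right fun hx0 => ?_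
  have hs := F.s2_ty z hX hx0
  simp only [L.and_sub (Base.inst 0 x), F.child_sub (Base.inst 0 x),
    F.eqc_sub (Base.inst 0 x), F.ccode_sub (Base.inst 0 x), F.s2_sub (Base.inst 0 x),
    sub_scons_wk, sub_var, scons_zero]
  exact L.and_tr (F.child_ty z hX hT hZ hs) (F.eqc_ty z (F.ccode_ty z hX hs) hw)

theorem Phi_tr {X T w : Term S} (hX : TyF P Δ X (lft 0 F.A.N)) (hT : TyF P Δ T (F.C2y 0 X))
    (hw : TyF P Δ w (F.C0y 0 (F.A0 0))) :
    L.Tr (F.Phi 0 X T w) ↔ ∃ Z, TyF P Δ Z (F.C1 0 X) ∧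
      (L.Tr (F.m2 0 X T (F.s1 0 X Z)) ∧ L.Tr (F.Psi 0 X T (F.s1 0 X Z) w)) := by
  have z := Ext.zero Δ
  rw [Phi, L.ex_tr F.bdy (F.C1_ty z hX) (F.PhiD_ty z hX hT hw)]
  refine exists_congr fun x => and_congr_right fun hx0 => ?_
  have hs := F.s1_ty z hX hx0
  simp only [L.and_sub (Base.inst 0 x), F.m2_sub (Base.inst 0 x),
    F.Psi_sub (Base.inst 0 x), F.s1_sub (Base.inst 0 x),
    sub_scons_wk, sub_var, scons_zero]
  exact L.and_tr (F.m2_ty z hX hT hs) (F.Psi_ty z hX hT hs hw)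

/-- the fundamental law: `E(w, code(X,T)) ↔ Phi(X,T,w)` -/
theorem E_code {X T w : Term S} (hX : TyF P Δ X (lft 0 F.A.N)) (hT : TyF P Δ T (F.C2y 0 X))
    (hw : TyF P Δ w (F.C0y 0 (F.A0 0))) :
    L.Tr (F.E 0 w (F.ccode 0 X T)) ↔ L.Tr (F.Phi 0 X T w) := by
  have z := Ext.zero Δ
  have hA := F.A0_ty z
  have hB := F.B_ty z hA
  have hc := F.code_ty z hX hT
  have hpt := F.pt_ty z hw
  have hF := F.Fw_ty z hw
  have hV := F.V_ty z
  -- the cast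
  rw [E, ccode, s0, cst_law F.hbo F.hp hB hc hpt]
  -- the law of `hb`
  have hD' := z.cons (F.B 0 (F.A0 0))
  have dat : DOk L F.hb.odd Δ (F.B 0 (F.A0 0)) (F.xa.test (0 + 1) (F.V (0 + 1)) (var 0)
      (F.m3 (0 + 2) (wk (wk X)) (app (var 0) (wk (wk X))) (wk (wk T)))) := by
    rw [F.hbo]
    refine F.xa.test_ty hD' (F.V_ty hD') ?_ ?_
    · refine .conv (var0 hB) (F.xaV_ty hD') ?_
      rw [F.B_wk, F.A0_wk]
      exact F.B_eq _
    · rw [F.xa_odd]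
      refine F.codeD_ty hD' (F.X_wk hX _) ?_
      rw [← F.C2y_wk]
      exact tyf_wk hT _
  rw [code, F.hb.law hB dat (by rw [F.hbo]; exact hpt), F.hbo, pair_true, inst_def,
    F.xa.test_sub (Base.inst 0 _), F.xa_odd, Bool.not_false, dsub_true,
    F.m3_sub (Base.inst 0 _).ups, F.V_sub (Base.inst 0 _)]
  simp only [sub_app, sub_wk, sub_scons_wk, sub_var, scons_zero, ups_zero]
  -- the law of `xa`
  rw [F.xa.law hV (by rw [F.xa_odd]; exact hF) (by rw [F.xa_odd]; exact F.codeD_ty z hX hT),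
    F.xa_odd, pair_false, inst_def]
  simp only [F.m3_sub (Base.inst 0 _), sub_app, sub_scons_wk, sub_var, scons_zero]
  -- `Fw` applied to `X`
  have d1 : DOk L F.q.odd Δ (F.C2y 0 X) (F.Phi (0 + 1) (wk X) (var 0) (wk w)) := by
    rw [F.hq]; exact F.FwD_ty z hX hw
  have hcq := F.q.comp_ty z (F.C2y_ty z hX) d1
  have e1 : BetaEq (app (F.Fw 0 w) X)
      (F.q.comp 0 (F.C2y 0 X) (F.Phi (0 + 1) (wk X) (var 0) (wk w))) := by
    refine BetaEq.trans (.rel _ _ (beta_redex _ _ _)) ?_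
    rw [inst_def, F.q.comp_sub (Base.inst 0 X), F.C2y_sub (Base.inst 0 X), F.hq, dsub_true,
      F.Phi_sub (Base.inst 0 X).ups]
    simp only [sub_wk, sub_scons_wk, sub_var, scons_zero, ups_zero]
    exact .refl _
  have hFX : TyF P Δ (app (F.Fw 0 w) X) (F.W3 0 X) := by
    have := TyF.appl (show TyF P Δ (F.Fw 0 w) (pi (lft 0 F.A.N) (F.W3 (0 + 1) (var 0))) from hF) hX
    rw [inst_def, F.W3_sub (Base.inst _ _)] at this
    exact this
  rw [L.conv (F.m3_ty z hX hFX hT) (F.m3_ty z hX hcq hT) (F.q.test_eq 0 _ _ e1), m3,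
    F.q.law (F.C2y_ty z hX) d1 (by rw [F.hq]; exact hT), F.hq, pair_true, inst_def,
    F.Phi_sub (Base.inst 0 T)]
  simp only [sub_scons_wk, sub_var, scons_zero]

end tr

/-! #### the law (0) -/

theorem le_iff (Z Z' : F.str.P) : HPar705.le F.str Z Z' ↔
    L.Tr (F.le 0 (F.A0 0) (F.s1 0 (F.A0 0) Z.1) (F.s1 0 (F.A0 0) Z'.1)) := by
  have z := Ext.zero Δ
  have hA := F.A0_ty z
  rw [F.le_tr hA (F.s1_ty z hA Z.2) (F.s1_ty z hA Z'.2)]
  exact ⟨fun h x hx => h ⟨x, hx⟩, fun h x => h x.1 x.2⟩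

theorem isChild_iff (T : F.str.Q) (Z : F.str.P) (T' : F.str.Q) :
    HPar705.isChild F.str T Z T' ↔ L.Tr (F.child 0 (F.A0 0) (F.s2 0 (F.A0 0) T.1)
      (F.s1 0 (F.A0 0) Z.1) (F.s2 0 (F.A0 0) T'.1)) := by
  have z := Ext.zero Δ
  have hA := F.A0_ty z
  rw [F.child_tr hA (F.s2_ty z hA T.2) (F.s1_ty z hA Z.2) (F.s2_ty z hA T'.2)]
  constructor
  · intro h x hx
    have := h ⟨x, hx⟩
    rw [F.le_iff, F.le_iff] at this
    exact this
  · intro h x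
    rw [F.le_iff, F.le_iff]
    exact h x.1 x.2

theorem eqU_iff (a w : F.str.U) : HPar705.eqU F.str a w ↔
    L.Tr (F.eqc 0 (F.s0 0 (F.A0 0) a.1) (F.s0 0 (F.A0 0) w.1)) := by
  have z := Ext.zero Δ
  have hA := F.A0_ty z
  rw [F.eqc_tr (F.s0_ty z hA a.2) (F.s0_ty z hA w.2)]
  exact ⟨fun h x hx => h ⟨x, hx⟩, fun h x => h x.1 x.2⟩

theorem law0 : HPar705.Law0 F.str := by
  intro w T
  have z := Ext.zero Δ
  have hA := F.A0_ty z
  have hT := F.s2_ty z hA T.2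
  have hw := F.s0_ty z hA w.2
  show L.Tr (F.E 0 (F.s0 0 (F.A0 0) w.1) (F.ccode 0 (F.A0 0) (F.s2 0 (F.A0 0) T.1))) ↔ _
  rw [F.E_code hA hT hw, F.Phi_tr hA hT hw]
  constructor
  · rintro ⟨Z, hZ, h1, h2⟩
    rw [F.Psi_tr hA hT (F.s1_ty z hA hZ) hw] at h2
    obtain ⟨T', hT', h3, h4⟩ := h2
    exact ⟨⟨Z, hZ⟩, h1, ⟨T', hT'⟩, (F.isChild_iff T ⟨Z, hZ⟩ ⟨T', hT'⟩).2 h3,
      (F.eqU_iff (F.str.code ⟨T', hT'⟩) w).2 h4⟩
  · rintro ⟨Z, h1, T', h3, h4⟩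
    refine ⟨Z.1, Z.2, h1, ?_⟩
    rw [F.Psi_tr hA hT (F.s1_ty z hA Z.2) hw]
    exact ⟨T'.1, T'.2, (F.isChild_iff T Z T').1 h3, (F.eqU_iff (F.str.code T') w).1 h4⟩

/-! #### comprehension: translation of the formulas -/

/-- push on an environment of terms -/
def psh (t : Term S) (e : ℕ → Term S) : ℕ → Term S
  | 0 => t
  | i + 1 => wk (e i)

/-- `U`-terms of the formulas -/
def tmY (n : ℕ) (eU eQ : ℕ → Term S) : HPar705.UT → Term S
  | .var i => eU i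
  | .code j => F.ccode n (F.A0 n) (eQ j)

/-- translation of formulas -/
def trf : HPar705.Fm → ℕ → (ℕ → Term S) → (ℕ → Term S) → (ℕ → Term S) → Term S
  | .bot, n, _, _, _ => L.bot n
  | .imp a b, n, eU, eP, eQ => L.imp n (trf a n eU eP eQ) (trf b n eU eP eQ)
  | .allU a, n, eU, eP, eQ => L.all F.db n (F.C0 n (F.A0 n))
      (trf a (n + 1) (psh (F.s0 (n + 1) (F.A0 (n + 1)) (var 0)) eU) (fun i => wk (eP i))
        (fun i => wk (eQ i)))
  | .allP a, n, eU, eP, eQ => L.all F.dy n (F.C1 n (F.A0 n))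
      (trf a (n + 1) (fun i => wk (eU i)) (psh (F.s1 (n + 1) (F.A0 (n + 1)) (var 0)) eP)
        (fun i => wk (eQ i)))
  | .allQ a, n, eU, eP, eQ => L.all F.db n (F.C2 n (F.A0 n))
      (trf a (n + 1) (fun i => wk (eU i)) (fun i => wk (eP i))
        (psh (F.s2 (n + 1) (F.A0 (n + 1)) (var 0)) eQ))
  | .m1 i t, n, eU, eP, eQ => F.m1 n (F.A0 n) (eP i) (F.tmY n eU eQ t)
  | .m2 j i, n, _, eP, eQ => F.m2 n (F.A0 n) (eQ j) (eP i)
  | .E s t, n, eU, _, eQ => F.E n (F.tmY n eU eQ s) (F.tmY n eU eQ t)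

theorem tmY_sub {n m : ℕ} {σ : ℕ → Term S} (h : Base n m σ) (eU eQ : ℕ → Term S)
    (t : HPar705.UT) : sub σ (F.tmY n eU eQ t) =
      F.tmY m (fun i => sub σ (eU i)) (fun i => sub σ (eQ i)) t := by
  cases t with
  | var i => rfl
  | code j => simp only [tmY, F.ccode_sub h, F.A0_sub h]

theorem psh_sub {σ : ℕ → Term S} (t : Term S) (e : ℕ → Term S) :
    (fun i => sub (ups σ) (psh t e i)) = psh (sub (ups σ) t) (fun i => sub σ (e i)) := by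
  funext i
  cases i with
  | zero => rfl
  | succ i => exact sub_wk _ _

theorem trf_sub (f : HPar705.Fm) : ∀ {n m : ℕ} {σ : ℕ → Term S} (_ : Base n m σ)
    (eU eP eQ : ℕ → Term S), sub σ (F.trf f n eU eP eQ) =
      F.trf f m (fun i => sub σ (eU i)) (fun i => sub σ (eP i)) (fun i => sub σ (eQ i)) := by
  induction f with
  | bot => intro n m σ h eU eP eQ; exact L.bot_sub h
  | imp a b iha ihb =>
      intro n m σ h eU eP eQ
      rw [trf, trf, L.imp_sub _ _ h, iha h, ihb h]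
  | allU a ih =>
      intro n m σ h eU eP eQ
      rw [trf, trf, L.all_sub _ _ F.bdb h, ih h.ups, F.C0_sub h, F.A0_sub h, psh_sub,
        F.s0_sub h.ups, F.A0_sub h.ups]
      simp only [sub_wk, sub_var, ups_zero]
  | allP a ih =>
      intro n m σ h eU eP eQ
      rw [trf, trf, L.all_sub _ _ F.bdy h, ih h.ups, F.C1_sub h, F.A0_sub h, psh_sub,
        F.s1_sub h.ups, F.A0_sub h.ups]
      simp only [sub_wk, sub_var, ups_zero]
  | allQ a ih =>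
      intro n m σ h eU eP eQ
      rw [trf, trf, L.all_sub _ _ F.bdb h, ih h.ups, F.C2_sub h, F.A0_sub h, psh_sub,
        F.s2_sub h.ups, F.A0_sub h.ups]
      simp only [sub_wk, sub_var, ups_zero]
  | m1 i t =>
      intro n m σ h eU eP eQ
      rw [trf, trf, F.m1_sub h, F.A0_sub h, F.tmY_sub h]
  | m2 j i =>
      intro n m σ h eU eP eQ
      rw [trf, trf, F.m2_sub h, F.A0_sub h]
  | E s t =>
      intro n m σ h eU eP eQ
      rw [trf, trf, F.E_sub h, F.tmY_sub h, F.tmY_sub h]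

/-- typed environments -/
structure EOk (n : ℕ) (D : ℕ → Term S) (eU eP eQ : ℕ → Term S) : Prop where
  fU : ∀ i, TyF P D (eU i) (F.C0y n (F.A0 n))
  fP : ∀ i, TyF P D (eP i) (F.C1y n (F.A0 n))
  fQ : ∀ i, TyF P D (eQ i) (F.C2y n (F.A0 n))

theorem tmY_ty {n : ℕ} {D : ℕ → Term S} (hD : Ext Δ n D) {eU eP eQ : ℕ → Term S}
    (h : F.EOk n D eU eP eQ) (t : HPar705.UT) :
    TyF P D (F.tmY n eU eQ t) (F.C0y n (F.A0 n)) := by
  cases t with
  | var i => exact h.fU i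
  | code j => exact F.ccode_ty hD (F.A0_ty hD) (h.fQ j)

theorem wkU {n : ℕ} {D : ℕ → Term S} {t : Term S} (K : Term S)
    (h : TyF P D t (F.C0y n (F.A0 n))) :
    TyF P (fcons K D) (wk t) (F.C0y (n + 1) (F.A0 (n + 1))) := by
  rw [← F.A0_wk, ← F.C0y_wk]; exact tyf_wk h _
theorem wkP {n : ℕ} {D : ℕ → Term S} {t : Term S} (K : Term S)
    (h : TyF P D t (F.C1y n (F.A0 n))) :
    TyF P (fcons K D) (wk t) (F.C1y (n + 1) (F.A0 (n + 1))) := by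
  rw [← F.A0_wk, ← F.C1y_wk]; exact tyf_wk h _
theorem wkQ {n : ℕ} {D : ℕ → Term S} {t : Term S} (K : Term S)
    (h : TyF P D t (F.C2y n (F.A0 n))) :
    TyF P (fcons K D) (wk t) (F.C2y (n + 1) (F.A0 (n + 1))) := by
  rw [← F.A0_wk, ← F.C2y_wk]; exact tyf_wk h _

theorem EOk.pU {n : ℕ} {D : ℕ → Term S} {eU eP eQ : ℕ → Term S} (h : F.EOk n D eU eP eQ)
    (K : Term S) {t : Term S} (ht : TyF P (fcons K D) t (F.C0y (n + 1) (F.A0 (n + 1)))) :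
    F.EOk (n + 1) (fcons K D) (psh t eU) (fun i => wk (eP i)) (fun i => wk (eQ i)) := by
  refine ⟨fun i => ?_, fun i => F.wkP K (h.fP i), fun i => F.wkQ K (h.fQ i)⟩
  cases i with
  | zero => exact ht
  | succ i => exact F.wkU K (h.fU i)

theorem EOk.pP {n : ℕ} {D : ℕ → Term S} {eU eP eQ : ℕ → Term S} (h : F.EOk n D eU eP eQ)
    (K : Term S) {t : Term S} (ht : TyF P (fcons K D) t (F.C1y (n + 1) (F.A0 (n + 1)))) :
    F.EOk (n + 1) (fcons K D) (fun i => wk (eU i)) (psh t eP) (fun i => wk (eQ i)) := by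
  refine ⟨fun i => F.wkU K (h.fU i), fun i => ?_, fun i => F.wkQ K (h.fQ i)⟩
  cases i with
  | zero => exact ht
  | succ i => exact F.wkP K (h.fP i)

theorem EOk.pQ {n : ℕ} {D : ℕ → Term S} {eU eP eQ : ℕ → Term S} (h : F.EOk n D eU eP eQ)
    (K : Term S) {t : Term S} (ht : TyF P (fcons K D) t (F.C2y (n + 1) (F.A0 (n + 1)))) :
    F.EOk (n + 1) (fcons K D) (fun i => wk (eU i)) (fun i => wk (eP i)) (psh t eQ) := by
  refine ⟨fun i => F.wkU K (h.fU i), fun i => F.wkP K (h.fP i), fun i => ?_⟩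
  cases i with
  | zero => exact ht
  | succ i => exact F.wkQ K (h.fQ i)

theorem s0v_ty {n : ℕ} {D : ℕ → Term S} (hD : Ext Δ n D) :
    TyF P (fcons (F.C0 n (F.A0 n)) D) (F.s0 (n + 1) (F.A0 (n + 1)) (var 0))
      (F.C0y (n + 1) (F.A0 (n + 1))) := by
  have hD' := hD.cons (F.C0 n (F.A0 n))
  refine F.s0_ty hD' (F.A0_ty hD') ?_
  rw [← F.A0_wk, ← F.C0_wk]
  exact var0 (F.C0_ty hD (F.A0_ty hD))

theorem s1v_ty {n : ℕ} {D : ℕ → Term S} (hD : Ext Δ n D) :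
    TyF P (fcons (F.C1 n (F.A0 n)) D) (F.s1 (n + 1) (F.A0 (n + 1)) (var 0))
      (F.C1y (n + 1) (F.A0 (n + 1))) := by
  have hD' := hD.cons (F.C1 n (F.A0 n))
  refine F.s1_ty hD' (F.A0_ty hD') ?_
  rw [← F.A0_wk, ← F.C1_wk]
  exact var0 (F.C1_ty hD (F.A0_ty hD))

theorem s2v_ty {n : ℕ} {D : ℕ → Term S} (hD : Ext Δ n D) :
    TyF P (fcons (F.C2 n (F.A0 n)) D) (F.s2 (n + 1) (F.A0 (n + 1)) (var 0))
      (F.C2y (n + 1) (F.A0 (n + 1))) := by
  have hD' := hD.cons (F.C2 n (F.A0 n))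
  refine F.s2_ty hD' (F.A0_ty hD') ?_
  rw [← F.A0_wk, ← F.C2_wk]
  exact var0 (F.C2_ty hD (F.A0_ty hD))

theorem trf_ty (f : HPar705.Fm) : ∀ {n : ℕ} {D : ℕ → Term S} (_ : Ext Δ n D)
    {eU eP eQ : ℕ → Term S}, F.EOk n D eU eP eQ →
    TyF P D (F.trf f n eU eP eQ) (sort L.o) := by
  induction f with
  | bot => intro n D hD eU eP eQ _; exact L.bot_ty hD
  | imp a b iha ihb =>
      intro n D hD eU eP eQ h
      exact L.imp_ty hD (iha hD h) (ihb hD h)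
  | allU a ih =>
      intro n D hD eU eP eQ h
      exact L.all_ty F.bdb hD (F.C0_ty hD (F.A0_ty hD)) (ih (hD.cons _) (h.pU F _ (F.s0v_ty hD)))
  | allP a ih =>
      intro n D hD eU eP eQ h
      exact L.all_ty F.bdy hD (F.C1_ty hD (F.A0_ty hD)) (ih (hD.cons _) (h.pP F _ (F.s1v_ty hD)))
  | allQ a ih =>
      intro n D hD eU eP eQ h
      exact L.all_ty F.bdb hD (F.C2_ty hD (F.A0_ty hD)) (ih (hD.cons _) (h.pQ F _ (F.s2v_ty hD)))
  | m1 i t =>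
      intro n D hD eU eP eQ h
      exact F.m1_ty hD (F.A0_ty hD) (h.fP i) (F.tmY_ty hD h t)
  | m2 j i =>
      intro n D hD eU eP eQ h
      exact F.m2_ty hD (F.A0_ty hD) (h.fQ j) (h.fP i)
  | E s t =>
      intro n D hD eU eP eQ h
      exact F.E_ty hD (F.tmY_ty hD h s) (F.tmY_ty hD h t)

/-- the environment of terms of an environment of the structure -/
def vU (ρ : HPar705.Env F.str) (i : ℕ) : Term S := F.s0 0 (F.A0 0) (ρ.U i).1
def vP (ρ : HPar705.Env F.str) (i : ℕ) : Term S := F.s1 0 (F.A0 0) (ρ.P i).1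
def vQ (ρ : HPar705.Env F.str) (i : ℕ) : Term S := F.s2 0 (F.A0 0) (ρ.Q i).1

theorem v_ok (ρ : HPar705.Env F.str) : F.EOk 0 Δ (F.vU ρ) (F.vP ρ) (F.vQ ρ) := by
  have z := Ext.zero Δ
  have hA := F.A0_ty z
  exact ⟨fun i => F.s0_ty z hA (ρ.U i).2, fun i => F.s1_ty z hA (ρ.P i).2,
    fun i => F.s2_ty z hA (ρ.Q i).2⟩

theorem psh_inst (M t : Term S) (e : ℕ → Term S) :
    (fun i => sub (scons M var) (psh t e i)) = fun i => Nat.casesOn i (sub (scons M var) t) e := by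
  funext i
  cases i with
  | zero => rfl
  | succ i => exact sub_scons_wk _ _

theorem wk_inst (M : Term S) (e : ℕ → Term S) :
    (fun i => sub (scons M var) (wk (e i))) = e := by
  funext i
  exact sub_scons_wk _ _

theorem vU_pU (ρ : HPar705.Env F.str) (x : F.str.U) :
    (fun i : ℕ => (Nat.casesOn i (F.s0 0 (F.A0 0) x.1) (F.vU ρ) : Term S)) = F.vU (ρ.pU x) := by
  funext i
  cases i <;> rfl
theorem vP_pP (ρ : HPar705.Env F.str) (x : F.str.P) :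
    (fun i : ℕ => (Nat.casesOn i (F.s1 0 (F.A0 0) x.1) (F.vP ρ) : Term S)) = F.vP (ρ.pP x) := by
  funext i
  cases i <;> rfl
theorem vQ_pQ (ρ : HPar705.Env F.str) (x : F.str.Q) :
    (fun i : ℕ => (Nat.casesOn i (F.s2 0 (F.A0 0) x.1) (F.vQ ρ) : Term S)) = F.vQ (ρ.pQ x) := by
  funext i
  cases i <;> rfl

theorem tmY_val (ρ : HPar705.Env F.str) (t : HPar705.UT) :
    F.tmY 0 (F.vU ρ) (F.vQ ρ) t = F.s0 0 (F.A0 0) (HPar705.val ρ t).1 := by
  cases t <;> rfl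

/-- the truth lemma -/
theorem trf_tr (f : HPar705.Fm) : ∀ ρ : HPar705.Env F.str,
    L.Tr (F.trf f 0 (F.vU ρ) (F.vP ρ) (F.vQ ρ)) ↔ HPar705.eval ρ f := by
  have z := Ext.zero Δ
  have hA := F.A0_ty z
  induction f with
  | bot => intro ρ; exact ⟨fun h => L.bot_tr h, fun h => False.elim h⟩
  | imp a b iha ihb =>
      intro ρ
      rw [trf, L.imp_tr (F.trf_ty a z (F.v_ok ρ)) (F.trf_ty b z (F.v_ok ρ)), iha, ihb]
      rfl
  | allU a ih =>
      intro ρ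
      rw [trf, L.all_tr F.bdb (F.C0_ty z hA)
        (F.trf_ty a (z.cons _) ((F.v_ok ρ).pU F _ (F.s0v_ty z)))]
      have key : ∀ M : F.str.U, L.Tr (inst M.1 (F.trf a (0 + 1)
          (psh (F.s0 (0 + 1) (F.A0 (0 + 1)) (var 0)) (F.vU ρ)) (fun i => wk (F.vP ρ i))
          (fun i => wk (F.vQ ρ i)))) ↔ HPar705.eval (ρ.pU M) a := by
        intro M
        rw [inst_def, F.trf_sub a (Base.inst 0 M.1), psh_inst, wk_inst, wk_inst,
          F.s0_sub (Base.inst 0 M.1), F.A0_sub (Base.inst 0 M.1), sub_var, scons_zero, vU_pU]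
        exact ih (ρ.pU M)
      exact ⟨fun h x => (key x).1 (h x.1 x.2), fun h M hM => (key ⟨M, hM⟩).2 (h ⟨M, hM⟩)⟩
  | allP a ih =>
      intro ρ
      rw [trf, L.all_tr F.bdy (F.C1_ty z hA)
        (F.trf_ty a (z.cons _) ((F.v_ok ρ).pP F _ (F.s1v_ty z)))]
      have key : ∀ M : F.str.P, L.Tr (inst M.1 (F.trf a (0 + 1) (fun i => wk (F.vU ρ i))
          (psh (F.s1 (0 + 1) (F.A0 (0 + 1)) (var 0)) (F.vP ρ))
          (fun i => wk (F.vQ ρ i)))) ↔ HPar705.eval (ρ.pP M) a := by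
        intro M
        rw [inst_def, F.trf_sub a (Base.inst 0 M.1), psh_inst, wk_inst, wk_inst,
          F.s1_sub (Base.inst 0 M.1), F.A0_sub (Base.inst 0 M.1), sub_var, scons_zero, vP_pP]
        exact ih (ρ.pP M)
      exact ⟨fun h x => (key x).1 (h x.1 x.2), fun h M hM => (key ⟨M, hM⟩).2 (h ⟨M, hM⟩)⟩
  | allQ a ih =>
      intro ρ
      rw [trf, L.all_tr F.bdb (F.C2_ty z hA)
        (F.trf_ty a (z.cons _) ((F.v_ok ρ).pQ F _ (F.s2v_ty z)))]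
      have key : ∀ M : F.str.Q, L.Tr (inst M.1 (F.trf a (0 + 1) (fun i => wk (F.vU ρ i))
          (fun i => wk (F.vP ρ i)) (psh (F.s2 (0 + 1) (F.A0 (0 + 1)) (var 0)) (F.vQ ρ)))) ↔
          HPar705.eval (ρ.pQ M) a := by
        intro M
        rw [inst_def, F.trf_sub a (Base.inst 0 M.1), psh_inst, wk_inst, wk_inst,
          F.s2_sub (Base.inst 0 M.1), F.A0_sub (Base.inst 0 M.1), sub_var, scons_zero, vQ_pQ]
        exact ih (ρ.pQ M)
      exact ⟨fun h x => (key x).1 (h x.1 x.2), fun h M hM => (key ⟨M, hM⟩).2 (h ⟨M, hM⟩)⟩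
  | m1 i t => intro ρ; rw [trf, F.tmY_val]; rfl
  | m2 j i => intro ρ; rfl
  | E s t => intro ρ; rw [trf, F.tmY_val, F.tmY_val]; rfl

theorem comp1 : HPar705.Comp1 F.str := by
  intro f ρ
  have z := Ext.zero Δ
  have hA := F.A0_ty z
  have hK := F.C0y_ty z hA
  have hv : TyF P (fcons (F.C0y 0 (F.A0 0)) Δ) (var 0) (F.C0y (0 + 1) (F.A0 (0 + 1))) := by
    rw [← F.A0_wk, ← F.C0y_wk]; exact var0 hK
  have hd : DOk L F.hy.odd Δ (F.C0y 0 (F.A0 0)) (F.trf f (0 + 1) (psh (var 0) (F.vU ρ))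
      (fun i => wk (F.vP ρ i)) (fun i => wk (F.vQ ρ i))) := by
    rw [F.hyo]
    exact F.trf_ty f (z.cons _) ((F.v_ok ρ).pU F _ hv)
  refine ⟨⟨_, F.hy.comp_ty z hK hd⟩, fun x => ?_⟩
  have hx := F.s0_ty z hA x.2
  show L.Tr (F.m1 0 (F.A0 0) (F.s1 0 (F.A0 0) _) (F.s0 0 (F.A0 0) x.1)) ↔ _
  rw [m1, s1, cst_law F.hyo F.hq hK (F.hy.comp_ty z hK hd) hx,
    F.hy.law hK hd (by rw [F.hyo]; exact hx), F.hyo, pair_true, inst_def,
    F.trf_sub f (Base.inst 0 _), psh_inst, wk_inst, wk_inst, sub_var, scons_zero, vU_pU]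
  exact F.trf_tr f (ρ.pU x)

theorem comp2 : HPar705.Comp2 F.str := by
  intro f ρ
  have z := Ext.zero Δ
  have hA := F.A0_ty z
  have hK := F.C1y_ty z hA
  have hv : TyF P (fcons (F.C1y 0 (F.A0 0)) Δ) (var 0) (F.C1y (0 + 1) (F.A0 (0 + 1))) := by
    rw [← F.A0_wk, ← F.C1y_wk]; exact var0 hK
  have hd : DOk L F.hb.odd Δ (F.C1y 0 (F.A0 0)) (F.trf f (0 + 1) (fun i => wk (F.vU ρ i))
      (psh (var 0) (F.vP ρ)) (fun i => wk (F.vQ ρ i))) := by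
    rw [F.hbo]
    exact F.trf_ty f (z.cons _) ((F.v_ok ρ).pP F _ hv)
  refine ⟨⟨_, F.hb.comp_ty z hK hd⟩, fun x => ?_⟩
  have hx := F.s1_ty z hA x.2
  show L.Tr (F.m2 0 (F.A0 0) (F.s2 0 (F.A0 0) _) (F.s1 0 (F.A0 0) x.1)) ↔ _
  rw [m2, s2, cst_law F.hbo F.hp hK (F.hb.comp_ty z hK hd) hx,
    F.hb.law hK hd (by rw [F.hbo]; exact hx), F.hbo, pair_true, inst_def,
    F.trf_sub f (Base.inst 0 _), psh_inst, wk_inst, wk_inst, sub_var, scons_zero, vP_pP]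
  exact F.trf_tr f (ρ.pP x)

/-- some environment -/
theorem env_nonempty : Nonempty (HPar705.Env F.str) := by
  have z := Ext.zero Δ
  have hA := F.A0_ty z
  have dU : DOk L F.hb.odd Δ (F.B 0 (F.A0 0)) (L.bot (0 + 1)) := by
    rw [F.hbo]; exact L.bot_ty (z.cons _)
  have dP : DOk L F.hy.odd Δ (F.C0y 0 (F.A0 0)) (L.bot (0 + 1)) := by
    rw [F.hyo]; exact L.bot_ty (z.cons _)
  have dQ : DOk L F.hb.odd Δ (F.C1y 0 (F.A0 0)) (L.bot (0 + 1)) := by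
    rw [F.hbo]; exact L.bot_ty (z.cons _)
  exact ⟨⟨fun _ => ⟨_, F.hb.comp_ty z (F.B_ty z hA) dU⟩,
    fun _ => ⟨_, F.hy.comp_ty z (F.C0y_ty z hA) dP⟩,
    fun _ => ⟨_, F.hb.comp_ty z (F.C1y_ty z hA) dQ⟩⟩⟩

end Fat

/-- **the paradox**: a two-valued logic over `Δ` with a fat configuration of sorts is
contradictory -/
theorem false_of_fat (L : Logic P Δ) (F : Fat L) : False := by
  obtain ⟨ρ⟩ := F.env_nonempty
  exact HPar705.paradox F.comp1 F.comp2 F.law0 ρ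

end Crest.Agent.R298.Tw987
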