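import Crest.Agent.R298.BlkQ_705
import Crest.Agent.R298.Tw3_987

/-!
R298 (S0452), part P, helper705: **block (P)**: a standard specification has no bipolar strongly
connected component with a fat configuration.
-/

set_option autoImplicit false

namespace Crest.Agent.R298.BlockP705

open Crest.LogicCS.PTS

/-- the tower theorem, from `Tw3_987` -/
theorem tower : BlkQ705.Tower := by
  intro S P Δ L u au b c y db dy A hV al xi p q hb hy par hp hq hbo hyo bdb bdy
  exact Tw987.false_of_fat L ⟨u, au, b, c, y, db, dy, A, hV, al, xi, par, p, hp, q, hq,
    hb, hbo, bdb, hy, hyo, bdy⟩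

/-- **block (P), walk form** -/
theorem blockP : Main865.BlockPW := BlkQ705.blockPW_of tower

/-- **block (P)** for the official fat configuration -/
theorem blockP' : Main865.BlockP Main865.FatP := blockP.p

end Crest.Agent.R298.BlockP705
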