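import Crest.Agent.R298.SM1_646
import Crest.Agent.R298.AAI4_833
import Crest.Agent.R298.MainW_865

/-!
R298 (S0452), helper646: STAGE MODEL IN ONE WORLD (T6), part 2: the structure `WStage` of
`AAI3_833` from a type evaluator `Z` with (R4) `Z.Inst`; hence `WNiAt`.
-/

set_option autoImplicit false

namespace Crest.Agent.R298.SM646

open Crest.LogicCS.PTS Relation
open Crest.Agent.R298.Sub452 Crest.Agent.R298.Par452 Crest.Agent.R298.Ty452
open Crest.Agent.R298.Mem360 Crest.Agent.R298.TyF452 Crest.Agent.R298.TyMF452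
open Crest.Agent.R298.Uniq452 Crest.Agent.R298.Main865
open Crest.Agent.R298.StrF657
open Crest.Agent.R298.Cand704 (Cand NeF)
open Crest.Agent.R298.AAI833 (WStage Ge Mono)
open Crest.Agent.R298.Mem360.MT (er emb er_emb IsL isL_of_dist dist mren mwk mups msub mscons
  minst er_mren er_mups er_msub er_mscons er_minst)

universe u v

variable {S : Type u} {P : Spec S} {idx : S → ℕ} {i : ℕ} {D : ℕ → Term S}

theorem neF_of_ne {k : ℕ} {v : MT S} (h : AAI833.Ne P idx k D v) : NeF P idx k D v := by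
  induction h with
  | var i => exact .var i
  | app _ hQ ih => exact .app ih hQ
  | mem _ hQ ih => exact .mem ih hQ

theorem ne_of_var (k x : ℕ) : AAI833.Ne P idx k D (.var x) := .var x

/-- a type of class at least `i` is legal -/
theorem legal_of_cl {G : ℕ → Term S} (w : WfF P G) {T : Term S} (h : TyOkF P G T)
    (hc : Ge P idx i G T) : ∃ s, TyF P G T (.sort s) := by
  rcases h with ⟨s, rfl⟩ | h
  · obtain ⟨t, ⟨T', e, h⟩, _⟩ := hc
    have : Red T' (Term.sort s) := red_of_eq_normal (BetaEq.symm e) (normal_sort s)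
    exact ⟨t, FSR w h this⟩
  · exact h

/-- validity of an untyped environment -/
def OkE (Z : TyEval.{u, v} P idx i D) (G : ℕ → Term S) (ρ : (ℕ → MT S) × (ℕ → Z.Inf)) : Prop :=
  ∃ e : Env Z G, e.sig = ρ.1 ∧ e.inf = ρ.2

/-- **the stage model** of the type evaluator `Z` -/
noncomputable def wstage (hP : ∀ (Γ : List (Term S)) (M : Term S), Legal P Γ M → WN M)
    (hr : Mono P idx) (w : World657.World P D) (Z : TyEval.{u, v} P idx i D) (hI : Z.Inst) :
    WStage P idx i D where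
  Env := (ℕ → MT S) × (ℕ → Z.Inf)
  sb ρ := ρ.1
  Ok G ρ := OkE Z G ρ
  Ext G A ρ ρ' := OkE Z (fcons A G) ρ' ∧ (∀ n, ρ'.1 (n + 1) = ρ.1 n) ∧ ∀ n, ρ'.2 (n + 1) = ρ.2 n
  R _ ρ T v := v ∈ Z.RR (nf T) (fun k => er (ρ.1 k)) ρ.2
  msb := by
    rintro G ⟨_, _⟩ _ ⟨e, rfl, rfl⟩
    exact e.typ
  ext_ok := by
    rintro G A s ρ ρ' _ _ _ h
    exact h.1
  ext_sb := by
    rintro G A s ρ ρ' _ _ _ h
    exact h.2.1
  R_W := by
    rintro G ⟨_, _⟩ T v g ⟨e, rfl, rfl⟩ ok hc h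
    obtain ⟨s, hT⟩ := legal_of_cl g.wf ok hc
    exact ((e.cand hP w.good.wf g hT).sub v h).2
  R_ne := by
    rintro G ⟨_, _⟩ T v g ⟨e, rfl, rfl⟩ ok hc ht h
    obtain ⟨s, hT⟩ := legal_of_cl g.wf ok hc
    exact (e.cand hP w.good.wf g hT).ne v (neF_of_ne h) ht
  R_beta := by
    rintro G ⟨_, _⟩ T F Q v g ⟨e, rfl, rfl⟩ ok hc ht hd h
    obtain ⟨s, hT⟩ := legal_of_cl g.wf ok hc
    exact (e.cand hP w.good.wf g hT).exp [] F Q v hd h ht
  R_mem := by
    rintro G ⟨_, _⟩ T v n B g ⟨e, rfl, rfl⟩ ok hc ht hn h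
    obtain ⟨s, hT⟩ := legal_of_cl g.wf ok hc
    exact (e.cand hP w.good.wf g hT).mem h hn ht
  R_conv := by
    rintro G ⟨_, _⟩ T T' v g ⟨e, rfl, rfl⟩ ok _ hc eq h
    obtain ⟨s, hT⟩ := legal_of_cl g.wf ok hc
    have := e.R_conv hP g hT eq
    show v ∈ e.R T'
    rw [← this]
    exact h
  R_high := by
    rintro G ⟨_, _⟩ T v g ⟨e, rfl, rfl⟩ ok hc hh ht hn
    obtain ⟨s, hT⟩ := legal_of_cl g.wf ok hc
    have := e.R_high hP w.good.wf g hT hh
    show v ∈ e.R T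
    rw [this]
    exact ⟨ht, hn⟩
  R_sort := by
    rintro G ⟨_, _⟩ s v g ⟨e, rfl, rfl⟩ hc ht hn
    obtain ⟨t, hT⟩ := legal_of_cl g.wf (.inl ⟨s, rfl⟩) hc
    show v ∈ e.R (.sort s)
    rw [e.R_sort w hT]
    exact ⟨ht, hn⟩
  R_pi := by
    rintro G ⟨_, _⟩ A B s v g ⟨e, rfl, rfl⟩ hT hc hh ht hn h
    refine (e.mem_pi_ext hP hr w.good.wf g hT hc hh v).2 ⟨ht, hn, fun e' he => ?_⟩
    exact h (e'.sig, e'.inf) ⟨⟨e', rfl, rfl⟩, he.1, he.2⟩
  R_app := by
    rintro G ⟨_, _⟩ A B s v ⟨_, _⟩ g ⟨e, rfl, rfl⟩ hT hc hh h ⟨⟨e', rfl, rfl⟩, h1, h2⟩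
    exact ((e.mem_pi_ext hP hr w.good.wf g hT hc hh v).1 h).2.2 e' ⟨h1, h2⟩
  R_inst := by
    rintro G ⟨_, _⟩ A B s N g ⟨e, rfl, rfl⟩ hT hc hh hN h
    obtain ⟨j, hj, hv⟩ := hI G e A B N s g hT hc hh hN h
    obtain ⟨a, b, c, hA, hB, ru, _⟩ := fgen_pi hT _ _ rfl
    have hcA : Cl P idx i G A := Env.cl_dom hr g.wf hc
    have ht : TMF P D (msub e.sig N) (sub e.th A) := tmf_sub hN e.typ
    refine ⟨(mscons (msub e.sig N) e.sig, isc j e.inf),
      ⟨⟨Env.extend hP g e hA (msub e.sig N) j ht (fun _ => ⟨h, hj⟩) (fun h => absurd hcA h),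
        rfl, rfl⟩, fun n => rfl, fun n => rfl⟩, rfl, fun v _ hv' => ?_⟩
    refine hv v ?_
    have e1 : (fun k => er (mscons (msub e.sig N) e.sig k)) = scons (sub e.th (er N)) e.th := by
      rw [er_mscons, er_msub]
      rfl
    show v ∈ Z.RR (nf B) _ _
    rw [← e1]
    exact hv'
  fresh := by
    rintro G ⟨_, _⟩ A s g ⟨e, rfl, rfl⟩ hA M ⟨B, hM⟩
    obtain ⟨m, hm⟩ := AAI833.exists_mfv (msub (mups e.sig) M)
    obtain ⟨k, e', hk, hD, he, h0⟩ := e.fresh hP w g hA m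
    refine ⟨(e'.sig, e'.inf), ⟨e', rfl, rfl⟩, fun h => ?_⟩
    have hA' : TyF P D (sub e.th A) (.sort s) := tyf_sub hA e.subF
    have hM' := tmf_sub hM (e.typ.ups hA')
    refine AAI833.Wn.bind hP w hD hA' hM' (hm (k + 1) (by omega)) ?_
    have e2 : minst (.var k) (msub (mups e.sig) M) = msub e'.sig M := by
      rw [he.sig, h0, MT.msub_mscons]
    rw [e2]
    exact h
  var_R := by
    rintro G ⟨_, _⟩ x g ⟨e, rfl, rfl⟩ hc
    exact e.mem x hc
  var_Ne := by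
    rintro G ⟨_, _⟩ x g ⟨e, rfl, rfl⟩ hc
    obtain ⟨⟨k, hk⟩, _⟩ := e.low x hc
    show AAI833.Ne P idx (i + 1) D (e.sig x)
    rw [hk]
    exact .var k
  ident := by
    rintro M _
    obtain ⟨e, he⟩ := Env.exists_ident hP Z w.good
    refine ⟨(e.sig, e.inf), ⟨e, rfl, rfl⟩, fun h => ?_⟩
    rw [he] at h
    rw [MT.msub_id] at h
    exact h

/-- **stage `i` from a type evaluator** -/
theorem wniAt_of (hP : ∀ (Γ : List (Term S)) (M : Term S), Legal P Γ M → WN M)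
    (hr : ∀ a b c, P.rule a b c → idx c ≤ idx a ∧ idx c ≤ idx b)
    (w : World657.World P D) (Z : TyEval.{u, v} P idx i D) (hI : Z.Inst) :
    WNiAt P idx i D := fun M A hM hn =>
  AAI833.wniW_of_stage (wstage hP hr w Z hI) hr w.good M A hM hn

/-- the semantic input of block (T): a type evaluator with (R4) for every level which is not
fat, over every world -/
def EvalT (Fat : FatPred) : Prop := ∀ (n : ℕ) (P : Spec (Fin n)) (idx : Fin n → ℕ) (N : ℕ),
  Std P → IsIdx P idx N → ∀ D, World657.World P D → ∀ i, 0 < i → ¬ Fat n P (Lvl idx i) →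
    ∃ Z : TyEval.{0, v} P idx i D, Z.Inst

/-- **block (T) from the type evaluators** -/
theorem blockTW_of {Fat : FatPred} (h : EvalT.{v} Fat) : BlockTW Fat := by
  intro n P idx N hS hi D w i h0 hF
  obtain ⟨Z, hZ⟩ := h n P idx N hS hi D w i h0 hF
  exact wniAt_of hS.wn (fun a b c r => ⟨hi.rule_left r, hi.rule_right r⟩) w Z hZ

end Crest.Agent.R298.SM646
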