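import Crest.Agent.R298.Z_254
import Crest.Agent.R298.SM2_646

/-!
R298 (S0452), helper254: **block (T)** at one world: `Main865.BlockTW Main865.FatP`.
-/

set_option autoImplicit false

namespace Crest.Agent.R298.Z254

open Crest.LogicCS.PTS
open Crest.Agent.R298.Par452 Crest.Agent.R298.TyF452 Crest.Agent.R298.Main865
open Crest.Agent.R298.Md254

/-- type evaluators with (R4) for every level which is not fat -/
theorem evalT : SM646.EvalT.{1} FatP := by
  intro n P idx N hS hi D w i _ hF
  have hwn : ∀ M A, TyF P D M A → WN M := fun M A h => (w.good.wn hS.wn h).1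
  have hTF : TF P (Lvl idx i) D :=
    tf_of_not_fat w.good.wf (fun T t h => hwn T (.sort t) h) hF
  exact ⟨tyz w.good.wf hwn, inst_tyz hS.wn w.good.wf hwn hTF
    (fun a b c r => ⟨hi.rule_left r, hi.rule_right r⟩)⟩

/-- **BLOCK (T)** -/
theorem blockT : BlockTW FatP := SM646.blockTW_of evalT

end Crest.Agent.R298.Z254
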