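import Crest.Agent.R298.MainW_865
import Crest.Agent.R298.WorldF_657

/-!
R298 (S0452), helper657: the world block of 865's master assembly.
-/

set_option autoImplicit false

namespace Crest.Agent.R298.World657

open Crest.LogicCS.PTS

universe u
variable {S : Type u} {P : Spec S} {D : ℕ → Term S}

theorem World.main (w : World P D) : Main865.World P D := ⟨w.good, w.full⟩

/-- `BlockW` of `MainW_865` -/
theorem blockW : Main865.BlockW := fun _ P h => by
  obtain ⟨D, hD⟩ := exists_world P h
  exact ⟨D, hD.main⟩

end Crest.Agent.R298.World657
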