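import Crest.Agent.R298.MainW_865

/-!
R298 (S0452), helper865: BRIDGE lists => one world.

`WNi.at : WNi P idx i → World P D → WNiAt P idx i D`: a stage theorem over list contexts gives the
stage at every world (a term over a world lives over a finite list of names).
Also: reduction of memory terms is reflected by renamings (`mstep_mren_inv`, `mred_mren_inv`).
-/

set_option autoImplicit false

namespace Crest.Agent.R298.Main865

open Crest.LogicCS.PTS Relation
open Crest.Agent.R298.Sub452 Crest.Agent.R298.Par452 Crest.Agent.R298.Ty452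
open Crest.Agent.R298.Mem360 Crest.Agent.R298.TyM452 Crest.Agent.R298.TyF452
open Crest.Agent.R298.TyMF452 Crest.Agent.R298.Scc795 Crest.Agent.R298.World657
open Crest.Agent.R298.Str657 (ren_congr)
open Crest.Agent.R298.Mem360.MT (er emb er_emb IsL isL_of_dist dist mren er_mren dist_mren
  exists_dist mren_id mren_mren)

universe u

variable {S : Type u}

/-! ### reduction and renaming -/

theorem isL_mren_iff {F : MT S} {ρ : ℕ → ℕ} : IsL (mren ρ F) ↔ IsL F := by
  induction F with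
  | mem F N ih _ => exact ih
  | var i => exact Iff.rfl
  | sort s => exact Iff.rfl
  | app F N _ _ => exact Iff.rfl
  | lam F N _ _ => exact Iff.rfl
  | pi F N _ _ => exact Iff.rfl

theorem dist_mren_inv {F Q R : MT S} {ρ : ℕ → ℕ} (h : dist (mren ρ F) (mren ρ Q) = some R) :
    ∃ R', dist F Q = some R' ∧ R = mren ρ R' := by
  obtain ⟨R', h'⟩ := exists_dist (isL_mren_iff.1 (isL_of_dist h)) Q
  have := dist_mren h' ρ
  rw [this] at h
  exact ⟨R', h', (Option.some.inj h).symm⟩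

theorem mstep_mren_inv {M : MT S} : ∀ {ρ : ℕ → ℕ} {N : MT S}, MStep (mren ρ M) N →
    ∃ M', MStep M M' ∧ N = mren ρ M' := by
  induction M with
  | var i => intro ρ N h; cases h
  | sort s => intro ρ N h; cases h
  | app F Q ihF ihQ =>
      intro ρ N h
      cases h with
      | beta h =>
          obtain ⟨R', h', rfl⟩ := dist_mren_inv h
          exact ⟨R', .beta h', rfl⟩
      | appL _ h =>
          obtain ⟨K, hK, rfl⟩ := ihF h
          exact ⟨.app K Q, .appL _ hK, rfl⟩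
      | appR _ h =>
          obtain ⟨K, hK, rfl⟩ := ihQ h
          exact ⟨.app F K, .appR _ hK, rfl⟩
  | lam A P ihA ihP =>
      intro ρ N h
      cases h with
      | lamA _ h =>
          obtain ⟨K, hK, rfl⟩ := ihA h
          exact ⟨.lam K P, .lamA _ hK, rfl⟩
      | lamM _ h =>
          obtain ⟨K, hK, rfl⟩ := ihP h
          exact ⟨.lam A K, .lamM _ hK, rfl⟩
  | pi A P ihA ihP =>
      intro ρ N h
      cases h with
      | piA _ h =>
          obtain ⟨K, hK, rfl⟩ := ihA h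
          exact ⟨.pi K P, .piA _ hK, rfl⟩
      | piB _ h =>
          obtain ⟨K, hK, rfl⟩ := ihP h
          exact ⟨.pi A K, .piB _ hK, rfl⟩
  | mem A P ihA ihP =>
      intro ρ N h
      cases h with
      | memP _ h =>
          obtain ⟨K, hK, rfl⟩ := ihA h
          exact ⟨.mem K P, .memP _ hK, rfl⟩
      | memN _ h =>
          obtain ⟨K, hK, rfl⟩ := ihP h
          exact ⟨.mem A K, .memN _ hK, rfl⟩

theorem mred_mren_inv {M N : MT S} {ρ : ℕ → ℕ} (h : MRed (mren ρ M) N) :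
    ∃ M', MRed M M' ∧ N = mren ρ M' := by
  generalize hK : mren ρ M = K at h
  induction h with
  | refl => exact ⟨M, .refl, hK.symm⟩
  | tail _ b ih =>
      obtain ⟨M', r, rfl⟩ := ih
      obtain ⟨M'', b', rfl⟩ := mstep_mren_inv b
      exact ⟨M'', r.tail b', rfl⟩

/-! ### from function contexts to lists -/

theorem tmf_fin {P : Spec S} {idx : S → ℕ} {k : ℕ} {D : ℕ → Term S} {M : MT S} {A : Term S}
    (h : TMF P D M A) : NFF P idx k D M → ∃ n₀ : ℕ, ∀ (Γ : List (Term S)) (ρ : ℕ → ℕ), Wf P Γ →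
      (∀ i < n₀, Lk Γ (ρ i) (ren ρ (D i))) →
      TM P Γ (mren ρ M) (ren ρ A) ∧ NF P idx k Γ (mren ρ M) := by
  induction h with
  | @var D i s _ =>
      intro _
      exact ⟨i + 1, fun Γ ρ w hl => ⟨.var w (hl i (Nat.lt_succ_self i)), trivial⟩⟩
  | sort a => intro _; exact ⟨0, fun Γ ρ w _ => ⟨.sort w a, trivial⟩⟩
  | @pi D A B a b c hA hB r ih ih' =>
      rintro ⟨n1, n2⟩
      obtain ⟨m₁, h₁⟩ := ih n1
      obtain ⟨m₂, h₂⟩ := ih' n2
      refine ⟨max m₁ m₂, fun Γ ρ w hl => ?_⟩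
      obtain ⟨a1, a2⟩ := h₁ Γ ρ w (fun i hi => hl i (lt_of_lt_of_le hi (le_max_left _ _)))
      have wt := a1.typed
      rw [er_mren] at wt
      obtain ⟨b1, b2⟩ := h₂ (ren ρ (er A) :: Γ) (up ρ) (.cons w wt) (by
        intro i hi
        cases i with
        | zero => rw [fcons_zero, ren_up_wk]; exact .zero _ _
        | succ i =>
            rw [fcons_succ, ren_up_wk]
            exact .succ _ (hl i (lt_of_lt_of_le (Nat.lt_of_succ_lt hi) (le_max_right _ _))))
      refine ⟨.pi a1 ?_ r, a2, ?_⟩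
      · rw [er_mren]; exact b1
      · show NF P idx k (er (mren ρ A) :: Γ) (mren (up ρ) B)
        rw [er_mren]; exact b2
  | @lam D A M B a c hA hM hp ih ih' =>
      rintro ⟨n1, n2⟩
      obtain ⟨m₁, h₁⟩ := ih n1
      obtain ⟨m₂, h₂⟩ := ih' n2
      obtain ⟨m₃, h₃⟩ := tyf_fin hp
      refine ⟨max m₁ (max m₂ m₃), fun Γ ρ w hl => ?_⟩
      obtain ⟨a1, a2⟩ := h₁ Γ ρ w (fun i hi => hl i (lt_of_lt_of_le hi (le_max_left _ _)))
      have wt := a1.typed
      rw [er_mren] at wt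
      obtain ⟨b1, b2⟩ := h₂ (ren ρ (er A) :: Γ) (up ρ) (.cons w wt) (by
        intro i hi
        cases i with
        | zero => rw [fcons_zero, ren_up_wk]; exact .zero _ _
        | succ i =>
            rw [fcons_succ, ren_up_wk]
            exact .succ _ (hl i (lt_of_lt_of_le (Nat.lt_of_succ_lt hi)
              ((le_max_left _ _).trans (le_max_right _ _)))))
      have c1 := h₃ Γ ρ w (fun i hi => hl i (lt_of_lt_of_le hi
        ((le_max_right _ _).trans (le_max_right _ _))))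
      refine ⟨?_, a2, ?_⟩
      · have key := TM.lam (P := P) (Γ := Γ) (A := mren ρ A) (M := mren (up ρ) M)
          (B := ren (up ρ) B) (a := a) (c := c) a1 (by rw [er_mren]; exact b1)
          (by rw [er_mren]; exact c1)
        rw [er_mren] at key
        exact key
      · show NF P idx k (er (mren ρ A) :: Γ) (mren (up ρ) M)
        rw [er_mren]; exact b2
  | @app D M N A B hM hN ih ih' =>
      rintro ⟨n1, n2, n3⟩
      obtain ⟨m₁, h₁⟩ := ih n1
      obtain ⟨m₂, h₂⟩ := ih' n2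
      by_cases hL : IsL M
      · obtain ⟨T, s, hT, ⟨T', e, hT'⟩, hk⟩ := n3 hL
        obtain ⟨m₃, h₃⟩ := tyf_fin hT
        obtain ⟨m₄, h₄⟩ := tyf_fin hT'
        refine ⟨max (max m₁ m₂) (max m₃ m₄), fun Γ ρ w hl => ?_⟩
        obtain ⟨a1, a2⟩ := h₁ Γ ρ w (fun i hi => hl i (by omega))
        obtain ⟨b1, b2⟩ := h₂ Γ ρ w (fun i hi => hl i (by omega))
        have c3 := h₃ Γ ρ w (fun i hi => hl i (by omega))
        have c4 := h₄ Γ ρ w (fun i hi => hl i (by omega))
        refine ⟨?_, a2, b2, fun _ => ⟨ren ρ T, s, ?_, ⟨ren ρ T', BetaEq.ren e ρ, c4⟩, hk⟩⟩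
        · rw [ren_inst, ← er_mren]
          exact .app a1 b1
        · rw [er_mren]; exact c3
      · refine ⟨max m₁ m₂, fun Γ ρ w hl => ?_⟩
        obtain ⟨a1, a2⟩ := h₁ Γ ρ w (fun i hi => hl i (by omega))
        obtain ⟨b1, b2⟩ := h₂ Γ ρ w (fun i hi => hl i (by omega))
        refine ⟨?_, a2, b2, fun hl' => absurd (isL_mren_iff.1 hl') hL⟩
        rw [ren_inst, ← er_mren]
        exact .app a1 b1
  | mem _ _ ih ih' =>
      rintro ⟨n1, n2⟩
      obtain ⟨m₁, h₁⟩ := ih n1
      obtain ⟨m₂, h₂⟩ := ih' n2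
      refine ⟨max m₁ m₂, fun Γ ρ w hl => ?_⟩
      obtain ⟨a1, a2⟩ := h₁ Γ ρ w (fun i hi => hl i (by omega))
      obtain ⟨b1, b2⟩ := h₂ Γ ρ w (fun i hi => hl i (by omega))
      exact ⟨.mem a1 b1, a2, b2⟩
  | conv _ e hA ih =>
      intro hn
      obtain ⟨m₁, h₁⟩ := ih hn
      obtain ⟨m₂, h₂⟩ := tyf_fin hA
      refine ⟨max m₁ m₂, fun Γ ρ w hl => ?_⟩
      obtain ⟨a1, a2⟩ := h₁ Γ ρ w (fun i hi => hl i (by omega))
      have b := h₂ Γ ρ w (fun i hi => hl i (by omega))
      exact ⟨.conv a1 (BetaEq.ren e ρ) b, a2⟩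

/-! ### from lists to function contexts -/

theorem NF.nff {P : Spec S} {idx : S → ℕ} {k : ℕ} {M : MT S} :
    ∀ {Γ : List (Term S)} {D : ℕ → Term S} {ρ : ℕ → ℕ}, NF P idx k Γ M →
      (∀ i B, Lk Γ i B → D (ρ i) = ren ρ B) → NFF P idx k D (mren ρ M) := by
  induction M with
  | var i => intro Γ D ρ _ _; trivial
  | sort s => intro Γ D ρ _ _; trivial
  | app F Q ihF ihQ =>
      intro Γ D ρ ⟨h1, h2, h3⟩ hr
      refine ⟨ihF h1 hr, ihQ h2 hr, fun hl => ?_⟩
      obtain ⟨T, s, hT, ⟨T', e, hT'⟩, hk⟩ := h3 (isL_mren_iff.1 hl)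
      refine ⟨ren ρ T, s, ?_, ⟨ren ρ T', BetaEq.ren e ρ, typed_tyf hT' hr⟩, hk⟩
      rw [er_mren]; exact typed_tyf hT hr
  | lam A M ihA ihM =>
      intro Γ D ρ ⟨h1, h2⟩ hr
      refine ⟨ihA h1 hr, ?_⟩
      show NFF P idx k (fcons (er (mren ρ A)) D) (mren (up ρ) M)
      rw [er_mren]
      refine ihM h2 ?_
      intro i C hl
      cases hl with
      | zero _ _ => rw [ren_up_wk]; rfl
      | succ _ hl => rw [ren_up_wk, ← hr _ _ hl]; rfl
  | pi A M ihA ihM =>
      intro Γ D ρ ⟨h1, h2⟩ hr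
      refine ⟨ihA h1 hr, ?_⟩
      show NFF P idx k (fcons (er (mren ρ A)) D) (mren (up ρ) M)
      rw [er_mren]
      refine ihM h2 ?_
      intro i C hl
      cases hl with
      | zero _ _ => rw [ren_up_wk]; rfl
      | succ _ hl => rw [ren_up_wk, ← hr _ _ hl]; rfl
  | mem A M ihA ihM => intro Γ D ρ ⟨h1, h2⟩ hr; exact ⟨ihA h1 hr, ihM h2 hr⟩

theorem rw'_rw' (n i : ℕ) : rw' n (rw' n i) = i := by
  unfold rw'
  split_ifs <;> omega

/-- **bridge**: a stage theorem over lists gives the stage at every world -/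
theorem WNi.at {P : Spec S} {idx : S → ℕ} {i : ℕ} (h : WNi P idx i) {D : ℕ → Term S}
    (w : World P D) : WNiAt P idx i D := by
  intro M A hM hn
  obtain ⟨n, hfin⟩ := tmf_fin hM hn
  have hlk : ∀ j < n, Lk (lst D n) (rw' n j) (ren (rw' n) (D j)) := by
    intro j hj
    rw [rw'_eq hj, ren_rw' ((w.lev j).mono (le_of_lt hj))]
    exact lk_lst w.lev hj
  obtain ⟨h1, h2⟩ := hfin (lst D n) (rw' n) (w.lst.wf n) hlk
  obtain ⟨N, hr, hN⟩ := h _ _ _ h1 h2
  obtain ⟨M', hr', rfl⟩ := mred_mren_inv hr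
  refine ⟨M', hr', ?_⟩
  have := hN.nff (D := D) (ρ := rw' n) (by
    intro j B hl
    obtain ⟨hj, rfl⟩ := lk_lst_inv w.lev hl
    have hb : rv n j < n := rv_lt hj
    rw [rw'_eq hj, ← ren_rw' ((w.lev _).mono (le_of_lt hb)), ren_ren,
      ren_congr (w.lev (rv n j)) (τ := fun i => i) (fun i _ => rw'_rw' n i), ren_id])
  rw [mren_mren] at this
  have e : (fun i => rw' n (rw' n i)) = fun i => i := funext (rw'_rw' n)
  rw [e, mren_id] at this
  exact this

/-- block (a) over lists is enough -/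
theorem BlockA.w (h : BlockA) : BlockAW :=
  fun n P idx N hS hi _ w i h0 hu => (h n P idx N hS hi i h0 hu).at w

/-- block (T) over lists is enough -/
theorem BlockT.w {Fat : FatPred} (h : BlockT Fat) : BlockTW Fat :=
  fun n P idx N hS hi _ w i h0 hu => (h n P idx N hS hi i h0 hu).at w

end Crest.Agent.R298.Main865
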