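import Crest.Agent.R298.MW_961

/-!
R298 (S0452), helper704: candidates over helper961's abstract judgement `Jd` (same content as
`Cand_704`, which is over `TMF` and `NFF`).  Spine contexts `Fr`, `plug`; `W` is closed under
memory insertion in spine contexts; `CandJ`, `candJ_wt`, `candJ_pi`, `cstJ`, `BotJ`.
-/

set_option autoImplicit false
set_option linter.unusedVariables false

namespace Crest.Agent.R298.CandJ704

open Crest.LogicCS.PTS Relation
open Crest.Agent.R298.Sub452 Crest.Agent.R298.Par452
open Crest.Agent.R298.Mem360 Crest.Agent.R298.Jd961 Crest.Agent.R298.Jd961.Jd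
open Crest.Agent.R298.MW961
open Crest.Agent.R298.Mem360.MT (er emb er_emb IsL isL_of_dist dist mren)

universe u v

variable {S : Type u} {P : Spec S} {C : Type v} {J : Jd P C} {idx : S → ℕ} {k : ℕ} {G : C}

/-! ### spine contexts -/

/-- frames of spine contexts -/
inductive Fr (S : Type u) : Type u
  | ap : MT S → Fr S
  | me : MT S → Fr S

/-- plug a term into a spine context (outermost frame first) -/
def plug : List (Fr S) → MT S → MT S
  | [], v => v
  | .ap Q :: E, v => .app (plug E v) Q
  | .me N :: E, v => .mem (plug E v) N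

@[simp] theorem plug_nil (v : MT S) : plug [] v = v := rfl
@[simp] theorem plug_ap (Q : MT S) (E : List (Fr S)) (v : MT S) :
    plug (.ap Q :: E) v = .app (plug E v) Q := rfl
@[simp] theorem plug_me (Q : MT S) (E : List (Fr S)) (v : MT S) :
    plug (.me Q :: E) v = .mem (plug E v) Q := rfl

theorem plug_append (E E' : List (Fr S)) (v : MT S) : plug (E ++ E') v = plug E (plug E' v) := by
  induction E with
  | nil => rfl
  | cons f E ih => cases f <;> simp [ih]

theorem plug_step {v v' : MT S} (h : MStep v v') (E : List (Fr S)) :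
    MStep (plug E v) (plug E v') := by
  induction E with
  | nil => exact h
  | cons f E ih =>
      cases f with
      | ap Q => exact .appL _ ih
      | me Q => exact .memP _ ih

theorem plug_red {v v' : MT S} (h : MRed v v') (E : List (Fr S)) :
    MRed (plug E v) (plug E v') := by
  induction h with
  | refl => exact .refl
  | tail _ b ih => exact ih.tail (plug_step b E)

theorem er_plug_mem (E : List (Fr S)) (v n : MT S) :
    er (plug E (.mem v n)) = er (plug E v) := by
  induction E with
  | nil => rfl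
  | cons f E ih => cases f <;> simp [ih]

theorem isL_plug_mem {E : List (Fr S)} {v n : MT S} :
    IsL (plug E (.mem v n)) ↔ IsL (plug E v) := by
  induction E with
  | nil => rfl
  | cons f E ih =>
      cases f with
      | ap Q => simp
      | me Q => simpa using ih

/-- contraction through a spine context consisting of memories only -/
theorem dist_plug {E : List (Fr S)} {v Q R : MT S} (h : MT.dist (plug E v) Q = some R) :
    ∃ v', R = plug E v' ∧ ∀ n, MT.dist (plug E (.mem v n)) Q = some (plug E (.mem v' n)) := by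
  induction E generalizing R with
  | nil => exact ⟨R, rfl, fun n => by simp [show MT.dist v Q = some R from h]⟩
  | cons f E ih =>
      cases f with
      | ap N => simp at h
      | me N =>
          simp only [plug_me, MT.dist_mem, Option.map_eq_some_iff] at h
          obtain ⟨R', hR', rfl⟩ := h
          obtain ⟨v', rfl, h2⟩ := ih hR'
          exact ⟨v', rfl, fun n => by simp [h2 n]⟩

/-- a step of `plug E v` is simulated by `plug E (mem v n)` -/
theorem plug_mem_step {E : List (Fr S)} {v Y : MT S} (h : MStep (plug E v) Y) :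
    ∃ E' v', Y = plug E' v' ∧ ∀ n, MStep (plug E (.mem v n)) (plug E' (.mem v' n)) := by
  induction E generalizing Y with
  | nil => exact ⟨[], Y, rfl, fun n => .memP _ h⟩
  | cons f E ih =>
      cases f with
      | ap Q =>
          cases h with
          | beta hd =>
              obtain ⟨v', e, h2⟩ := dist_plug hd
              exact ⟨E, v', e, fun n => .beta (h2 n)⟩
          | appL _ b =>
              obtain ⟨E', v', rfl, h2⟩ := ih b
              exact ⟨.ap Q :: E', v', rfl, fun n => .appL _ (h2 n)⟩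
          | appR _ b => exact ⟨.ap _ :: E, v, rfl, fun n => .appR _ b⟩
      | me N =>
          cases h with
          | memP _ b =>
              obtain ⟨E', v', rfl, h2⟩ := ih b
              exact ⟨.me N :: E', v', rfl, fun n => .memP _ (h2 n)⟩
          | memN _ b => exact ⟨.me _ :: E, v, rfl, fun n => .memN _ b⟩

theorem plug_mem_red {E : List (Fr S)} {v Y : MT S} (h : MRed (plug E v) Y) :
    ∃ E' v', Y = plug E' v' ∧ ∀ n, MRed (plug E (.mem v n)) (plug E' (.mem v' n)) := by
  induction h with
  | refl => exact ⟨E, v, rfl, fun n => .refl⟩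
  | tail _ b ih =>
      obtain ⟨E', v', rfl, h2⟩ := ih
      obtain ⟨E'', v'', rfl, h3⟩ := plug_mem_step b
      exact ⟨E'', v'', rfl, fun n => (h2 n).tail (h3 n)⟩

theorem nf_plug_mem {E : List (Fr S)} {v n : MT S} (h : NF J idx k (plug E v) G)
    (hn : NF J idx k n G) : NF J idx k (plug E (.mem v n)) G := by
  induction E with
  | nil => exact ⟨h, hn⟩
  | cons f E ih =>
      cases f with
      | ap Q =>
          obtain ⟨h3, h1, h2⟩ := h
          refine ⟨fun hl => ?_, ih h1, h2⟩
          obtain ⟨T, a, b⟩ := h3 (isL_plug_mem.1 hl)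
          exact ⟨T, by rw [er_plug_mem]; exact a, b⟩
      | me Q => exact ⟨ih h.1, h.2⟩

/-- legality of `plug E (mem v n)` -/
theorem mok_plug_mem {E : List (Fr S)} {v n : MT S} (h : MOk J (plug E v) G)
    (hn : MOk J n G) : MOk J (plug E (.mem v n)) G := by
  induction E with
  | nil => exact ⟨h, hn⟩
  | cons f E ih =>
      cases f with
      | ap Q =>
          obtain ⟨⟨A, hA⟩, h1, h2⟩ := h
          exact ⟨⟨A, by rw [er_plug_mem]; exact hA⟩, ih h1, h2⟩
      | me Q => exact ⟨ih h.1, h.2⟩

/-- `W` is closed under insertion of memories in spine contexts -/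
theorem W_ins {E : List (Fr S)} {v n : MT S} (h : W J idx k G (plug E v))
    (hn : W J idx k G n) : W J idx k G (plug E (.mem v n)) := by
  obtain ⟨Y, h1, h2⟩ := h
  obtain ⟨n', h3, h4⟩ := hn
  obtain ⟨E', v', rfl, h5⟩ := plug_mem_red h1
  refine ⟨plug E' (.mem v' n'), (h5 n).trans (plug_red ?_ E'), nf_plug_mem h2 h4⟩
  exact MRed.mem .refl h3

/-- `W` is closed under head expansion in spine contexts -/
theorem W_exp {E : List (Fr S)} {F Q R : MT S} (hd : MT.dist F Q = some R)
    (h : W J idx k G (plug E R)) : W J idx k G (plug E (.app F Q)) :=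
  W.expand (.single (plug_step (.beta hd) E)) h

/-! ### candidates -/

/-- legal terms of type `T` in `W` -/
def WtJ (J : Jd P C) (idx : S → ℕ) (k : ℕ) (G : C) (T : Term S) : Set (MT S) :=
  {v | MOk J v G ∧ J.T G (er v) T ∧ W J idx k G v}

/-- candidates for the type `T` -/
structure CandJ (J : Jd P C) (idx : S → ℕ) (k : ℕ) (G : C) (T : Term S)
    (X : Set (MT S)) : Prop where
  sub : ∀ v ∈ X, MOk J v G ∧ J.T G (er v) T ∧ W J idx k G v
  ne : ∀ v, Ne J idx k G v → MOk J v G → J.T G (er v) T → v ∈ X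
  exp : ∀ E F Q R, MT.dist F Q = some R → plug E R ∈ X → MOk J (plug E (.app F Q)) G →
    J.T G (er (plug E (.app F Q))) T → plug E (.app F Q) ∈ X
  ins : ∀ E v n, plug E v ∈ X → MOk J n G → W J idx k G n → plug E (.mem v n) ∈ X

theorem candJ_wt (J : Jd P C) (idx : S → ℕ) (k : ℕ) (G : C) (T : Term S) :
    CandJ J idx k G T (WtJ J idx k G T) where
  sub v h := h
  ne v h hm ht := ⟨hm, ht, h.w⟩
  exp E F Q R hd h hm ht := ⟨hm, ht, W_exp hd h.2.2⟩
  ins E v n h hm hn := ⟨mok_plug_mem h.1 hm, by rw [er_plug_mem]; exact h.2.1, W_ins h.2.2 hn⟩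

/-- change of the type along conversion -/
theorem CandJ.conv {T T' : Term S} {X : Set (MT S)} (h : CandJ J idx k G T X)
    (hc : ∀ M, J.T G M T ↔ J.T G M T') : CandJ J idx k G T' X where
  sub v hv := ⟨(h.sub v hv).1, (hc _).1 (h.sub v hv).2.1, (h.sub v hv).2.2⟩
  ne v hv hm ht := h.ne v hv hm ((hc _).2 ht)
  exp E F Q R hd hR hm ht := h.exp E F Q R hd hR hm ((hc _).2 ht)
  ins E v n hv hm hn := h.ins E v n hv hm hn

theorem conv_iff {T T' : Term S} {s s' : S} (hT : J.T G T (.sort s))
    (hT' : J.T G T' (.sort s')) (e : BetaEq T T') (M : Term S) : J.T G M T ↔ J.T G M T' :=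
  ⟨fun h => J.tconv h hT' e, fun h => J.tconv h hT (BetaEq.symm e)⟩

theorem CandJ.conv' {T T' : Term S} {X : Set (MT S)} (h : CandJ J idx k G T X)
    {s s' : S} (hT : J.T G T (.sort s)) (hT' : J.T G T' (.sort s')) (e : BetaEq T T') :
    CandJ J idx k G T' X :=
  h.conv (conv_iff hT hT' e)

theorem wtJ_conv {T T' : Term S} {s s' : S} (hT : J.T G T (.sort s))
    (hT' : J.T G T' (.sort s')) (e : BetaEq T T') : WtJ J idx k G T = WtJ J idx k G T' := by
  ext v
  exact and_congr_right fun _ => and_congr_left fun _ => conv_iff hT hT' e _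

theorem CandJ.mem {T : Term S} {X : Set (MT S)} (h : CandJ J idx k G T X) {v n : MT S}
    (hv : v ∈ X) (hm : MOk J n G) (hn : W J idx k G n) : .mem v n ∈ X :=
  h.ins [] v n hv hm hn

/-- the product of candidates -/
def PiSetJ (J : Jd P C) (idx : S → ℕ) (k : ℕ) (G : C) (T : Term S) {I : Type*}
    (XA : Set (MT S)) (Al : MT S → I → Prop) (Y : MT S → I → Set (MT S)) : Set (MT S) :=
  {v | v ∈ WtJ J idx k G T ∧ ∀ w ∈ XA, ∀ j, Al w j → .app v w ∈ Y w j}

theorem candJ_pi {I : Type*} {A B : Term S} {XA : Set (MT S)} {Al : MT S → I → Prop}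
    {Y : MT S → I → Set (MT S)} (hA : XA ⊆ WtJ J idx k G A)
    (hY : ∀ w ∈ XA, ∀ j, Al w j → CandJ J idx k G (inst (er w) B) (Y w j)) :
    CandJ J idx k G (.pi A B) (PiSetJ J idx k G (.pi A B) XA Al Y) where
  sub v h := h.1
  ne v h hm ht := ⟨⟨hm, ht, h.w⟩, fun w hw j hj =>
    (hY w hw j hj).ne _ (.app h (hA hw).2.2)
      ⟨⟨_, J.tappl ht (hA hw).2.1⟩, hm, (hA hw).1⟩ (J.tappl ht (hA hw).2.1)⟩
  exp E F Q R hd h hm ht := ⟨⟨hm, ht, W_exp hd h.1.2.2⟩, fun w hw j hj =>
    (hY w hw j hj).exp (.ap w :: E) F Q R hd (h.2 w hw j hj)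
      ⟨⟨_, J.tappl ht (hA hw).2.1⟩, hm, (hA hw).1⟩ (J.tappl ht (hA hw).2.1)⟩
  ins E v n h hm hn := ⟨⟨mok_plug_mem h.1.1 hm, by rw [er_plug_mem]; exact h.1.2.1,
    W_ins h.1.2.2 hn⟩, fun w hw j hj =>
    (hY w hw j hj).ins (.ap w :: E) v n (h.2 w hw j hj) hm hn⟩

/-- the same for a type `T` convertible to a product -/
theorem candJ_pi' {I : Type*} {T A B : Term S} {s s' : S}
    (hT : J.T G T (.sort s)) (hp : J.T G (.pi A B) (.sort s')) (e : BetaEq T (.pi A B))
    {XA : Set (MT S)} {Al : MT S → I → Prop} {Y : MT S → I → Set (MT S)}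
    (hA : XA ⊆ WtJ J idx k G A)
    (hY : ∀ w ∈ XA, ∀ j, Al w j → CandJ J idx k G (inst (er w) B) (Y w j)) :
    CandJ J idx k G T (PiSetJ J idx k G T XA Al Y) := by
  have h := (candJ_pi hA hY).conv' hp hT (BetaEq.symm e)
  have e' : PiSetJ J idx k G T XA Al Y = PiSetJ J idx k G (.pi A B) XA Al Y := by
    unfold PiSetJ
    rw [wtJ_conv hT hp e]
  rw [e']
  exact h

/-- clamp a set of terms to a candidate of `T` -/
noncomputable def cstJ (J : Jd P C) (idx : S → ℕ) (k : ℕ) (G : C) (T : Term S)
    (X : Set (MT S)) : Set (MT S) := by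
  classical exact if CandJ J idx k G T X then X else WtJ J idx k G T

theorem candJ_cst (J : Jd P C) (idx : S → ℕ) (k : ℕ) (G : C) (T : Term S)
    (X : Set (MT S)) : CandJ J idx k G T (cstJ J idx k G T X) := by
  unfold cstJ
  split_ifs with h
  · exact h
  · exact candJ_wt J idx k G T

theorem cstJ_of_cand {T : Term S} {X : Set (MT S)} (h : CandJ J idx k G T X) :
    cstJ J idx k G T X = X := by
  unfold cstJ
  rw [if_pos h]

theorem cstJ_idem (T : Term S) (X : Set (MT S)) :
    cstJ J idx k G T (cstJ J idx k G T X) = cstJ J idx k G T X :=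
  cstJ_of_cand (candJ_cst J idx k G T X)

/-- the least candidate -/
inductive BotJ (J : Jd P C) (idx : S → ℕ) (k : ℕ) (G : C) (T : Term S) : MT S → Prop
  | ne {v : MT S} : Ne J idx k G v → MOk J v G → J.T G (er v) T → BotJ J idx k G T v
  | exp {E : List (Fr S)} {F Q R : MT S} : MT.dist F Q = some R → BotJ J idx k G T (plug E R) →
      MOk J (plug E (.app F Q)) G → J.T G (er (plug E (.app F Q))) T →
      BotJ J idx k G T (plug E (.app F Q))
  | ins {E : List (Fr S)} {v n : MT S} : BotJ J idx k G T (plug E v) → MOk J n G →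
      W J idx k G n → BotJ J idx k G T (plug E (.mem v n))

theorem BotJ.le {T : Term S} {X : Set (MT S)} (h : CandJ J idx k G T X) {v : MT S}
    (hv : BotJ J idx k G T v) : v ∈ X := by
  induction hv with
  | ne hn hm ht => exact h.ne _ hn hm ht
  | exp hd _ hm ht ih => exact h.exp _ _ _ _ hd ih hm ht
  | ins _ hm hn ih => exact h.ins _ _ _ ih hm hn

theorem candJ_bot (J : Jd P C) (idx : S → ℕ) (k : ℕ) (G : C) (T : Term S) :
    CandJ J idx k G T {v | BotJ J idx k G T v} where
  sub v hv := hv.le (candJ_wt J idx k G T)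
  ne v hv hm ht := .ne hv hm ht
  exp E F Q R hd hR hm ht := .exp hd hR hm ht
  ins E v n hv hm hn := .ins hv hm hn

/-! ### renaming -/

/-- renaming of frames -/
def Fr.mren (r : ℕ → ℕ) : Fr S → Fr S
  | .ap Q => .ap (MT.mren r Q)
  | .me N => .me (MT.mren r N)

theorem mren_plug (r : ℕ → ℕ) (E : List (Fr S)) (v : MT S) :
    MT.mren r (plug E v) = plug (E.map (Fr.mren r)) (MT.mren r v) := by
  induction E with
  | nil => rfl
  | cons f E ih => cases f <;> simp [Fr.mren, ih]

theorem BotJ.mren {D : C} {r : ℕ → ℕ} {T : Term S} {v : MT S} (h : BotJ J idx k G T v)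
    (wG : J.Wf G) (w : J.Wf D) (hr : Sb J (fun x => .var (r x)) G D) :
    BotJ J idx k D (ren r T) (MT.mren r v) := by
  induction h with
  | ne hn hm ht =>
      refine .ne (hn.mren hm wG w hr) (hm.mren w hr) ?_
      rw [MT.er_mren]
      exact tren ht w hr
  | @exp E F Q R hd _ hm ht ih =>
      have hm' := hm.mren w hr
      have ht' := tren ht w hr
      rw [← MT.er_mren] at ht'
      rw [mren_plug] at hm' ht' ih ⊢
      exact .exp (MT.dist_mren hd r) ih hm' ht'
  | @ins E v n _ hm hn ih =>
      rw [mren_plug] at ih ⊢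
      exact .ins ih (hm.mren w hr) (hn.mren hm wG w hr)

end Crest.Agent.R298.CandJ704
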