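import Crest.Agent.R298.MainF_865

/-!
R298 (S0452), helper704: candidates over a function context `D` (realizers are typed terms with
memory which reduce to a term without redexes of class `≤ i`).

`Wn`     : `M` reduces (by arbitrary steps) to an `NFF (i+1)` term,
`NeF`    : neutral terms with arguments and memories in `Wn`,
`Fr`, `plug` : spine contexts `hole | E Q | mem E N`,
`Cand`   : closure conditions of doc 2282 (R0),
`cand_wt`, `cand_pi`, `Cand.conv`, `cst`, `cand_cst`.
-/

set_option autoImplicit false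
set_option linter.unusedVariables false

namespace Crest.Agent.R298.Cand704

open Crest.LogicCS.PTS Relation
open Crest.Agent.R298.Sub452 Crest.Agent.R298.Par452 Crest.Agent.R298.Ty452
open Crest.Agent.R298.Mem360 Crest.Agent.R298.TyF452 Crest.Agent.R298.TyMF452
open Crest.Agent.R298.Main865
open Crest.Agent.R298.Mem360.MT (er emb er_emb IsL isL_of_dist dist)

universe u

variable {S : Type u}

/-! ### terms which can be normalised up to class `k` -/

/-- `M` reduces to a term without redexes of class `< k` -/
def Wn (P : Spec S) (idx : S → ℕ) (k : ℕ) (D : ℕ → Term S) (M : MT S) : Prop :=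
  ∃ M', MRed M M' ∧ NFF P idx k D M'

variable {P : Spec S} {idx : S → ℕ} {k : ℕ} {D : ℕ → Term S}

theorem Wn.of_red {M M' : MT S} (h : MRed M M') (w : Wn P idx k D M') : Wn P idx k D M := by
  obtain ⟨M'', h1, h2⟩ := w
  exact ⟨M'', h.trans h1, h2⟩

theorem Wn.of_step {M M' : MT S} (h : MStep M M') (w : Wn P idx k D M') : Wn P idx k D M :=
  Wn.of_red (.single h) w

theorem Wn.of_nff {M : MT S} (h : NFF P idx k D M) : Wn P idx k D M := ⟨M, .refl, h⟩

/-- neutral shape: a variable under applications and memories -/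
inductive NeS : MT S → Prop
  | var (n : ℕ) : NeS (.var n)
  | app {M N : MT S} : NeS M → NeS (.app M N)
  | mem {M N : MT S} : NeS M → NeS (.mem M N)

theorem NeS.not_isL {M : MT S} (h : NeS M) : ¬ IsL M := by
  induction h with
  | var n => exact fun h => h
  | app _ _ => exact fun h => h
  | mem _ ih => exact ih

theorem NeS.dist {M Q R : MT S} (h : NeS M) : ¬ MT.dist M Q = some R := fun e =>
  h.not_isL (isL_of_dist e)

theorem NeS.step {M M' : MT S} (h : NeS M) (s : MStep M M') : NeS M' := by
  induction h generalizing M' with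
  | var n => cases s
  | app h ih =>
      cases s with
      | beta hd => exact (h.dist hd).elim
      | appL _ b => exact .app (ih b)
      | appR _ b => exact .app h
  | mem h ih =>
      cases s with
      | memP _ b => exact .mem (ih b)
      | memN _ b => exact .mem h

theorem NeS.red {M M' : MT S} (h : NeS M) (s : MRed M M') : NeS M' := by
  induction s with
  | refl => exact h
  | tail _ b ih => exact ih.step b

/-- neutral terms with arguments and memories in `Wn` -/
inductive NeF (P : Spec S) (idx : S → ℕ) (k : ℕ) (D : ℕ → Term S) : MT S → Prop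
  | var (n : ℕ) : NeF P idx k D (.var n)
  | app {M N : MT S} : NeF P idx k D M → Wn P idx k D N → NeF P idx k D (.app M N)
  | mem {M N : MT S} : NeF P idx k D M → Wn P idx k D N → NeF P idx k D (.mem M N)

theorem NeF.nes {M : MT S} (h : NeF P idx k D M) : NeS M := by
  induction h with
  | var n => exact .var n
  | app _ _ ih => exact .app ih
  | mem _ _ ih => exact .mem ih

theorem NeF.wn {M : MT S} (h : NeF P idx k D M) : Wn P idx k D M := by
  induction h with
  | var n => exact ⟨_, .refl, trivial⟩
  | @app M N h hN ih =>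
      obtain ⟨M', h1, h2⟩ := ih
      obtain ⟨N', h3, h4⟩ := hN
      exact ⟨.app M' N', MRed.app h1 h3, h2, h4, fun hl => ((h.nes.red h1).not_isL hl).elim⟩
  | @mem M N h hN ih =>
      obtain ⟨M', h1, h2⟩ := ih
      obtain ⟨N', h3, h4⟩ := hN
      exact ⟨.mem M' N', MRed.mem h1 h3, h2, h4⟩

/-! ### spine contexts -/

/-- frames of spine contexts -/
inductive Fr (S : Type u) : Type u
  | ap : MT S → Fr S
  | me : MT S → Fr S

/-- plug a term into a spine context (outermost frame first) -/
def plug : List (Fr S) → MT S → MT S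
  | [], v => v
  | .ap Q :: E, v => .app (plug E v) Q
  | .me N :: E, v => .mem (plug E v) N

@[simp] theorem plug_nil (v : MT S) : plug [] v = v := rfl
@[simp] theorem plug_ap (Q : MT S) (E : List (Fr S)) (v : MT S) :
    plug (.ap Q :: E) v = .app (plug E v) Q := rfl
@[simp] theorem plug_me (Q : MT S) (E : List (Fr S)) (v : MT S) :
    plug (.me Q :: E) v = .mem (plug E v) Q := rfl

theorem plug_append (E E' : List (Fr S)) (v : MT S) : plug (E ++ E') v = plug E (plug E' v) := by
  induction E with
  | nil => rfl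
  | cons f E ih => cases f <;> simp [ih]

theorem plug_step {v v' : MT S} (h : MStep v v') (E : List (Fr S)) :
    MStep (plug E v) (plug E v') := by
  induction E with
  | nil => exact h
  | cons f E ih =>
      cases f with
      | ap Q => exact .appL _ ih
      | me Q => exact .memP _ ih

theorem plug_red {v v' : MT S} (h : MRed v v') (E : List (Fr S)) :
    MRed (plug E v) (plug E v') := by
  induction h with
  | refl => exact .refl
  | tail _ b ih => exact ih.tail (plug_step b E)

theorem er_plug_mem (E : List (Fr S)) (v n : MT S) :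
    er (plug E (.mem v n)) = er (plug E v) := by
  induction E with
  | nil => rfl
  | cons f E ih => cases f <;> simp [ih]

theorem isL_plug_mem {E : List (Fr S)} {v n : MT S} :
    IsL (plug E (.mem v n)) ↔ IsL (plug E v) := by
  induction E with
  | nil => rfl
  | cons f E ih =>
      cases f with
      | ap Q => simp
      | me Q => simpa using ih

/-- contraction through a spine context consisting of memories only -/
theorem dist_plug {E : List (Fr S)} {v Q R : MT S} (h : MT.dist (plug E v) Q = some R) :
    ∃ v', R = plug E v' ∧ ∀ n, MT.dist (plug E (.mem v n)) Q = some (plug E (.mem v' n)) := by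
  induction E generalizing R with
  | nil => exact ⟨R, rfl, fun n => by simp [show MT.dist v Q = some R from h]⟩
  | cons f E ih =>
      cases f with
      | ap N => simp at h
      | me N =>
          simp only [plug_me, MT.dist_mem, Option.map_eq_some_iff] at h
          obtain ⟨R', hR', rfl⟩ := h
          obtain ⟨v', rfl, h2⟩ := ih hR'
          exact ⟨v', rfl, fun n => by simp [h2 n]⟩

/-- a step of `plug E v` is simulated by `plug E (mem v n)` -/
theorem plug_mem_step {E : List (Fr S)} {v Y : MT S} (h : MStep (plug E v) Y) :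
    ∃ E' v', Y = plug E' v' ∧ ∀ n, MStep (plug E (.mem v n)) (plug E' (.mem v' n)) := by
  induction E generalizing Y with
  | nil => exact ⟨[], Y, rfl, fun n => .memP _ h⟩
  | cons f E ih =>
      cases f with
      | ap Q =>
          cases h with
          | beta hd =>
              obtain ⟨v', e, h2⟩ := dist_plug hd
              exact ⟨E, v', e, fun n => .beta (h2 n)⟩
          | appL _ b =>
              obtain ⟨E', v', rfl, h2⟩ := ih b
              exact ⟨.ap Q :: E', v', rfl, fun n => .appL _ (h2 n)⟩
          | appR _ b => exact ⟨.ap _ :: E, v, rfl, fun n => .appR _ b⟩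
      | me N =>
          cases h with
          | memP _ b =>
              obtain ⟨E', v', rfl, h2⟩ := ih b
              exact ⟨.me N :: E', v', rfl, fun n => .memP _ (h2 n)⟩
          | memN _ b => exact ⟨.me _ :: E, v, rfl, fun n => .memN _ b⟩

theorem plug_mem_red {E : List (Fr S)} {v Y : MT S} (h : MRed (plug E v) Y) :
    ∃ E' v', Y = plug E' v' ∧ ∀ n, MRed (plug E (.mem v n)) (plug E' (.mem v' n)) := by
  induction h with
  | refl => exact ⟨E, v, rfl, fun n => .refl⟩
  | tail _ b ih =>
      obtain ⟨E', v', rfl, h2⟩ := ih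
      obtain ⟨E'', v'', rfl, h3⟩ := plug_mem_step b
      exact ⟨E'', v'', rfl, fun n => (h2 n).tail (h3 n)⟩

theorem nff_plug_mem {E : List (Fr S)} {v n : MT S} (h : NFF P idx k D (plug E v))
    (hn : NFF P idx k D n) : NFF P idx k D (plug E (.mem v n)) := by
  induction E with
  | nil => exact ⟨h, hn⟩
  | cons f E ih =>
      cases f with
      | ap Q =>
          obtain ⟨h1, h2, h3⟩ := h
          refine ⟨ih h1, h2, fun hl => ?_⟩
          obtain ⟨T, s, a, b, c⟩ := h3 (isL_plug_mem.1 hl)
          exact ⟨T, s, by rw [er_plug_mem]; exact a, b, c⟩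
      | me Q => exact ⟨ih h.1, h.2⟩

/-- `Wn` is closed under insertion of memories in spine contexts -/
theorem Wn.ins {E : List (Fr S)} {v n : MT S} (h : Wn P idx k D (plug E v))
    (hn : Wn P idx k D n) : Wn P idx k D (plug E (.mem v n)) := by
  obtain ⟨Y, h1, h2⟩ := h
  obtain ⟨n', h3, h4⟩ := hn
  obtain ⟨E', v', rfl, h5⟩ := plug_mem_red h1
  refine ⟨plug E' (.mem v' n'), (h5 n).trans (plug_red ?_ E'), nff_plug_mem h2 h4⟩
  exact MRed.mem .refl h3

/-- `Wn` is closed under head expansion in spine contexts -/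
theorem Wn.exp {E : List (Fr S)} {F Q R : MT S} (hd : MT.dist F Q = some R)
    (h : Wn P idx k D (plug E R)) : Wn P idx k D (plug E (.app F Q)) :=
  Wn.of_step (plug_step (.beta hd) E) h

theorem Wn.mem {v n : MT S} (h : Wn P idx k D v) (hn : Wn P idx k D n) :
    Wn P idx k D (.mem v n) := Wn.ins (E := []) h hn

/-! ### candidates -/

/-- typed members of `Wn` -/
def Wt (P : Spec S) (idx : S → ℕ) (k : ℕ) (D : ℕ → Term S) (T : Term S) : Set (MT S) :=
  {v | TMF P D v T ∧ Wn P idx k D v}

/-- candidates for the type `T` -/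
structure Cand (P : Spec S) (idx : S → ℕ) (k : ℕ) (D : ℕ → Term S) (T : Term S)
    (X : Set (MT S)) : Prop where
  sub : ∀ v ∈ X, TMF P D v T ∧ Wn P idx k D v
  ne : ∀ v, NeF P idx k D v → TMF P D v T → v ∈ X
  exp : ∀ E F Q R, MT.dist F Q = some R → plug E R ∈ X → TMF P D (plug E (.app F Q)) T →
    plug E (.app F Q) ∈ X
  ins : ∀ E v n, plug E v ∈ X → Wn P idx k D n → TMF P D (plug E (.mem v n)) T →
    plug E (.mem v n) ∈ X

theorem cand_wt (P : Spec S) (idx : S → ℕ) (k : ℕ) (D : ℕ → Term S) (T : Term S) :
    Cand P idx k D T (Wt P idx k D T) where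
  sub v h := h
  ne v h ht := ⟨ht, h.wn⟩
  exp E F Q R hd h ht := ⟨ht, Wn.exp hd h.2⟩
  ins E v n h hn ht := ⟨ht, Wn.ins h.2 hn⟩

/-- change of the type along conversion -/
theorem Cand.conv {T T' : Term S} {X : Set (MT S)} (h : Cand P idx k D T X)
    (hc : ∀ v, TMF P D v T ↔ TMF P D v T') : Cand P idx k D T' X where
  sub v hv := ⟨(hc v).1 (h.sub v hv).1, (h.sub v hv).2⟩
  ne v hv ht := h.ne v hv ((hc v).2 ht)
  exp E F Q R hd hR ht := h.exp E F Q R hd hR ((hc _).2 ht)
  ins E v n hv hn ht := h.ins E v n hv hn ((hc _).2 ht)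

theorem tmf_conv_iff (w : WfF P D) {T T' : Term S} {s s' : S} (hT : TyF P D T (.sort s))
    (hT' : TyF P D T' (.sort s')) (e : BetaEq T T') (v : MT S) :
    TMF P D v T ↔ TMF P D v T' :=
  ⟨fun h => .conv h e hT', fun h => .conv h (BetaEq.symm e) hT⟩

theorem Cand.conv' {T T' : Term S} {X : Set (MT S)} (w : WfF P D) (h : Cand P idx k D T X)
    {s s' : S} (hT : TyF P D T (.sort s)) (hT' : TyF P D T' (.sort s')) (e : BetaEq T T') :
    Cand P idx k D T' X :=
  h.conv (tmf_conv_iff w hT hT' e)

theorem wt_conv (w : WfF P D) {T T' : Term S} {s s' : S} (hT : TyF P D T (.sort s))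
    (hT' : TyF P D T' (.sort s')) (e : BetaEq T T') : Wt P idx k D T = Wt P idx k D T' := by
  ext v
  exact and_congr_left fun _ => tmf_conv_iff w hT hT' e v

theorem Cand.mem {T : Term S} {X : Set (MT S)} (h : Cand P idx k D T X) {v n : MT S}
    (hv : v ∈ X) (hn : Wn P idx k D n) {C : Term S} (ht : TMF P D n C) : .mem v n ∈ X :=
  h.ins [] v n hv hn (.mem (h.sub v hv).1 ht)

theorem Cand.var {T : Term S} {X : Set (MT S)} (h : Cand P idx k D T X) {n : ℕ}
    (ht : TMF P D (.var n) T) : .var n ∈ X := h.ne _ (.var n) ht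

/-- the product of candidates: `XA` realizers of the domain, `Al w j` the allowed semantic
values `j` of the realizer `w`, `Y w j` the candidate of the instance of the codomain -/
def PiSet (P : Spec S) (idx : S → ℕ) (k : ℕ) (D : ℕ → Term S) (T : Term S) {J : Type*}
    (XA : Set (MT S)) (Al : MT S → J → Prop) (Y : MT S → J → Set (MT S)) : Set (MT S) :=
  {v | TMF P D v T ∧ Wn P idx k D v ∧ ∀ w ∈ XA, ∀ j, Al w j → .app v w ∈ Y w j}

theorem cand_pi {J : Type*} {A B : Term S} {XA : Set (MT S)} {Al : MT S → J → Prop}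
    {Y : MT S → J → Set (MT S)}
    (hA : ∀ w ∈ XA, TMF P D w A ∧ Wn P idx k D w)
    (hY : ∀ w ∈ XA, ∀ j, Al w j → Cand P idx k D (inst (er w) B) (Y w j)) :
    Cand P idx k D (.pi A B) (PiSet P idx k D (.pi A B) XA Al Y) where
  sub v h := ⟨h.1, h.2.1⟩
  ne v h ht := ⟨ht, h.wn, fun w hw j hj =>
    (hY w hw j hj).ne _ (.app h (hA w hw).2) (.app ht (hA w hw).1)⟩
  exp E F Q R hd h ht := ⟨ht, Wn.exp hd h.2.1, fun w hw j hj =>
    (hY w hw j hj).exp (.ap w :: E) F Q R hd (h.2.2 w hw j hj) (.app ht (hA w hw).1)⟩
  ins E v n h hn ht := ⟨ht, Wn.ins h.2.1 hn, fun w hw j hj =>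
    (hY w hw j hj).ins (.ap w :: E) v n (h.2.2 w hw j hj) hn (.app ht (hA w hw).1)⟩

/-- the same for a type `T` convertible to a product -/
theorem cand_pi' {J : Type*} (w : WfF P D) {T A B : Term S} {s s' : S}
    (hT : TyF P D T (.sort s)) (hp : TyF P D (.pi A B) (.sort s')) (e : BetaEq T (.pi A B))
    {XA : Set (MT S)} {Al : MT S → J → Prop} {Y : MT S → J → Set (MT S)}
    (hA : ∀ w ∈ XA, TMF P D w A ∧ Wn P idx k D w)
    (hY : ∀ w ∈ XA, ∀ j, Al w j → Cand P idx k D (inst (er w) B) (Y w j)) :
    Cand P idx k D T (PiSet P idx k D T XA Al Y) := by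
  have h := (cand_pi hA hY).conv' w hp hT (BetaEq.symm e)
  have e' : PiSet P idx k D T XA Al Y = PiSet P idx k D (.pi A B) XA Al Y := by
    ext v
    exact and_congr_left fun _ => tmf_conv_iff w hT hp e v
  rw [e']
  exact h

/-- intersection of candidates -/
theorem cand_inter {J : Type*} {T : Term S} (X : J → Set (MT S)) (j₀ : J)
    (h : ∀ j, Cand P idx k D T (X j)) : Cand P idx k D T {v | ∀ j, v ∈ X j} where
  sub v hv := (h j₀).sub v (hv j₀)
  ne v hv ht j := (h j).ne v hv ht
  exp E F Q R hd hR ht j := (h j).exp E F Q R hd (hR j) ht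
  ins E v n hv hn ht j := (h j).ins E v n (hv j) hn ht

/-- clamp a set of terms to a candidate of `T` -/
noncomputable def cst (P : Spec S) (idx : S → ℕ) (k : ℕ) (D : ℕ → Term S) (T : Term S)
    (X : Set (MT S)) : Set (MT S) := by
  classical exact if Cand P idx k D T X then X else Wt P idx k D T

theorem cand_cst (P : Spec S) (idx : S → ℕ) (k : ℕ) (D : ℕ → Term S) (T : Term S)
    (X : Set (MT S)) : Cand P idx k D T (cst P idx k D T X) := by
  unfold cst
  split_ifs with h
  · exact h
  · exact cand_wt P idx k D T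

theorem cst_of_cand {T : Term S} {X : Set (MT S)} (h : Cand P idx k D T X) :
    cst P idx k D T X = X := by
  unfold cst
  rw [if_pos h]

theorem cst_idem (T : Term S) (X : Set (MT S)) :
    cst P idx k D T (cst P idx k D T X) = cst P idx k D T X :=
  cst_of_cand (cand_cst P idx k D T X)

/-- the least candidate -/
inductive Bot (P : Spec S) (idx : S → ℕ) (k : ℕ) (D : ℕ → Term S) (T : Term S) : MT S → Prop
  | ne {v : MT S} : NeF P idx k D v → TMF P D v T → Bot P idx k D T v
  | exp {E : List (Fr S)} {F Q R : MT S} : MT.dist F Q = some R → Bot P idx k D T (plug E R) →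
      TMF P D (plug E (.app F Q)) T → Bot P idx k D T (plug E (.app F Q))
  | ins {E : List (Fr S)} {v n : MT S} : Bot P idx k D T (plug E v) → Wn P idx k D n →
      TMF P D (plug E (.mem v n)) T → Bot P idx k D T (plug E (.mem v n))

theorem Bot.le {T : Term S} {X : Set (MT S)} (h : Cand P idx k D T X) {v : MT S}
    (hv : Bot P idx k D T v) : v ∈ X := by
  induction hv with
  | ne hn ht => exact h.ne _ hn ht
  | exp hd _ ht ih => exact h.exp _ _ _ _ hd ih ht
  | ins _ hn ht ih => exact h.ins _ _ _ ih hn ht

theorem cand_bot (P : Spec S) (idx : S → ℕ) (k : ℕ) (D : ℕ → Term S) (T : Term S) :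
    Cand P idx k D T {v | Bot P idx k D T v} where
  sub v hv := hv.le (cand_wt P idx k D T)
  ne v hv ht := .ne hv ht
  exp E F Q R hd hR ht := .exp hd hR ht
  ins E v n hv hn ht := .ins hv hn ht

/-- abstraction: the lambda case of the fundamental lemma -/
theorem Cand.lam_app {T : Term S} {X : Set (MT S)} (h : Cand P idx k D T X) {A M w : MT S}
    (hw : Wn P idx k D w) (hA : Wn P idx k D A) {C C' : Term S} (hwt : TMF P D w C)
    (hAt : TMF P D A C') (hM : MT.minst w M ∈ X) (ht : TMF P D (.app (.lam A M) w) T) :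
    .app (.lam A M) w ∈ X := by
  refine h.exp [] (.lam A M) w _ (MT.dist_lam A M w) ?_ ht
  exact h.mem (h.mem hM hw hwt) hA hAt

end Crest.Agent.R298.Cand704
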