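import Crest.Agent.R298.Uniq_452
import Crest.Agent.R298.Fl1_113

/-!
R298 (S0452), helper658: closed types over a world `D0`: canonical representatives `nfr` of
conversion classes, relevance by instance chains, signs (from the sort-level signs of helper113),
shapes of the infos, valid paths `Lf`, the relation `Blt` on types with both signs.
Everything is invariant under `BetaEq` by definition.
-/

set_option autoImplicit false

namespace Crest.Agent.R298.Cl658

open Crest.LogicCS.PTS Crest.LogicCS.PTS.Term Relation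
open Crest.Agent.R298.Sub452 Crest.Agent.R298.Par452 Crest.Agent.R298.Ty452
open Crest.Agent.R298.TyF452
open Crest.Agent.R298.Uniq452 (FS funiq)

/-- the sorts of a type -/
abbrev Sig {S : Type} (P : Spec S) (D0 : ℕ → Term S) (T : Term S) (s : S) : Prop :=
  Uniq452.Sg P D0 T s

variable {S : Type}

/-! ### canonical representatives -/

/-- conversion as a setoid -/
def bsetoid (S : Type) : Setoid (Term S) :=
  ⟨BetaEq, ⟨BetaEq.refl, BetaEq.symm, BetaEq.trans⟩⟩

/-- the normal form if there is one, else a fixed representative of the conversion class -/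
noncomputable def nfr (M : Term S) : Term S :=
  open Classical in
  if h : ∃ N, Normal N ∧ BetaEq M N then h.choose else (Quotient.mk (bsetoid S) M).out

theorem nfr_beta (M : Term S) : BetaEq (nfr M) M := by
  unfold nfr
  split
  · next h => exact BetaEq.symm h.choose_spec.2
  · exact Quotient.exact (s := bsetoid S) (Quotient.out_eq _)

theorem nfr_congr {M M' : Term S} (e : BetaEq M M') : nfr M = nfr M' := by
  unfold nfr
  by_cases h : ∃ N, Normal N ∧ BetaEq M N
  · have h' : ∃ N, Normal N ∧ BetaEq M' N :=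
      ⟨_, h.choose_spec.1, BetaEq.trans (BetaEq.symm e) h.choose_spec.2⟩
    rw [dif_pos h, dif_pos h']
    exact normal_unique (BetaEq.trans (BetaEq.symm h.choose_spec.2)
      (BetaEq.trans e h'.choose_spec.2)) h.choose_spec.1 h'.choose_spec.1
  · have h' : ¬ ∃ N, Normal N ∧ BetaEq M' N := by
      rintro ⟨N, n, e'⟩
      exact h ⟨N, n, BetaEq.trans e e'⟩
    rw [dif_neg h, dif_neg h']
    congr 1
    exact Quotient.sound (s := bsetoid S) e

theorem nfr_iff {M M' : Term S} : nfr M = nfr M' ↔ BetaEq M M' :=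
  ⟨fun h => BetaEq.trans (BetaEq.symm (nfr_beta M)) (h ▸ nfr_beta M'), nfr_congr⟩

@[simp] theorem nfr_nfr (M : Term S) : nfr (nfr M) = nfr M := nfr_congr (nfr_beta M)

theorem nfr_of_normal {M : Term S} (h : Normal M) : nfr M = M := by
  have h' : ∃ N, Normal N ∧ BetaEq M N := ⟨M, h, .refl _⟩
  unfold nfr
  rw [dif_pos h']
  exact normal_unique (BetaEq.symm h'.choose_spec.2) h'.choose_spec.1 h

theorem nfr_normal {M : Term S} (h : WN M) : Normal (nfr M) ∧ Red M (nfr M) := by
  obtain ⟨N, r, n⟩ := h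
  have e : nfr M = N := (nfr_congr (Red.eq r)).trans (nfr_of_normal n)
  rw [e]
  exact ⟨n, r⟩

/-- the world: a well formed function context over which typed terms are weakly normalising -/
structure Wd (P : Spec S) (D0 : ℕ → Term S) : Prop where
  wf : WfF P D0
  wn : ∀ {M A : Term S}, TyF P D0 M A → WN M

variable {P : Spec S} {D0 : ℕ → Term S} {D : Set S}

theorem Wd.nfr (w : Wd P D0) {M A : Term S} (h : TyF P D0 M A) : TyF P D0 (nfr M) A :=
  FSR w.wf h (nfr_normal (w.wn h)).2

/-- conversion of the type, when the new type is convertible with a typed one -/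
theorem ty_conv {M A A' : Term S} {s : S} (h : TyF P D0 M A) (e : BetaEq A A')
    (h' : TyF P D0 A' (sort s)) : TyF P D0 M A' := .conv h h' e

/-! ### relevance -/

/-- relevant closed types: some chain of closed instances of codomains ends in a sort of `D` -/
inductive Rel (P : Spec S) (D0 : ℕ → Term S) (D : Set S) : Term S → Prop
  | base {K : Term S} {s : S} : s ∈ D → BetaEq K (sort s) → Rel P D0 D K
  | step {K A B a : Term S} {c : S} : BetaEq K (pi A B) → TyF P D0 (pi A B) (sort c) →
      TyF P D0 a A → Rel P D0 D (inst a B) → Rel P D0 D K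

theorem Rel.conv {K K' : Term S} (h : Rel P D0 D K) (e : BetaEq K K') : Rel P D0 D K' := by
  cases h with
  | base hs e' => exact .base hs (BetaEq.trans (BetaEq.symm e) e')
  | step e' h1 h2 h3 => exact .step (BetaEq.trans (BetaEq.symm e) e') h1 h2 h3

theorem rel_congr {K K' : Term S} (e : BetaEq K K') : Rel P D0 D K ↔ Rel P D0 D K' :=
  ⟨fun h => h.conv e, fun h => h.conv (BetaEq.symm e)⟩

/-- the sorts of a product -/
theorem sig_pi (w : WfF P D0) {A B : Term S} {t : S} (h : Sig P D0 (pi A B) t) :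
    ∃ a' b', P.rule a' b' t ∧ Sig P D0 A a' ∧ ∀ a, TyF P D0 a A → Sig P D0 (inst a B) b' := by
  obtain ⟨a', b', r, h1, A', rA, hA', hB⟩ := Uniq452.Sg.pi_inv w h
  exact ⟨a', b', r, h1, fun a ha => Uniq452.Sg.inst w hB ((.conv ha hA' (Red.eq rA)))⟩

theorem sig_conv {T T' : Term S} {s : S} (h : Sig P D0 T s) (e : BetaEq T T') : Sig P D0 T' s :=
  Uniq452.Sg.conv h (BetaEq.symm e)

theorem relS_of_rel (w : WfF P D0) {K : Term S} (h : Rel P D0 D K) :
    ∀ {t : S}, Sig P D0 K t → Fl113.RelS P D t := by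
  induction h with
  | @base K s hs e =>
      intro t ht
      obtain ⟨T', e', h'⟩ := sig_conv ht e
      have h2 := FSR w h' (red_of_eq_sort (BetaEq.symm e'))
      obtain ⟨t', hax, e2⟩ := fgen_sort h2 _ rfl
      have := sort_inj e2
      subst this
      exact .base hs hax
  | @step K A B a c e _ h2 _ ih =>
      intro t ht
      obtain ⟨a', b', r, _, h4⟩ := sig_pi w (sig_conv ht e)
      exact .up r (ih (h4 a h2))

/-! ### signs -/

/-- the signs of a closed type -/
def sgn (P : Spec S) (D0 : ℕ → Term S) (D : Set S) (e : Bool) (K : Term S) : Prop :=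
  ∃ t, Sig P D0 K t ∧ Fl113.Sg P D t e

theorem sgn.conv {e : Bool} {K K' : Term S} (h : sgn P D0 D e K) (e' : BetaEq K K') :
    sgn P D0 D e K' := by
  obtain ⟨t, h1, h2⟩ := h
  exact ⟨t, sig_conv h1 e', h2⟩

theorem sgn_congr {e : Bool} {K K' : Term S} (e' : BetaEq K K') :
    sgn P D0 D e K ↔ sgn P D0 D e K' := ⟨fun h => h.conv e', fun h => h.conv (BetaEq.symm e')⟩

theorem sgn_cod (w : WfF P D0) {e : Bool} {A B a : Term S} (h : sgn P D0 D e (pi A B))
    (ha : TyF P D0 a A) (hr : Rel P D0 D (inst a B)) : sgn P D0 D e (inst a B) := by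
  obtain ⟨t, h1, h2⟩ := h
  obtain ⟨a', b', r, _, h4⟩ := sig_pi w h1
  exact ⟨b', h4 a ha, .cod r (relS_of_rel w hr (h4 a ha)) h2⟩

/-- inversion of relevance at a typed product -/
theorem Rel.pi_inv {K A B : Term S} {c : S} (h : Rel P D0 D K)
    (e : BetaEq K (pi A B)) (hp : TyF P D0 (pi A B) (sort c)) :
    ∃ a, TyF P D0 a A ∧ Rel P D0 D (inst a B) := by
  cases h with
  | base hs e' => exact absurd (BetaEq.trans (BetaEq.symm e') e) not_sort_pi
  | @step _ A' B' a c' e' h1 h2 h3 =>
      obtain ⟨e1, e2⟩ := pi_inj (BetaEq.trans (BetaEq.symm e') e)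
      obtain ⟨s, hA⟩ := fpi_dom hp
      exact ⟨a, .conv h2 hA e1, h3.conv (BetaEq.sub e2 _)⟩

theorem sgn_dom (w : WfF P D0) {e : Bool} {A B : Term S} {c : S} (h : sgn P D0 D e (pi A B))
    (hp : TyF P D0 (pi A B) (sort c)) (hr : Rel P D0 D (pi A B)) (hA : Rel P D0 D A) :
    sgn P D0 D (!e) A := by
  obtain ⟨t, h1, h2⟩ := h
  obtain ⟨a', b', r, h3, h4⟩ := sig_pi w h1
  obtain ⟨a, ha, hra⟩ := hr.pi_inv (.refl _) hp
  exact ⟨a', h3, .dom r (relS_of_rel w hA h3) (relS_of_rel w hra (h4 a ha)) h2⟩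

/-- `D`-bound types have sign `true` -/
theorem sgn_bound (w : WfF P D0) {A : Term S} {a b c : S} (hA : Sig P D0 A a)
    (r : P.rule a b c) (hb : b ∈ D) (hc : c ∈ D) (hr : Rel P D0 D A) : sgn P D0 D true A :=
  ⟨a, hA, .base r hb hc (relS_of_rel w hr hA)⟩

/-! ### shapes -/

/-- shapes of infos -/
inductive Shp (S : Type) : Type
  | non : Shp S
  | dfl : Shp S
  | bo : Term S → Shp S
  | ar : Shp S
  | qu : Shp S

/-- the shape of the info of an argument at the closed type `K` -/
noncomputable def xsh (P : Spec S) (D0 : ℕ → Term S) (D : Set S) (K : Term S) : Shp S :=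
  open Classical in
  if Rel P D0 D K then
    if sgn P D0 D true K then (if sgn P D0 D false K then .bo (nfr K) else .qu)
    else (if sgn P D0 D false K then .ar else .dfl)
  else .non

/-- the shape of the infos a quantifier over `K` ranges over -/
noncomputable def qsh (P : Spec S) (D0 : ℕ → Term S) (D : Set S) (K : Term S) : Shp S :=
  open Classical in
  if Rel P D0 D K then
    if sgn P D0 D true K then (if sgn P D0 D false K then .bo (nfr K) else .qu)
    else .dfl
  else .non

theorem xsh_congr {K K' : Term S} (e : BetaEq K K') : xsh P D0 D K = xsh P D0 D K' := by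
  unfold xsh
  rw [rel_congr e, sgn_congr e, sgn_congr e, nfr_congr e]

theorem qsh_congr {K K' : Term S} (e : BetaEq K K') : qsh P D0 D K = qsh P D0 D K' := by
  unfold qsh
  rw [rel_congr e, sgn_congr e, sgn_congr e, nfr_congr e]

@[simp] theorem xsh_nfr (K : Term S) : xsh P D0 D (nfr K) = xsh P D0 D K := xsh_congr (nfr_beta K)
@[simp] theorem qsh_nfr (K : Term S) : qsh P D0 D (nfr K) = qsh P D0 D K := qsh_congr (nfr_beta K)

theorem qsh_ne_ar (K : Term S) : qsh P D0 D K ≠ .ar := by
  unfold qsh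
  split_ifs <;> simp

theorem xsh_ne_dfl {K : Term S} {e : Bool} (h : Rel P D0 D K → sgn P D0 D e K) :
    xsh P D0 D K ≠ .dfl := by
  unfold xsh
  cases e <;> split_ifs <;> simp_all

theorem xsh_ne_qu {K : Term S} (h : Rel P D0 D K → sgn P D0 D false K) :
    xsh P D0 D K ≠ .qu := by
  unfold xsh
  split_ifs <;> simp_all

theorem xsh_ne_ar {K : Term S} (h : Rel P D0 D K → sgn P D0 D true K) :
    xsh P D0 D K ≠ .ar := by
  unfold xsh
  split_ifs <;> simp_all

/-! ### valid paths -/

/-- `Lf K l`: the closed type `K` can be instantiated along `l`, every info has the shape of its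
domain, and the end is a sort of `D` -/
inductive Lf (P : Spec S) (D0 : ℕ → Term S) (D : Set S) : Term S → List (Term S × Shp S) → Prop
  | nil {K : Term S} {s : S} : s ∈ D → BetaEq K (sort s) → Lf P D0 D K []
  | cons {K A B a : Term S} {c : S} {l : List (Term S × Shp S)} : BetaEq K (pi A B) →
      TyF P D0 (pi A B) (sort c) → TyF P D0 a A → Lf P D0 D (inst a B) l →
      Lf P D0 D K ((a, xsh P D0 D A) :: l)

theorem Lf.conv {K K' : Term S} {l : List (Term S × Shp S)} (h : Lf P D0 D K l)
    (e : BetaEq K K') : Lf P D0 D K' l := by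
  cases h with
  | nil hs e' => exact .nil hs (BetaEq.trans (BetaEq.symm e) e')
  | cons e' h1 h2 h3 => exact .cons (BetaEq.trans (BetaEq.symm e) e') h1 h2 h3

theorem lf_congr {K K' : Term S} {l : List (Term S × Shp S)} (e : BetaEq K K') :
    Lf P D0 D K l ↔ Lf P D0 D K' l := ⟨fun h => h.conv e, fun h => h.conv (BetaEq.symm e)⟩

theorem Lf.rel {K : Term S} {l : List (Term S × Shp S)} (h : Lf P D0 D K l) : Rel P D0 D K := by
  induction h with
  | nil hs e => exact .base hs e
  | cons e h1 h2 _ ih => exact .step e h1 h2 ih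

/-- inversion of validity at a typed product -/
theorem Lf.pi_inv {K A B : Term S} {c : S} {x : Term S × Shp S} {l : List (Term S × Shp S)}
    (h : Lf P D0 D K (x :: l)) (e : BetaEq K (pi A B)) (hp : TyF P D0 (pi A B) (sort c)) :
    TyF P D0 x.1 A ∧ x.2 = xsh P D0 D A ∧ Lf P D0 D (inst x.1 B) l := by
  cases h with
  | @cons _ A' B' a c' _ e' h1 h2 h3 =>
      obtain ⟨e1, e2⟩ := pi_inj (BetaEq.trans (BetaEq.symm e') e)
      obtain ⟨s, hA⟩ := fpi_dom hp
      exact ⟨.conv h2 hA e1, xsh_congr e1, h3.conv (BetaEq.sub e2 _)⟩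

theorem Lf.nil_inv {K : Term S} (h : Lf P D0 D K []) : ∃ s ∈ D, BetaEq K (sort s) := by
  cases h with
  | nil hs e => exact ⟨_, hs, e⟩

theorem Lf.sort_inv {s : S} (h : Lf P D0 D (sort s) []) : s ∈ D := by
  obtain ⟨t, ht, e⟩ := h.nil_inv
  rw [sort_inj e]; exact ht

theorem lf_sort {s : S} (h : s ∈ D) : Lf P D0 D (sort s) [] := .nil h (.refl _)

theorem Lf.not_sort_cons {K : Term S} {s : S} {x : Term S × Shp S} {l : List (Term S × Shp S)}
    (h : Lf P D0 D K (x :: l)) (e : BetaEq K (sort s)) : False := by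
  cases h with
  | cons e' _ _ _ => exact not_sort_pi (BetaEq.trans (BetaEq.symm e) e')

/-- shapes in the valid paths of a signed type -/
theorem Lf.shapes (w : WfF P D0) {K : Term S} {l : List (Term S × Shp S)} (h : Lf P D0 D K l) :
    ∀ {e : Bool}, sgn P D0 D e K → ∀ x ∈ l, x.2 ≠ .dfl ∧ (e = true → x.2 ≠ .qu) ∧
      (e = false → x.2 ≠ .ar) := by
  induction h with
  | nil _ _ => intro e _ x hx; simp at hx
  | @cons K A B a c l e1 h1 h2 h3 ih =>
      intro e hs x hx
      have hs' := hs.conv e1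
      have hrel : Rel P D0 D (pi A B) := .step (.refl _) h1 h2 h3.rel
      have hdom : Rel P D0 D A → sgn P D0 D (!e) A := fun hA => sgn_dom w hs' h1 hrel hA
      rcases List.mem_cons.1 hx with rfl | hx
      · refine ⟨xsh_ne_dfl hdom, ?_, ?_⟩
        · rintro rfl
          exact xsh_ne_qu hdom
        · rintro rfl
          exact xsh_ne_ar hdom
      · exact ih (sgn_cod w hs' h2 h3.rel) x hx

/-! ### types with both signs -/

/-- `Ds T A`: `A` is the (relevant) domain of an instance of a codomain of the relevant type `T` -/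
inductive Ds (P : Spec S) (D0 : ℕ → Term S) (D : Set S) : Term S → Term S → Prop
  | here {T A B : Term S} {c : S} : BetaEq T (pi A B) → TyF P D0 (pi A B) (sort c) →
      Rel P D0 D T → Rel P D0 D A → Ds P D0 D T A
  | step {T A B a A' : Term S} {c : S} : BetaEq T (pi A B) → TyF P D0 (pi A B) (sort c) →
      TyF P D0 a A → Rel P D0 D (inst a B) → Ds P D0 D (inst a B) A' → Ds P D0 D T A'

theorem Ds.conv {T T' A : Term S} (h : Ds P D0 D T A) (e : BetaEq T T') : Ds P D0 D T' A := by
  cases h with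
  | here e' h1 h2 h3 => exact .here (BetaEq.trans (BetaEq.symm e) e') h1 (h2.conv e) h3
  | step e' h1 h2 h3 h4 => exact .step (BetaEq.trans (BetaEq.symm e) e') h1 h2 h3 h4

/-- both signs -/
def Bth (P : Spec S) (D0 : ℕ → Term S) (D : Set S) (T : Term S) : Prop :=
  Rel P D0 D T ∧ sgn P D0 D true T ∧ sgn P D0 D false T

theorem Bth.conv {T T' : Term S} (h : Bth P D0 D T) (e : BetaEq T T') : Bth P D0 D T' :=
  ⟨h.1.conv e, h.2.1.conv e, h.2.2.conv e⟩

/-- the domain relation on types with both signs -/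
def Blt (P : Spec S) (D0 : ℕ → Term S) (D : Set S) (T1 T : Term S) : Prop :=
  Bth P D0 D T ∧ Bth P D0 D T1 ∧ ∃ A, Ds P D0 D T A ∧ BetaEq A T1

theorem Lf.shapes_both (w : WfF P D0) {K : Term S} {l : List (Term S × Shp S)}
    (h : Lf P D0 D K l) : Bth P D0 D K → ∀ x ∈ l, x.2 = .non ∨
      ∃ A, x.2 = .bo (nfr A) ∧ Bth P D0 D A ∧ Ds P D0 D K A := by
  induction h with
  | nil _ _ => intro _ x hx; simp at hx
  | @cons K A B a c l e1 h1 h2 h3 ih =>
      intro hb x hx
      have hb' := hb.conv e1
      rcases List.mem_cons.1 hx with rfl | hx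
      · by_cases hA : Rel P D0 D A
        · have g1 := sgn_dom w hb'.2.1 h1 hb'.1 hA
          have g2 := sgn_dom w hb'.2.2 h1 hb'.1 hA
          refine .inr ⟨A, ?_, ⟨hA, g2, g1⟩, .here e1 h1 hb.1 hA⟩
          simp only [Bool.not_true, Bool.not_false] at g1 g2
          simp only [xsh, if_pos hA, if_pos g1, if_pos g2]
        · left
          simp only [xsh, if_neg hA]
      · rcases ih ⟨h3.rel, sgn_cod w hb'.2.1 h2 h3.rel, sgn_cod w hb'.2.2 h2 h3.rel⟩ x hx with
          h | ⟨A', g1, g2, g3⟩
        · exact .inl h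
        · exact .inr ⟨A', g1, g2, .step e1 h1 h2 h3.rel g3⟩

theorem blt_of {K A : Term S} (hK : Bth P D0 D K) (hA : Bth P D0 D A) (h : Ds P D0 D K A) :
    Blt P D0 D (nfr A) (nfr K) :=
  ⟨hK.conv (BetaEq.symm (nfr_beta K)), hA.conv (BetaEq.symm (nfr_beta A)), A,
    h.conv (BetaEq.symm (nfr_beta K)), BetaEq.symm (nfr_beta A)⟩

/-! ### the domain of a closed function -/

/-- some domain of a type of `c` -/
noncomputable def dmn (P : Spec S) (D0 : ℕ → Term S) (c : Term S) : Term S :=
  open Classical in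
  if h : ∃ A B, TyF P D0 c (pi A B) then h.choose else c

theorem dmn_eq {c A B : Term S} (h : TyF P D0 c (pi A B)) : BetaEq (dmn P D0 c) A := by
  have h' : ∃ A B, TyF P D0 c (pi A B) := ⟨A, B, h⟩
  unfold dmn
  rw [dif_pos h']
  obtain ⟨B', hB'⟩ := h'.choose_spec
  exact (funiq hB' h).pi_inv.1

/-- the canonical domain of a closed function -/
noncomputable def kd (P : Spec S) (D0 : ℕ → Term S) (c : Term S) : Term S :=
  nfr (dmn P D0 (nfr c))

theorem kd_eq (w : Wd P D0) {c A B : Term S} (h : TyF P D0 c (pi A B)) :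
    kd P D0 c = nfr A := nfr_congr (dmn_eq (w.nfr h))

theorem kd_congr {c c' : Term S} (e : BetaEq c c') : kd P D0 c = kd P D0 c' := by
  unfold kd; rw [nfr_congr e]

end Crest.Agent.R298.Cl658
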