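import Mathlib

/-!
R298 (S0452), helper174: classes of sorts. For a ternary relation `rule a b c` (finite) the edges
`c → a`, `c → b` generate a preorder; its strongly connected components are numbered from the top:
`cls c ≤ cls a` and `cls c ≤ cls b` for each rule, and `cls` separates the components.
-/

set_option autoImplicit false

namespace Crest.Agent.R298.Cls174

open Relation

universe u
variable {S : Type u}

/-- one step up in the sort graph: `Up rule c a`: some rule `(a,b,c)` or `(b,a,c)` -/
def Up (rule : S → S → S → Prop) (c a : S) : Prop := ∃ b, rule a b c ∨ rule b a c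

/-- reachability: `Reach rule c a`: `a` is above `c` -/
def Reach (rule : S → S → S → Prop) : S → S → Prop := ReflTransGen (Up rule)

/-- same strongly connected component -/
def Same (rule : S → S → S → Prop) (a b : S) : Prop := Reach rule a b ∧ Reach rule b a

variable {rule : S → S → S → Prop}

theorem Reach.refl (a : S) : Reach rule a a := ReflTransGen.refl

theorem Reach.trans {a b c : S} (h : Reach rule a b) (h' : Reach rule b c) : Reach rule a c :=
  ReflTransGen.trans h h'

theorem reach_dom {a b c : S} (h : rule a b c) : Reach rule c a :=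
  ReflTransGen.single ⟨b, Or.inl h⟩

theorem reach_cod {a b c : S} (h : rule a b c) : Reach rule c b :=
  ReflTransGen.single ⟨a, Or.inr h⟩

theorem Same.refl (a : S) : Same rule a a := ⟨Reach.refl a, Reach.refl a⟩
theorem Same.symm {a b : S} (h : Same rule a b) : Same rule b a := ⟨h.2, h.1⟩
theorem Same.trans {a b c : S} (h : Same rule a b) (h' : Same rule b c) : Same rule a c :=
  ⟨h.1.trans h'.1, h'.2.trans h.2⟩

/-- **Numbering lemma for a finite preorder.** -/
theorem exists_num (r : S → S → Prop) (hr : ∀ a, r a a) (ht : ∀ a b c, r a b → r b c → r a c)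
    {F : Set S} (hF : F.Finite) :
    ∃ (n : ℕ) (f : S → ℕ), (∀ a ∈ F, f a < n) ∧ (∀ a ∈ F, ∀ b ∈ F, r a b → f a ≤ f b) ∧
      (∀ a ∈ F, ∀ b ∈ F, f a = f b → r a b ∧ r b a) := by
  classical
  induction F, hF using Set.Finite.induction_on with
  | empty => exact ⟨0, fun _ => 0, by simp, by simp, by simp⟩
  | @insert x F hx hF ih =>
    obtain ⟨n, f, f1, f2, f3⟩ := ih
    by_cases hc : ∃ y ∈ F, r x y ∧ r y x
    · obtain ⟨y, hy, hxy, hyx⟩ := hc
      refine ⟨n, fun z => if z = x then f y else f z, ?_, ?_, ?_⟩
      · rintro a (rfl | ha)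
        · simpa using f1 y hy
        · have : a ≠ x := fun e => hx (e ▸ ha)
          simpa [this] using f1 a ha
      · rintro a (rfl | ha) b (rfl | hb) hab
        · simp
        · have : b ≠ a := fun e => hx (e ▸ hb)
          simpa [this] using f2 y hy b hb (ht _ _ _ hyx hab)
        · have : a ≠ b := fun e => hx (e ▸ ha)
          simpa [this] using f2 a ha y hy (ht _ _ _ hab hxy)
        · have h1 : a ≠ x := fun e => hx (e ▸ ha)
          have h2 : b ≠ x := fun e => hx (e ▸ hb)
          simpa [h1, h2] using f2 a ha b hb hab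
      · rintro a (rfl | ha) b (rfl | hb) hab
        · exact ⟨hr _, hr _⟩
        · have : b ≠ a := fun e => hx (e ▸ hb)
          simp only [if_true, this, if_false] at hab
          obtain ⟨p, q⟩ := f3 y hy b hb hab
          exact ⟨ht _ _ _ hxy p, ht _ _ _ q hyx⟩
        · have : a ≠ b := fun e => hx (e ▸ ha)
          simp only [if_true, this, if_false] at hab
          obtain ⟨p, q⟩ := f3 a ha y hy hab
          exact ⟨ht _ _ _ p hyx, ht _ _ _ hxy q⟩
        · have h1 : a ≠ x := fun e => hx (e ▸ ha)
          have h2 : b ≠ x := fun e => hx (e ▸ hb)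
          simp only [h1, h2, if_false] at hab
          exact f3 a ha b hb hab
    · -- new component: put it right above everything below it
      -- m := number of values that must stay below
      have hval : ∃ m : ℕ, m ≤ n ∧ (∀ a ∈ F, r a x → f a < m) ∧ (∀ a ∈ F, r x a → m ≤ f a) := by
        -- take m = sup over a ∈ F, r a x of f a + 1
        by_cases he : ∃ a ∈ F, r a x
        · have hbd : ∃ m, (∃ a ∈ F, r a x ∧ f a = m) ∧ ∀ a ∈ F, r a x → f a ≤ m := by
            obtain ⟨a0, h0, h0'⟩ := he
            have hne : {a ∈ F | r a x}.Nonempty := ⟨a0, h0, h0'⟩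
            have hfin : {a ∈ F | r a x}.Finite := hF.subset fun a ha => ha.1
            obtain ⟨a1, h1, h1'⟩ := Set.exists_max_image _ f hfin hne
            exact ⟨f a1, ⟨a1, h1.1, h1.2, rfl⟩, fun a ha hax => h1' a ⟨ha, hax⟩⟩
          obtain ⟨m, ⟨a1, h1, h1x, h1m⟩, hm⟩ := hbd
          refine ⟨m + 1, ?_, fun a ha hax => Nat.lt_succ_of_le (hm a ha hax), ?_⟩
          · have := f1 a1 h1; omega
          · intro b hb hxb
            have hle : f a1 ≤ f b := f2 a1 h1 b hb (ht _ _ _ h1x hxb)
            have hne : f a1 ≠ f b := by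
              intro e
              obtain ⟨p, q⟩ := f3 a1 h1 b hb e
              exact hc ⟨b, hb, hxb, ht _ _ _ q h1x⟩
            omega
        · refine ⟨0, Nat.zero_le _, fun a ha hax => (he ⟨a, ha, hax⟩).elim, fun _ _ _ => Nat.zero_le _⟩
      obtain ⟨m, m1, m2, m3⟩ := hval
      refine ⟨n + 1, fun z => if z = x then m else if m ≤ f z then f z + 1 else f z, ?_, ?_, ?_⟩
      · rintro a (rfl | ha)
        · simp; omega
        · have h1 : a ≠ x := fun e => hx (e ▸ ha)
          have := f1 a ha
          simp only [h1, if_false]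
          split <;> omega
      · rintro a (rfl | ha) b (rfl | hb) hab
        · simp
        · have : b ≠ a := fun e => hx (e ▸ hb)
          have h3 := m3 b hb hab
          simp only [if_true, this, if_false, h3]
          omega
        · have : a ≠ b := fun e => hx (e ▸ ha)
          have h3 := m2 a ha hab
          simp only [if_true, this, if_false, not_le.2 h3]
          omega
        · have h1 : a ≠ x := fun e => hx (e ▸ ha)
          have h2 : b ≠ x := fun e => hx (e ▸ hb)
          have := f2 a ha b hb hab
          simp only [h1, h2, if_false]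
          split <;> split <;> omega
      · rintro a (rfl | ha) b (rfl | hb) hab
        · exact ⟨hr _, hr _⟩
        · have : b ≠ a := fun e => hx (e ▸ hb)
          simp only [if_true, this, if_false] at hab
          split at hab <;> omega
        · have : a ≠ b := fun e => hx (e ▸ ha)
          simp only [if_true, this, if_false] at hab
          split at hab <;> omega
        · have h1 : a ≠ x := fun e => hx (e ▸ ha)
          have h2 : b ≠ x := fun e => hx (e ▸ hb)
          simp only [h1, h2, if_false] at hab
          refine f3 a ha b hb ?_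
          split at hab <;> split at hab <;> omega

/-- the sorts occurring in a rule -/
def Occ (rule : S → S → S → Prop) : Set S :=
  {s | ∃ a b c, rule a b c ∧ (s = a ∨ s = b ∨ s = c)}

/-- **classes**: a numbering of the strongly connected components of the sort graph of a finite
rule relation, increasing upwards; sorts not occurring in any rule are allowed any value < n. -/
theorem exists_cls (hfin : {p : S × S × S | rule p.1 p.2.1 p.2.2}.Finite)
    {G : Set S} (hG : G.Finite) :
    ∃ (n : ℕ) (cls : S → ℕ), (∀ s ∈ G ∪ Occ rule, cls s < n) ∧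
      (∀ a b c, rule a b c → cls c ≤ cls a ∧ cls c ≤ cls b) ∧
      (∀ s ∈ G ∪ Occ rule, ∀ t ∈ G ∪ Occ rule, Reach rule s t → cls s ≤ cls t) ∧
      (∀ s ∈ G ∪ Occ rule, ∀ t ∈ G ∪ Occ rule, cls s = cls t ↔ Same rule s t) := by
  have hO : (Occ rule).Finite := by
    have h2 : ((fun p : S × S × S => p.1) '' {p : S × S × S | rule p.1 p.2.1 p.2.2} ∪
        ((fun p : S × S × S => p.2.1) '' {p : S × S × S | rule p.1 p.2.1 p.2.2} ∪
        (fun p : S × S × S => p.2.2) '' {p : S × S × S | rule p.1 p.2.1 p.2.2})).Finite :=
      (hfin.image _).union ((hfin.image _).union (hfin.image _))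
    refine h2.subset ?_
    rintro s ⟨a, b, c, h, rfl | rfl | rfl⟩
    · exact Or.inl ⟨(s, b, c), h, rfl⟩
    · exact Or.inr (Or.inl ⟨(a, s, c), h, rfl⟩)
    · exact Or.inr (Or.inr ⟨(a, b, s), h, rfl⟩)
  obtain ⟨n, f, f1, f2, f3⟩ := exists_num (Reach rule) (fun a => Reach.refl a)
    (fun a b c h h' => h.trans h') (hG.union hO)
  refine ⟨n, f, f1, ?_, f2, ?_⟩
  · intro a b c h
    have hc : c ∈ G ∪ Occ rule := Or.inr ⟨a, b, c, h, Or.inr (Or.inr rfl)⟩
    exact ⟨f2 c hc a (Or.inr ⟨a, b, c, h, Or.inl rfl⟩) (reach_dom h),
      f2 c hc b (Or.inr ⟨a, b, c, h, Or.inr (Or.inl rfl)⟩) (reach_cod h)⟩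
  · intro s hs t ht
    exact ⟨fun e => f3 s hs t ht e, fun e => le_antisymm (f2 s hs t ht e.1) (f2 t ht s hs e.2)⟩

end Crest.Agent.R298.Cls174
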