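import Crest.Agent.R298.Sub_893

/-!
R298 (S0452), helper893: the laws of `entry` / `look` for a validity predicate `vt` of path shapes
at declared closed types (clamp = default off `vt`), and the unfolding equations of `den` when the
clamp by closed terms is the identity.
-/

set_option autoImplicit false

namespace Crest.Agent.R298.Cod893

open Crest.LogicCS.PTS Crest.LogicCS.PTS.Term Crest.Agent.R298.Sub452

variable {S Q SI C : Type}

/-- validity of shapes at declared closed types -/
structure VLaws (F : Frame S Q SI C) (vt : Q → Sh Q SI C → Prop) : Prop where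
  nt_pos : ∀ A s c, vt A s → F.nt A s c = c
  nt_neg : ∀ A s c, ¬ vt A s → F.nt A s c = F.b
  nz_id : ∀ q s c, F.nz q s c = c
  /-- valid paths of minus types have no minus infos -/
  vm : ∀ A, F.mode A = Mode.minus → ∀ p : UPath Q SI C, vt A (sh p) → toM p ≠ none
  /-- valid paths of plus types have no codes -/
  vp : ∀ A, F.mode A = Mode.plus → ∀ p : UPath Q SI C, vt A (sh p) → IsP p
  /-- valid paths of small types have only small infos -/
  vs : ∀ A, F.mode A = Mode.small → ∀ p : UPath Q SI C, vt A (sh p) → toS p ≠ none
  get_put : ∀ A, F.mode A = Mode.small → ∀ (v : List (Q × SI) → C) (l : List (Q × SI)),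
    vt A (sh (embS l : UPath Q SI C)) → F.get (F.put A v) l = v l

section
variable {F : Frame S Q SI C} {vt : Q → Sh Q SI C → Prop}

theorem VLaws.ntu_congr (L : VLaws F vt) {A : Q} {u v : UF Q SI C}
    (h : ∀ p, vt A (sh p) → u p = v p) : ntu F A u = ntu F A v := by
  funext p
  by_cases hp : vt A (sh p)
  · simp only [ntu, h p hp]
  · simp only [ntu, L.nt_neg _ _ _ hp]

/-- the packed argument only depends on the values at valid paths -/
theorem VLaws.entry_congr (L : VLaws F vt) {A : Q} {u v : UF Q SI C}
    (h : ∀ p, vt A (sh p) → u p = v p) : entry F A u = entry F A v := by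
  simp only [entry, L.ntu_congr h]

/-- faithfulness of the packed argument -/
theorem VLaws.look_entry (L : VLaws F vt) {A : Q} {u : UF Q SI C} (hu : Good u)
    {p : UPath Q SI C} (hp : vt A (sh p)) : look F (entry F A u) p = u p := by
  have hv : ∀ q : UPath Q SI C, q = p → ntu F A u q = u q := by
    intro q hq
    subst hq
    exact L.nt_pos _ _ _ hp
  cases h : F.mode A with
  | small =>
      cases hs : toS p with
      | none => exact absurd hs (L.vs A h p hp)
      | some l =>
          have e : embS l = p := embS_toS hs
          have e2 : look F (entry F A u) p =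
              F.get (F.put A (fun l => ntu F A u (embS l))) l := by
            simp only [entry, h, look, hs]
          rw [e2, L.get_put A h _ l (by rw [e]; exact hp), hv _ e, e]
  | minus =>
      cases hs : toM p with
      | none => exact absurd hs (L.vm A h p hp)
      | some l =>
          have e : emb l = p := emb_toM hs
          have e2 : look F (entry F A u) p = ntu F A u (emb l) := by
            simp only [entry, h, look, hs]
          rw [e2, hv _ e, e]
  | plus =>
      have e2 : look F (entry F A u) p = dec F.b (enc F.b (ntu F A u)) p := by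
        simp only [entry, h, look]
      rw [e2, dec_enc F.b ((ntu_good F A hu).coded F.b) (L.vp A h p hp), hv _ rfl]

/-! ### unfolding equations of `den` when `nz` is the identity -/

theorem VLaws.den_var (L : VLaws F vt) (x : ℕ) (θ : ℕ → Term S) (ν : ℕ → UF Q SI C) :
    den F (var x) θ ν = ν x := by
  funext p
  simp only [den, L.nz_id]

theorem VLaws.den_sort (L : VLaws F vt) (s : S) (θ : ℕ → Term S) (ν : ℕ → UF Q SI C)
    (p : UPath Q SI C) : den F (sort s) θ ν p = F.sv s := by
  simp only [den, L.nz_id]

theorem VLaws.den_app (L : VLaws F vt) (M N : Term S) (θ : ℕ → Term S) (ν : ℕ → UF Q SI C)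
    (p : UPath Q SI C) : den F (app M N) θ ν p =
      den F M θ ν ((F.cl (sub θ N), entry F (F.dty (F.cl (sub θ M))) (den F N θ ν)) :: p) := by
  simp only [den, L.nz_id]

theorem VLaws.den_lam_nil (L : VLaws F vt) (A M : Term S) (θ : ℕ → Term S)
    (ν : ℕ → UF Q SI C) : den F (lam A M) θ ν [] = F.b := by
  simp only [den, L.nz_id]

theorem VLaws.den_lam_cons (L : VLaws F vt) (A M : Term S) (θ : ℕ → Term S)
    (ν : ℕ → UF Q SI C) (x : Q × Ent Q SI C) (p : UPath Q SI C) :
    den F (lam A M) θ ν (x :: p) =
      den F M (scons (F.rep x.1) θ) (icons (look F x.2) ν) p := by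
  simp only [den, L.nz_id]

theorem VLaws.den_pi (L : VLaws F vt) (A B : Term S) (θ : ℕ → Term S) (ν : ℕ → UF Q SI C)
    (p : UPath Q SI C) : den F (pi A B) θ ν p =
      F.op (F.cl (sub θ A)) (F.cl (sub θ (pi A B))) (den F A θ ν [])
        (fun a e => den F B (scons (F.rep a) θ) (icons (look F e.ent) ν) []) := by
  simp only [den, L.nz_id]

end

/-! ### fill / shape facts for validity predicates -/

/-- a shape whose entries are all small or codes reads as a path of a minus type -/
theorem toM_ne_none_of {p : UPath Q SI C} (h : ∀ x ∈ sh p, x.2 ≠ ESh.hole) : toM p ≠ none := by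
  induction p with
  | nil => intro h; cases h
  | cons x p ih =>
      obtain ⟨q, e⟩ := x
      have h1 : toM p ≠ none := ih (fun y hy => h y (List.mem_cons_of_mem _ hy))
      obtain ⟨l, hl⟩ := Option.ne_none_iff_exists'.1 h1
      have h2 : toM ((q, e) :: p) = (unE e).bind fun e' => (toM p).map fun l => (q, e') :: l := rfl
      cases e with
      | sm s => rw [h2, hl]; simp [unE]
      | co c => rw [h2, hl]; simp [unE]
      | mi f => exact absurd rfl (h (q, ESh.hole) (by simp [sh, Ent.sh]))

/-- a shape whose entries are all small reads as a small path -/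
theorem toS_ne_none_of {p : UPath Q SI C} (h : ∀ x ∈ sh p, ∃ s, x.2 = ESh.sm s) :
    toS p ≠ none := by
  induction p with
  | nil => intro h; cases h
  | cons x p ih =>
      obtain ⟨q, e⟩ := x
      have h1 : toS p ≠ none := ih (fun y hy => h y (List.mem_cons_of_mem _ hy))
      obtain ⟨l, hl⟩ := Option.ne_none_iff_exists'.1 h1
      cases e with
      | sm s =>
          have h2 : toS ((q, Ent.sm s) :: p : UPath Q SI C) = (toS p).map fun l => (q, s) :: l :=
            rfl
          rw [h2, hl]; simp
      | co c =>
          obtain ⟨s, hs⟩ := h (q, ESh.co c) (by simp [sh, Ent.sh])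
          cases hs
      | mi f =>
          obtain ⟨s, hs⟩ := h (q, ESh.hole) (by simp [sh, Ent.sh])
          cases hs

/-- a shape without codes is the shape of a code-free path -/
theorem isP_of {p : UPath Q SI C} (h : ∀ x ∈ sh p, ∀ c, x.2 ≠ ESh.co c) : IsP p := by
  intro x hx c hc
  have h1 : (x.1, x.2.sh) ∈ sh p := List.mem_map.2 ⟨x, hx, rfl⟩
  exact h _ h1 c (by simp only [hc, Ent.sh])

end Crest.Agent.R298.Cod893
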