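import Mathlib.Tactic
import Mathlib.Data.List.Basic
import Crest.Prelude.Def_PTS

/-!
R298 (S0452), helper452: substitution calculus for the raw terms of the prelude:
parallel renamings `ren` and parallel substitutions `sub`, and the identification of
`shift`, `shiftBy`, `substAt`, `subst` with them.
-/

set_option autoImplicit false

namespace Crest.Agent.R298.Sub452

open Crest.LogicCS.PTS Crest.LogicCS.PTS.Term

universe u
variable {S : Type u}

/-- extension of a renaming under a binder -/
def up (ρ : ℕ → ℕ) : ℕ → ℕ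
  | 0 => 0
  | i + 1 => ρ i + 1

/-- parallel renaming -/
def ren (ρ : ℕ → ℕ) : Term S → Term S
  | var i => var (ρ i)
  | sort s => sort s
  | app M N => app (ren ρ M) (ren ρ N)
  | lam A M => lam (ren ρ A) (ren (up ρ) M)
  | pi A B => pi (ren ρ A) (ren (up ρ) B)

/-- the weakening renaming on terms -/
abbrev wk (M : Term S) : Term S := ren Nat.succ M

/-- extension of a substitution under a binder -/
def ups (σ : ℕ → Term S) : ℕ → Term S
  | 0 => var 0
  | i + 1 => wk (σ i)

/-- parallel substitution -/
def sub (σ : ℕ → Term S) : Term S → Term S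
  | var i => σ i
  | sort s => sort s
  | app M N => app (sub σ M) (sub σ N)
  | lam A M => lam (sub σ A) (sub (ups σ) M)
  | pi A B => pi (sub σ A) (sub (ups σ) B)

/-- `scons N σ`: `N` for index 0, `σ i` for `i+1` -/
def scons (N : Term S) (σ : ℕ → Term S) : ℕ → Term S
  | 0 => N
  | i + 1 => σ i

@[simp] theorem up_zero (ρ : ℕ → ℕ) : up ρ 0 = 0 := rfl
@[simp] theorem up_succ (ρ : ℕ → ℕ) (i : ℕ) : up ρ (i + 1) = ρ i + 1 := rfl
@[simp] theorem ups_zero (σ : ℕ → Term S) : ups σ 0 = var 0 := rfl
@[simp] theorem ups_succ (σ : ℕ → Term S) (i : ℕ) : ups σ (i + 1) = wk (σ i) := rfl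
@[simp] theorem scons_zero (N : Term S) (σ : ℕ → Term S) : scons N σ 0 = N := rfl
@[simp] theorem scons_succ (N : Term S) (σ : ℕ → Term S) (i : ℕ) : scons N σ (i + 1) = σ i := rfl

@[simp] theorem ren_var (ρ : ℕ → ℕ) (i : ℕ) : ren (S := S) ρ (var i) = var (ρ i) := rfl
@[simp] theorem ren_sort (ρ : ℕ → ℕ) (s : S) : ren ρ (sort s) = sort s := rfl
@[simp] theorem ren_app (ρ : ℕ → ℕ) (M N : Term S) : ren ρ (app M N) = app (ren ρ M) (ren ρ N) := rfl
@[simp] theorem ren_lam (ρ : ℕ → ℕ) (M N : Term S) :
    ren ρ (lam M N) = lam (ren ρ M) (ren (up ρ) N) := rfl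
@[simp] theorem ren_pi (ρ : ℕ → ℕ) (M N : Term S) :
    ren ρ (pi M N) = pi (ren ρ M) (ren (up ρ) N) := rfl
@[simp] theorem sub_var (σ : ℕ → Term S) (i : ℕ) : sub σ (var i) = σ i := rfl
@[simp] theorem sub_sort (σ : ℕ → Term S) (s : S) : sub σ (sort s) = sort s := rfl
@[simp] theorem sub_app (σ : ℕ → Term S) (M N : Term S) :
    sub σ (app M N) = app (sub σ M) (sub σ N) := rfl
@[simp] theorem sub_lam (σ : ℕ → Term S) (M N : Term S) :
    sub σ (lam M N) = lam (sub σ M) (sub (ups σ) N) := rfl
@[simp] theorem sub_pi (σ : ℕ → Term S) (M N : Term S) :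
    sub σ (pi M N) = pi (sub σ M) (sub (ups σ) N) := rfl

theorem up_id : up (fun i => i) = fun i => i := by
  funext i; cases i <;> rfl

theorem up_comp (ρ τ : ℕ → ℕ) : (fun i => up τ (up ρ i)) = up (fun i => τ (ρ i)) := by
  funext i; cases i <;> rfl

theorem ren_id (M : Term S) : ren (fun i => i) M = M := by
  induction M with
  | var i => rfl
  | sort s => rfl
  | app M N h1 h2 => simp [h1, h2]
  | lam A M h1 h2 => simp [h1, up_id, h2]
  | pi A B h1 h2 => simp [h1, up_id, h2]

theorem ren_ren (ρ τ : ℕ → ℕ) (M : Term S) : ren τ (ren ρ M) = ren (fun i => τ (ρ i)) M := by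
  induction M generalizing ρ τ with
  | var i => rfl
  | sort s => rfl
  | app M N h1 h2 => simp [h1, h2]
  | lam A M h1 h2 => simp [h1, h2, up_comp]
  | pi A B h1 h2 => simp [h1, h2, up_comp]

theorem ups_var : ups (S := S) var = var := by
  funext i; cases i <;> rfl

theorem sub_id (M : Term S) : sub var M = M := by
  induction M with
  | var i => rfl
  | sort s => rfl
  | app M N h1 h2 => simp [h1, h2]
  | lam A M h1 h2 => simp [h1, ups_var, h2]
  | pi A B h1 h2 => simp [h1, ups_var, h2]

theorem ups_ren (ρ : ℕ → ℕ) : ups (S := S) (fun i => var (ρ i)) = fun i => var (up ρ i) := by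
  funext i; cases i <;> rfl

theorem ren_eq_sub (ρ : ℕ → ℕ) (M : Term S) : ren ρ M = sub (fun i => var (ρ i)) M := by
  induction M generalizing ρ with
  | var i => rfl
  | sort s => rfl
  | app M N h1 h2 => simp [h1, h2]
  | lam A M h1 h2 => simp only [ren_lam, sub_lam, ups_ren, h1, h2]
  | pi A B h1 h2 => simp only [ren_pi, sub_pi, ups_ren, h1, h2]

theorem ups_comp_ren (σ : ℕ → Term S) (ρ : ℕ → ℕ) :
    (fun i => ups σ (up ρ i)) = ups (fun i => σ (ρ i)) := by
  funext i; cases i <;> rfl

theorem sub_ren (σ : ℕ → Term S) (ρ : ℕ → ℕ) (M : Term S) :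
    sub σ (ren ρ M) = sub (fun i => σ (ρ i)) M := by
  induction M generalizing ρ σ with
  | var i => rfl
  | sort s => rfl
  | app M N h1 h2 => simp [h1, h2]
  | lam A M h1 h2 => simp [h1, h2, ups_comp_ren]
  | pi A B h1 h2 => simp [h1, h2, ups_comp_ren]

theorem ren_comp_ups (σ : ℕ → Term S) (ρ : ℕ → ℕ) :
    (fun i => ren (up ρ) (ups σ i)) = ups (fun i => ren ρ (σ i)) := by
  funext i
  cases i with
  | zero => rfl
  | succ i =>
      simp only [ups_succ, wk, ren_ren]
      rfl

theorem ren_sub (σ : ℕ → Term S) (ρ : ℕ → ℕ) (M : Term S) :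
    ren ρ (sub σ M) = sub (fun i => ren ρ (σ i)) M := by
  induction M generalizing ρ σ with
  | var i => rfl
  | sort s => rfl
  | app M N h1 h2 => simp [h1, h2]
  | lam A M h1 h2 => simp [h1, h2, ren_comp_ups]
  | pi A B h1 h2 => simp [h1, h2, ren_comp_ups]

theorem sub_wk (σ : ℕ → Term S) (M : Term S) : sub (ups σ) (wk M) = wk (sub σ M) := by
  simp only [wk, sub_ren, ren_sub, Nat.succ_eq_add_one, ups_succ]

theorem sub_comp_ups (σ τ : ℕ → Term S) :
    (fun i => sub (ups τ) (ups σ i)) = ups (fun i => sub τ (σ i)) := by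
  funext i
  cases i with
  | zero => rfl
  | succ i => simp only [ups_succ, sub_wk]

theorem sub_sub (σ τ : ℕ → Term S) (M : Term S) :
    sub τ (sub σ M) = sub (fun i => sub τ (σ i)) M := by
  induction M generalizing σ τ with
  | var i => rfl
  | sort s => rfl
  | app M N h1 h2 => simp [h1, h2]
  | lam A M h1 h2 => simp [h1, h2, sub_comp_ups]
  | pi A B h1 h2 => simp [h1, h2, sub_comp_ups]

/-! ### identification with the operations of the prelude -/

/-- the renaming of `shift c` -/
def shf (c : ℕ) (i : ℕ) : ℕ := if i < c then i else i + 1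

theorem up_shf (c : ℕ) : up (shf c) = shf (c + 1) := by
  funext i
  cases i with
  | zero => simp [up, shf]
  | succ i =>
      by_cases h : i < c
      · simp [up, shf, h]
      · simp [up, shf, h]

theorem shift_eq (c : ℕ) (M : Term S) : shift c M = ren (shf c) M := by
  induction M generalizing c with
  | var i =>
      by_cases h : i < c
      · simp [shift, shf, h]
      · simp [shift, shf, h]
  | sort s => rfl
  | app M N h1 h2 => simp [shift, h1, h2]
  | lam A M h1 h2 => simp [shift, h1, h2, up_shf]
  | pi A B h1 h2 => simp [shift, h1, h2, up_shf]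

theorem shf_zero : shf 0 = Nat.succ := by
  funext i; simp [shf]

theorem shift_zero (M : Term S) : shift 0 M = wk M := by
  rw [shift_eq, shf_zero]

theorem shiftBy_eq (n : ℕ) (M : Term S) : shiftBy n M = ren (fun i => i + n) M := by
  induction n with
  | zero => simp [shiftBy, ren_id]
  | succ n ih =>
      simp only [shiftBy, ih, shift_zero, wk, ren_ren]
      rfl

/-- the substitution of `substAt k N` -/
def sbk (k : ℕ) (N : Term S) (i : ℕ) : Term S :=
  if i < k then var i else if i = k then ren (fun i => i + k) N else var (i - 1)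

theorem ups_sbk (k : ℕ) (N : Term S) : ups (sbk k N) = sbk (k + 1) N := by
  funext i
  cases i with
  | zero => simp [ups, sbk]
  | succ i =>
      rcases lt_trichotomy i k with h | h | h
      · simp [ups, sbk, h, wk]
      · subst h
        simp only [ups_succ, sbk, lt_irrefl, if_false, if_true, wk, ren_ren]
        rfl
      · have h1 : ¬ i < k := by omega
        have h2 : ¬ i = k := by omega
        have h3 : ¬ i + 1 < k + 1 := by omega
        have h4 : ¬ i + 1 = k + 1 := by omega
        simp only [ups_succ, sbk, h1, h2, h3, h4, if_false, wk, ren_var]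
        congr 1
        omega

theorem substAt_eq (k : ℕ) (N M : Term S) : substAt k N M = sub (sbk k N) M := by
  induction M generalizing k with
  | var i =>
      simp only [substAt, sub_var, sbk, shiftBy_eq]
  | sort s => rfl
  | app M M' h1 h2 => simp [substAt, h1, h2]
  | lam A M h1 h2 => simp [substAt, h1, h2, ups_sbk]
  | pi A B h1 h2 => simp [substAt, h1, h2, ups_sbk]

theorem sbk_zero (N : Term S) : sbk 0 N = scons N var := by
  funext i
  cases i with
  | zero => simp [sbk, ren_id]
  | succ i => simp [sbk]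

/-- instantiation of index 0 -/
abbrev inst (N M : Term S) : Term S := sub (scons N var) M

theorem subst_eq (N M : Term S) : subst N M = inst N M := by
  rw [subst, substAt_eq, sbk_zero]

theorem inst_wk (N M : Term S) : inst N (wk M) = M := by
  simp only [inst, wk, sub_ren, Nat.succ_eq_add_one, scons_succ, sub_id]

theorem sub_inst (σ : ℕ → Term S) (N M : Term S) :
    sub σ (inst N M) = inst (sub σ N) (sub (ups σ) M) := by
  simp only [inst, sub_sub]
  congr 1
  funext i
  cases i with
  | zero => rfl
  | succ i =>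
      simp only [scons_succ, sub_var, ups_succ, wk, sub_ren, Nat.succ_eq_add_one, sub_id]

theorem ren_inst (ρ : ℕ → ℕ) (N M : Term S) :
    ren ρ (inst N M) = inst (ren ρ N) (ren (up ρ) M) := by
  simp only [ren_eq_sub, sub_inst, ups_ren]

theorem sub_scons (σ : ℕ → Term S) (N M : Term S) :
    sub (scons N σ) M = inst N (sub (ups σ) M) := by
  simp only [inst, sub_sub]
  congr 1
  funext i
  cases i with
  | zero => rfl
  | succ i => simp only [scons_succ, ups_succ, wk, sub_ren, Nat.succ_eq_add_one, sub_id]

end Crest.Agent.R298.Sub452
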