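import Mathlib.Tactic
import Crest.Agent.R298.Sub_452

/-!
R298 (S0452), helper893: the untyped domain of infos for the semantic stages (tame + thin), with
ONE structural support lemma.

* `Code Q SI C : Type 1`: hereditary codes of small-support functionals (no quotient: only the
  retract law `dec (enc u) = u` on paths without codes is used);
* minus infos `MI := MPath → C` = ALL functions on paths with entries small info / code;
* `UF := UPath → C`: universal path functions (values of all terms);
* `SS`: dependence on a small (`Type 0`-indexed) family of probes, and its calculus;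
* `Frame`, `den`: interpretation of raw terms by structural recursion, over arbitrary oracles
  (modes, domain types, clamps, product operation);
* `den_ssu`: the support lemma; `coded_den`: plus values are coded.
-/

set_option autoImplicit false

namespace Crest.Agent.R298.Cod893

open Crest.LogicCS.PTS Crest.LogicCS.PTS.Term Crest.Agent.R298.Sub452

/-- hereditary codes of small-support functionals. `J s` = index type of the probes for argument
lists of shape `s` (closed terms, and the small infos at small positions), `pos` = which argument is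
probed, `psh`, `pco` = at which point (shape and codes), `φ` = value function.
(A plain, non-nested inductive type.) -/
inductive Code (Q SI C : Type) : Type 1
  | mk (J : List (Q × Option SI) → Type)
       (pos : ∀ s, J s → ℕ)
       (psh : ∀ s, J s → List (Q × Option SI))
       (pco : ∀ s, J s → ℕ → Code Q SI C)
       (φ : ∀ s, (J s → C) → C) : Code Q SI C

/-- paths of minus types -/
abbrev MPath (Q SI C : Type) := List (Q × (SI ⊕ Code Q SI C))

/-- minus infos: ALL functions -/
abbrev MI (Q SI C : Type) := MPath Q SI C → C

/-- entries of universal paths -/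
inductive Ent (Q SI C : Type) : Type 1
  | sm (s : SI) : Ent Q SI C
  | co (c : Code Q SI C) : Ent Q SI C
  | mi (f : MI Q SI C) : Ent Q SI C

/-- universal paths -/
abbrev UPath (Q SI C : Type) := List (Q × Ent Q SI C)

/-- universal path functions -/
abbrev UF (Q SI C : Type) := UPath Q SI C → C

/-- shapes of entries: everything except the content of the minus infos -/
inductive ESh (Q SI C : Type) : Type 1
  | sm (s : SI) : ESh Q SI C
  | co (c : Code Q SI C) : ESh Q SI C
  | hole : ESh Q SI C

abbrev Sh (Q SI C : Type) := List (Q × ESh Q SI C)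

variable {Q SI C : Type}

/-- shape of an entry -/
def Ent.sh : Ent Q SI C → ESh Q SI C
  | .sm s => .sm s
  | .co c => .co c
  | .mi _ => .hole

/-- shape of a path -/
def sh (p : UPath Q SI C) : Sh Q SI C := p.map fun x => (x.1, x.2.sh)

@[simp] theorem sh_nil : sh ([] : UPath Q SI C) = [] := rfl
@[simp] theorem sh_cons (x : Q × Ent Q SI C) (p : UPath Q SI C) :
    sh (x :: p) = (x.1, x.2.sh) :: sh p := rfl

/-- fill an entry shape with a minus info -/
def ESh.fill : ESh Q SI C → MI Q SI C → Ent Q SI C
  | .sm s, _ => .sm s
  | .co c, _ => .co c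
  | .hole, f => .mi f

/-- fill a shape: position `n` receives `g n` -/
def fill : Sh Q SI C → (ℕ → MI Q SI C) → UPath Q SI C
  | [], _ => []
  | x :: s, g => (x.1, x.2.fill (g 0)) :: fill s (fun n => g (n + 1))

@[simp] theorem fill_nil (g : ℕ → MI Q SI C) : fill ([] : Sh Q SI C) g = [] := rfl
@[simp] theorem fill_cons (x : Q × ESh Q SI C) (s : Sh Q SI C) (g : ℕ → MI Q SI C) :
    fill (x :: s) g = (x.1, x.2.fill (g 0)) :: fill s (fun n => g (n + 1)) := rfl

@[simp] theorem esh_fill (x : ESh Q SI C) (f : MI Q SI C) : (x.fill f).sh = x := by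
  cases x <;> rfl

@[simp] theorem sh_fill (s : Sh Q SI C) (g : ℕ → MI Q SI C) : sh (fill s g) = s := by
  induction s generalizing g with
  | nil => rfl
  | cons x s ih => simp [ih]

/-- the minus info at a position (constantly `b` if there is none) -/
def Ent.get (b : C) : Ent Q SI C → MI Q SI C
  | .mi f => f
  | _ => fun _ => b

/-- the minus infos of a path -/
def holes (b : C) : UPath Q SI C → ℕ → MI Q SI C
  | [], _ => fun _ => b
  | x :: _, 0 => x.2.get b
  | _ :: p, n + 1 => holes b p n

theorem fill_holes (b : C) (p : UPath Q SI C) : fill (sh p) (holes b p) = p := by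
  induction p with
  | nil => rfl
  | cons x p ih =>
      obtain ⟨q, e⟩ := x
      simp only [sh_cons, fill_cons, holes]
      rw [ih]
      cases e <;> rfl

/-- the point with a given shape and given codes -/
def mkPt : List (Q × Option SI) → (ℕ → Code Q SI C) → MPath Q SI C
  | [], _ => []
  | (q, some s) :: l, c => (q, Sum.inl s) :: mkPt l (fun n => c (n + 1))
  | (q, none) :: l, c => (q, Sum.inr (c 0)) :: mkPt l (fun n => c (n + 1))

/-- a trivial code -/
def code0 (b : C) : Code Q SI C :=
  Code.mk (fun _ => Empty) (fun _ j => j.elim) (fun _ j => j.elim) (fun _ j => j.elim)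
    (fun _ _ => b)

def ptSh : MPath Q SI C → List (Q × Option SI)
  | [] => []
  | (q, .inl s) :: l => (q, some s) :: ptSh l
  | (q, .inr _) :: l => (q, none) :: ptSh l

def ptCo (b : C) : MPath Q SI C → ℕ → Code Q SI C
  | [], _ => code0 b
  | (_, .inl _) :: _, 0 => code0 b
  | (_, .inr c) :: _, 0 => c
  | _ :: l, n + 1 => ptCo b l n

theorem mkPt_pt (b : C) (l : MPath Q SI C) : mkPt (ptSh l) (ptCo b l) = l := by
  induction l with
  | nil => rfl
  | cons x l ih =>
      obtain ⟨q, e⟩ := x
      cases e with
      | inl s =>
          show (q, Sum.inl s) :: mkPt (ptSh l) (fun n => ptCo b ((q, Sum.inl s) :: l) (n + 1)) = _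
          rw [show (fun n => ptCo b ((q, Sum.inl s) :: l) (n + 1)) = ptCo b l from rfl, ih]
      | inr c =>
          show (q, Sum.inr c) :: mkPt (ptSh l) (fun n => ptCo b ((q, Sum.inr c) :: l) (n + 1)) = _
          rw [show (fun n => ptCo b ((q, Sum.inr c) :: l) (n + 1)) = ptCo b l from rfl, ih]

/-! ### small support -/

/-- `G` depends on its minus infos only through a small family of probes -/
def SS {K : Type} {X : Type*} (G : (K → MI Q SI C) → X) : Prop :=
  ∃ (J : Type) (k : J → K) (pt : J → MPath Q SI C),
    ∀ f f' : K → MI Q SI C, (∀ j, f (k j) (pt j) = f' (k j) (pt j)) → G f = G f'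

theorem SS.const {K : Type} {X : Type*} (x : X) : SS (Q := Q) (SI := SI) (C := C)
    (fun _ : K → MI Q SI C => x) :=
  ⟨Empty, fun j => j.elim, fun j => j.elim, fun _ _ _ => rfl⟩

theorem SS.probe {K : Type} (k : K) (p : MPath Q SI C) :
    SS (fun f : K → MI Q SI C => f k p) :=
  ⟨Unit, fun _ => k, fun _ => p, fun _ _ h => h ()⟩

theorem SS.map {K : Type} {X Y : Type*} {G : (K → MI Q SI C) → X} (hG : SS G) (h : X → Y) :
    SS (fun f => h (G f)) := by
  obtain ⟨J, k, pt, H⟩ := hG
  exact ⟨J, k, pt, fun f f' e => congrArg h (H f f' e)⟩

/-- small families of functions of small support -/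
theorem SS.pi {K : Type} {I : Type} {X : I → Type*} {G : (K → MI Q SI C) → ∀ i, X i}
    (h : ∀ i, SS (fun f => G f i)) : SS G := by
  choose J k pt H using h
  refine ⟨Σ i, J i, fun x => k x.1 x.2, fun x => pt x.1 x.2, fun f f' e => ?_⟩
  funext i
  exact H i f f' (fun j => e ⟨i, j⟩)

theorem SS.map₂ {K : Type} {X Y Z : Type*} {G : (K → MI Q SI C) → X}
    {G' : (K → MI Q SI C) → Y} (hG : SS G) (hG' : SS G') (h : X → Y → Z) :
    SS (fun f => h (G f) (G' f)) := by
  obtain ⟨J, k, pt, H⟩ := hG
  obtain ⟨J', k', pt', H'⟩ := hG'
  refine ⟨J ⊕ J', Sum.elim k k', Sum.elim pt pt', fun f f' e => ?_⟩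
  show h (G f) (G' f) = h (G f') (G' f')
  rw [H f f' (fun j => e (Sum.inl j)), H' f f' (fun j => e (Sum.inr j))]

/-- the parameter takes only small many values -/
theorem SS.dep {K : Type} {X Y : Type*} {c : (K → MI Q SI C) → X}
    {H : X → (K → MI Q SI C) → Y} (hc : SS c) (hH : ∀ x, SS (H x)) :
    SS (fun f => H (c f) f) := by
  obtain ⟨J, k, pt, hJ⟩ := hc
  choose J' k' pt' hJ' using hH
  let W := {w : J → C // ∃ f : K → MI Q SI C, ∀ j, f (k j) (pt j) = w j}
  let pick : W → (K → MI Q SI C) := fun w => Classical.choose w.2
  have hpick : ∀ w : W, ∀ j, pick w (k j) (pt j) = w.1 j := fun w => Classical.choose_spec w.2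
  refine ⟨J ⊕ Σ w : W, J' (c (pick w)), Sum.elim k (fun x => k' _ x.2),
    Sum.elim pt (fun x => pt' _ x.2), fun f f' e => ?_⟩
  have e1 : c f = c f' := hJ f f' (fun j => e (Sum.inl j))
  let w : W := ⟨fun j => f (k j) (pt j), f, fun _ => rfl⟩
  have e2 : c f = c (pick w) := hJ _ _ (fun j => (hpick w j).symm)
  have e3 : H (c (pick w)) f = H (c (pick w)) f' :=
    hJ' _ f f' (fun j => e (Sum.inr ⟨w, j⟩))
  show H (c f) f = H (c f') f'
  rw [← e1, e2]
  exact e3

/-- composition -/
theorem SS.comp {K K' : Type} {X : Type*} {G : (K' → MI Q SI C) → X} (hG : SS G)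
    {σ : (K → MI Q SI C) → K' → MI Q SI C} (hσ : ∀ k p, SS (fun f => σ f k p)) :
    SS (fun f => G (σ f)) := by
  obtain ⟨J, k, pt, hJ⟩ := hG
  choose J' k' pt' hJ' using hσ
  refine ⟨Σ j : J, J' (k j) (pt j), fun x => k' _ _ x.2, fun x => pt' _ _ x.2, fun f f' e => ?_⟩
  refine hJ _ _ (fun j => ?_)
  exact hJ' _ _ f f' (fun i => e ⟨j, i⟩)

/-- a family of universal path functions of jointly small support -/
def SSU {K : Type} (u : (K → MI Q SI C) → UF Q SI C) : Prop :=
  ∀ s : Sh Q SI C, SS (K := K ⊕ ℕ)
    (fun F : K ⊕ ℕ → MI Q SI C => u (fun k => F (Sum.inl k)) (fill s (fun n => F (Sum.inr n))))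

theorem SSU.at {K : Type} {u : (K → MI Q SI C) → UF Q SI C} (hu : SSU u) (s : Sh Q SI C)
    {g : (K → MI Q SI C) → ℕ → MI Q SI C} (hg : ∀ n p, SS (fun f => g f n p)) :
    SS (fun f => u f (fill s (g f))) := by
  refine SS.comp (σ := fun f => Sum.elim f (g f)) (hu s) ?_
  rintro (k | n) p
  · exact SS.probe k p
  · exact hg n p

/-- change of the index type of the variables -/
theorem SSU.reindex {K K' : Type} {u : (K → MI Q SI C) → UF Q SI C} (hu : SSU u)
    {σ : (K' → MI Q SI C) → K → MI Q SI C} (hσ : ∀ k p, SS (fun f => σ f k p)) :
    SSU (fun f => u (σ f)) := by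
  intro s
  refine SS.comp (σ := fun F : K' ⊕ ℕ → MI Q SI C =>
    Sum.elim (σ (fun k => F (Sum.inl k))) (fun n => F (Sum.inr n))) (hu s) ?_
  rintro (k | n) p
  · exact SS.comp (σ := fun F : K' ⊕ ℕ → MI Q SI C => fun k => F (Sum.inl k)) (hσ k p)
      (fun k p => SS.probe _ p)
  · exact SS.probe _ p

/-- values at a path which does not depend on the variables -/
theorem SSU.path {K : Type} {u : (K → MI Q SI C) → UF Q SI C} (hu : SSU u) (p : UPath Q SI C)
    (b : C) : SS (fun f => u f p) := by
  have h := hu.at (sh p) (g := fun _ => holes b p) (fun n q => SS.const _)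
  simpa only [fill_holes] using h

/-! ### decoding, encoding, canonical entries -/

/-- value of the probe `(n, pt)` on a path -/
def probe (b : C) (p : UPath Q SI C) (n : ℕ) (pt : MPath Q SI C) : C := holes b p n pt

/-- the shape seen by a code -/
def Ent.osh : Ent Q SI C → Option SI
  | .sm s => some s
  | _ => none

def osh (p : UPath Q SI C) : List (Q × Option SI) := p.map fun x => (x.1, x.2.osh)

/-- decoding -/
def dec (b : C) : Code Q SI C → UF Q SI C
  | .mk _ pos psh pco φ => fun p =>
      φ (osh p) (fun j => holes b p (pos _ j) (mkPt (psh _ j) (pco _ j)))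

/-- paths without codes (arguments of plus types) -/
def IsP (p : UPath Q SI C) : Prop := ∀ x ∈ p, ∀ c, x.2 ≠ Ent.co c

/-- from the shape seen by a code back to shapes -/
def ofO : Option SI → ESh Q SI C
  | some s => .sm s
  | none => .hole

theorem sh_eq_of_isP {p : UPath Q SI C} (hp : IsP p) :
    sh p = (osh p).map fun x => (x.1, ofO x.2) := by
  induction p with
  | nil => rfl
  | cons x p ih =>
      obtain ⟨q, e⟩ := x
      have h1 : IsP p := fun y hy => hp y (List.mem_cons_of_mem _ hy)
      have h2 := ih h1
      simp only [sh_cons, osh, List.map_cons] at h2 ⊢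
      rw [h2]
      cases e with
      | sm s => rfl
      | mi f => rfl
      | co c => exact absurd rfl (hp (q, Ent.co c) List.mem_cons_self c)

/-- a universal path function is coded -/
def Coded (b : C) (u : UF Q SI C) : Prop := ∃ c : Code Q SI C, ∀ p, IsP p → dec b c p = u p

/-- small support implies coded -/
theorem coded_of_ss (b : C) {u : UF Q SI C}
    (hu : ∀ s : Sh Q SI C, SS (K := ℕ) (fun g : ℕ → MI Q SI C => u (fill s g))) :
    Coded b u := by
  classical
  choose J k pt H using hu
  let up : List (Q × Option SI) → Sh Q SI C := fun s => s.map fun x => (x.1, ofO x.2)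
  refine ⟨Code.mk (fun s => J (up s)) (fun s j => k (up s) j) (fun s j => ptSh (pt (up s) j))
    (fun s j => ptCo b (pt (up s) j)) (fun s w => if h : ∃ g : ℕ → MI Q SI C, ∀ j, g (k (up s) j) (pt (up s) j) = w j then
      u (fill (up s) (Classical.choose h)) else b), fun p hp => ?_⟩
  have hs : up (osh p) = sh p := (sh_eq_of_isP hp).symm
  have hex : ∃ g : ℕ → MI Q SI C, ∀ j, g (k (up (osh p)) j) (pt (up (osh p)) j) =
      holes b p (k (up (osh p)) j) (pt (up (osh p)) j) := ⟨holes b p, fun _ => rfl⟩
  show (if h : ∃ g : ℕ → MI Q SI C, ∀ j, g (k (up (osh p)) j) (pt (up (osh p)) j) =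
      holes b p (k (up (osh p)) j)
        (mkPt (ptSh (pt (up (osh p)) j)) (ptCo b (pt (up (osh p)) j))) then
      u (fill (up (osh p)) (Classical.choose h)) else b) = u p
  simp only [mkPt_pt]
  rw [dif_pos hex]
  have h1 : u (fill (up (osh p)) (Classical.choose hex)) = u (fill (up (osh p)) (holes b p)) :=
    H (up (osh p)) (Classical.choose hex) (holes b p) (Classical.choose_spec hex)
  rw [h1, hs, fill_holes]

open Classical in
/-- cut off the paths with codes -/
noncomputable def cutP (b : C) (u : UF Q SI C) : UF Q SI C := fun p => if IsP p then u p else b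

theorem cutP_congr (b : C) {u v : UF Q SI C} (h : ∀ p, IsP p → u p = v p) :
    cutP b u = cutP b v := by
  classical
  funext p
  by_cases hp : IsP p
  · simp only [cutP, hp, if_true, h p hp]
  · simp only [cutP, hp, if_false]

open Classical in
/-- a code of a coded function -/
noncomputable def enc0 (b : C) (u : UF Q SI C) : Code Q SI C :=
  if h : Coded b u then Classical.choose h else code0 b

/-- canonical code of a path function (depends only on its values on code-free paths) -/
noncomputable def enc (b : C) (u : UF Q SI C) : Code Q SI C := enc0 b (cutP b u)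

theorem enc_congr (b : C) {u v : UF Q SI C} (h : ∀ p, IsP p → u p = v p) :
    enc b u = enc b v := by
  rw [enc, enc, cutP_congr b h]

theorem dec_enc (b : C) {u : UF Q SI C} (hu : Coded b u) {p : UPath Q SI C} (hp : IsP p) :
    dec b (enc b u) p = u p := by
  classical
  have h : Coded b (cutP b u) := by
    obtain ⟨c, hc⟩ := hu
    exact ⟨c, fun p hp => by simp only [cutP, hp, if_true]; exact hc p hp⟩
  have h2 := Classical.choose_spec h p hp
  have h3 : enc b u = Classical.choose h := by rw [enc, enc0, dif_pos h]
  rw [h3, h2]
  simp only [cutP, hp, if_true]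

/-- embedding of the paths of minus types -/
def embE : SI ⊕ Code Q SI C → Ent Q SI C
  | .inl s => .sm s
  | .inr c => .co c

def emb (p : MPath Q SI C) : UPath Q SI C := p.map fun x => (x.1, embE x.2)

/-- embedding of small paths -/
def embS (p : List (Q × SI)) : UPath Q SI C := p.map fun x => (x.1, Ent.sm x.2)

def unE : Ent Q SI C → Option (SI ⊕ Code Q SI C)
  | .sm s => some (.inl s)
  | .co c => some (.inr c)
  | .mi _ => none

/-- read a universal path as a path of a minus type -/
def toM : UPath Q SI C → Option (MPath Q SI C)
  | [] => some []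
  | x :: p => (unE x.2).bind fun e => (toM p).map fun l => (x.1, e) :: l

def toS : UPath Q SI C → Option (List (Q × SI))
  | [] => some []
  | (q, .sm s) :: p => (toS p).map fun l => (q, s) :: l
  | _ :: _ => none

@[simp] theorem toM_emb (p : MPath Q SI C) : toM (emb p) = some p := by
  induction p with
  | nil => rfl
  | cons x p ih =>
      obtain ⟨q, e⟩ := x
      have h : toM (emb ((q, e) :: p)) =
        (unE (embE e)).bind fun e' => (toM (emb p)).map fun l => (q, e') :: l := rfl
      rw [h, ih]
      cases e <;> rfl

@[simp] theorem toS_embS (p : List (Q × SI)) :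
    toS (embS p : UPath Q SI C) = some p := by
  induction p with
  | nil => rfl
  | cons x p ih =>
      obtain ⟨q, e⟩ := x
      have h : toS (embS ((q, e) :: p) : UPath Q SI C) =
        (toS (embS p : UPath Q SI C)).map fun l => (q, e) :: l := rfl
      rw [h, ih]
      rfl


theorem emb_toM {p : UPath Q SI C} {l : MPath Q SI C} (h : toM p = some l) : emb l = p := by
  induction p generalizing l with
  | nil => cases h; rfl
  | cons x p ih =>
      obtain ⟨q, e⟩ := x
      have h1 : (unE e).bind (fun e' => (toM p).map fun l => (q, e') :: l) = some l := h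
      cases hp : toM p with
      | none => rw [hp] at h1; cases e <;> simp [unE] at h1
      | some l' =>
          rw [hp] at h1
          have h2 := ih hp
          cases e with
          | sm s => simp [unE] at h1; subst h1; rw [← h2]; rfl
          | co c => simp [unE] at h1; subst h1; rw [← h2]; rfl
          | mi f => simp [unE] at h1

theorem embS_toS {p : UPath Q SI C} {l : List (Q × SI)} (h : toS p = some l) : embS l = p := by
  induction p generalizing l with
  | nil => cases h; rfl
  | cons x p ih =>
      obtain ⟨q, e⟩ := x
      cases e with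
      | sm s =>
          have h1 : (toS p).map (fun l => (q, s) :: l) = some l := h
          cases hp : toS p with
          | none => rw [hp] at h1; simp at h1
          | some l' =>
              rw [hp] at h1
              simp at h1
              subst h1
              rw [← ih hp]; rfl
      | co c => cases h
      | mi f => cases h

theorem toM_fill (s : Sh Q SI C) (g g' : ℕ → MI Q SI C) : toM (fill s g) = toM (fill s g') := by
  induction s generalizing g g' with
  | nil => rfl
  | cons x s ih =>
      obtain ⟨q, e⟩ := x
      have h : ∀ g : ℕ → MI Q SI C, toM (fill ((q, e) :: s) g) =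
        (unE (e.fill (g 0))).bind fun e' =>
          (toM (fill s (fun n => g (n + 1)))).map fun l => (q, e') :: l := fun _ => rfl
      rw [h, h, ih (fun n => g (n + 1)) (fun n => g' (n + 1))]
      cases e <;> rfl

theorem toS_fill (s : Sh Q SI C) (g g' : ℕ → MI Q SI C) : toS (fill s g) = toS (fill s g') := by
  induction s generalizing g g' with
  | nil => rfl
  | cons x s ih =>
      obtain ⟨q, e⟩ := x
      cases e with
      | sm t =>
          have h : ∀ g : ℕ → MI Q SI C, toS (fill ((q, ESh.sm t) :: s) g) =
            (toS (fill s (fun n => g (n + 1)))).map fun l => (q, t) :: l := fun _ => rfl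
          rw [h, h, ih (fun n => g (n + 1)) (fun n => g' (n + 1))]
      | co c => rfl
      | hole => rfl

theorem osh_fill (s : Sh Q SI C) (g g' : ℕ → MI Q SI C) : osh (fill s g) = osh (fill s g') := by
  induction s generalizing g g' with
  | nil => rfl
  | cons x s ih =>
      obtain ⟨q, e⟩ := x
      have h : ∀ g : ℕ → MI Q SI C, osh (fill ((q, e) :: s) g) =
        (q, (e.fill (g 0)).osh) :: osh (fill s (fun n => g (n + 1))) := fun _ => rfl
      rw [h, h, ih (fun n => g (n + 1)) (fun n => g' (n + 1))]
      cases e <;> rfl

theorem holes_fill_ss (b : C) (s : Sh Q SI C) (n : ℕ) (pt : MPath Q SI C) {K : Type}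
    {g : (K → MI Q SI C) → ℕ → MI Q SI C} (hg : ∀ n p, SS (fun f => g f n p)) :
    SS (fun f => holes b (fill s (g f)) n pt) := by
  induction s generalizing n g with
  | nil => exact SS.const b
  | cons x s ih =>
      obtain ⟨q, e⟩ := x
      cases n with
      | zero =>
          cases e with
          | sm t => exact SS.const b
          | co c => exact SS.const b
          | hole => exact hg 0 pt
      | succ n => exact ih n (g := fun f n => g f (n + 1)) (fun n p => hg (n + 1) p)

/-- a code is a functional of small support -/
theorem dec_ss (b : C) (c : Code Q SI C) (s : Sh Q SI C) {K : Type}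
    {g : (K → MI Q SI C) → ℕ → MI Q SI C} (hg : ∀ n p, SS (fun f => g f n p)) :
    SS (fun f => dec b c (fill s (g f))) := by
  obtain ⟨J, pos, psh, pco, φ⟩ := c
  have h0 : ∀ f : K → MI Q SI C, osh (fill s (g f)) = osh (fill s (fun _ _ => b)) :=
    fun f => osh_fill s _ _
  have h1 : ∀ f : K → MI Q SI C, dec b (Code.mk J pos psh pco φ) (fill s (g f)) =
      φ (osh (fill s (fun _ _ => b)))
        (fun j => holes b (fill s (g f)) (pos _ j) (mkPt (psh _ j) (pco _ j))) := by
    intro f
    show φ (osh (fill s (g f)))
      (fun j => holes b (fill s (g f)) (pos _ j) (mkPt (psh _ j) (pco _ j))) = _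
    generalize holes b (fill s (g f)) = h
    rw [h0 f]
  simp only [h1]
  refine SS.map (SS.pi
    (G := fun f j => holes b (fill s (g f)) (pos _ j) (mkPt (psh _ j) (pco _ j)))
    (fun j => holes_fill_ss b s _ _ hg)) (φ (osh (fill s (fun _ _ => b))))

/-- intersections over ALL minus infos: drop the probes of the bound variable -/
theorem SS.allMI {K : Type} {X : Type*} {G : (K → MI Q SI C) → MI Q SI C → X}
    (h : SS (K := K ⊕ ℕ) (fun F : K ⊕ ℕ → MI Q SI C => G (fun k => F (Sum.inl k)) (F (Sum.inr 0)))) :
    SS G := by
  obtain ⟨J, k, pt, H⟩ := h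
  refine ⟨{x : J × K // k x.1 = Sum.inl x.2}, fun x => x.1.2, fun x => pt x.1.1,
    fun f f' e => ?_⟩
  funext g
  refine H (Sum.elim f (fun _ => g)) (Sum.elim f' (fun _ => g)) (fun j => ?_)
  cases hk : k j with
  | inl k0 => exact e ⟨(j, k0), hk⟩
  | inr n => rfl

/-- the values on all code-free paths together have small support -/
theorem SSU.cut {K : Type} {u : (K → MI Q SI C) → UF Q SI C} (hu : SSU u) (b : C) :
    SS (fun f => cutP b (u f)) := by
  classical
  choose J k pt H using hu
  let up : List (Q × Option SI) → Sh Q SI C := fun s => s.map fun x => (x.1, ofO x.2)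
  refine ⟨Σ s : List (Q × Option SI), {x : J (up s) × K // k (up s) x.1 = Sum.inl x.2},
    fun x => x.2.1.2, fun x => pt _ x.2.1.1, fun f f' e => ?_⟩
  funext p
  by_cases hp : IsP p
  · simp only [cutP, hp, if_true]
    have hs : up (osh p) = sh p := (sh_eq_of_isP hp).symm
    have h1 := H (up (osh p)) (Sum.elim f (holes b p)) (Sum.elim f' (holes b p)) (fun j => by
      cases hk : k (up (osh p)) j with
      | inl k0 => exact e ⟨osh p, (j, k0), hk⟩
      | inr n => rfl)
    have h2 : u f (fill (up (osh p)) (holes b p)) = u f' (fill (up (osh p)) (holes b p)) := h1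
    rw [hs, fill_holes] at h2
    exact h2
  · simp only [cutP, hp, if_false]

/-! ### frames and the interpretation of raw terms -/

/-- modes of closed types -/
inductive Mode | small | minus | plus

/-- indices of products: small infos and minus infos -/
abbrev PEnt (Q SI C : Type) := SI ⊕ MI Q SI C

def PEnt.ent : PEnt Q SI C → Ent Q SI C
  | .inl s => .sm s
  | .inr f => .mi f

/-- oracles of the interpretation. `Q` = closed terms up to conversion -/
structure Frame (S Q SI C : Type) where
  /-- default value -/
  b : C
  /-- class of a closed term -/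
  cl : Term S → Q
  /-- representative -/
  rep : Q → Term S
  /-- clamp by the closed term: value of (closed term, shape of the path) -/
  nz : Q → Sh Q SI C → C → C
  /-- clamp by the declared closed type (used when an argument is packed) -/
  nt : Q → Sh Q SI C → C → C
  /-- domain type of a closed function -/
  dty : Q → Q
  /-- mode of a closed type -/
  mode : Q → Mode
  /-- canonical small info -/
  put : Q → (List (Q × SI) → C) → SI
  get : SI → List (Q × SI) → C
  /-- value of a sort -/
  sv : S → C
  /-- value of a product: domain type, product type, value of the domain, values of the codomain -/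
  op : Q → Q → C → (Q → PEnt Q SI C → C) → C

variable {S : Type}

/-- info of an entry -/
def look (F : Frame S Q SI C) : Ent Q SI C → UF Q SI C
  | .sm s => fun p => match toS p with
    | some l => F.get s l
    | none => F.b
  | .co c => dec F.b c
  | .mi f => fun p => match toM p with
    | some l => f l
    | none => F.b

/-- a value clamped by a declared closed type -/
def ntu (F : Frame S Q SI C) (A : Q) (u : UF Q SI C) : UF Q SI C := fun p => F.nt A (sh p) (u p)

/-- entry of a value at a closed type -/
noncomputable def entry (F : Frame S Q SI C) (A : Q) (u : UF Q SI C) : Ent Q SI C :=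
  match F.mode A with
  | .small => .sm (F.put A (fun l => ntu F A u (embS l)))
  | .minus => .mi (fun l => ntu F A u (emb l))
  | .plus => .co (enc F.b (ntu F A u))

/-- extension of an info environment -/
def icons (u : UF Q SI C) (ν : ℕ → UF Q SI C) : ℕ → UF Q SI C
  | 0 => u
  | n + 1 => ν n

/-- interpretation of raw terms: `θ` = closed terms, `ν` = infos of the variables -/
noncomputable def den (F : Frame S Q SI C) :
    Term S → (ℕ → Term S) → (ℕ → UF Q SI C) → UF Q SI C
  | var x, θ, ν => fun p => F.nz (F.cl (θ x)) (sh p) (ν x p)
  | sort s, θ, _ => fun p => F.nz (F.cl (sub θ (sort s))) (sh p) (F.sv s)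
  | app M N, θ, ν => fun p => F.nz (F.cl (sub θ (app M N))) (sh p)
      (den F M θ ν ((F.cl (sub θ N), entry F (F.dty (F.cl (sub θ M))) (den F N θ ν)) :: p))
  | lam A M, θ, ν => fun p => F.nz (F.cl (sub θ (lam A M))) (sh p)
      (match p with
        | [] => F.b
        | x :: p' => den F M (scons (F.rep x.1) θ) (icons (look F x.2) ν) p')
  | pi A B, θ, ν => fun p => F.nz (F.cl (sub θ (pi A B))) (sh p)
      (F.op (F.cl (sub θ A)) (F.cl (sub θ (pi A B))) (den F A θ ν [])
        (fun a e => den F B (scons (F.rep a) θ) (icons (look F e.ent) ν) []))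

theorem look_ssu (F : Frame S Q SI C) (e : ESh Q SI C) {K : Type}
    {m : (K → MI Q SI C) → MI Q SI C} (hm : ∀ p, SS (fun f => m f p)) :
    SSU (fun f => look F (e.fill (m f))) := by
  intro s
  cases e with
  | sm t =>
      have h : ∀ G : K ⊕ ℕ → MI Q SI C,
          look F (ESh.fill (ESh.sm t) (m fun k => G (Sum.inl k))) (fill s fun n => G (Sum.inr n)) =
          look F (Ent.sm t) (fill s fun _ _ => F.b) := by
        intro G
        show (match toS (fill s fun n => G (Sum.inr n)) with
          | some l => F.get t l | none => F.b) = _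
        rw [toS_fill s (fun n => G (Sum.inr n)) (fun _ _ => F.b)]
        rfl
      simp only [h]
      exact SS.const _
  | co c => exact dec_ss F.b c s (fun n p => SS.probe _ _)
  | hole =>
      cases hs : toM (fill s fun _ _ => F.b) with
      | none =>
          have h : ∀ G : K ⊕ ℕ → MI Q SI C,
              look F (ESh.fill ESh.hole (m fun k => G (Sum.inl k)))
                (fill s fun n => G (Sum.inr n)) = F.b := by
            intro G
            show (match toM (fill s fun n => G (Sum.inr n)) with
              | some l => (m fun k => G (Sum.inl k)) l | none => F.b) = _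
            rw [toM_fill s (fun n => G (Sum.inr n)) (fun _ _ => F.b), hs]
          simp only [h]
          exact SS.const _
      | some l =>
          have h : ∀ G : K ⊕ ℕ → MI Q SI C,
              look F (ESh.fill ESh.hole (m fun k => G (Sum.inl k)))
                (fill s fun n => G (Sum.inr n)) = (m fun k => G (Sum.inl k)) l := by
            intro G
            show (match toM (fill s fun n => G (Sum.inr n)) with
              | some l => (m fun k => G (Sum.inl k)) l | none => F.b) = _
            rw [toM_fill s (fun n => G (Sum.inr n)) (fun _ _ => F.b), hs]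
          simp only [h]
          exact SS.comp (σ := fun G : K ⊕ ℕ → MI Q SI C => fun k => G (Sum.inl k)) (hm l)
            (fun k p => SS.probe _ p)

/-- small support in the path and the parameters, with a clamp -/
theorem SSU.clamp {K : Type} {u : (K → MI Q SI C) → UF Q SI C} (hu : SSU u)
    (k : Sh Q SI C → C → C) : SSU (fun f p => k (sh p) (u f p)) := by
  intro s
  have h := (hu s).map (k s)
  simpa only [sh_fill] using h

theorem SSU.nz {F : Frame S Q SI C} {K : Type} {u : (K → MI Q SI C) → UF Q SI C} (hu : SSU u)
    (q : Q) : SSU (fun f p => F.nz q (sh p) (u f p)) := hu.clamp (F.nz q)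

theorem SSU.nt {F : Frame S Q SI C} {K : Type} {u : (K → MI Q SI C) → UF Q SI C} (hu : SSU u)
    (A : Q) : SSU (fun f => ntu F A (u f)) := hu.clamp (F.nt A)

theorem ent_fill (e : Ent Q SI C) (b : C) : e.sh.fill (e.get b) = e := by
  cases e <;> rfl

/-- path with a fixed first entry -/
theorem SSU.cons_const {K : Type} {u : (K → MI Q SI C) → UF Q SI C} (hu : SSU u) (b : C)
    (q : Q) (e : Ent Q SI C) : SSU (fun f p => u f ((q, e) :: p)) := by
  intro s
  have h := SSU.at (SSU.reindex hu (K' := K ⊕ ℕ) (σ := fun G k => G (Sum.inl k))
    (fun k p => SS.probe _ p)) ((q, e.sh) :: s)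
    (g := fun G n => match n with
      | 0 => e.get b
      | n + 1 => G (Sum.inr n)) (fun n p => by
        cases n with
        | zero => exact SS.const _
        | succ n => exact SS.probe _ _)
  simpa only [fill_cons, ent_fill] using h

/-- path whose first entry is a minus info with small support at every point -/
theorem SSU.cons_mi {K : Type} {u : (K → MI Q SI C) → UF Q SI C} (hu : SSU u)
    (q : Q) {m : (K → MI Q SI C) → MI Q SI C} (hm : ∀ p, SS (fun f => m f p)) :
    SSU (fun f p => u f ((q, Ent.mi (m f)) :: p)) := by
  intro s
  have hg : ∀ (n : ℕ) (p : MPath Q SI C), SS (fun G : K ⊕ ℕ → MI Q SI C =>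
      (match n with
      | 0 => m (fun k => G (Sum.inl k))
      | n + 1 => G (Sum.inr n) : MI Q SI C) p) := by
    intro n p
    cases n with
    | zero =>
        exact SS.comp (σ := fun G : K ⊕ ℕ → MI Q SI C => fun k => G (Sum.inl k)) (hm p)
          (fun k p => SS.probe _ p)
    | succ n => exact SS.probe _ _
  exact SSU.at (SSU.reindex hu (K' := K ⊕ ℕ) (σ := fun G k => G (Sum.inl k))
    (fun k p => SS.probe _ p)) ((q, ESh.hole) :: s) hg

/-- **SUPPORT LEMMA**: one structural induction on raw terms -/
theorem den_ssu (F : Frame S Q SI C) (t : Term S) :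
    ∀ {K : Type} (θ : ℕ → Term S) {ν : (K → MI Q SI C) → ℕ → UF Q SI C},
      (∀ x, SSU (fun f => ν f x)) → SSU (fun f => den F t θ (ν f)) := by
  induction t with
  | var x => intro K θ ν hν; exact (hν x).nz _
  | sort s =>
      intro K θ ν hν
      have h : SSU (fun (_ : K → MI Q SI C) (_ : UPath Q SI C) => F.sv s) := fun s => SS.const _
      exact h.nz _
  | app M N ihM ihN =>
      intro K θ ν hν
      have hM := ihM θ hν
      have hN := ihN θ hν
      have hN' : SSU (fun f => ntu F (F.dty (F.cl (sub θ M))) (den F N θ (ν f))) := hN.nt _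
      refine SSU.nz (u := fun f p => den F M θ (ν f)
        ((F.cl (sub θ N), entry F (F.dty (F.cl (sub θ M))) (den F N θ (ν f))) :: p)) ?_ _
      cases hmode : F.mode (F.dty (F.cl (sub θ M))) with
      | minus =>
          have he : ∀ u : UF Q SI C, entry F (F.dty (F.cl (sub θ M))) u =
              Ent.mi (fun l => ntu F (F.dty (F.cl (sub θ M))) u (emb l)) := by
            intro u; simp only [entry, hmode]
          simp only [he]
          exact SSU.cons_mi hM _ (fun p => hN'.path (emb p) F.b)
      | small =>
          have he : ∀ u : UF Q SI C, entry F (F.dty (F.cl (sub θ M))) u =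
              Ent.sm (F.put (F.dty (F.cl (sub θ M)))
                (fun l => ntu F (F.dty (F.cl (sub θ M))) u (embS l))) := by
            intro u; simp only [entry, hmode]
          have hc : SS (fun f : K → MI Q SI C =>
              entry F (F.dty (F.cl (sub θ M))) (den F N θ (ν f))) := by
            simp only [he]
            exact SS.map (SS.pi (G := fun f l =>
                ntu F (F.dty (F.cl (sub θ M))) (den F N θ (ν f)) (embS l))
              (fun l => hN'.path (embS l) F.b))
              (fun v => Ent.sm (F.put (F.dty (F.cl (sub θ M))) v))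
          intro s
          refine SS.dep (c := fun G : K ⊕ ℕ → MI Q SI C =>
              entry F (F.dty (F.cl (sub θ M))) (den F N θ (ν fun k => G (Sum.inl k))))
            (H := fun e G => den F M θ (ν fun k => G (Sum.inl k))
              ((F.cl (sub θ N), e) :: fill s (fun n => G (Sum.inr n)))) ?_ ?_
          · exact SS.comp (σ := fun G : K ⊕ ℕ → MI Q SI C => fun k => G (Sum.inl k)) hc
              (fun k p => SS.probe _ p)
          · intro e
            exact SSU.cons_const hM F.b _ e s
      | plus =>
          have he : ∀ u : UF Q SI C, entry F (F.dty (F.cl (sub θ M))) u =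
              Ent.co (enc0 F.b (cutP F.b (ntu F (F.dty (F.cl (sub θ M))) u))) := by
            intro u; simp only [entry, hmode, enc]
          have hc : SS (fun f : K → MI Q SI C =>
              entry F (F.dty (F.cl (sub θ M))) (den F N θ (ν f))) := by
            simp only [he]
            exact SS.map (hN'.cut F.b) (fun v => Ent.co (enc0 F.b v))
          intro s
          refine SS.dep (c := fun G : K ⊕ ℕ → MI Q SI C =>
              entry F (F.dty (F.cl (sub θ M))) (den F N θ (ν fun k => G (Sum.inl k))))
            (H := fun e G => den F M θ (ν fun k => G (Sum.inl k))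
              ((F.cl (sub θ N), e) :: fill s (fun n => G (Sum.inr n)))) ?_ ?_
          · exact SS.comp (σ := fun G : K ⊕ ℕ → MI Q SI C => fun k => G (Sum.inl k)) hc
              (fun k p => SS.probe _ p)
          · intro e
            exact SSU.cons_const hM F.b _ e s
  | lam A M ihA ihM =>
      intro K θ ν hν
      refine SSU.nz (u := fun f p => (match p with
        | [] => F.b
        | x :: p' => den F M (scons (F.rep x.1) θ) (icons (look F x.2) (ν f)) p')) ?_ _
      intro s
      cases s with
      | nil => exact SS.const _
      | cons x s =>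
          have hν' : ∀ y, SSU (fun G : K ⊕ ℕ → MI Q SI C =>
              icons (look F (x.2.fill (G (Sum.inr 0)))) (ν fun k => G (Sum.inl k)) y) := by
            intro y
            cases y with
            | zero => exact look_ssu F x.2 (fun p => SS.probe _ _)
            | succ y => exact SSU.reindex (hν y) (fun k p => SS.probe _ p)
          exact (ihM (scons (F.rep x.1) θ) hν').at s (g := fun G n => G (Sum.inr (n + 1)))
            (fun n p => SS.probe _ _)
  | pi A B ihA ihB =>
      intro K θ ν hν
      refine SSU.nz (u := fun f _ => F.op (F.cl (sub θ A)) (F.cl (sub θ (pi A B)))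
        (den F A θ (ν f) [])
        (fun a e => den F B (scons (F.rep a) θ) (icons (look F e.ent) (ν f)) [])) ?_ _
      intro s
      have h1 : SS (fun f : K → MI Q SI C => den F A θ (ν f) []) := (ihA θ hν).path [] F.b
      have h2 : SS (fun (f : K → MI Q SI C) (a : Q) (e : PEnt Q SI C) =>
          den F B (scons (F.rep a) θ) (icons (look F e.ent) (ν f)) []) := by
        refine SS.pi (fun a => ?_)
        have h3 : SS (fun (f : K → MI Q SI C) (t : SI) =>
            den F B (scons (F.rep a) θ) (icons (look F (Ent.sm t)) (ν f)) []) := by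
          refine SS.pi (fun t => ?_)
          have hν' : ∀ y, SSU (fun f : K → MI Q SI C => icons (look F (Ent.sm t)) (ν f) y) := by
            intro y
            cases y with
            | zero => exact look_ssu F (ESh.sm t) (m := fun _ _ => F.b) (fun p => SS.const _)
            | succ y => exact hν y
          exact (ihB (scons (F.rep a) θ) hν').path [] F.b
        have h4 : SS (fun (f : K → MI Q SI C) (g : MI Q SI C) =>
            den F B (scons (F.rep a) θ) (icons (look F (Ent.mi g)) (ν f)) []) := by
          refine SS.allMI ?_
          have hν' : ∀ y, SSU (fun G : K ⊕ ℕ → MI Q SI C =>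
              icons (look F (Ent.mi (G (Sum.inr 0)))) (ν fun k => G (Sum.inl k)) y) := by
            intro y
            cases y with
            | zero => exact look_ssu F ESh.hole (fun p => SS.probe _ _)
            | succ y => exact SSU.reindex (hν y) (fun k p => SS.probe _ p)
          exact (ihB (scons (F.rep a) θ) hν').path [] F.b
        have h5 := SS.map₂ h3 h4 (fun v w (e : PEnt Q SI C) => match e with
          | .inl t => v t
          | .inr g => w g)
        have h6 : (fun (f : K → MI Q SI C) (e : PEnt Q SI C) => (match e with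
          | .inl t => den F B (scons (F.rep a) θ) (icons (look F (Ent.sm t)) (ν f)) []
          | .inr g => den F B (scons (F.rep a) θ) (icons (look F (Ent.mi g)) (ν f)) [] : C)) =
          (fun (f : K → MI Q SI C) (e : PEnt Q SI C) =>
            den F B (scons (F.rep a) θ) (icons (look F e.ent) (ν f)) []) := by
          funext f e
          cases e <;> rfl
        exact h6 ▸ h5
      exact SS.comp (σ := fun G : K ⊕ ℕ → MI Q SI C => fun k => G (Sum.inl k))
        (SS.map₂ h1 h2 (F.op (F.cl (sub θ A)) (F.cl (sub θ (pi A B)))))
        (fun k p => SS.probe _ p)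

/-- good infos: small support in their own arguments -/
def Good (u : UF Q SI C) : Prop := ∀ s : Sh Q SI C, SS (K := ℕ) (fun g => u (fill s g))

theorem look_good (F : Frame S Q SI C) (e : Ent Q SI C) : Good (look F e) := by
  intro s
  have h := (look_ssu F e.sh (K := ℕ) (m := fun _ => e.get F.b) (fun p => SS.const _)).at s
    (g := fun f n => f n) (fun _ _ => SS.probe _ _)
  simpa only [ent_fill] using h

theorem Good.coded {u : UF Q SI C} (h : Good u) (b : C) : Coded b u := coded_of_ss b h

theorem Good.ssu {K : Type} {u : UF Q SI C} (h : Good u) : SSU (fun _ : K → MI Q SI C => u) :=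
  fun s => SS.comp (σ := fun (G : K ⊕ ℕ → MI Q SI C) n => G (Sum.inr n)) (h s)
    (fun _ _ => SS.probe _ _)

/-- values of terms in good environments are good -/
theorem den_good (F : Frame S Q SI C) (t : Term S) (θ : ℕ → Term S) {ν : ℕ → UF Q SI C}
    (hν : ∀ x, Good (ν x)) : Good (den F t θ ν) := fun s =>
  (den_ssu F t (K := ℕ) θ (ν := fun _ => ν) (fun x => (hν x).ssu)).at s (g := fun f n => f n)
    (fun _ _ => SS.probe _ _)

theorem Good.clamp {u : UF Q SI C} (h : Good u) (k : Sh Q SI C → C → C) :
    Good (fun p => k (sh p) (u p)) := by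
  intro s
  have h' := (h s).map (k s)
  simpa only [sh_fill] using h'

theorem ntu_good (F : Frame S Q SI C) (A : Q) {u : UF Q SI C} (h : Good u) : Good (ntu F A u) :=
  h.clamp (F.nt A)

/-- **retract law** for values of terms: plus mode -/
theorem dec_enc_den (F : Frame S Q SI C) (t : Term S) (θ : ℕ → Term S) {ν : ℕ → UF Q SI C}
    (hν : ∀ x, Good (ν x)) {p : UPath Q SI C} (hp : IsP p) :
    dec F.b (enc F.b (den F t θ ν)) p = den F t θ ν p :=
  dec_enc F.b ((den_good F t θ hν).coded F.b) hp

end Crest.Agent.R298.Cod893
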