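import Mathlib.Tactic
import Mathlib.Data.List.Basic
import Mathlib.Data.Sum.Basic

/-!
R298 (S0452), helper658 (design: helper716 / helper893): the untyped value domain.

`V` and `W` with `dec : V → (List (Tm × Option (I ⊕ W)) → C)` and
`W = List (Tm × Option (I ⊕ V)) → C`: `V` = functionals of finite rank, `W` = all functions.
`EqL N` = agreement of arguments up to rank `N`.
`dec` depends on its argument only up to the rank of the code (`dec_congr`), and every functional
which depends on its argument only up to rank `N` has a code of rank `≤ N` (`dec_enc`, `lev_enc`).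

Second part: for a well-founded relation `r` on `Ty`, the types `UT r T` of all functions on lists
of `UT r T'`, `T' < T`.
-/

set_option autoImplicit false

namespace Crest.Agent.R298.Dm658

section Retract

variable (Tm I C : Type)

/-- functionals with entries from `T` -/
abbrev XF (T : Type) : Type := List (Tm × Option (I ⊕ T)) → C

/-- functionals of functionals -/
abbrev FF (T : Type) : Type := XF Tm I C (XF Tm I C T)

/-- codes of rank `< n` -/
def L : ℕ → Type
  | 0 => Empty
  | n + 1 => L n ⊕ FF Tm I C (L n)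

/-- codes -/
abbrev V : Type := Σ n : ℕ, FF Tm I C (L Tm I C n)

/-- all functions -/
abbrev W : Type := XF Tm I C (V Tm I C)

variable {Tm I C}

/-- action on entries -/
def mp {T T' : Type} (f : T → T') (x : Tm × Option (I ⊕ T)) : Tm × Option (I ⊕ T') :=
  (x.1, x.2.map (Sum.map id f))

theorem mp_mp {T T' T'' : Type} (f : T → T') (g : T' → T'') (x : Tm × Option (I ⊕ T)) :
    mp g (mp f x) = mp (g ∘ f) x := by
  obtain ⟨a, _ | _ | t⟩ := x <;> rfl

theorem mp_id {T : Type} (x : Tm × Option (I ⊕ T)) : mp id x = x := by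
  obtain ⟨a, _ | _ | t⟩ := x <;> rfl

theorem mp_inj {T T' : Type} {f : T → T'} (hf : Function.Injective f) :
    Function.Injective (mp (Tm := Tm) (I := I) f) := by
  rintro ⟨a, _ | _ | t⟩ ⟨b, _ | _ | s⟩ h
  all_goals first
    | (simp [mp] at h; done)
    | skip
  · simp [mp] at h; rw [h]
  · simp [mp] at h; rw [h.1, h.2]
  · simp only [mp, Option.map_some, Sum.map_inr, Prod.mk.injEq, Option.some.injEq,
      Sum.inr.injEq] at h
    rw [h.1, hf h.2]

/-- codes of rank `< n` as codes -/
def emb : (n : ℕ) → L Tm I C n → V Tm I C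
  | 0, x => Empty.elim x
  | n + 1, Sum.inl x => emb n x
  | n + 1, Sum.inr f => ⟨n, f⟩

theorem emb_lt : ∀ (n : ℕ) (x : L Tm I C n), (emb n x).1 < n
  | 0, x => Empty.elim x
  | n + 1, Sum.inl x => lt_trans (emb_lt n x) (Nat.lt_succ_self n)
  | n + 1, Sum.inr f => Nat.lt_succ_self n

theorem emb_inj : ∀ (n : ℕ), Function.Injective (emb (Tm := Tm) (I := I) (C := C) n)
  | 0 => fun x => Empty.elim x
  | n + 1 => by
      rintro (x | f) (y | g) h
      · exact congrArg Sum.inl (emb_inj n h)
      · exfalso
        have h1 := emb_lt n x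
        have h2 : emb n x = ⟨n, g⟩ := h
        rw [h2] at h1
        exact lt_irrefl _ h1
      · exfalso
        have h1 := emb_lt n y
        have h2 : (⟨n, f⟩ : V Tm I C) = emb n y := h
        rw [← h2] at h1
        exact lt_irrefl _ h1
      · have h2 : (⟨n, f⟩ : V Tm I C) = ⟨n, g⟩ := h
        have h3 : f = g := by
          simpa using h2
        rw [h3]

theorem emb_surj : ∀ (n : ℕ) (v : V Tm I C), v.1 < n → ∃ x, emb n x = v
  | 0 => fun v h => absurd h (Nat.not_lt_zero _)
  | n + 1 => by
      rintro ⟨k, f⟩ h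
      rcases Nat.lt_succ_iff_lt_or_eq.1 h with h' | h'
      · obtain ⟨x, hx⟩ := emb_surj n ⟨k, f⟩ h'
        exact ⟨Sum.inl x, hx⟩
      · simp only at h'
        subst h'
        exact ⟨Sum.inr f, rfl⟩

/-- restriction of a function to the codes of rank `< n` -/
def rs (n : ℕ) (w : W Tm I C) : XF Tm I C (L Tm I C n) := fun l => w (l.map (mp (emb n)))

/-- decoding -/
def dec (v : V Tm I C) : XF Tm I C (W Tm I C) := fun l => v.2 (l.map (mp (rs v.1)))

/-- agreement of arguments up to rank `N` -/
def EqL (N : ℕ) (l l' : List (Tm × Option (I ⊕ W Tm I C))) : Prop :=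
  l.map (mp (rs N)) = l'.map (mp (rs N))

/-- one step of the inclusion of codes -/
def li (n : ℕ) : L Tm I C n → L Tm I C (n + 1) := Sum.inl

theorem rs_succ (n : ℕ) (w : W Tm I C) :
    rs n w = fun l => rs (n + 1) w (l.map (mp (li n))) := by
  funext l
  simp only [rs, List.map_map]
  congr 1
  refine List.map_congr_left fun x _ => ?_
  simp only [Function.comp]
  rw [mp_mp]
  rfl

theorem rs_mono {n N : ℕ} (h : n ≤ N) {w w' : W Tm I C} (e : rs N w = rs N w') :
    rs n w = rs n w' := by
  induction N with
  | zero =>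
      obtain rfl : n = 0 := Nat.le_zero.1 h
      exact e
  | succ N ih =>
      rcases Nat.le_succ_iff.1 h with h | rfl
      · refine ih h ?_
        rw [rs_succ N w, rs_succ N w', e]
      · exact e

theorem EqL.nil (N : ℕ) : EqL (Tm := Tm) (I := I) (C := C) N [] [] := rfl

theorem eqL_mono {n N : ℕ} (h : n ≤ N) {l l' : List (Tm × Option (I ⊕ W Tm I C))}
    (e : EqL N l l') : EqL n l l' := by
  have key : ∀ l l' : List (Tm × Option (I ⊕ W Tm I C)),
      l.map (mp (rs N)) = l'.map (mp (rs N)) → l.map (mp (rs n)) = l'.map (mp (rs n)) := by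
    intro l
    induction l with
    | nil =>
        intro l' h
        cases l' with
        | nil => rfl
        | cons b l' => simp at h
    | cons a l ih =>
        intro l' h'
        cases l' with
        | nil => simp at h'
        | cons b l' =>
            simp only [List.map_cons, List.cons.injEq] at h' ⊢
            refine ⟨?_, ih _ h'.2⟩
            obtain ⟨a1, _ | _ | t⟩ := a <;> obtain ⟨b1, _ | _ | s⟩ := b <;>
              simp only [mp, Option.map_none, Option.map_some, Sum.map_inl, Sum.map_inr,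
                Prod.mk.injEq, Option.some.injEq, Sum.inr.injEq, Sum.inl.injEq, id, reduceCtorEq,
                and_true, and_false, false_and] at h' ⊢
            · exact h'.1
            · exact h'.1
            · exact ⟨h'.1.1, rs_mono h h'.1.2⟩
  exact key l l' e

/-- a code depends on its arguments only up to its rank -/
theorem dec_congr {v : V Tm I C} {N : ℕ} (h : v.1 ≤ N)
    {l l' : List (Tm × Option (I ⊕ W Tm I C))} (e : EqL N l l') : dec v l = dec v l' := by
  have := eqL_mono h e
  unfold dec
  rw [show l.map (mp (rs v.1)) = l'.map (mp (rs v.1)) from this]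

/-- extension of a function on codes of rank `< n` by a default value -/
noncomputable def ex [Inhabited C] (n : ℕ) (y : XF Tm I C (L Tm I C n)) : W Tm I C :=
  fun l => open Classical in if h : ∃ l', List.map (mp (emb n)) l' = l then y h.choose else default

theorem rs_ex [Inhabited C] (n : ℕ) (y : XF Tm I C (L Tm I C n)) : rs n (ex n y) = y := by
  funext l
  unfold rs ex
  have h : ∃ l', List.map (mp (Tm := Tm) (I := I) (emb (C := C) n)) l' =
      List.map (mp (emb n)) l := ⟨l, rfl⟩
  rw [dif_pos h]
  congr 1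
  exact (List.map_injective_iff.2 (mp_inj (emb_inj n))) h.choose_spec

theorem eqL_ex [Inhabited C] (N : ℕ) (l : List (Tm × Option (I ⊕ W Tm I C))) :
    EqL N ((l.map (mp (rs N))).map (mp (ex N))) l := by
  unfold EqL
  simp only [List.map_map]
  refine List.map_congr_left fun x _ => ?_
  simp only [Function.comp]
  rw [mp_mp, mp_mp]
  congr 1
  funext w
  simp only [Function.comp]
  rw [rs_ex]

theorem exists_dec [Inhabited C] {N : ℕ} {g : XF Tm I C (W Tm I C)}
    (h : ∀ l l', EqL N l l' → g l = g l') : ∃ f, dec (⟨N, f⟩ : V Tm I C) = g := by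
  refine ⟨fun l' => g (l'.map (mp (ex N))), ?_⟩
  funext l
  unfold dec
  exact h _ _ (eqL_ex N l)

/-- a code of minimal rank -/
noncomputable def enc [Inhabited C] (g : XF Tm I C (W Tm I C)) : V Tm I C := by
  classical
  exact if h : ∃ n, ∃ f, dec (⟨n, f⟩ : V Tm I C) = g then ⟨Nat.find h, (Nat.find_spec h).choose⟩
    else ⟨0, fun _ => default⟩

theorem dec_enc [Inhabited C] {N : ℕ} {g : XF Tm I C (W Tm I C)}
    (h : ∀ l l', EqL N l l' → g l = g l') : dec (enc g) = g := by
  classical
  have h' : ∃ n, ∃ f, dec (⟨n, f⟩ : V Tm I C) = g := ⟨N, exists_dec h⟩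
  unfold enc
  rw [dif_pos h']
  exact (Nat.find_spec h').choose_spec

theorem lev_enc [Inhabited C] {N : ℕ} {g : XF Tm I C (W Tm I C)}
    (h : ∀ l l', EqL N l l' → g l = g l') : (enc g).1 ≤ N := by
  classical
  have h' : ∃ n, ∃ f, dec (⟨n, f⟩ : V Tm I C) = g := ⟨N, exists_dec h⟩
  unfold enc
  rw [dif_pos h']
  exact Nat.find_min' h' (exists_dec h)

/-- lists of codes of rank `< N` come from `L N` -/
theorem exists_map_emb {N : ℕ} : ∀ (l : List (Tm × Option (I ⊕ V Tm I C))),
    (∀ x ∈ l, ∀ v, x.2 = some (Sum.inr v) → v.1 < N) → ∃ l', List.map (mp (emb N)) l' = l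
  | [] => fun _ => ⟨[], rfl⟩
  | x :: l => by
      intro h
      obtain ⟨l', hl'⟩ := exists_map_emb l (fun y hy => h y (List.mem_cons_of_mem _ hy))
      obtain ⟨a, _ | t | v⟩ := x
      · exact ⟨(a, none) :: l', by simp only [List.map_cons, hl']; rfl⟩
      · exact ⟨(a, some (Sum.inl t)) :: l', by simp only [List.map_cons, hl']; rfl⟩
      · obtain ⟨y, hy⟩ := emb_surj N v (h _ (List.mem_cons_self) v rfl)
        refine ⟨(a, some (Sum.inr y)) :: l', ?_⟩
        simp only [List.map_cons, hl', mp, Option.map_some, Sum.map_inr, hy]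

/-- functions which agree up to rank `N` agree on lists of codes of rank `< N` -/
theorem rs_apply {N : ℕ} {w w' : W Tm I C} (e : rs N w = rs N w')
    {l : List (Tm × Option (I ⊕ V Tm I C))}
    (h : ∀ x ∈ l, ∀ v, x.2 = some (Sum.inr v) → v.1 < N) : w l = w' l := by
  obtain ⟨l', rfl⟩ := exists_map_emb l h
  exact congrFun e l'

end Retract

/-! ### all functions, by well-founded recursion -/

section WFR

variable {Tm C Ty : Type} {r : Ty → Ty → Prop}

/-- the type of values of `T` -/
noncomputable def UT (Tm C : Type) (wf : WellFounded r) : Ty → Type :=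
  wf.fix (C := fun _ => Type) fun T ih => List (Tm × Option (Σ T1 : {T1 // r T1 T}, ih T1.1 T1.2)) → C

theorem UT_eq (wf : WellFounded r) (T : Ty) :
    UT Tm C wf T = (List (Tm × Option (Σ T1 : {T1 // r T1 T}, UT Tm C wf T1.1)) → C) :=
  wf.fix_eq _ _

/-- tagged values -/
abbrev Bo (Tm C : Type) (wf : WellFounded r) : Type := Σ T : Ty, UT Tm C wf T

/-- clamp an entry to the types below `T` -/
noncomputable def clp (wf : WellFounded r) (T : Ty) (x : Tm × Option (Bo Tm C wf)) :
    Tm × Option (Σ T1 : {T1 // r T1 T}, UT Tm C wf T1.1) :=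
  (x.1, x.2.bind fun b => open Classical in if h : r b.1 T then some ⟨⟨b.1, h⟩, b.2⟩ else none)

/-- forget the bound -/
noncomputable def inc (wf : WellFounded r) (T : Ty)
    (x : Tm × Option (Σ T1 : {T1 // r T1 T}, UT Tm C wf T1.1)) : Tm × Option (Bo Tm C wf) :=
  (x.1, x.2.map fun y => ⟨y.1.1, y.2⟩)

/-- application -/
noncomputable def apB {wf : WellFounded r} (b : Bo Tm C wf) (l : List (Tm × Option (Bo Tm C wf))) :
    C := cast (UT_eq wf b.1) b.2 (l.map (clp wf b.1))

/-- the value of a function -/
noncomputable def mkB (wf : WellFounded r) (T : Ty) (g : List (Tm × Option (Bo Tm C wf)) → C) :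
    UT Tm C wf T := cast (UT_eq wf T).symm fun l => g (l.map (inc wf T))

theorem inc_clp {wf : WellFounded r} {T : Ty} {x : Tm × Option (Bo Tm C wf)}
    (h : ∀ b, x.2 = some b → r b.1 T) : inc wf T (clp wf T x) = x := by
  obtain ⟨a, _ | b⟩ := x
  · rfl
  · have hb := h b rfl
    simp only [clp, Option.bind_some, dif_pos hb, inc, Option.map_some]

theorem apB_mkB {wf : WellFounded r} {T : Ty} {g : List (Tm × Option (Bo Tm C wf)) → C}
    {l : List (Tm × Option (Bo Tm C wf))} (h : ∀ x ∈ l, ∀ b, x.2 = some b → r b.1 T) :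
    apB (⟨T, mkB wf T g⟩ : Bo Tm C wf) l = g l := by
  unfold apB mkB
  simp only [cast_cast, cast_eq, List.map_map]
  congr 1
  rw [List.map_congr_left (g := id)]
  · simp
  · intro x hx
    exact inc_clp (h x hx)

end WFR

end Crest.Agent.R298.Dm658
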