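import Crest.Agent.R298.Rank_157

/-!
R298 (S0452), helper907: the domains of the uniform semantics (doc 2313, section 2).

* `domEq Tm Ti C : Rank157.DomEq Tm Ti C`: the domain equation in finite ranks, `Type u`, structural
  recursion on `ℕ` (no inductive types at all, no ordinals);
* `TiB R Tm C`: infos of the bounded (tame, both signs) types, by well-founded recursion over an
  arbitrary relation `R` restricted to its accessible part, with `key`, `apB`, `mkB`, the retract
  law `apB_mkB`, `key_mkB`.
-/

set_option autoImplicit false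

namespace Crest.Agent.R298.DomRk907

open Crest.Agent.R298.Rank157

universe u

/-! ### the domain equation -/

section rank

variable (Tm Ti C : Type u)

/-- codes of level `< n` -/
def Vlt : ℕ → Type u
  | 0 => PEmpty
  | n + 1 => Vlt n ⊕ (PW Tm Ti (Vlt n) C → C)

/-- all codes: a functional of level `n` looks at its `Q`-arguments on codes of level `< n` only -/
def VV : Type u := Σ n : ℕ, (PW Tm Ti (Vlt Tm Ti C n) C → C)

variable {Tm Ti C}

/-- codes of level `< n` are codes -/
def io : ∀ n : ℕ, Vlt Tm Ti C n → VV Tm Ti C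
  | 0, x => x.elim
  | n + 1, Sum.inl x => io n x
  | n + 1, Sum.inr f => ⟨n, f⟩

def lv (v : VV Tm Ti C) : ℕ := v.1

theorem lv_io : ∀ (n : ℕ) (x : Vlt Tm Ti C n), lv (io n x) < n
  | 0, x => x.elim
  | n + 1, Sum.inl x => (lv_io n x).trans (Nat.lt_succ_self n)
  | n + 1, Sum.inr _ => Nat.lt_succ_self n

theorem io_surj : ∀ (n : ℕ) (v : VV Tm Ti C), lv v < n → ∃ x, io n x = v
  | 0, _, h => absurd h (Nat.not_lt_zero _)
  | n + 1, v, h => by
      rcases Nat.lt_succ_iff_lt_or_eq.1 h with h' | h'
      · obtain ⟨x, hx⟩ := io_surj n v h'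
        exact ⟨Sum.inl x, hx⟩
      · obtain ⟨k, f⟩ := v
        have h' : k = n := h'
        subst h'
        exact ⟨Sum.inr f, rfl⟩

/-- embedding of coordinates -/
def ioO (n : ℕ) : Option (Ti ⊕ Vlt Tm Ti C n) → Option (Ti ⊕ VV Tm Ti C)
  | none => none
  | some (Sum.inl t) => some (Sum.inl t)
  | some (Sum.inr x) => some (Sum.inr (io n x))

def ioP (n : ℕ) (l : PV Tm Ti (Vlt Tm Ti C n)) : PV Tm Ti (VV Tm Ti C) :=
  l.map fun e => (e.1, ioO n e.2)

theorem ioP_lev (n : ℕ) (l : PV Tm Ti (Vlt Tm Ti C n)) (a : Tm) (v : VV Tm Ti C)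
    (h : (a, some (Sum.inr v)) ∈ ioP n l) : lv v < n := by
  obtain ⟨⟨b, o⟩, _, he⟩ := List.mem_map.1 h
  simp only [Prod.mk.injEq] at he
  obtain ⟨_, he⟩ := he
  match o, he with
  | some (Sum.inr x), he =>
      simp only [ioO, Option.some.injEq, Sum.inr.injEq] at he
      rw [← he]
      exact lv_io n x

theorem ioP_surj (n : ℕ) : ∀ (l : PV Tm Ti (VV Tm Ti C)),
    (∀ a v, (a, some (Sum.inr v)) ∈ l → lv v < n) → ∃ l', ioP n l' = l
  | [], _ => ⟨[], rfl⟩
  | (a, o) :: l, h => by
      obtain ⟨l', hl⟩ := ioP_surj n l fun a v hv => h a v (List.mem_cons_of_mem _ hv)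
      match o, h with
      | none, _ => exact ⟨(a, none) :: l', by simp [ioP, ioO, ← hl]⟩
      | some (Sum.inl t), _ => exact ⟨(a, some (Sum.inl t)) :: l', by simp [ioP, ioO, ← hl]⟩
      | some (Sum.inr v), h =>
          obtain ⟨x, hx⟩ := io_surj n v (h a v (List.mem_cons_self ..))
          exact ⟨(a, some (Sum.inr x)) :: l', by simp [ioP, ioO, ← hl, hx]⟩

/-- restriction of `Q`-infos to codes of level `< n` -/
def resW (n : ℕ) (w : QW Tm Ti (VV Tm Ti C) C) : QW Tm Ti (Vlt Tm Ti C n) C := fun l => w (ioP n l)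

def resO (n : ℕ) : Option (Ti ⊕ QW Tm Ti (VV Tm Ti C) C) →
    Option (Ti ⊕ QW Tm Ti (Vlt Tm Ti C n) C)
  | none => none
  | some (Sum.inl t) => some (Sum.inl t)
  | some (Sum.inr w) => some (Sum.inr (resW n w))

def resP (n : ℕ) (p : PW Tm Ti (VV Tm Ti C) C) : PW Tm Ti (Vlt Tm Ti C n) C :=
  p.map fun e => (e.1, resO n e.2)

/-- decoding -/
def dc (v : VV Tm Ti C) (p : PW Tm Ti (VV Tm Ti C) C) : C := v.2 (resP v.1 p)

open Classical in
/-- extension of restricted `Q`-infos -/
noncomputable def exW (n : ℕ) (w : QW Tm Ti (Vlt Tm Ti C n) C) : QW Tm Ti (VV Tm Ti C) C :=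
  fun l => if h : ∃ l', ioP n l' = l then w (Classical.choose h) else w []

theorem exW_resW (n : ℕ) (w : QW Tm Ti (VV Tm Ti C) C) (l : PV Tm Ti (VV Tm Ti C))
    (h : ∀ a v, (a, some (Sum.inr v)) ∈ l → lv v < n) : exW n (resW n w) l = w l := by
  have h' : ∃ l', ioP n l' = l := ioP_surj n l h
  unfold exW resW
  rw [dif_pos h', Classical.choose_spec h']

noncomputable def exO (n : ℕ) : Option (Ti ⊕ QW Tm Ti (Vlt Tm Ti C n) C) →
    Option (Ti ⊕ QW Tm Ti (VV Tm Ti C) C)
  | none => none
  | some (Sum.inl t) => some (Sum.inl t)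
  | some (Sum.inr w) => some (Sum.inr (exW n w))

noncomputable def exP (n : ℕ) (p : PW Tm Ti (Vlt Tm Ti C n) C) : PW Tm Ti (VV Tm Ti C) C :=
  p.map fun e => (e.1, exO n e.2)

theorem exP_resP (N : ℕ) (p : PW Tm Ti (VV Tm Ti C) C) :
    AgP lv N (exP (N + 1) (resP (N + 1) p)) p := by
  unfold AgP
  induction p with
  | nil => exact .nil
  | cons e p ih =>
      refine .cons ⟨rfl, ?_⟩ ih
      obtain ⟨a, o⟩ := e
      match o with
      | none => exact .none
      | some (Sum.inl t) => exact .inl t
      | some (Sum.inr w) =>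
          refine .inr fun l hl => exW_resW _ _ _ fun a v hv => ?_
          exact Nat.lt_succ_of_le (hl a v hv)

theorem resP_congr {n N : ℕ} (hn : n ≤ N) {p p' : PW Tm Ti (VV Tm Ti C) C}
    (h : AgP lv N p p') : resP n p = resP n p' := by
  unfold AgP at h
  induction h with
  | nil => rfl
  | @cons x y _ _ h _ ih =>
      obtain ⟨a, o⟩ := x
      obtain ⟨b, o'⟩ := y
      obtain ⟨h1, h2⟩ := h
      simp only at h1 h2
      subst h1
      have : resO n o = resO n o' := by
        cases h2 with
        | none => rfl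
        | inl t => rfl
        | inr hw =>
            simp only [resO, Option.some.injEq, Sum.inr.injEq]
            funext l
            exact hw _ fun a v hv => ((ioP_lev n l a v hv).trans_le hn).le
      simp only [resP, List.map_cons, this] at ih ⊢
      rw [ih]

variable (Tm Ti C)

/-- **the domain equation** -/
def domEq : DomEq Tm Ti C where
  V := VV Tm Ti C
  lev := lv
  dec := dc
  D1 := by
    intro N v p p' hv h
    unfold dc
    rw [resP_congr (n := v.1) hv h]
  D2 := by
    intro N g hg
    refine ⟨⟨N + 1, fun q => g (exP (N + 1) q)⟩, le_rfl, ?_⟩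
    funext p
    exact hg _ _ (exP_resP N p)

end rank

/-! ### bounded types -/

section bounded

variable {K : Type u} (R : K → K → Prop) (Tm C : Type u)

/-- accessible keys -/
abbrev AK := {k : K // Acc R k}

def rK (a b : AK R) : Prop := R a.1 b.1

theorem rK_wf : WellFounded (rK R) := by
  refine ⟨fun ⟨k, h⟩ => ?_⟩
  induction h with
  | intro k h ih => exact ⟨_, fun ⟨k', h'⟩ hr => ih k' hr⟩

/-- infos at a bounded type: ALL functions on argument lists of strictly smaller bounded types -/
noncomputable def UU : AK R → Type u :=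
  (rK_wf R).fix fun k rec => List (Tm × Option (Σ k' : {k' // rK R k' k}, rec k'.1 k'.2)) → C

theorem UU_eq (k : AK R) :
    UU R Tm C k = (List (Tm × Option (Σ k' : {k' // rK R k' k}, UU R Tm C k'.1)) → C) := by
  unfold UU
  rw [WellFounded.fix_eq]

/-- infos of all bounded types -/
def TiB : Type u := Option (Σ k : AK R, UU R Tm C k)

variable {R Tm C}

/-- the type of a bounded info -/
def key : TiB R Tm C → Option K
  | none => none
  | some x => some x.1.1

open Classical in
/-- restriction of an entry to smaller keys -/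
noncomputable def rsB (k : AK R) : Option (TiB R Tm C) →
    Option (Σ k' : {k' // rK R k' k}, UU R Tm C k'.1)
  | some (some ⟨k', x⟩) => if h : rK R k' k then some ⟨⟨k', h⟩, x⟩ else none
  | _ => none

def emB (k : AK R) : Option (Σ k' : {k' // rK R k' k}, UU R Tm C k'.1) → Option (TiB R Tm C)
  | some ⟨k', x⟩ => some (some ⟨k'.1, x⟩)
  | none => none

/-- application of a bounded info -/
noncomputable def apB [Inhabited C] : TiB R Tm C → List (Tm × Option (TiB R Tm C)) → C
  | none, _ => default
  | some ⟨k, x⟩, p => cast (UU_eq R Tm C k) x (p.map fun e => (e.1, rsB k e.2))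

/-- code of a function at an accessible key -/
noncomputable def mkA (k : AK R) (g : List (Tm × Option (TiB R Tm C)) → C) : TiB R Tm C :=
  some ⟨k, cast (UU_eq R Tm C k).symm fun q => g (q.map fun e => (e.1, emB k e.2))⟩

open Classical in
/-- code of a function at a key -/
noncomputable def mkB (k : K) (g : List (Tm × Option (TiB R Tm C)) → C) : TiB R Tm C :=
  if h : Acc R k then mkA ⟨k, h⟩ g else none

theorem mkB_eq {k : K} (hk : Acc R k) (g : List (Tm × Option (TiB R Tm C)) → C) :
    mkB k g = mkA ⟨k, hk⟩ g := dif_pos hk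

theorem emB_rsB {k : AK R} {o : Option (TiB R Tm C)}
    (h : ∀ t, o = some t → ∃ k', key t = some k' ∧ R k' k.1) : emB k (rsB k o) = o := by
  match o, h with
  | none, _ => rfl
  | some none, h =>
      obtain ⟨k', hk, _⟩ := h none rfl
      cases hk
  | some (some ⟨k', x⟩), h =>
      obtain ⟨k'', hk, hr⟩ := h _ rfl
      simp only [key, Option.some.injEq] at hk
      subst hk
      have hr' : rK R k' k := hr
      simp only [rsB, dif_pos hr', emB]

theorem apB_mkA [Inhabited C] (k : AK R) (g : List (Tm × Option (TiB R Tm C)) → C)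
    {p : List (Tm × Option (TiB R Tm C))}
    (h : ∀ e ∈ p, ∀ t, e.2 = some t → ∃ k', key t = some k' ∧ R k' k.1) :
    apB (mkA k g) p = g p := by
  simp only [apB, mkA, cast_cast, cast_eq]
  congr 1
  rw [List.map_map]
  conv_rhs => rw [← List.map_id p]
  refine List.map_congr_left fun e he => ?_
  simp only [Function.comp_apply, id_eq]
  rw [emB_rsB (h e he)]

/-- **retract law**: the code of `g` at a bounded type `k` computes `g` on all lists whose
bounded entries have smaller types -/
theorem apB_mkB [Inhabited C] {k : K} (hk : Acc R k) (g : List (Tm × Option (TiB R Tm C)) → C)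
    {p : List (Tm × Option (TiB R Tm C))}
    (h : ∀ e ∈ p, ∀ t, e.2 = some t → ∃ k', key t = some k' ∧ R k' k) :
    apB (mkB k g) p = g p := by
  rw [mkB_eq hk]
  exact apB_mkA _ _ h

theorem key_mkB {k : K} (hk : Acc R k) (g : List (Tm × Option (TiB R Tm C)) → C) :
    key (mkB k g) = some k := by
  rw [mkB_eq hk]
  rfl

theorem acc_of_key {t : TiB R Tm C} {k : K} (h : key t = some k) : Acc R k := by
  match t, h with
  | some ⟨k', x⟩, h =>
      simp only [key, Option.some.injEq] at h
      subst h
      exact k'.2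

end bounded

end Crest.Agent.R298.DomRk907
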