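import Mathlib

/-!
R298, semantic half: the universal domain for information values.

* `W C Tm` : codes (an inductive type of `Type 1`, never used by recursion);
* `Mi = List (Tm × W) → C` : minus values, ALL functions on coordinates;
* `Pv` : plus values, functionals `List (Tm × Mi) → C` with small support;
* `code : Pv → W`, `decode : W → Pv`, `decode (code φ) = φ`;
* `appM`, `lamM`, `appP`, `lamP` with β on the nose.
-/

set_option autoImplicit false

namespace Crest.Agent.R298.Dom631

open Classical

/-- codes of plus values. -/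
inductive W (C Tm : Type) : Type 1
  | node (s : Type) (len : s → ℕ) (tm : (i : s) → Fin (len i) → Tm)
      (sb : (i : s) → Fin (len i) → W C Tm) (f : List (Tm × (s → C)) → C) : W C Tm

variable {C Tm : Type}

/-- coordinates. -/
abbrev Coord (C Tm : Type) : Type 1 := List (Tm × W C Tm)

/-- minus values: all functions on coordinates. -/
abbrev Mi (C Tm : Type) : Type 1 := Coord C Tm → C

/-- argument lists of plus values. -/
abbrev Args (C Tm : Type) : Type 1 := List (Tm × Mi C Tm)

/-- two argument lists have the same terms and agree on the set `X` of coordinates. -/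
def Agree (X : Set (Coord C Tm)) (l l' : Args C Tm) : Prop :=
  List.Forall₂ (fun p q => p.1 = q.1 ∧ ∀ c ∈ X, p.2 c = q.2 c) l l'

theorem Agree.refl (X : Set (Coord C Tm)) (l : Args C Tm) : Agree X l l := by
  unfold Agree
  induction l with
  | nil => exact List.Forall₂.nil
  | cons p l ih => exact List.Forall₂.cons ⟨rfl, fun _ _ => rfl⟩ ih

theorem Agree.mono {X Y : Set (Coord C Tm)} (h : X ⊆ Y) {l l' : Args C Tm}
    (hl : Agree Y l l') : Agree X l l' :=
  List.Forall₂.imp (fun _ _ hp => ⟨hp.1, fun c hc => hp.2 c (h hc)⟩) hl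

/-- small support. -/
def SmallSupp (Φ : Args C Tm → C) : Prop :=
  ∃ X : Set (Coord C Tm), Small.{0} X ∧ ∀ l l', Agree X l l' → Φ l = Φ l'

/-- the functional of a code. -/
def dec : W C Tm → Args C Tm → C
  | W.node _ _ tm sb f, l =>
    f (l.map (fun p => (p.1, fun i => p.2 (List.ofFn (fun k => (tm i k, sb i k))))))

theorem smallSupp_dec (w : W C Tm) : SmallSupp (dec w) := by
  cases w with
  | node s len tm sb f =>
    refine ⟨Set.range (fun i => List.ofFn (fun k => (tm i k, sb i k))), inferInstance, ?_⟩
    intro l l' h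
    simp only [dec]
    congr 1
    unfold Agree at h
    induction h with
    | nil => rfl
    | @cons p q l l' hpq _ ih =>
      simp only [List.map_cons, ih, List.cons.injEq, and_true]
      refine Prod.ext hpq.1 ?_
      funext i
      exact hpq.2 _ ⟨i, rfl⟩

theorem exists_dec [Inhabited C] {Φ : Args C Tm → C} (h : SmallSupp Φ) :
    ∃ w : W C Tm, dec w = Φ := by
  obtain ⟨X, hX, hΦ⟩ := h
  let ext : (Shrink.{0} X → C) → Mi C Tm := fun g c =>
    if hc : c ∈ X then g (equivShrink X ⟨c, hc⟩) else default
  let pt : Shrink.{0} X → Coord C Tm := fun i => ((equivShrink X).symm i).1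
  refine ⟨W.node (Shrink.{0} X) (fun i => (pt i).length) (fun i k => ((pt i).get k).1)
    (fun i k => ((pt i).get k).2)
    (fun l => Φ (l.map (fun p => (p.1, ext p.2)))), ?_⟩
  have hpt : ∀ i, List.ofFn (fun k => (((pt i).get k).1, ((pt i).get k).2)) = pt i :=
    fun i => List.ofFn_get (pt i)
  funext l
  simp only [dec, hpt]
  apply hΦ
  unfold Agree
  induction l with
  | nil => exact List.Forall₂.nil
  | cons p l ih =>
    simp only [List.map_cons]
    refine List.Forall₂.cons ⟨rfl, ?_⟩ ih
    intro c hc
    simp [ext, hc, pt]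

/-- plus values. -/
def Pv (C Tm : Type) : Type 1 := {Φ : Args C Tm → C // SmallSupp Φ}

namespace Pv

@[ext] theorem ext' {φ ψ : Pv C Tm} (h : ∀ l, φ.1 l = ψ.1 l) : φ = ψ :=
  Subtype.ext (funext h)

end Pv

/-- decoding. -/
def decode (w : W C Tm) : Pv C Tm := ⟨dec w, smallSupp_dec w⟩

/-- coding. -/
noncomputable def code [Inhabited C] (φ : Pv C Tm) : W C Tm := (exists_dec φ.2).choose

@[simp] theorem decode_code [Inhabited C] (φ : Pv C Tm) : decode (code φ) = φ :=
  Subtype.ext (exists_dec φ.2).choose_spec

theorem code_injective [Inhabited C] : Function.Injective (code : Pv C Tm → W C Tm) :=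
  Function.LeftInverse.injective decode_code

theorem smallSupp_const (x : C) : SmallSupp (fun _ : Args C Tm => x) :=
  ⟨∅, inferInstance, fun _ _ _ => rfl⟩

/-- a plus value from a functional (default if the support is not small). -/
noncomputable def mkP [Inhabited C] (Φ : Args C Tm → C) : Pv C Tm :=
  if h : SmallSupp Φ then ⟨Φ, h⟩ else ⟨fun _ => default, smallSupp_const _⟩

theorem mkP_val [Inhabited C] {Φ : Args C Tm → C} (h : SmallSupp Φ) : (mkP Φ).1 = Φ := by
  simp [mkP, h]

theorem mkP_apply [Inhabited C] {Φ : Args C Tm → C} (h : SmallSupp Φ) (l : Args C Tm) :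
    (mkP Φ).1 l = Φ l := by rw [mkP_val h]

/-- the trivial plus value. -/
noncomputable def p0 [Inhabited C] : Pv C Tm := ⟨fun _ => default, smallSupp_const _⟩

/-- application of a plus value to a closed term and a minus value. -/
def appP (φ : Pv C Tm) (a : Tm) (g : Mi C Tm) : Pv C Tm :=
  ⟨fun l => φ.1 ((a, g) :: l), by
    obtain ⟨X, hX, h⟩ := φ.2
    exact ⟨X, hX, fun l l' hl => h _ _ (List.Forall₂.cons ⟨rfl, fun _ _ => rfl⟩ hl)⟩⟩

/-- the functional of an abstraction. -/
def lamFun [Inhabited C] (F : Tm → Mi C Tm → Pv C Tm) : Args C Tm → C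
  | [] => default
  | p :: l => (F p.1 p.2).1 l

/-- abstraction of plus type. -/
noncomputable def lamP [Inhabited C] (F : Tm → Mi C Tm → Pv C Tm) : Pv C Tm := mkP (lamFun F)

theorem appP_lamP [Inhabited C] {F : Tm → Mi C Tm → Pv C Tm} (h : SmallSupp (lamFun F))
    (a : Tm) (g : Mi C Tm) : appP (lamP F) a g = F a g := by
  ext l
  simp only [appP, lamP]
  rw [mkP_apply h]
  rfl

/-- a sufficient condition for small support of an abstraction: one small set works for all terms
and all arguments. -/
theorem smallSupp_lamFun [Inhabited C] {F : Tm → Mi C Tm → Pv C Tm}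
    (X : Set (Coord C Tm)) (hX : Small.{0} X)
    (h : ∀ a g g', (∀ c ∈ X, g c = g' c) → ∀ l l', Agree X l l' → (F a g).1 l = (F a g').1 l') :
    SmallSupp (lamFun F) := by
  refine ⟨X, hX, ?_⟩
  intro l l' hl
  unfold Agree at hl
  cases hl with
  | nil => rfl
  | @cons p q l l' hpq hl =>
    obtain ⟨a, g⟩ := p
    obtain ⟨b, g'⟩ := q
    obtain ⟨h1, h2⟩ := hpq
    simp only at h1
    subst h1
    exact h a g g' h2 l l' hl

/-- If `F a` depends on its argument through a small set (depending on `a`), then the abstraction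
has small support. -/
theorem smallSupp_lamFun' [Inhabited C] {F : Tm → Mi C Tm → Pv C Tm}
    (X : Tm → Set (Coord C Tm)) (hX : ∀ a, Small.{0} (X a))
    (h : ∀ a g g', (∀ c ∈ X a, g c = g' c) → F a g = F a g') :
    SmallSupp (lamFun F) := by
  -- for each `a` and each restricted argument choose a support
  have hsupp : ∀ φ : Pv C Tm, ∃ Y : Set (Coord C Tm), Small.{0} Y ∧
      ∀ l l', Agree Y l l' → φ.1 l = φ.1 l' := fun φ => φ.2
  choose Y hYs hY using hsupp
  -- extension of a function on `X a` to a minus value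
  let ext : (a : Tm) → (X a → C) → Mi C Tm := fun a u c => if hc : c ∈ X a then u ⟨c, hc⟩ else default
  have hext : ∀ a g, F a g = F a (ext a (fun c => g c.1)) := by
    intro a g
    apply h
    intro c hc
    simp [ext, hc]
  let Z : Set (Coord C Tm) := (⋃ a, X a) ∪ ⋃ a, ⋃ u : X a → C, Y (F a (ext a u))
  have hZ : Small.{0} Z := by
    have := hX
    have : ∀ a, Small.{0} (X a → C) := fun a => inferInstance
    have := hYs
    have h1 : Small.{0} (⋃ a, X a : Set (Coord C Tm)) := inferInstance
    have h3 : ∀ a, Small.{0} (⋃ u : X a → C, Y (F a (ext a u)) : Set (Coord C Tm)) :=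
      fun a => by
        have : (⋃ u : X a → C, Y (F a (ext a u)) : Set (Coord C Tm)) =
            ⋃ v : Shrink.{0} (X a → C), Y (F a (ext a ((equivShrink _).symm v))) := by
          apply Set.Subset.antisymm
          · intro c hc
            obtain ⟨u, hu⟩ := Set.mem_iUnion.1 hc
            refine Set.mem_iUnion.2 ⟨equivShrink _ u, ?_⟩
            simpa using hu
          · intro c hc
            obtain ⟨v, hv⟩ := Set.mem_iUnion.1 hc
            exact Set.mem_iUnion.2 ⟨_, hv⟩
        rw [this]
        exact small_iUnion _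
    have h2 : Small.{0} (⋃ a, ⋃ u : X a → C, Y (F a (ext a u)) : Set (Coord C Tm)) :=
      small_iUnion _
    exact small_union _ _
  refine ⟨Z, hZ, ?_⟩
  intro l l' hl
  unfold Agree at hl
  cases hl with
  | nil => rfl
  | @cons p q l l' hpq hl =>
    obtain ⟨a, g⟩ := p
    obtain ⟨b, g'⟩ := q
    obtain ⟨h1, h2⟩ := hpq
    simp only at h1
    subst h1
    simp only [lamFun]
    have e : F a g = F a g' := h a g g' (fun c hc => h2 c (Or.inl (Set.mem_iUnion.2 ⟨a, hc⟩)))
    rw [← e, hext a g]
    apply hY
    refine Agree.mono ?_ hl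
    intro c hc
    exact Or.inr (Set.mem_iUnion.2 ⟨a, Set.mem_iUnion.2 ⟨fun c => g c.1, hc⟩⟩)

/-- application of a minus value to a closed term and a plus value. -/
noncomputable def appM [Inhabited C] (m : Mi C Tm) (a : Tm) (φ : Pv C Tm) : Mi C Tm :=
  fun c => m ((a, code φ) :: c)

/-- abstraction of minus type. -/
def lamM [Inhabited C] (F : Tm → Pv C Tm → Mi C Tm) : Mi C Tm
  | [] => default
  | p :: c => F p.1 (decode p.2) c

@[simp] theorem appM_lamM [Inhabited C] (F : Tm → Pv C Tm → Mi C Tm) (a : Tm) (φ : Pv C Tm) :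
    appM (lamM F) a φ = F a φ := by
  funext c
  simp [appM, lamM]

/-- the leaf value of a plus value. -/
def valP (φ : Pv C Tm) : C := φ.1 []

/-- the leaf value of a minus value. -/
def valM (m : Mi C Tm) : C := m []

/-- a plus value with a given leaf value. -/
def leafFun [Inhabited C] (x : C) : Args C Tm → C
  | [] => x
  | _ :: _ => default

theorem smallSupp_leafFun [Inhabited C] (x : C) : SmallSupp (leafFun x : Args C Tm → C) := by
  refine ⟨∅, inferInstance, ?_⟩
  intro l l' h
  cases h <;> rfl

/-- leaf plus values. -/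
def leafP [Inhabited C] (x : C) : Pv C Tm := ⟨leafFun x, smallSupp_leafFun x⟩

@[simp] theorem valP_leafP [Inhabited C] (x : C) : valP (leafP x : Pv C Tm) = x := rfl

end Crest.Agent.R298.Dom631
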