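import Mathlib
import Crest.Agent.R298.Dom_631

/-!
R298, semantic half: small (tame) types over an abstract skeleton of closed types.

For a small type `T` we define by well-founded recursion over domain steps the injection
`Up T : Mi → Pv` of the (minus) functions on the valid coordinates `RC T` into plus values,
its range `Rep T` (a small set) and its inverse `dn T`.
-/

set_option autoImplicit false

namespace Crest.Agent.R298.Dom631

open Classical Relation

/-- abstract skeleton of closed types. -/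
structure Sk (Tm : Type) where
  /-- closed types -/
  Ty : Type
  /-- leaves carrying a value -/
  leaf : Ty → Prop
  /-- products -/
  pi : Ty → Prop
  /-- domain -/
  dom : Ty → Ty
  /-- closed elements -/
  has : Tm → Ty → Prop
  /-- codomain instance -/
  cod : Ty → Tm → Ty

namespace Sk

variable {Tm : Type} (K : Sk Tm)

/-- codomain step. -/
def CStep (T T' : K.Ty) : Prop := K.pi T ∧ ∃ a, K.has a (K.dom T) ∧ T' = K.cod T a

/-- codomain descendants. -/
def Desc (T T' : K.Ty) : Prop := ReflTransGen K.CStep T T'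

/-- relevant types. -/
def rel (T : K.Ty) : Prop := ∃ T', K.Desc T T' ∧ K.leaf T'

/-- relevant domain steps. -/
def DStep (A T : K.Ty) : Prop :=
  K.rel A ∧ ∃ T', K.Desc T T' ∧ K.pi T' ∧ K.rel T' ∧ A = K.dom T'

/-- small (tame) types. -/
def Tame (T : K.Ty) : Prop := Acc K.DStep T

theorem desc_refl (T : K.Ty) : K.Desc T T := ReflTransGen.refl

theorem Desc.cod {K : Sk Tm} {T0 T : K.Ty} (h : K.Desc T0 T) (hp : K.pi T) {a : Tm}
    (ha : K.has a (K.dom T)) : K.Desc T0 (K.cod T a) :=
  ReflTransGen.tail h ⟨hp, a, ha, rfl⟩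

theorem rel_of_cod {T : K.Ty} (hp : K.pi T) {a : Tm} (ha : K.has a (K.dom T))
    (h : K.rel (K.cod T a)) : K.rel T := by
  obtain ⟨T', h1, h2⟩ := h
  exact ⟨T', ReflTransGen.head ⟨hp, a, ha, rfl⟩ h1, h2⟩

theorem rel_of_desc {T T' : K.Ty} (h : K.Desc T T') (h' : K.rel T') : K.rel T := by
  obtain ⟨T2, h1, h2⟩ := h'
  exact ⟨T2, ReflTransGen.trans h h1, h2⟩

theorem rel_of_leaf {T : K.Ty} (h : K.leaf T) : K.rel T := ⟨T, ReflTransGen.refl, h⟩

theorem DStep.of_desc {K : Sk Tm} {A T T' : K.Ty} (h : K.Desc T T') (h' : K.DStep A T') :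
    K.DStep A T := by
  obtain ⟨hA, T2, h1, h2, h3, h4⟩ := h'
  exact ⟨hA, T2, ReflTransGen.trans h h1, h2, h3, h4⟩

theorem small_desc {T T' : K.Ty} (hT : K.Tame T) (h : K.Desc T T') : K.Tame T' :=
  Acc.intro _ (fun A hA => hT.inv (DStep.of_desc h hA))

theorem small_cod {T : K.Ty} (hT : K.Tame T) (hp : K.pi T) {a : Tm}
    (ha : K.has a (K.dom T)) : K.Tame (K.cod T a) :=
  K.small_desc hT (Desc.cod (K.desc_refl T) hp ha)

theorem small_of_not_rel {T : K.Ty} (h : ¬ K.rel T) : K.Tame T := by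
  refine Acc.intro _ (fun _ hA => ?_)
  obtain ⟨_, T', h1, _, h3, _⟩ := hA
  exact absurd (K.rel_of_desc h1 h3) h

theorem small_dom {T : K.Ty} (hT : K.Tame T) (hp : K.pi T) (hr : K.rel T) :
    K.Tame (K.dom T) := by
  by_cases h : K.rel (K.dom T)
  · exact hT.inv ⟨h, T, ReflTransGen.refl, hp, hr, rfl⟩
  · exact K.small_of_not_rel h

theorem small_leaf {T : K.Ty} (hp : ¬ K.pi T) : K.Tame T := by
  refine Acc.intro _ (fun A hA => ?_)
  obtain ⟨_, T', h1, h2, _, _⟩ := hA
  rcases ReflTransGen.cases_head h1 with h | ⟨T2, h, _⟩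
  · subst h; exact absurd h2 hp
  · exact absurd h.1 hp

section Up

variable {C : Type} [Inhabited C]

/-- the coordinate of an argument list (through the conversion `cv`). -/
noncomputable def walk (cv : K.Ty → Mi C Tm → Pv C Tm) : K.Ty → Args C Tm →
    Option (Coord C Tm)
  | T, [] => if K.leaf T then some [] else none
  | T, p :: l => if K.pi T ∧ K.has p.1 (K.dom T) then
      (walk cv (K.cod T p.1) l).map (fun c => (p.1, code (cv (K.dom T) p.2)) :: c) else none

theorem walk_nil (cv : K.Ty → Mi C Tm → Pv C Tm) (T : K.Ty) :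
    K.walk cv T [] = if K.leaf T then some [] else none := rfl

theorem walk_cons (cv : K.Ty → Mi C Tm → Pv C Tm) (T : K.Ty) (p : Tm × Mi C Tm)
    (l : Args C Tm) : K.walk cv T (p :: l) = if K.pi T ∧ K.has p.1 (K.dom T) then
      (K.walk cv (K.cod T p.1) l).map (fun c => (p.1, code (cv (K.dom T) p.2)) :: c)
      else none := rfl

theorem rel_of_walk {cv : K.Ty → Mi C Tm → Pv C Tm} {l : Args C Tm} :
    ∀ {T : K.Ty} {c : Coord C Tm}, K.walk cv T l = some c → K.rel T := by
  induction l with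
  | nil =>
    intro T c h
    rw [walk_nil] at h
    split_ifs at h with hl
    exact K.rel_of_leaf hl
  | cons p l ih =>
    intro T c h
    rw [walk_cons] at h
    split_ifs at h with hp
    obtain ⟨c', h1, _⟩ := Option.map_eq_some_iff.1 h
    exact K.rel_of_cod hp.1 hp.2 (ih h1)

/-- the functional attached to `m` by a conversion. -/
noncomputable def phi (cv : K.Ty → Mi C Tm → Pv C Tm) (T : K.Ty) (m : Mi C Tm) :
    Args C Tm → C :=
  fun l => ((K.walk cv T l).map m).getD default

/-- the recursive conversion. -/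
noncomputable def Up : K.Ty → Mi C Tm → Pv C Tm := fun T =>
  if h : Acc K.DStep T then
    Acc.rec (motive := fun _ _ => Mi C Tm → Pv C Tm)
      (fun T _ ih => fun m => mkP (K.phi
        (fun A g => if hA : K.DStep A T then ih A hA g else p0) T m)) h
  else fun _ => p0

theorem up_eq_aux {T : K.Ty} (h : K.Tame T) (m : Mi C Tm) :
    (K.Up T m : Pv C Tm) = mkP (K.phi
      (fun A g => if K.DStep A T then K.Up A g else p0) T m) := by
  have hh : Acc K.DStep T := h
  unfold Up
  rw [dif_pos hh]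
  cases hh with
  | intro _ h2 =>
    simp only
    congr 1
    congr 1
    funext A g
    by_cases hA : K.DStep A T
    · rw [dif_pos hA, if_pos hA, dif_pos (h2 A hA)]
    · rw [dif_neg hA, if_neg hA]

theorem phi_eq_default {cv : K.Ty → Mi C Tm → Pv C Tm} {T : K.Ty} (h : ¬ K.rel T)
    (m : Mi C Tm) : K.phi cv T m = fun _ => default := by
  funext l
  unfold phi
  cases hw : K.walk cv T l with
  | none => rfl
  | some c => exact absurd (K.rel_of_walk hw) h

theorem mkP_default : (mkP (fun _ => default) : Pv C Tm) = p0 := by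
  refine Subtype.ext ?_
  rw [mkP_val (smallSupp_const _)]
  rfl

theorem up_irrel {T : K.Ty} (h : ¬ K.rel T) (m : Mi C Tm) : (K.Up T m : Pv C Tm) = p0 := by
  rw [K.up_eq_aux (K.small_of_not_rel h) m, K.phi_eq_default h, mkP_default]

theorem walk_eq {T0 : K.Ty} (l : Args C Tm) : ∀ {T : K.Ty}, K.Desc T0 T →
    K.walk (fun A g => if K.DStep A T0 then K.Up A g else p0) T l = K.walk K.Up T l := by
  induction l with
  | nil => intro T _; rfl
  | cons p l ih =>
    intro T hT
    rw [walk_cons, walk_cons]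
    by_cases hp : K.pi T ∧ K.has p.1 (K.dom T)
    · rw [if_pos hp, if_pos hp, ih (Desc.cod hT hp.1 hp.2)]
      cases hw : K.walk K.Up (K.cod T p.1) l with
      | none => rfl
      | some c =>
        have hr : K.rel T := K.rel_of_cod hp.1 hp.2 (K.rel_of_walk hw)
        simp only [Option.map_some]
        by_cases hd : K.rel (K.dom T)
        · rw [if_pos ⟨hd, T, hT, hp.1, hr, rfl⟩]
        · rw [if_neg (fun h => hd h.1), K.up_irrel hd]
    · rw [if_neg hp, if_neg hp]

/-- unfolding equation of `Up`. -/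
theorem up_eq {T : K.Ty} (h : K.Tame T) (m : Mi C Tm) :
    (K.Up T m : Pv C Tm) = mkP (K.phi K.Up T m) := by
  rw [K.up_eq_aux h m]
  congr 1
  funext l
  unfold phi
  rw [K.walk_eq l (K.desc_refl T)]

/-- valid coordinates. -/
def okc : K.Ty → Coord C Tm → Prop
  | T, [] => K.leaf T
  | T, p :: c => K.pi T ∧ K.has p.1 (K.dom T) ∧ (∃ g, p.2 = code (K.Up (K.dom T) g)) ∧
      okc (K.cod T p.1) c

/-- the set of valid coordinates. -/
def RC (T : K.Ty) : Set (Coord C Tm) := {c | K.okc T c}

/-- representable plus values. -/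
def Rep (T : K.Ty) : Set (Pv C Tm) := Set.range (K.Up T)

theorem okc_of_walk {l : Args C Tm} : ∀ {T : K.Ty} {c : Coord C Tm},
    K.walk K.Up T l = some c → K.okc T c := by
  induction l with
  | nil =>
    intro T c h
    rw [walk_nil] at h
    split_ifs at h with hl
    cases h
    exact hl
  | cons p l ih =>
    intro T c h
    rw [walk_cons] at h
    split_ifs at h with hp
    obtain ⟨c', h1, rfl⟩ := Option.map_eq_some_iff.1 h
    exact ⟨hp.1, hp.2, ⟨p.2, rfl⟩, ih h1⟩

theorem walk_of_okc {c : Coord C Tm} : ∀ {T : K.Ty}, K.okc T c →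
    ∃ l : Args C Tm, K.walk K.Up T l = some c := by
  induction c with
  | nil =>
    intro T h
    exact ⟨[], by rw [walk_nil, if_pos (show K.leaf T from h)]⟩
  | cons p c ih =>
    intro T h
    obtain ⟨h1, h2, ⟨g, h3⟩, h4⟩ := h
    obtain ⟨l, hl⟩ := ih h4
    refine ⟨(p.1, g) :: l, ?_⟩
    rw [walk_cons, if_pos ⟨h1, h2⟩]
    simp only [hl, Option.map_some, ← h3]

theorem rel_of_okc {c : Coord C Tm} {T : K.Ty} (h : K.okc T c) : K.rel T := by
  obtain ⟨l, hl⟩ := K.walk_of_okc h
  exact K.rel_of_walk hl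

/-- `Up T m` depends on `m` on the valid coordinates only. -/
theorem up_congr {T : K.Ty} {m m' : Mi C Tm} (hm : ∀ c ∈ K.RC T, m c = m' c) :
    (K.Up T m : Pv C Tm) = K.Up T m' := by
  by_cases h : K.Tame T
  · rw [K.up_eq h, K.up_eq h]
    congr 1
    funext l
    unfold phi
    cases hw : K.walk K.Up T l with
    | none => rfl
    | some c =>
      simp only [Option.map_some, Option.getD_some]
      exact hm c (K.okc_of_walk hw)
  · have h' : ¬ Acc K.DStep T := h
    unfold Up
    rw [dif_neg h']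

theorem small_rep_of_rc {T : K.Ty} (h : Small.{0} (K.RC T : Set (Coord C Tm))) :
    Small.{0} (K.Rep T : Set (Pv C Tm)) := by
  have hsub : (K.Rep T : Set (Pv C Tm)) ⊆
      Set.range (fun u : (↥(K.RC T : Set (Coord C Tm)) → C) =>
        (K.Up T (fun c => if hc : c ∈ K.RC T then u ⟨c, hc⟩ else default) : Pv C Tm)) := by
    rintro φ ⟨m, rfl⟩
    refine ⟨fun c => m c.1, ?_⟩
    apply K.up_congr
    intro c hc
    simp only [dif_pos hc]
  exact small_subset hsub

theorem rep_irrel {T : K.Ty} (h : ¬ K.rel T) : (K.Rep T : Set (Pv C Tm)) = {p0} := by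
  ext φ
  constructor
  · rintro ⟨m, rfl⟩
    exact K.up_irrel h m
  · rintro rfl
    exact ⟨fun _ => default, K.up_irrel h _⟩

omit [Inhabited C] in
/-- the lists with entries in a small set form a small set. -/
theorem small_lists (Y : Set (W C Tm)) [Small.{0} Y] :
    Small.{0} ({c : Coord C Tm | ∀ p ∈ c, p.2 ∈ Y} : Set (Coord C Tm)) := by
  have hsub : ({c : Coord C Tm | ∀ p ∈ c, p.2 ∈ Y} : Set (Coord C Tm)) ⊆
      Set.range (fun c : List (Tm × Shrink.{0} Y) =>
        (c.map (fun p => (p.1, ((equivShrink Y).symm p.2).1)) : Coord C Tm)) := by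
    intro c hc
    induction c with
    | nil => exact ⟨[], rfl⟩
    | cons p c ih =>
      obtain ⟨c', hc'⟩ := ih (fun q hq => hc q (List.mem_cons_of_mem _ hq))
      have hp : p.2 ∈ Y := hc p List.mem_cons_self
      refine ⟨(p.1, equivShrink Y ⟨p.2, hp⟩) :: c', ?_⟩
      simp only [List.map_cons, Equiv.symm_apply_apply]
      simp only at hc'
      rw [hc']
  exact small_subset hsub

/-- the valid coordinates of a small type form a small set. -/
theorem small_rc {T : K.Ty} (h : K.Tame T) : Small.{0} (K.RC T : Set (Coord C Tm)) := by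
  induction h with
  | intro T _ ih =>
    let I := {T' : K.Ty // K.Desc T T' ∧ K.pi T' ∧ K.rel T'}
    have hrep : ∀ i : I, Small.{0} (K.Rep (K.dom i.1) : Set (Pv C Tm)) := by
      rintro ⟨T', h1, h2, h3⟩
      by_cases hd : K.rel (K.dom T')
      · exact K.small_rep_of_rc (ih _ ⟨hd, T', h1, h2, h3, rfl⟩)
      · simp only
        rw [K.rep_irrel hd]
        infer_instance
    let Y : Set (W C Tm) := ⋃ i : I, code '' (K.Rep (K.dom i.1) : Set (Pv C Tm))
    have hY : Small.{0} Y := by
      have : ∀ i : I, Small.{0} (code '' (K.Rep (K.dom i.1) : Set (Pv C Tm)) : Set (W C Tm)) :=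
        fun i => by have := hrep i; infer_instance
      exact small_iUnion _
    have hsub : ∀ (c : Coord C Tm) (T' : K.Ty), K.Desc T T' → K.okc T' c →
        ∀ p ∈ c, p.2 ∈ Y := by
      intro c
      induction c with
      | nil => intro T' _ _ p hp; cases hp
      | cons q c ihc =>
        intro T' hT' hok p hp
        obtain ⟨h1, h2, ⟨g, h3⟩, h4⟩ := hok
        rcases List.mem_cons.1 hp with rfl | hp
        · have hr : K.rel T' := K.rel_of_cod h1 h2 (K.rel_of_okc h4)
          exact Set.mem_iUnion.2 ⟨⟨T', hT', h1, hr⟩, _, ⟨g, rfl⟩, h3.symm⟩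
        · exact ihc _ (Desc.cod hT' h1 h2) h4 p hp
    have := small_lists (C := C) (Tm := Tm) Y
    refine small_subset (s := {c : Coord C Tm | ∀ p ∈ c, p.2 ∈ Y}) ?_
    intro c hc
    exact hsub c T (K.desc_refl T) hc

theorem small_rep {T : K.Ty} (h : K.Tame T) : Small.{0} (K.Rep T : Set (Pv C Tm)) :=
  K.small_rep_of_rc (K.small_rc h)

/-- support of the arguments of a small type. -/
def supp (T : K.Ty) : Set (Coord C Tm) :=
  ⋃ i : {T' : K.Ty // K.Desc T T' ∧ K.pi T' ∧ K.rel T' ∧ K.rel (K.dom T')}, K.RC (K.dom i.1)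

theorem small_supp {T : K.Ty} (h : K.Tame T) : Small.{0} (K.supp T : Set (Coord C Tm)) := by
  have : ∀ i : {T' : K.Ty // K.Desc T T' ∧ K.pi T' ∧ K.rel T' ∧ K.rel (K.dom T')},
      Small.{0} (K.RC (K.dom i.1) : Set (Coord C Tm)) := by
    rintro ⟨T', h1, h2, h3, h4⟩
    exact K.small_rc (h.inv ⟨h4, T', h1, h2, h3, rfl⟩)
  exact small_iUnion _

theorem walk_agree {T0 : K.Ty} {l l' : Args C Tm} (hl : Agree (K.supp T0) l l') :
    ∀ {T : K.Ty}, K.Desc T0 T → K.walk K.Up T l = K.walk K.Up T l' := by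
  unfold Agree at hl
  induction hl with
  | nil => intro T _; rfl
  | @cons p q l l' hpq _ ih =>
    intro T hT
    rw [walk_cons, walk_cons, ← hpq.1]
    by_cases hp : K.pi T ∧ K.has p.1 (K.dom T)
    · rw [if_pos hp, if_pos hp, ih (Desc.cod hT hp.1 hp.2)]
      cases hw : K.walk K.Up (K.cod T p.1) l' with
      | none => rfl
      | some c =>
        have hr : K.rel T := K.rel_of_cod hp.1 hp.2 (K.rel_of_walk hw)
        simp only [Option.map_some]
        by_cases hd : K.rel (K.dom T)
        · have e : (K.Up (K.dom T) p.2 : Pv C Tm) = K.Up (K.dom T) q.2 := by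
            apply K.up_congr
            intro c hc
            exact hpq.2 c (Set.mem_iUnion.2 ⟨⟨T, hT, hp.1, hr, hd⟩, hc⟩)
          rw [e]
        · rw [K.up_irrel hd, K.up_irrel hd]
    · rw [if_neg hp, if_neg hp]

theorem smallSupp_phi {T : K.Ty} (h : K.Tame T) (m : Mi C Tm) :
    SmallSupp (K.phi K.Up T m) := by
  refine ⟨K.supp T, K.small_supp h, ?_⟩
  intro l l' hl
  unfold phi
  rw [K.walk_agree hl (K.desc_refl T)]

theorem up_apply {T : K.Ty} (h : K.Tame T) (m : Mi C Tm) (l : Args C Tm) :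
    (K.Up T m : Pv C Tm).1 l = K.phi K.Up T m l := by
  rw [K.up_eq h, mkP_apply (K.smallSupp_phi h m)]

/-- `Up T` is injective on the valid coordinates. -/
theorem up_inj {T : K.Ty} (h : K.Tame T) {m m' : Mi C Tm}
    (e : (K.Up T m : Pv C Tm) = K.Up T m') : ∀ c ∈ K.RC T, m c = m' c := by
  intro c hc
  obtain ⟨l, hl⟩ := K.walk_of_okc hc
  have h1 := K.up_apply h m l
  have h2 := K.up_apply h m' l
  rw [e, h2] at h1
  simpa [phi, hl] using h1.symm

/-- truncation to the valid coordinates. -/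
noncomputable def trunc (T : K.Ty) (m : Mi C Tm) : Mi C Tm :=
  fun c => if c ∈ K.RC T then m c else default

/-- the inverse of `Up T`. -/
noncomputable def dn (T : K.Ty) (φ : Pv C Tm) : Mi C Tm :=
  fun c => if h : c ∈ K.RC T ∧ ∃ m, K.Up T m = φ then h.2.choose c else default

theorem dn_up {T : K.Ty} (h : K.Tame T) (m : Mi C Tm) : K.dn T (K.Up T m) = K.trunc T m := by
  funext c
  unfold dn trunc
  by_cases hc : c ∈ K.RC T
  · have hh : c ∈ K.RC T ∧ ∃ m', K.Up T m' = K.Up T m := ⟨hc, m, rfl⟩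
    rw [dif_pos hh, if_pos hc]
    exact K.up_inj h hh.2.choose_spec c hc
  · rw [dif_neg (fun hh => hc hh.1), if_neg hc]

theorem up_trunc {T : K.Ty} (m : Mi C Tm) : (K.Up T (K.trunc T m) : Pv C Tm) = K.Up T m := by
  apply K.up_congr
  intro c hc
  unfold trunc
  rw [if_pos hc]

theorem up_dn {T : K.Ty} (h : K.Tame T) {φ : Pv C Tm} (hφ : φ ∈ K.Rep T) :
    K.Up T (K.dn T φ) = φ := by
  obtain ⟨m, rfl⟩ := hφ
  rw [K.dn_up h, K.up_trunc]

/-- application law. -/
theorem appP_up {T : K.Ty} (h : K.Tame T) (hp : K.pi T) {a : Tm} (ha : K.has a (K.dom T))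
    (m g : Mi C Tm) :
    appP (K.Up T m) a g = K.Up (K.cod T a) (appM m a (K.Up (K.dom T) g)) := by
  ext l
  show (K.Up T m : Pv C Tm).1 ((a, g) :: l) = _
  rw [K.up_apply h, K.up_apply (K.small_cod h hp ha)]
  unfold phi
  rw [walk_cons, if_pos ⟨hp, ha⟩]
  cases K.walk K.Up (K.cod T a) l with
  | none => rfl
  | some c => rfl

theorem rep_app {T : K.Ty} (h : K.Tame T) (hp : K.pi T) {a : Tm} (ha : K.has a (K.dom T))
    {φ : Pv C Tm} (hφ : φ ∈ K.Rep T) (g : Mi C Tm) : appP φ a g ∈ K.Rep (K.cod T a) := by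
  obtain ⟨m, rfl⟩ := hφ
  rw [K.appP_up h hp ha]
  exact ⟨_, rfl⟩

/-- application of representable values depends on the class of the argument only. -/
theorem app_congr {T : K.Ty} (h : K.Tame T) (hp : K.pi T) {a : Tm} (ha : K.has a (K.dom T))
    {φ : Pv C Tm} (hφ : φ ∈ K.Rep T) {g g' : Mi C Tm}
    (e : (K.Up (K.dom T) g : Pv C Tm) = K.Up (K.dom T) g') : appP φ a g = appP φ a g' := by
  obtain ⟨m, rfl⟩ := hφ
  rw [K.appP_up h hp ha, K.appP_up h hp ha, e]

/-- a criterion for representability at a product type. -/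
theorem rep_of_app {T : K.Ty} (h : K.Tame T) (hp : K.pi T) (hl : ¬ K.leaf T) {φ : Pv C Tm}
    (h0 : φ.1 [] = default)
    (h1 : ∀ a, ¬ K.has a (K.dom T) → ∀ g, appP φ a g = p0)
    (h2 : ∀ a, K.has a (K.dom T) → ∀ g, appP φ a g ∈ K.Rep (K.cod T a))
    (h3 : ∀ a, K.has a (K.dom T) → ∀ g g', (K.Up (K.dom T) g : Pv C Tm) = K.Up (K.dom T) g' →
      appP φ a g = appP φ a g') : φ ∈ K.Rep T := by
  -- the coordinate function
  let m : Mi C Tm := fun c => match c with
    | [] => default
    | p :: c => if hh : K.has p.1 (K.dom T) ∧ ∃ g, p.2 = code (K.Up (K.dom T) g) then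
        (h2 p.1 hh.1 hh.2.choose).choose c else default
  refine ⟨m, ?_⟩
  ext l
  rw [K.up_apply h]
  cases l with
  | nil =>
    rw [h0]
    unfold phi
    rw [walk_nil, if_neg hl]
    rfl
  | cons p l =>
    obtain ⟨a, g⟩ := p
    by_cases ha : K.has a (K.dom T)
    · have e1 : K.phi K.Up T m ((a, g) :: l) =
          K.phi K.Up (K.cod T a) (appM m a (K.Up (K.dom T) g)) l := by
        unfold phi
        rw [walk_cons, if_pos ⟨hp, ha⟩]
        cases K.walk K.Up (K.cod T a) l with
        | none => rfl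
        | some c => rfl
      rw [e1, ← K.up_apply (K.small_cod h hp ha)]
      have hh : K.has a (K.dom T) ∧ ∃ g', code (K.Up (K.dom T) g : Pv C Tm) =
          code (K.Up (K.dom T) g') := ⟨ha, g, rfl⟩
      have e2 : appM m a (K.Up (K.dom T) g) = (h2 a hh.1 hh.2.choose).choose := by
        funext c
        show m ((a, code (K.Up (K.dom T) g)) :: c) = _
        simp only [m]
        rw [dif_pos hh]
      rw [e2, (h2 a hh.1 hh.2.choose).choose_spec,
        h3 a ha _ g (code_injective hh.2.choose_spec).symm]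
      rfl
    · have e1 : K.phi K.Up T m ((a, g) :: l) = default := by
        unfold phi
        rw [walk_cons, if_neg (fun hh => ha hh.2)]
        rfl
      rw [e1]
      have := h1 a ha g
      have h4 : (appP φ a g).1 l = (p0 : Pv C Tm).1 l := by rw [this]
      exact h4.symm

/-- representable values at a leaf. -/
theorem up_leaf {T : K.Ty} (hl : K.leaf T) (hp : ¬ K.pi T) (m : Mi C Tm) :
    K.Up T m = leafP (m []) := by
  ext l
  rw [K.up_apply (K.small_leaf hp)]
  unfold phi
  cases l with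
  | nil => rw [walk_nil, if_pos hl]; rfl
  | cons p l => rw [walk_cons, if_neg (fun h => hp h.1)]; rfl

theorem leafP_mem_rep {T : K.Ty} (hl : K.leaf T) (hp : ¬ K.pi T) (x : C) :
    (leafP x : Pv C Tm) ∈ K.Rep T := ⟨fun _ => x, K.up_leaf hl hp _⟩

/-- values of a representable functional at lists with an untyped entry. -/
theorem rep_app_not_has {T : K.Ty} (h : K.Tame T) {a : Tm} (ha : ¬ K.has a (K.dom T))
    {φ : Pv C Tm} (hφ : φ ∈ K.Rep T) (g : Mi C Tm) : appP φ a g = p0 := by
  obtain ⟨m, rfl⟩ := hφ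
  ext l
  show (K.Up T m : Pv C Tm).1 ((a, g) :: l) = _
  rw [K.up_apply h]
  unfold phi
  rw [walk_cons, if_neg (fun hh => ha hh.2)]
  rfl

theorem rep_nil_not_leaf {T : K.Ty} (h : K.Tame T) (hl : ¬ K.leaf T)
    {φ : Pv C Tm} (hφ : φ ∈ K.Rep T) : φ.1 [] = default := by
  obtain ⟨m, rfl⟩ := hφ
  rw [K.up_apply h]
  unfold phi
  rw [walk_nil, if_neg hl]
  rfl

/-- truncation of a coordinate function before application. -/
theorem dn_app {T : K.Ty} (h : K.Tame T) (hp : K.pi T) {a : Tm} (ha : K.has a (K.dom T))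
    {φ : Pv C Tm} (hφ : φ ∈ K.Rep T) (g : Mi C Tm) :
    appM (K.dn T φ) a (K.Up (K.dom T) g) = K.dn (K.cod T a) (appP φ a g) := by
  obtain ⟨m, rfl⟩ := hφ
  rw [K.dn_up h, K.appP_up h hp ha, K.dn_up (K.small_cod h hp ha)]
  funext c
  unfold appM trunc
  by_cases hc : c ∈ K.RC (K.cod T a)
  · rw [if_pos hc, if_pos]
    exact ⟨hp, ha, ⟨g, rfl⟩, hc⟩
  · rw [if_neg hc, if_neg]
    intro h'
    exact hc h'.2.2.2

end Up

end Sk

end Crest.Agent.R298.Dom631
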