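import Mathlib

/-!
# R298: info domain for the semantic half (tame + thin), helper201

`X := Ordinal.{0}` is the domain of all "plus" (and small) infos, `Neg := Pt → C` (all functions on
finite lists of (closed term, element of `X`)) the domain of the "minus" infos, and supports are
single ordinals.  The whole file is untyped: no spec, no terms, only two small types `Tm`, `C`.
-/

set_option autoImplicit false
set_option linter.unusedSectionVars false

namespace Crest.Agent.R298.Dom201

/-- the domain of plus infos -/
abbrev X : Type 1 := Ordinal.{0}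

variable {Tm C : Type} [Inhabited C]

/-- points of minus infos: finite lists of (closed term, plus info) -/
abbrev Pt (Tm : Type) : Type 1 := List (Tm × X)

/-- minus infos: all functions on points -/
abbrev Neg (Tm C : Type) : Type 1 := Pt Tm → C

/-- infos of both colours -/
abbrev Val (Tm C : Type) : Type 1 := X ⊕ Neg Tm C

/-- argument lists of plus infos -/
abbrev Args (Tm C : Type) : Type 1 := List (Tm × Val Tm C)

/-- all entries of the point are below `α` -/
def PtLt (α : X) (p : Pt Tm) : Prop := ∀ e ∈ p, e.2 < α

/-- agreement of minus infos on all points below `α` -/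
def AgN (α : X) (G H : Neg Tm C) : Prop := ∀ p, PtLt α p → G p = H p

/-- agreement of infos: plus infos are equal, minus infos agree below `α` -/
inductive AgV (α : X) : Val Tm C → Val Tm C → Prop
  | inl (x : X) : AgV α (Sum.inl x) (Sum.inl x)
  | inr {G H : Neg Tm C} : AgN α G H → AgV α (Sum.inr G) (Sum.inr H)

/-- agreement of argument lists -/
def AgA (α : X) : Args Tm C → Args Tm C → Prop :=
  List.Forall₂ fun e e' => e.1 = e'.1 ∧ AgV α e.2 e'.2

/-- all plus entries of the argument list are below `α` -/
def ArgLt (α : X) (l : Args Tm C) : Prop := ∀ e ∈ l, ∀ x, e.2 = Sum.inl x → x < α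

/-- `F` is `α`-supported: default if a plus entry is not below `α`, and it reads the minus entries
only at points below `α` -/
def Supp (α : X) (F : Args Tm C → C) : Prop :=
  (∀ l, ¬ ArgLt α l → F l = default) ∧ (∀ l l', AgA α l l' → F l = F l')

theorem PtLt.mono {α β : X} (h : α ≤ β) {p : Pt Tm} (hp : PtLt α p) : PtLt β p :=
  fun e he => (hp e he).trans_le h

theorem AgN.refl (α : X) (G : Neg Tm C) : AgN α G G := fun _ _ => rfl

theorem AgN.symm {α : X} {G H : Neg Tm C} (h : AgN α G H) : AgN α H G :=
  fun p hp => (h p hp).symm

theorem AgN.trans {α : X} {G H K : Neg Tm C} (h : AgN α G H) (h' : AgN α H K) : AgN α G K :=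
  fun p hp => (h p hp).trans (h' p hp)

theorem AgN.anti {α β : X} (h : α ≤ β) {G H : Neg Tm C} (hg : AgN β G H) : AgN α G H :=
  fun p hp => hg p (hp.mono h)

theorem AgV.refl (α : X) (v : Val Tm C) : AgV α v v := by
  cases v with
  | inl x => exact .inl x
  | inr G => exact .inr (AgN.refl α G)

theorem AgV.symm {α : X} {v w : Val Tm C} (h : AgV α v w) : AgV α w v := by
  cases h with
  | inl x => exact .inl x
  | inr h => exact .inr h.symm

theorem AgV.anti {α β : X} (h : α ≤ β) {v w : Val Tm C} (hv : AgV β v w) : AgV α v w := by
  cases hv with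
  | inl x => exact .inl x
  | inr hg => exact .inr (hg.anti h)

theorem AgA.refl (α : X) (l : Args Tm C) : AgA α l l := by
  unfold AgA
  induction l with
  | nil => exact .nil
  | cons e l ih => exact .cons ⟨rfl, AgV.refl α _⟩ ih

theorem AgA.symm {α : X} {l l' : Args Tm C} (h : AgA α l l') : AgA α l' l := by
  unfold AgA at *
  induction h with
  | nil => exact .nil
  | cons h _ ih => exact .cons ⟨h.1.symm, h.2.symm⟩ ih

theorem AgA.anti {α β : X} (h : α ≤ β) {l l' : Args Tm C} (hl : AgA β l l') : AgA α l l' := by
  unfold AgA at *
  induction hl with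
  | nil => exact .nil
  | cons h' _ ih => exact .cons ⟨h'.1, h'.2.anti h⟩ ih

theorem ArgLt.mono {α β : X} (h : α ≤ β) {l : Args Tm C} (hl : ArgLt α l) : ArgLt β l :=
  fun e he x hx => (hl e he x hx).trans_le h

theorem Supp.mono {α β : X} (h : α ≤ β) {F : Args Tm C → C} (hF : Supp α F) : Supp β F :=
  ⟨fun l hl => hF.1 l fun hl' => hl (hl'.mono h), fun l l' hl => hF.2 l l' (hl.anti h)⟩

/-! ### the code -/

/-- small version of values below `α` -/
abbrev SVal (Tm C : Type) (α : X) : Type := α.ToType ⊕ (List (Tm × α.ToType) → C)

/-- the ordinal of an element of `α.ToType` -/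
noncomputable def up {α : X} (t : α.ToType) : X :=
  (Ordinal.ToType.mk.symm t : Set.Iio α).1

theorem up_lt {α : X} (t : α.ToType) : up t < α :=
  (Ordinal.ToType.mk.symm t : Set.Iio α).2

noncomputable def dn {α : X} (x : X) (h : x < α) : α.ToType :=
  Ordinal.ToType.mk ⟨x, h⟩

theorem up_dn {α : X} (x : X) (h : x < α) : up (dn x h) = x := by
  simp [up, dn]

theorem dn_up {α : X} (t : α.ToType) : dn (up t) (up_lt t) = t := by
  simp [up, dn]

open Classical in
/-- embedding of small minus values -/
noncomputable def embN {α : X} (g : List (Tm × α.ToType) → C) : Neg Tm C := fun p =>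
  if h : ∀ e : {e // e ∈ p}, e.1.2 < α then g (p.attach.map fun e => (e.1.1, dn e.1.2 (h e)))
  else default

noncomputable def embV {α : X} : SVal Tm C α → Val Tm C
  | Sum.inl t => Sum.inl (up t)
  | Sum.inr g => Sum.inr (embN g)

/-- restriction of minus values -/
noncomputable def resN (α : X) (G : Neg Tm C) : List (Tm × α.ToType) → C :=
  fun p => G (p.map fun e => (e.1, up e.2))

theorem embN_resN (α : X) (G : Neg Tm C) : AgN α (embN (resN α G)) G := by
  intro p hp
  have h : ∀ e : {e // e ∈ p}, e.1.2 < α := fun e => hp e.1 e.2
  unfold embN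
  rw [dif_pos h]
  unfold resN
  congr 1
  rw [List.map_map]
  conv_rhs => rw [← List.attach_map_subtype_val p]
  apply List.map_congr_left
  intro e _
  simp only [Function.comp]
  rw [up_dn]

/-- the restricted (small) function -/
noncomputable def res (α : X) (F : Args Tm C → C) : List (Tm × SVal Tm C α) → C :=
  fun l => F (l.map fun e => (e.1, embV e.2))

theorem exists_small (α : X) (l : Args Tm C) (h : ArgLt α l) :
    ∃ s : List (Tm × SVal Tm C α), AgA α (s.map fun e => (e.1, embV e.2)) l := by
  induction l with
  | nil => exact ⟨[], AgA.refl α _⟩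
  | cons e l ih =>
    obtain ⟨s, hs⟩ := ih fun e' he' => h e' (List.mem_cons_of_mem _ he')
    obtain ⟨a, v⟩ := e
    cases v with
    | inl x =>
      have hx : x < α := h (a, Sum.inl x) (List.mem_cons_self ..) x rfl
      refine ⟨(a, Sum.inl (dn x hx)) :: s, ?_⟩
      refine List.Forall₂.cons ⟨rfl, ?_⟩ hs
      simp only [embV, up_dn]
      exact AgV.inl x
    | inr G =>
      refine ⟨(a, Sum.inr (resN α G)) :: s, ?_⟩
      refine List.Forall₂.cons ⟨rfl, ?_⟩ hs
      simp only [embV]
      exact AgV.inr (embN_resN α G)

theorem res_inj {α : X} {F F' : Args Tm C → C} (hF : Supp α F) (hF' : Supp α F')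
    (h : res α F = res α F') : F = F' := by
  funext l
  by_cases hl : ArgLt α l
  · obtain ⟨s, hs⟩ := exists_small α l hl
    rw [← hF.2 _ _ hs, ← hF'.2 _ _ hs]
    exact congrFun h s
  · rw [hF.1 l hl, hF'.1 l hl]

/-- supported functions -/
def SF (Tm C : Type) [Inhabited C] : Type 1 := {F : Args Tm C → C // ∃ α, Supp α F}

theorem exists_code (Tm C : Type) [Inhabited C] : ∃ c : SF Tm C → X, Function.Injective c := by
  classical
  -- small types embed in the ordinals
  have hsm : ∀ α : X, ∃ f : (List (Tm × SVal Tm C α) → C) → X, Function.Injective f := by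
    intro α
    let T := (List (Tm × SVal Tm C α) → C)
    let r : T → T → Prop := WellOrderingRel
    refine ⟨fun t => Ordinal.typein r t, ?_⟩
    exact Ordinal.typein_injective r
  choose f hf using hsm
  let g : SF Tm C → X × X := fun F => (Classical.choose F.2, f _ (res (Classical.choose F.2) F.1))
  have hg : Function.Injective g := by
    intro F F' h
    have h1 : Classical.choose F.2 = Classical.choose F'.2 := congrArg Prod.fst h
    have h2 : f _ (res (Classical.choose F.2) F.1) = f _ (res (Classical.choose F'.2) F'.1) :=
      congrArg Prod.snd h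
    have s1 := Classical.choose_spec F.2
    have s2 := Classical.choose_spec F'.2
    generalize Classical.choose F.2 = α at *
    generalize Classical.choose F'.2 = α' at *
    subst h1
    exact Subtype.ext (res_inj s1 s2 (hf _ h2))
  have hinf : Cardinal.aleph0 ≤ Cardinal.mk X := by
    rw [Cardinal.aleph0_le_mk_iff]
    infer_instance
  have hcard : Cardinal.mk (X × X) = Cardinal.mk X := by
    rw [Cardinal.mk_prod]
    simpa using Cardinal.mul_eq_self hinf
  obtain ⟨e⟩ := Cardinal.eq.1 hcard
  exact ⟨fun F => e (g F), e.injective.comp hg⟩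

/-- the code of a supported function -/
noncomputable def code (F : SF Tm C) : X := Classical.choose (exists_code Tm C) F

theorem code_inj : Function.Injective (code : SF Tm C → X) :=
  Classical.choose_spec (exists_code Tm C)

open Classical in
/-- the function coded by an element of `X` (default if none) -/
noncomputable def app (x : X) : Args Tm C → C :=
  if h : ∃ F : SF Tm C, code F = x then (Classical.choose h).1 else fun _ => default

theorem app_code (F : SF Tm C) : app (code F) = F.1 := by
  have h : ∃ F' : SF Tm C, code F' = code F := ⟨F, rfl⟩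
  unfold app
  rw [dif_pos h]
  exact congrArg Subtype.val (code_inj (Classical.choose_spec h))

theorem supp_const_default : Supp (0 : X) (fun _ : Args Tm C => (default : C)) :=
  ⟨fun _ _ => rfl, fun _ _ _ => rfl⟩

theorem app_supp (x : X) : ∃ α, Supp α (app x : Args Tm C → C) := by
  classical
  unfold app
  split_ifs with h
  · exact (Classical.choose h).2
  · exact ⟨0, supp_const_default⟩

open Classical in
/-- code of an arbitrary function (0-code of default if not supported) -/
noncomputable def codeF (F : Args Tm C → C) : X :=
  if h : ∃ α, Supp α F then code ⟨F, h⟩ else 0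

theorem app_codeF {F : Args Tm C → C} (h : ∃ α, Supp α F) : app (codeF F) = F := by
  unfold codeF
  rw [dif_pos h]
  exact app_code _

/-! ### small suprema -/

theorem exists_bound {ι : Type} (f : ι → X) : ∃ β : X, ∀ i, f i < β :=
  ⟨Order.succ (iSup f), fun i => Order.lt_succ_of_le (Ordinal.le_iSup f i)⟩

/-- a family that takes only small many values is bounded -/
theorem exists_bound_of_factor {ι : Type} {A : Type*} (g : A → ι) (f : A → X)
    (h : ∀ a a', g a = g a' → f a = f a') : ∃ β : X, ∀ a, f a < β := by
  classical
  let F : ι → X := fun i => if hi : ∃ a, g a = i then f (Classical.choose hi) else 0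
  obtain ⟨β, hβ⟩ := exists_bound F
  refine ⟨β, fun a => ?_⟩
  have hi : ∃ a', g a' = g a := ⟨a, rfl⟩
  have := hβ (g a)
  simp only [F] at this
  rw [dif_pos hi] at this
  rwa [h _ _ (Classical.choose_spec hi)] at this

end Crest.Agent.R298.Dom201
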