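import Crest.Agent.R298.Sub_452
import Mathlib.Logic.Relation

/-!
R298 (S0452), helper452: closure properties of beta reduction, parallel reduction,
Church-Rosser, injectivity of the type formers up to conversion.
-/

set_option autoImplicit false

namespace Crest.Agent.R298.Par452

open Crest.LogicCS.PTS Crest.LogicCS.PTS.Term Relation
open Crest.Agent.R298.Sub452

universe u
variable {S : Type u}

/-- many step beta reduction -/
abbrev Red : Term S → Term S → Prop := ReflTransGen Beta

theorem beta_redex (A M N : Term S) : Beta (app (lam A M) N) (inst N M) := by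
  have := Beta.redex A M N
  rwa [subst_eq] at this

theorem Beta.sub {M M' : Term S} (h : Beta M M') (σ : ℕ → Term S) : Beta (sub σ M) (sub σ M') := by
  induction h generalizing σ with
  | redex A M N =>
      rw [subst_eq, sub_inst]
      exact beta_redex _ _ _
  | appL N _ ih => exact .appL _ (ih σ)
  | appR M _ ih => exact .appR _ (ih σ)
  | lamA M _ ih => exact .lamA _ (ih σ)
  | lamM A _ ih => exact .lamM _ (ih _)
  | piA B _ ih => exact .piA _ (ih σ)
  | piB A _ ih => exact .piB _ (ih _)

theorem Beta.ren {M M' : Term S} (h : Beta M M') (ρ : ℕ → ℕ) : Beta (ren ρ M) (ren ρ M') := by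
  rw [ren_eq_sub, ren_eq_sub]; exact Beta.sub h _

/-! ### congruence of many step reduction -/

theorem Red.app {M M' N N' : Term S} (h : Red M M') (h' : Red N N') : Red (app M N) (app M' N') := by
  have a : Red (Term.app M N) (Term.app M' N) := h.lift (fun x => Term.app x N) (fun _ _ h => .appL _ h)
  have b : Red (Term.app M' N) (Term.app M' N') :=
    h'.lift (fun x => Term.app M' x) (fun _ _ h => .appR _ h)
  exact a.trans b

theorem Red.lam {M M' N N' : Term S} (h : Red M M') (h' : Red N N') : Red (lam M N) (lam M' N') := by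
  have a : Red (Term.lam M N) (Term.lam M' N) := h.lift (fun x => Term.lam x N) (fun _ _ h => .lamA _ h)
  have b : Red (Term.lam M' N) (Term.lam M' N') :=
    h'.lift (fun x => Term.lam M' x) (fun _ _ h => .lamM _ h)
  exact a.trans b

theorem Red.pi {M M' N N' : Term S} (h : Red M M') (h' : Red N N') : Red (pi M N) (pi M' N') := by
  have a : Red (Term.pi M N) (Term.pi M' N) := h.lift (fun x => Term.pi x N) (fun _ _ h => .piA _ h)
  have b : Red (Term.pi M' N) (Term.pi M' N') :=
    h'.lift (fun x => Term.pi M' x) (fun _ _ h => .piB _ h)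
  exact a.trans b

theorem Red.sub {M M' : Term S} (h : Red M M') (σ : ℕ → Term S) : Red (sub σ M) (sub σ M') :=
  h.lift (Sub452.sub σ) (fun _ _ h => Beta.sub h σ)

theorem Red.ren {M M' : Term S} (h : Red M M') (ρ : ℕ → ℕ) : Red (ren ρ M) (ren ρ M') :=
  h.lift (Sub452.ren ρ) (fun _ _ h => Beta.ren h ρ)

theorem ups_red {σ τ : ℕ → Term S} (h : ∀ i, Red (σ i) (τ i)) : ∀ i, Red (ups σ i) (ups τ i)
  | 0 => .refl
  | i + 1 => (h i).ren _

theorem red_sub {σ τ : ℕ → Term S} (h : ∀ i, Red (σ i) (τ i)) (M : Term S) :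
    Red (sub σ M) (sub τ M) := by
  induction M generalizing σ τ with
  | var i => exact h i
  | sort s => exact .refl
  | app M N h1 h2 => exact Red.app (h1 h) (h2 h)
  | lam A M h1 h2 => exact Red.lam (h1 h) (h2 (ups_red h))
  | pi A B h1 h2 => exact Red.pi (h1 h) (h2 (ups_red h))

theorem red_inst {N N' M M' : Term S} (h : Red N N') (h' : Red M M') :
    Red (inst N M) (inst N' M') := by
  refine (Red.sub h' _).trans (red_sub ?_ _)
  intro i
  cases i with
  | zero => exact h
  | succ i => exact .refl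

/-! ### parallel reduction -/

/-- parallel reduction -/
inductive PR : Term S → Term S → Prop
  | var (i : ℕ) : PR (var i) (var i)
  | sort (s : S) : PR (sort s) (sort s)
  | app {M M' N N' : Term S} : PR M M' → PR N N' → PR (app M N) (app M' N')
  | lam {M M' N N' : Term S} : PR M M' → PR N N' → PR (lam M N) (lam M' N')
  | pi {M M' N N' : Term S} : PR M M' → PR N N' → PR (pi M N) (pi M' N')
  | beta (A : Term S) {M M' N N' : Term S} : PR M M' → PR N N' →
      PR (app (Term.lam A M) N) (inst N' M')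

theorem PR.refl (M : Term S) : PR M M := by
  induction M with
  | var i => exact .var i
  | sort s => exact .sort s
  | app M N h1 h2 => exact .app h1 h2
  | lam A M h1 h2 => exact .lam h1 h2
  | pi A B h1 h2 => exact .pi h1 h2

theorem PR.of_beta {M M' : Term S} (h : Beta M M') : PR M M' := by
  induction h with
  | redex A M N => rw [subst_eq]; exact .beta A (PR.refl M) (PR.refl N)
  | appL N _ ih => exact .app ih (PR.refl _)
  | appR M _ ih => exact .app (PR.refl _) ih
  | lamA M _ ih => exact .lam ih (PR.refl _)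
  | lamM A _ ih => exact .lam (PR.refl _) ih
  | piA B _ ih => exact .pi ih (PR.refl _)
  | piB A _ ih => exact .pi (PR.refl _) ih

theorem PR.red {M M' : Term S} (h : PR M M') : Red M M' := by
  induction h with
  | var i => exact .refl
  | sort s => exact .refl
  | app _ _ h1 h2 => exact Red.app h1 h2
  | lam _ _ h1 h2 => exact Red.lam h1 h2
  | pi _ _ h1 h2 => exact Red.pi h1 h2
  | beta A _ _ h1 h2 =>
      exact (Red.app (Red.lam .refl h1) h2).trans (.single (beta_redex _ _ _))

theorem PR.ren {M M' : Term S} (h : PR M M') (ρ : ℕ → ℕ) : PR (ren ρ M) (ren ρ M') := by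
  induction h generalizing ρ with
  | var i => exact .var _
  | sort s => exact .sort s
  | app _ _ h1 h2 => exact .app (h1 ρ) (h2 ρ)
  | lam _ _ h1 h2 => exact .lam (h1 ρ) (h2 _)
  | pi _ _ h1 h2 => exact .pi (h1 ρ) (h2 _)
  | beta A _ _ h1 h2 =>
      rw [ren_inst]
      exact .beta _ (h1 _) (h2 ρ)

theorem ups_pr {σ τ : ℕ → Term S} (h : ∀ i, PR (σ i) (τ i)) : ∀ i, PR (ups σ i) (ups τ i)
  | 0 => .var 0
  | i + 1 => (h i).ren _

theorem PR.sub {M M' : Term S} (h : PR M M') {σ τ : ℕ → Term S} (hs : ∀ i, PR (σ i) (τ i)) :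
    PR (sub σ M) (sub τ M') := by
  induction h generalizing σ τ with
  | var i => exact hs i
  | sort s => exact .sort s
  | app _ _ h1 h2 => exact .app (h1 hs) (h2 hs)
  | lam _ _ h1 h2 => exact .lam (h1 hs) (h2 (ups_pr hs))
  | pi _ _ h1 h2 => exact .pi (h1 hs) (h2 (ups_pr hs))
  | beta A _ _ h1 h2 =>
      rw [sub_inst]
      exact .beta _ (h1 (ups_pr hs)) (h2 hs)

theorem PR.inst {M M' N N' : Term S} (h : PR M M') (h' : PR N N') :
    PR (inst N M) (inst N' M') := by
  refine PR.sub h ?_
  intro i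
  cases i with
  | zero => exact h'
  | succ i => exact .var i

/-- complete development (Takahashi) -/
def cd : Term S → Term S
  | var i => var i
  | sort s => sort s
  | app (lam _ M) N => inst (cd N) (cd M)
  | app M N => app (cd M) (cd N)
  | lam A M => lam (cd A) (cd M)
  | pi A B => pi (cd A) (cd B)

theorem PR.cd {M N : Term S} (h : PR M N) : PR N (cd M) := by
  induction h with
  | var i => exact .var i
  | sort s => exact .sort s
  | @app M M' N N' h1 h2 ih1 ih2 =>
      cases M with
      | lam A M0 =>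
          cases h1 with
          | lam hA hM =>
              rw [Par452.cd]
              have : PR (Term.lam _ _) (Term.lam (Par452.cd A) (Par452.cd M0)) := ih1
              cases this with
              | lam _ h4 => exact .beta _ h4 ih2
      | var i => exact .app ih1 ih2
      | sort i => exact .app ih1 ih2
      | app _ _ => exact .app ih1 ih2
      | pi _ _ => exact .app ih1 ih2
  | lam _ _ ih1 ih2 => exact .lam ih1 ih2
  | pi _ _ ih1 ih2 => exact .pi ih1 ih2
  | beta A _ _ ih1 ih2 => exact PR.inst ih1 ih2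

theorem PR.diamond {M N N' : Term S} (h : PR M N) (h' : PR M N') : ∃ Q, PR N Q ∧ PR N' Q :=
  ⟨Par452.cd M, h.cd, h'.cd⟩

theorem red_iff_prs {M N : Term S} : Red M N ↔ ReflTransGen PR M N := by
  constructor
  · intro h
    induction h with
    | refl => exact .refl
    | tail _ h ih => exact ih.tail (PR.of_beta h)
  · intro h
    induction h with
    | refl => exact .refl
    | tail _ h ih => exact ih.trans h.red

/-- confluence -/
theorem confluence {M N N' : Term S} (h : Red M N) (h' : Red M N') : ∃ Q, Red N Q ∧ Red N' Q := by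
  rw [red_iff_prs] at h h'
  have := church_rosser (r := PR (S := S)) (a := M) (b := N) (c := N')
    (fun a b c hab hac => by
      obtain ⟨d, h1, h2⟩ := PR.diamond hab hac
      exact ⟨d, ReflGen.single h1, ReflTransGen.single h2⟩) h h'
  obtain ⟨Q, h1, h2⟩ := this
  exact ⟨Q, red_iff_prs.2 h1, red_iff_prs.2 h2⟩

/-! ### conversion -/

theorem BetaEq.refl (M : Term S) : BetaEq M M := .refl M

theorem BetaEq.symm {M N : Term S} (h : BetaEq M N) : BetaEq N M := EqvGen.symm _ _ h

theorem BetaEq.trans {M N K : Term S} (h : BetaEq M N) (h' : BetaEq N K) : BetaEq M K :=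
  EqvGen.trans _ _ _ h h'

theorem Red.eq {M N : Term S} (h : Red M N) : BetaEq M N := by
  induction h with
  | refl => exact .refl _
  | tail _ h ih => exact BetaEq.trans ih (.rel _ _ h)

/-- Church-Rosser -/
theorem CR {M N : Term S} (h : BetaEq M N) : ∃ Q, Red M Q ∧ Red N Q := by
  induction h with
  | rel M N h => exact ⟨N, .single h, .refl⟩
  | refl M => exact ⟨M, .refl, .refl⟩
  | symm M N _ ih =>
      obtain ⟨Q, h1, h2⟩ := ih
      exact ⟨Q, h2, h1⟩
  | trans M N K _ _ ih1 ih2 =>
      obtain ⟨Q, h1, h2⟩ := ih1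
      obtain ⟨Q', h3, h4⟩ := ih2
      obtain ⟨R, h5, h6⟩ := confluence h2 h3
      exact ⟨R, h1.trans h5, h4.trans h6⟩

theorem betaEq_iff {M N : Term S} : BetaEq M N ↔ ∃ Q, Red M Q ∧ Red N Q :=
  ⟨CR, fun ⟨_, h1, h2⟩ => BetaEq.trans h1.eq (BetaEq.symm h2.eq)⟩

theorem BetaEq.lift {f : Term S → Term S} (hf : ∀ M N, Red M N → Red (f M) (f N)) {M N : Term S}
    (h : BetaEq M N) : BetaEq (f M) (f N) := by
  obtain ⟨Q, h1, h2⟩ := CR h
  exact betaEq_iff.2 ⟨f Q, hf _ _ h1, hf _ _ h2⟩

theorem BetaEq.sub {M N : Term S} (h : BetaEq M N) (σ : ℕ → Term S) :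
    BetaEq (sub σ M) (sub σ N) := BetaEq.lift (fun _ _ h => Red.sub h σ) h

theorem BetaEq.ren {M N : Term S} (h : BetaEq M N) (ρ : ℕ → ℕ) :
    BetaEq (ren ρ M) (ren ρ N) := BetaEq.lift (fun _ _ h => Red.ren h ρ) h

theorem BetaEq.pi {A A' B B' : Term S} (h : BetaEq A A') (h' : BetaEq B B') :
    BetaEq (pi A B) (pi A' B') := by
  obtain ⟨Q, h1, h2⟩ := CR h
  obtain ⟨Q', h3, h4⟩ := CR h'
  exact betaEq_iff.2 ⟨Term.pi Q Q', Red.pi h1 h3, Red.pi h2 h4⟩

theorem BetaEq.lam {A A' B B' : Term S} (h : BetaEq A A') (h' : BetaEq B B') :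
    BetaEq (lam A B) (lam A' B') := by
  obtain ⟨Q, h1, h2⟩ := CR h
  obtain ⟨Q', h3, h4⟩ := CR h'
  exact betaEq_iff.2 ⟨Term.lam Q Q', Red.lam h1 h3, Red.lam h2 h4⟩

theorem BetaEq.app {A A' B B' : Term S} (h : BetaEq A A') (h' : BetaEq B B') :
    BetaEq (app A B) (app A' B') := by
  obtain ⟨Q, h1, h2⟩ := CR h
  obtain ⟨Q', h3, h4⟩ := CR h'
  exact betaEq_iff.2 ⟨Term.app Q Q', Red.app h1 h3, Red.app h2 h4⟩

theorem BetaEq.inst {N N' M M' : Term S} (h : BetaEq N N') (h' : BetaEq M M') :
    BetaEq (inst N M) (inst N' M') := by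
  obtain ⟨Q, h1, h2⟩ := CR h
  obtain ⟨Q', h3, h4⟩ := CR h'
  exact betaEq_iff.2 ⟨Sub452.inst Q Q', red_inst h1 h3, red_inst h2 h4⟩

/-! ### shapes -/

theorem red_sort {s : S} {N : Term S} (h : Red (sort s) N) : N = sort s := by
  induction h with
  | refl => rfl
  | tail _ h ih => subst ih; cases h

theorem red_var {i : ℕ} {N : Term S} (h : Red (var i) N) : N = var i := by
  induction h with
  | refl => rfl
  | tail _ h ih => subst ih; cases h

theorem red_pi {A B N : Term S} (h : Red (pi A B) N) :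
    ∃ A' B', N = pi A' B' ∧ Red A A' ∧ Red B B' := by
  induction h with
  | refl => exact ⟨A, B, rfl, .refl, .refl⟩
  | tail _ h ih =>
      obtain ⟨A', B', rfl, h1, h2⟩ := ih
      cases h with
      | piA _ h => exact ⟨_, _, rfl, h1.tail h, h2⟩
      | piB _ h => exact ⟨_, _, rfl, h1, h2.tail h⟩

theorem red_lam {A B N : Term S} (h : Red (lam A B) N) :
    ∃ A' B', N = lam A' B' ∧ Red A A' ∧ Red B B' := by
  induction h with
  | refl => exact ⟨A, B, rfl, .refl, .refl⟩
  | tail _ h ih =>
      obtain ⟨A', B', rfl, h1, h2⟩ := ih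
      cases h with
      | lamA _ h => exact ⟨_, _, rfl, h1.tail h, h2⟩
      | lamM _ h => exact ⟨_, _, rfl, h1, h2.tail h⟩

theorem sort_inj {s t : S} (h : BetaEq (sort s) (sort t)) : s = t := by
  obtain ⟨Q, h1, h2⟩ := CR h
  have a := red_sort h1
  have b := red_sort h2
  rw [a] at b
  injection b

theorem not_sort_pi {s : S} {A B : Term S} (h : BetaEq (sort s) (pi A B)) : False := by
  obtain ⟨Q, h1, h2⟩ := CR h
  have a := red_sort h1
  obtain ⟨A', B', b, -, -⟩ := red_pi h2
  rw [a] at b
  cases b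

theorem pi_inj {A B A' B' : Term S} (h : BetaEq (pi A B) (pi A' B')) :
    BetaEq A A' ∧ BetaEq B B' := by
  obtain ⟨Q, h1, h2⟩ := CR h
  obtain ⟨A1, B1, rfl, a, b⟩ := red_pi h1
  obtain ⟨A2, B2, e, c, d⟩ := red_pi h2
  injection e with e1 e2
  subst e1; subst e2
  exact ⟨betaEq_iff.2 ⟨_, a, c⟩, betaEq_iff.2 ⟨_, b, d⟩⟩

/-- a term convertible with a sort reduces to it -/
theorem red_of_eq_sort {M : Term S} {s : S} (h : BetaEq M (sort s)) : Red M (sort s) := by
  obtain ⟨Q, h1, h2⟩ := CR h
  rwa [red_sort h2] at h1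

/-- a term convertible with a product reduces to a product -/
theorem red_of_eq_pi {M A B : Term S} (h : BetaEq M (pi A B)) :
    ∃ A' B', Red M (pi A' B') ∧ Red A A' ∧ Red B B' := by
  obtain ⟨Q, h1, h2⟩ := CR h
  obtain ⟨A', B', rfl, a, b⟩ := red_pi h2
  exact ⟨A', B', h1, a, b⟩

theorem normal_red {M N : Term S} (hM : Normal M) (h : Red M N) : N = M := by
  induction h with
  | refl => rfl
  | tail _ h ih => subst ih; exact (hM _ h).elim

/-- uniqueness of normal forms -/
theorem normal_unique {M N : Term S} (h : BetaEq M N) (hM : Normal M) (hN : Normal N) : M = N := by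
  obtain ⟨Q, h1, h2⟩ := CR h
  rw [← normal_red hM h1, ← normal_red hN h2]

/-- conversion to a normal form is reduction -/
theorem red_of_eq_normal {M N : Term S} (h : BetaEq M N) (hN : Normal N) : Red M N := by
  obtain ⟨Q, h1, h2⟩ := CR h
  rwa [normal_red hN h2] at h1

end Crest.Agent.R298.Par452
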