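import Crest.Agent.R298.Dom_201
import Crest.Agent.R298.Par_452

/-!
# R298: the untyped part of the semantics (helper201)

Evaluation of raw terms in environments `ℕ → Term × Val`; the argument of an application is packed
at the (closed, exact) domain type of the function (786, 864, 197).  Joint support lemma, renaming,
congruence.
-/

set_option autoImplicit false
set_option linter.unusedSectionVars false

namespace Crest.Agent.R298.Ev201

open Crest.LogicCS.PTS Crest.LogicCS.PTS.Term
open Crest.Agent.R298.Sub452 hiding up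
open Crest.Agent.R298.Par452 Crest.Agent.R298.Dom201

/-! ### representatives of beta classes -/

section Rp
universe u
variable {S : Type u}

/-- beta conversion as a setoid -/
def betaSetoid (S : Type u) : Setoid (Term S) :=
  ⟨BetaEq, ⟨BetaEq.refl, BetaEq.symm, BetaEq.trans⟩⟩

theorem exists_rp (S : Type u) : ∃ f : Quotient (betaSetoid S) → Term S,
    ∀ M : Term S, BetaEq M (f (Quotient.mk _ M)) ∧
      ((∃ N, BetaEq M N ∧ Normal N) → Normal (f (Quotient.mk _ M))) := by
  classical
  have : ∀ q : Quotient (betaSetoid S), ∃ t : Term S, ∀ M : Term S, Quotient.mk _ M = q →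
      BetaEq M t ∧ ((∃ N, BetaEq M N ∧ Normal N) → Normal t) := by
    intro q
    by_cases h : ∃ N, Normal N ∧ Quotient.mk (betaSetoid S) N = q
    · obtain ⟨N, hN, hq⟩ := h
      refine ⟨N, fun M hM => ?_⟩
      have : BetaEq M N := Quotient.exact (hM.trans hq.symm)
      exact ⟨this, fun _ => hN⟩
    · refine ⟨q.out, fun M hM => ?_⟩
      have h1 : BetaEq M q.out := Quotient.exact (hM.trans (Quotient.out_eq q).symm)
      refine ⟨h1, ?_⟩
      rintro ⟨N, hMN, hN⟩
      exact (h ⟨N, hN, (Quotient.sound (BetaEq.symm hMN)).trans hM⟩).elim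
  choose f hf using this
  exact ⟨f, fun M => hf _ M rfl⟩

/-- canonical representative of the beta class: the normal form if there is one -/
noncomputable def rp (M : Term S) : Term S := Classical.choose (exists_rp S) (Quotient.mk _ M)

theorem rp_beq (M : Term S) : BetaEq M (rp M) := (Classical.choose_spec (exists_rp S) M).1

theorem rp_eq {M N : Term S} (h : BetaEq M N) : rp M = rp N := by
  unfold rp
  rw [show (Quotient.mk (betaSetoid S) M) = Quotient.mk _ N from Quotient.sound h]

theorem rp_normal {M N : Term S} (h : BetaEq M N) (hN : Normal N) : rp M = N := by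
  have h1 : Normal (rp M) := (Classical.choose_spec (exists_rp S) M).2 ⟨N, h, hN⟩
  exact normal_unique (BetaEq.trans (BetaEq.symm (rp_beq M)) h) h1 hN

theorem rp_rp (M : Term S) : rp (rp M) = rp M := rp_eq (BetaEq.symm (rp_beq M))

theorem beq_of_rp {M N : Term S} (h : rp M = rp N) : BetaEq M N :=
  BetaEq.trans (rp_beq M) (h ▸ BetaEq.symm (rp_beq N))

theorem beq_sub_congr {σ τ : ℕ → Term S} (h : ∀ i, BetaEq (σ i) (τ i)) (M : Term S) :
    BetaEq (sub σ M) (sub τ M) := by
  induction M generalizing σ τ with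
  | var i => exact h i
  | sort s => exact BetaEq.refl _
  | app M N h1 h2 => exact BetaEq.app (h1 h) (h2 h)
  | lam A M h1 h2 =>
    refine BetaEq.lam (h1 h) (h2 ?_)
    intro i
    cases i with
    | zero => exact BetaEq.refl _
    | succ i => exact BetaEq.ren (h i) _
  | pi A M h1 h2 =>
    refine BetaEq.pi (h1 h) (h2 ?_)
    intro i
    cases i with
    | zero => exact BetaEq.refl _
    | succ i => exact BetaEq.ren (h i) _

end Rp

/-! ### the abstract data -/

/-- kinds of closed terms -/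
inductive Knd
  /-- not inspected -/
  | irr
  /-- the type is a minus type -/
  | neg
  /-- the type is a plus type or a tame type -/
  | pos
  deriving DecidableEq

/-- skeleton of an info: `some x` for plus infos, `none` for minus infos -/
def skV {Tm C : Type} : Val Tm C → Option X
  | Sum.inl x => some x
  | Sum.inr _ => none

/-- skeleton of an argument list -/
def skl {Tm C : Type} (l : Args Tm C) : List (Tm × Option X) := l.map fun e => (e.1, skV e.2)

/-- range of a quantifier -/
inductive Rng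
  /-- all minus infos -/
  | allNeg
  /-- the default minus info -/
  | defNeg
  /-- the plus infos in a set -/
  | plus (Z : Set X)

/-- abstract data on closed terms: domain types, kinds, complete valid skeletons, ranges of the
quantifiers, candidates -/
structure Sem (S Mt : Type) where
  /-- domain type of a closed function -/
  dom : Term S → Term S
  /-- kind of a closed type -/
  kind : Term S → Knd
  /-- complete valid skeletons of argument lists of a closed type -/
  vl : Term S → List (Term S × Option X) → Prop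
  /-- range of the quantifier in a closed product type with a given domain -/
  rng : Term S → Term S → Rng
  /-- clamp of a value of a closed type to a candidate -/
  cnd : Term S → Set Mt → Set Mt
  /-- candidate of a product: product type, domain, candidate of the domain, family -/
  piC : Term S → Term S → Set Mt → (Term S → Set Mt) → Set Mt
  /-- candidate of a sort -/
  srtC : S → Set Mt
  pos_bdd : ∀ A, kind A = .pos → ∃ β : X, ∀ l, vl A l → ∀ e ∈ l, ∀ x, e.2 = some x → x < β
  neg_plus : ∀ A, kind A = .neg → ∀ l, vl A l → ∀ e ∈ l, e.2.isSome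
  rng_bdd : ∀ T A Z, rng T A = .plus Z → ∃ β : X, ∀ x ∈ Z, x < β

variable {S Mt : Type}

abbrev Cd (Mt : Type) : Type := Set Mt
abbrev V (S Mt : Type) : Type 1 := Val (Term S) (Set Mt)
abbrev AL (S Mt : Type) : Type 1 := Args (Term S) (Set Mt)
/-- environments -/
abbrev Env (S Mt : Type) : Type 1 := ℕ → Term S × V S Mt

/-- term part of an environment -/
def tm (ρ : Env S Mt) : ℕ → Term S := fun i => (ρ i).1

/-- extension of an environment -/
def cns (e : Term S × V S Mt) (ρ : Env S Mt) : Env S Mt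
  | 0 => e
  | i + 1 => ρ i

@[simp] theorem cns_zero (e : Term S × V S Mt) (ρ : Env S Mt) : cns e ρ 0 = e := rfl
@[simp] theorem cns_succ (e : Term S × V S Mt) (ρ : Env S Mt) (i : ℕ) :
    cns e ρ (i + 1) = ρ i := rfl

theorem tm_cns (e : Term S × V S Mt) (ρ : Env S Mt) : tm (cns e ρ) = scons e.1 (tm ρ) := by
  funext i; cases i <;> rfl

/-- the point of a list (minus entries are junk) -/
def pt (l : AL S Mt) : Pt (Term S) :=
  l.map fun e => (e.1, (skV e.2).getD 0)

/-- minus-free list of a point -/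
def ofPt (p : Pt (Term S)) : AL S Mt := p.map fun e => (e.1, Sum.inl e.2)

/-- application of an info to an argument list -/
noncomputable def evV : V S Mt → AL S Mt → Set Mt
  | Sum.inl x => app x
  | Sum.inr G => fun l => G (pt l)

open Classical in
/-- clamp a function by a closed type -/
noncomputable def canon (D : Sem S Mt) (A : Term S) (F : AL S Mt → Set Mt) : AL S Mt → Set Mt :=
  fun l => if D.vl A (skl l) then F l else ∅

/-- the info of a function at a closed type -/
noncomputable def pack (D : Sem S Mt) (A : Term S) (F : AL S Mt → Set Mt) : V S Mt :=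
  match D.kind A with
  | .irr => Sum.inl 0
  | .pos => Sum.inl (codeF (canon D A F))
  | .neg => Sum.inr fun p => canon D A F (ofPt p)

/-- the range of a quantifier -/
def rngV (r : Rng) : Set (V S Mt) :=
  match r with
  | .allNeg => Set.range Sum.inr
  | .defNeg => {Sum.inr fun _ => ∅}
  | .plus Z => Sum.inl '' Z

/-- abstraction -/
def lamF (f : Term S × V S Mt → AL S Mt → Set Mt) : AL S Mt → Set Mt
  | [] => ∅
  | e :: l => f e l

open Classical in
/-- value at the empty list -/
noncomputable def nilF (c : Set Mt) : AL S Mt → Set Mt := fun l => if l = [] then c else ∅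

/-- the family of a quantifier -/
noncomputable def fam (D : Sem S Mt) (r : Rng) (B : Term S) (ρ : Env S Mt)
    (F : Env S Mt → Set Mt) (a : Term S) : Set Mt :=
  ⋂ e ∈ rngV (S := S) (Mt := Mt) r, D.cnd (rp (sub (tm (cns (a, e) ρ)) B)) (F (cns (a, e) ρ))

/-- evaluation -/
noncomputable def ev (D : Sem S Mt) : Term S → Env S Mt → AL S Mt → Set Mt
  | .var i, ρ => evV (ρ i).2
  | .sort s, _ => nilF (D.srtC s)
  | .app P Q, ρ => fun l =>
      ev D P ρ ((rp (sub (tm ρ) Q), pack D (D.dom (rp (sub (tm ρ) P))) (ev D Q ρ)) :: l)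
  | .lam _ P, ρ => lamF fun e => ev D P (cns e ρ)
  | .pi A B, ρ =>
      nilF (D.piC (rp (sub (tm ρ) (.pi A B))) (rp (sub (tm ρ) A))
        (D.cnd (rp (sub (tm ρ) A)) (ev D A ρ []))
        (fam D (D.rng (rp (sub (tm ρ) (.pi A B))) (rp (sub (tm ρ) A))) B ρ
          fun ρ' => ev D B ρ' []))

/-! ### supports -/

/-- environments that agree below `α` (same terms, same plus infos) -/
def AgE (α : X) (ρ ρ' : Env S Mt) : Prop :=
  ∀ i, (ρ i).1 = (ρ' i).1 ∧ AgV α (ρ i).2 (ρ' i).2

/-- same skeleton -/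
def SkE (ρ ρ' : Env S Mt) : Prop := ∀ i, (ρ i).1 = (ρ' i).1 ∧ skV (ρ i).2 = skV (ρ' i).2

theorem AgV.sk {α : X} {v w : V S Mt} (h : AgV α v w) : skV v = skV w := by
  cases h <;> rfl

theorem AgA.sk {α : X} {l l' : AL S Mt} (h : AgA α l l') : skl l = skl l' := by
  unfold AgA at h
  induction h with
  | nil => rfl
  | cons h _ ih =>
    simp only [skl, List.map_cons] at ih ⊢
    rw [ih, h.1, AgV.sk h.2]

theorem AgE.sk {α : X} {ρ ρ' : Env S Mt} (h : AgE α ρ ρ') : SkE ρ ρ' :=
  fun i => ⟨(h i).1, AgV.sk (h i).2⟩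

theorem SkE.trans {ρ ρ' ρ'' : Env S Mt} (h : SkE ρ ρ') (h' : SkE ρ' ρ'') : SkE ρ ρ'' :=
  fun i => ⟨(h i).1.trans (h' i).1, (h i).2.trans (h' i).2⟩

theorem SkE.symm {ρ ρ' : Env S Mt} (h : SkE ρ ρ') : SkE ρ' ρ :=
  fun i => ⟨(h i).1.symm, (h i).2.symm⟩

theorem SkE.refl (ρ : Env S Mt) : SkE ρ ρ := fun _ => ⟨rfl, rfl⟩

theorem AgE.refl (α : X) (ρ : Env S Mt) : AgE α ρ ρ := fun _ => ⟨rfl, AgV.refl α _⟩

theorem AgE.symm {α : X} {ρ ρ' : Env S Mt} (h : AgE α ρ ρ') : AgE α ρ' ρ :=
  fun i => ⟨(h i).1.symm, (h i).2.symm⟩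

theorem AgE.anti {α β : X} (hab : α ≤ β) {ρ ρ' : Env S Mt} (h : AgE β ρ ρ') : AgE α ρ ρ' :=
  fun i => ⟨(h i).1, (h i).2.anti hab⟩

theorem SkE.tm {ρ ρ' : Env S Mt} (h : SkE ρ ρ') : tm ρ = tm ρ' := funext fun i => (h i).1

theorem AgE.cns {α : X} {ρ ρ' : Env S Mt} (h : AgE α ρ ρ') {e e' : Term S × V S Mt}
    (he : e.1 = e'.1 ∧ AgV α e.2 e'.2) : AgE α (cns e ρ) (cns e' ρ') := by
  intro i
  cases i with
  | zero => exact he
  | succ i => exact h i

theorem SkE.cns {ρ ρ' : Env S Mt} (h : SkE ρ ρ') {e e' : Term S × V S Mt}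
    (he : e.1 = e'.1 ∧ skV e.2 = skV e'.2) : SkE (cns e ρ) (cns e' ρ') := by
  intro i
  cases i with
  | zero => exact he
  | succ i => exact h i

/-- joint support at an environment skeleton and a list skeleton -/
def JS (D : Sem S Mt) (M : Term S) : Prop :=
  ∀ (ρ₀ : Env S Mt) (l₀ : AL S Mt), ∃ α : X, ∀ ρ ρ' l l', SkE ρ₀ ρ → AgE α ρ ρ' →
    skl l₀ = skl l → AgA α l l' → ev D M ρ l = ev D M ρ' l'

/-- uniform joint support at a type of kind `pos` -/
def US (D : Sem S Mt) (M : Term S) : Prop :=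
  ∀ (A : Term S) (ρ₀ : Env S Mt), D.kind A = .pos → ∃ α : X, ∀ ρ ρ', SkE ρ₀ ρ →
    AgE α ρ ρ' → Supp α (canon D A (ev D M ρ)) ∧ canon D A (ev D M ρ) = canon D A (ev D M ρ')

theorem canon_congr (D : Sem S Mt) (M : Term S) {F F' : AL S Mt → Set Mt} {l l' : AL S Mt}
    (hs : skl l = skl l') (h : F l = F' l') : canon D M F l = canon D M F' l' := by
  unfold canon
  rw [hs, h]

/-- values from a skeleton -/
noncomputable def ofSk (l : List (Term S × Option X)) : AL S Mt :=
  l.map fun e => (e.1, match e.2 with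
    | some x => Sum.inl x
    | none => Sum.inr fun _ => ∅)

theorem skl_ofSk (l : List (Term S × Option X)) : skl (ofSk (Mt := Mt) l) = l := by
  unfold skl ofSk
  rw [List.map_map]
  conv_rhs => rw [← List.map_id l]
  apply List.map_congr_left
  rintro ⟨a, o⟩ _
  cases o <;> rfl

theorem mem_skl {l : AL S Mt} {e : Term S × V S Mt} (h : e ∈ l) : (e.1, skV e.2) ∈ skl l :=
  List.mem_map.2 ⟨e, h, rfl⟩

/-- small skeletons below `β` -/
theorem exists_smallSk (β : X) (l : List (Term S × Option X))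
    (h : ∀ e ∈ l, ∀ x, e.2 = some x → x < β) :
    ∃ s : List (Term S × Option β.ToType), (s.map fun e => (e.1, e.2.map up)) = l := by
  induction l with
  | nil => exact ⟨[], rfl⟩
  | cons e l ih =>
    obtain ⟨s, hs⟩ := ih fun e' he' => h e' (List.mem_cons_of_mem _ he')
    obtain ⟨a, o⟩ := e
    cases o with
    | none =>
      refine ⟨(a, none) :: s, ?_⟩
      simp [hs]
    | some x =>
      have hx : x < β := h (a, some x) (List.mem_cons_self ..) x rfl
      refine ⟨(a, some (dn x hx)) :: s, ?_⟩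
      simp [hs, up_dn]

theorem us_of_js {D : Sem S Mt} {M : Term S} (h : JS D M) : US D M := by
  intro A ρ₀ hk
  obtain ⟨β, hβ⟩ := D.pos_bdd _ hk
  choose f hf using fun s : List (Term S × Option β.ToType) =>
    h ρ₀ (ofSk (s.map fun e => (e.1, e.2.map up)))
  obtain ⟨γ, hγ⟩ := exists_bound f
  refine ⟨max β γ, fun ρ ρ' hρ hag => ?_⟩
  have key : ∀ σ σ' : Env S Mt, SkE ρ₀ σ → AgE (max β γ) σ σ' → ∀ l l' : AL S Mt,
      AgA (max β γ) l l' → canon D A (ev D M σ) l = canon D A (ev D M σ') l' := by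
    intro σ σ' hσ hσ' l l' hl
    unfold canon
    rw [← AgA.sk hl]
    by_cases hok : D.vl A (skl l)
    · rw [if_pos hok, if_pos hok]
      obtain ⟨s, hs⟩ := exists_smallSk β (skl l) (fun e he x hx => hβ _ hok e he x hx)
      have hle : f s ≤ max β γ := (hγ s).le.trans (le_max_right _ _)
      exact hf s σ σ' l l' hσ (hσ'.anti hle) (by rw [skl_ofSk, hs]) (hl.anti hle)
    · rw [if_neg hok, if_neg hok]
  refine ⟨⟨fun l hl => ?_, fun l l' hl => key ρ ρ hρ (AgE.refl _ _) l l' hl⟩, ?_⟩
  · unfold canon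
    rw [if_neg]
    · rfl
    · intro hok
      refine hl fun e he x hx => ?_
      have := hβ _ hok _ (mem_skl he) x (by simp [hx, skV])
      exact this.trans_le (le_max_left _ _)
  · funext l
    exact key ρ ρ' hρ hag l l (AgA.refl _ _)

theorem agN_of_resN {α : X} {G H : Neg (Term S) (Set Mt)} (h : resN α G = resN α H) :
    AgN α G H := by
  have := embN_resN (C := Set Mt) α G
  rw [h] at this
  exact this.symm.trans (embN_resN α H)

/-- the small part of an environment below `α` -/
noncomputable def resE (α : X) (ρ : Env S Mt) : ℕ → Option (List (Term S × α.ToType) → Set Mt) :=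
  fun i => match (ρ i).2 with
    | Sum.inl _ => none
    | Sum.inr G => some (resN α G)

theorem agE_of_resE {α : X} {ρ ρ' : Env S Mt} (hs : SkE ρ ρ') (h : resE α ρ = resE α ρ') :
    AgE α ρ ρ' := by
  intro i
  refine ⟨(hs i).1, ?_⟩
  have h1 := congrFun h i
  have h2 := (hs i).2
  unfold resE at h1
  generalize (ρ i).2 = v at *
  generalize (ρ' i).2 = w at *
  cases v with
  | inl x =>
    cases w with
    | inl y =>
      simp only [skV, Option.some.injEq] at h2
      subst h2
      exact AgV.inl x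
    | inr G => simp [skV] at h2
  | inr G =>
    cases w with
    | inl y => simp [skV] at h2
    | inr H =>
      simp only [Option.some.injEq] at h1
      exact AgV.inr (agN_of_resN h1)

theorem exists_smallPt (β : X) (p : Pt (Term S)) (h : PtLt β p) :
    ∃ s : List (Term S × β.ToType), (s.map fun e => (e.1, up e.2)) = p := by
  induction p with
  | nil => exact ⟨[], rfl⟩
  | cons e l ih =>
    obtain ⟨s, hs⟩ := ih fun e' he' => h e' (List.mem_cons_of_mem _ he')
    obtain ⟨a, x⟩ := e
    have hx : x < β := h (a, x) (List.mem_cons_self ..)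
    refine ⟨(a, dn x hx) :: s, ?_⟩
    simp [hs, up_dn]

theorem pt_lt_bound (l : AL S Mt) : ∃ α : X, PtLt α (pt l) := by
  obtain ⟨β, hβ⟩ := exists_bound (fun i : Fin (pt l).length => ((pt l).get i).2)
  refine ⟨β, fun e he => ?_⟩
  obtain ⟨i, rfl⟩ := List.get_of_mem he
  exact hβ i

theorem pt_of_skl {l l' : AL S Mt} (h : skl l = skl l') : pt l = pt l' := by
  have : ∀ l : AL S Mt, pt l = (skl l).map fun e => (e.1, e.2.getD 0) := by
    intro l
    unfold pt skl
    rw [List.map_map]
    rfl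
  rw [this, this, h]

theorem js_evV (v₀ : V S Mt) (l₀ : AL S Mt) : ∃ α : X, ∀ (v v' : V S Mt) (l l' : AL S Mt),
    skV v₀ = skV v → AgV α v v' →
    skl l₀ = skl l → AgA α l l' → evV v l = evV v' l' := by
  cases v₀ with
  | inl x =>
    obtain ⟨α, hα⟩ := app_supp (Tm := Term S) (C := Set Mt) x
    refine ⟨α, fun v v' l l' hv hvv' _ hl => ?_⟩
    cases hvv' with
    | inl y =>
      simp only [skV, Option.some.injEq] at hv
      subst hv
      exact hα.2 l l' hl
    | inr h => simp [skV] at hv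
  | inr G =>
    obtain ⟨α, hα⟩ := pt_lt_bound l₀
    refine ⟨α, fun v v' l l' hv hvv' hl hl' => ?_⟩
    cases hvv' with
    | inl y => simp [skV] at hv
    | inr h =>
      simp only [evV]
      rw [← pt_of_skl hl, ← pt_of_skl (hl.trans (AgA.sk hl'))]
      exact h _ hα

theorem AgA.cons {α : X} {e e' : Term S × V S Mt} (he : e.1 = e'.1 ∧ AgV α e.2 e'.2)
    {l l' : AL S Mt} (h : AgA α l l') : AgA α (e :: l) (e' :: l') :=
  List.Forall₂.cons he h

theorem skl_cons (e : Term S × V S Mt) (l : AL S Mt) :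
    skl (e :: l) = (e.1, skV e.2) :: skl l := rfl

theorem eq_nil_iff {l l' : AL S Mt} (h : skl l = skl l') : l = [] ↔ l' = [] := by
  unfold skl at h
  constructor
  · rintro rfl; simpa using h.symm
  · rintro rfl; simpa using h

theorem nilF_congr {l l' : AL S Mt} (h : skl l = skl l') {c c' : Set Mt} (hc : c = c') :
    nilF (S := S) c l = nilF c' l' := by
  unfold nilF
  subst hc
  by_cases hl : l = []
  · rw [if_pos hl, if_pos ((eq_nil_iff h).1 hl)]
  · rw [if_neg hl, if_neg (fun hh => hl ((eq_nil_iff h).2 hh))]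

/-- the support lemma -/
theorem js (D : Sem S Mt) (M : Term S) : JS D M := by
  induction M with
  | var i =>
    intro ρ₀ l₀
    obtain ⟨α, hα⟩ := js_evV (ρ₀ i).2 l₀
    refine ⟨α, fun ρ ρ' l l' hρ hag hl hl' => ?_⟩
    simp only [ev]
    exact hα _ _ l l' (hρ i).2 (hag i).2 hl hl'
  | sort s =>
    intro ρ₀ l₀
    refine ⟨0, fun ρ ρ' l l' hρ hag hl hl' => ?_⟩
    simp only [ev]
    exact nilF_congr (AgA.sk hl') rfl
  | app P Q ihP ihQ =>
    intro ρ₀ l₀
    cases hk : D.kind (D.dom (rp (sub (tm ρ₀) P))) with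
    | irr =>
      obtain ⟨α, hα⟩ := ihP ρ₀ ((rp (sub (tm ρ₀) Q), Sum.inl 0) :: l₀)
      refine ⟨α, fun ρ ρ' l l' hρ hag hl hl' => ?_⟩
      simp only [ev]
      rw [← hρ.tm, ← (hρ.trans hag.sk).tm]
      simp only [pack, hk]
      refine hα ρ ρ' _ _ hρ hag ?_ (AgA.cons ⟨rfl, AgV.refl _ _⟩ hl')
      rw [skl_cons, skl_cons, hl]
    | pos =>
      obtain ⟨α, hα⟩ := us_of_js ihQ _ ρ₀ hk
      choose f hf using fun x : X => ihP ρ₀ ((rp (sub (tm ρ₀) Q), Sum.inl x) :: l₀)
      obtain ⟨γ, hγ⟩ := exists_bound_of_factor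
        (ι := ℕ → Option (List (Term S × α.ToType) → Set Mt))
        (A := {ρ : Env S Mt // SkE ρ₀ ρ})
        (fun ρ => resE α ρ.1)
        (fun ρ => f (codeF (canon D (D.dom (rp (sub (tm ρ₀) P))) (ev D Q ρ.1)))) (by
          rintro ⟨ρ, hρ⟩ ⟨ρ', hρ'⟩ h
          have : AgE α ρ ρ' := agE_of_resE (hρ.symm.trans hρ') h
          simp only
          rw [(hα ρ ρ' hρ this).2])
      refine ⟨max α γ, fun ρ ρ' l l' hρ hag hl hl' => ?_⟩
      simp only [ev]
      rw [← hρ.tm, ← (hρ.trans hag.sk).tm]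
      simp only [pack, hk]
      rw [← (hα ρ ρ' hρ (hag.anti (le_max_left _ _))).2]
      have hle := (hγ ⟨ρ, hρ⟩).le.trans (le_max_right α γ)
      refine hf _ ρ ρ' _ _ hρ (hag.anti hle) ?_ (AgA.cons ⟨rfl, AgV.refl _ _⟩ (hl'.anti hle))
      rw [skl_cons, skl_cons, hl]
    | neg =>
      obtain ⟨α, hα⟩ := ihP ρ₀ ((rp (sub (tm ρ₀) Q), Sum.inr fun _ => ∅) :: l₀)
      choose f hf using fun s : List (Term S × α.ToType) =>
        ihQ ρ₀ (ofPt (s.map fun e => (e.1, up e.2)))
      obtain ⟨γ, hγ⟩ := exists_bound f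
      refine ⟨max α γ, fun ρ ρ' l l' hρ hag hl hl' => ?_⟩
      simp only [ev]
      rw [← hρ.tm, ← (hρ.trans hag.sk).tm]
      simp only [pack, hk]
      have hG : AgN α (fun p => canon D (D.dom (rp (sub (tm ρ₀) P))) (ev D Q ρ) (ofPt p))
          (fun p => canon D (D.dom (rp (sub (tm ρ₀) P))) (ev D Q ρ') (ofPt p)) := by
        intro p hp
        obtain ⟨s, rfl⟩ := exists_smallPt α p hp
        have hle : f s ≤ max α γ := (hγ s).le.trans (le_max_right _ _)
        simp only [canon]
        rw [hf s ρ ρ' _ _ hρ (hag.anti hle) rfl (AgA.refl _ _)]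
      refine hα ρ ρ' _ _ hρ (hag.anti (le_max_left _ _)) ?_
        (AgA.cons (e := (rp (sub (tm ρ₀) Q), Sum.inr fun p =>
            canon D (D.dom (rp (sub (tm ρ₀) P))) (ev D Q ρ) (ofPt p)))
          (e' := (rp (sub (tm ρ₀) Q), Sum.inr fun p =>
            canon D (D.dom (rp (sub (tm ρ₀) P))) (ev D Q ρ') (ofPt p)))
          ⟨rfl, AgV.inr hG⟩ (hl'.anti (le_max_left _ _)))
      rw [skl_cons, skl_cons, hl]; rfl
  | lam A P _ ihP =>
    intro ρ₀ l₀
    cases l₀ with
    | nil =>
      refine ⟨0, fun ρ ρ' l l' hρ hag hl hl' => ?_⟩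
      simp only [ev]
      cases hl' with
      | nil => rfl
      | cons h1 h2 => simp [skl] at hl
    | cons e₀ l₀ =>
      obtain ⟨α, hα⟩ := ihP (cns e₀ ρ₀) l₀
      refine ⟨α, fun ρ ρ' l l' hρ hag hl hl' => ?_⟩
      simp only [ev]
      cases hl' with
      | nil => simp [skl] at hl
      | cons h1 h2 =>
        rename_i e e' l l'
        rw [skl_cons, skl_cons] at hl
        injection hl with hl1 hl2
        simp only [lamF]
        refine hα _ _ l l' (hρ.cns ?_) (hag.cns h1) hl2 h2
        simpa using hl1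
  | pi A B ihA ihB =>
    intro ρ₀ l₀
    obtain ⟨α, hα⟩ := ihA ρ₀ []
    have hB : ∀ r : Rng, (∀ Z, r = .plus Z → ∃ β : X, ∀ x ∈ Z, x < β) →
        ∃ γ : X, ∀ ρ ρ', SkE ρ₀ ρ → AgE γ ρ ρ' →
        fam D r B ρ (fun ρ' => ev D B ρ' []) = fam D r B ρ' fun ρ' => ev D B ρ' [] := by
      intro r hr
      unfold fam
      cases r with
      | allNeg =>
        choose f hf using fun a : Term S => ihB (cns (a, Sum.inr fun _ => ∅) ρ₀) []
        obtain ⟨γ, hγ⟩ := exists_bound f
        refine ⟨γ, fun ρ ρ' hρ hag => funext fun a => ?_⟩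
        refine Set.iInter_congr fun e => Set.iInter_congr fun he => ?_
        obtain ⟨G, rfl⟩ := he
        beta_reduce
        rw [hf a (cns (a, Sum.inr G) ρ) (cns (a, Sum.inr G) ρ') [] [] (hρ.cns ⟨rfl, rfl⟩)
          (AgE.cns (hag.anti (hγ a).le) ⟨rfl, AgV.refl _ _⟩) rfl (AgA.refl _ _),
          (AgE.cns hag ⟨rfl, AgV.refl _ _⟩ :
            AgE γ (cns (a, Sum.inr G) ρ) (cns (a, Sum.inr G) ρ')).sk.tm]
      | defNeg =>
        choose f hf using fun a : Term S => ihB (cns (a, Sum.inr fun _ => ∅) ρ₀) []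
        obtain ⟨γ, hγ⟩ := exists_bound f
        refine ⟨γ, fun ρ ρ' hρ hag => funext fun a => ?_⟩
        refine Set.iInter_congr fun e => Set.iInter_congr fun he => ?_
        beta_reduce
        rw [hf a (cns (a, e) ρ) (cns (a, e) ρ') [] [] (hρ.cns ⟨rfl, by rw [he]⟩)
          (AgE.cns (hag.anti (hγ a).le) ⟨rfl, AgV.refl _ _⟩) rfl (AgA.refl _ _),
          (AgE.cns hag ⟨rfl, AgV.refl _ _⟩ : AgE γ (cns (a, e) ρ) (cns (a, e) ρ')).sk.tm]
      | plus Z =>
        obtain ⟨β, hβ⟩ := hr Z rfl
        choose f hf using fun q : Term S × β.ToType => ihB (cns (q.1, Sum.inl (up q.2)) ρ₀) []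
        obtain ⟨γ, hγ⟩ := exists_bound f
        refine ⟨γ, fun ρ ρ' hρ hag => funext fun a => ?_⟩
        refine Set.iInter_congr fun e => Set.iInter_congr fun he => ?_
        obtain ⟨x, hx, rfl⟩ := he
        beta_reduce
        rw [hf (a, dn x (hβ x hx)) (cns (a, Sum.inl x) ρ) (cns (a, Sum.inl x) ρ') [] []
          (hρ.cns ⟨rfl, by simp [up_dn, skV]⟩)
          (AgE.cns (hag.anti (hγ _).le) ⟨rfl, AgV.refl _ _⟩) rfl (AgA.refl _ _),
          (AgE.cns hag ⟨rfl, AgV.refl _ _⟩ :
            AgE γ (cns (a, Sum.inl x) ρ) (cns (a, Sum.inl x) ρ')).sk.tm]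
    obtain ⟨γ, hγ⟩ := hB (D.rng (rp (sub (tm ρ₀) (.pi A B))) (rp (sub (tm ρ₀) A)))
      fun Z hZ => D.rng_bdd _ _ Z hZ
    refine ⟨max α γ, fun ρ ρ' l l' hρ hag hl hl' => ?_⟩
    simp only [ev]
    rw [← hρ.tm, ← (hρ.trans hag.sk).tm]
    refine nilF_congr (AgA.sk hl') ?_
    rw [hα ρ ρ' [] [] hρ (hag.anti (le_max_left _ _)) rfl (AgA.refl _ _),
      hγ ρ ρ' hρ (hag.anti (le_max_right _ _))]

theorem us (D : Sem S Mt) (M : Term S) : US D M := us_of_js (js D M)

/-- clamped values at kind `pos` are supported -/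
theorem ev_supp (D : Sem S Mt) (A M : Term S) (ρ : Env S Mt) (hk : D.kind A = .pos) :
    ∃ α : X, Supp α (canon D A (ev D M ρ)) := by
  obtain ⟨α, hα⟩ := us D M A ρ hk
  exact ⟨α, (hα ρ ρ (SkE.refl ρ) (AgE.refl _ _)).1⟩

/-! ### pack -/

theorem ofPt_pt {l : AL S Mt} (h : ∀ e ∈ l, (skV e.2).isSome) : ofPt (pt l) = l := by
  unfold ofPt pt
  rw [List.map_map]
  conv_rhs => rw [← List.map_id l]
  apply List.map_congr_left
  rintro ⟨a, v⟩ he
  have := h _ he
  cases v with
  | inl x => rfl
  | inr G => simp [skV] at this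

theorem pack_congr (D : Sem S Mt) (A : Term S) {F F' : AL S Mt → Set Mt}
    (h : ∀ l, D.vl A (skl l) → F l = F' l) : pack D A F = pack D A F' := by
  have : canon D A F = canon D A F' := by
    funext l
    unfold canon
    split_ifs with hl
    · exact h l hl
    · rfl
  unfold pack
  rw [this]

/-- `evV (pack F) = F` on complete valid lists -/
theorem evV_pack (D : Sem S Mt) (A : Term S) (F : AL S Mt → Set Mt)
    (hs : D.kind A = .pos → ∃ α : X, Supp α (canon D A F)) (hk : D.kind A ≠ .irr) (l : AL S Mt)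
    (hl : D.vl A (skl l)) : evV (pack D A F) l = F l := by
  have hc : canon D A F l = F l := by unfold canon; rw [if_pos hl]
  cases hk' : D.kind A with
  | irr => exact (hk hk').elim
  | pos =>
    simp only [pack, hk', evV]
    rw [app_codeF (hs hk')]
    exact hc
  | neg =>
    simp only [pack, hk', evV]
    rw [ofPt_pt]
    · exact hc
    · intro e he
      exact D.neg_plus A hk' _ hl _ (mem_skl he)

/-- the value of a term at a closed type, as an entry -/
noncomputable def ent (D : Sem S Mt) (A N : Term S) (ρ : Env S Mt) : Term S × V S Mt :=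
  (rp (sub (tm ρ) N), pack D A (ev D N ρ))

theorem evV_ent (D : Sem S Mt) (A N : Term S) (ρ : Env S Mt) (hk : D.kind A ≠ .irr) (l : AL S Mt)
    (hl : D.vl A (skl l)) : evV (ent D A N ρ).2 l = ev D N ρ l :=
  evV_pack D A _ (ev_supp D A N ρ) hk l hl

/-! ### congruence and renaming -/

theorem rp_sub_congr {σ τ : ℕ → Term S} (h : ∀ i, rp (σ i) = rp (τ i)) (M : Term S) :
    rp (sub σ M) = rp (sub τ M) :=
  rp_eq (beq_sub_congr (fun i => beq_of_rp (h i)) M)

/-- equal infos and convertible terms give equal values -/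
theorem ev_congr (D : Sem S Mt) (M : Term S) {ρ ρ' : Env S Mt}
    (h : ∀ i, rp (ρ i).1 = rp (ρ' i).1 ∧ (ρ i).2 = (ρ' i).2) : ev D M ρ = ev D M ρ' := by
  induction M generalizing ρ ρ' with
  | var i => simp only [ev]; rw [(h i).2]
  | sort s => rfl
  | app P Q ihP ihQ =>
    have ht : ∀ M : Term S, rp (sub (tm ρ) M) = rp (sub (tm ρ') M) :=
      rp_sub_congr fun i => (h i).1
    simp only [ev]
    rw [ht, ht, ihP h, ihQ h]
  | lam A P _ ihP =>
    simp only [ev]
    congr 1
    funext e
    refine ihP fun i => ?_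
    cases i with
    | zero => exact ⟨rfl, rfl⟩
    | succ i => exact h i
  | pi A B ihA ihB =>
    have ht : ∀ M : Term S, rp (sub (tm ρ) M) = rp (sub (tm ρ') M) :=
      rp_sub_congr fun i => (h i).1
    simp only [ev]
    rw [ht, ht, ihA h]
    congr 2
    funext a
    unfold fam
    refine Set.iInter_congr fun e => Set.iInter_congr fun _ => ?_
    have h' : ∀ i, rp ((cns (a, e) ρ) i).1 = rp ((cns (a, e) ρ') i).1 ∧
        ((cns (a, e) ρ) i).2 = ((cns (a, e) ρ') i).2 := by
      intro i
      cases i with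
      | zero => exact ⟨rfl, rfl⟩
      | succ i => exact h i
    beta_reduce
    rw [ihB h', rp_sub_congr (σ := tm (cns (a, e) ρ)) (τ := tm (cns (a, e) ρ'))
      (fun i => (h' i).1)]

theorem cns_up (e : Term S × V S Mt) (ρ : Env S Mt) (r : ℕ → ℕ) :
    (fun i => cns e ρ (Sub452.up r i)) = cns e fun i => ρ (r i) := by
  funext i; cases i <;> rfl

theorem ev_ren (D : Sem S Mt) (M : Term S) (r : ℕ → ℕ) (ρ : Env S Mt) :
    ev D (ren r M) ρ = ev D M (fun i => ρ (r i)) := by
  have ht : ∀ (M : Term S) (r : ℕ → ℕ) (ρ : Env S Mt),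
      sub (tm ρ) (ren r M) = sub (tm fun i => ρ (r i)) M := fun M r ρ => by
    rw [sub_ren]; rfl
  induction M generalizing r ρ with
  | var i => rfl
  | sort s => rfl
  | app P Q ihP ihQ =>
    simp only [ren_app, ev]
    rw [ihP, ihQ, ht, ht]
  | lam A P _ ihP =>
    simp only [ren_lam, ev]
    congr 1
    funext e
    rw [ihP, cns_up]
  | pi A B ihA ihB =>
    have ht' := ht (.pi A B) r ρ
    simp only [ren_pi] at ht'
    simp only [ren_pi, ev]
    rw [ht', ht, ihA]
    congr 2
    funext a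
    unfold fam
    refine Set.iInter_congr fun e => Set.iInter_congr fun _ => ?_
    beta_reduce
    rw [ihB, ht, cns_up]

end Crest.Agent.R298.Ev201
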