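import Crest.Agent.R298.TyF_452
import Crest.Agent.R298.TyM_452

/-!
R298 (S0452), helper452: typing of terms with memory over function contexts.
-/

set_option autoImplicit false

namespace Crest.Agent.R298.TyMF452

open Crest.LogicCS.PTS Relation
open Crest.Agent.R298.Sub452 Crest.Agent.R298.Par452 Crest.Agent.R298.Ty452
open Crest.Agent.R298.Mem360 Crest.Agent.R298.TyM452 Crest.Agent.R298.TyF452
open Crest.Agent.R298.Mem360.MT (er emb mren mwk mups msub mscons minst er_mren er_mups er_msub
  er_minst er_emb emb_ren msub_id mren_id)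

universe u
variable {S : Type u} {P : Spec S}

/-- typing of terms with memory over a function context -/
inductive TMF (P : Spec S) : (ℕ → Term S) → MT S → Term S → Prop
  | var {D : ℕ → Term S} {i : ℕ} {s : S} : TyF P D (D i) (.sort s) → TMF P D (.var i) (D i)
  | sort {D : ℕ → Term S} {s t : S} : P.ax s t → TMF P D (.sort s) (.sort t)
  | pi {D : ℕ → Term S} {A B : MT S} {a b c : S} : TMF P D A (.sort a) →
      TMF P (fcons (er A) D) B (.sort b) → P.rule a b c → TMF P D (.pi A B) (.sort c)
  | lam {D : ℕ → Term S} {A M : MT S} {B : Term S} {a c : S} : TMF P D A (.sort a) →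
      TMF P (fcons (er A) D) M B → TyF P D (.pi (er A) B) (.sort c) →
      TMF P D (.lam A M) (.pi (er A) B)
  | app {D : ℕ → Term S} {M N : MT S} {A B : Term S} : TMF P D M (.pi A B) → TMF P D N A →
      TMF P D (.app M N) (inst (er N) B)
  | mem {D : ℕ → Term S} {M N : MT S} {A B : Term S} : TMF P D M A → TMF P D N B →
      TMF P D (.mem M N) A
  | conv {D : ℕ → Term S} {M : MT S} {A A' : Term S} {s : S} : TMF P D M A → BetaEq A A' →
      TyF P D A' (.sort s) → TMF P D M A'

theorem TMF.typed {D : ℕ → Term S} {M : MT S} {A : Term S} (h : TMF P D M A) :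
    TyF P D (er M) A := by
  induction h with
  | var h => exact .var h
  | sort a => exact .ax a
  | pi _ _ r ih ih' => exact .prod ih ih' r
  | lam _ _ h _ ih => exact .abs ih h
  | app _ _ ih ih' => exact .appl ih ih'
  | mem _ _ ih _ => exact ih
  | conv _ e h ih => exact .conv ih h e

/-! ### renaming and substitution -/

theorem tmf_ren {D : ℕ → Term S} {M : MT S} {A : Term S} (h : TMF P D M A) :
    ∀ {D' : ℕ → Term S} {ρ : ℕ → ℕ}, RenF ρ D D' → TMF P D' (mren ρ M) (ren ρ A) := by
  induction h with
  | @var D i s h =>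
      intro D' ρ hr
      have := tyf_ren h hr
      rw [← hr i] at this ⊢
      exact .var this
  | sort a => intro D' ρ r; exact .sort a
  | pi hA _ r ih ih' =>
      intro D' ρ hr
      have a := ih hr
      refine .pi a ?_ r
      rw [er_mren]
      exact ih' (hr.up _)
  | @lam D A M B a c hA hM hp ih ih' =>
      intro D' ρ hr
      have a := ih hr
      have b : TyF P D' (.pi (ren ρ (er A)) (ren (up ρ) B)) (.sort c) := tyf_ren hp hr
      simp only [ren_pi]
      have key := TMF.lam (P := P) (D := D') (A := mren ρ A) (M := mren (up ρ) M)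
        (B := ren (up ρ) B) (a := _) (c := c) a
        (by rw [er_mren]; exact ih' (hr.up _)) (by rw [er_mren]; exact b)
      rw [er_mren] at key
      exact key
  | app _ _ ih ih' =>
      intro D' ρ hr
      rw [ren_inst, ← er_mren]
      exact .app (ih hr) (ih' hr)
  | mem _ _ ih ih' => intro D' ρ hr; exact .mem (ih hr) (ih' hr)
  | conv _ e hs ih =>
      intro D' ρ hr
      exact .conv (ih hr) (BetaEq.ren e ρ) (tyf_ren hs hr)

theorem tmf_wk {D : ℕ → Term S} {M : MT S} {A : Term S} (h : TMF P D M A) (B : Term S) :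
    TMF P (fcons B D) (mwk M) (wk A) := tmf_ren h (RenF.wk D B)

theorem tmf_var {D : ℕ → Term S} (w : WfF P D) (i : ℕ) : TMF P D (.var i) (D i) := by
  obtain ⟨s, h⟩ := w i
  exact .var h

/-- `σ` is a substitution (by terms with memory) from `D` to `D'` -/
def MSubF (P : Spec S) (σ : ℕ → MT S) (D D' : ℕ → Term S) : Prop :=
  ∀ i, TMF P D' (σ i) (sub (fun i => er (σ i)) (D i))

theorem MSubF.subF {σ : ℕ → MT S} {D D' : ℕ → Term S} (h : MSubF P σ D D') :
    SubF P (fun i => er (σ i)) D D' := fun i => (h i).typed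

theorem MSubF.ups {σ : ℕ → MT S} {D D' : ℕ → Term S} (h : MSubF P σ D D') {A : Term S} {s : S}
    (hA : TyF P D' (sub (fun i => er (σ i)) A) (.sort s)) :
    MSubF P (mups σ) (fcons A D) (fcons (sub (fun i => er (σ i)) A) D') := by
  intro i
  rw [er_mups]
  cases i with
  | zero =>
      rw [fcons_zero, sub_wk]
      exact TMF.var (D := fcons (sub (fun i => er (σ i)) A) D') (i := 0) (tyf_wk hA _)
  | succ i =>
      rw [fcons_succ, sub_wk]
      exact tmf_wk (h i) _

theorem tmf_sub {D : ℕ → Term S} {M : MT S} {A : Term S} (h : TMF P D M A) :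
    ∀ {D' : ℕ → Term S} {σ : ℕ → MT S}, MSubF P σ D D' →
      TMF P D' (msub σ M) (sub (fun i => er (σ i)) A) := by
  induction h with
  | @var D i s h => intro D' σ r; exact r i
  | sort a => intro D' σ r; exact .sort a
  | pi hA _ r ih ih' =>
      intro D' σ hr
      have a := ih hr
      refine .pi a ?_ r
      have := a.typed
      rw [er_msub] at this ⊢
      have key := ih' (hr.ups this)
      rw [er_mups] at key
      exact key
  | @lam D A M B a c hA hM hp ih ih' =>
      intro D' σ hr
      have a := ih hr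
      have b : TyF P D' (.pi (sub (fun i => er (σ i)) (er A)) (sub (ups fun i => er (σ i)) B))
        (.sort c) := tyf_sub hp hr.subF
      have := a.typed
      rw [er_msub] at this
      have key0 := ih' (hr.ups this)
      rw [er_mups] at key0
      simp only [sub_pi]
      have key := TMF.lam (P := P) (D := D') (A := msub σ A) (M := msub (mups σ) M)
        (B := sub (ups fun i => er (σ i)) B) (a := _) (c := c) a
        (by rw [er_msub]; exact key0) (by rw [er_msub]; exact b)
      rw [er_msub] at key
      exact key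
  | app _ _ ih ih' =>
      intro D' σ hr
      rw [sub_inst, ← er_msub]
      exact .app (ih hr) (ih' hr)
  | mem _ _ ih ih' => intro D' σ hr; exact .mem (ih hr) (ih' hr)
  | conv _ e hs ih =>
      intro D' σ hr
      exact .conv (ih hr) (BetaEq.sub e _) (tyf_sub hs hr.subF)

theorem sub_er_var (A : Term S) : sub (fun i => er (MT.var (S := S) i)) A = A := sub_id A

theorem MSubF.var {D : ℕ → Term S} (w : WfF P D) : MSubF P .var D D := by
  intro i
  rw [sub_er_var]
  exact tmf_var w i

theorem MSubF.scons {σ : ℕ → MT S} {D D' : ℕ → Term S} (h : MSubF P σ D D') {N : MT S}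
    {A : Term S} (hN : TMF P D' N (sub (fun i => er (σ i)) A)) :
    MSubF P (mscons N σ) (fcons A D) D' := by
  intro i
  cases i with
  | zero =>
      simpa only [fcons_zero, wk, sub_ren, Nat.succ_eq_add_one, mscons] using hN
  | succ i =>
      have := h i
      simpa only [fcons_succ, wk, sub_ren, Nat.succ_eq_add_one, mscons] using this

theorem er_mscons_var (N : MT S) :
    (fun i => er (mscons N MT.var i)) = scons (er N) Term.var := by
  funext i; cases i <;> rfl

theorem tmf_inst {D : ℕ → Term S} {A B : Term S} {M N : MT S} (w : WfF P D)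
    (h : TMF P (fcons A D) M B) (hN : TMF P D N A) :
    TMF P D (minst N M) (inst (er N) B) := by
  have key := tmf_sub h ((MSubF.var w).scons (N := N) (by rwa [sub_er_var]))
  rw [er_mscons_var] at key
  exact key

/-- context conversion -/
theorem tmf_ctx_conv {D : ℕ → Term S} {A A' B : Term S} {M : MT S} {s s' : S} (w : WfF P D)
    (h : TMF P (fcons A D) M B) (hA : TyF P D A (.sort s)) (hA' : TyF P D A' (.sort s'))
    (e : BetaEq A A') : TMF P (fcons A' D) M B := by
  have hs : MSubF P MT.var (fcons A D) (fcons A' D) := by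
    intro i
    rw [sub_er_var]
    cases i with
    | zero =>
        refine .conv (TMF.var (D := fcons A' D) (i := 0) (tyf_wk hA' _)) ?_ (tyf_wk hA _)
        exact BetaEq.symm (BetaEq.ren e _)
    | succ i => exact tmf_wk (tmf_var w i) _
  have := tmf_sub h hs
  rwa [sub_er_var, msub_id] at this

/-! ### generation -/

theorem tmf_gen_pi {D : ℕ → Term S} {M : MT S} {C : Term S} (h : TMF P D M C) :
    ∀ A B, M = .pi A B → ∃ a b c, TMF P D A (.sort a) ∧ TMF P (fcons (er A) D) B (.sort b) ∧
      P.rule a b c ∧ BetaEq C (.sort c) := by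
  induction h with
  | pi h1 h2 r _ _ =>
      intro A B e; cases e; exact ⟨_, _, _, h1, h2, r, .refl _⟩
  | conv h e' _ ih =>
      intro A B e
      obtain ⟨a, b, c, h1, h2, r, e2⟩ := ih A B e
      exact ⟨a, b, c, h1, h2, r, BetaEq.trans (BetaEq.symm e') e2⟩
  | _ => intro A B e; cases e

theorem tmf_gen_lam {D : ℕ → Term S} {M : MT S} {C : Term S} (h : TMF P D M C) :
    ∀ A M', M = .lam A M' → ∃ B a c, TMF P D A (.sort a) ∧ TMF P (fcons (er A) D) M' B ∧
      TyF P D (.pi (er A) B) (.sort c) ∧ BetaEq C (.pi (er A) B) := by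
  induction h with
  | lam h1 h2 h3 _ _ =>
      intro A B e; cases e; exact ⟨_, _, _, h1, h2, h3, .refl _⟩
  | conv h e' _ ih =>
      intro A B e
      obtain ⟨a, b, c, h1, h2, r, e2⟩ := ih A B e
      exact ⟨a, b, c, h1, h2, r, BetaEq.trans (BetaEq.symm e') e2⟩
  | _ => intro A B e; cases e

theorem tmf_gen_app {D : ℕ → Term S} {M : MT S} {C : Term S} (h : TMF P D M C) :
    ∀ M' N, M = .app M' N → ∃ A B, TMF P D M' (.pi A B) ∧ TMF P D N A ∧
      BetaEq C (inst (er N) B) := by
  induction h with
  | app h1 h2 _ _ =>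
      intro A B e; cases e; exact ⟨_, _, h1, h2, .refl _⟩
  | conv h e' _ ih =>
      intro A B e
      obtain ⟨a, b, h1, h2, e2⟩ := ih A B e
      exact ⟨a, b, h1, h2, BetaEq.trans (BetaEq.symm e') e2⟩
  | _ => intro A B e; cases e

theorem tmf_gen_mem {D : ℕ → Term S} {M : MT S} {C : Term S} (h : TMF P D M C) :
    ∀ M' N, M = .mem M' N → TMF P D M' C ∧ ∃ B, TMF P D N B := by
  induction h with
  | mem h1 h2 _ _ =>
      intro A B e; cases e; exact ⟨h1, _, h2⟩
  | conv h e' hs ih =>
      intro A B e
      obtain ⟨h1, h2⟩ := ih A B e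
      exact ⟨.conv h1 e' hs, h2⟩
  | _ => intro A B e; cases e

theorem tmf_gen_var {D : ℕ → Term S} {i : ℕ} {C : Term S} (h : TMF P D (.var i) C) :
    (∃ s, TyF P D (D i) (.sort s)) ∧ BetaEq C (D i) := fgen_var h.typed i rfl

theorem tmf_gen_sort {D : ℕ → Term S} {s : S} {C : Term S} (h : TMF P D (.sort s) C) :
    ∃ s', P.ax s s' ∧ BetaEq C (.sort s') := fgen_sort h.typed s rfl

/-- every typed frozen term is a typed term with (empty) memory -/
theorem tmf_emb {D : ℕ → Term S} {M A : Term S} (h : TyF P D M A) : TMF P D (emb M) A := by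
  induction h with
  | ax a => exact .sort a
  | var h _ => exact .var h
  | prod _ _ r ih ih' => exact .pi ih (by rw [er_emb]; exact ih') r
  | @abs D A M B s _ h ih ih' =>
      obtain ⟨a, b, c, h1, h2, r, e⟩ := tmf_gen_pi ih' _ _ rfl
      have := TMF.lam (P := P) (A := emb A) (M := emb M) (B := B) (c := s) h1
        (by rw [er_emb]; exact ih) (by rw [er_emb]; exact h)
      rwa [er_emb] at this
  | appl _ _ ih ih' =>
      have := TMF.app ih ih'
      rwa [er_emb] at this
  | conv _ h e ih _ => exact .conv ih e h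

/-! ### subject reduction -/

theorem distf {D : ℕ → Term S} {F Q R : MT S} {A B : Term S} (w : WfF P D)
    (h : TMF P D F (.pi A B)) (hQ : TMF P D Q A) (hd : MT.dist F Q = some R) :
    TMF P D R (inst (er Q) B) := by
  induction F generalizing R with
  | lam A0 M _ _ =>
      simp only [MT.dist, Option.some.injEq] at hd
      subst hd
      obtain ⟨B2, a, c, h3, h4, h5, e2⟩ := tmf_gen_lam h _ _ rfl
      obtain ⟨e3, e4⟩ := pi_inj e2
      have hQ' : TMF P D Q (er A0) := .conv hQ e3 h3.typed
      obtain ⟨s, hp⟩ := fpi_typed w h.typed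
      obtain ⟨s₁, s₂, s₃, hA, hB, r, -⟩ := fgen_pi hp _ _ rfl
      have hT : TyF P D (inst (er Q) B) (.sort s₂) := tyf_inst w hB hQ.typed
      refine .mem (.mem (.conv (tmf_inst w h4 hQ') ?_ hT) hQ) h3
      exact BetaEq.symm (BetaEq.sub e4 _)
  | mem M N ih _ =>
      simp only [MT.dist, Option.map_eq_some_iff] at hd
      obtain ⟨R', hd, rfl⟩ := hd
      obtain ⟨h3, B3, h4⟩ := tmf_gen_mem h _ _ rfl
      exact .mem (ih h3 hd) h4
  | var i => cases hd
  | sort i => cases hd
  | app _ _ => cases hd
  | pi _ _ => cases hd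

/-- subject reduction for terms with memory -/
theorem tmf_sr {D : ℕ → Term S} {M : MT S} {A : Term S} (h : TMF P D M A) :
    WfF P D → ∀ M', MStep M M' → TMF P D M' A := by
  induction h with
  | var l => intro w M' b; cases b
  | sort l => intro w M' b; cases b
  | pi hA hB r ih ih' =>
      intro w M' b
      cases b with
      | piA _ b =>
          exact .pi (ih w _ b) (tmf_ctx_conv w hB hA.typed (ih w _ b).typed (step_eq b)) r
      | piB _ b => exact .pi hA (ih' (w.cons hA.typed) _ b) r
  | lam hA hM hp ih ih' =>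
      intro w M' b
      cases b with
      | lamA _ b =>
          have hp' := FSR w hp (Red.pi (step_red b) .refl)
          refine .conv (.lam (ih w _ b)
            (tmf_ctx_conv w hM hA.typed (ih w _ b).typed (step_eq b)) hp') ?_ hp
          exact BetaEq.symm (Red.pi (step_red b) .refl).eq
      | lamM _ b => exact .lam hA (ih' (w.cons hA.typed) _ b) hp
  | @app D M N A B h h' ih ih' =>
      intro w M' b
      obtain ⟨s, hp⟩ := fpi_typed w h.typed
      obtain ⟨s₁, s₂, s₃, hA, hB, r, -⟩ := fgen_pi hp _ _ rfl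
      cases b with
      | beta hd => exact distf w h h' hd
      | appL _ b => exact .app (ih w _ b) h'
      | appR _ b =>
          refine .conv (.app h (ih' w _ b)) ?_ (tyf_inst w hB h'.typed)
          exact BetaEq.symm (red_inst (step_red b) .refl).eq
  | mem h h' ih ih' =>
      intro w M' b
      cases b with
      | memP _ b => exact .mem (ih w _ b) h'
      | memN _ b => exact .mem h (ih' w _ b)
  | conv h e hs ih =>
      intro w M' b
      exact .conv (ih w _ b) e hs

theorem tmf_SR {D : ℕ → Term S} {M M' : MT S} {A : Term S} (w : WfF P D) (h : TMF P D M A)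
    (r : MRed M M') : TMF P D M' A := by
  induction r with
  | refl => exact h
  | tail _ b ih => exact tmf_sr ih w _ b

theorem tmf_type_correct {D : ℕ → Term S} {M : MT S} {A : Term S} (w : WfF P D)
    (h : TMF P D M A) : (∃ s, A = .sort s) ∨ ∃ s, TyF P D A (.sort s) :=
  ftype_correct w h.typed

theorem tmf_red_type {D : ℕ → Term S} {M : MT S} {A A' : Term S} (w : WfF P D)
    (h : TMF P D M A) (r : Red A A') : TMF P D M A' := by
  rcases tmf_type_correct w h with ⟨s, rfl⟩ | ⟨s, hA⟩
  · rw [red_sort r]; exact h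
  · exact .conv h r.eq (FSR w hA r)

theorem tmf_sort_of_eq {D : ℕ → Term S} {M : MT S} {A : Term S} {s : S} (w : WfF P D)
    (h : TMF P D M A) (e : BetaEq A (.sort s)) : TMF P D M (.sort s) :=
  tmf_red_type w h (red_of_eq_sort e)

theorem lk_typed {Γ : List (Term S)} {i : ℕ} {A : Term S} (w : Wf P Γ) (h : Lk Γ i A) :
    ∃ s, Typed P Γ A (.sort s) := by
  induction h with
  | zero A Γ =>
      obtain ⟨_, s, h⟩ := w.tail
      exact ⟨s, t_weak h h⟩
  | succ B h ih =>
      obtain ⟨w', s, h'⟩ := w.tail
      obtain ⟨s', h''⟩ := ih w'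
      exact ⟨s', t_weak h'' h'⟩

/-- from list contexts to function contexts, for terms with memory -/
theorem tm_tmf {Γ : List (Term S)} {M : MT S} {A : Term S} (h : TM P Γ M A) :
    ∀ {D : ℕ → Term S} {ρ : ℕ → ℕ}, (∀ i B, Lk Γ i B → D (ρ i) = ren ρ B) →
      TMF P D (mren ρ M) (ren ρ A) := by
  induction h with
  | @var Γ i A w l =>
      intro D ρ hr
      have h0 := hr _ _ l
      obtain ⟨s', hs'⟩ := lk_typed w l
      have := typed_tyf hs' hr
      rw [← h0]
      refine .var (s := s') ?_
      rw [h0]; exact this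
  | sort w a => intro D ρ r; exact .sort a
  | pi hA _ r ih ih' =>
      intro D ρ hr
      refine .pi (ih hr) ?_ r
      rw [er_mren]
      refine ih' ?_
      intro i C hl
      cases hl with
      | zero _ _ => rw [ren_up_wk]; rfl
      | succ _ hl => rw [ren_up_wk, ← hr _ _ hl]; rfl
  | @lam Γ A M B a c hA hM hp ih ih' =>
      intro D ρ hr
      have b : TyF P D (.pi (ren ρ (er A)) (ren (up ρ) B)) (.sort c) := typed_tyf hp hr
      simp only [ren_pi]
      have key := TMF.lam (P := P) (D := D) (A := mren ρ A) (M := mren (up ρ) M)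
        (B := ren (up ρ) B) (a := _) (c := c) (ih hr)
        (by
          rw [er_mren]
          refine ih' ?_
          intro i C hl
          cases hl with
          | zero _ _ => rw [ren_up_wk]; rfl
          | succ _ hl => rw [ren_up_wk, ← hr _ _ hl]; rfl) (by rw [er_mren]; exact b)
      rw [er_mren] at key
      exact key
  | app _ _ ih ih' =>
      intro D ρ hr
      rw [ren_inst, ← er_mren]
      exact .app (ih hr) (ih' hr)
  | mem _ _ ih ih' => intro D ρ hr; exact .mem (ih hr) (ih' hr)
  | conv _ e hs ih =>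
      intro D ρ hr
      exact .conv (ih hr) (BetaEq.ren e ρ) (typed_tyf hs hr)

end Crest.Agent.R298.TyMF452
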