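import Crest.Agent.R298.Dm_658
import Crest.Agent.R298.Cl_658
import Crest.Agent.R298.TyMF_452

/-!
R298 (S0452), helper658: the evaluation `E m M ρ p : Set (MT S) × Prop` by structural recursion on
raw terms: first component = the value (set of realizers), second component = "every abstraction
evaluated against an argument has a live domain".
Renaming lemma, finite rank lemma, faithfulness of `pack`.
-/

set_option autoImplicit false

namespace Crest.Agent.R298.Ev658

open Crest.LogicCS.PTS Crest.LogicCS.PTS.Term Relation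
open Crest.Agent.R298.Sub452 Crest.Agent.R298.Par452 Crest.Agent.R298.Ty452
open Crest.Agent.R298.TyF452 Crest.Agent.R298.Cl658 Crest.Agent.R298.Dm658
open Crest.Agent.R298.Mem360 Crest.Agent.R298.TyMF452
open Crest.Agent.R298.Mem360.MT (er)

variable {S : Type}

/-- the data of the model -/
structure Md (S : Type) where
  P : Spec S
  D0 : ℕ → Term S
  D : Set S
  hi : Set S
  Wt : Term S → Set (MT S)
  cs : Term S → Set (MT S) → Set (MT S)
  w : Wd P D0
  hwf : WellFounded (Blt P D0 D)
  rl : ∀ a b c, P.rule a b c → c ∈ D → (a ∈ D ∨ a ∈ hi) ∧ (b ∈ D ∨ b ∈ hi)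
  cs_ty : ∀ (K : Term S) (X : Set (MT S)) (v : MT S), v ∈ cs K X → TMF P D0 v K
  cs_hi : ∀ (K : Term S) (X Y : Set (MT S)) (s : S), s ∈ hi → Sig P D0 K s → cs K X = cs K Y

/-- values of types with both signs -/
abbrev BoT (m : Md S) : Type := Bo (Term S) (Set (MT S)) m.hwf
abbrev VT (m : Md S) : Type := V (Term S) (BoT m) (Set (MT S))
abbrev WT (m : Md S) : Type := W (Term S) (BoT m) (Set (MT S))

/-- infos -/
inductive Inf (m : Md S) : Type
  | non : Inf m
  | dfl : Inf m
  | bo : BoT m → Inf m
  | ar : VT m → Inf m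
  | qu : WT m → Inf m

abbrev Arg (m : Md S) : Type := Term S × Inf m

variable {m : Md S}

/-- the shape of an info -/
def shp : Inf m → Shp S
  | .non => .non
  | .dfl => .dfl
  | .bo t => .bo t.1
  | .ar _ => .ar
  | .qu _ => .qu

def sp (x : Arg m) : Term S × Shp S := (x.1, shp x.2)

def toB (x : Arg m) : Term S × Option (BoT m) :=
  (x.1, match x.2 with | .bo t => some t | _ => none)
def ofB (x : Term S × Option (BoT m)) : Arg m :=
  (x.1, match x.2 with | some t => .bo t | none => .non)
def toA (x : Arg m) : Term S × Option (BoT m ⊕ WT m) :=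
  (x.1, match x.2 with | .bo t => some (.inl t) | .qu w => some (.inr w) | _ => none)
def ofA (x : Term S × Option (BoT m ⊕ WT m)) : Arg m :=
  (x.1, match x.2 with | some (.inl t) => .bo t | some (.inr w) => .qu w | none => .non)
def toQ (x : Arg m) : Term S × Option (BoT m ⊕ VT m) :=
  (x.1, match x.2 with | .bo t => some (.inl t) | .ar v => some (.inr v) | _ => none)
def ofQ (x : Term S × Option (BoT m ⊕ VT m)) : Arg m :=
  (x.1, match x.2 with | some (.inl t) => .bo t | some (.inr v) => .ar v | none => .non)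

theorem ofB_toB {x : Arg m} (h : (sp x).2 = .non ∨ ∃ T, (sp x).2 = .bo T) : ofB (toB x) = x := by
  obtain ⟨a, _ | _ | t | v | w⟩ := x <;> simp [sp, shp] at h <;> rfl

theorem ofA_toA {x : Arg m} (h1 : (sp x).2 ≠ .dfl) (h2 : (sp x).2 ≠ .ar) :
    ofA (toA x) = x := by
  obtain ⟨a, _ | _ | t | v | w⟩ := x
  · rfl
  · exact absurd rfl h1
  · rfl
  · exact absurd rfl h2
  · rfl

theorem ofQ_toQ {x : Arg m} (h1 : (sp x).2 ≠ .dfl) (h2 : (sp x).2 ≠ .qu) :
    ofQ (toQ x) = x := by
  obtain ⟨a, _ | _ | t | v | w⟩ := x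
  · rfl
  · exact absurd rfl h1
  · rfl
  · rfl
  · exact absurd rfl h2

/-- application of an info to a path -/
noncomputable def ap : Inf m → List (Arg m) → Set (MT S)
  | .non, _ => ∅
  | .dfl, _ => ∅
  | .bo t, p => apB t (p.map toB)
  | .ar v, p => dec v (p.map toA)
  | .qu w, p => w (p.map toQ)

/-- the info of an argument at the closed type `K` -/
noncomputable def pack (K : Term S) (g : List (Arg m) → Set (MT S)) : Inf m :=
  match xsh m.P m.D0 m.D K with
  | .non => .non
  | .dfl => .dfl
  | .bo T => .bo ⟨T, mkB m.hwf T fun l => g (l.map ofB)⟩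
  | .ar => .ar (enc fun l => g (l.map ofA))
  | .qu => .qu fun l => g (l.map ofQ)

theorem shp_pack (K : Term S) (g : List (Arg m) → Set (MT S)) :
    shp (pack K g) = xsh m.P m.D0 m.D K := by
  unfold pack
  generalize xsh m.P m.D0 m.D K = s
  cases s <;> rfl

abbrev Env (m : Md S) : Type := ℕ → Arg m

/-- extension of an environment -/
def ec (x : Arg m) (ρ : Env m) : Env m
  | 0 => x
  | k + 1 => ρ k

/-- the closed terms of an environment -/
def tm (ρ : Env m) (k : ℕ) : Term S := (ρ k).1

@[simp] theorem ec_zero (x : Arg m) (ρ : Env m) : ec x ρ 0 = x := rfl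
@[simp] theorem ec_succ (x : Arg m) (ρ : Env m) (k : ℕ) : ec x ρ (k + 1) = ρ k := rfl

theorem tm_ec (x : Arg m) (ρ : Env m) : tm (ec x ρ) = scons x.1 (tm ρ) := by
  funext k; cases k <;> rfl

/-- high closed types -/
def Hi (m : Md S) (K : Term S) : Prop := ∃ s ∈ m.hi, Sig m.P m.D0 K s

theorem hi_congr {K K' : Term S} (e : BetaEq K K') : Hi m K ↔ Hi m K' :=
  ⟨fun ⟨s, h, h'⟩ => ⟨s, h, sig_conv h' e⟩, fun ⟨s, h, h'⟩ => ⟨s, h, sig_conv h' (BetaEq.symm e)⟩⟩

/-- types with a sign -/
def Live (m : Md S) (K : Term S) : Prop := sgn m.P m.D0 m.D true K ∨ sgn m.P m.D0 m.D false K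

theorem live_congr {K K' : Term S} (e : BetaEq K K') : Live m K ↔ Live m K' := by
  unfold Live; rw [sgn_congr e, sgn_congr e]

/-- clamp to the valid paths of `K` -/
def clq (K : Term S) (X : List (Arg m) → Set (MT S)) (q : List (Arg m)) : Set (MT S) :=
  {v | Lf m.P m.D0 m.D K (q.map sp) ∧ v ∈ X q}

theorem clq_of {K : Term S} {X : List (Arg m) → Set (MT S)} {q : List (Arg m)}
    (h : Lf m.P m.D0 m.D K (q.map sp)) : clq K X q = X q := by
  ext v; exact ⟨fun h' => h'.2, fun h' => ⟨h, h'⟩⟩

theorem clq_congr {K : Term S} {X Y : List (Arg m) → Set (MT S)} {q q' : List (Arg m)}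
    (e : q.map sp = q'.map sp) (h : Lf m.P m.D0 m.D K (q.map sp) → X q = Y q') :
    clq K X q = clq K Y q' := by
  ext v
  constructor
  · rintro ⟨h1, h2⟩
    exact ⟨e ▸ h1, h h1 ▸ h2⟩
  · rintro ⟨h1, h2⟩
    rw [← e] at h1
    exact ⟨h1, (h h1).symm ▸ h2⟩

/-- the evaluation -/
noncomputable def E (m : Md S) : Term S → Env m → List (Arg m) → Set (MT S) × Prop
  | .var k, ρ, p => (ap (ρ k).2 p, True)
  | .sort s, _, _ => (m.Wt (.sort s), True)
  | .pi A B, ρ, _ =>
      ({v | v ∈ m.Wt (nfr (sub (tm ρ) (.pi A B))) ∧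
          ∀ w ∈ m.cs (nfr (sub (tm ρ) A)) (E m A ρ []).1, ∀ j : Inf m,
            shp j = qsh m.P m.D0 m.D (sub (tm ρ) A) →
            MT.app v w ∈ m.cs (nfr (sub (tm (ec (nfr (er w), j) ρ)) B))
              (E m B (ec (nfr (er w), j) ρ) []).1},
        (¬ Hi m (sub (tm ρ) A) → (E m A ρ []).2) ∧
          ∀ (a : Term S) (j : Inf m), TyF m.P m.D0 a (nfr (sub (tm ρ) A)) →
            shp j = qsh m.P m.D0 m.D (sub (tm ρ) A) → ¬ Hi m (sub (tm (ec (a, j) ρ)) B) →
            (E m B (ec (a, j) ρ) []).2)
  | .lam A M, ρ, p =>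
      match p with
      | [] => (∅, True)
      | x :: p => ((E m M (ec x ρ) p).1,
          (Rel m.P m.D0 m.D (sub (tm ρ) A) → Live m (sub (tm ρ) A)) ∧ (E m M (ec x ρ) p).2)
  | .app M N, ρ, p =>
      ((E m M ρ ((nfr (sub (tm ρ) N), pack (kd m.P m.D0 (sub (tm ρ) M))
          (clq (kd m.P m.D0 (sub (tm ρ) M)) fun q => (E m N ρ q).1)) :: p)).1,
        (E m M ρ ((nfr (sub (tm ρ) N), pack (kd m.P m.D0 (sub (tm ρ) M))
          (clq (kd m.P m.D0 (sub (tm ρ) M)) fun q => (E m N ρ q).1)) :: p)).2 ∧
        (Live m (kd m.P m.D0 (sub (tm ρ) M)) →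
          ∀ q : List (Arg m), Lf m.P m.D0 m.D (kd m.P m.D0 (sub (tm ρ) M)) (q.map sp) →
            (E m N ρ q).2))

/-- the info of the argument `N` at the closed type `K` -/
noncomputable def info (K : Term S) (N : Term S) (ρ : Env m) : Inf m :=
  pack K (clq K fun q => (E m N ρ q).1)

theorem E_var (k : ℕ) (ρ : Env m) (p : List (Arg m)) :
    E m (.var k) ρ p = (ap (ρ k).2 p, True) := rfl

theorem E_sort (s : S) (ρ : Env m) (p : List (Arg m)) :
    E m (.sort s) ρ p = (m.Wt (.sort s), True) := rfl

/-- the realizer set of a type -/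
noncomputable def RR (T : Term S) (ρ : Env m) : Set (MT S) :=
  m.cs (nfr (sub (tm ρ) T)) (E m T ρ []).1

theorem E_pi (A B : Term S) (ρ : Env m) (p : List (Arg m)) :
    E m (.pi A B) ρ p =
      ({v | v ∈ m.Wt (nfr (sub (tm ρ) (.pi A B))) ∧ ∀ w ∈ RR A ρ, ∀ j : Inf m,
            shp j = qsh m.P m.D0 m.D (sub (tm ρ) A) →
            MT.app v w ∈ RR B (ec (nfr (er w), j) ρ)},
        (¬ Hi m (sub (tm ρ) A) → (E m A ρ []).2) ∧
          ∀ (a : Term S) (j : Inf m), TyF m.P m.D0 a (nfr (sub (tm ρ) A)) →
            shp j = qsh m.P m.D0 m.D (sub (tm ρ) A) → ¬ Hi m (sub (tm (ec (a, j) ρ)) B) →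
            (E m B (ec (a, j) ρ) []).2) := rfl

theorem E_lam_nil (A M : Term S) (ρ : Env m) : E m (.lam A M) ρ [] = (∅, True) := rfl

theorem E_lam_cons (A M : Term S) (ρ : Env m) (x : Arg m) (p : List (Arg m)) :
    E m (.lam A M) ρ (x :: p) = ((E m M (ec x ρ) p).1,
      (Rel m.P m.D0 m.D (sub (tm ρ) A) → Live m (sub (tm ρ) A)) ∧ (E m M (ec x ρ) p).2) := rfl

theorem E_app (M N : Term S) (ρ : Env m) (p : List (Arg m)) :
    E m (.app M N) ρ p =
      ((E m M ρ ((nfr (sub (tm ρ) N), info (kd m.P m.D0 (sub (tm ρ) M)) N ρ) :: p)).1,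
       (E m M ρ ((nfr (sub (tm ρ) N), info (kd m.P m.D0 (sub (tm ρ) M)) N ρ) :: p)).2 ∧
        (Live m (kd m.P m.D0 (sub (tm ρ) M)) →
          ∀ q : List (Arg m), Lf m.P m.D0 m.D (kd m.P m.D0 (sub (tm ρ) M)) (q.map sp) →
            (E m N ρ q).2)) := rfl

/-! ### renaming -/

theorem ec_up (x : Arg m) (ρ : Env m) (f : ℕ → ℕ) :
    (fun k => ec x ρ (up f k)) = ec x fun k => ρ (f k) := by
  funext k; cases k <;> rfl

theorem tm_up (x : Arg m) (ρ : Env m) (f : ℕ → ℕ) :
    (fun k => tm (ec x ρ) (up f k)) = tm (ec x fun k => ρ (f k)) := by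
  funext k; cases k <;> rfl

theorem tm_comp (ρ : Env m) (f : ℕ → ℕ) : (fun k => tm ρ (f k)) = tm fun k => ρ (f k) := rfl

/-- **renaming lemma** -/
theorem E_ren (M : Term S) : ∀ (f : ℕ → ℕ) (ρ : Env m) (p : List (Arg m)),
    E m (ren f M) ρ p = E m M (fun k => ρ (f k)) p := by
  induction M with
  | var k => intro f ρ p; rfl
  | sort s => intro f ρ p; rfl
  | app M N ih1 ih2 =>
      intro f ρ p
      rw [ren_app, E_app, E_app]
      have e1 : sub (tm ρ) (ren f M) = sub (tm fun k => ρ (f k)) M := by rw [sub_ren]; rfl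
      have e2 : sub (tm ρ) (ren f N) = sub (tm fun k => ρ (f k)) N := by rw [sub_ren]; rfl
      simp only [info, ih1, ih2, e1, e2]
  | lam A M ih1 ih2 =>
      intro f ρ p
      rw [ren_lam]
      cases p with
      | nil => rfl
      | cons x p =>
          rw [E_lam_cons, E_lam_cons]
          simp only [ih2, sub_ren, tm_comp, ec_up]
  | pi A B ih1 ih2 =>
      intro f ρ p
      rw [ren_pi, E_pi, E_pi]
      simp only [RR, ih1, ih2, ← ren_pi, sub_ren, tm_comp, ec_up]

/-! ### finite rank -/

/-- agreement of infos: codes of rank `≤ k`, functions up to rank `N` -/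
def RI (k N : ℕ) : Inf m → Inf m → Prop
  | .non, .non => True
  | .dfl, .dfl => True
  | .bo t, .bo t' => t = t'
  | .ar v, .ar v' => v = v' ∧ v.1 ≤ k
  | .qu w, .qu w' => rs N w = rs N w'
  | _, _ => False

def RA (k N : ℕ) (x y : Arg m) : Prop := x.1 = y.1 ∧ RI k N x.2 y.2

theorem RI.mono {k k' N N' : ℕ} (hk : k ≤ k') (hN : N' ≤ N) : ∀ {i j : Inf m}, RI k N i j →
    RI k' N' i j
  | .non, .non, _ => trivial
  | .dfl, .dfl, _ => trivial
  | .bo _, .bo _, h => h
  | .ar _, .ar _, h => ⟨h.1, h.2.trans hk⟩
  | .qu _, .qu _, h => rs_mono hN h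
  | .non, .dfl, h => h.elim
  | .non, .bo _, h => h.elim
  | .non, .ar _, h => h.elim
  | .non, .qu _, h => h.elim
  | .dfl, .non, h => h.elim
  | .dfl, .bo _, h => h.elim
  | .dfl, .ar _, h => h.elim
  | .dfl, .qu _, h => h.elim
  | .bo _, .non, h => h.elim
  | .bo _, .dfl, h => h.elim
  | .bo _, .ar _, h => h.elim
  | .bo _, .qu _, h => h.elim
  | .ar _, .non, h => h.elim
  | .ar _, .dfl, h => h.elim
  | .ar _, .bo _, h => h.elim
  | .ar _, .qu _, h => h.elim
  | .qu _, .non, h => h.elim
  | .qu _, .dfl, h => h.elim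
  | .qu _, .bo _, h => h.elim
  | .qu _, .ar _, h => h.elim

theorem RA.mono {k k' N N' : ℕ} (hk : k ≤ k') (hN : N' ≤ N) {x y : Arg m} (h : RA k N x y) :
    RA k' N' x y := ⟨h.1, h.2.mono hk hN⟩

theorem RI.shp {k N : ℕ} : ∀ {i j : Inf m}, RI k N i j → Ev658.shp i = Ev658.shp j
  | .non, .non, _ => rfl
  | .dfl, .dfl, _ => rfl
  | .bo _, .bo _, h => by
      have h' : _ = _ := h
      rw [h']
  | .ar _, .ar _, _ => rfl
  | .qu _, .qu _, _ => rfl
  | .non, .dfl, h => h.elim
  | .non, .bo _, h => h.elim
  | .non, .ar _, h => h.elim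
  | .non, .qu _, h => h.elim
  | .dfl, .non, h => h.elim
  | .dfl, .bo _, h => h.elim
  | .dfl, .ar _, h => h.elim
  | .dfl, .qu _, h => h.elim
  | .bo _, .non, h => h.elim
  | .bo _, .dfl, h => h.elim
  | .bo _, .ar _, h => h.elim
  | .bo _, .qu _, h => h.elim
  | .ar _, .non, h => h.elim
  | .ar _, .dfl, h => h.elim
  | .ar _, .bo _, h => h.elim
  | .ar _, .qu _, h => h.elim
  | .qu _, .non, h => h.elim
  | .qu _, .dfl, h => h.elim
  | .qu _, .bo _, h => h.elim
  | .qu _, .ar _, h => h.elim

theorem RA.sp {k N : ℕ} {x y : Arg m} (h : RA k N x y) : Ev658.sp x = Ev658.sp y := by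
  unfold Ev658.sp; rw [h.1, h.2.shp]

theorem map_sp {k N : ℕ} {p q : List (Arg m)} (h : List.Forall₂ (RA k N) p q) :
    p.map sp = q.map sp := by
  induction h with
  | nil => rfl
  | cons h _ ih => simp only [List.map_cons, ih, h.sp]

theorem RI.refl {k N : ℕ} {i : Inf m} (h : ∀ v, i = .ar v → v.1 ≤ k) : RI k N i i := by
  cases i with
  | non => trivial
  | dfl => trivial
  | bo t => exact rfl
  | ar v => exact ⟨rfl, h v rfl⟩
  | qu w => exact rfl

/-- application respects agreement -/
theorem ap_congr {k N : ℕ} (hN : k < N) {i j : Inf m} (h : RI k N i j) {p q : List (Arg m)}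
    (hp : List.Forall₂ (RA k N) p q) : ap i p = ap j q := by
  have hB : p.map toB = q.map toB := by
    induction hp with
    | nil => rfl
    | @cons x y _ _ h _ ih =>
        simp only [List.map_cons, ih]
        congr 1
        obtain ⟨a, i⟩ := x
        obtain ⟨b, j⟩ := y
        obtain ⟨h1, h2⟩ := h
        simp only at h1
        subst h1
        cases i <;> cases j <;> first | exact h2.elim | rfl | skip
        have h3 : _ = _ := h2
        rw [h3]
  have hQ : p.map toQ = q.map toQ := by
    clear hB
    induction hp with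
    | nil => rfl
    | @cons x y _ _ h _ ih =>
        simp only [List.map_cons, ih]
        congr 1
        obtain ⟨a, i⟩ := x
        obtain ⟨b, j⟩ := y
        obtain ⟨h1, h2⟩ := h
        simp only at h1
        subst h1
        cases i <;> cases j <;> first | exact h2.elim | rfl | skip
        · have h3 : _ = _ := h2
          rw [h3]
        · have h3 : _ = _ := h2.1
          rw [h3]
  have hA : EqL N (p.map toA) (q.map toA) := by
    clear hB hQ
    unfold EqL
    induction hp with
    | nil => rfl
    | @cons x y _ _ h _ ih =>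
        simp only [List.map_cons, ih]
        congr 1
        obtain ⟨a, i⟩ := x
        obtain ⟨b, j⟩ := y
        obtain ⟨h1, h2⟩ := h
        simp only at h1
        subst h1
        cases i <;> cases j <;> first | exact h2.elim | rfl | skip
        · have h3 : _ = _ := h2
          rw [h3]
        · rename_i w w'
          have h3 : rs N w = rs N w' := h2
          simp only [toA, mp, Option.map_some, Sum.map_inr, h3]
  have hv : ∀ x ∈ p.map toQ, ∀ v : VT m, x.2 = some (Sum.inr v) → v.1 < N := by
    clear hB hQ hA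
    induction hp with
    | nil => intro x hx; simp at hx
    | @cons x y _ _ h _ ih =>
        intro z hz v hv
        rw [List.map_cons, List.mem_cons] at hz
        rcases hz with rfl | hz
        · obtain ⟨a, i⟩ := x
          obtain ⟨b, j⟩ := y
          obtain ⟨h1, h2⟩ := h
          cases i <;> cases j <;> first | exact h2.elim | skip
          all_goals simp only [toQ, Option.some.injEq, Sum.inr.injEq, reduceCtorEq] at hv
          subst hv
          exact lt_of_le_of_lt h2.2 hN
        · exact ih z hz v hv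
  cases i <;> cases j <;> first | exact h.elim | rfl | skip
  · have h3 : _ = _ := h
    rw [h3]
    show apB _ _ = apB _ _
    rw [hB]
  · obtain ⟨h3, h4⟩ := h
    subst h3
    exact dec_congr (h4.trans (le_of_lt hN)) hA
  · rename_i w w'
    show w _ = w' _
    rw [← hQ]
    exact rs_apply h hv

theorem forall2_refl {k N : ℕ} {q : List (Arg m)}
    (h : ∀ x ∈ q, ∀ v, x.2 = .ar v → v.1 ≤ k) : List.Forall₂ (RA k N) q q := by
  induction q with
  | nil => exact .nil
  | cons x q ih =>
      exact .cons ⟨rfl, RI.refl (h x List.mem_cons_self)⟩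
        (ih fun y hy => h y (List.mem_cons_of_mem _ hy))

/-- two functions of paths which agree on lists with entries of shape `non, bo, qu` give the same
code -/
theorem ofA_ar {q : List (Term S × Option (BoT m ⊕ WT m))} :
    ∀ x ∈ q.map ofA, ∀ v : VT m, x.2 = .ar v → False := by
  intro x hx v hv
  obtain ⟨y, _, rfl⟩ := List.mem_map.1 hx
  obtain ⟨a, _ | t | w⟩ := y <;> simp [ofA] at hv

theorem ofB_ar {q : List (Term S × Option (BoT m))} :
    ∀ x ∈ q.map ofB, ∀ v : VT m, x.2 = .ar v → False := by
  intro x hx v hv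
  obtain ⟨y, _, rfl⟩ := List.mem_map.1 hx
  obtain ⟨a, _ | t⟩ := y <;> simp [ofB] at hv

theorem forall2_ofA {k N : ℕ} {l l' : List (Term S × Option (BoT m ⊕ WT m))} :
    EqL N l l' → List.Forall₂ (RA k N) (l.map ofA) (l'.map ofA) := by
  unfold EqL
  induction l generalizing l' with
  | nil =>
      intro h
      cases l' with
      | nil => exact .nil
      | cons _ _ => simp at h
  | cons a l ih =>
      intro h
      cases l' with
      | nil => simp at h
      | cons b l' =>
          simp only [List.map_cons, List.cons.injEq] at h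
          refine .cons ?_ (ih h.2)
          have h1 := h.1
          obtain ⟨a1, _ | t | t⟩ := a <;> obtain ⟨b1, _ | s | s⟩ := b <;>
            simp only [mp, Option.map_none, Option.map_some, Sum.map_inl, Sum.map_inr,
              Prod.mk.injEq, Option.some.injEq, Sum.inr.injEq, Sum.inl.injEq, id, reduceCtorEq,
              and_true, and_false] at h1
          · exact ⟨h1, trivial⟩
          · exact ⟨h1.1, h1.2⟩
          · exact ⟨h1.1, h1.2⟩

/-- **finite rank lemma** (raw) -/
theorem finite_rank (M : Term S) : ∀ k : ℕ, ∃ N : ℕ, ∀ (ρ ρ' : Env m) (p p' : List (Arg m)),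
    (∀ i, RA k N (ρ i) (ρ' i)) → List.Forall₂ (RA k N) p p' → (E m M ρ p).1 = (E m M ρ' p').1 := by
  induction M with
  | var i =>
      intro k
      refine ⟨k + 1, fun ρ ρ' p p' h hp => ?_⟩
      exact ap_congr (Nat.lt_succ_self k) (h i).2 hp
  | sort s => intro k; exact ⟨0, fun ρ ρ' p p' _ _ => rfl⟩
  | lam A M _ ih =>
      intro k
      obtain ⟨N, hN⟩ := ih k
      refine ⟨N, fun ρ ρ' p p' h hp => ?_⟩
      cases hp with
      | nil => rfl
      | cons hx hp =>
          rw [E_lam_cons, E_lam_cons]
          refine hN _ _ _ _ ?_ hp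
          intro i
          cases i with
          | zero => exact hx
          | succ i => exact h i
  | pi A B ihA ihB =>
      intro k
      obtain ⟨N1, h1⟩ := ihA k
      obtain ⟨N2, h2⟩ := ihB k
      refine ⟨max N1 N2, fun ρ ρ' p p' h hp => ?_⟩
      have ht : tm ρ = tm ρ' := funext fun i => (h i).1
      have hA : (E m A ρ []).1 = (E m A ρ' []).1 :=
        h1 _ _ _ _ (fun i => (h i).mono le_rfl (le_max_left _ _)) .nil
      have hB : ∀ (a : Term S) (j : Inf m), shp j = qsh m.P m.D0 m.D (sub (tm ρ') A) →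
          (E m B (ec (a, j) ρ) []).1 = (E m B (ec (a, j) ρ') []).1 := by
        intro a j hj
        refine h2 _ _ _ _ ?_ .nil
        intro i
        cases i with
        | zero =>
            refine ⟨rfl, RI.refl ?_⟩
            rintro v rfl
            exact absurd hj.symm (qsh_ne_ar _)
        | succ i => exact (h i).mono le_rfl (le_max_right _ _)
      have hR : RR A ρ = RR A ρ' := by unfold RR; rw [ht, hA]
      rw [E_pi, E_pi]
      show {v | _} = {v | _}
      ext v
      simp only [Set.mem_ofPred_eq, hR, ht]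
      refine and_congr Iff.rfl (forall_congr' fun w => forall_congr' fun hw =>
        forall_congr' fun j => forall_congr' fun hj => ?_)
      unfold RR
      rw [hB _ _ hj, tm_ec, tm_ec, ht]
  | app M N ihM ihN =>
      intro k
      obtain ⟨n1, h1⟩ := ihN k
      obtain ⟨n2, h2⟩ := ihM (max k n1)
      obtain ⟨n3, h3⟩ := ihN (max k n2)
      refine ⟨max (max n1 n2) n3, fun ρ ρ' p p' h hp => ?_⟩
      have ht : tm ρ = tm ρ' := funext fun i => (h i).1
      have l1 : n1 ≤ max (max n1 n2) n3 := (le_max_left _ _).trans (le_max_left _ _)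
      have l2 : n2 ≤ max (max n1 n2) n3 := (le_max_right _ _).trans (le_max_left _ _)
      have l3 : n3 ≤ max (max n1 n2) n3 := le_max_right _ _
      rw [E_app, E_app, ht]
      refine h2 _ _ _ _ (fun i => (h i).mono (le_max_left _ _) l2) (.cons ⟨rfl, ?_⟩ ?_)
      · generalize kd m.P m.D0 (sub (tm ρ') M) = K
        unfold info pack
        generalize xsh m.P m.D0 m.D K = s
        cases s with
        | non => trivial
        | dfl => trivial
        | bo T =>
            show (⟨T, _⟩ : BoT m) = ⟨T, _⟩
            congr 2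
            funext l
            exact clq_congr rfl fun _ => h1 _ _ _ _ (fun i => (h i).mono le_rfl l1)
                (forall2_refl fun x hx v hv => (ofB_ar x hx v hv).elim)
        | ar =>
            have e : (fun l : List (Term S × Option (BoT m ⊕ WT m)) =>
                clq K (fun q => (E m N ρ q).1) (l.map ofA)) =
                fun l => clq K (fun q => (E m N ρ' q).1) (l.map ofA) := by
              funext l
              exact clq_congr rfl fun _ => h1 _ _ _ _ (fun i => (h i).mono le_rfl l1)
                  (forall2_refl fun x hx v hv => (ofA_ar x hx v hv).elim)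
            show _ = _ ∧ _ ≤ _
            refine ⟨by rw [e], ?_⟩
            refine (lev_enc (N := n1) ?_).trans (le_max_right _ _)
            intro l l' hl
            have hf := forall2_ofA (m := m) (k := k) hl
            refine clq_congr (map_sp hf) fun _ => h1 _ _ _ _ (fun i => ?_) hf
            refine ⟨rfl, RI.refl ?_⟩
            intro v hv
            have := (h i).2
            rw [hv] at this
            cases hj : (ρ' i).2 with
            | ar v' => rw [hj] at this; exact this.2
            | _ => rw [hj] at this; exact this.elim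
        | qu =>
            show rs n2 _ = rs n2 _
            funext l
            refine clq_congr (X := fun q => (E m N ρ q).1) (Y := fun q => (E m N ρ' q).1) rfl
              fun _ => h3 _ _ _ _ (fun i => (h i).mono (le_max_left _ _) l3) (forall2_refl ?_)
            intro x hx v hv
            obtain ⟨y, hy, rfl⟩ := List.mem_map.1 hx
            obtain ⟨z, _, rfl⟩ := List.mem_map.1 hy
            obtain ⟨a, _ | t | z⟩ := z
            · simp [ofQ, mp] at hv
            · simp [ofQ, mp] at hv
            · simp only [ofQ, mp, Option.map_some, Sum.map_inr, Inf.ar.injEq] at hv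
              subst hv
              exact (le_of_lt (emb_lt _ z)).trans (le_max_right _ _)
      · exact hp.imp fun _ _ hx => hx.mono (le_max_left _ _) l2

/-! ### faithfulness of infos -/

/-- bounded environments -/
def Bd (ρ : Env m) : Prop := ∃ k : ℕ, ∀ i v, (ρ i).2 = .ar v → v.1 ≤ k

theorem Bd.cons {ρ : Env m} (h : Bd ρ) (x : Arg m) : Bd (ec x ρ) := by
  obtain ⟨k, hk⟩ := h
  obtain ⟨a, j⟩ := x
  cases j with
  | ar v =>
      refine ⟨max k v.1, fun i v' hv => ?_⟩
      cases i with
      | zero =>
          simp only [ec_zero, Inf.ar.injEq] at hv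
          subst hv
          exact le_max_right _ _
      | succ i => exact (hk i v' hv).trans (le_max_left _ _)
  | _ =>
      refine ⟨k, fun i v' hv => ?_⟩
      cases i with
      | zero => simp at hv
      | succ i => exact hk i v' hv

/-- **faithfulness**: the info of `N` at a live closed type computes the value of `N` on valid
paths -/
theorem ap_info {K N : Term S} {ρ : Env m} (hρ : Bd ρ) {q : List (Arg m)}
    (hl : Lf m.P m.D0 m.D K (q.map sp)) (hK : Live m K) :
    ap (info K N ρ) q = (E m N ρ q).1 := by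
  have hrel := hl.rel
  unfold info pack
  have key : xsh m.P m.D0 m.D K = xsh m.P m.D0 m.D K := rfl
  by_cases h1 : sgn m.P m.D0 m.D true K
  · by_cases h2 : sgn m.P m.D0 m.D false K
    · -- both signs
      have hs : xsh m.P m.D0 m.D K = .bo (nfr K) := by simp only [xsh, if_pos hrel, if_pos h1, if_pos h2]
      rw [hs]
      have hb : Bth m.P m.D0 m.D K := ⟨hrel, h1, h2⟩
      have hsh := hl.shapes_both m.w.wf hb
      have hmap : (q.map toB).map ofB = q := by
        rw [List.map_map]
        conv_rhs => rw [← List.map_id q]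
        refine List.map_congr_left fun x hx => ?_
        refine ofB_toB ?_
        rcases hsh (sp x) (List.mem_map_of_mem hx) with h | ⟨A, h, _⟩
        · exact .inl h
        · exact .inr ⟨_, h⟩
      show apB _ (q.map toB) = _
      rw [apB_mkB]
      · rw [hmap, clq_of hl]
      · intro x hx b hb'
        obtain ⟨y, hy, rfl⟩ := List.mem_map.1 hx
        have := hsh (sp y) (List.mem_map_of_mem hy)
        obtain ⟨a, j⟩ := y
        cases j with
        | bo t =>
            simp only [toB, Option.some.injEq] at hb'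
            subst hb'
            rcases this with h | ⟨A, h, hA, hd⟩
            · simp [sp, shp] at h
            · simp only [sp, shp, Shp.bo.injEq] at h
              rw [h]
              exact blt_of hb hA hd
        | _ => simp [toB] at hb'
    · have hs : xsh m.P m.D0 m.D K = .qu := by simp only [xsh, if_pos hrel, if_pos h1, if_neg h2]
      rw [hs]
      have hsh := hl.shapes m.w.wf h1
      have hmap : (q.map toQ).map ofQ = q := by
        rw [List.map_map]
        conv_rhs => rw [← List.map_id q]
        refine List.map_congr_left fun x hx => ?_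
        obtain ⟨g1, g2, _⟩ := hsh (sp x) (List.mem_map_of_mem hx)
        exact ofQ_toQ g1 (g2 rfl)
      show clq K (fun q => (E m N ρ q).1) ((q.map toQ).map ofQ) = _
      rw [hmap, clq_of hl]
  · have h2 : sgn m.P m.D0 m.D false K := hK.resolve_left h1
    have hs : xsh m.P m.D0 m.D K = .ar := by simp only [xsh, if_pos hrel, if_neg h1, if_pos h2]
    rw [hs]
    have hsh := hl.shapes m.w.wf h2
    have hmap : (q.map toA).map ofA = q := by
      rw [List.map_map]
      conv_rhs => rw [← List.map_id q]
      refine List.map_congr_left fun x hx => ?_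
      obtain ⟨g1, _, g2⟩ := hsh (sp x) (List.mem_map_of_mem hx)
      exact ofA_toA g1 (g2 rfl)
    obtain ⟨k, hk⟩ := hρ
    obtain ⟨N1, hN1⟩ := finite_rank (m := m) N k
    show dec (enc _) (q.map toA) = _
    rw [dec_enc (N := N1)]
    · rw [hmap, clq_of hl]
    · intro l l' hll
      have hf := forall2_ofA (m := m) (k := k) hll
      exact clq_congr (map_sp hf) fun _ =>
        hN1 _ _ _ _ (fun i => ⟨rfl, RI.refl fun v hv => hk i v hv⟩) hf

end Crest.Agent.R298.Ev658
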