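import Crest.Agent.R298.Pk_891

/-!
R298 (S0452), helper891, insurance for block (T), file 3: evaluation.
-/

set_option autoImplicit false

namespace Crest.Agent.R298.T891

open Crest.LogicCS.PTS Crest.LogicCS.PTS.Term Relation
open Crest.Agent.R298.Sub452 Crest.Agent.R298.Par452
open Crest.Agent.R298.TyF452 Crest.Agent.R298.Mem360
open Crest.Agent.R298.Uniq452 (FS funiq Neu)
open Crest.Agent.R298.Dom201 (X Pt Neg Val Args Supp AgA AgV AgN ArgLt PtLt codeF app_codeF
  app_supp exists_bound exists_bound_of_factor supp_const_default)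
open Crest.Agent.R298.Fl113 (RelS)

variable {S : Type} {P : Spec S} {W : ℕ → Term S} {D : Set S}

/-! ### normal forms, domains -/

open Classical in
/-- the normal form (a constant if there is none) -/
noncomputable def nfc (M : Term S) : Term S :=
  if h : WN M then Classical.choose h else var 0

theorem nfc_red {M : Term S} (h : WN M) : Red M (nfc M) := by
  unfold nfc
  rw [dif_pos h]
  exact (Classical.choose_spec h).1

theorem nfc_normal {M : Term S} (h : WN M) : Normal (nfc M) := by
  unfold nfc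
  rw [dif_pos h]
  exact (Classical.choose_spec h).2

theorem wn_conv {M M' : Term S} (e : BetaEq M M') (h : WN M) : WN M' := by
  obtain ⟨N, r, n⟩ := h
  exact ⟨N, red_of_eq_normal (BetaEq.trans (BetaEq.symm e) (Red.eq r)) n, n⟩

theorem nfc_conv {M M' : Term S} (e : BetaEq M M') : nfc M = nfc M' := by
  by_cases h : WN M
  · have h' := wn_conv e h
    exact normal_unique (BetaEq.trans (BetaEq.symm (nfc_red h).eq)
      (BetaEq.trans e (nfc_red h').eq)) (nfc_normal h) (nfc_normal h')
  · have h' : ¬ WN M' := fun h' => h (wn_conv (BetaEq.symm e) h')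
    unfold nfc
    rw [dif_neg h, dif_neg h']

theorem nfc_eq {M : Term S} (h : WN M) : BetaEq M (nfc M) := (nfc_red h).eq

theorem nfc_of_normal {M : Term S} (h : Normal M) : nfc M = M :=
  normal_red h (nfc_red ⟨M, .refl, h⟩)

open Classical in
/-- the domain of a closed function -/
noncomputable def dmm (P : Spec S) (W : ℕ → Term S) (F : Term S) : Term S :=
  if h : ∃ A B, TyF P W F (pi A B) then Classical.choose h else var 0

theorem dmm_eq (w : WfF P W) {F F' A B : Term S} (e : BetaEq F F') (h : TyF P W F' (pi A B))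
    (h1 : ∃ A B, TyF P W F (pi A B)) : BetaEq (dmm P W F) A := by
  unfold dmm
  rw [dif_pos h1]
  obtain ⟨B', hB⟩ := Classical.choose_spec h1
  obtain ⟨K, r1, r2⟩ := betaEq_iff.1 e
  exact (FS.pi_inv (funiq (FSR w hB r1) (FSR w h r2))).1

theorem dmm_typed (w : WfF P W) {F A B : Term S} (h : TyF P W F (pi A B)) :
    BetaEq (dmm P W F) A := dmm_eq w (.refl _) h ⟨_, _, h⟩

theorem dmm_conv (w : WfF P W) {F F' A B A' B' : Term S} (e : BetaEq F F')
    (h : TyF P W F (pi A B)) (h' : TyF P W F' (pi A' B')) :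
    BetaEq (dmm P W F) (dmm P W F') :=
  BetaEq.trans (dmm_eq w e h' ⟨_, _, h⟩) (BetaEq.symm (dmm_typed w h'))

/-! ### environments -/

/-- environments -/
abbrev Env (S : Type) : Type 1 := ℕ → Term S × Val (Term S) (CS S)

/-- extension -/
def econs (e : Term S × Val (Term S) (CS S)) (ρ : Env S) : Env S
  | 0 => e
  | k + 1 => ρ k

@[simp] theorem econs_zero (e : Term S × Val (Term S) (CS S)) (ρ : Env S) :
    econs e ρ 0 = e := rfl
@[simp] theorem econs_succ (e : Term S × Val (Term S) (CS S)) (ρ : Env S) (k : ℕ) :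
    econs e ρ (k + 1) = ρ k := rfl

/-- the term part -/
def gs (ρ : Env S) : ℕ → Term S := fun k => (ρ k).1

/-- closed instance -/
def cl (ρ : Env S) (M : Term S) : Term S := sub (gs ρ) M

theorem gs_econs (e : Term S × Val (Term S) (CS S)) (ρ : Env S) :
    gs (econs e ρ) = scons e.1 (gs ρ) := by
  funext k; cases k <;> rfl

theorem cl_pi (ρ : Env S) (A B : Term S) : cl ρ (pi A B) = pi (cl ρ A) (sub (ups (gs ρ)) B) := rfl

theorem cl_app (ρ : Env S) (A B : Term S) : cl ρ (app A B) = app (cl ρ A) (cl ρ B) := rfl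

theorem cl_lam (ρ : Env S) (A B : Term S) : cl ρ (lam A B) = lam (cl ρ A) (sub (ups (gs ρ)) B) :=
  rfl

theorem cl_sort (ρ : Env S) (s : S) : cl ρ (sort s) = sort s := rfl

theorem cl_econs (e : Term S × Val (Term S) (CS S)) (ρ : Env S) (B : Term S) :
    cl (econs e ρ) B = inst e.1 (sub (ups (gs ρ)) B) := by
  unfold cl
  rw [gs_econs, sub_scons]

theorem cl_inst (ρ : Env S) (Q B : Term S) :
    cl ρ (inst Q B) = inst (cl ρ Q) (sub (ups (gs ρ)) B) := sub_inst _ _ _

theorem cl_ren (ρ : Env S) (r : ℕ → ℕ) (M : Term S) :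
    cl ρ (ren r M) = cl (fun k => ρ (r k)) M := by
  unfold cl
  rw [sub_ren]
  rfl

theorem cl_wk (e : Term S × Val (Term S) (CS S)) (ρ : Env S) (M : Term S) :
    cl (econs e ρ) (wk M) = cl ρ M := cl_ren _ _ _

theorem cl_conv {ρ : Env S} {A A' : Term S} (e : BetaEq A A') : BetaEq (cl ρ A) (cl ρ A') :=
  BetaEq.sub e _

/-! ### evaluation -/

/-- **evaluation of raw terms** -/
noncomputable def E (P : Spec S) (W : ℕ → Term S) (D : Set S)
    (cst : Term S → Set (MT S) → Set (MT S)) : Term S → Env S → Args (Term S) (CS S) → CS S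
  | .var k => fun ρ l => evV (ρ k).2 l
  | .sort _ => fun _ _ => (Set.univ : Set (MT S))
  | .app F Q => fun ρ l => E P W D cst F ρ
      ((nfc (cl ρ Q), pack P W D (dmm P W (cl ρ F)) (E P W D cst Q ρ)) :: l)
  | .lam _ M => fun ρ l => match l with
      | [] => default
      | e :: l => E P W D cst M (econs e ρ) l
  | .pi A B => fun ρ _ => ({v | ∀ w ∈ cst (cl ρ A) (E P W D cst A ρ []),
      ∀ j, VM P W D (cl ρ A) j → MT.app v w ∈
        cst (cl (econs (nfc (MT.er w), j) ρ) B)
          (E P W D cst B (econs (nfc (MT.er w), j) ρ) [])} : Set (MT S))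

section
variable {cst : Term S → Set (MT S) → Set (MT S)}

theorem E_var (k : ℕ) (ρ : Env S) (l : Args (Term S) (CS S)) :
    E P W D cst (var k) ρ l = evV (ρ k).2 l := rfl

theorem E_app (F Q : Term S) (ρ : Env S) (l : Args (Term S) (CS S)) :
    E P W D cst (app F Q) ρ l = E P W D cst F ρ
      ((nfc (cl ρ Q), pack P W D (dmm P W (cl ρ F)) (E P W D cst Q ρ)) :: l) := rfl

theorem E_lam (A M : Term S) (ρ : Env S) (e : Term S × Val (Term S) (CS S))
    (l : Args (Term S) (CS S)) :
    E P W D cst (lam A M) ρ (e :: l) = E P W D cst M (econs e ρ) l := rfl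

theorem E_pi (A B : Term S) (ρ : Env S) (l : Args (Term S) (CS S)) :
    E P W D cst (pi A B) ρ l = ({v | ∀ w ∈ cst (cl ρ A) (E P W D cst A ρ []),
      ∀ j, VM P W D (cl ρ A) j → MT.app v w ∈
        cst (cl (econs (nfc (MT.er w), j) ρ) B)
          (E P W D cst B (econs (nfc (MT.er w), j) ρ) [])} : Set (MT S)) := rfl

theorem econs_up (e : Term S × Val (Term S) (CS S)) (ρ : Env S) (r : ℕ → ℕ) :
    (fun k => econs e ρ (up r k)) = econs e (fun k => ρ (r k)) := by
  funext k; cases k <;> rfl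

theorem E_ren (M : Term S) : ∀ (r : ℕ → ℕ) (ρ : Env S) (l : Args (Term S) (CS S)),
    E P W D cst (ren r M) ρ l = E P W D cst M (fun k => ρ (r k)) l := by
  induction M with
  | var k => intro r ρ l; rfl
  | sort s => intro r ρ l; rfl
  | app F Q ihF ihQ =>
      intro r ρ l
      simp only [ren_app, E_app, ihF, cl_ren]
      have : E P W D cst (ren r Q) ρ = E P W D cst Q (fun k => ρ (r k)) := funext (ihQ r ρ)
      rw [this]
  | lam A M _ ih =>
      intro r ρ l
      cases l with
      | nil => rfl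
      | cons e l =>
          simp only [ren_lam, E_lam, ih, econs_up]
  | pi A B ihA ihB =>
      intro r ρ l
      simp only [ren_pi, E_pi, ihA, ihB, cl_ren, econs_up] <;> rfl

theorem E_wk (M : Term S) (e : Term S × Val (Term S) (CS S)) (ρ : Env S)
    (l : Args (Term S) (CS S)) : E P W D cst (wk M) (econs e ρ) l = E P W D cst M ρ l :=
  E_ren M _ _ _

end

/-! ### admissible environments -/

/-- `ρ` is an environment for the open context `Γ` -/
structure EnvOk (P : Spec S) (W : ℕ → Term S) (D : Set S) (Γ : ℕ → Term S) (ρ : Env S) :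
    Prop where
  sub : SubF P (gs ρ) Γ W
  nrm : ∀ k, Normal (ρ k).1
  vm : ∀ k, VM P W D (cl ρ (Γ k)) (ρ k).2

theorem EnvOk.typed {Γ : ℕ → Term S} {ρ : Env S} (h : EnvOk P W D Γ ρ) {M A : Term S}
    (hM : TyF P Γ M A) : TyF P W (cl ρ M) (cl ρ A) := tyf_sub hM h.sub

theorem EnvOk.cons {Γ : ℕ → Term S} {ρ : Env S} (h : EnvOk P W D Γ ρ) {A : Term S} {s : S}
    (hA : TyF P Γ A (sort s)) {a : Term S} {v : Val (Term S) (CS S)}
    (ha : In P W a (cl ρ A)) (hn : Normal a) (hv : VM P W D (cl ρ A) v) :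
    EnvOk P W D (fcons A Γ) (econs (a, v) ρ) := by
  have hA' : TyF P W (cl ρ A) (sort s) := h.typed hA
  refine ⟨?_, ?_, ?_⟩
  · rw [gs_econs]
    exact h.sub.scons (ha.typed hA')
  · intro k
    cases k with
    | zero => exact hn
    | succ k => exact h.nrm k
  · intro k
    cases k with
    | zero =>
        show VM P W D (cl _ (wk A)) v
        rw [cl_wk]
        exact hv
    | succ k =>
        show VM P W D (cl _ (wk (Γ k))) (ρ k).2
        rw [cl_wk]
        exact h.vm k

/-- instances of codomains along an environment -/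
theorem cl_cod (ρ : Env S) (a : Term S) (v : Val (Term S) (CS S)) (B : Term S) :
    inst a (sub (ups (gs ρ)) B) = cl (econs (a, v) ρ) B := (cl_econs (a, v) ρ B).symm

theorem VL_cons_cl {ρ : Env S} {A B a : Term S} {v : Val (Term S) (CS S)}
    {l : Args (Term S) (CS S)} :
    VL P W D ((a, v) :: l) (cl ρ (pi A B)) ↔
      In P W a (cl ρ A) ∧ Normal a ∧ VM P W D (cl ρ A) v ∧
        VL P W D l (cl (econs (a, v) ρ) B) := by
  rw [cl_pi, VL_cons_pi, cl_cod ρ a v]

/-- valid list of an application -/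
theorem VL_app (w : WfF P W) (hwn : ∀ {M A : Term S}, TyF P W M A → WN M) {Γ : ℕ → Term S}
    {ρ : Env S} (h : EnvOk P W D Γ ρ) {F Q A B : Term S} (hF : TyF P Γ F (pi A B))
    (hQ : TyF P Γ Q A) (G : Args (Term S) (CS S) → CS S) {l : Args (Term S) (CS S)}
    (hl : VL P W D l (cl ρ (inst Q B))) :
    VL P W D ((nfc (cl ρ Q), pack P W D (dmm P W (cl ρ F)) G) :: l) (cl ρ (pi A B)) := by
  have hQ' := h.typed hQ
  have hF' := h.typed hF
  have hwQ : WN (cl ρ Q) := hwn hQ'
  rw [VL_cons_cl]
  refine ⟨In.of (FSR w hQ' (nfc_red hwQ)), nfc_normal hwQ, ?_, ?_⟩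
  · have e0 : BetaEq (dmm P W (cl ρ F)) (cl ρ A) := dmm_typed w hF'
    exact (VM_conv e0 _).1 (pack_VM _ _)
  · refine VL.conv hl ?_
    rw [cl_inst, cl_econs]
    exact BetaEq.inst (nfc_eq hwQ) (.refl _)

end Crest.Agent.R298.T891
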