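import Crest.Agent.R298.Fat_107

/-!
R298 (S0452), helper107: neutral terms (variable head): their types are unique up to conversion,
and if a neutral term with head `x : A`, `A : a'`, has type the sort `u`, then `Lf u a'`.
-/

set_option autoImplicit false

namespace Crest.Agent.R298.Ext107

open Crest.LogicCS.PTS Crest.LogicCS.PTS.Term Relation
open Crest.Agent.R298.Sub452 Crest.Agent.R298.Par452 Crest.Agent.R298.Ty452
open Crest.Agent.R298.Fat107

universe u
variable {S : Type u} {P : Spec S} {D : Set S}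

/-- terms with head the variable `i` -/
inductive Ne (i : ℕ) : Term S → Prop
  | var : Ne i (Term.var i)
  | app {M : Term S} (N : Term S) : Ne i M → Ne i (Term.app M N)

theorem Ne.beta {i : ℕ} {M N : Term S} (h : Ne i M) (hb : Beta M N) : Ne i N := by
  induction h generalizing N with
  | var => cases hb
  | @app M N' h ih =>
      cases hb with
      | redex A M' _ => cases h
      | appL _ hb => exact .app _ (ih hb)
      | appR _ hb => exact .app _ h

theorem Ne.red {i : ℕ} {M N : Term S} (h : Ne i M) (hb : Red M N) : Ne i N := by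
  induction hb with
  | refl => exact h
  | tail _ hb ih => exact ih.beta hb

theorem Ne.sub {i m : ℕ} {M : Term S} (h : Ne i M) {σ : ℕ → Term S} (hσ : σ i = Term.var m) :
    Ne m (sub σ M) := by
  induction h with
  | var => simp only [sub_var, hσ]; exact .var
  | app N _ ih => exact .app _ ih

/-- types of neutral terms are unique up to conversion -/
theorem Ne.unique {i : ℕ} {M : Term S} (h : Ne i M) {Γ : List (Term S)} {C C' : Term S}
    (hC : Typed P Γ M C) (hC' : Typed P Γ M C') : BetaEq C C' := by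
  induction h generalizing C C' with
  | var =>
      obtain ⟨A, hA, e⟩ := gen_var hC
      obtain ⟨A', hA', e'⟩ := gen_var hC'
      rw [Lk.unique hA' hA] at e'
      exact BetaEq.trans e (BetaEq.symm e')
  | app N _ ih =>
      obtain ⟨A, B, h1, h2, e⟩ := gen_app hC
      obtain ⟨A', B', h1', h2', e'⟩ := gen_app hC'
      have := pi_inj (ih h1 h1')
      exact BetaEq.trans e (BetaEq.trans (BetaEq.sub this.2 _) (BetaEq.symm e'))

theorem Ne.sort_unique {i : ℕ} {M : Term S} (h : Ne i M) {Γ : List (Term S)} {c c' : S}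
    (hC : Typed P Γ M (sort c)) (hC' : Typed P Γ M (sort c')) : c = c' :=
  sort_inj (h.unique hC hC')

/-- every type (up to conversion) of sort `a'` which can play the role of `C` has `Lf u a'` -/
def Qt (P : Spec S) (Γ : List (Term S)) (u : S) (C : Term S) : Prop :=
  ∀ C' : Term S, BetaEq C C' → ∀ a' : S, Typed P Γ C' (sort a') → Lf P u a'

theorem Qt.sort (Γ : List (Term S)) (u : S) : Qt P Γ u (Term.sort u) := by
  intro C' e a' h
  have h1 := SR h (red_of_eq_sort (BetaEq.symm e))
  obtain ⟨s', ha, hb⟩ := gen_sort h1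
  have := sort_inj hb
  subst this
  exact .ax ha

theorem Qt.eq {Γ : List (Term S)} {u : S} {C C' : Term S} (h : Qt P Γ u C) (e : BetaEq C C') :
    Qt P Γ u C' :=
  fun C'' e' => h C'' (BetaEq.trans e e')

theorem Qt.pi {Γ : List (Term S)} {u : S} {A B N : Term S} (h : Qt P Γ u (inst N B))
    (hN : Typed P Γ N A) : Qt P Γ u (Term.pi A B) := by
  intro C' e a' hC
  obtain ⟨A1, B1, r, -, -⟩ := red_of_eq_pi (BetaEq.symm e)
  have e2 := pi_inj (BetaEq.trans e r.eq)
  have h1 := SR hC r
  obtain ⟨a, b, c, hA, hB, hr, hcc⟩ := gen_pi h1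
  have := sort_inj hcc
  subst this
  have hN' : Typed P Γ N A1 := .conv hN hA e2.1
  have h2 := typed_inst hB hN'
  exact .step hr ⟨_, _, hA⟩ (h _ (BetaEq.sub e2.2 _) _ h2)

theorem Ne.qt {i : ℕ} {M : Term S} (h : Ne i M) {Γ : List (Term S)} {u : S} {A : Term S}
    (hA : Lk Γ i A) {C : Term S} (hC : Typed P Γ M C) (hq : Qt P Γ u C) : Qt P Γ u A := by
  induction h generalizing C with
  | var =>
      obtain ⟨A', hA', e⟩ := gen_var hC
      rw [Lk.unique hA' hA] at e
      exact hq.eq e
  | app N _ ih =>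
      obtain ⟨A1, B1, h1, h2, e⟩ := gen_app hC
      exact ih h1 (Qt.pi (hq.eq e) h2)

/-- the leaf sort of the type of the head -/
theorem Ne.lf {i : ℕ} {M : Term S} (h : Ne i M) {Γ : List (Term S)} {u : S} {A : Term S}
    (hA : Lk Γ i A) (hM : Typed P Γ M (sort u)) {a' : S} (hA' : Typed P Γ A (sort a')) :
    Lf P u a' :=
  h.qt hA hM (Qt.sort Γ u) A (.refl A) a' hA'

theorem Ne.lk {i : ℕ} {M : Term S} (h : Ne i M) {Γ : List (Term S)} {C : Term S}
    (hM : Typed P Γ M C) : ∃ A, Lk Γ i A := by
  induction h generalizing C with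
  | var =>
      obtain ⟨A', hA', e⟩ := gen_var hM
      exact ⟨A', hA'⟩
  | app N _ ih =>
      obtain ⟨A1, B1, h1, h2, e⟩ := gen_app hM
      exact ih h1

/-! ### shapes of normal typed terms -/

theorem normal_appL {M N : Term S} (h : Normal (app M N)) : Normal M :=
  fun _ hb => h _ (.appL _ hb)
theorem normal_piA {M N : Term S} (h : Normal (pi M N)) : Normal M :=
  fun _ hb => h _ (.piA _ hb)
theorem normal_piB {M N : Term S} (h : Normal (pi M N)) : Normal N :=
  fun _ hb => h _ (.piB _ hb)

theorem app_ne {M N : Term S} (hn : Normal (app M N)) {Γ : List (Term S)} {C : Term S}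
    (h : Typed P Γ (app M N) C) : ∃ i, Ne i (app M N) := by
  induction M generalizing N C with
  | var i => exact ⟨i, .app _ .var⟩
  | sort s =>
      obtain ⟨A, B, h1, -, -⟩ := gen_app h
      obtain ⟨s', -, e⟩ := gen_sort h1
      exact (not_sort_pi (BetaEq.symm e)).elim
  | lam A M _ _ => exact (hn _ (.redex _ _ _)).elim
  | pi A B _ _ =>
      obtain ⟨A', B', h1, -, -⟩ := gen_app h
      obtain ⟨_, _, _, -, -, -, e⟩ := gen_pi h1
      exact (not_sort_pi (BetaEq.symm e)).elim
  | app M1 M2 ih _ =>
      obtain ⟨A', B', h1, -, -⟩ := gen_app h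
      obtain ⟨i, hi⟩ := ih (normal_appL hn) h1
      exact ⟨i, .app _ hi⟩

/-- a normal type is a sort, a product or neutral -/
theorem type_shape {T : Term S} (hn : Normal T) {Γ : List (Term S)} {c : S}
    (h : Typed P Γ T (sort c)) :
    (∃ s, T = sort s) ∨ (∃ A B, T = pi A B) ∨ ∃ i, Ne i T := by
  cases T with
  | var i => exact .inr (.inr ⟨i, .var⟩)
  | sort s => exact .inl ⟨s, rfl⟩
  | lam A M =>
      obtain ⟨B, s, -, -, e⟩ := gen_lam h
      exact (not_sort_pi e).elim
  | pi A B => exact .inr (.inl ⟨A, B, rfl⟩)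
  | app M N => exact .inr (.inr (app_ne hn h))

end Crest.Agent.R298.Ext107
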