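import Crest.Agent.R298.Ext1_107

/-!
R298 (S0452), helper107: an infinite chain of relevant closed types passes a head variable bound
by a product of the chain: the first reset.
-/

set_option autoImplicit false

namespace Crest.Agent.R298.Ext107

open Crest.LogicCS.PTS Crest.LogicCS.PTS.Term Relation
open Crest.Agent.R298.Sub452 Crest.Agent.R298.Par452 Crest.Agent.R298.Ty452
open Crest.Agent.R298.Fat107

universe u
variable {S : Type u} {P : Spec S} {D : Set S}

/-- parity of the number of domain steps among the first `n` steps (`true` = even) -/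
def par (e : ℕ → Bool) : ℕ → Bool
  | 0 => true
  | n + 1 => (e n == par e n)

/-- size of a raw term -/
def sz : Term S → ℕ
  | var _ => 1
  | sort _ => 1
  | app M N => sz M + sz N + 1
  | lam M N => sz M + sz N + 1
  | pi M N => sz M + sz N + 1

/-- what is known about the head binder of a reset, relative to the start sort `c0` -/
def Bd (P : Spec S) (D : Set S) (cn c0 a' : S) : Prop :=
  ∃ b c : S, P.rule a' b c ∧ (∃ e, Op P D e cn b) ∧ (∃ e, Op P D e c c0)

/-- the state of the walk through the tree of the start type -/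
structure Sta (P : Spec S) (D : Set S) (X : ℕ → Pt S) (e : ℕ → Bool) (n : ℕ)
    (Θ : List (Term S)) (B : Term S) (σ : ℕ → Term S) : Prop where
  nf : Normal B
  ok : SubOk P σ Θ (X n).1
  wf : Wf P (X n).1
  red : Red (sub σ B) (X n).2
  rd : ∀ c0 : S, Typed P (X 0).1 (X 0).2 (sort c0) → ∃ cn : S, Typed P Θ B (sort cn) ∧
    Op P D (par e n) cn c0 ∧ ((∃ j < n, e j = false) → OpD P D cn c0) ∧
    ∀ i A, Lk Θ i A → (∃ m, σ i = var m) ∨
      (∃ a', Typed P Θ A (sort a') ∧ Bd P D cn c0 a')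
  ty : ∃ c0 : S, Typed P (X 0).1 (X 0).2 (sort c0)

theorem Bd.step {cn c0 a' cn' : S} (h : Bd P D cn c0 a') {e : Bool} (h' : Op P D e cn' cn) :
    Bd P D cn' c0 a' := by
  obtain ⟨b, c, hr, ⟨e1, h1⟩, h2⟩ := h
  exact ⟨b, c, hr, ⟨_, h'.comp h1⟩, h2⟩

theorem sta_zero {X : ℕ → Pt S} {e : ℕ → Bool} (hnf : Normal (X 0).2)
    (hty : ∃ c0 : S, Typed P (X 0).1 (X 0).2 (sort c0)) :
    Sta P D X e 0 (X 0).1 (X 0).2 var := by
  obtain ⟨c, hc⟩ := hty
  refine ⟨hnf, SubOk.var (twf hc), twf hc, by rw [sub_id], ?_, ⟨c, hc⟩⟩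
  intro c0 h0
  refine ⟨c0, h0, .nil c0, fun ⟨j, hj, _⟩ => absurd hj (Nat.not_lt_zero j), ?_⟩
  intro i A _
  exact .inl ⟨i, rfl⟩

theorem SubOk.ren' {σ : ℕ → Term S} {Θ Γ Δ : List (Term S)} (h : SubOk P σ Θ Γ)
    {ρ : ℕ → ℕ} (hρ : RenOk ρ Γ Δ) (hw : Wf P Δ) : SubOk P (fun i => ren ρ (σ i)) Θ Δ := by
  intro i A hl
  have := typed_ren (h i A hl) hw hρ
  rwa [ren_sub] at this

theorem sta_dom {X : ℕ → Pt S} {e : ℕ → Bool} {n : ℕ} {Θ : List (Term S)} {A1 B1 : Term S}
    {σ : ℕ → Term S} (h : Sta P D X e n Θ (pi A1 B1) σ) (hst : St P (e n) (X n) (X (n + 1)))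
    (hrl : Rl P D (X n)) (he : e n = false) :
    ∃ σ', Sta P D X e (n + 1) Θ A1 σ' := by
  obtain ⟨ρ, hρ, hw, A', B', hX, hs⟩ := hst
  have hs' : (X (n + 1)).2 = ren ρ A' := by
    rcases hs with ⟨-, h⟩ | ⟨h, -⟩
    · exact h
    · rw [he] at h; cases h
  obtain ⟨A2, B2, e1, r1, r2⟩ := red_pi h.red
  rw [hX] at e1
  injection e1 with e1 e2
  subst e1; subst e2
  refine ⟨fun i => ren ρ (σ i), normal_piA h.nf, SubOk.ren' h.ok hρ hw, hw, ?_, ?_, h.ty⟩
  · rw [hs', ← ren_sub]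
    exact Red.ren r1 ρ
  · intro c0 h0
    obtain ⟨cn, t, o, od, v⟩ := h.rd c0 h0
    obtain ⟨a, b, c, hA, hB, hr, hcc⟩ := gen_pi t
    have := sort_inj hcc
    subst this
    -- relevance of the codomain
    have hA' : Typed P (X n).1 (sub σ A1) (sort a) := typed_sub hA h.wf h.ok
    have hB' : Typed P (sub σ A1 :: (X n).1) (sub (ups σ) B1) (sort b) :=
      typed_sub hB (.cons h.wf hA') (h.ok.ups hA')
    have hB'' : Typed P (A' :: (X n).1) B' (sort b) :=
      ctx_conv (SR hB' r2) (SR hA' r1) r1.eq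
    have hrl' : Rl P D ((X n).1, pi A' B') := by rw [← hX]; exact hrl
    obtain ⟨s, hs, hl⟩ := hrl'.lf_cod hB''
    have one : Op P D false a cn := .one_dom hr hs hl
    refine ⟨a, hA, ?_, ?_, ?_⟩
    · have := one.comp o
      show Op P D (e n == par e n) a c0
      rw [he]; exact this
    · intro _
      exact ⟨a, b, cn, s, true, _, .nil a, hr, hs, hl, o⟩
    · intro i A hl
      rcases v i A hl with ⟨m, hm⟩ | ⟨a', h1, h2⟩
      · exact .inl ⟨ρ m, by simp only [hm, ren_var]⟩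
      · exact .inr ⟨a', h1, h2.step one⟩

theorem sta_cod {X : ℕ → Pt S} {e : ℕ → Bool} {n : ℕ} {Θ : List (Term S)} {A1 B1 : Term S}
    {σ : ℕ → Term S} (h : Sta P D X e n Θ (pi A1 B1) σ) (hst : St P (e n) (X n) (X (n + 1)))
    (he : e n = true) :
    ∃ σ', Sta P D X e (n + 1) (A1 :: Θ) B1 σ' := by
  obtain ⟨ρ, hρ, hw, A', B', hX, hs⟩ := hst
  obtain ⟨N, hN, hR⟩ : ∃ N : Term S, Typed P (X (n+1)).1 N (ren ρ A') ∧
      Red (inst N (ren (up ρ) B')) (X (n+1)).2 := by
    rcases hs with ⟨h, -⟩ | ⟨-, N, h1, h2, -⟩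
    · rw [he] at h; cases h
    · exact ⟨N, h1, h2⟩
  obtain ⟨A2, B2, e1, r1, r2⟩ := red_pi h.red
  rw [hX] at e1
  injection e1 with e1 e2
  subst e1; subst e2
  obtain ⟨c00, h00⟩ := h.ty
  obtain ⟨cn0, t0, -⟩ := h.rd c00 h00
  obtain ⟨a0, b0, -, hA0, hB0, -, -⟩ := gen_pi t0
  have hok : SubOk P (fun i => ren ρ (σ i)) Θ (X (n+1)).1 := SubOk.ren' h.ok hρ hw
  have hN' : Typed P (X (n+1)).1 N (sub (fun i => ren ρ (σ i)) A1) := by
    refine .conv hN (typed_sub hA0 hw hok) ?_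
    rw [← ren_sub]
    exact BetaEq.symm (BetaEq.ren r1.eq ρ)
  refine ⟨scons N (fun i => ren ρ (σ i)), normal_piB h.nf, hok.scons hN', hw, ?_, ?_, h.ty⟩
  · rw [sub_scons]
    refine ReflTransGen.trans ?_ hR
    refine red_inst .refl ?_
    have : sub (ups fun i => ren ρ (σ i)) B1 = ren (up ρ) (sub (ups σ) B1) := by
      rw [ren_sub, ren_comp_ups]
    rw [this]
    exact Red.ren r2 _
  · intro c0 h0
    obtain ⟨cn, t, o, od, v⟩ := h.rd c0 h0
    obtain ⟨a, b, c, hA, hB, hr, hcc⟩ := gen_pi t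
    have := sort_inj hcc
    subst this
    have one : Op P D true b cn := .one_cod hr ⟨_, _, hA⟩
    refine ⟨b, hB, ?_, ?_, ?_⟩
    · have := one.comp o
      show Op P D (e n == par e n) b c0
      rw [he]; exact this
    · rintro ⟨j, hj, hj'⟩
      have hjn : j < n := by
        rcases Nat.lt_succ_iff_lt_or_eq.1 hj with h | h
        · exact h
        · subst h; rw [he] at hj'; cases hj'
      exact (od ⟨j, hjn, hj'⟩).left one
    · intro i A hl
      cases hl with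
      | zero _ _ =>
          exact .inr ⟨a, t_weak hA hA, b, cn, hr, ⟨_, .nil b⟩, ⟨_, o⟩⟩
      | @succ _ i A _ hl =>
          rcases v i A hl with ⟨m, hm⟩ | ⟨a', h1, h2⟩
          · exact .inl ⟨ρ m, by simp only [scons_succ, hm, ren_var]⟩
          · exact .inr ⟨a', t_weak h1 hA, h2.step one⟩

/-- the conclusion of a reset -/
def Rst (P : Spec S) (D : Set S) (X : ℕ → Pt S) (e : ℕ → Bool) (k : ℕ) (u : S) : Prop :=
  Typed P (X k).1 (X k).2 (sort u) ∧
    ∀ c0 : S, Typed P (X 0).1 (X 0).2 (sort c0) → Op P D (par e k) u c0 ∧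
      ((∃ j < k, e j = false) → OpD P D u c0) ∧ ∃ a', Lf P u a' ∧ Bd P D u c0 a'

theorem reset_aux {X : ℕ → Pt S} {e : ℕ → Bool} (hst : ∀ n, St P (e n) (X n) (X (n + 1)))
    (hrl : ∀ n, Rl P D (X n)) : ∀ (N n : ℕ) (Θ : List (Term S)) (B : Term S) (σ : ℕ → Term S),
    sz B ≤ N → 0 < n → Sta P D X e n Θ B σ → ∃ k u, n ≤ k ∧ Rst P D X e k u := by
  intro N
  induction N with
  | zero =>
      intro n Θ B σ hB
      exfalso
      cases B <;> simp [sz] at hB
  | succ N ih =>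
      intro n Θ B σ hB hn h
      obtain ⟨c00, h00⟩ := h.ty
      obtain ⟨cn0, t0, -⟩ := h.rd c00 h00
      obtain ⟨ρ, -, -, A', B', hX, -⟩ := hst n
      have hred := h.red
      rw [hX] at hred
      rcases type_shape h.nf t0 with ⟨s, rfl⟩ | ⟨A1, B1, rfl⟩ | ⟨i, hi⟩
      · have := red_sort hred
        cases this
      · cases he : e n with
        | false =>
            obtain ⟨σ', h'⟩ := sta_dom h (hst n) (hrl n) he
            obtain ⟨k, u, h1, h2⟩ := ih (n + 1) _ _ _ (by simp [sz] at hB; omega)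
              (Nat.succ_pos n) h'
            exact ⟨k, u, by omega, h2⟩
        | true =>
            obtain ⟨σ', h'⟩ := sta_cod h (hst n) he
            obtain ⟨k, u, h1, h2⟩ := ih (n + 1) _ _ _ (by simp [sz] at hB; omega)
              (Nat.succ_pos n) h'
            exact ⟨k, u, by omega, h2⟩
      · obtain ⟨A, hA⟩ := hi.lk t0
        refine ⟨n, cn0, le_rfl, ?_, ?_⟩
        · exact SR (typed_sub t0 h.wf h.ok) h.red
        · intro c0 h0
          obtain ⟨cn, t, o, od, v⟩ := h.rd c0 h0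
          have := hi.sort_unique t t0
          subst this
          refine ⟨o, od, ?_⟩
          rcases v i A hA with ⟨m, hm⟩ | ⟨a', h1, h2⟩
          · have := (hi.sub hm).red hred
            cases this
          · exact ⟨a', hi.lf hA t h1, h2⟩

/-- **first reset** -/
theorem first_reset {X : ℕ → Pt S} {e : ℕ → Bool} (hst : ∀ n, St P (e n) (X n) (X (n + 1)))
    (hrl : ∀ n, Rl P D (X n)) (hnf : Normal (X 0).2)
    (hty : ∃ c0 : S, Typed P (X 0).1 (X 0).2 (sort c0)) :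
    ∃ k u, 0 < k ∧ Rst P D X e k u := by
  have h0 : Sta P D X e 0 (X 0).1 (X 0).2 var := sta_zero hnf hty
  obtain ⟨ρ, -, -, A', B', hX, -⟩ := hst 0
  rw [hX] at h0
  cases he : e 0 with
  | false =>
      obtain ⟨σ', h'⟩ := sta_dom h0 (hst 0) (hrl 0) he
      obtain ⟨k, u, h1, h2⟩ := reset_aux hst hrl _ 1 _ _ _ le_rfl Nat.one_pos h'
      exact ⟨k, u, by omega, h2⟩
  | true =>
      obtain ⟨σ', h'⟩ := sta_cod h0 (hst 0) he
      obtain ⟨k, u, h1, h2⟩ := reset_aux hst hrl _ 1 _ _ _ le_rfl Nat.one_pos h'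
      exact ⟨k, u, by omega, h2⟩

end Crest.Agent.R298.Ext107
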