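import Crest.Agent.R298.Ext2_107

/-!
R298 (S0452), helper107: infinitely many resets, pigeonhole on the leaf sorts, and the main
theorem `fat_of_clash`: a relevant closed type with an infinite chain of relevant types with
infinitely many domain steps, reached with both parities from types bound by products of `D`,
gives the sort-level data `Fat P D`.
-/

set_option autoImplicit false

namespace Crest.Agent.R298.Ext107

open Crest.LogicCS.PTS Crest.LogicCS.PTS.Term Relation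
open Crest.Agent.R298.Sub452 Crest.Agent.R298.Par452 Crest.Agent.R298.Ty452
open Crest.Agent.R298.Fat107

universe u
variable {S : Type u} {P : Spec S} {D : Set S}

theorem beta_ren_normal {M : Term S} (h : Normal M) (ρ : ℕ → ℕ) : Normal (ren ρ M) := by
  intro N hb
  obtain ⟨M', h1, -⟩ := beta_ren_inv hb
  exact h _ h1

theorem chain_normal {X : ℕ → Pt S} {e : ℕ → Bool} (hst : ∀ n, St P (e n) (X n) (X (n + 1)))
    (hnf : Normal (X 0).2) : ∀ n, Normal (X n).2 := by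
  intro n
  induction n with
  | zero => exact hnf
  | succ n ih =>
      obtain ⟨ρ, -, -, A, B, hX, h⟩ := hst n
      rcases h with ⟨-, h⟩ | ⟨-, N, -, -, h⟩
      · rw [h]
        rw [hX] at ih
        exact beta_ren_normal (normal_piA ih) ρ
      · exact h

/-- one reset from `(n, u)` to `(m, w)` -/
def Nx (P : Spec S) (D : Set S) (X : ℕ → Pt S) (e : ℕ → Bool) (p q : ℕ × S) : Prop :=
  p.1 < q.1 ∧ Typed P (X q.1).1 (X q.1).2 (sort q.2) ∧ (∃ e', Op P D e' q.2 p.2) ∧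
    ((∃ j, p.1 ≤ j ∧ j < q.1 ∧ e j = false) → OpD P D q.2 p.2) ∧
    ∃ a', Lf P q.2 a' ∧ Bd P D q.2 p.2 a'

theorem exists_nx {X : ℕ → Pt S} {e : ℕ → Bool} (hst : ∀ n, St P (e n) (X n) (X (n + 1)))
    (hrl : ∀ n, Rl P D (X n)) (hnf : ∀ n, Normal (X n).2) (p : ℕ × S)
    (hp : Typed P (X p.1).1 (X p.1).2 (sort p.2)) : ∃ q : ℕ × S, Nx P D X e p q := by
  obtain ⟨k, w, hk, h1, h2⟩ := first_reset (P := P) (D := D) (X := fun m => X (p.1 + m))
    (e := fun m => e (p.1 + m)) (fun m => hst (p.1 + m)) (fun m => hrl _) (hnf _) ⟨p.2, hp⟩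
  obtain ⟨o, od, a', hl, hb⟩ := h2 p.2 hp
  refine ⟨(p.1 + k, w), by simpa using hk, h1, ⟨_, o⟩, ?_, a', hl, hb⟩
  rintro ⟨j, hj1, hj2, hj3⟩
  refine od ⟨j - p.1, by omega, ?_⟩
  show e (p.1 + (j - p.1)) = false
  rw [show p.1 + (j - p.1) = j by omega]
  exact hj3

theorem fat_of_clash (hfin : (Scc795.RS P).Finite)
    {X : ℕ → Pt S} {e : ℕ → Bool} (hst : ∀ n, St P (e n) (X n) (X (n + 1)))
    (hrl : ∀ n, Rl P D (X n)) (hnf0 : Normal (X 0).2)
    (hinf : ∀ n, ∃ m, n ≤ m ∧ e m = false)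
    {H H' : Pt S} {v v' d1 d1' d2 d2' : S}
    (hH : Typed P H.1 H.2 (sort v)) (hr1 : P.rule v d1 d1') (hd1 : d1 ∈ D) (hd1' : d1' ∈ D)
    (hH' : Typed P H'.1 H'.2 (sort v')) (hr2 : P.rule v' d2 d2') (hd2 : d2 ∈ D) (hd2' : d2' ∈ D)
    (hc : Ch P D true H (X 0)) (hc' : Ch P D false H' (X 0)) : Fat P D := by
  classical
  have hnf := chain_normal hst hnf0
  obtain ⟨c1, t1, o1⟩ := hc.op hH
  obtain ⟨c2, t2, o2⟩ := hc'.op hH'
  obtain ⟨k1, u1, hk1, hty1, hrd⟩ := first_reset (P := P) (D := D) hst hrl hnf0 ⟨c1, t1⟩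
  -- the sequence of resets
  let T := {p : ℕ × S // Typed P (X p.1).1 (X p.1).2 (sort p.2)}
  have hnx : ∀ p : T, ∃ q : T, Nx P D X e p.1 q.1 := fun p => by
    obtain ⟨q, hq⟩ := exists_nx (D := D) hst hrl hnf p.1 p.2
    exact ⟨⟨q, hq.2.1⟩, hq⟩
  choose f hf using hnx
  let z : ℕ → T := fun i => f^[i] ⟨(k1, u1), hty1⟩
  have hz : ∀ i, Nx P D X e (z i).1 (z (i + 1)).1 := fun i => by
    have : z (i + 1) = f (z i) := Function.iterate_succ_apply' f i _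
    rw [this]; exact hf _
  have hmono : StrictMono fun i => (z i).1.1 := strictMono_nat_of_lt_succ fun i => (hz i).1
  have hge : ∀ i, i ≤ (z i).1.1 := fun i => hmono.le_apply
  -- composition along the resets
  have hcomp : ∀ i k, (∃ e', Op P D e' (z (i + k)).1.2 (z i).1.2) ∧
      ((∃ j, (z i).1.1 ≤ j ∧ j < (z (i + k)).1.1 ∧ e j = false) →
        OpD P D (z (i + k)).1.2 (z i).1.2) := by
    intro i k
    induction k with
    | zero =>
        refine ⟨⟨true, .nil _⟩, ?_⟩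
        rintro ⟨j, h1, h2, -⟩
        simp only [Nat.add_zero] at h2
        omega
    | succ k ih =>
        obtain ⟨⟨e1, ih1⟩, ih2⟩ := ih
        obtain ⟨h1, h2, ⟨e2, h3⟩, h4, -⟩ := hz (i + k)
        refine ⟨⟨_, h3.comp ih1⟩, ?_⟩
        rintro ⟨j, g1, g2, g3⟩
        by_cases hj : j < (z (i + k)).1.1
        · exact (ih2 ⟨j, g1, hj, g3⟩).left h3
        · exact (h4 ⟨j, by omega, g2, g3⟩).right ih1
  -- the leaf sorts are rule sorts
  have hRS : ∀ i, (z i).1.2 ∈ Scc795.RS P := by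
    intro i
    have h1 := (z i).2
    obtain ⟨ρ, -, -, A, B, hX, -⟩ := hst (z i).1.1
    rw [hX] at h1
    obtain ⟨a, b, c, -, -, hr, hcc⟩ := gen_pi h1
    have := sort_inj hcc
    exact ⟨a, b, c, hr, .inr (.inr this)⟩
  -- pigeonhole
  obtain ⟨u, hu⟩ : ∃ u : S, ∀ n : ℕ, ∃ i, n ≤ i ∧ (z i).1.2 = u := by
    by_contra hno
    push Not at hno
    choose g hg using hno
    obtain ⟨M, hM⟩ := (hfin.image g).bddAbove
    exact hg _ M (hM ⟨_, hRS M, rfl⟩) rfl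
  obtain ⟨i, -, hi⟩ := hu 0
  obtain ⟨m, hm1, hm2⟩ := hinf (z i).1.1
  obtain ⟨i', hi'1, hi'2⟩ := hu (max (m + 1) (i + 1))
  have hi'm : m < (z i').1.1 := lt_of_lt_of_le (by omega) (hge i')
  obtain ⟨k, rfl⟩ : ∃ k, i' = i + k := ⟨i' - i, by omega⟩
  have hk : 0 < k := by omega
  obtain ⟨k, rfl⟩ : ∃ k', k = k' + 1 := ⟨k - 1, by omega⟩
  have hcyc := (hcomp i (k + 1)).2 ⟨m, hm1, hi'm, hm2⟩
  rw [hi, hi'2] at hcyc
  obtain ⟨-, -, -, -, a', hl, b, c, hr, ⟨eb, hb⟩, ⟨ec, hcc⟩⟩ := hz (i + k)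
  have hi'2' : (z (i + k + 1)).1.2 = u := hi'2
  rw [hi'2'] at hl hb
  obtain ⟨⟨e3, h3⟩, -⟩ := hcomp i k
  rw [hi] at h3
  -- back to the start
  obtain ⟨⟨e4, h4⟩, -⟩ := hcomp 0 i
  have h4' : Op P D e4 u u1 := by
    have h0 : (z 0).1.2 = u1 := rfl
    rw [h0, Nat.zero_add, hi] at h4
    exact h4
  obtain ⟨p1, -⟩ := hrd c1 t1
  obtain ⟨p2, -⟩ := hrd c2 t2
  have q1 := (h4'.comp p1).comp o1
  have q2 := (h4'.comp p2).comp o2
  refine ⟨a', b, c, u, hr, hl, ⟨eb, hb⟩, ⟨_, hcc.comp h3⟩, hcyc, ?_⟩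
  cases hpar : (e4 == par e k1) with
  | true =>
      rw [hpar] at q1 q2
      exact ⟨⟨v, d1, d1', q1, hr1, hd1, hd1'⟩, ⟨v', d2, d2', q2, hr2, hd2, hd2'⟩⟩
  | false =>
      rw [hpar] at q1 q2
      exact ⟨⟨v', d2, d2', q2, hr2, hd2, hd2'⟩, ⟨v, d1, d1', q1, hr1, hd1, hd1'⟩⟩

end Crest.Agent.R298.Ext107
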