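import Crest.Agent.R298.AA_961
import Crest.Agent.R298.MainW_865

/-!
R298 (S0452), helper961: the judgement over good function contexts as an instance of `Jd`, and the
bridge from `Jd961` / `MW961` / `AA961` to the official props `WNiF`, `WNiAt` of `Main865`.
-/

set_option autoImplicit false

namespace Crest.Agent.R298.FJ961

open Crest.LogicCS.PTS Crest.LogicCS.PTS.Term Relation
open Crest.Agent.R298.Sub452 Crest.Agent.R298.Par452 Crest.Agent.R298.Mem360
open Crest.Agent.R298.Mem360.MT Crest.Agent.R298.Jd961 Crest.Agent.R298.Jd961.Jd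
open Crest.Agent.R298.MW961 Crest.Agent.R298.TyF452 Crest.Agent.R298.TyMF452
open Crest.Agent.R298.AA961

universe u w

/-- typing over good function contexts -/
def fj {S : Type u} (P : Spec S) : Jd P (ℕ → Term S) where
  T := fun D M A => Good P D ∧ TyF P D M A
  Wf := Good P
  Dc := fun D x A => D x = A
  cons := fcons
  dc_unique := fun h h' => h.symm.trans h'
  dc_zero := by intro G A B; exact eq_comm
  dc_succ := by
    intro G A x B
    constructor
    · rintro rfl; exact ⟨_, rfl, rfl⟩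
    · rintro ⟨B', rfl, rfl⟩; rfl
  wf_cons := fun g h => g.cons h.2
  tvar := by
    intro G x A g h
    subst h
    exact ⟨g, tyf_var g.wf x⟩
  tax := fun g h => ⟨g, .ax h⟩
  tprod := fun h h' r => ⟨h.1, .prod h.2 h'.2 r⟩
  tabs := fun h h' => ⟨h'.1, .abs h.2 h'.2⟩
  tappl := fun h h' => ⟨h.1, .appl h.2 h'.2⟩
  tconv := fun h h' e => ⟨h.1, .conv h.2 h'.2 e⟩
  tsub := fun h g hs => ⟨g, tyf_sub h.2 (fun x => (hs x _ rfl).2)⟩
  gen_var := by
    intro G x A h
    exact ⟨_, rfl, (fgen_var h.2 _ rfl).2⟩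
  gen_sort := fun h => fgen_sort h.2 _ rfl
  gen_pi := by
    intro G A B D h
    obtain ⟨s₁, s₂, s₃, a, b, r, e⟩ := fgen_pi h.2 _ _ rfl
    exact ⟨s₁, s₂, s₃, ⟨h.1, a⟩, ⟨h.1.cons a, b⟩, r, e⟩
  gen_lam := by
    intro G A M D h
    obtain ⟨B, s, a, b, e⟩ := fgen_lam h.2 _ _ rfl
    obtain ⟨s', c⟩ := fpi_dom b
    exact ⟨B, s, ⟨h.1.cons c, a⟩, ⟨h.1, b⟩, e⟩
  gen_app := by
    intro G M N D h
    obtain ⟨A, B, a, b, e⟩ := fgen_app h.2 _ _ rfl
    exact ⟨A, B, ⟨h.1, a⟩, ⟨h.1, b⟩, e⟩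
  type_correct := by
    intro G M A h
    rcases ftype_correct h.1.wf h.2 with h' | ⟨s, h'⟩
    · exact .inl h'
    · exact .inr ⟨s, h.1, h'⟩
  sr := fun h r => ⟨h.1, FSR h.1.wf h.2 r⟩

variable {S : Type u} {P : Spec S} {idx : S → ℕ}

/-- the weak normalisation hypothesis in the form used by the models -/
theorem fj_wn (hP : ∀ (Γ : List (Term S)) (M : Term S), Legal P Γ M → WN M) :
    ∀ (G : ℕ → Term S) (M A : Term S), (fj P).T G M A → WN M ∧ WN A :=
  fun _ _ _ h => h.1.wn hP h.2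

theorem mok_of_tmf {D : ℕ → Term S} {M : MT S} {A : Term S} (h : TMF P D M A) :
    Good P D → MOk (fj P) M D := by
  induction h with
  | sort h => intro g; exact ⟨_, g, .ax h⟩
  | var h => intro g; exact ⟨_, g, .var h⟩
  | pi hA hB r ih ih' =>
      intro g
      have g' := g.cons hA.typed
      exact ⟨⟨_, g, .prod hA.typed hB.typed r⟩, ih g, ih' g'⟩
  | lam hA hM hp ih ih' =>
      intro g
      have g' := g.cons hA.typed
      exact ⟨⟨_, g, .abs hM.typed hp⟩, ih g, ih' g'⟩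
  | app hM hN ih ih' =>
      intro g
      exact ⟨⟨_, g, .appl hM.typed hN.typed⟩, ih g, ih' g⟩
  | mem _ _ ih ih' => intro g; exact ⟨ih g, ih' g⟩
  | conv _ _ _ ih => exact ih

theorem nf_of_nff {k : ℕ} {M : MT S} : ∀ {D : ℕ → Term S}, MOk (fj P) M D → Good P D →
    Main865.NFF P idx k D M → NF (fj P) idx k M D := by
  induction M with
  | var x => intro D _ _ _; trivial
  | sort s => intro D _ _ _; trivial
  | app F Q h1 h2 =>
      intro D m g h
      refine ⟨?_, h1 m.2.1 g h.1, h2 m.2.2 g h.2.1⟩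
      intro hl
      obtain ⟨T, s, hT, ⟨T', e, hT'⟩, hk⟩ := h.2.2 hl
      exact ⟨T, ⟨g, hT⟩, T', s, e, ⟨g, hT'⟩, hk⟩
  | lam A M h1 h2 =>
      intro D m g h
      obtain ⟨s, hs⟩ := dom_lam m.1.choose_spec
      exact ⟨h1 m.2.1 g h.1, h2 m.2.2 (g.cons hs.2) h.2⟩
  | pi A M h1 h2 =>
      intro D m g h
      obtain ⟨s, hs⟩ := dom_pi m.1.choose_spec
      exact ⟨h1 m.2.1 g h.1, h2 m.2.2 (g.cons hs.2) h.2⟩
  | mem M N h1 h2 => intro D m g h; exact ⟨h1 m.1 g h.1, h2 m.2 g h.2⟩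

theorem nff_of_nf {k : ℕ} {M : MT S} : ∀ {D : ℕ → Term S},
    NF (fj P) idx k M D → Main865.NFF P idx k D M := by
  induction M with
  | var x => intro D _; trivial
  | sort s => intro D _; trivial
  | app F Q h1 h2 =>
      intro D h
      refine ⟨h1 h.2.1, h2 h.2.2, ?_⟩
      intro hl
      obtain ⟨T, hT, T', s, e, hT', hk⟩ := h.1 hl
      exact ⟨T, s, hT.2, ⟨T', e, hT'.2⟩, hk⟩
  | lam A M h1 h2 => intro D h; exact ⟨h1 h.1, h2 h.2⟩
  | pi A M h1 h2 => intro D h; exact ⟨h1 h.1, h2 h.2⟩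
  | mem M N h1 h2 => intro D h; exact ⟨h1 h.1, h2 h.2⟩

/-- `WNi` over `fj` is the official `WNiF` -/
theorem wnif_of_wni {i : ℕ} (h : WNi (fj P) idx i) : Main865.WNiF P idx i := by
  intro D M A g hM hn
  have m := mok_of_tmf hM g
  obtain ⟨M', r, hM'⟩ := h D M g m (nf_of_nff m g hn)
  exact ⟨M', r, nff_of_nf hM'⟩

/-- **a stage model over function contexts with an identity environment at `D` gives the
official `WNiAt` at `D`** -/
theorem wniAt_of_stage0 (hrule : ∀ a b c, P.rule a b c → idx c ≤ idx a ∧ idx c ≤ idx b)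
    {i : ℕ} (X : Stage0.{u, u, w} (fj P) idx i) {D : ℕ → Term S} {ρ : X.Env} (g : Good P D)
    (o : X.Ok D ρ) (ht : X.tgt ρ = D) (hs : X.sb ρ = MT.var) : Main865.WNiAt P idx i D := by
  intro M A hM hn
  have m := mok_of_tmf hM g
  obtain ⟨M', r, hM'⟩ := W_of_stage0 hrule X g o ht hs m (nf_of_nff m g hn)
  exact ⟨M', r, nff_of_nf hM'⟩

theorem hrule_of_isIdx {N : ℕ} (h : Main865.IsIdx P idx N) :
    ∀ a b c, P.rule a b c → idx c ≤ idx a ∧ idx c ≤ idx b :=
  fun _ _ _ r => ⟨h.rule_left r, h.rule_right r⟩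

end Crest.Agent.R298.FJ961
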