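import Crest.Agent.R298.Fl1_113

/-!
R298 (S0452), helper95: parity bookkeeping of a fat configuration (113's `FatW`): the walks
consumed by the tower of 987 (`al`, `xi` of equal parity, odd `p`, `q`, `hb`, `hy`).
-/

set_option autoImplicit false

namespace Crest.Agent.R298.FatW95

open Crest.LogicCS.PTS Crest.Agent.R298.Fin795 Crest.Agent.R298.Fl113

universe u

variable {S : Type u} {P : Spec S} {D : Set S}

/-- a walk of given total parity through `u`, when both parities are available after `u` -/
theorem both_after {x u : S} {f : Bool} (h : Op P D f x u)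
    (h1 : ∃ v, Op P D true u v ∧ Bd P D v) (h2 : ∃ v, Op P D false u v ∧ Bd P D v) (g : Bool) :
    ∃ v, Op P D g x v ∧ Bd P D v := by
  obtain ⟨v1, h1, b1⟩ := h1
  obtain ⟨v2, h2, b2⟩ := h2
  have k1 := h.trans h1
  have k2 := h.trans h2
  cases f <;> cases g
  · exact ⟨v1, by simpa using k1, b1⟩
  · exact ⟨v2, by simpa using k2, b2⟩
  · exact ⟨v2, by simpa using k2, b2⟩
  · exact ⟨v1, by simpa using k1, b1⟩

/-- **the walks of the tower** -/
theorem tower (h : FatW P D) :
    ∃ (u a b c y db dy : S) (e : Bool), P.rule a b c ∧ HS P u a ∧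
      Op P D e u b ∧ Op P D e c u ∧ Op P D false b y ∧ Op P D false y b ∧
      Op P D false b db ∧ Bd P D db ∧ Op P D false y dy ∧ Bd P D dy := by
  obtain ⟨u, a, b, c, r, hs, ⟨e1, al⟩, ⟨e2, xi⟩, ⟨x, y, z, f, g, r', hy, ux, zu⟩, hp, hm⟩ := h
  have bc : Op P D true b c := .cod r (.nil c)
  -- `b ~> u`
  have bu : Op P D e2 b u := by simpa using bc.trans xi
  by_cases ho : Op P D false b b
  · -- an odd closed walk at `b`
    obtain ⟨db, hdb, bdb⟩ := both_after bu hp hm false
    have al' : Op P D e2 u b := by
      have k := al.trans ho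
      cases e1 <;> cases e2
      · exact al
      · simpa using k
      · simpa using k
      · exact al
    exact ⟨u, a, b, c, b, db, db, e2, r, hs, al', xi, ho, ho, hdb, bdb, hdb, bdb⟩
  · -- every closed walk at `b` is even
    have he : e1 = e2 := by
      by_contra hne
      apply ho
      have k := bu.trans al
      cases e1 <;> cases e2 <;> simp_all
    subst he
    obtain ⟨db, hdb, bdb⟩ := both_after bu hp hm false
    have bx : Op P D (e1 == f) b x := bu.trans ux
    have zb : Op P D (g == e1) z b := zu.trans al
    have xz : Op P D false x z := by simpa using Op.dom r' hy (.nil z)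
    -- exactly one of the two halves is odd
    have key : ((e1 == f) = true ∧ (g == e1) = false) ∨ ((e1 == f) = false ∧ (g == e1) = true) := by
      have k := (bx.trans xz).trans zb
      generalize (e1 == f) = p at *
      generalize (g == e1) = q at *
      cases p <;> cases q <;> simp_all
    rcases key with ⟨k1, k2⟩ | ⟨k1, k2⟩
    · -- `y := z`
      rw [k1] at bx
      rw [k2] at zb
      have bz : Op P D false b z := by simpa using bx.trans xz
      obtain ⟨dy, hdy, bdy⟩ := both_after (zb.trans bu) hp hm false
      exact ⟨u, a, b, c, z, db, dy, e1, r, hs, al, xi, bz, zb, hdb, bdb, hdy, bdy⟩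
    · -- `y := x`
      rw [k1] at bx
      rw [k2] at zb
      have xb : Op P D false x b := by simpa using xz.trans zb
      obtain ⟨dy, hdy, bdy⟩ := both_after (xb.trans bu) hp hm false
      exact ⟨u, a, b, c, x, db, dy, e1, r, hs, al, xi, bx, xb, hdb, bdb, hdy, bdy⟩

end Crest.Agent.R298.FatW95
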