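import Crest.Agent.R298.Ty_452
import Crest.Agent.R298.Scc_795

/-!
R298 (S0452), helper107: the sort-level interface between the semantic half and the paradox half.
`InS P a`: some legal type has sort `a`.  `Lf P s b`: a non-dependent product of inhabited types
ending in the sort `s` has sort `b`.  `Op P D e x y`: signed operators from types of sort `x` to
types of sort `y` (`true` = even number of domain steps).  `Fat P D`: the data of the paradox.
-/

set_option autoImplicit false

namespace Crest.Agent.R298.Fat107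

open Crest.LogicCS.PTS Crest.LogicCS.PTS.Term Relation
open Crest.Agent.R298.Sub452 Crest.Agent.R298.Par452 Crest.Agent.R298.Ty452

universe u
variable {S : Type u} {P : Spec S} {D : Set S}

/-- the sort `a` is the sort of some legal type -/
def InS (P : Spec S) (a : S) : Prop := ∃ (Γ : List (Term S)) (A : Term S), Typed P Γ A (sort a)

/-- a non-dependent product of (inhabited) legal types with last codomain the sort `s`
has sort `b` -/
inductive Lf (P : Spec S) (s : S) : S → Prop
  | ax {b : S} : P.ax s b → Lf P s b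
  | step {a b c : S} : P.rule a b c → InS P a → Lf P s b → Lf P s c

/-- signed operators: types of sort `x` are turned into types of sort `y` -/
inductive Op (P : Spec S) (D : Set S) : Bool → S → S → Prop
  | nil (x : S) : Op P D true x x
  | dom {e : Bool} {x a b c s : S} : Op P D e x a → P.rule a b c → s ∈ D → Lf P s b →
      Op P D (!e) x c
  | cod {e : Bool} {x a b c : S} : Op P D e x b → P.rule a b c → InS P a → Op P D e x c

/-- operators through at least one domain step -/
def OpD (P : Spec S) (D : Set S) (x y : S) : Prop :=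
  ∃ (x1 b1 y1 s : S) (e e' : Bool), Op P D e x x1 ∧ P.rule x1 b1 y1 ∧ s ∈ D ∧ Lf P s b1 ∧
    Op P D e' y1 y

/-- the sort-level data of the paradox -/
def Fat (P : Spec S) (D : Set S) : Prop :=
  ∃ a' b c u : S, P.rule a' b c ∧ Lf P u a' ∧ (∃ e, Op P D e u b) ∧ (∃ e, Op P D e c u) ∧
    OpD P D u u ∧
    (∃ v d d' : S, Op P D true u v ∧ P.rule v d d' ∧ d ∈ D ∧ d' ∈ D) ∧
    (∃ v d d' : S, Op P D false u v ∧ P.rule v d d' ∧ d ∈ D ∧ d' ∈ D)

theorem Op.comp {e e' : Bool} {x y z : S} (h : Op P D e x y) (h' : Op P D e' y z) :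
    Op P D (e == e') x z := by
  induction h' with
  | nil _ => simpa using h
  | @dom e' _ a b c s _ hr hs hl ih =>
      have := Op.dom (ih h) hr hs hl
      cases e <;> cases e' <;> exact this
  | cod _ hr hi ih => exact Op.cod (ih h) hr hi

theorem OpD.right {x y z : S} (h : OpD P D x y) {e : Bool} (h' : Op P D e y z) :
    OpD P D x z := by
  obtain ⟨x1, b1, y1, s, e1, e2, a, b, c, d, f⟩ := h
  exact ⟨x1, b1, y1, s, e1, _, a, b, c, d, f.comp h'⟩

theorem OpD.left {x y z : S} (h : OpD P D y z) {e : Bool} (h' : Op P D e x y) :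
    OpD P D x z := by
  obtain ⟨x1, b1, y1, s, e1, e2, a, b, c, d, f⟩ := h
  exact ⟨x1, b1, y1, s, _, e2, h'.comp a, b, c, d, f⟩

theorem OpD.op {x y : S} (h : OpD P D x y) : ∃ e, Op P D e x y := by
  obtain ⟨x1, b1, y1, s, e1, e2, a, b, c, d, f⟩ := h
  exact ⟨_, (Op.dom a b c d).comp f⟩

/-- one domain step -/
theorem Op.one_dom {a b c s : S} (h : P.rule a b c) (hs : s ∈ D) (hl : Lf P s b) :
    Op P D false a c := Op.dom (Op.nil a) h hs hl

/-- one codomain step -/
theorem Op.one_cod {a b c : S} (h : P.rule a b c) (hi : InS P a) :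
    Op P D true b c := Op.cod (Op.nil b) h hi

/-! ### closed types and their steps -/

/-- a type in a context -/
abbrev Pt (S : Type u) := List (Term S) × Term S

/-- steps: `false` = to the domain, `true` = to (the normal form of) an instance of the codomain;
the context may be extended -/
def St (P : Spec S) (e : Bool) (X Y : Pt S) : Prop :=
  ∃ ρ : ℕ → ℕ, RenOk ρ X.1 Y.1 ∧ Wf P Y.1 ∧ ∃ A B : Term S, X.2 = pi A B ∧
    ((e = false ∧ Y.2 = ren ρ A) ∨
     (e = true ∧ ∃ N : Term S, Typed P Y.1 N (ren ρ A) ∧ Red (inst N (ren (up ρ) B)) Y.2 ∧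
        Normal Y.2))

/-- relevant types: some path of codomain steps ends in a sort of `D` -/
inductive Rl (P : Spec S) (D : Set S) : Pt S → Prop
  | base {Γ : List (Term S)} {s : S} : s ∈ D → Rl P D (Γ, sort s)
  | cod {X Y : Pt S} : St P true X Y → Rl P D Y → Rl P D X

/-- finite chains through relevant types -/
inductive Ch (P : Spec S) (D : Set S) : Bool → Pt S → Pt S → Prop
  | nil (X : Pt S) : Ch P D true X X
  | dom {e : Bool} {X Y Z : Pt S} : Ch P D e X Y → Rl P D Y → St P false Y Z →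
      Ch P D (!e) X Z
  | cod {e : Bool} {X Y Z : Pt S} : Ch P D e X Y → St P true Y Z → Ch P D e X Z

/-- typing of a step, at sort level -/
theorem St.typed {e : Bool} {X Y : Pt S} (h : St P e X Y) {c : S}
    (hc : Typed P X.1 X.2 (sort c)) :
    ∃ a b : S, P.rule a b c ∧ InS P a ∧
      ((e = false ∧ Typed P Y.1 Y.2 (sort a)) ∨ (e = true ∧ Typed P Y.1 Y.2 (sort b))) := by
  obtain ⟨ρ, hρ, hw, A, B, hX, h⟩ := h
  rw [hX] at hc
  obtain ⟨a, b, c', hA, hB, hr, hcc⟩ := gen_pi hc
  have := sort_inj hcc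
  subst this
  refine ⟨a, b, hr, ⟨_, _, hA⟩, ?_⟩
  have hA' : Typed P Y.1 (ren ρ A) (sort a) := typed_ren hA hw hρ
  rcases h with ⟨rfl, hY⟩ | ⟨rfl, N, hN, hR, -⟩
  · left
    rw [hY]
    exact ⟨rfl, hA'⟩
  · right
    refine ⟨rfl, ?_⟩
    have hB' : Typed P (ren ρ A :: Y.1) (ren (up ρ) B) (sort b) :=
      typed_ren hB (.cons hw hA') (hρ.up A)
    exact SR (typed_inst hB' hN) hR

/-- a relevant type of sort `c` gives a uniform one -/
theorem Rl.lf {X : Pt S} (h : Rl P D X) : ∀ {c : S}, Typed P X.1 X.2 (sort c) →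
    ∃ s ∈ D, Lf P s c := by
  induction h with
  | @base Γ s hs =>
      intro c hc
      obtain ⟨s', ha, hb⟩ := gen_sort hc
      have := sort_inj hb
      subst this
      exact ⟨s, hs, .ax ha⟩
  | @cod X Y hst _ ih =>
      intro c hc
      obtain ⟨a, b, hr, hi, h⟩ := hst.typed hc
      rcases h with ⟨h, -⟩ | ⟨-, h⟩
      · cases h
      · obtain ⟨s, hs, hl⟩ := ih h
        exact ⟨s, hs, .step hr hi hl⟩

/-- the codomain of a relevant product is relevant at sort level -/
theorem Rl.lf_cod {Γ : List (Term S)} {A B : Term S} (h : Rl P D (Γ, pi A B)) {b : S}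
    (hB : Typed P (A :: Γ) B (sort b)) : ∃ s ∈ D, Lf P s b := by
  generalize hX : (Γ, pi A B) = X at h
  cases h with
  | @base _ s hs => cases hX
  | @cod _ Y hst hY =>
      subst hX
      obtain ⟨ρ, hρ, hw, A', B', hX, h⟩ := hst
      injection hX with e1 e2
      subst e1; subst e2
      rcases h with ⟨h, -⟩ | ⟨-, N, hN, hR, -⟩
      · cases h
      · obtain ⟨_, s, hA⟩ := (twf hB).tail
        have hA' : Typed P Y.1 (ren ρ A) (sort s) := typed_ren hA hw hρ
        have hB' : Typed P (ren ρ A :: Y.1) (ren (up ρ) B) (sort b) :=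
          typed_ren hB (.cons hw hA') (hρ.up A)
        exact hY.lf (SR (typed_inst hB' hN) hR)

/-- a domain step from a relevant type, at sort level -/
theorem St.op_dom {X Y : Pt S} (h : St P false X Y) (hR : Rl P D X) {c : S}
    (hc : Typed P X.1 X.2 (sort c)) : ∃ a : S, Typed P Y.1 Y.2 (sort a) ∧
      ∃ b s : S, P.rule a b c ∧ s ∈ D ∧ Lf P s b := by
  obtain ⟨ρ, hρ, hw, A, B, hX, h⟩ := h
  obtain ⟨Γ, T⟩ := X
  simp only at hX
  subst hX
  obtain ⟨a, b, c', hA, hB, hr, hcc⟩ := gen_pi hc
  have := sort_inj hcc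
  subst this
  obtain ⟨s, hs, hl⟩ := hR.lf_cod hB
  rcases h with ⟨-, hY⟩ | ⟨h, -⟩
  · exact ⟨a, by rw [hY]; exact typed_ren hA hw hρ, b, s, hr, hs, hl⟩
  · cases h

/-- chains give operators -/
theorem Ch.op {e : Bool} {X Y : Pt S} (h : Ch P D e X Y) {c : S}
    (hc : Typed P X.1 X.2 (sort c)) : ∃ c' : S, Typed P Y.1 Y.2 (sort c') ∧ Op P D e c' c := by
  induction h with
  | nil _ => exact ⟨c, hc, .nil c⟩
  | @dom e X Y Z _ hR hst ih =>
      obtain ⟨c1, h1, h2⟩ := ih hc
      obtain ⟨a, h3, b, s, hr, hs, hl⟩ := hst.op_dom hR h1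
      refine ⟨a, h3, ?_⟩
      have := (Op.one_dom (D := D) hr hs hl).comp h2
      cases e <;> exact this
  | @cod e X Y Z _ hst ih =>
      obtain ⟨c1, h1, h2⟩ := ih hc
      obtain ⟨a, b, hr, hi, h⟩ := hst.typed h1
      rcases h with ⟨h, -⟩ | ⟨-, h⟩
      · cases h
      · refine ⟨b, h, ?_⟩
        have := (Op.one_cod (D := D) hr hi).comp h2
        simpa using this

end Crest.Agent.R298.Fat107
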