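import Crest.Prelude.Def_PTS

/-!
R298 (S0452), helper174: a derivation uses only finitely many axioms and rules, hence it is enough
to prove WN => SN for finite specifications (on the same type of sorts).
-/

set_option autoImplicit false

namespace Crest.Agent.R298.Fin174

open Crest.LogicCS.PTS Crest.LogicCS.PTS.Term

universe u
variable {S : Type u}

/-- sub-specification -/
def Le (P' P : Spec S) : Prop :=
  (∀ a b, P'.ax a b → P.ax a b) ∧ (∀ a b c, P'.rule a b c → P.rule a b c)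

/-- finite specification: finitely many axioms and rules (on an arbitrary type of sorts) -/
def FinSpec (P : Spec S) : Prop :=
  {p : S × S | P.ax p.1 p.2}.Finite ∧ {p : S × S × S | P.rule p.1 p.2.1 p.2.2}.Finite

theorem Le.refl (P : Spec S) : Le P P := ⟨fun _ _ h => h, fun _ _ _ h => h⟩

theorem Le.trans {P Q R : Spec S} (h : Le P Q) (h' : Le Q R) : Le P R :=
  ⟨fun a b k => h'.1 a b (h.1 a b k), fun a b c k => h'.2 a b c (h.2 a b c k)⟩

theorem typed_mono {P' P : Spec S} (hle : Le P' P) {Γ : List (Term S)} {M A : Term S}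
    (h : Typed P' Γ M A) : Typed P Γ M A := by
  induction h with
  | ax h => exact .ax (hle.1 _ _ h)
  | start _ ih => exact .start ih
  | weak _ _ ih ih' => exact .weak ih ih'
  | prod _ _ r ih ih' => exact .prod ih ih' (hle.2 _ _ _ r)
  | abs _ _ ih ih' => exact .abs ih ih'
  | appl _ _ ih ih' => exact .appl ih ih'
  | conv _ _ e ih ih' => exact .conv ih ih' e

theorem legal_mono {P' P : Spec S} (hle : Le P' P) {Γ : List (Term S)} {M : Term S}
    (h : Legal P' Γ M) : Legal P Γ M := by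
  obtain ⟨N, h | h⟩ := h
  · exact ⟨N, Or.inl (typed_mono hle h)⟩
  · exact ⟨N, Or.inr (typed_mono hle h)⟩

/-- union of two specifications -/
def union (P Q : Spec S) : Spec S where
  ax a b := P.ax a b ∨ Q.ax a b
  rule a b c := P.rule a b c ∨ Q.rule a b c

theorem le_union_left (P Q : Spec S) : Le P (union P Q) :=
  ⟨fun _ _ h => Or.inl h, fun _ _ _ h => Or.inl h⟩

theorem le_union_right (P Q : Spec S) : Le Q (union P Q) :=
  ⟨fun _ _ h => Or.inr h, fun _ _ _ h => Or.inr h⟩

theorem union_le {P Q R : Spec S} (h : Le P R) (h' : Le Q R) : Le (union P Q) R :=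
  ⟨fun a b k => k.elim (h.1 a b) (h'.1 a b), fun a b c k => k.elim (h.2 a b c) (h'.2 a b c)⟩

theorem fin_union {P Q : Spec S} (h : FinSpec P) (h' : FinSpec Q) : FinSpec (union P Q) :=
  ⟨(h.1.union h'.1).subset fun _ hp => hp, (h.2.union h'.2).subset fun _ hp => hp⟩

/-- the specification with one axiom -/
def oneAx (a b : S) : Spec S where
  ax x y := x = a ∧ y = b
  rule _ _ _ := False

/-- the specification with one rule -/
def oneRule (a b c : S) : Spec S where
  ax _ _ := False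
  rule x y z := x = a ∧ y = b ∧ z = c

theorem fin_oneAx (a b : S) : FinSpec (oneAx a b) := by
  refine ⟨(Set.finite_singleton (a, b)).subset ?_, (Set.finite_empty).subset ?_⟩
  · rintro ⟨x, y⟩ ⟨rfl, rfl⟩; rfl
  · rintro ⟨x, y, z⟩ h; exact h

theorem fin_oneRule (a b c : S) : FinSpec (oneRule a b c) := by
  refine ⟨(Set.finite_empty).subset ?_, (Set.finite_singleton (a, b, c)).subset ?_⟩
  · rintro ⟨x, y⟩ h; exact h
  · rintro ⟨x, y, z⟩ ⟨rfl, rfl, rfl⟩; rfl

/-- every derivation lives in a finite sub-specification -/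
theorem typed_fin {P : Spec S} {Γ : List (Term S)} {M A : Term S} (h : Typed P Γ M A) :
    ∃ P' : Spec S, Le P' P ∧ FinSpec P' ∧ Typed P' Γ M A := by
  induction h with
  | @ax a b h =>
    refine ⟨oneAx a b, ⟨?_, fun _ _ _ h => h.elim⟩, fin_oneAx a b, .ax ⟨rfl, rfl⟩⟩
    rintro x y ⟨rfl, rfl⟩; exact h
  | start _ ih =>
    obtain ⟨Q, q1, q2, q3⟩ := ih
    exact ⟨Q, q1, q2, .start q3⟩
  | weak _ _ ih ih' =>
    obtain ⟨Q, q1, q2, q3⟩ := ih
    obtain ⟨R, r1, r2, r3⟩ := ih'
    exact ⟨union Q R, union_le q1 r1, fin_union q2 r2,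
      .weak (typed_mono (le_union_left Q R) q3) (typed_mono (le_union_right Q R) r3)⟩
  | @prod Γ A B a b c _ _ r ih ih' =>
    obtain ⟨Q, q1, q2, q3⟩ := ih
    obtain ⟨R, r1, r2, r3⟩ := ih'
    refine ⟨union (union Q R) (oneRule a b c), union_le (union_le q1 r1) ⟨fun _ _ h => h.elim, ?_⟩,
      fin_union (fin_union q2 r2) (fin_oneRule a b c), .prod
        (typed_mono ((le_union_left Q R).trans (le_union_left _ _)) q3)
        (typed_mono ((le_union_right Q R).trans (le_union_left _ _)) r3) (Or.inr ⟨rfl, rfl, rfl⟩)⟩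
    rintro x y z ⟨rfl, rfl, rfl⟩; exact r
  | abs _ _ ih ih' =>
    obtain ⟨Q, q1, q2, q3⟩ := ih
    obtain ⟨R, r1, r2, r3⟩ := ih'
    exact ⟨union Q R, union_le q1 r1, fin_union q2 r2,
      .abs (typed_mono (le_union_left Q R) q3) (typed_mono (le_union_right Q R) r3)⟩
  | appl _ _ ih ih' =>
    obtain ⟨Q, q1, q2, q3⟩ := ih
    obtain ⟨R, r1, r2, r3⟩ := ih'
    exact ⟨union Q R, union_le q1 r1, fin_union q2 r2,
      .appl (typed_mono (le_union_left Q R) q3) (typed_mono (le_union_right Q R) r3)⟩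
  | conv _ _ e ih ih' =>
    obtain ⟨Q, q1, q2, q3⟩ := ih
    obtain ⟨R, r1, r2, r3⟩ := ih'
    exact ⟨union Q R, union_le q1 r1, fin_union q2 r2,
      .conv (typed_mono (le_union_left Q R) q3) (typed_mono (le_union_right Q R) r3) e⟩

theorem legal_fin {P : Spec S} {Γ : List (Term S)} {M : Term S} (h : Legal P Γ M) :
    ∃ P' : Spec S, Le P' P ∧ FinSpec P' ∧ Legal P' Γ M := by
  obtain ⟨N, h | h⟩ := h
  · obtain ⟨Q, q1, q2, q3⟩ := typed_fin h
    exact ⟨Q, q1, q2, N, Or.inl q3⟩
  · obtain ⟨Q, q1, q2, q3⟩ := typed_fin h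
    exact ⟨Q, q1, q2, N, Or.inr q3⟩

/-- **finite spec wlog**: the literal form of S0452 follows from its finite case. The sub-spec `P'`
may be chosen inside `P`, and every finite extension of it inside `P` is available as well. -/
theorem fin_wlog
    (H : ∀ P' : Spec S, FinSpec P' → (∀ Γ M, Legal P' Γ M → WN M) → ∀ Γ M, Legal P' Γ M → SN M)
    (P : Spec S) (h : ∀ (Γ : List (Term S)) (M : Term S), Legal P Γ M → WN M)
    (Γ : List (Term S)) (M : Term S) (hM : Legal P Γ M) : SN M := by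
  obtain ⟨Q, q1, q2, q3⟩ := legal_fin hM
  exact H Q q2 (fun Γ' M' h' => h Γ' M' (legal_mono q1 h')) Γ M q3

/-- the finite set of sorts occurring in a finite specification -/
theorem sorts_finite {P : Spec S} (h : FinSpec P) :
    {s : S | (∃ a b, P.ax a b ∧ (s = a ∨ s = b)) ∨
      (∃ a b c, P.rule a b c ∧ (s = a ∨ s = b ∨ s = c))}.Finite := by
  have h1 : ((fun p : S × S => p.1) '' {p : S × S | P.ax p.1 p.2} ∪
      (fun p : S × S => p.2) '' {p : S × S | P.ax p.1 p.2}).Finite :=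
    (h.1.image _).union (h.1.image _)
  have h2 : ((fun p : S × S × S => p.1) '' {p : S × S × S | P.rule p.1 p.2.1 p.2.2} ∪
      ((fun p : S × S × S => p.2.1) '' {p : S × S × S | P.rule p.1 p.2.1 p.2.2} ∪
      (fun p : S × S × S => p.2.2) '' {p : S × S × S | P.rule p.1 p.2.1 p.2.2})).Finite :=
    (h.2.image _).union ((h.2.image _).union (h.2.image _))
  refine (h1.union h2).subset ?_
  rintro s (⟨a, b, hab, rfl | rfl⟩ | ⟨a, b, c, habc, rfl | rfl | rfl⟩)
  · exact Or.inl (Or.inl ⟨(s, b), hab, rfl⟩)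
  · exact Or.inl (Or.inr ⟨(a, s), hab, rfl⟩)
  · exact Or.inr (Or.inl ⟨(s, b, c), habc, rfl⟩)
  · exact Or.inr (Or.inr (Or.inl ⟨(a, s, c), habc, rfl⟩))
  · exact Or.inr (Or.inr (Or.inr ⟨(a, b, s), habc, rfl⟩))

end Crest.Agent.R298.Fin174
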