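import Crest.Agent.R298.Ty_452

/-!
R298 (S0452), helper452: typing over FUNCTION CONTEXTS `D : ℕ → Term S` (the type of
variable `i` is `D i`, no shift).  No weakening rule, no well-formedness: the variable rule
asks for a typing of the type of the variable.
-/

set_option autoImplicit false

namespace Crest.Agent.R298.TyF452

open Crest.LogicCS.PTS Crest.LogicCS.PTS.Term Relation
open Crest.Agent.R298.Sub452 Crest.Agent.R298.Par452 Crest.Agent.R298.Ty452

universe u
variable {S : Type u} {P : Spec S}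

/-- extension of a function context -/
def fcons (A : Term S) (D : ℕ → Term S) : ℕ → Term S
  | 0 => wk A
  | i + 1 => wk (D i)

@[simp] theorem fcons_zero (A : Term S) (D : ℕ → Term S) : fcons A D 0 = wk A := rfl
@[simp] theorem fcons_succ (A : Term S) (D : ℕ → Term S) (i : ℕ) :
    fcons A D (i + 1) = wk (D i) := rfl

/-- typing over a function context -/
inductive TyF (P : Spec S) : (ℕ → Term S) → Term S → Term S → Prop
  | ax {D : ℕ → Term S} {s₁ s₂ : S} : P.ax s₁ s₂ → TyF P D (sort s₁) (sort s₂)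
  | var {D : ℕ → Term S} {i : ℕ} {s : S} : TyF P D (D i) (sort s) → TyF P D (var i) (D i)
  | prod {D : ℕ → Term S} {A B : Term S} {s₁ s₂ s₃ : S} : TyF P D A (sort s₁) →
      TyF P (fcons A D) B (sort s₂) → P.rule s₁ s₂ s₃ → TyF P D (pi A B) (sort s₃)
  | abs {D : ℕ → Term S} {A M B : Term S} {s : S} : TyF P (fcons A D) M B →
      TyF P D (pi A B) (sort s) → TyF P D (lam A M) (pi A B)
  | appl {D : ℕ → Term S} {M N A B : Term S} : TyF P D M (pi A B) → TyF P D N A →
      TyF P D (app M N) (inst N B)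
  | conv {D : ℕ → Term S} {M A B : Term S} {s : S} : TyF P D M A → TyF P D B (sort s) →
      BetaEq A B → TyF P D M B

/-- every variable has a typed type -/
def WfF (P : Spec S) (D : ℕ → Term S) : Prop := ∀ i, ∃ s, TyF P D (D i) (sort s)

/-! ### renaming -/

/-- `ρ` preserves the declared types -/
def RenF (ρ : ℕ → ℕ) (D D' : ℕ → Term S) : Prop := ∀ i, D' (ρ i) = ren ρ (D i)

theorem RenF.up {ρ : ℕ → ℕ} {D D' : ℕ → Term S} (h : RenF ρ D D') (A : Term S) :
    RenF (up ρ) (fcons A D) (fcons (ren ρ A) D') := by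
  intro i
  cases i with
  | zero => simp only [up_zero, fcons_zero, ren_up_wk]
  | succ i => simp only [up_succ, fcons_succ, ren_up_wk, h i]

theorem RenF.wk (D : ℕ → Term S) (A : Term S) : RenF Nat.succ D (fcons A D) := fun _ => rfl

theorem RenF.id (D : ℕ → Term S) : RenF (fun i => i) D D := fun i => by rw [ren_id]

theorem RenF.comp {ρ τ : ℕ → ℕ} {D D' D'' : ℕ → Term S} (h : RenF ρ D D') (h' : RenF τ D' D'') :
    RenF (fun i => τ (ρ i)) D D'' := fun i => by
  show D'' (τ (ρ i)) = _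
  rw [h' (ρ i), h i, ren_ren]

theorem tyf_ren {D : ℕ → Term S} {M A : Term S} (h : TyF P D M A) :
    ∀ {D' : ℕ → Term S} {ρ : ℕ → ℕ}, RenF ρ D D' → TyF P D' (ren ρ M) (ren ρ A) := by
  induction h with
  | ax a => intro D' ρ _; exact .ax a
  | @var D i s _ ih =>
      intro D' ρ hr
      have := ih hr
      rw [← hr i] at this ⊢
      exact .var this
  | prod _ _ r ih ih' => intro D' ρ hr; exact .prod (ih hr) (ih' (hr.up _)) r
  | abs _ _ ih ih' => intro D' ρ hr; exact .abs (ih (hr.up _)) (ih' hr)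
  | appl _ _ ih ih' =>
      intro D' ρ hr
      rw [ren_inst]
      exact .appl (ih hr) (ih' hr)
  | conv _ _ e ih ih' => intro D' ρ hr; exact .conv (ih hr) (ih' hr) (BetaEq.ren e ρ)

theorem tyf_wk {D : ℕ → Term S} {M A : Term S} (h : TyF P D M A) (B : Term S) :
    TyF P (fcons B D) (wk M) (wk A) := tyf_ren h (RenF.wk D B)

theorem WfF.cons {D : ℕ → Term S} (h : WfF P D) {A : Term S} {s : S} (hA : TyF P D A (sort s)) :
    WfF P (fcons A D) := by
  intro i
  cases i with
  | zero => exact ⟨s, tyf_wk hA A⟩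
  | succ i =>
      obtain ⟨s', h'⟩ := h i
      exact ⟨s', tyf_wk h' A⟩

theorem tyf_var {D : ℕ → Term S} (h : WfF P D) (i : ℕ) : TyF P D (var i) (D i) := by
  obtain ⟨s, h'⟩ := h i
  exact .var h'

/-! ### generation -/

theorem fgen_sort {D : ℕ → Term S} {M C : Term S} (h : TyF P D M C) :
    ∀ s, M = sort s → ∃ s', P.ax s s' ∧ BetaEq C (sort s') := by
  induction h with
  | ax a => intro s e; cases e; exact ⟨_, a, .refl _⟩
  | conv _ _ e' ih _ =>
      intro s e
      obtain ⟨s', a, b⟩ := ih s e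
      exact ⟨s', a, BetaEq.trans (BetaEq.symm e') b⟩
  | _ => intro s e; cases e

theorem fgen_var {D : ℕ → Term S} {M C : Term S} (h : TyF P D M C) :
    ∀ i, M = var i → (∃ s, TyF P D (D i) (sort s)) ∧ BetaEq C (D i) := by
  induction h with
  | var a _ => intro s e; cases e; exact ⟨⟨_, a⟩, .refl _⟩
  | conv _ _ e' ih _ =>
      intro s e
      obtain ⟨a, b⟩ := ih s e
      exact ⟨a, BetaEq.trans (BetaEq.symm e') b⟩
  | _ => intro s e; cases e

theorem fgen_pi {D : ℕ → Term S} {M C : Term S} (h : TyF P D M C) :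
    ∀ A B, M = pi A B → ∃ s₁ s₂ s₃, TyF P D A (sort s₁) ∧ TyF P (fcons A D) B (sort s₂) ∧
      P.rule s₁ s₂ s₃ ∧ BetaEq C (sort s₃) := by
  induction h with
  | prod h h' r _ _ => intro A B e; cases e; exact ⟨_, _, _, h, h', r, .refl _⟩
  | conv _ _ e' ih _ =>
      intro A B e
      obtain ⟨s₁, s₂, s₃, a, b, c, d⟩ := ih A B e
      exact ⟨s₁, s₂, s₃, a, b, c, BetaEq.trans (BetaEq.symm e') d⟩
  | _ => intro A B e; cases e

theorem fgen_lam {D : ℕ → Term S} {M C : Term S} (h : TyF P D M C) :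
    ∀ A M', M = lam A M' → ∃ B s, TyF P (fcons A D) M' B ∧ TyF P D (pi A B) (sort s) ∧
      BetaEq C (pi A B) := by
  induction h with
  | abs h h' _ _ => intro A B e; cases e; exact ⟨_, _, h, h', .refl _⟩
  | conv _ _ e' ih _ =>
      intro A B e
      obtain ⟨B', s', a, b, c⟩ := ih A B e
      exact ⟨B', s', a, b, BetaEq.trans (BetaEq.symm e') c⟩
  | _ => intro A B e; cases e

theorem fgen_app {D : ℕ → Term S} {M C : Term S} (h : TyF P D M C) :
    ∀ M' N, M = app M' N → ∃ A B, TyF P D M' (pi A B) ∧ TyF P D N A ∧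
      BetaEq C (inst N B) := by
  induction h with
  | appl h h' _ _ => intro A B e; cases e; exact ⟨_, _, h, h', .refl _⟩
  | conv _ _ e' ih _ =>
      intro A B e
      obtain ⟨A', B', a, b, c⟩ := ih A B e
      exact ⟨A', B', a, b, BetaEq.trans (BetaEq.symm e') c⟩
  | _ => intro A B e; cases e

/-- the domain of a typed product is typed -/
theorem fpi_dom {D : ℕ → Term S} {A B C : Term S} (h : TyF P D (pi A B) C) :
    ∃ s, TyF P D A (sort s) := by
  obtain ⟨s₁, s₂, s₃, a, -⟩ := fgen_pi h _ _ rfl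
  exact ⟨s₁, a⟩

/-! ### substitution -/

/-- `σ` is a typed substitution from `D` to `D'` -/
def SubF (P : Spec S) (σ : ℕ → Term S) (D D' : ℕ → Term S) : Prop :=
  ∀ i, TyF P D' (σ i) (sub σ (D i))

theorem SubF.ups {σ : ℕ → Term S} {D D' : ℕ → Term S} (h : SubF P σ D D') {A : Term S} {s : S}
    (hA : TyF P D' (sub σ A) (sort s)) : SubF P (ups σ) (fcons A D) (fcons (sub σ A) D') := by
  intro i
  cases i with
  | zero =>
      simp only [ups_zero, fcons_zero, sub_wk]
      exact TyF.var (D := fcons (sub σ A) D') (i := 0) (tyf_wk hA _)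
  | succ i =>
      simp only [ups_succ, fcons_succ, sub_wk]
      exact tyf_wk (h i) _

theorem tyf_sub {D : ℕ → Term S} {M A : Term S} (h : TyF P D M A) :
    ∀ {D' : ℕ → Term S} {σ : ℕ → Term S}, SubF P σ D D' → TyF P D' (sub σ M) (sub σ A) := by
  induction h with
  | ax a => intro D' σ _; exact .ax a
  | @var D i s _ ih => intro D' σ hr; exact hr i
  | prod _ _ r ih ih' =>
      intro D' σ hr
      have a := ih hr
      exact .prod a (ih' (hr.ups a)) r
  | abs _ _ ih ih' =>
      intro D' σ hr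
      have b := ih' hr
      rw [sub_pi] at b
      obtain ⟨s, a⟩ := fpi_dom b
      exact .abs (ih (hr.ups a)) b
  | appl _ _ ih ih' =>
      intro D' σ hr
      rw [sub_inst]
      exact .appl (ih hr) (ih' hr)
  | conv _ _ e ih ih' => intro D' σ hr; exact .conv (ih hr) (ih' hr) (BetaEq.sub e σ)

theorem SubF.var {D : ℕ → Term S} (h : WfF P D) : SubF P Term.var D D :=
  fun i => by rw [sub_id]; exact tyf_var h i

theorem SubF.scons {σ : ℕ → Term S} {D D' : ℕ → Term S} (h : SubF P σ D D') {N A : Term S}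
    (hN : TyF P D' N (sub σ A)) : SubF P (scons N σ) (fcons A D) D' := by
  intro i
  cases i with
  | zero => simpa only [fcons_zero, Sub452.wk, sub_ren, Nat.succ_eq_add_one, scons_succ,
      scons_zero] using hN
  | succ i =>
      have := h i
      simpa only [fcons_succ, Sub452.wk, sub_ren, Nat.succ_eq_add_one, scons_succ] using this

theorem tyf_inst {D : ℕ → Term S} {A M B N : Term S} (w : WfF P D)
    (h : TyF P (fcons A D) M B) (hN : TyF P D N A) : TyF P D (inst N M) (inst N B) :=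
  tyf_sub h ((SubF.var w).scons (by rwa [sub_id]))

theorem SubF.comp {σ τ : ℕ → Term S} {D D' D'' : ℕ → Term S} (h : SubF P σ D D')
    (h' : SubF P τ D' D'') : SubF P (fun i => sub τ (σ i)) D D'' := fun i => by
  have := tyf_sub (h i) h'
  rwa [sub_sub] at this

theorem SubF.of_ren {ρ : ℕ → ℕ} {D D' : ℕ → Term S} (w : WfF P D') (h : RenF ρ D D') :
    SubF P (fun i => Term.var (ρ i)) D D' := fun i => by
  rw [← ren_eq_sub, ← h i]
  exact tyf_var w _

/-- context conversion -/
theorem fctx_conv {D : ℕ → Term S} {A A' M B : Term S} {s s' : S} (w : WfF P D)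
    (h : TyF P (fcons A D) M B) (hA : TyF P D A (sort s)) (hA' : TyF P D A' (sort s'))
    (e : BetaEq A A') : TyF P (fcons A' D) M B := by
  have hs : SubF P Term.var (fcons A D) (fcons A' D) := by
    intro i
    rw [sub_id]
    cases i with
    | zero =>
        refine .conv (TyF.var (D := fcons A' D) (i := 0) (tyf_wk hA' _)) (tyf_wk hA _) ?_
        exact BetaEq.symm (BetaEq.ren e _)
    | succ i => exact tyf_wk (tyf_var w i) _
  have := tyf_sub h hs
  rwa [sub_id, sub_id] at this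

/-! ### type correctness -/

theorem ftype_correct {D : ℕ → Term S} {M A : Term S} (w : WfF P D) (h : TyF P D M A) :
    (∃ s, A = sort s) ∨ ∃ s, TyF P D A (sort s) := by
  induction h with
  | ax _ => exact .inl ⟨_, rfl⟩
  | var h _ => exact .inr ⟨_, h⟩
  | prod _ _ _ _ _ => exact .inl ⟨_, rfl⟩
  | abs _ h _ _ => exact .inr ⟨_, h⟩
  | appl _ h ih _ =>
      rcases ih w with ⟨s', e⟩ | ⟨s', h''⟩
      · cases e
      · obtain ⟨s₁, s₂, s₃, a, b, c, d⟩ := fgen_pi h'' _ _ rfl
        exact .inr ⟨s₂, tyf_inst w b h⟩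
  | conv _ h _ _ _ => exact .inr ⟨_, h⟩

theorem fpi_typed {D : ℕ → Term S} {M A B : Term S} (w : WfF P D) (h : TyF P D M (pi A B)) :
    ∃ s, TyF P D (pi A B) (sort s) := by
  rcases ftype_correct w h with ⟨s, e⟩ | h
  · cases e
  · exact h

/-! ### subject reduction -/

theorem fsr {D : ℕ → Term S} {M A : Term S} (h : TyF P D M A) :
    WfF P D → ∀ M', Beta M M' → TyF P D M' A := by
  induction h with
  | ax _ => intro w M' b; cases b
  | @var D i s h _ =>
      intro w M' b; cases b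
  | prod h h' r ih ih' =>
      intro w M' b
      cases b with
      | piA _ b => exact .prod (ih w _ b) (fctx_conv w h' h (ih w _ b) (.rel _ _ b)) r
      | piB _ b => exact .prod h (ih' (w.cons h) _ b) r
  | abs h h' ih ih' =>
      intro w M' b
      obtain ⟨s', hA⟩ := fpi_dom h'
      cases b with
      | lamA _ b =>
          have h2 := ih' w _ (.piA _ b)
          obtain ⟨s'', hA'⟩ := fpi_dom h2
          refine .conv (.abs (fctx_conv w h hA hA' (.rel _ _ b)) h2) h' ?_
          exact BetaEq.symm (.rel _ _ (.piA _ b))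
      | lamM _ b => exact .abs (ih (w.cons hA) _ b) h'
  | @appl D M N A B h h' ih ih' =>
      intro w M' b
      obtain ⟨s, hp⟩ := fpi_typed w h
      obtain ⟨s₁, s₂, s₃, hA, hB, r, -⟩ := fgen_pi hp _ _ rfl
      cases b with
      | redex A0 M0 _ =>
          rw [subst_eq]
          obtain ⟨B0, s', c, d, e⟩ := fgen_lam h _ _ rfl
          obtain ⟨e1, e2⟩ := pi_inj e
          obtain ⟨s0, hA0⟩ := fpi_dom d
          have hN : TyF P D N A0 := .conv h' hA0 e1
          refine .conv (tyf_inst w c hN) (tyf_inst w hB h') ?_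
          exact BetaEq.symm (BetaEq.sub e2 _)
      | appL _ b => exact .appl (ih w _ b) h'
      | appR _ b =>
          refine .conv (.appl h (ih' w _ b)) (tyf_inst w hB h') ?_
          exact BetaEq.symm (red_inst (.single b) .refl).eq
  | conv _ h e ih _ => intro w M' b; exact .conv (ih w _ b) h e

theorem FSR {D : ℕ → Term S} {M M' A : Term S} (w : WfF P D) (h : TyF P D M A) (r : Red M M') :
    TyF P D M' A := by
  induction r with
  | refl => exact h
  | tail _ b ih => exact fsr ih w _ b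

theorem tyf_red_type {D : ℕ → Term S} {M A A' : Term S} (w : WfF P D) (h : TyF P D M A)
    (r : Red A A') : TyF P D M A' := by
  rcases ftype_correct w h with ⟨s, rfl⟩ | ⟨s, hA⟩
  · rw [red_sort r]; exact h
  · exact .conv h (FSR w hA r) r.eq

theorem tyf_sort_of_eq {D : ℕ → Term S} {M A : Term S} {s : S} (w : WfF P D) (h : TyF P D M A)
    (e : BetaEq A (sort s)) : TyF P D M (sort s) :=
  tyf_red_type w h (red_of_eq_sort e)

/-! ### transfer from and to list contexts -/

/-- from lists to function contexts, along a renaming -/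
theorem typed_tyf {Γ : List (Term S)} {M A : Term S} (h : Typed P Γ M A) :
    ∀ {D : ℕ → Term S} {ρ : ℕ → ℕ}, (∀ i B, Lk Γ i B → D (ρ i) = ren ρ B) →
      TyF P D (ren ρ M) (ren ρ A) := by
  refine typed_ind (P := P) (motive := fun Γ M A => ∀ {D : ℕ → Term S} {ρ : ℕ → ℕ},
    (∀ i B, Lk Γ i B → D (ρ i) = ren ρ B) → TyF P D (ren ρ M) (ren ρ A)) ?_ ?_ ?_ ?_ ?_ ?_ ?_ h
  · intro s₁ s₂ a D ρ _; exact .ax a
  · intro Γ A s _ ih D ρ hr
    have h0 := hr 0 _ (.zero _ _)
    have := ih (D := D) (ρ := fun i => ρ (Nat.succ i)) (fun i B hl => by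
      have := hr _ _ (Lk.succ A hl)
      simpa only [wk, ren_ren] using this)
    rw [← h0]
    refine .var (s := s) ?_
    rw [h0]
    simpa only [wk, ren_ren, ren_sort] using this
  · intro Γ M B A s _ _ ih _ D ρ hr
    have := ih (D := D) (ρ := fun i => ρ (Nat.succ i)) (fun i B hl => by
      have := hr _ _ (Lk.succ A hl)
      simpa only [wk, ren_ren] using this)
    simpa only [wk, ren_ren] using this
  · intro Γ A B s₁ s₂ s₃ _ _ r ih ih' D ρ hr
    refine .prod (ih hr) (ih' ?_) r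
    intro i C hl
    cases hl with
    | zero _ _ => rw [ren_up_wk]; rfl
    | succ _ hl => rw [ren_up_wk, ← hr _ _ hl]; rfl
  · intro Γ A M B s _ _ ih ih' D ρ hr
    refine .abs (ih ?_) (ih' hr)
    intro i C hl
    cases hl with
    | zero _ _ => rw [ren_up_wk]; rfl
    | succ _ hl => rw [ren_up_wk, ← hr _ _ hl]; rfl
  · intro Γ M N A B _ _ ih ih' D ρ hr
    rw [ren_inst]
    exact .appl (ih hr) (ih' hr)
  · intro Γ M A B s _ _ e ih ih' D ρ hr
    exact .conv (ih hr) (ih' hr) (BetaEq.ren e ρ)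

/-- from lists to function contexts -/
theorem typed_tyf_id {Γ : List (Term S)} {M A : Term S} (h : Typed P Γ M A) {D : ℕ → Term S}
    (hD : ∀ i B, Lk Γ i B → D i = B) : TyF P D M A := by
  have := typed_tyf h (D := D) (ρ := fun i => i) (fun i B hl => by rw [ren_id]; exact hD i B hl)
  rwa [ren_id, ren_id] at this

/-- a derivation over a function context uses finitely many variables -/
theorem tyf_fin {D : ℕ → Term S} {M A : Term S} (h : TyF P D M A) :
    ∃ n₀ : ℕ, ∀ (Γ : List (Term S)) (ρ : ℕ → ℕ), Wf P Γ →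
      (∀ i < n₀, Lk Γ (ρ i) (ren ρ (D i))) → Typed P Γ (ren ρ M) (ren ρ A) := by
  induction h with
  | ax a => exact ⟨0, fun Γ ρ w _ => ax_wf w a⟩
  | @var D i s _ _ => exact ⟨i + 1, fun Γ ρ w hl => var_wf (hl i (Nat.lt_succ_self i)) w⟩
  | @prod D A B s₁ s₂ s₃ _ _ r ih ih' =>
      obtain ⟨n₁, h₁⟩ := ih
      obtain ⟨n₂, h₂⟩ := ih'
      refine ⟨max n₁ n₂, fun Γ ρ w hl => ?_⟩
      have a := h₁ Γ ρ w (fun i hi => hl i (lt_of_lt_of_le hi (le_max_left _ _)))
      refine .prod a (h₂ (ren ρ A :: Γ) (up ρ) (.cons w a) ?_) r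
      intro i hi
      cases i with
      | zero => rw [fcons_zero, ren_up_wk]; exact .zero _ _
      | succ i =>
          rw [fcons_succ, ren_up_wk]
          exact .succ _ (hl i (lt_of_lt_of_le (Nat.lt_of_succ_lt hi) (le_max_right _ _)))
  | @abs D A M B s _ _ ih ih' =>
      obtain ⟨n₁, h₁⟩ := ih
      obtain ⟨n₂, h₂⟩ := ih'
      refine ⟨max n₁ n₂, fun Γ ρ w hl => ?_⟩
      have b : Typed P Γ (pi (ren ρ A) (ren (up ρ) B)) (sort s) :=
        h₂ Γ ρ w (fun i hi => hl i (lt_of_lt_of_le hi (le_max_right _ _)))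
      obtain ⟨s', a⟩ := pi_dom b
      refine .abs (h₁ (ren ρ A :: Γ) (up ρ) (.cons w a) ?_) b
      intro i hi
      cases i with
      | zero => rw [fcons_zero, ren_up_wk]; exact .zero _ _
      | succ i =>
          rw [fcons_succ, ren_up_wk]
          exact .succ _ (hl i (lt_of_lt_of_le (Nat.lt_of_succ_lt hi) (le_max_left _ _)))
  | appl _ _ ih ih' =>
      obtain ⟨n₁, h₁⟩ := ih
      obtain ⟨n₂, h₂⟩ := ih'
      refine ⟨max n₁ n₂, fun Γ ρ w hl => ?_⟩
      rw [ren_inst]
      exact t_appl (h₁ Γ ρ w (fun i hi => hl i (lt_of_lt_of_le hi (le_max_left _ _))))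
        (h₂ Γ ρ w (fun i hi => hl i (lt_of_lt_of_le hi (le_max_right _ _))))
  | conv _ _ e ih ih' =>
      obtain ⟨n₁, h₁⟩ := ih
      obtain ⟨n₂, h₂⟩ := ih'
      refine ⟨max n₁ n₂, fun Γ ρ w hl => ?_⟩
      exact .conv (h₁ Γ ρ w (fun i hi => hl i (lt_of_lt_of_le hi (le_max_left _ _))))
        (h₂ Γ ρ w (fun i hi => hl i (lt_of_lt_of_le hi (le_max_right _ _)))) (BetaEq.ren e ρ)

/-- every finite part of `D` is realised by a well-formed list context -/
def FinF (P : Spec S) (D : ℕ → Term S) : Prop :=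
  ∀ n : ℕ, ∃ (Γ : List (Term S)) (ρ : ℕ → ℕ), Wf P Γ ∧ Function.Injective ρ ∧
    ∀ i < n, Lk Γ (ρ i) (ren ρ (D i))

theorem up_injective {ρ : ℕ → ℕ} (h : Function.Injective ρ) : Function.Injective (up ρ) := by
  intro i j e
  cases i with
  | zero => cases j with
    | zero => rfl
    | succ j => simp at e
  | succ i => cases j with
    | zero => simp at e
    | succ j =>
        simp only [up_succ, Nat.add_right_cancel_iff] at e
        rw [h e]

/-- good function contexts: those over which everything works -/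
structure Good (P : Spec S) (D : ℕ → Term S) : Prop where
  wf : WfF P D
  fin : FinF P D

theorem Good.cons {D : ℕ → Term S} (g : Good P D) {A : Term S} {s : S}
    (hA : TyF P D A (sort s)) : Good P (fcons A D) := by
  refine ⟨g.wf.cons hA, fun n => ?_⟩
  obtain ⟨n₀, h₀⟩ := tyf_fin hA
  obtain ⟨Γ, ρ, w, hi, hl⟩ := g.fin (max n n₀)
  have a := h₀ Γ ρ w (fun i hi => hl i (lt_of_lt_of_le hi (le_max_right _ _)))
  refine ⟨ren ρ A :: Γ, up ρ, .cons w a, up_injective hi, ?_⟩
  intro i hi
  cases i with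
  | zero => rw [fcons_zero, ren_up_wk]; exact .zero _ _
  | succ i =>
      rw [fcons_succ, ren_up_wk]
      exact .succ _ (hl i (lt_of_lt_of_le (Nat.lt_of_succ_lt hi) (le_max_left _ _)))

/-- typed terms over a good function context are typed (after an injective renaming) over a
list context -/
theorem Good.typed {D : ℕ → Term S} (g : Good P D) {M A : Term S} (h : TyF P D M A) :
    ∃ (Γ : List (Term S)) (ρ : ℕ → ℕ), Function.Injective ρ ∧ Typed P Γ (ren ρ M) (ren ρ A) := by
  obtain ⟨n₀, h₀⟩ := tyf_fin h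
  obtain ⟨Γ, ρ, w, hi, hl⟩ := g.fin n₀
  exact ⟨Γ, ρ, hi, h₀ Γ ρ w hl⟩

theorem red_ren_inv {M N : Term S} {ρ : ℕ → ℕ} (h : Red (ren ρ M) N) :
    ∃ M', Red M M' ∧ N = ren ρ M' := by
  generalize hK : ren ρ M = K at h
  induction h with
  | refl => exact ⟨M, .refl, hK.symm⟩
  | tail _ b ih =>
      obtain ⟨M', r, rfl⟩ := ih
      obtain ⟨M'', b', rfl⟩ := beta_ren_inv b
      exact ⟨M'', r.tail b', rfl⟩

theorem normal_ren {M : Term S} (h : Normal M) (ρ : ℕ → ℕ) : Normal (ren ρ M) := by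
  intro N b
  obtain ⟨M', b', _⟩ := beta_ren_inv b
  exact h _ b'

theorem normal_of_ren {M : Term S} {ρ : ℕ → ℕ} (h : Normal (ren ρ M)) : Normal M :=
  fun _ b => h _ (Beta.ren b ρ)

theorem wn_of_ren {M : Term S} {ρ : ℕ → ℕ} (h : WN (ren ρ M)) : WN M := by
  obtain ⟨N, r, n⟩ := h
  obtain ⟨M', r', rfl⟩ := red_ren_inv r
  exact ⟨M', r', normal_of_ren n⟩

theorem wn_ren {M : Term S} (h : WN M) (ρ : ℕ → ℕ) : WN (ren ρ M) := by
  obtain ⟨N, r, n⟩ := h
  exact ⟨ren ρ N, Red.ren r ρ, normal_ren n ρ⟩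

/-- all legal terms over good contexts are weakly normalising -/
theorem Good.wn {D : ℕ → Term S} (g : Good P D)
    (hP : ∀ (Γ : List (Term S)) (M : Term S), Legal P Γ M → WN M) {M A : Term S}
    (h : TyF P D M A) : WN M ∧ WN A := by
  obtain ⟨Γ, ρ, _, h'⟩ := g.typed h
  exact ⟨wn_of_ren (hP Γ _ ⟨_, .inl h'⟩), wn_of_ren (hP Γ _ ⟨_, .inr h'⟩)⟩

end Crest.Agent.R298.TyF452
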