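import Crest.Agent.R298.Fl1_113
import Crest.Agent.R298.TyF_452

/-!
R298 (S0452), helper113: THEOREM F over function contexts (452's `TyF`).

World `W : ℕ → Term S` (`WfF P W`).  Closed types = types over `W`.
`Cs T T'`  : `T'` is a codomain instance of `T` (up to reduction).
`Rl T`     : some chain of codomain instances ends in a sort of `D` (relevant type).
`Tame T`   : accessibility over relevant domain steps of codomain-instance descendants.
THEOREM F  : if there is no fat configuration, then a closed type with sorts `t`, `t'` of opposite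
signs is tame.
-/

set_option autoImplicit false

namespace Crest.Agent.R298.Fl113

open Crest.LogicCS.PTS Crest.LogicCS.PTS.Term Relation
open Crest.Agent.R298.Sub452 Crest.Agent.R298.Par452 Crest.Agent.R298.Ty452
open Crest.Agent.R298.TyF452

universe u

variable {S : Type u} {P : Spec S} {D : Set S} {W : ℕ → Term S}

/-- codomain instance -/
def Cs (P : Spec S) (W : ℕ → Term S) (T T' : Term S) : Prop :=
  ∃ A B N, Red T (pi A B) ∧ TyF P W N A ∧ T' = inst N B

/-- relevant closed types -/
inductive Rl (P : Spec S) (D : Set S) (W : ℕ → Term S) : Term S → Prop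
  | leaf {T : Term S} {s : S} : Red T (sort s) → s ∈ D → Rl P D W T
  | step {T T' : Term S} : Cs P W T T' → Rl P D W T' → Rl P D W T

/-- tame closed types: accessibility over relevant domain steps -/
inductive Tame (P : Spec S) (D : Set S) (W : ℕ → Term S) : Term S → Prop
  | mk {T : Term S} : (∀ T' A B, ReflTransGen (Cs P W) T T' → Red T' (pi A B) →
      Rl P D W (pi A B) → Rl P D W A → Tame P D W A) → Tame P D W T

theorem Tame.inv {T : Term S} (h : Tame P D W T) : ∀ T' A B, ReflTransGen (Cs P W) T T' →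
    Red T' (pi A B) → Rl P D W (pi A B) → Rl P D W A → Tame P D W A := by
  cases h with
  | mk h => exact h

/-! ### reduction -/

theorem Cs.of_red {T T₁ T' : Term S} (r : Red T T₁) (h : Cs P W T₁ T') : Cs P W T T' := by
  obtain ⟨A, B, N, h1, h2, h3⟩ := h
  exact ⟨A, B, N, r.trans h1, h2, h3⟩

theorem Cs.red (w : WfF P W) {T T₁ T' : Term S} (r : Red T T₁) (h : Cs P W T T') :
    ∃ T₁', Cs P W T₁ T₁' ∧ Red T' T₁' := by
  obtain ⟨A, B, N, h1, h2, rfl⟩ := h
  obtain ⟨Q, q1, q2⟩ := confluence h1 r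
  obtain ⟨A', B', rfl, a, b⟩ := red_pi q1
  exact ⟨_, ⟨A', B', N, q2, tyf_red_type w h2 a, rfl⟩, red_inst .refl b⟩

theorem css_red (w : WfF P W) {T T' : Term S} (h : ReflTransGen (Cs P W) T T') :
    ∀ {T₁ : Term S}, Red T T₁ → ∃ T₁', ReflTransGen (Cs P W) T₁ T₁' ∧ Red T' T₁' := by
  induction h with
  | refl => intro T₁ r; exact ⟨T₁, .refl, r⟩
  | tail _ h ih =>
      intro T₁ r
      obtain ⟨T₂, h1, h2⟩ := ih r
      obtain ⟨T₃, h3, h4⟩ := h.red w h2
      exact ⟨T₃, h1.tail h3, h4⟩

theorem Rl.of_red {T T₁ : Term S} (r : Red T T₁) (h : Rl P D W T₁) : Rl P D W T := by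
  cases h with
  | leaf h hs => exact .leaf (r.trans h) hs
  | step h h' => exact .step (h.of_red r) h'

theorem Rl.red (w : WfF P W) {T : Term S} (h : Rl P D W T) :
    ∀ {T₁ : Term S}, Red T T₁ → Rl P D W T₁ := by
  induction h with
  | leaf h hs =>
      intro T₁ r
      obtain ⟨Q, q1, q2⟩ := confluence h r
      rw [red_sort q1] at q2
      exact .leaf q2 hs
  | step h _ ih =>
      intro T₁ r
      obtain ⟨T₂, h1, h2⟩ := h.red w r
      exact .step h1 (ih h2)

theorem Rl.of_css {T T' : Term S} (h : ReflTransGen (Cs P W) T T') (h' : Rl P D W T') :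
    Rl P D W T := by
  induction h with
  | refl => exact h'
  | tail _ h ih => exact ih (.step h h')

theorem Tame.red {T T₁ : Term S} (r : Red T T₁) (h : Tame P D W T) : Tame P D W T₁ := by
  refine .mk fun T' A B h1 h2 h3 h4 => ?_
  rcases ReflTransGen.cases_head h1 with rfl | ⟨T₂, h5, h6⟩
  · exact h.inv T A B .refl (r.trans h2) h3 h4
  · exact h.inv T' A B (.head (h5.of_red r) h6) h2 h3 h4

theorem Tame.of_red (w : WfF P W) {T₁ : Term S} (h : Tame P D W T₁) :
    ∀ {T : Term S}, Red T T₁ → Tame P D W T := by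
  induction h with
  | mk h ih =>
      intro T r
      refine .mk fun T' A B h1 h2 h3 h4 => ?_
      obtain ⟨T₁', h5, h6⟩ := css_red w h1 r
      obtain ⟨Q, q1, q2⟩ := confluence h2 h6
      obtain ⟨A', B', rfl, a, b⟩ := red_pi q1
      exact ih T₁' A' B' h5 q2 (h3.red w q1) (h4.red w a) a

theorem Tame.of_not_rl {T : Term S} (h : ¬ Rl P D W T) : Tame P D W T :=
  .mk fun _ _ _ h1 h2 h3 _ => (h (Rl.of_css h1 (h3.of_red h2))).elim

theorem Tame.pi {A B : Term S} (hA : Rl P D W (pi A B) → Rl P D W A → Tame P D W A)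
    (hB : ∀ N, TyF P W N A → Tame P D W (inst N B)) {s : S} (hs : TyF P W A (sort s)) :
    Tame P D W (Term.pi A B) := by
  refine .mk fun T' A' B' h1 h2 h3 h4 => ?_
  rcases ReflTransGen.cases_head h1 with rfl | ⟨T₂, h5, h6⟩
  · obtain ⟨A₁, B₁, e, a, b⟩ := red_pi h2
    injection e with e1 e2
    subst e1; subst e2
    exact (hA (h3.of_red h2) (h4.of_red a)).red a
  · obtain ⟨A₁, B₁, N, h7, h8, rfl⟩ := h5
    obtain ⟨A₂, B₂, e, a, b⟩ := red_pi h7
    injection e with e1 e2
    subst e1; subst e2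
    have hN : TyF P W N A := .conv h8 hs (BetaEq.symm a.eq)
    exact ((hB N hN).red (red_inst .refl b)).inv T' A' B' h6 h2 h3 h4

/-! ### typing -/

theorem cs_typed (w : WfF P W) {T T' : Term S} {t : S} (hT : TyF P W T (sort t))
    (h : Cs P W T T') : ∃ a b, P.rule a b t ∧ TyF P W T' (sort b) := by
  obtain ⟨A, B, N, h1, h2, rfl⟩ := h
  obtain ⟨a, b, c, hA, hB, r, e⟩ := fgen_pi (FSR w hT h1) _ _ rfl
  rw [sort_inj e]
  exact ⟨a, b, r, tyf_inst w hB h2⟩

theorem Rl.relS (w : WfF P W) {T : Term S} (h : Rl P D W T) :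
    ∀ {t : S}, TyF P W T (sort t) → RelS P D t := by
  induction h with
  | leaf h hs =>
      intro t hT
      obtain ⟨s', a, e⟩ := fgen_sort (FSR w hT h) _ rfl
      rw [sort_inj e]
      exact .base hs a
  | step h _ ih =>
      intro t hT
      obtain ⟨a, b, r, hT'⟩ := cs_typed w hT h
      exact .up r (ih hT')

theorem Rl.relS_cod (w : WfF P W) {A B : Term S} (h : Rl P D W (pi A B)) {a b : S}
    (hA : TyF P W A (sort a)) (hB : TyF P (fcons A W) B (sort b)) : RelS P D b := by
  cases h with
  | leaf h hs =>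
      obtain ⟨A', B', e, -⟩ := red_pi h
      cases e
  | step h h' =>
      obtain ⟨A₁, B₁, N, h1, h2, rfl⟩ := h
      obtain ⟨A₂, B₂, e, ra, rb⟩ := red_pi h1
      injection e with e1 e2
      subst e1; subst e2
      have hN : TyF P W N A := .conv h2 hA (BetaEq.symm ra.eq)
      exact h'.relS w (FSR w (tyf_inst w hB hN) (red_inst .refl rb))

theorem css_sorts (w : WfF P W) {T T' : Term S} (h : ReflTransGen (Cs P W) T T') :
    Rl P D W T' → ∀ {t : S}, TyF P W T (sort t) → ∃ t', TyF P W T' (sort t') ∧ Rd P D t t' := by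
  induction h using ReflTransGen.head_induction_on with
  | refl => intro _ t hT; exact ⟨t, hT, Rd.refl _ _ _⟩
  | head h1 h2 ih =>
      intro hr t hT
      obtain ⟨a, b, r, hT₁⟩ := cs_typed w hT h1
      obtain ⟨t', h3, h4⟩ := ih hr hT₁
      exact ⟨t', h3, (Rd.cod r ((Rl.of_css h2 hr).relS w hT₁)).trans h4⟩

/-! ### neutral terms -/

/-- neutral terms with head variable `i` -/
inductive Ne (i : ℕ) : Term S → Prop
  | var : Ne i (var i)
  | app {M N : Term S} : Ne i M → Ne i (app M N)

theorem Ne.uniq {i : ℕ} {M : Term S} (h : Ne i M) :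
    ∀ {G : ℕ → Term S} {C C' : Term S}, TyF P G M C → TyF P G M C' → BetaEq C C' := by
  induction h with
  | var =>
      intro G C C' h h'
      exact BetaEq.trans (fgen_var h _ rfl).2 (BetaEq.symm (fgen_var h' _ rfl).2)
  | app _ ih =>
      intro G C C' h h'
      obtain ⟨A, B, h1, h2, e⟩ := fgen_app h _ _ rfl
      obtain ⟨A', B', h1', h2', e'⟩ := fgen_app h' _ _ rfl
      have := (pi_inj (ih h1 h1')).2
      exact BetaEq.trans e (BetaEq.trans (BetaEq.sub this _) (BetaEq.symm e'))

theorem Ne.red {i : ℕ} {M N : Term S} (h : Ne i M) (b : Beta M N) : Ne i N := by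
  induction h generalizing N with
  | var => cases b
  | app h ih =>
      cases b with
      | redex A M N => cases h
      | appL _ b => exact .app (ih b)
      | appR _ b => exact .app h

theorem Ne.reds {i : ℕ} {M N : Term S} (h : Ne i M) (b : Red M N) : Ne i N := by
  induction b with
  | refl => exact h
  | tail _ b ih => exact ih.red b

theorem Ne.sub {i j : ℕ} {σ : ℕ → Term S} (hσ : σ i = Term.var j) {M : Term S} (h : Ne i M) :
    Ne j (Sub452.sub σ M) := by
  induction h with
  | var => rw [sub_var, hσ]; exact .var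
  | app _ ih => exact .app ih

theorem Ne.tame {i : ℕ} {M : Term S} (h : Ne i M) : Tame P D W M := by
  refine .mk fun T' A B h1 h2 h3 _ => ?_
  rcases ReflTransGen.cases_head h1 with rfl | ⟨T₂, h5, h6⟩
  · cases h.reds h2
  · obtain ⟨A₁, B₁, N, h7, h8, rfl⟩ := h5
    cases h.reds h7

/-- the leaf sort of a neutral term is the leaf of the sort of the type of its head -/
theorem Ne.hs_aux {i : ℕ} {M : Term S} (h : Ne i M) : ∀ {G : ℕ → Term S} {C : Term S} {a : S},
    WfF P G → TyF P G M C → TyF P G (G i) (sort a) →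
    ∃ C' c', BetaEq C C' ∧ TyF P G C' (sort c') ∧ ∀ u, HS P u c' → HS P u a := by
  induction h with
  | var =>
      intro G C a _ h ha
      exact ⟨_, a, (fgen_var h _ rfl).2, ha, fun _ h => h⟩
  | app _ ih =>
      intro G C a w h ha
      obtain ⟨A, B, h1, h2, e⟩ := fgen_app h _ _ rfl
      obtain ⟨C₁, c₁, e1, h3, h4⟩ := ih w h1 ha
      obtain ⟨A', B', r, rA, rB⟩ := red_of_eq_pi (BetaEq.symm e1)
      obtain ⟨x, y, z, hA, hB, rl, e2⟩ := fgen_pi (FSR w h3 r) _ _ rfl
      have hz : c₁ = z := sort_inj e2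
      subst hz
      have hN : TyF P G _ A' := .conv h2 hA rA.eq
      refine ⟨_, y, BetaEq.trans e ?_, tyf_inst w hB hN, fun u hu => h4 u (.up rl hu)⟩
      exact BetaEq.sub rB.eq _

theorem Ne.hs {i : ℕ} {M : Term S} (h : Ne i M) {G : ℕ → Term S} {u a : S}
    (w : WfF P G) (hM : TyF P G M (sort u)) (ha : TyF P G (G i) (sort a)) : HS P u a := by
  obtain ⟨C', c', e, h1, h2⟩ := h.hs_aux w hM ha
  obtain ⟨s', hax, e'⟩ := fgen_sort (FSR w h1 (red_of_eq_sort (BetaEq.symm e))) _ rfl
  rw [sort_inj e'] at h2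
  exact h2 u (.base hax)

/-- shape of normal types -/
theorem normal_type {G : ℕ → Term S} {T : Term S} (hn : Normal T) {C : Term S}
    (h : TyF P G T C) : (∃ s, T = sort s) ∨ (∃ A B, T = pi A B) ∨ (∃ A B, T = lam A B) ∨
      ∃ i, Ne i T := by
  induction T generalizing C with
  | var i => exact .inr (.inr (.inr ⟨i, .var⟩))
  | sort s => exact .inl ⟨s, rfl⟩
  | pi A B _ _ => exact .inr (.inl ⟨A, B, rfl⟩)
  | lam A B _ _ => exact .inr (.inr (.inl ⟨A, B, rfl⟩))
  | app M N ih _ =>
      obtain ⟨A, B, h1, h2, e⟩ := fgen_app h _ _ rfl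
      have hM : Normal M := fun M' b => hn _ (.appL _ b)
      rcases ih hM h1 with ⟨s, rfl⟩ | ⟨A', B', rfl⟩ | ⟨A', B', rfl⟩ | ⟨i, hi⟩
      · obtain ⟨s', _, e'⟩ := fgen_sort h1 _ rfl
        exact (not_sort_pi (BetaEq.symm e')).elim
      · obtain ⟨x, y, z, _, _, _, e'⟩ := fgen_pi h1 _ _ rfl
        exact (not_sort_pi (BetaEq.symm e')).elim
      · exact (hn _ (.redex _ _ _)).elim
      · exact .inr (.inr (.inr ⟨i, .app hi⟩))

theorem not_lam_sort {G : ℕ → Term S} {A B : Term S} {t : S} (h : TyF P G (lam A B) (sort t)) :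
    False := by
  obtain ⟨B', s, _, _, e⟩ := fgen_lam h _ _ rfl
  exact not_sort_pi e

theorem tame_sort {s : S} : Tame P D W (sort s) := by
  refine .mk fun T' A B h1 h2 h3 _ => ?_
  rcases ReflTransGen.cases_head h1 with rfl | ⟨T₂, h5, h6⟩
  · cases red_sort h2
  · obtain ⟨A₁, B₁, N, h7, h8, rfl⟩ := h5
    cases red_sort h7

/-- both signs propagate downwards -/
theorem Both.rd {c x : S} (h : Both P D c) (h' : Rd P D c x) : Both P D x := by
  induction h' with
  | refl => exact h
  | tail _ h' ih =>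
      rcases h' with ⟨a, r, hb⟩ | ⟨b, r, ha, hb⟩
      · exact ih.cod r hb
      · exact ih.dom r ha hb

/-! ### Lemma 1: sorts with both signs -/

/-- the case of a strongly connected piece without reset binder -/
theorem tame_open (w : WfF P W) {z₀ : S}
    (ihO : ∀ x, Lo P D x z₀ → Both P D x → ∀ T, TyF P W T (sort x) → Tame P D W T)
    (hb : Both P D z₀)
    (hR : ¬ ∃ u a b c, P.rule a b c ∧ HS P u a ∧ RelS P D b ∧
      (Rd P D z₀ u ∧ Rd P D u z₀) ∧ (Rd P D z₀ b ∧ Rd P D b z₀) ∧ (Rd P D z₀ c ∧ Rd P D c z₀)) :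
    ∀ (T : Term S) (n : ℕ) (G : ℕ → Term S) (σ : ℕ → Term S) (z : S), Normal T → WfF P G →
      TyF P G T (sort z) → Rd P D z₀ z → Rd P D z z₀ → SubF P σ G W →
      (∀ i, n ≤ i → ∃ j, σ i = var j) →
      (∀ i, i < n → ∃ a, TyF P G (G i) (sort a) ∧
        ∀ u, Rd P D z₀ u → Rd P D u z₀ → ¬ HS P u a) →
      Tame P D W (sub σ T) := by
  intro T
  induction T with
  | var i =>
      intro n G σ z _ wG hT h1 h2 hσ hv hl
      by_cases hi : i < n
      · obtain ⟨a, ha, hn⟩ := hl i hi
        exact (hn z h1 h2 (Ne.var.hs wG hT ha)).elim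
      · obtain ⟨j, hj⟩ := hv i (not_lt.1 hi)
        exact (Ne.var.sub hj).tame
  | sort s => intro n G σ z _ _ _ _ _ _ _ _; exact tame_sort
  | lam A B _ _ => intro n G σ z _ _ hT _ _ _ _ _; exact (not_lam_sort hT).elim
  | app M N _ _ =>
      intro n G σ z hN wG hT h1 h2 hσ hv hl
      rcases normal_type hN hT with ⟨s, e⟩ | ⟨A, B, e⟩ | ⟨A, B, e⟩ | ⟨i, hi⟩
      · cases e
      · cases e
      · cases e
      · by_cases hin : i < n
        · obtain ⟨a, ha, hn⟩ := hl i hin
          exact (hn z h1 h2 (hi.hs wG hT ha)).elim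
        · obtain ⟨j, hj⟩ := hv i (not_lt.1 hin)
          exact (hi.sub hj).tame
  | pi A B ihA ihB =>
      intro n G σ z hN wG hT h1 h2 hσ hv hl
      have nA : Normal A := fun M' b => hN _ (.piA _ b)
      have nB : Normal B := fun M' b => hN _ (.piB _ b)
      obtain ⟨a, b, c, hA, hB, r, e⟩ := fgen_pi hT _ _ rfl
      have hz : z = c := sort_inj e
      subst hz
      have cA : TyF P W (sub σ A) (sort a) := tyf_sub hA hσ
      have cB : TyF P (fcons (sub σ A) W) (sub (ups σ) B) (sort b) := tyf_sub hB (hσ.ups cA)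
      rw [sub_pi]
      refine Tame.pi (fun hp hr => ?_) (fun N hN => ?_) cA
      · have ra : RelS P D a := hr.relS w cA
        have rb : RelS P D b := hp.relS_cod w cA cB
        have h3 : Rd P D z₀ a := h1.trans (Rd.dom r ra rb)
        by_cases h4 : Rd P D a z₀
        · exact ihA n G σ a nA wG hA h3 h4 hσ hv hl
        · exact ihO a ⟨h3, h4⟩ (hb.rd h3) _ cA
      · by_cases hr : Rl P D W (inst N (sub (ups σ) B))
        swap
        · exact Tame.of_not_rl hr
        have cN : TyF P W (inst N (sub (ups σ) B)) (sort b) := tyf_inst w cB hN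
        have rb : RelS P D b := hr.relS w cN
        have h3 : Rd P D z₀ b := h1.trans (Rd.cod r rb)
        by_cases h4 : Rd P D b z₀
        · rw [← sub_scons]
          refine ihB (n + 1) (fcons A G) (scons N σ) b nB (wG.cons hA) hB h3 h4 (hσ.scons hN)
            ?_ ?_
          · intro i hi
            cases i with
            | zero => exact absurd hi (by omega)
            | succ i => exact hv i (by omega)
          · intro i hi
            cases i with
            | zero =>
                refine ⟨a, tyf_wk hA A, fun u hu hu' hs => hR ⟨u, a, b, z, r, hs, rb,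
                  ⟨hu, hu'⟩, ⟨h3, h4⟩, ⟨h1, h2⟩⟩⟩
            | succ i =>
                obtain ⟨a', ha', hn⟩ := hl i (by omega)
                exact ⟨a', tyf_wk ha' A, hn⟩
        · exact ihO b ⟨h3, h4⟩ (hb.rd h3) _ cN

/-- **Lemma 1**: closed types whose sort carries both signs are tame -/
theorem tame_both [_root_.Finite S] (w : WfF P W)
    (hwn : ∀ T t, TyF P W T (sort t) → ∃ T₀, Red T T₀ ∧ Normal T₀) (hF : ¬ Fat P D) :
    ∀ z, Both P D z → ∀ T, TyF P W T (sort z) → Tame P D W T := by
  intro z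
  induction z using (lo_wf P D).induction with
  | _ z ihO =>
      intro hb T hT
      by_cases hR : ∃ u a b c, P.rule a b c ∧ HS P u a ∧ RelS P D b ∧
        (Rd P D z u ∧ Rd P D u z) ∧ (Rd P D z b ∧ Rd P D b z) ∧ (Rd P D z c ∧ Rd P D c z)
      · -- no domain step inside the piece
        obtain ⟨u, a, b, c, r, hs, hrb, hu, hbz, hc⟩ := hR
        refine .mk fun T' A B h1 h2 h3 h4 => ?_
        obtain ⟨t', hT', h5⟩ := css_sorts w h1 (h3.of_red h2) hT
        obtain ⟨a', b', c', hA, hB, r', e⟩ := fgen_pi (FSR w hT' h2) _ _ rfl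
        have hz : t' = c' := sort_inj e
        subst hz
        have ra : RelS P D a' := h4.relS w hA
        have rb : RelS P D b' := h3.relS_cod w hA hB
        have h6 : Rd P D t' a' := Rd.dom r' ra rb
        have h7 : Rd P D z a' := h5.trans h6
        by_cases h8 : Rd P D a' z
        · exfalso
          have bu := hb.rd hu.1
          have hru : RelS P D u := by
            -- `u` is the target of a downward path of positive length
            have : Rd P D a' u := h8.trans hu.1
            rcases ReflTransGen.cases_tail this with h | ⟨y, _, h⟩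
            · rw [h]; exact ra
            · rcases h with ⟨_, _, h⟩ | ⟨_, _, h, _⟩
              · exact h
              · exact h
          exact hF ⟨u, a, b, c, a', b', t', bu.1, bu.2, hru, r, hs, hrb, hu.2.trans hc.1,
            hbz.2.trans hu.1, r', ra, rb, hu.2.trans h5, h8.trans hu.1⟩
        · exact ihO a' ⟨h7, h8⟩ (hb.rd h7) A hA
      · obtain ⟨T₀, r0, n0⟩ := hwn T z hT
        have hT₀ : TyF P W T₀ (sort z) := FSR w hT r0
        have := tame_open w ihO hb hR T₀ 0 W var z n0 w hT₀ (Rd.refl _ _ _) (Rd.refl _ _ _)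
          (SubF.var w)
          (fun i _ => ⟨i, rfl⟩) (fun i hi => absurd hi (by omega))
        rw [sub_id] at this
        exact this.of_red w r0

/-! ### Theorem F: two readings of opposite signs -/

theorem tame_two_open (w : WfF P W)
    (h1 : ∀ z, Both P D z → ∀ T, TyF P W T (sort z) → Tame P D W T) :
    ∀ (T : Term S) (G : ℕ → Term S) (σ : ℕ → Term S) (t t' : S) (e : Bool), Normal T →
      WfF P G → TyF P G T (sort t) → TyF P G T (sort t') → Sg P D t e → Sg P D t' (!e) →
      SubF P σ G W → Tame P D W (sub σ T) := by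
  intro T
  have key : ∀ (T : Term S) (i : ℕ), Ne i T → ∀ (G : ℕ → Term S) (σ : ℕ → Term S) (t t' : S)
      (e : Bool), TyF P G T (sort t) → TyF P G T (sort t') → Sg P D t e → Sg P D t' (!e) →
      SubF P σ G W → Tame P D W (sub σ T) := by
    intro T i hi G σ t t' e hT hT' s1 s2 hσ
    have : t = t' := sort_inj (hi.uniq hT hT')
    subst this
    refine h1 t ?_ _ (tyf_sub hT hσ)
    cases e
    · exact ⟨s2, s1⟩
    · exact ⟨s1, s2⟩
  induction T with
  | var i => intro G σ t t' e _ _ hT hT' s1 s2 hσ; exact key _ i .var G σ t t' e hT hT' s1 s2 hσ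
  | sort s => intro G σ t t' e _ _ _ _ _ _ _; exact tame_sort
  | lam A B _ _ => intro G σ t t' e _ _ hT _ _ _ _; exact (not_lam_sort hT).elim
  | app M N _ _ =>
      intro G σ t t' e hN wG hT hT' s1 s2 hσ
      rcases normal_type hN hT with ⟨s, e'⟩ | ⟨A, B, e'⟩ | ⟨A, B, e'⟩ | ⟨i, hi⟩
      · cases e'
      · cases e'
      · cases e'
      · exact key _ i hi G σ t t' e hT hT' s1 s2 hσ
  | pi A B ihA ihB =>
      intro G σ t t' e hN wG hT hT' s1 s2 hσ
      have nA : Normal A := fun M' b => hN _ (.piA _ b)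
      have nB : Normal B := fun M' b => hN _ (.piB _ b)
      obtain ⟨a, b, c, hA, hB, r, e1⟩ := fgen_pi hT _ _ rfl
      have hz : t = c := sort_inj e1
      subst hz
      obtain ⟨a', b', c', hA', hB', r', e1'⟩ := fgen_pi hT' _ _ rfl
      have hz : t' = c' := sort_inj e1'
      subst hz
      have cA : TyF P W (sub σ A) (sort a) := tyf_sub hA hσ
      have cA' : TyF P W (sub σ A) (sort a') := tyf_sub hA' hσ
      have cB : TyF P (fcons (sub σ A) W) (sub (ups σ) B) (sort b) := tyf_sub hB (hσ.ups cA)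
      have cB' : TyF P (fcons (sub σ A) W) (sub (ups σ) B) (sort b') :=
        tyf_sub hB' (hσ.ups cA)
      rw [sub_pi]
      refine Tame.pi (fun hp hr => ?_) (fun N hN => ?_) cA
      · exact ihA G σ a a' (!e) nA wG hA hA'
          (.dom r (hr.relS w cA) (hp.relS_cod w cA cB) s1)
          (.dom r' (hr.relS w cA') (hp.relS_cod w cA' cB') s2) hσ
      · by_cases hr : Rl P D W (inst N (sub (ups σ) B))
        swap
        · exact Tame.of_not_rl hr
        have cN : TyF P W (inst N (sub (ups σ) B)) (sort b) := tyf_inst w cB hN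
        have cN' : TyF P W (inst N (sub (ups σ) B)) (sort b') := tyf_inst w cB' hN
        rw [← sub_scons]
        exact ihB (fcons A G) (scons N σ) b b' e nB (wG.cons hA) hB hB'
          (.cod r (hr.relS w cN) s1) (.cod r' (hr.relS w cN') s2) (hσ.scons hN)

/-- **THEOREM F**: without fat configuration, closed types with two readings of opposite signs
are tame. -/
theorem theoremF [_root_.Finite S] (w : WfF P W)
    (hwn : ∀ T t, TyF P W T (sort t) → ∃ T₀, Red T T₀ ∧ Normal T₀) (hF : ¬ Fat P D)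
    {T : Term S} {t t' : S} (hT : TyF P W T (sort t)) (hT' : TyF P W T (sort t'))
    (h1 : Sg P D t true) (h2 : Sg P D t' false) : Tame P D W T := by
  obtain ⟨T₀, r0, n0⟩ := hwn T t hT
  have := tame_two_open w (tame_both w hwn hF) T₀ W var t t' true n0 w (FSR w hT r0)
    (FSR w hT' r0) h1 h2 (SubF.var w)
  rw [sub_id] at this
  exact this.of_red w r0

end Crest.Agent.R298.Fl113
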