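import Crest.Agent.R298.Inf_786
import Crest.Agent.R298.Cod_893

/-!
# R298: modes, valid paths, small infos for the frames of `Cod_893` (helper786)

Bridge from `Inf_786` (tame part, over `Dom_201`) to `Cod_893`: `SI`, `putS`, `getS`, `rngS`, `vt`
over an abstract skeleton of closed types (elements of `Q`), and the three laws
`entry_ok`, `entry_congr`, `look_entry`.
-/

set_option autoImplicit false
set_option linter.unusedSectionVars false

namespace Crest.Agent.R298.Vt786

open Crest.Agent.R298.Dom201 (X Val Args codeF app_codeF Supp ArgLt AgA up up_lt up_dn dn_up)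
open Crest.Agent.R298.Inf786
open Crest.Agent.R298.Cod893

variable {Q C : Type} [Inhabited C]

section tame

variable (K : Skel Q Q)

/-- one ordinal above all small infos -/
noncomputable def bnd (K : Skel Q Q) (C : Type) [Inhabited C] : X := max (b0 K C) 1

theorem bnd_pos : (0 : X) < bnd K C := lt_of_lt_of_le zero_lt_one (le_max_right _ _)

theorem info_lt_bnd {T : Q} (hT : Tame K T) {x : X} (hx : x ∈ Info K C T) : x < bnd K C :=
  (info_lt_b0 hT hx).trans_le (le_max_left _ _)

/-- small infos -/
abbrev SI (K : Skel Q Q) (C : Type) [Inhabited C] : Type := (bnd K C).ToType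

/-- small paths as argument lists -/
noncomputable def cnv (l : List (Q × SI K C)) : Args Q C :=
  l.map fun e => (e.1, Sum.inl (up e.2))

theorem up_inj {α : X} {s t : α.ToType} (h : up s = up t) : s = t := by
  rw [← dn_up s, ← dn_up t]
  congr 1

theorem cnv_inj {l l' : List (Q × SI K C)} (h : cnv K l = cnv K l') : l = l' := by
  induction l generalizing l' with
  | nil =>
    cases l' with
    | nil => rfl
    | cons e l' => simp [cnv] at h
  | cons e l ih =>
    cases l' with
    | nil => simp [cnv] at h
    | cons e' l' =>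
      simp only [cnv, List.map_cons, List.cons.injEq, Prod.mk.injEq, Sum.inl.injEq] at h
      obtain ⟨⟨h1, h2⟩, h3⟩ := h
      obtain ⟨a, s⟩ := e
      obtain ⟨a', s'⟩ := e'
      simp only at h1 h2
      rw [h1, up_inj h2, ih h3]

open Classical in
/-- a function on small paths as a function on argument lists, cut to the valid lists -/
noncomputable def ext (A : Q) (v : List (Q × SI K C) → C) : Args Q C → C := fun l =>
  if h : ∃ s, cnv K s = l ∧ Valid K (fun _ => True) A l then v (Classical.choose h) else default

theorem ext_off {A : Q} {v : List (Q × SI K C) → C} {l : Args Q C}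
    (h : ¬ Valid K (fun _ => True) A l) : ext K A v l = default := by
  unfold ext
  rw [dif_neg]
  rintro ⟨s, _, h2⟩
  exact h h2

theorem ext_cnv {A : Q} {v : List (Q × SI K C) → C} {s : List (Q × SI K C)}
    (h : Valid K (fun _ => True) A (cnv K s)) : ext K A v (cnv K s) = v s := by
  unfold ext
  have hex : ∃ s', cnv K s' = cnv K s ∧ Valid K (fun _ => True) A (cnv K s) := ⟨s, rfl, h⟩
  rw [dif_pos hex]
  rw [cnv_inj K (Classical.choose_spec hex).1]

open Classical in
/-- canonical small info of a function -/
noncomputable def putS (A : Q) (v : List (Q × SI K C) → C) : SI K C :=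
  if h : (codeF (ext K A v) : X) < bnd K C then Dom201.dn _ h else Dom201.dn 0 (bnd_pos K)

/-- function of a small info -/
noncomputable def getS (s : SI K C) (l : List (Q × SI K C)) : C :=
  (Dom201.app (up s) : Args Q C → C) (cnv K l)

variable {K}

theorem ext_mem {A : Q} (hA : Tame K A) (v : List (Q × SI K C) → C) :
    (codeF (ext K A v) : X) ∈ Info K C A := by
  rw [info_eq (fun _ => True) hA]
  exact ⟨_, fun l hl => ext_off K hl, rfl⟩

theorem up_putS {A : Q} (hA : Tame K A) (v : List (Q × SI K C) → C) :
    up (putS K A v) = codeF (ext K A v) := by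
  unfold putS
  rw [dif_pos (info_lt_bnd K hA (ext_mem hA v)), up_dn]

theorem putS_mem {A : Q} (hA : Tame K A) (v : List (Q × SI K C) → C) :
    up (putS K A v) ∈ Info K C A := by
  rw [up_putS hA]
  exact ext_mem hA v

theorem supp_tame {A : Q} (hA : Tame K A) {F : Args Q C → C}
    (hF : ∀ l, ¬ Valid K (fun _ => True) A l → F l = default) : ∃ α, Supp α F := by
  have hno : ∀ l : Args Q C, Valid K (fun _ => True) A l → NoNeg l := by
    intro l hl e he
    obtain ⟨_, _, x, _, hx⟩ := valid_tame_entries hA hl e he
    exact ⟨x, hx⟩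
  refine ⟨b0 K C, fun l hl => hF l fun hv => hl ?_, fun l l' hll => ?_⟩
  · intro e he x hx
    obtain ⟨B, hB, y, hy, hy'⟩ := valid_tame_entries hA hv e he
    rw [hx] at hy'
    rw [Sum.inl.inj hy']
    exact info_lt_b0 (hA.dm hB) hy
  · by_cases hv : Valid K (fun _ => True) A l
    · rw [eq_of_agA hll (hno l hv)]
    · have hv' : ¬ Valid K (fun _ => True) A l' := fun h => hv (valid_congr hll.symm h)
      rw [hF l hv, hF l' hv']

/-- **get after put** -/
theorem getS_putS {A : Q} (hA : Tame K A) (v : List (Q × SI K C) → C) {l : List (Q × SI K C)}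
    (hl : Valid K (fun _ => True) A (cnv K l)) : getS K (putS K A v) l = v l := by
  unfold getS
  rw [up_putS hA, app_codeF (supp_tame hA fun l hl => ext_off K hl)]
  exact ext_cnv K hl

end tame

section paths

variable (K : Skel Q Q) (sg : Q → Prop)

/-- entries admitted at a closed type -/
def rngS (B : Q) : ESh Q (SI K C) C → Prop
  | .sm s => Tame K B ∧ up s ∈ Info K C B
  | .co _ => ¬ Tame K B ∧ ¬ sg B
  | .hole => ¬ Tame K B ∧ sg B

/-- complete valid paths (shapes) of a closed type -/
def vt : Q → Sh Q (SI K C) C → Prop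
  | A, [] => K.leaf A
  | A, x :: s => K.live A x.1 ∧ rngS K sg (K.dom A) x.2 ∧ vt (K.cod A x.1) s

open Classical in
/-- modes of closed types -/
noncomputable def modeS (A : Q) : Mode :=
  if Tame K A then .small else if sg A then .minus else .plus

open Classical in
/-- clamp by a declared closed type -/
noncomputable def ntS (A : Q) (s : Sh Q (SI K C) C) (c : C) : C :=
  if vt K sg A s then c else default

variable {K sg}

@[simp] theorem vt_nil {A : Q} : vt K sg A ([] : Sh Q (SI K C) C) ↔ K.leaf A := Iff.rfl

@[simp] theorem vt_cons {A : Q} {x : Q × ESh Q (SI K C) C} {s : Sh Q (SI K C) C} :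
    vt K sg A (x :: s) ↔ K.live A x.1 ∧ rngS K sg (K.dom A) x.2 ∧ vt K sg (K.cod A x.1) s :=
  Iff.rfl

theorem modeS_tame {A : Q} (h : Tame K A) : modeS K sg A = .small := by
  unfold modeS
  rw [if_pos h]

theorem modeS_minus {A : Q} (h : ¬ Tame K A) (h' : sg A) : modeS K sg A = .minus := by
  unfold modeS
  rw [if_neg h, if_pos h']

theorem modeS_plus {A : Q} (h : ¬ Tame K A) (h' : ¬ sg A) : modeS K sg A = .plus := by
  unfold modeS
  rw [if_neg h, if_neg h']

/-- an irrelevant closed type (no live step, no leaf) has no valid path -/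
theorem not_vt_dead {A : Q} (h1 : ∀ a, ¬ K.live A a) (h2 : ¬ K.leaf A)
    (s : Sh Q (SI K C) C) : ¬ vt K sg A s := by
  cases s with
  | nil => exact h2
  | cons x s => exact fun h => h1 _ h.1

/-- valid paths of tame types are small -/
theorem vt_tame {A A' : Q} (hA : Tame K A) (hc : Cd K A A') {p : UPath Q (SI K C) C}
    (h : vt K sg A' (sh p)) :
    ∃ l, toS p = some l ∧ Valid K (fun _ => True) A' (cnv K l) := by
  induction p generalizing A' with
  | nil => exact ⟨[], rfl, h⟩
  | cons x p ih =>
    obtain ⟨q, e⟩ := x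
    obtain ⟨h1, h2, h3⟩ := h
    have hD : Tame K (K.dom A') := (hA.cd hc).dom h1
    obtain ⟨l, hl, hv⟩ := ih (hc.snoc h1) h3
    cases e with
    | sm s =>
      refine ⟨(q, s) :: l, ?_, h1, ?_, hv⟩
      · show (toS p).map (fun l => (q, s) :: l) = some ((q, s) :: l)
        rw [hl]
        rfl
      · rw [rng_tame hD]
        exact ⟨_, h2.2, rfl⟩
    | co c => exact absurd hD h2.1
    | mi f => exact absurd hD h2.1

/-- valid paths of wild minus types have no minus entries -/
theorem vt_minus (hth : Thin K sg) {A A' : Q} (hA : ¬ Tame K A) (hs : sg A) (hc : Cd K A A')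
    {p : UPath Q (SI K C) C} (h : vt K sg A' (sh p)) : ∃ l, toM p = some l := by
  induction p generalizing A' with
  | nil => exact ⟨[], rfl⟩
  | cons x p ih =>
    obtain ⟨q, e⟩ := x
    obtain ⟨h1, h2, h3⟩ := h
    obtain ⟨l, hl⟩ := ih (hc.snoc h1) h3
    cases e with
    | sm s =>
      refine ⟨(q, Sum.inl s) :: l, ?_⟩
      show (unE (Ent.sm s)).bind (fun e => (toM p).map fun l => (q, e) :: l) = _
      rw [hl]
      rfl
    | co c =>
      refine ⟨(q, Sum.inr c) :: l, ?_⟩
      show (unE (Ent.co c)).bind (fun e => (toM p).map fun l => (q, e) :: l) = _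
      rw [hl]
      rfl
    | mi f =>
      obtain ⟨g1, g2⟩ := h2
      exact absurd hs ((hth A A' q hA hc h1 g1).1 g2)

/-- valid paths of wild plus types have no codes -/
theorem vt_plus (hth : Thin K sg) {A A' : Q} (hA : ¬ Tame K A) (hs : ¬ sg A) (hc : Cd K A A')
    {p : UPath Q (SI K C) C} (h : vt K sg A' (sh p)) : IsP p := by
  induction p generalizing A' with
  | nil => intro x hx; exact absurd hx List.not_mem_nil
  | cons x p ih =>
    obtain ⟨q, e⟩ := x
    obtain ⟨h1, h2, h3⟩ := h
    have ih' := ih (hc.snoc h1) h3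
    intro y hy c
    rcases List.mem_cons.1 hy with rfl | hy
    · intro hc'
      simp only at hc'
      subst hc'
      obtain ⟨g1, g2⟩ := h2
      exact g2 ((hth A A' q hA hc h1 g1).2 hs)
    · exact ih' y hy c

end paths

section frames

variable {S : Type} {K : Skel Q Q} {sg : Q → Prop}

/-- frames with the standard modes, small infos and declared clamps -/
structure Std (K : Skel Q Q) (sg : Q → Prop) (F : Frame S Q (SI K C) C) : Prop where
  b : F.b = default
  nt : F.nt = ntS K sg
  mode : F.mode = modeS K sg
  put : F.put = putS K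
  get : F.get = getS K

/-- a standard frame -/
noncomputable def stdFrame (K : Skel Q Q) (sg : Q → Prop) (cl : Crest.LogicCS.PTS.Term S → Q) (rep : Q → Crest.LogicCS.PTS.Term S)
    (nz : Q → Sh Q (SI K C) C → C → C) (dty : Q → Q) (sv : S → C)
    (op : Q → Q → C → (Q → PEnt Q (SI K C) C → C) → C) : Frame S Q (SI K C) C where
  b := default
  cl := cl
  rep := rep
  nz := nz
  nt := ntS K sg
  dty := dty
  mode := modeS K sg
  put := putS K
  get := getS K
  sv := sv
  op := op

variable {F : Frame S Q (SI K C) C}

theorem Std.ntu_of (h : Std K sg F) {A : Q} {u : UF Q (SI K C) C} {p : UPath Q (SI K C) C}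
    (hp : vt K sg A (sh p)) : ntu F A u p = u p := by
  unfold ntu
  rw [h.nt]
  unfold ntS
  rw [if_pos hp]

theorem Std.ntu_off (h : Std K sg F) {A : Q} {u : UF Q (SI K C) C} {p : UPath Q (SI K C) C}
    (hp : ¬ vt K sg A (sh p)) : ntu F A u p = default := by
  unfold ntu
  rw [h.nt]
  unfold ntS
  rw [if_neg hp]

theorem Std.ntu_congr (h : Std K sg F) {A : Q} {u v : UF Q (SI K C) C}
    (huv : ∀ p, vt K sg A (sh p) → u p = v p) : ntu F A u = ntu F A v := by
  funext p
  by_cases hp : vt K sg A (sh p)
  · rw [h.ntu_of hp, h.ntu_of hp, huv p hp]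
  · rw [h.ntu_off hp, h.ntu_off hp]

theorem Std.entry_tame (h : Std K sg F) {A : Q} (hA : Tame K A) (u : UF Q (SI K C) C) :
    entry F A u = .sm (putS K A (fun l => ntu F A u (embS l))) := by
  unfold entry
  rw [h.mode, modeS_tame hA, h.put]

theorem Std.entry_minus (h : Std K sg F) {A : Q} (hA : ¬ Tame K A) (hs : sg A)
    (u : UF Q (SI K C) C) : entry F A u = .mi (fun l => ntu F A u (emb l)) := by
  unfold entry
  rw [h.mode, modeS_minus hA hs]

theorem Std.entry_plus (h : Std K sg F) {A : Q} (hA : ¬ Tame K A) (hs : ¬ sg A)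
    (u : UF Q (SI K C) C) : entry F A u = .co (enc F.b (ntu F A u)) := by
  unfold entry
  rw [h.mode, modeS_plus hA hs]

/-- **(L1)** packed arguments are admitted -/
theorem Std.entry_ok (h : Std K sg F) (A : Q) (u : UF Q (SI K C) C) :
    rngS K sg A (entry F A u).sh := by
  by_cases hA : Tame K A
  · rw [h.entry_tame hA]
    exact ⟨hA, putS_mem hA _⟩
  · by_cases hs : sg A
    · rw [h.entry_minus hA hs]
      exact ⟨hA, hs⟩
    · rw [h.entry_plus hA hs]
      exact ⟨hA, hs⟩

/-- **(L2)** packing only looks at the valid paths of the declared type -/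
theorem Std.entry_congr (h : Std K sg F) {A : Q} {u v : UF Q (SI K C) C}
    (huv : ∀ p, vt K sg A (sh p) → u p = v p) : entry F A u = entry F A v := by
  have e := h.ntu_congr huv
  unfold entry
  rw [e]

/-- **(L3)** packing is faithful on the valid paths of the declared type -/
theorem Std.look_entry (h : Std K sg F) (hth : Thin K sg) (A : Q) {u : UF Q (SI K C) C}
    (hu : Good u) {p : UPath Q (SI K C) C} (hp : vt K sg A (sh p)) :
    look F (entry F A u) p = u p := by
  by_cases hA : Tame K A
  · obtain ⟨l, hl, hv⟩ := vt_tame hA (.refl A) hp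
    have e : embS l = p := embS_toS hl
    rw [h.entry_tame hA]
    have e2 : look F (.sm (putS K A (fun l => ntu F A u (embS l)))) p =
        F.get (putS K A (fun l => ntu F A u (embS l))) l := by
      simp only [look, hl]
    rw [e2, h.get, getS_putS hA _ hv, e, h.ntu_of hp]
  · by_cases hs : sg A
    · obtain ⟨l, hl⟩ := vt_minus hth hA hs (.refl A) hp
      have e : emb l = p := emb_toM hl
      rw [h.entry_minus hA hs]
      have e2 : look F (.mi (fun l => ntu F A u (emb l))) p = ntu F A u (emb l) := by
        simp only [look, hl]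
      rw [e2, e, h.ntu_of hp]
    · have hP := vt_plus hth hA hs (.refl A) hp
      rw [h.entry_plus hA hs]
      have e2 : look F (.co (enc F.b (ntu F A u))) p = dec F.b (enc F.b (ntu F A u)) p := rfl
      rw [e2, dec_enc F.b ((ntu_good F A hu).coded F.b) hP, h.ntu_of hp]

/-- entries of dead types (no valid path) do not depend on the value -/
theorem Std.entry_dead (h : Std K sg F) {A : Q} (hd : ∀ s : Sh Q (SI K C) C, ¬ vt K sg A s)
    (u v : UF Q (SI K C) C) : entry F A u = entry F A v :=
  h.entry_congr fun _ hp => absurd hp (hd _)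

/-- the default entry -/
noncomputable def dfl (F : Frame S Q (SI K C) C) (A : Q) : Ent Q (SI K C) C :=
  entry F A fun _ => F.b

theorem Std.dfl_ok (h : Std K sg F) (A : Q) : rngS K sg A (dfl F A).sh := h.entry_ok A _

end frames

end Crest.Agent.R298.Vt786
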