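import Crest.Agent.R298.Md1_254
import Crest.Agent.R298.Vt_786

/-!
R298 (S0452), helper254: the SKELETON of closed types of a world and its laws.

Closed types are elements of `Q := Term S`, represented by `cl M` (the normal form of `M` if there
is one, a chosen member of the conversion class otherwise).  `skel P D W` is the `Inf786.Skel` of
the world: `dom`, `cod` at products, `leaf T := T ~ sort s, s ∈ D`, and
`live T a := T relevant and signed, T ~ pi A B, a : A, inst a B relevant`.
Results: `thin` (`Inf786.Thin` from Theorem F), `tame_of` (113 tame ⇒ 786 tame), the WIDE validity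
`vtW` (no live, no sign) and its relation with `Vt786.vt`, `NotO`.
-/

set_option autoImplicit false

namespace Crest.Agent.R298.Md254

open Crest.LogicCS.PTS Crest.LogicCS.PTS.Term Relation
open Crest.Agent.R298.Sub452 Crest.Agent.R298.Par452 Crest.Agent.R298.Ty452
open Crest.Agent.R298.TyF452
open Crest.Agent.R298.Fl113 (RelS Fat Cs Rl Tame css_red)
open Crest.Agent.R298.Inf786 (Skel Cd Dm tame_of_dead)

universe u

/-! ### canonical representatives of conversion classes -/

section cl
variable {S : Type u}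

/-- conversion as a setoid -/
def betaSetoid (S : Type u) : Setoid (Term S) :=
  ⟨BetaEq, ⟨fun M => .refl M, fun h => BetaEq.symm h, fun h h' => BetaEq.trans h h'⟩⟩

open Classical in
/-- canonical representative: the normal form if there is one -/
noncomputable def cl (M : Term S) : Term S :=
  if h : ∃ N, BetaEq M N ∧ Normal N then Classical.choose h
  else (Quotient.mk (betaSetoid S) M).out

theorem cl_eq (M : Term S) : BetaEq (cl M) M := by
  unfold cl
  split_ifs with h
  · exact BetaEq.symm (Classical.choose_spec h).1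
  · exact Quotient.mk_out (s := betaSetoid S) M

theorem cl_congr {M N : Term S} (h : BetaEq M N) : cl M = cl N := by
  unfold cl
  by_cases h1 : ∃ K, BetaEq M K ∧ Normal K
  · have h2 : ∃ K, BetaEq N K ∧ Normal K := by
      obtain ⟨K, k1, k2⟩ := h1
      exact ⟨K, BetaEq.trans (BetaEq.symm h) k1, k2⟩
    rw [dif_pos h1, dif_pos h2]
    have a := Classical.choose_spec h1
    have b := Classical.choose_spec h2
    exact normal_unique (BetaEq.trans (BetaEq.symm a.1) (BetaEq.trans h b.1)) a.2 b.2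
  · have h2 : ¬ ∃ K, BetaEq N K ∧ Normal K := by
      rintro ⟨K, k1, k2⟩
      exact h1 ⟨K, BetaEq.trans h k1, k2⟩
    rw [dif_neg h1, dif_neg h2]
    have h3 : Quotient.mk (betaSetoid S) M = Quotient.mk (betaSetoid S) N := Quotient.sound h
    rw [h3]

theorem cl_iff {M N : Term S} : cl M = cl N ↔ BetaEq M N := by
  refine ⟨fun h => ?_, cl_congr⟩
  have h1 := cl_eq M
  rw [h] at h1
  exact BetaEq.trans (BetaEq.symm h1) (cl_eq N)

@[simp] theorem cl_cl (M : Term S) : cl (cl M) = cl M := cl_congr (cl_eq M)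

theorem cl_normal {M : Term S} (h : WN M) : Normal (cl M) := by
  obtain ⟨N, h1, h2⟩ := h
  have h3 : ∃ N, BetaEq M N ∧ Normal N := ⟨N, Red.eq h1, h2⟩
  unfold cl
  rw [dif_pos h3]
  exact (Classical.choose_spec h3).2

theorem cl_red {M : Term S} (h : WN M) : Red M (cl M) :=
  red_of_eq_normal (BetaEq.symm (cl_eq M)) (cl_normal h)

theorem cl_of_normal {M : Term S} (h : Normal M) : cl M = M :=
  normal_unique (cl_eq M) (cl_normal ⟨M, .refl, h⟩) h

theorem cl_sort (s : S) : cl (sort s : Term S) = sort s :=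
  cl_of_normal (fun N h => by cases h)

variable {P : Spec S} {W : ℕ → Term S}

/-- typed terms have typed representatives -/
theorem cl_typed (w : WfF P W) (hwn : ∀ M A, TyF P W M A → WN M) {M A : Term S}
    (h : TyF P W M A) : TyF P W (cl M) A := FSR w h (cl_red (hwn M A h))

/-- typed closed types may be replaced by their representatives -/
theorem ty_cl (w : WfF P W) (hwn : ∀ M A, TyF P W M A → WN M) {M A : Term S} {s : S}
    (h : TyF P W M A) (hA : TyF P W A (sort s)) : TyF P W M (cl A) :=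
  tyf_red_type w h (cl_red (hwn A _ hA))

end cl

/-! ### the skeleton -/

section skel
variable {S : Type}

open Classical in
/-- domain of a closed product -/
noncomputable def kdom (T : Term S) : Term S :=
  if h : ∃ A B, BetaEq T (pi A B) then cl (Classical.choose h) else T

open Classical in
/-- instance of the codomain of a closed product -/
noncomputable def kcod (T a : Term S) : Term S :=
  if h : ∃ A B, BetaEq T (pi A B) then
    cl (inst a (Classical.choose (Classical.choose_spec h))) else T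

theorem kdom_pi {T A B : Term S} (h : BetaEq T (pi A B)) : kdom T = cl A := by
  have h1 : ∃ A B, BetaEq T (pi A B) := ⟨A, B, h⟩
  unfold kdom
  rw [dif_pos h1]
  have h2 := Classical.choose_spec (Classical.choose_spec h1)
  exact cl_congr (pi_inj (BetaEq.trans (BetaEq.symm h2) h)).1

theorem kcod_pi {T A B : Term S} (h : BetaEq T (pi A B)) (a : Term S) :
    kcod T a = cl (inst a B) := by
  have h1 : ∃ A B, BetaEq T (pi A B) := ⟨A, B, h⟩
  unfold kcod
  rw [dif_pos h1]
  have h2 := Classical.choose_spec (Classical.choose_spec h1)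
  exact cl_congr (BetaEq.sub (pi_inj (BetaEq.trans (BetaEq.symm h2) h)).2 _)

/-- leaves: the sorts of `D` -/
def kleaf (D : Set S) (T : Term S) : Prop := ∃ s ∈ D, BetaEq T (sort s)

/-- live steps -/
def klive (P : Spec S) (D : Set S) (W : ℕ → Term S) (T a : Term S) : Prop :=
  Live P D W T ∧ ∃ A B, BetaEq T (pi A B) ∧ TyF P W a A ∧ Rl P D W (inst a B)

/-- the skeleton of closed types of the world `W` -/
noncomputable def skel (P : Spec S) (D : Set S) (W : ℕ → Term S) : Skel (Term S) (Term S) where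
  dom := kdom
  cod := kcod
  live := klive P D W
  leaf := kleaf D

/-- the `D`-bound colour -/
def sgQ (P : Spec S) (D : Set S) (W : ℕ → Term S) (A : Term S) : Prop := SgT P D W A true

variable {P : Spec S} {D : Set S} {W : ℕ → Term S}

theorem kleaf_conv {T T' : Term S} (e : BetaEq T T') : kleaf D T ↔ kleaf D T' :=
  ⟨fun ⟨s, h, h'⟩ => ⟨s, h, BetaEq.trans (BetaEq.symm e) h'⟩,
   fun ⟨s, h, h'⟩ => ⟨s, h, BetaEq.trans e h'⟩⟩

theorem not_kleaf_pi {T A B : Term S} (e : BetaEq T (pi A B)) : ¬ kleaf D T := by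
  rintro ⟨s, _, h⟩
  exact not_sort_pi (BetaEq.trans (BetaEq.symm h) e)

theorem rl_leaf {T : Term S} (h : kleaf D T) : Rl P D W T := by
  obtain ⟨s, h1, h2⟩ := h
  exact .leaf (red_of_eq_sort h2) h1

theorem klive_conv (w : WfF P W) {T T' : Term S} (e : BetaEq T T') (a : Term S) :
    klive P D W T a ↔ klive P D W T' a := by
  unfold klive
  rw [live_iff w e]
  refine and_congr_right fun _ => ?_
  exact ⟨fun ⟨A, B, h, h'⟩ => ⟨A, B, BetaEq.trans (BetaEq.symm e) h, h'⟩,
    fun ⟨A, B, h, h'⟩ => ⟨A, B, BetaEq.trans e h, h'⟩⟩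

/-- live steps at a product with typed domain -/
theorem klive_pi (w : WfF P W) {T A B a : Term S} {s : S} (e : BetaEq T (pi A B))
    (hA : TyF P W A (sort s)) :
    klive P D W T a ↔ Live P D W T ∧ TyF P W a A ∧ Rl P D W (inst a B) := by
  constructor
  · rintro ⟨h1, A', B', e', ha, hr⟩
    obtain ⟨e1, e2⟩ := pi_inj (BetaEq.trans (BetaEq.symm e') e)
    exact ⟨h1, .conv ha hA e1, rl_conv w hr (BetaEq.sub e2 _)⟩
  · rintro ⟨h1, ha, hr⟩
    exact ⟨h1, A, B, e, ha, hr⟩

theorem tame_of_notRl (_w : WfF P W) {T : Term S} (h : ¬ Rl P D W T) :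
    Inf786.Tame (skel P D W) T := tame_of_dead fun _ h' => h h'.1.1

theorem tame_of_notLive {T : Term S} (h : ¬ Live P D W T) :
    Inf786.Tame (skel P D W) T := tame_of_dead fun _ h' => h h'.1

/-- live chains are codomain-instance chains -/
theorem cd_css (w : WfF P W) {T T₁ : Term S} (h : Cd (skel P D W) T T₁) :
    ∀ {T₀ : Term S}, BetaEq T T₀ → ∃ T₂, ReflTransGen (Cs P W) T₀ T₂ ∧ BetaEq T₁ T₂ := by
  induction h with
  | refl T => intro T₀ e; exact ⟨T₀, .refl, e⟩
  | @step T T' a hl _ ih =>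
    intro T₀ e
    obtain ⟨_, A, B, e', ha, _⟩ := hl
    obtain ⟨Q, q1, q2⟩ := betaEq_iff.1 (BetaEq.trans (BetaEq.symm e) e')
    obtain ⟨A₂, B₂, rfl, rA, rB⟩ := red_pi q2
    have e1 : BetaEq ((skel P D W).cod T a) (inst a B₂) := by
      show BetaEq (kcod T a) _
      rw [kcod_pi e']
      exact BetaEq.trans (cl_eq _) (BetaEq.sub rB.eq _)
    obtain ⟨T₂, h1, h2⟩ := ih e1
    exact ⟨T₂, .head ⟨A₂, B₂, a, q1, tyf_red_type w ha rA, rfl⟩ h1, h2⟩

/-- signs along live chains -/
theorem cd_sgT (w : WfF P W) {T T' : Term S} {e : Bool} (h : Cd (skel P D W) T T')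
    (hs : SgT P D W T e) : SgT P D W T' e := by
  induction h with
  | refl T => exact hs
  | @step T T' a hl _ ih =>
    obtain ⟨_, A, B, e', ha, hr⟩ := hl
    refine ih ?_
    show SgT P D W (kcod T a) e
    rw [kcod_pi e']
    exact (hs.cod w e' ha hr).conv (BetaEq.symm (cl_eq _))

theorem cd_live {T T' : Term S} {a : Term S} (h : Cd (skel P D W) T T')
    (hl : klive P D W T' a) : Live P D W T := by
  cases h with
  | refl T => exact hl.1
  | step b hb _ => exact hb.1

/-- 113-tame types are 786-tame -/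
theorem tame_of (w : WfF P W) {T : Term S} (h : Tame P D W T) :
    ∀ {T' : Term S}, BetaEq T T' → Inf786.Tame (skel P D W) T' := by
  induction h with
  | @mk T _ ih =>
    intro T' e
    refine Acc.intro _ fun A₀ hA₀ => ?_
    obtain ⟨T₁, a, hcd, hl, rfl⟩ := hA₀
    obtain ⟨hlive, A, B, e', ha, hr⟩ := hl
    obtain ⟨T₂, h1, h2⟩ := cd_css w hcd (BetaEq.symm e)
    show Inf786.Tame (skel P D W) (kdom T₁)
    rw [kdom_pi e']
    by_cases hRA : Rl P D W A
    · obtain ⟨Q, q1, q2⟩ := betaEq_iff.1 (BetaEq.trans (BetaEq.symm h2) e')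
      obtain ⟨A₂, B₂, rfl, rA, rB⟩ := red_pi q2
      refine ih T₂ A₂ B₂ h1 q1 ?_ (hRA.red w rA) ?_
      · exact (rl_conv w hlive.1 h2).red w q1
      · exact BetaEq.trans (BetaEq.symm rA.eq) (BetaEq.symm (cl_eq A))
    · exact tame_of_notRl w fun h => hRA (rl_conv w h (cl_eq A))

/-- **THIN** -/
theorem thin (w : WfF P W) (hF : TF P D W) :
    Inf786.Thin (skel P D W) (sgQ P D W) := by
  intro T T' a hT hcd hl hd
  have hLT : Live P D W T := cd_live hcd hl
  obtain ⟨hlive, A, B, e, ha, hr⟩ := hl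
  have hdom : (skel P D W).dom T' = cl A := kdom_pi e
  rw [hdom] at hd ⊢
  have hRA : Rl P D W A := by
    by_contra hn
    exact hd (tame_of_notRl w fun h => hn (rl_conv w h (cl_eq A)))
  have hnt : ¬ Tame P D W A := fun h => hd (tame_of w h (BetaEq.symm (cl_eq A)))
  unfold sgQ
  rw [sgT_iff (cl_eq A)]
  constructor
  · intro h1 h2
    exact hnt (hF A h1 ((cd_sgT w hcd h2).dom w e hlive.1 hRA))
  · intro h1
    obtain ⟨_, s, hs⟩ := hLT
    cases s with
    | true => exact (h1 hs).elim
    | false => exact (cd_sgT w hcd hs).dom w e hlive.1 hRA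

theorem thin_of_not_fat [_root_.Finite S] (w : WfF P W)
    (hwn : ∀ T t, TyF P W T (sort t) → ∃ T₀, Red T T₀ ∧ Normal T₀) (hF : ¬ Fat P D) :
    Inf786.Thin (skel P D W) (sgQ P D W) := thin w (tf_of_not_fat w hwn hF)

/-! ### types which are not of mode O -/

/-- irrelevant, or signed -/
def NotO (P : Spec S) (D : Set S) (W : ℕ → Term S) (T : Term S) : Prop :=
  Rl P D W T → Live P D W T

theorem NotO.conv (w : WfF P W) {T T' : Term S} (h : NotO P D W T) (e : BetaEq T T') :
    NotO P D W T' := fun h' => (live_iff w e).1 (h ((rl_iff w e).2 h'))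

theorem notO_iff (w : WfF P W) {T T' : Term S} (e : BetaEq T T') :
    NotO P D W T ↔ NotO P D W T' := ⟨fun h => h.conv w e, fun h => h.conv w (BetaEq.symm e)⟩

theorem notO_of_live {T : Term S} (h : Live P D W T) : NotO P D W T := fun _ => h

theorem notO_irr {T : Term S} (h : ¬ Rl P D W T) : NotO P D W T := fun h' => (h h').elim

theorem notO_sgT {T : Term S} {e : Bool} (h : SgT P D W T e) : NotO P D W T :=
  fun h' => ⟨h', e, h⟩

theorem NotO.dom (w : WfF P W) {T A B : Term S} (h : Live P D W T) (e : BetaEq T (pi A B)) :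
    NotO P D W A := fun hA => h.dom w e hA

theorem NotO.dom' (w : WfF P W) {T A B : Term S} (h : NotO P D W T) (hr : Rl P D W T)
    (e : BetaEq T (pi A B)) : NotO P D W A := .dom w (h hr) e

theorem NotO.cod (w : WfF P W) {T A B a : Term S} (h : NotO P D W T)
    (e : BetaEq T (pi A B)) (ha : TyF P W a A) : NotO P D W (inst a B) :=
  fun hr => (h (rl_of_inst w e ha hr)).cod w e ha hr

/-- `D`-bound types are never of mode O -/
theorem notO_bound (w : WfF P W) {A : Term S} {a b c : S} (r : P.rule a b c) (hb : b ∈ D)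
    (hc : c ∈ D) (h : Uniq452.Sg P W A a) : NotO P D W A :=
  fun hA => ⟨hA, true, SgT.base w r hb hc h hA⟩

/-- `D`-bound types are never of mode plus -/
theorem bound_sg (w : WfF P W) {A : Term S} {a b c : S} (r : P.rule a b c) (hb : b ∈ D)
    (hc : c ∈ D) (h : Uniq452.Sg P W A a) (hA : ¬ Inf786.Tame (skel P D W) A) :
    sgQ P D W A := by
  have hRA : Rl P D W A := by
    by_contra hn
    exact hA (tame_of_notRl w hn)
  exact SgT.base w r hb hc h hRA

end skel

/-! ### valid paths -/

section valid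

open Crest.Agent.R298.Cod893 Crest.Agent.R298.Vt786

variable {S : Type} {P : Spec S} {D : Set S} {W : ℕ → Term S} {C : Type} [Inhabited C]

/-- shapes over the world -/
abbrev ShW (P : Spec S) (D : Set S) (W : ℕ → Term S) (C : Type) [Inhabited C] :=
  Sh (Term S) (Vt786.SI (skel P D W) C) C

variable (P D W C) in
/-- WIDE validity of a shape at a closed type (no liveness, no sign) -/
def vtW : Term S → ShW P D W C → Prop
  | T, [] => kleaf D T
  | T, x :: s => ∃ A B, BetaEq T (pi A B) ∧ TyF P W x.1 A ∧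
      rngS (skel P D W) (sgQ P D W) (cl A) x.2 ∧ vtW (inst x.1 B) s

theorem vtW_nil {T : Term S} : vtW P D W C T [] ↔ kleaf D T := Iff.rfl

theorem vtW_conv {T T' : Term S} (e : BetaEq T T') {s : ShW P D W C} :
    vtW P D W C T s ↔ vtW P D W C T' s := by
  cases s with
  | nil => exact kleaf_conv e
  | cons x s =>
    exact ⟨fun ⟨A, B, h, h'⟩ => ⟨A, B, BetaEq.trans (BetaEq.symm e) h, h'⟩,
      fun ⟨A, B, h, h'⟩ => ⟨A, B, BetaEq.trans e h, h'⟩⟩

theorem vtW_cl {T : Term S} {s : ShW P D W C} : vtW P D W C (cl T) s ↔ vtW P D W C T s :=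
  vtW_conv (cl_eq T)

/-- wide validity at a product with typed domain -/
theorem vtW_cons {T A B : Term S} {t : S} (e : BetaEq T (pi A B)) (hA : TyF P W A (sort t))
    {x : Term S × ESh (Term S) (Vt786.SI (skel P D W) C) C} {s : ShW P D W C} :
    vtW P D W C T (x :: s) ↔ TyF P W x.1 A ∧
      rngS (skel P D W) (sgQ P D W) (cl A) x.2 ∧ vtW P D W C (inst x.1 B) s := by
  constructor
  · rintro ⟨A', B', e', h1, h2, h3⟩
    obtain ⟨e1, e2⟩ := pi_inj (BetaEq.trans (BetaEq.symm e') e)
    refine ⟨.conv h1 hA e1, ?_, (vtW_conv (BetaEq.sub e2 _)).1 h3⟩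
    rw [← cl_congr e1]
    exact h2
  · rintro ⟨h1, h2, h3⟩
    exact ⟨A, B, e, h1, h2, h3⟩

theorem vtW_nil_pi {T A B : Term S} (e : BetaEq T (pi A B)) : ¬ vtW P D W C T [] :=
  not_kleaf_pi e

/-- a type with a valid path is relevant -/
theorem rl_of_vtW (w : WfF P W) : ∀ {s : ShW P D W C} {T : Term S}, vtW P D W C T s →
    Rl P D W T
  | [], _, h => rl_leaf h
  | _ :: _, _, ⟨_, _, e, h1, _, h3⟩ => rl_of_inst w e h1 (rl_of_vtW w h3)

/-- valid ⇒ widely valid -/
theorem vtW_of_vt : ∀ {s : ShW P D W C} {T : Term S}, vt (skel P D W) (sgQ P D W) T s →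
    vtW P D W C T s
  | [], _, h => h
  | x :: s, T, ⟨hl, hr, hs⟩ => by
    obtain ⟨_, A, B, e, ha, _⟩ := hl
    have h1 : (skel P D W).dom T = cl A := kdom_pi e
    have h2 : (skel P D W).cod T x.1 = cl (inst x.1 B) := kcod_pi e x.1
    rw [h1] at hr
    rw [h2] at hs
    exact ⟨A, B, e, ha, hr, vtW_cl.1 (vtW_of_vt hs)⟩

/-- widely valid ⇒ valid, at the types which are not of mode O -/
theorem vt_of_vtW (w : WfF P W) : ∀ {s : ShW P D W C} {T : Term S}, NotO P D W T →
    vtW P D W C T s → vt (skel P D W) (sgQ P D W) T s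
  | [], _, _, h => h
  | x :: s, T, hn, ⟨A, B, e, ha, hr, hs⟩ => by
    have hri : Rl P D W (inst x.1 B) := rl_of_vtW w hs
    have hlive : Live P D W T := hn (rl_of_inst w e ha hri)
    refine ⟨⟨hlive, A, B, e, ha, hri⟩, ?_, ?_⟩
    · show rngS (skel P D W) (sgQ P D W) (kdom T) x.2
      rw [kdom_pi e]
      exact hr
    · show vt (skel P D W) (sgQ P D W) (kcod T x.1) s
      rw [kcod_pi e]
      refine vt_of_vtW w (NotO.conv w ?_ (BetaEq.symm (cl_eq _))) (vtW_cl.2 hs)
      exact hn.cod w e ha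

theorem vt_iff_vtW (w : WfF P W) {s : ShW P D W C} {T : Term S} (h : NotO P D W T) :
    vt (skel P D W) (sgQ P D W) T s ↔ vtW P D W C T s :=
  ⟨vtW_of_vt, vt_of_vtW w h⟩

theorem rl_of_vt (w : WfF P W) {s : ShW P D W C} {T : Term S}
    (h : vt (skel P D W) (sgQ P D W) T s) : Rl P D W T := rl_of_vtW w (vtW_of_vt h)

/-- an irrelevant type has no valid path -/
theorem not_vtW_of_irr (w : WfF P W) {s : ShW P D W C} {T : Term S} (h : ¬ Rl P D W T) :
    ¬ vtW P D W C T s := fun h' => h (rl_of_vtW w h')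

/-- validity is conversion invariant -/
theorem vt_conv (w : WfF P W) {T T' : Term S} (e : BetaEq T T') {s : ShW P D W C} :
    vt (skel P D W) (sgQ P D W) T s ↔ vt (skel P D W) (sgQ P D W) T' s := by
  cases s with
  | nil => exact kleaf_conv e
  | cons x s =>
    by_cases hp : ∃ A B, BetaEq T (pi A B)
    · obtain ⟨A, B, h⟩ := hp
      have h' : BetaEq T' (pi A B) := BetaEq.trans (BetaEq.symm e) h
      show (klive P D W T x.1 ∧ rngS _ _ (kdom T) x.2 ∧ vt _ _ (kcod T x.1) s) ↔
        (klive P D W T' x.1 ∧ rngS _ _ (kdom T') x.2 ∧ vt _ _ (kcod T' x.1) s)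
      rw [klive_conv w e, kdom_pi h, kdom_pi h', kcod_pi h, kcod_pi h']
    · constructor
      · rintro ⟨⟨_, A, B, h, _⟩, _⟩
        exact (hp ⟨A, B, h⟩).elim
      · rintro ⟨⟨_, A, B, h, _⟩, _⟩
        exact (hp ⟨A, B, BetaEq.trans e h⟩).elim

theorem vt_cl (w : WfF P W) {T : Term S} {s : ShW P D W C} :
    vt (skel P D W) (sgQ P D W) (cl T) s ↔ vt (skel P D W) (sgQ P D W) T s :=
  vt_conv w (cl_eq T)

variable {F : Frame S (Term S) (Vt786.SI (skel P D W) C) C}

/-- faithfulness of packing at widely valid paths of a type not of mode O -/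
theorem look_entryW (h : Std (skel P D W) (sgQ P D W) F) (w : WfF P W) (hF : TF P D W)
    {A : Term S} (hn : NotO P D W A) {u : UF (Term S) (Vt786.SI (skel P D W) C) C}
    (hu : Good u) {p : UPath (Term S) (Vt786.SI (skel P D W) C) C}
    (hp : vtW P D W C A (sh p)) : look F (entry F (cl A) u) p = u p :=
  h.look_entry (thin w hF) (cl A) hu ((vt_cl w).2 (vt_of_vtW w hn hp))

/-- packing at `cl A` only looks at the widely valid paths of `A` -/
theorem entry_congrW (h : Std (skel P D W) (sgQ P D W) F) {A : Term S}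
    {u v : UF (Term S) (Vt786.SI (skel P D W) C) C}
    (huv : ∀ p, vtW P D W C A (sh p) → u p = v p) : entry F (cl A) u = entry F (cl A) v :=
  h.entry_congr fun p hp => huv p (vtW_cl.1 (vtW_of_vt hp))

/-- packed arguments extend widely valid paths -/
theorem vtW_entry (h : Std (skel P D W) (sgQ P D W) F) {T A B a : Term S}
    (e : BetaEq T (pi A B)) (ha : TyF P W a A)
    (u : UF (Term S) (Vt786.SI (skel P D W) C) C)
    {p : UPath (Term S) (Vt786.SI (skel P D W) C) C} (hp : vtW P D W C (inst a B) (sh p)) :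
    vtW P D W C T (sh ((a, entry F (cl A) u) :: p)) :=
  ⟨A, B, e, ha, h.entry_ok _ _, hp⟩

/-- the same with the representative of the argument -/
theorem vtW_entry_cl (h : Std (skel P D W) (sgQ P D W) F) (w : WfF P W)
    (hwn : ∀ M A, TyF P W M A → WN M) {T A B a : Term S}
    (e : BetaEq T (pi A B)) (ha : TyF P W a A)
    (u : UF (Term S) (Vt786.SI (skel P D W) C) C)
    {p : UPath (Term S) (Vt786.SI (skel P D W) C) C} (hp : vtW P D W C (inst a B) (sh p)) :
    vtW P D W C T (sh ((cl a, entry F (cl A) u) :: p)) := by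
  refine ⟨A, B, e, cl_typed w hwn ha, h.entry_ok _ _, ?_⟩
  refine (vtW_conv ?_).1 hp
  exact BetaEq.inst (BetaEq.symm (cl_eq a)) (.refl _)

end valid

end Crest.Agent.R298.Md254
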