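import Crest.Agent.R298.Vt2_786
import Crest.Agent.R298.Md2_254

/-!
# R298: domain types of closed functions, the frame of a world (helper201)

`Q := Term S`, `cl := Md254.cl`, `rep := id`; the product operation `op` and the value of a sort
`sv` are arbitrary.
-/

set_option autoImplicit false
set_option linter.unusedSectionVars false

namespace Crest.Agent.R298.Fr201

open Crest.LogicCS.PTS Crest.LogicCS.PTS.Term Relation
open Crest.Agent.R298.Sub452 Crest.Agent.R298.Par452 Crest.Agent.R298.TyF452
open Crest.Agent.R298.Uniq452 (FS funiq)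
open Crest.Agent.R298.Md254
open Crest.Agent.R298.Inf786 (Skel Cd Dm Thin tame_of_dead)
open Crest.Agent.R298.Cod893
open Crest.Agent.R298.Vt786

variable {S : Type} {P : Spec S} {D : Set S} {W : ℕ → Term S}

open Classical in
/-- the domain type of a closed function -/
noncomputable def dtQ (P : Spec S) (W : ℕ → Term S) (q : Term S) : Term S :=
  if h : ∃ x : Term S × Term S, TyF P W q (pi x.1 x.2) then cl (Classical.choose h).1 else q

theorem dtQ_pi {q A B : Term S} (h : TyF P W q (pi A B)) : dtQ P W q = cl A := by
  have hex : ∃ x : Term S × Term S, TyF P W q (pi x.1 x.2) := ⟨(A, B), h⟩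
  unfold dtQ
  rw [dif_pos hex]
  exact cl_congr (funiq (Classical.choose_spec hex) h).pi_inv.1

theorem dtQ_cl (w : WfF P W) (hwn : ∀ M A, TyF P W M A → WN M) {M A B : Term S}
    (h : TyF P W M (pi A B)) : dtQ P W (cl M) = cl A := dtQ_pi (cl_typed w hwn h)

section frame

variable {C : Type} [Inhabited C]

/-- small infos of the world -/
abbrev SIw (P : Spec S) (D : Set S) (W : ℕ → Term S) (C : Type) [Inhabited C] : Type :=
  Vt786.SI (skel P D W) C

/-- the frame of a world, over an arbitrary product operation -/
noncomputable def fr (P : Spec S) (D : Set S) (W : ℕ → Term S) (sv : S → C)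
    (op : Term S → Term S → C → (Term S → PEnt (Term S) (SIw P D W C) C → C) → C) :
    Frame S (Term S) (SIw P D W C) C :=
  stdFrame (skel P D W) (sgQ P D W) cl id (fun _ _ c => c) (dtQ P W) sv op

variable {sv : S → C}
  {op : Term S → Term S → C → (Term S → PEnt (Term S) (SIw P D W C) C → C) → C}

theorem fr_std : Std (skel P D W) (sgQ P D W) (fr P D W sv op) := ⟨rfl, rfl, rfl, rfl, rfl⟩

theorem fr_vlaws (w : WfF P W) (hF : TF P D W) :
    VLaws (fr P D W sv op) (vt (skel P D W) (sgQ P D W)) :=
  fr_std.vlaws (thin w hF) fun _ _ _ => rfl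

end frame

end Crest.Agent.R298.Fr201
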