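import Crest.Agent.R298.Main_865
import Crest.Agent.R298.TyMF_452

/-!
R298 (S0452), helper865: MASTER ASSEMBLY over FUNCTION CONTEXTS.

Same as `Main_865`, with `TyF` / `TMF` over good function contexts instead of lists:
`SigF`, `NFF`, `WNiF`, `BlockAF`, `BlockTF`, `s0452_ofF`.
No world and no strengthening is needed here: a list context is padded by `sort s₀`.
-/

set_option autoImplicit false

namespace Crest.Agent.R298.Main865

open Crest.LogicCS.PTS Relation
open Crest.Agent.R298.Sub452 Crest.Agent.R298.Par452 Crest.Agent.R298.Ty452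
open Crest.Agent.R298.Mem360 Crest.Agent.R298.TyF452 Crest.Agent.R298.TyMF452
open Crest.Agent.R298.Scc795
open Crest.Agent.R298.Mem360.MT (er emb er_emb IsL isL_of_dist dist)

universe u

variable {S : Type u}

/-- the sorts of a type, up to conversion (function contexts) -/
def SigF (P : Spec S) (D : ℕ → Term S) (T : Term S) (s : S) : Prop :=
  ∃ T', BetaEq T T' ∧ TyF P D T' (.sort s)

/-- **`NFF P idx k D M`**: `NF` over function contexts. -/
def NFF (P : Spec S) (idx : S → ℕ) (k : ℕ) : (ℕ → Term S) → MT S → Prop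
  | _, .var _ => True
  | _, .sort _ => True
  | D, .app F Q => NFF P idx k D F ∧ NFF P idx k D Q ∧
      (IsL F → ∃ T s, TyF P D (er F) T ∧ SigF P D T s ∧ k ≤ idx s)
  | D, .lam A M => NFF P idx k D A ∧ NFF P idx k (fcons (er A) D) M
  | D, .pi A B => NFF P idx k D A ∧ NFF P idx k (fcons (er A) D) B
  | D, .mem M N => NFF P idx k D M ∧ NFF P idx k D N

/-- **stage `i`** over good function contexts -/
def WNiF (P : Spec S) (idx : S → ℕ) (i : ℕ) : Prop :=
  ∀ (D : ℕ → Term S) (M : MT S) (A : Term S), Good P D → TMF P D M A → NFF P idx i D M →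
    ∃ M', MRed M M' ∧ NFF P idx (i + 1) D M'

theorem NFF.mono {P : Spec S} {idx : S → ℕ} {j k : ℕ} (h : j ≤ k) {M : MT S} :
    ∀ {D : ℕ → Term S}, NFF P idx k D M → NFF P idx j D M := by
  induction M with
  | var i => intro D _; trivial
  | sort s => intro D _; trivial
  | app F Q ihF ihQ =>
      intro D ⟨h1, h2, h3⟩
      refine ⟨ihF h1, ihQ h2, fun hl => ?_⟩
      obtain ⟨T, s, hT, hs, hk⟩ := h3 hl
      exact ⟨T, s, hT, hs, h.trans hk⟩
  | lam A M ihA ihM => intro D ⟨h1, h2⟩; exact ⟨ihA h1, ihM h2⟩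
  | pi A M ihA ihM => intro D ⟨h1, h2⟩; exact ⟨ihA h1, ihM h2⟩
  | mem A M ihA ihM => intro D ⟨h1, h2⟩; exact ⟨ihA h1, ihM h2⟩

/-- a typed term with memory has no redexes of class `0` -/
theorem NFF.one {P : Spec S} {idx : S → ℕ} {N : ℕ} (hi : IsIdx P idx N) {D : ℕ → Term S}
    {M : MT S} {A : Term S} (h : TMF P D M A) : WfF P D → NFF P idx 1 D M := by
  induction h with
  | sort _ => intro _; trivial
  | var _ => intro _; trivial
  | pi hA _ _ ih ih' =>
      intro w
      exact ⟨ih w, ih' (w.cons hA.typed)⟩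
  | lam hA _ _ ih ih' =>
      intro w
      exact ⟨ih w, ih' (w.cons hA.typed)⟩
  | @app D M N A B hM hN ih ih' =>
      intro w
      refine ⟨ih w, ih' w, fun _ => ?_⟩
      have ht := hM.typed
      obtain ⟨s, hs⟩ := fpi_typed w ht
      obtain ⟨a, b, c, h1, h2, r, e⟩ := fgen_pi hs _ _ rfl
      have hc : s = c := sort_inj e
      subst hc
      exact ⟨_, s, ht, ⟨_, .refl _, hs⟩, hi.rule_pos r⟩
  | mem _ _ ih ih' => intro w; exact ⟨ih w, ih' w⟩
  | conv _ _ _ ih => exact ih

/-- above the top level there are no redexes -/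
theorem NFF.normal {P : Spec S} {idx : S → ℕ} {N : ℕ} (hN : ∀ x, idx x ≤ N) {M M' : MT S}
    (hs : MStep M M') : ∀ {D : ℕ → Term S}, NFF P idx (N + 1) D M → False := by
  induction hs with
  | beta h =>
      intro D hn
      obtain ⟨T, s, _, _, hk⟩ := hn.2.2 (isL_of_dist h)
      have := hN s
      omega
  | appL _ _ ih => intro D hn; exact ih hn.1
  | appR _ _ ih => intro D hn; exact ih hn.2.1
  | lamA _ _ ih => intro D hn; exact ih hn.1
  | lamM _ _ ih => intro D hn; exact ih hn.2
  | piA _ _ ih => intro D hn; exact ih hn.1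
  | piB _ _ ih => intro D hn; exact ih hn.2
  | memP _ _ ih => intro D hn; exact ih hn.1
  | memN _ _ ih => intro D hn; exact ih hn.2

/-- **assembly of the stages** over good function contexts -/
theorem assemblyF {P : Spec S} {idx : S → ℕ} {N : ℕ} (hi : IsIdx P idx N)
    (h : ∀ i, 0 < i → WNiF P idx i) {D : ℕ → Term S} (g : Good P D) {M : MT S} {A : Term S}
    (hM : TMF P D M A) : MWN M := by
  have key : ∀ k, ∃ M', MRed M M' ∧ NFF P idx (k + 1) D M' := by
    intro k
    induction k with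
    | zero => exact ⟨M, .refl, NFF.one hi hM g.wf⟩
    | succ k ih =>
        obtain ⟨M', hr, hn⟩ := ih
        obtain ⟨M'', hr', hn'⟩ := h (k + 1) (Nat.succ_pos k) D M' A g (tmf_SR g.wf hM hr) hn
        exact ⟨M'', hr.trans hr', hn'⟩
  obtain ⟨M', hr, hn⟩ := key N
  exact ⟨M', hr, fun K hK => NFF.normal hi.le hK hn⟩

/-! ### list contexts as good function contexts -/

/-- a list context, padded by the declaration of a sort -/
def pad (s₀ : S) : List (Term S) → ℕ → Term S
  | [] => fun _ => .sort s₀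
  | A :: Γ => fcons A (pad s₀ Γ)

theorem pad_lk {s₀ : S} {Γ : List (Term S)} {i : ℕ} {B : Term S} (h : Lk Γ i B) :
    pad s₀ Γ i = B := by
  induction h with
  | zero A Γ => rfl
  | succ C h ih => show wk _ = _; rw [ih]

theorem good_base {P : Spec S} {s₀ t₀ : S} (h : P.ax s₀ t₀) : Good P (fun _ => .sort s₀) := by
  refine ⟨fun i => ⟨t₀, .ax h⟩, fun n => ?_⟩
  have hw : Wf P (List.replicate n (Term.sort s₀)) := by
    induction n with
    | zero => exact .nil
    | succ n ih => exact .cons ih (ax_wf ih h)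
  refine ⟨List.replicate n (.sort s₀), fun i => i, hw, fun i j e => e, ?_⟩
  intro i hi
  show Lk _ i (.sort s₀)
  clear hw
  induction n generalizing i with
  | zero => omega
  | succ n ih =>
      cases i with
      | zero => exact Lk.zero (.sort s₀) _
      | succ i => exact Lk.succ (.sort s₀) (ih i (by omega))

theorem good_pad {P : Spec S} {s₀ t₀ : S} (h : P.ax s₀ t₀) {Γ : List (Term S)} (w : Wf P Γ) :
    Good P (pad s₀ Γ) := by
  induction w with
  | nil => exact good_base h
  | cons _ hA ih => exact ih.cons (typed_tyf_id hA (fun i B hl => pad_lk hl))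

/-- every derivation uses an axiom -/
theorem typed_exists_ax {P : Spec S} {Γ : List (Term S)} {M A : Term S} (h : Typed P Γ M A) :
    ∃ s t, P.ax s t := by
  induction h with
  | ax h => exact ⟨_, _, h⟩
  | start _ ih => exact ih
  | weak _ _ ih _ => exact ih
  | prod _ _ _ ih _ => exact ih
  | abs _ _ ih _ => exact ih
  | appl _ _ ih _ => exact ih
  | conv _ _ _ ih _ => exact ih

/-! ### the blocks -/

/-- block (a) over function contexts -/
def BlockAF : Prop := ∀ (n : ℕ) (P : Spec (Fin n)) (idx : Fin n → ℕ) (N : ℕ), Std P →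
  IsIdx P idx N → ∀ i, 0 < i → (Unary P (Lvl idx i) ∨ Even P (Lvl idx i)) → WNiF P idx i

/-- block (T) over function contexts -/
def BlockTF (Fat : FatPred) : Prop := ∀ (n : ℕ) (P : Spec (Fin n)) (idx : Fin n → ℕ) (N : ℕ),
  Std P → IsIdx P idx N → ∀ i, 0 < i → ¬ Fat n P (Lvl idx i) → WNiF P idx i

theorem sn_of_blocksF (Fat : FatPred) (hA : BlockAF) (hT : BlockTF Fat) (hP : BlockP Fat)
    (n : ℕ) (P : Spec (Fin n)) (hS : Std P) (Γ : List (Term (Fin n))) (M : Term (Fin n))
    (hM : Legal P Γ M) : SN M := by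
  obtain ⟨idx, N, h1, h2, h3, h4⟩ := exists_idx (P := P)
    ⟨Set.toFinite _, Set.toFinite _⟩
  have hi : IsIdx P idx N := ⟨h1, h2, h3, h4⟩
  have hst : ∀ i, 0 < i → WNiF P idx i := by
    intro i hpos
    rcases trichotomy P (Lvl idx i) with h | h | h
    · exact hA n P idx N hS hi i hpos (Or.inl h)
    · exact hA n P idx N hS hi i hpos (Or.inr h)
    · exact hT n P idx N hS hi i hpos (fun hf => hP n P _ hS (hi.isScc hpos) h hf)
  have typed_sn : ∀ {K A : Term (Fin n)}, Typed P Γ K A → SN K := by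
    intro K A hK
    obtain ⟨s₀, t₀, h₀⟩ := typed_exists_ax hK
    have g := good_pad h₀ (twf hK)
    exact sn_of_wn_emb (assemblyF hi hst g
      (tmf_emb (typed_tyf_id hK (fun i B hl => pad_lk (s₀ := s₀) hl))))
  obtain ⟨K, h | h⟩ := hM
  · exact typed_sn h
  · rcases type_correct h with ⟨s, e⟩ | ⟨s, hs⟩
    · rintro ⟨f, hf0, hf⟩
      have h0 := hf 0
      rw [hf0, e] at h0
      cases h0
    · exact typed_sn hs

/-- **S0452 from the three blocks**, function context form. -/
theorem s0452_ofF (Fat : FatPred) (hA : BlockAF) (hT : BlockTF Fat) (hP : BlockP Fat)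
    (T : Type u) (P : Spec T)
    (h : ∀ (Γ : List (Term T)) (M : Term T), Legal P Γ M → WN M) (Γ : List (Term T))
    (M : Term T) (hM : Legal P Γ M) : SN M :=
  Real582.s0452_of_fin_realized
    (fun n P₀ hr hw Γ₀ M₀ hM₀ => sn_of_blocksF Fat hA hT hP n P₀ ⟨hr, hw⟩ Γ₀ M₀ hM₀) T P h Γ M hM

end Crest.Agent.R298.Main865
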