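import Crest.Agent.R298.WorldF_657
import Crest.Agent.R298.MainF_865

/-!
R298 (S0452), helper657: fresh names and strengthening for terms with memory: reflection of
`NFF` along an embedding of a part of a context (`RenX`), reflection of `MStep` / `MRed` along
renamings, and the abstraction step of the stages in one world.
-/

set_option autoImplicit false

namespace Crest.Agent.R298.FreshM657

open Crest.LogicCS.PTS Relation
open Crest.Agent.R298.Sub452 Crest.Agent.R298.Par452 Crest.Agent.R298.Ty452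
open Crest.Agent.R298.Mem360 Crest.Agent.R298.TyF452 Crest.Agent.R298.TyMF452
open Crest.Agent.R298.StrF657 Crest.Agent.R298.World657 Crest.Agent.R298.Main865
open Crest.Agent.R298.Mem360.MT (er emb mren mwk mups msub mscons minst er_mren er_mups er_msub
  er_minst er_emb emb_ren msub_id mren_id IsL dist isL_of_dist exists_dist dist_mren mren_mren
  mren_eq_msub mren_minst)

universe u
variable {S : Type u} {P : Spec S}

/-! ### free variables of a term with memory -/

/-- all free variables (also those of the memories) are in `X` -/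
def MFv : MT S → Set ℕ → Prop
  | .var i, X => i ∈ X
  | .sort _, _ => True
  | .app M N, X => MFv M X ∧ MFv N X
  | .lam A M, X => MFv A X ∧ MFv M (upS X)
  | .pi A B, X => MFv A X ∧ MFv B (upS X)
  | .mem M N, X => MFv M X ∧ MFv N X

theorem MFv.er {M : MT S} {X : Set ℕ} (h : MFv M X) : Fv (MT.er M) X := by
  induction M generalizing X with
  | var i => exact h
  | sort s => trivial
  | app M N h1 h2 => exact ⟨h1 h.1, h2 h.2⟩
  | lam A M h1 h2 => exact ⟨h1 h.1, h2 h.2⟩
  | pi A M h1 h2 => exact ⟨h1 h.1, h2 h.2⟩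
  | mem M N h1 _ => exact h1 h.1

theorem mfv_emb {M : Term S} {X : Set ℕ} (h : Fv M X) : MFv (MT.emb M) X := by
  induction M generalizing X with
  | var i => exact h
  | sort s => trivial
  | app M N h1 h2 => exact ⟨h1 h.1, h2 h.2⟩
  | lam A M h1 h2 => exact ⟨h1 h.1, h2 h.2⟩
  | pi A M h1 h2 => exact ⟨h1 h.1, h2 h.2⟩

theorem MFv.mono {M : MT S} {X Y : Set ℕ} (h : MFv M X) (hXY : X ⊆ Y) : MFv M Y := by
  induction M generalizing X Y with
  | var i => exact hXY h
  | sort s => trivial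
  | app M N h1 h2 => exact ⟨h1 h.1 hXY, h2 h.2 hXY⟩
  | lam A M h1 h2 => exact ⟨h1 h.1 hXY, h2 h.2 (upS_mono hXY)⟩
  | pi A M h1 h2 => exact ⟨h1 h.1 hXY, h2 h.2 (upS_mono hXY)⟩
  | mem M N h1 h2 => exact ⟨h1 h.1 hXY, h2 h.2 hXY⟩

theorem mfv_mren {M : MT S} {X Y : Set ℕ} {ρ : ℕ → ℕ} (h : MFv M X) (e : ∀ i ∈ X, ρ i ∈ Y) :
    MFv (mren ρ M) Y := by
  have hup : ∀ {X Y : Set ℕ} {ρ : ℕ → ℕ}, (∀ i ∈ X, ρ i ∈ Y) →
      ∀ i ∈ upS X, up ρ i ∈ upS Y := by
    intro X Y ρ e i hi
    cases i with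
    | zero => simp
    | succ i => rw [succ_mem_upS] at hi; rw [up_succ, succ_mem_upS]; exact e i hi
  induction M generalizing X Y ρ with
  | var i => exact e i h
  | sort s => trivial
  | app M N h1 h2 => exact ⟨h1 h.1 e, h2 h.2 e⟩
  | lam A M h1 h2 => exact ⟨h1 h.1 e, h2 h.2 (hup e)⟩
  | pi A M h1 h2 => exact ⟨h1 h.1 e, h2 h.2 (hup e)⟩
  | mem M N h1 h2 => exact ⟨h1 h.1 e, h2 h.2 e⟩

theorem mfv_mwk {M : MT S} {X : Set ℕ} (h : MFv M X) : MFv (mwk M) (upS X) :=
  mfv_mren h (fun i hi => by rw [Nat.succ_eq_add_one, succ_mem_upS]; exact hi)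

theorem mfv_msub {M : MT S} {X Y : Set ℕ} {σ : ℕ → MT S} (h : MFv M X)
    (e : ∀ i ∈ X, MFv (σ i) Y) : MFv (msub σ M) Y := by
  have hup : ∀ {X Y : Set ℕ} {σ : ℕ → MT S}, (∀ i ∈ X, MFv (σ i) Y) →
      ∀ i ∈ upS X, MFv (mups σ i) (upS Y) := by
    intro X Y σ e i hi
    cases i with
    | zero => show (0 : ℕ) ∈ upS Y; simp
    | succ i => rw [succ_mem_upS] at hi; exact mfv_mwk (e i hi)
  induction M generalizing X Y σ with
  | var i => exact e i h
  | sort s => trivial
  | app M N h1 h2 => exact ⟨h1 h.1 e, h2 h.2 e⟩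
  | lam A M h1 h2 => exact ⟨h1 h.1 e, h2 h.2 (hup e)⟩
  | pi A M h1 h2 => exact ⟨h1 h.1 e, h2 h.2 (hup e)⟩
  | mem M N h1 h2 => exact ⟨h1 h.1 e, h2 h.2 e⟩

theorem mfv_minst {M N : MT S} {X : Set ℕ} (h : MFv M (upS X)) (h' : MFv N X) :
    MFv (minst N M) X := by
  refine mfv_msub h (fun i hi => ?_)
  cases i with
  | zero => exact h'
  | succ i => rw [succ_mem_upS] at hi; exact hi

theorem mfv_dist {F Q R : MT S} {X : Set ℕ} (hF : MFv F X) (hQ : MFv Q X)
    (h : dist F Q = some R) : MFv R X := by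
  induction F generalizing R with
  | lam A P _ _ =>
      simp only [MT.dist_lam, Option.some.injEq] at h
      subst h
      exact ⟨⟨mfv_minst hF.2 hQ, hQ⟩, hF.1⟩
  | mem F N ih _ =>
      obtain ⟨R0, h0⟩ := exists_dist (F := F) (by simpa using isL_of_dist h) Q
      rw [MT.dist_mem, h0] at h
      simp only [Option.map_some, Option.some.injEq] at h
      subst h
      exact ⟨ih hF.1 h0, hF.2⟩
  | _ => simp at h

theorem mfv_step {M N : MT S} (b : MStep M N) : ∀ {X : Set ℕ}, MFv M X → MFv N X := by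
  induction b with
  | beta h => intro X hM; exact mfv_dist hM.1 hM.2 h
  | appL _ _ ih => intro X h; exact ⟨ih h.1, h.2⟩
  | appR _ _ ih => intro X h; exact ⟨h.1, ih h.2⟩
  | lamA _ _ ih => intro X h; exact ⟨ih h.1, h.2⟩
  | lamM _ _ ih => intro X h; exact ⟨h.1, ih h.2⟩
  | piA _ _ ih => intro X h; exact ⟨ih h.1, h.2⟩
  | piB _ _ ih => intro X h; exact ⟨h.1, ih h.2⟩
  | memP _ _ ih => intro X h; exact ⟨ih h.1, h.2⟩
  | memN _ _ ih => intro X h; exact ⟨h.1, ih h.2⟩

theorem mfv_red {M N : MT S} {X : Set ℕ} (r : MRed M N) (h : MFv M X) : MFv N X := by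
  induction r with
  | refl => exact h
  | tail _ b ih => exact mfv_step b ih

theorem exists_mfv (M : MT S) : ∃ n, ∀ m, n ≤ m → MFv M {i | i < m} := by
  induction M with
  | var i => exact ⟨i + 1, fun m hm => hm⟩
  | sort s => exact ⟨0, fun _ _ => trivial⟩
  | app M N h1 h2 =>
      obtain ⟨n, hn⟩ := h1
      obtain ⟨m, hm⟩ := h2
      exact ⟨max n m, fun k hk => ⟨hn k (le_trans (le_max_left _ _) hk),
        hm k (le_trans (le_max_right _ _) hk)⟩⟩
  | lam A M h1 h2 =>
      obtain ⟨n, hn⟩ := h1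
      obtain ⟨m, hm⟩ := h2
      refine ⟨max n m, fun k hk => ⟨hn k (le_trans (le_max_left _ _) hk), ?_⟩⟩
      rw [upS_lt]
      exact hm (k + 1) (le_trans (le_trans (le_max_right _ _) hk) (Nat.le_succ _))
  | pi A M h1 h2 =>
      obtain ⟨n, hn⟩ := h1
      obtain ⟨m, hm⟩ := h2
      refine ⟨max n m, fun k hk => ⟨hn k (le_trans (le_max_left _ _) hk), ?_⟩⟩
      rw [upS_lt]
      exact hm (k + 1) (le_trans (le_trans (le_max_right _ _) hk) (Nat.le_succ _))
  | mem M N h1 h2 =>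
      obtain ⟨n, hn⟩ := h1
      obtain ⟨m, hm⟩ := h2
      exact ⟨max n m, fun k hk => ⟨hn k (le_trans (le_max_left _ _) hk),
        hm k (le_trans (le_max_right _ _) hk)⟩⟩

/-! ### reflection of steps along renamings -/

theorem isL_mren_iff {F : MT S} {ρ : ℕ → ℕ} : IsL (mren ρ F) ↔ IsL F := by
  induction F with
  | lam A P _ _ => exact Iff.rfl
  | mem F N ih _ => exact ih
  | _ => exact Iff.rfl

theorem mstep_ren_inv {M : MT S} : ∀ {ρ : ℕ → ℕ} {N : MT S}, MStep (mren ρ M) N →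
    ∃ M', MStep M M' ∧ N = mren ρ M' := by
  induction M with
  | var i => intro ρ N h; cases h
  | sort s => intro ρ N h; cases h
  | app F Q ihF ihQ =>
      intro ρ N h
      rw [MT.mren_app] at h
      cases h with
      | beta hd =>
          obtain ⟨R0, h0⟩ := exists_dist (F := F) (isL_mren_iff.1 (isL_of_dist hd)) Q
          have h1 := dist_mren h0 ρ
          rw [hd] at h1
          simp only [Option.some.injEq] at h1
          exact ⟨R0, .beta h0, h1⟩
      | appL _ h =>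
          obtain ⟨M', a, b⟩ := ihF h
          exact ⟨_, .appL _ a, by rw [b]; rfl⟩
      | appR _ h =>
          obtain ⟨M', a, b⟩ := ihQ h
          exact ⟨_, .appR _ a, by rw [b]; rfl⟩
  | lam A M ihA ihM =>
      intro ρ N h
      rw [MT.mren_lam] at h
      cases h with
      | lamA _ h =>
          obtain ⟨M', a, b⟩ := ihA h
          exact ⟨_, .lamA _ a, by rw [b]; rfl⟩
      | lamM _ h =>
          obtain ⟨M', a, b⟩ := ihM h
          exact ⟨_, .lamM _ a, by rw [b]; rfl⟩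
  | pi A M ihA ihM =>
      intro ρ N h
      rw [MT.mren_pi] at h
      cases h with
      | piA _ h =>
          obtain ⟨M', a, b⟩ := ihA h
          exact ⟨_, .piA _ a, by rw [b]; rfl⟩
      | piB _ h =>
          obtain ⟨M', a, b⟩ := ihM h
          exact ⟨_, .piB _ a, by rw [b]; rfl⟩
  | mem M K ihM ihK =>
      intro ρ N h
      rw [MT.mren_mem] at h
      cases h with
      | memP _ h =>
          obtain ⟨M', a, b⟩ := ihM h
          exact ⟨_, .memP _ a, by rw [b]; rfl⟩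
      | memN _ h =>
          obtain ⟨M', a, b⟩ := ihK h
          exact ⟨_, .memN _ a, by rw [b]; rfl⟩

theorem mred_ren_inv {M N : MT S} {ρ : ℕ → ℕ} (h : MRed (mren ρ M) N) :
    ∃ M', MRed M M' ∧ N = mren ρ M' := by
  induction h with
  | refl => exact ⟨M, .refl, rfl⟩
  | tail _ b ih =>
      obtain ⟨M', r, e⟩ := ih
      rw [e] at b
      obtain ⟨M'', b', e'⟩ := mstep_ren_inv b
      exact ⟨M'', r.tail b', e'⟩

/-! ### `NFF` along renamings -/

theorem nff_ren {idx : S → ℕ} {k : ℕ} {M : MT S} : ∀ {ρ : ℕ → ℕ} {D D' : ℕ → Term S},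
    RenF ρ D D' → NFF P idx k D M → NFF P idx k D' (mren ρ M) := by
  induction M with
  | var i => intro ρ D D' _ _; trivial
  | sort s => intro ρ D D' _ _; trivial
  | app F Q ihF ihQ =>
      intro ρ D D' hr h
      refine ⟨ihF hr h.1, ihQ hr h.2.1, fun hl => ?_⟩
      obtain ⟨T, s, hT, ⟨T', e, hT'⟩, hk⟩ := h.2.2 (isL_mren_iff.1 hl)
      refine ⟨ren ρ T, s, ?_, ⟨ren ρ T', BetaEq.ren e ρ, tyf_ren hT' hr⟩, hk⟩
      rw [er_mren]; exact tyf_ren hT hr
  | lam A M ihA ihM =>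
      intro ρ D D' hr h
      refine ⟨ihA hr h.1, ?_⟩
      rw [er_mren]
      exact ihM (hr.up _) h.2
  | pi A M ihA ihM =>
      intro ρ D D' hr h
      refine ⟨ihA hr h.1, ?_⟩
      rw [er_mren]
      exact ihM (hr.up _) h.2
  | mem M N ihM ihN => intro ρ D D' hr h; exact ⟨ihM hr h.1, ihN hr h.2⟩

/-- reflection of `SigF` -/
theorem sigF_reflect (hP : ∀ (Γ : List (Term S)) (M : Term S), Legal P Γ M → WN M)
    {ρ : ℕ → ℕ} {X : Set ℕ} {D D' : ℕ → Term S} {M T T0 : Term S} {s : S} (hr : RenX ρ X D D')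
    (g : Good P D) (w' : WfF P D') (hT0 : TyF P D M T0) (fv : Fv T0 X)
    (e : BetaEq T (ren ρ T0)) (h : SigF P D' T s) : SigF P D T0 s := by
  obtain ⟨T', e', hT'⟩ := h
  obtain ⟨N, rN, nN⟩ := (g.wn hP hT0).2
  have e2 : BetaEq T' (ren ρ N) :=
    BetaEq.trans (BetaEq.symm e') (BetaEq.trans e (Red.eq (Red.ren rN ρ)))
  have r2 : Red T' (ren ρ N) := red_of_eq_normal e2 (TyF452.normal_ren nN ρ)
  have h2 : TyF P D' (ren ρ N) (.sort s) := FSR w' hT' r2
  exact ⟨N, Red.eq rN, strF_sort nN hr g.wf (fv_red rN fv) h2⟩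

/-- **strengthening for terms with memory** -/
theorem tmf_reflect (hP : ∀ (Γ : List (Term S)) (M : Term S), Legal P Γ M → WN M) (M : MT S) :
    ∀ {ρ : ℕ → ℕ} {X : Set ℕ} {D D' : ℕ → Term S} {A' : Term S}, RenX ρ X D D' →
      Good P D → WfF P D' → MFv M X → TMF P D' (mren ρ M) A' →
      ∃ A, TMF P D M A ∧ Fv A X ∧ BetaEq A' (ren ρ A) := by
  induction M with
  | var i =>
      intro ρ X D D' A' hr g _ fv ht
      obtain ⟨_, e⟩ := tmf_gen_var ht
      rw [hr.eq i fv] at e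
      exact ⟨D i, tmf_var g.wf i, hr.fv i fv, e⟩
  | sort s =>
      intro ρ X D D' A' hr g _ fv ht
      obtain ⟨s', a, e⟩ := tmf_gen_sort ht
      exact ⟨.sort s', .sort a, trivial, e⟩
  | app M1 N ih1 ih2 =>
      intro ρ X D D' A' hr g w' fv ht
      obtain ⟨A1, B1, hM, hN, e⟩ := tmf_gen_app ht _ _ rfl
      obtain ⟨T1, t1, f1, e1⟩ := ih1 hr g w' fv.1 hM
      obtain ⟨A2, B2, r2, ra, rb⟩ := red_of_eq_pi (BetaEq.symm e1)
      obtain ⟨T2, r3, e3⟩ := TyF452.red_ren_inv r2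
      have f3 := fv_red r3 f1
      cases T2 with
      | pi A3 B3 =>
          simp only [ren_pi] at e3
          injection e3 with e4 e5
          subst e4; subst e5
          have t3 := tmf_red_type g.wf t1 r3
          obtain ⟨s, hp⟩ := fpi_typed g.wf t3.typed
          obtain ⟨s₁, s₂, s₃, a, b, c, d⟩ := fgen_pi hp _ _ rfl
          obtain ⟨A4, t4, f4, e4⟩ := ih2 hr g w' fv.2 hN
          have e5 : BetaEq A4 A3 := eq_ren_inv_on hr.inj f4 f3.1
            (BetaEq.trans (BetaEq.symm e4) (Red.eq ra))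
          refine ⟨_, .app t3 (.conv t4 e5 a), fv_inst f3.2 fv.2.er, BetaEq.trans e ?_⟩
          rw [er_mren, ren_inst]
          exact BetaEq.inst (BetaEq.refl _) (Red.eq rb)
      | _ => cases e3
  | pi E F ih1 ih2 =>
      intro ρ X D D' A' hr g w' fv ht
      obtain ⟨s₁, s₂, s₃, a, b, c, d⟩ := tmf_gen_pi ht _ _ rfl
      rw [er_mren] at b
      obtain ⟨A1, t1, f1, e1⟩ := ih1 hr g w' fv.1 a
      have a' : TMF P D E (.sort s₁) := tmf_sort_of_eq g.wf t1
        (eq_ren_inv_on (N := .sort s₁) hr.inj f1 trivial (BetaEq.symm e1))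
      have a0 := a.typed
      rw [er_mren] at a0
      obtain ⟨A2, t2, f2, e2⟩ := ih2 (hr.up fv.1.er) (g.cons a'.typed) (w'.cons a0) fv.2 b
      have b' : TMF P (fcons (er E) D) F (.sort s₂) := tmf_sort_of_eq (g.wf.cons a'.typed) t2
        (eq_ren_inv_on (N := .sort s₂) (hr.up fv.1.er).inj f2 trivial (BetaEq.symm e2))
      exact ⟨.sort s₃, .pi a' b' c, trivial, d⟩
  | lam E M0 ih1 ih2 =>
      intro ρ X D D' A' hr g w' fv ht
      obtain ⟨B', t₁, s', hE, hM, hp, e1⟩ := tmf_gen_lam ht _ _ rfl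
      rw [er_mren] at hM hp e1
      have hE0 := hE.typed
      rw [er_mren] at hE0
      obtain ⟨A1, u1, f1, e2⟩ := ih1 hr g w' fv.1 hE
      have a' : TMF P D E (.sort t₁) := tmf_sort_of_eq g.wf u1
        (eq_ren_inv_on (N := .sort t₁) hr.inj f1 trivial (BetaEq.symm e2))
      obtain ⟨B1, u2, f2, e3⟩ := ih2 (hr.up fv.1.er) (g.cons a'.typed) (w'.cons hE0) fv.2 hM
      obtain ⟨B2, r2, nB2⟩ := ((g.cons a'.typed).wn hP u2.typed).2
      have u3 := tmf_red_type (g.cons a'.typed).wf u2 r2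
      have f3 := fv_red r2 f2
      have e4 : BetaEq B' (ren (up ρ) B2) := BetaEq.trans e3 (Red.eq (Red.ren r2 _))
      have r4 : Red B' (ren (up ρ) B2) := red_of_eq_normal e4 (TyF452.normal_ren nB2 _)
      have hp2 := FSR w' hp (Red.pi (.refl : Red (ren ρ (er E)) (ren ρ (er E))) r4)
      obtain ⟨s₁, s₂, s₃, a2, b2, c2, d2⟩ := fgen_pi hp2 _ _ rfl
      obtain ⟨A3, u4, f4, e5⟩ := strF hP (er E) hr g w' fv.1.er a2
      have a3 : TyF P D (er E) (.sort s₁) := tyf_sort_of_eq g.wf u4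
        (eq_ren_inv_on (N := .sort s₁) hr.inj f4 trivial (BetaEq.symm e5))
      have b3 : TyF P (fcons (er E) D) B2 (.sort s₂) :=
        strF_sort nB2 (hr.up fv.1.er) (g.wf.cons a3) f3 b2
      refine ⟨.pi (er E) B2, .lam a' u3 (.prod a3 b3 c2), ⟨fv.1.er, f3⟩, BetaEq.trans e1 ?_⟩
      exact BetaEq.pi (BetaEq.refl _) e4
  | mem M N ihM ihN =>
      intro ρ X D D' A' hr g w' fv ht
      obtain ⟨hM, B, hN⟩ := tmf_gen_mem ht _ _ rfl
      obtain ⟨A, t, f, e⟩ := ihM hr g w' fv.1 hM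
      obtain ⟨A2, t2, _, _⟩ := ihN hr g w' fv.2 hN
      exact ⟨A, .mem t t2, f, e⟩

/-- **reflection of `NFF`** along the embedding of a part of a context -/
theorem nff_reflect (hP : ∀ (Γ : List (Term S)) (M : Term S), Legal P Γ M → WN M)
    {idx : S → ℕ} {k : ℕ} (M : MT S) :
    ∀ {ρ : ℕ → ℕ} {X : Set ℕ} {D D' : ℕ → Term S} {A' : Term S}, RenX ρ X D D' →
      Good P D → WfF P D' → MFv M X → TMF P D' (mren ρ M) A' →
      NFF P idx k D' (mren ρ M) → NFF P idx k D M := by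
  induction M with
  | var i => intro ρ X D D' A' _ _ _ _ _ _; trivial
  | sort s => intro ρ X D D' A' _ _ _ _ _ _; trivial
  | app F Q ihF ihQ =>
      intro ρ X D D' A' hr g w' fv ht hn
      obtain ⟨A1, B1, hM, hN, e⟩ := tmf_gen_app ht _ _ rfl
      refine ⟨ihF hr g w' fv.1 hM hn.1, ihQ hr g w' fv.2 hN hn.2.1, fun hl => ?_⟩
      obtain ⟨T, s, hT, hs, hk⟩ := hn.2.2 (isL_mren_iff.2 hl)
      rw [er_mren] at hT
      obtain ⟨T0, t0, f0, e0⟩ := strF hP (er F) hr g w' fv.1.er hT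
      exact ⟨T0, s, t0, sigF_reflect hP hr g w' t0 f0 e0 hs, hk⟩
  | pi E F ih1 ih2 =>
      intro ρ X D D' A' hr g w' fv ht hn
      obtain ⟨s₁, s₂, s₃, a, b, c, d⟩ := tmf_gen_pi ht _ _ rfl
      rw [er_mren] at b
      obtain ⟨A1, t1, f1, e1⟩ := tmf_reflect hP E hr g w' fv.1 a
      have a' : TMF P D E (.sort s₁) := tmf_sort_of_eq g.wf t1
        (eq_ren_inv_on (N := .sort s₁) hr.inj f1 trivial (BetaEq.symm e1))
      have a0 := a.typed
      rw [er_mren] at a0
      have h2 := hn.2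
      rw [er_mren] at h2
      exact ⟨ih1 hr g w' fv.1 a hn.1,
        ih2 (hr.up fv.1.er) (g.cons a'.typed) (w'.cons a0) fv.2 b h2⟩
  | lam E M0 ih1 ih2 =>
      intro ρ X D D' A' hr g w' fv ht hn
      obtain ⟨B', t₁, s', hE, hM, hp, e1⟩ := tmf_gen_lam ht _ _ rfl
      rw [er_mren] at hM
      have hE0 := hE.typed
      rw [er_mren] at hE0
      obtain ⟨A1, u1, f1, e2⟩ := tmf_reflect hP E hr g w' fv.1 hE
      have a' : TMF P D E (.sort t₁) := tmf_sort_of_eq g.wf u1
        (eq_ren_inv_on (N := .sort t₁) hr.inj f1 trivial (BetaEq.symm e2))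
      have h2 := hn.2
      rw [er_mren] at h2
      exact ⟨ih1 hr g w' fv.1 hE hn.1,
        ih2 (hr.up fv.1.er) (g.cons a'.typed) (w'.cons hE0) fv.2 hM h2⟩
  | mem M N ihM ihN =>
      intro ρ X D D' A' hr g w' fv ht hn
      obtain ⟨hM, B, hN⟩ := tmf_gen_mem ht _ _ rfl
      exact ⟨ihM hr g w' fv.1 hM hn.1, ihN hr g w' fv.2 hN hn.2⟩

/-! ### the abstraction step in one world -/

theorem minst_var (k : ℕ) (M : MT S) : minst (.var k) M = mren (nm k) M := by
  rw [mren_eq_msub]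
  show msub _ M = _
  congr 1
  funext i
  cases i with
  | zero => rfl
  | succ i => rfl

/-- the renaming `nm k` maps `fcons A D` to `D` when `D k = A` -/
theorem renF_nm {D : ℕ → Term S} {k : ℕ} {A : Term S} (e : D k = A) :
    RenF (nm k) (fcons A D) D := by
  intro i
  cases i with
  | zero => simp only [nm_zero, fcons_zero, wk, ren_ren, Nat.succ_eq_add_one, nm_succ, ren_id, e]
  | succ i => simp only [nm_succ, fcons_succ, wk, ren_ren, Nat.succ_eq_add_one, ren_id]

/-- a name of type `A` above all names of the given terms (also usable under one binder) -/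
theorem exists_freshM {D : ℕ → Term S} (wD : World657.World P D) {A : Term S} {s : S}
    (h : TyF P D A (.sort s)) (M : MT S) (N : MT S) :
    ∃ k, D k = A ∧ TMF P D (.var k) A ∧ MFv M (below k) ∧ MFv N {i | i < k} := by
  obtain ⟨m, hm⟩ := exists_mfv M
  obtain ⟨n, hn⟩ := exists_mfv N
  obtain ⟨k, h1, h2, _⟩ := wD.fresh h (max m n)
  refine ⟨k, h2, ?_, ?_, ?_⟩
  · have := tmf_var wD.good.wf k
    rwa [h2] at this
  · exact hm (k + 1) (le_trans (le_trans (le_max_left _ _) h1) (Nat.le_succ k))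
  · exact hn k (le_trans (le_max_right _ _) h1)

/-- **the abstraction step of a stage in one world**: if the body with a fresh name reduces to a
term without redexes of class `< j`, then so does the body itself -/
theorem fresh_step {D : ℕ → Term S} (wD : World657.World P D)
    (hP : ∀ (Γ : List (Term S)) (M : Term S), Legal P Γ M → WN M) {idx : S → ℕ} {j k : ℕ}
    {A B : Term S} {M M' : MT S} (e : D k = A) (hM : TMF P (fcons A D) M B)
    (fv : MFv M (below k)) (r : MRed (minst (.var k) M) M') (hn : NFF P idx j D M') :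
    ∃ M1, M' = minst (.var k) M1 ∧ MRed M M1 ∧ TMF P (fcons A D) M1 B ∧
      NFF P idx j (fcons A D) M1 := by
  obtain ⟨t, ht⟩ := wD.good.wf k
  have g : Good P (fcons A D) := wD.good.cons (e ▸ ht)
  rw [minst_var] at r
  obtain ⟨M1, r1, e1⟩ := mred_ren_inv r
  have t1 := tmf_SR g.wf hM r1
  refine ⟨M1, by rw [minst_var]; exact e1, r1, t1, ?_⟩
  rw [e1] at hn
  exact nff_reflect hP M1 (renX_nm wD.lev e) g wD.good.wf (mfv_red r1 fv)
    (tmf_ren t1 (renF_nm e)) hn

/-- the converse direction -/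
theorem fresh_nff {D : ℕ → Term S} {idx : S → ℕ} {j k : ℕ} {A : Term S} {M : MT S}
    (e : D k = A) (hn : NFF P idx j (fcons A D) M) : NFF P idx j D (minst (.var k) M) := by
  rw [minst_var]; exact nff_ren (renF_nm e) hn

theorem fresh_nff_iff {D : ℕ → Term S} (wD : World657.World P D)
    (hP : ∀ (Γ : List (Term S)) (M : Term S), Legal P Γ M → WN M) {idx : S → ℕ} {j k : ℕ}
    {A B : Term S} {M : MT S} (e : D k = A) (hM : TMF P (fcons A D) M B)
    (fv : MFv M (below k)) :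
    NFF P idx j (fcons A D) M ↔ NFF P idx j D (minst (.var k) M) := by
  refine ⟨fresh_nff e, fun h => ?_⟩
  obtain ⟨t, ht⟩ := wD.good.wf k
  rw [minst_var] at h
  exact nff_reflect hP M (renX_nm wD.lev e) (wD.good.cons (e ▸ ht)) wD.good.wf fv
    (tmf_ren hM (renF_nm e)) h

end Crest.Agent.R298.FreshM657
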