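import Crest.Agent.R298.G2S_488

/-!
R298 (S0452), helper488: the instantiation lemma of the unipolar model over `Jd`.
-/

set_option autoImplicit false

namespace Crest.Agent.R298.G2S488

open Crest.LogicCS.PTS Relation
open Crest.Agent.R298.Sub452 Crest.Agent.R298.Par452 Crest.Agent.R298.Mem360
open Crest.Agent.R298.Mem360.MT (er emb mren mwk mups msub mscons minst dist IsL mren_mren
  er_mren dist_mren mren_app mren_mem mren_id msub_id)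
open Crest.Agent.R298.Jd961 Crest.Agent.R298.Jd961.Jd Crest.Agent.R298.MW961

universe u v
variable {S : Type u} {P : Spec S} {C : Type v} {J : Jd P C} {idx : S → ℕ} {i : ℕ}

/-! ### instantiation -/

/-- `(σ₁, e₁)` is the environment of the source of `τ` obtained from the environment
`(σ₂, e₂)` of its target; `x₀` is the only variable which `τ` does not rename -/
structure EnvR (τ : ℕ → Term S) (x₀ : ℕ) (η : S → Bool) (σ₁ : ℕ → MT S) (e₁ : ℕ → S → Bool)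
    (σ₂ : ℕ → MT S) (e₂ : ℕ → S → Bool) : Prop where
  oth : ∀ x, x ≠ x₀ → ∃ y, τ x = .var y ∧ σ₁ x = σ₂ y ∧ e₁ x = e₂ y
  er0 : er (σ₁ x₀) = sub (ers σ₂) (τ x₀)
  e0 : e₁ x₀ = η

theorem EnvR.er_eq {τ : ℕ → Term S} {x₀ : ℕ} {η : S → Bool} {σ₁ : ℕ → MT S}
    {e₁ : ℕ → S → Bool} {σ₂ : ℕ → MT S} {e₂ : ℕ → S → Bool}
    (h : EnvR τ x₀ η σ₁ e₁ σ₂ e₂) (T : Term S) : sub (ers σ₁) T = sub (ers σ₂) (sub τ T) := by
  rw [sub_sub]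
  congr 1
  funext x
  by_cases hx : x = x₀
  · subst hx; exact h.er0
  · obtain ⟨y, h1, h2, _⟩ := h.oth x hx
    rw [h1]
    simp only [ers, h2, sub_var]

theorem EnvR.ren {τ : ℕ → Term S} {x₀ : ℕ} {η : S → Bool} {σ₁ : ℕ → MT S}
    {e₁ : ℕ → S → Bool} {σ₂ : ℕ → MT S} {e₂ : ℕ → S → Bool}
    (h : EnvR τ x₀ η σ₁ e₁ σ₂ e₂) (r : ℕ → ℕ) :
    EnvR τ x₀ η (fun n => mren r (σ₁ n)) e₁ (fun n => mren r (σ₂ n)) e₂ where
  oth x hx := by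
    obtain ⟨y, h1, h2, h3⟩ := h.oth x hx
    exact ⟨y, h1, by simp only [h2], h3⟩
  er0 := by rw [er_mren, h.er0, ers_ren]
  e0 := h.e0

theorem EnvR.up {τ : ℕ → Term S} {x₀ : ℕ} {η : S → Bool} {σ₁ : ℕ → MT S}
    {e₁ : ℕ → S → Bool} {σ₂ : ℕ → MT S} {e₂ : ℕ → S → Bool}
    (h : EnvR τ x₀ η σ₁ e₁ σ₂ e₂) (u : MT S) (η' : S → Bool) :
    EnvR (ups τ) (x₀ + 1) η (mscons u σ₁) (ccons η' e₁) (mscons u σ₂) (ccons η' e₂) where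
  oth x hx := by
    cases x with
    | zero => exact ⟨0, rfl, rfl, rfl⟩
    | succ x =>
        obtain ⟨y, h1, h2, h3⟩ := h.oth x (fun e => hx (by rw [e]))
        exact ⟨y + 1, by simp only [ups_succ, h1]; rfl, h2, h3⟩
  er0 := by
    have : sub (ers (mscons u σ₂)) (ups τ (x₀ + 1)) = sub (ers σ₂) (τ x₀) := by
      rw [ers_mscons, ups_succ, wk, sub_ren]
      rfl
    rw [this]
    exact h.er0
  e0 := h.e0

/-- the situation of the instantiation lemma -/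
structure Sit (J : Jd P C) (T : Term S) (Γ₁ : C) (x₀ : ℕ) (η : S → Bool)
    (τ : ℕ → Term S) (Γ₂ D : C) (σ₁ : ℕ → MT S) (e₁ : ℕ → S → Bool)
    (σ₂ : ℕ → MT S) (e₂ : ℕ → S → Bool) (T' : Term S) : Prop where
  wf₂ : J.Wf Γ₂
  wfD : J.Wf D
  tau : Sb J τ Γ₁ Γ₂
  env : EnvR τ x₀ η σ₁ e₁ σ₂ e₂
  ok₂ : Sb J (ers σ₂) Γ₂ D
  nf : Normal T'
  eq : BetaEq (sub τ T) T'

/-- the instance is at least as big -/
def PP (J : Jd P C) (idx : S → ℕ) (i : ℕ) (T : Term S)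
    (Γ₁ : C) (x₀ : ℕ) (η : S → Bool) : Prop :=
  ∀ (τ : ℕ → Term S) (Γ₂ D : C) (σ₁ : ℕ → MT S) (e₁ : ℕ → S → Bool)
    (σ₂ : ℕ → MT S) (e₂ : ℕ → S → Bool) (T' : Term S) (v : MT S),
    Sit J T Γ₁ x₀ η τ Γ₂ D σ₁ e₁ σ₂ e₂ T' → Rz J idx i T Γ₁ D σ₁ e₁ v →
    Rz J idx i T' Γ₂ D σ₂ e₂ v

/-- the instance is at most as big -/
def QQ (J : Jd P C) (idx : S → ℕ) (i : ℕ) (T : Term S)
    (Γ₁ : C) (x₀ : ℕ) (η : S → Bool) : Prop :=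
  ∀ (τ : ℕ → Term S) (Γ₂ D : C) (σ₁ : ℕ → MT S) (e₁ : ℕ → S → Bool)
    (σ₂ : ℕ → MT S) (e₂ : ℕ → S → Bool) (T' : Term S) (v : MT S),
    Sit J T Γ₁ x₀ η τ Γ₂ D σ₁ e₁ σ₂ e₂ T' → Rz J idx i T' Γ₂ D σ₂ e₂ v →
    Rz J idx i T Γ₁ D σ₁ e₁ v

theorem Sit.eqs {T : Term S} {Γ₁ : C} {x₀ : ℕ} {η : S → Bool}
    {τ : ℕ → Term S} {Γ₂ D : C} {σ₁ : ℕ → MT S} {e₁ : ℕ → S → Bool}
    {σ₂ : ℕ → MT S} {e₂ : ℕ → S → Bool} {T' : Term S}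
    (h : Sit J T Γ₁ x₀ η τ Γ₂ D σ₁ e₁ σ₂ e₂ T') :
    BetaEq (sub (ers σ₁) T) (sub (ers σ₂) T') := by
  rw [h.env.er_eq]
  exact BetaEq.sub h.eq _

theorem Sit.typed' {T : Term S} {Γ₁ : C} {x₀ : ℕ} {η : S → Bool}
    {τ : ℕ → Term S} {Γ₂ D : C} {σ₁ : ℕ → MT S} {e₁ : ℕ → S → Bool}
    {σ₂ : ℕ → MT S} {e₂ : ℕ → S → Bool} {T' : Term S} {s : S}
    (h : Sit J T Γ₁ x₀ η τ Γ₂ D σ₁ e₁ σ₂ e₂ T') (ht : J.T Γ₁ T (.sort s)) :
    J.T Γ₂ T' (.sort s) :=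
  J.sr (J.tsub ht h.wf₂ h.tau) (red_of_eq_normal h.eq h.nf)

theorem Sit.typed₁ {T : Term S} {Γ₁ : C} {x₀ : ℕ} {η : S → Bool}
    {τ : ℕ → Term S} {Γ₂ D : C} {σ₁ : ℕ → MT S} {e₁ : ℕ → S → Bool}
    {σ₂ : ℕ → MT S} {e₂ : ℕ → S → Bool} {T' : Term S} {s : S}
    (h : Sit J T Γ₁ x₀ η τ Γ₂ D σ₁ e₁ σ₂ e₂ T') (ht : J.T Γ₁ T (.sort s)) :
    J.T D (sub (ers σ₁) T) (.sort s) := by
  rw [h.env.er_eq]
  exact J.tsub (J.tsub ht h.wf₂ h.tau) h.wfD h.ok₂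

theorem Sit.typed₂ {T : Term S} {Γ₁ : C} {x₀ : ℕ} {η : S → Bool}
    {τ : ℕ → Term S} {Γ₂ D : C} {σ₁ : ℕ → MT S} {e₁ : ℕ → S → Bool}
    {σ₂ : ℕ → MT S} {e₂ : ℕ → S → Bool} {T' : Term S} {s : S}
    (h : Sit J T Γ₁ x₀ η τ Γ₂ D σ₁ e₁ σ₂ e₂ T') (ht : J.T Γ₁ T (.sort s)) :
    J.T D (sub (ers σ₂) T') (.sort s) := J.tsub (h.typed' ht) h.wfD h.ok₂

theorem Sit.tm_iff {T : Term S} {Γ₁ : C} {x₀ : ℕ} {η : S → Bool}
    {τ : ℕ → Term S} {Γ₂ D : C} {σ₁ : ℕ → MT S} {e₁ : ℕ → S → Bool}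
    {σ₂ : ℕ → MT S} {e₂ : ℕ → S → Bool} {T' : Term S} {s : S} {v : MT S}
    (h : Sit J T Γ₁ x₀ η τ Γ₂ D σ₁ e₁ σ₂ e₂ T') (ht : J.T Γ₁ T (.sort s)) :
    Tv J D v (sub (ers σ₁) T) ↔ Tv J D v (sub (ers σ₂) T') :=
  ⟨fun h3 => h3.conv (h.typed₂ ht) h.eqs, fun h3 => h3.conv (h.typed₁ ht) (BetaEq.symm h.eqs)⟩

/-- a type all of whose instances are high -/
theorem high_inst {T : Term S} {Γ₁ : C} {x₀ : ℕ} {η : S → Bool}
    {τ : ℕ → Term S} {Γ₂ D : C} {σ₁ : ℕ → MT S} {e₁ : ℕ → S → Bool}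
    {σ₂ : ℕ → MT S} {e₂ : ℕ → S → Bool} {T' : Term S} {s : S}
    (h : Sit J T Γ₁ x₀ η τ Γ₂ D σ₁ e₁ σ₂ e₂ T') (ht : J.T Γ₁ T (.sort s))
    (hi : i < idx s) : Cg J idx (i + 1) D (sub (ers σ₁) T) ∧
      Cg J idx (i + 1) D (sub (ers σ₂) T') :=
  ⟨⟨_, s, .refl _, h.typed₁ ht, hi⟩, ⟨_, s, .refl _, h.typed₂ ht, hi⟩⟩

theorem PP_high {T : Term S} {Γ₁ : C} {x₀ : ℕ} {η : S → Bool} {s : S}
    (ht : J.T Γ₁ T (.sort s)) (hi : i < idx s) : PP J idx i T Γ₁ x₀ η := by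
  intro τ Γ₂ D σ₁ e₁ σ₂ e₂ T' v h hJ
  exact Rz_high (high_inst h ht hi).2 ((h.tm_iff ht).1 hJ.tm) hJ.inW

theorem QQ_high {T : Term S} {Γ₁ : C} {x₀ : ℕ} {η : S → Bool} {s : S}
    (ht : J.T Γ₁ T (.sort s)) (hi : i < idx s) : QQ J idx i T Γ₁ x₀ η := by
  intro τ Γ₂ D σ₁ e₁ σ₂ e₂ T' v h hJ
  exact Rz_high (high_inst h ht hi).1 ((h.tm_iff ht).2 hJ.tm) hJ.inW

theorem sit_neu {T : Term S} (hT : Neu T) {Γ₁ : C} {x₀ : ℕ} {η : S → Bool}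
    {τ : ℕ → Term S} {Γ₂ D : C} {σ₁ : ℕ → MT S} {e₁ : ℕ → S → Bool}
    {σ₂ : ℕ → MT S} {e₂ : ℕ → S → Bool} {T' : Term S}
    (h : Sit J T Γ₁ x₀ η τ Γ₂ D σ₁ e₁ σ₂ e₂ T') (hx : hd T ≠ x₀) :
    Neu T' ∧ e₁ (hd T) = e₂ (hd T') := by
  obtain ⟨y, h1, _, h3⟩ := h.env.oth _ hx
  obtain ⟨h4, h5⟩ := hT.sub h1
  obtain ⟨h6, h7⟩ := h4.red (red_of_eq_normal h.eq h.nf)
  exact ⟨h6, by rw [h7, h5, h3]⟩

theorem PP_neu {T : Term S} (hT : Neu T) {Γ₁ : C} {x₀ : ℕ}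
    {η : S → Bool} {s : S} (ht : J.T Γ₁ T (.sort s)) (he : hd T = x₀ → η s = false) :
    PP J idx i T Γ₁ x₀ η := by
  intro τ Γ₂ D σ₁ e₁ σ₂ e₂ T' v h hJ
  have h1 := (h.tm_iff ht).1 hJ.tm
  by_cases hH : Cg J idx (i + 1) D (sub (ers σ₂) T')
  · exact Rz_high hH h1 hJ.inW
  · have hH' : ¬ Cg J idx (i + 1) D (sub (ers σ₁) T) := fun a => hH (a.conv h.eqs)
    rw [Rz_neu hT] at hJ
    by_cases hx : hd T = x₀
    · exact Rz_bot h.wfD (hJ.2.2 hH' s ht (by rw [hx, h.env.e0]; exact he hx)) h1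
    · obtain ⟨h2, h3⟩ := sit_neu hT h hx
      rw [Rz_neu h2]
      refine ⟨h1, hJ.2.1, fun _ t ht' he' => hJ.2.2 hH' s ht ?_⟩
      rwa [h3, h2.sort_uniq (h.typed' ht) ht']

theorem QQ_neu {T : Term S} (hT : Neu T) {Γ₁ : C} {x₀ : ℕ}
    {η : S → Bool} {s : S} (ht : J.T Γ₁ T (.sort s)) (he : hd T = x₀ → η s = true) :
    QQ J idx i T Γ₁ x₀ η := by
  intro τ Γ₂ D σ₁ e₁ σ₂ e₂ T' v h hJ
  have h1 := (h.tm_iff ht).2 hJ.tm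
  rw [Rz_neu hT]
  refine ⟨h1, hJ.inW, fun hH t ht' he' => ?_⟩
  have hH' : ¬ Cg J idx (i + 1) D (sub (ers σ₂) T') :=
    fun a => hH (a.conv (BetaEq.symm h.eqs))
  have est := hT.sort_uniq ht ht'
  subst est
  by_cases hx : hd T = x₀
  · rw [hx, h.env.e0, he hx] at he'
    cases he'
  · obtain ⟨h2, h3⟩ := sit_neu hT h hx
    rw [Rz_neu h2] at hJ
    exact hJ.2.2 hH' s (h.typed' ht) (by rw [← h3]; exact he')

theorem PP_sort {t : S} {Γ₁ : C} {x₀ : ℕ} {η : S → Bool} {s : S}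
    (ht : J.T Γ₁ (.sort t) (.sort s)) : PP J idx i (.sort t) Γ₁ x₀ η := by
  intro τ Γ₂ D σ₁ e₁ σ₂ e₂ T' v h hJ
  have h1 := (h.tm_iff ht).1 hJ.tm
  have h2 := red_sort (red_of_eq_normal h.eq h.nf)
  subst h2
  exact ⟨h1, hJ.inW⟩

theorem QQ_sort {t : S} {Γ₁ : C} {x₀ : ℕ} {η : S → Bool} {s : S}
    (ht : J.T Γ₁ (.sort t) (.sort s)) : QQ J idx i (.sort t) Γ₁ x₀ η := by
  intro τ Γ₂ D σ₁ e₁ σ₂ e₂ T' v h hJ
  exact ⟨(h.tm_iff ht).2 hJ.tm, hJ.inW⟩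

/-- the situation for the domain and the codomain of a product -/
theorem Sit.pi {A B : Term S} {Γ₁ : C} {x₀ : ℕ} {η : S → Bool}
    {τ : ℕ → Term S} {Γ₂ D : C} {σ₁ : ℕ → MT S} {e₁ : ℕ → S → Bool}
    {σ₂ : ℕ → MT S} {e₂ : ℕ → S → Bool} {T' : Term S} {a : S}
    (h : Sit J (.pi A B) Γ₁ x₀ η τ Γ₂ D σ₁ e₁ σ₂ e₂ T') (hA : J.T Γ₁ A (.sort a)) :
    ∃ A' B', T' = .pi A' B' ∧ ∀ (D' : C) (r : ℕ → ℕ),
      Sb J (fun x => .var (r x)) D D' → J.Wf D' →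
      Sit J A Γ₁ x₀ η τ Γ₂ D' (fun n => mren r (σ₁ n)) e₁ (fun n => mren r (σ₂ n)) e₂ A' ∧
      ∀ (u : MT S) (η' : S → Bool), Tv J D' u (sub (ers (fun n => mren r (σ₂ n))) A') →
        Sit J B (J.cons A Γ₁) (x₀ + 1) η (ups τ) (J.cons A' Γ₂) D'
          (mscons u (fun n => mren r (σ₁ n)))
          (ccons η' e₁) (mscons u (fun n => mren r (σ₂ n))) (ccons η' e₂) B' := by
  obtain ⟨A', B', rA, rB, rfl⟩ : ∃ A' B', Red (sub τ A) A' ∧ Red (sub (ups τ) B) B' ∧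
      T' = .pi A' B' := by
    obtain ⟨A', B', h1, h2, h3⟩ := red_pi (red_of_eq_normal h.eq h.nf)
    exact ⟨A', B', h2, h3, h1⟩
  refine ⟨A', B', rfl, fun D' r hr hw => ?_⟩
  obtain ⟨nA, nB⟩ := normal_pi h.nf
  have hok : Sb J (ers (fun n => mren r (σ₂ n))) Γ₂ D' := by
    intro n B hl
    rw [ers_ren]
    show J.T D' (er (mren r (σ₂ n))) _
    rw [er_mren]
    exact tren (h.ok₂ n B hl) hw hr
  refine ⟨⟨h.wf₂, hw, h.tau, h.env.ren r, hok, nA, rA.eq⟩, fun u η' hu => ?_⟩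
  have hA0 : J.T Γ₂ (sub τ A) (.sort a) := J.tsub hA h.wf₂ h.tau
  have hA1 : J.T Γ₂ A' (.sort a) := J.sr hA0 rA
  refine ⟨J.wf_cons h.wf₂ hA1, hw, ?_, (h.env.ren r).up u η', ?_, nB, rB.eq⟩
  · intro n B hl
    exact ctx_conv h.wf₂ (sb_ups h.tau h.wf₂ hA0 n B hl) hA0 hA1 rA.eq
  · rw [ers_mscons]
    exact sb_scons hok hu.2

theorem PP_pi {A B : Term S} {Γ₁ : C} {x₀ : ℕ} {η : S → Bool} {a c : S}
    (ht : J.T Γ₁ (.pi A B) (.sort c)) (hA : J.T Γ₁ A (.sort a))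
    (hA' : QQ J idx i A Γ₁ x₀ η) (hB' : PP J idx i B (J.cons A Γ₁) (x₀ + 1) η) :
    PP J idx i (.pi A B) Γ₁ x₀ η := by
  intro τ Γ₂ D σ₁ e₁ σ₂ e₂ T' v h hJ
  have h1 := (h.tm_iff ht).1 hJ.tm
  obtain ⟨A', B', rfl, hs⟩ := h.pi hA
  refine ⟨h1, hJ.inW, fun hH D' r hr hw u hu η' => ?_⟩
  have hH' : ¬ Cg J idx (i + 1) D (sub (ers σ₁) (.pi A B)) :=
    fun a => hH (a.conv h.eqs)
  obtain ⟨s1, s2⟩ := hs D' r hr hw
  have hu1 := hA' _ _ _ _ _ _ _ _ u s1 hu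
  exact hB' _ _ _ _ _ _ _ _ _ (s2 u η' hu.tm) (hJ.2.2 hH' D' r hr hw u hu1 η')

theorem QQ_pi {A B : Term S} {Γ₁ : C} {x₀ : ℕ} {η : S → Bool} {a c : S}
    (ht : J.T Γ₁ (.pi A B) (.sort c)) (hA : J.T Γ₁ A (.sort a))
    (hA' : PP J idx i A Γ₁ x₀ η) (hB' : QQ J idx i B (J.cons A Γ₁) (x₀ + 1) η) :
    QQ J idx i (.pi A B) Γ₁ x₀ η := by
  intro τ Γ₂ D σ₁ e₁ σ₂ e₂ T' v h hJ
  have h1 := (h.tm_iff ht).2 hJ.tm
  obtain ⟨A', B', rfl, hs⟩ := h.pi hA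
  refine ⟨h1, hJ.inW, fun hH D' r hr hw u hu η' => ?_⟩
  have hH' : ¬ Cg J idx (i + 1) D (sub (ers σ₂) (.pi A' B')) :=
    fun a => hH (a.conv (BetaEq.symm h.eqs))
  obtain ⟨s1, s2⟩ := hs D' r hr hw
  have hu1 := hA' _ _ _ _ _ _ _ _ u s1 hu
  exact hB' _ _ _ _ _ _ _ _ _ (s2 u η' hu1.tm) (hJ.2.2 hH' D' r hr hw u hu1 η')

/-- even strongly connected components -/
theorem inst_even (chi : S → Bool)
    (hm : ∀ a b c, P.rule a b c → idx c ≤ idx a ∧ idx c ≤ idx b)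
    (hE : ∀ a b c, P.rule a b c → idx c = i → (idx a = i → chi a = !chi c) ∧
      (idx b = i → chi b = chi c)) {T : Term S} :
    ∀ {Γ₁ : C} {x₀ : ℕ} {c : S}, Normal T → J.T Γ₁ T (.sort c) → i ≤ idx c →
      PP J idx i T Γ₁ x₀ (fun s => chi s != chi c) ∧
      QQ J idx i T Γ₁ x₀ (fun s => chi s == chi c) := by
  induction T with
  | var x =>
      intro Γ₁ x₀ c _ ht _
      exact ⟨PP_neu (.var x) ht (by simp), QQ_neu (.var x) ht (by simp)⟩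
  | app M N _ _ =>
      intro Γ₁ x₀ c hn ht _
      exact ⟨PP_neu (neu_of_normal hn ht) ht (by simp),
        QQ_neu (neu_of_normal hn ht) ht (by simp)⟩
  | sort t => intro Γ₁ x₀ c _ ht _; exact ⟨PP_sort ht, QQ_sort ht⟩
  | lam A M _ _ =>
      intro Γ₁ x₀ c _ ht _
      obtain ⟨B, t, _, _, e⟩ := J.gen_lam ht
      exact (not_sort_pi e).elim
  | pi A B ihA ihB =>
      intro Γ₁ x₀ c hn ht hc
      obtain ⟨a, b, c', hA, hB, hr, e⟩ := J.gen_pi ht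
      have e := sort_inj e
      subst e
      obtain ⟨nA, nB⟩ := normal_pi hn
      obtain ⟨ma, mb⟩ := hm a b c hr
      rcases Nat.lt_or_ge i (idx c) with hlt | hge
      · exact ⟨PP_high ht hlt, QQ_high ht hlt⟩
      have hci : idx c = i := Nat.le_antisymm hge hc
      obtain ⟨ea, eb⟩ := hE a b c hr hci
      have kA : QQ J idx i A Γ₁ x₀ (fun s => chi s != chi c) ∧
          PP J idx i A Γ₁ x₀ (fun s => chi s == chi c) := by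
        rcases Nat.lt_or_ge i (idx a) with h | h
        · exact ⟨QQ_high hA h, PP_high hA h⟩
        · have h' : idx a = i := Nat.le_antisymm h (hci ▸ ma)
          obtain ⟨k1, k2⟩ := ihA (x₀ := x₀) nA hA (Nat.le_of_eq h'.symm)
          rw [ea h'] at k1 k2
          have f1 : (fun s => chi s == !chi c) = fun s => chi s != chi c := by
            funext s; cases chi s <;> cases chi c <;> rfl
          have f2 : (fun s => chi s != !chi c) = fun s => chi s == chi c := by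
            funext s; cases chi s <;> cases chi c <;> rfl
          rw [f1] at k2
          rw [f2] at k1
          exact ⟨k2, k1⟩
      have kB : PP J idx i B (J.cons A Γ₁) (x₀ + 1) (fun s => chi s != chi c) ∧
          QQ J idx i B (J.cons A Γ₁) (x₀ + 1) (fun s => chi s == chi c) := by
        rcases Nat.lt_or_ge i (idx b) with h | h
        · exact ⟨PP_high hB h, QQ_high hB h⟩
        · have h' : idx b = i := Nat.le_antisymm h (hci ▸ mb)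
          have k := ihB (x₀ := x₀ + 1) nB hB (Nat.le_of_eq h'.symm)
          rw [eb h'] at k
          exact k
      exact ⟨PP_pi ht hA kA.1 kB.1, QQ_pi ht hA kA.2 kB.2⟩

/-- unary strongly connected components -/
theorem inst_unary
    (hm : ∀ a b c, P.rule a b c → idx c ≤ idx a ∧ idx c ≤ idx b)
    (hU : ∀ a b c, P.rule a b c → idx c = i → ¬ (idx a = i ∧ idx b = i)) {T : Term S} :
    ∀ {Γ₁ : C} {x₀ : ℕ} {c : S}, Normal T → J.T Γ₁ T (.sort c) → i ≤ idx c →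
      (∃ η, PP J idx i T Γ₁ x₀ η) ∧ (∃ η, QQ J idx i T Γ₁ x₀ η) := by
  induction T with
  | var x =>
      intro Γ₁ x₀ c _ ht _
      exact ⟨⟨fun _ => false, PP_neu (.var x) ht (by simp)⟩,
        ⟨fun _ => true, QQ_neu (.var x) ht (by simp)⟩⟩
  | app M N _ _ =>
      intro Γ₁ x₀ c hn ht _
      exact ⟨⟨fun _ => false, PP_neu (neu_of_normal hn ht) ht (by simp)⟩,
        ⟨fun _ => true, QQ_neu (neu_of_normal hn ht) ht (by simp)⟩⟩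
  | sort t =>
      intro Γ₁ x₀ c _ ht _
      exact ⟨⟨fun _ => true, PP_sort ht⟩, ⟨fun _ => true, QQ_sort ht⟩⟩
  | lam A M _ _ =>
      intro Γ₁ x₀ c _ ht _
      obtain ⟨B, t, _, _, e⟩ := J.gen_lam ht
      exact (not_sort_pi e).elim
  | pi A B ihA ihB =>
      intro Γ₁ x₀ c hn ht hc
      obtain ⟨a, b, c', hA, hB, hr, e⟩ := J.gen_pi ht
      have e := sort_inj e
      subst e
      obtain ⟨nA, nB⟩ := normal_pi hn
      obtain ⟨ma, mb⟩ := hm a b c hr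
      rcases Nat.lt_or_ge i (idx c) with hlt | hge
      · exact ⟨⟨fun _ => true, PP_high ht hlt⟩, ⟨fun _ => true, QQ_high ht hlt⟩⟩
      have hci : idx c = i := Nat.le_antisymm hge hc
      rcases Nat.lt_or_ge i (idx a) with h | h
      · rcases Nat.lt_or_ge i (idx b) with h2 | h2
        · exact ⟨⟨fun _ => true, PP_pi ht hA (QQ_high hA h) (PP_high hB h2)⟩,
            ⟨fun _ => true, QQ_pi ht hA (PP_high hA h) (QQ_high hB h2)⟩⟩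
        · obtain ⟨⟨η1, k1⟩, ⟨η2, k2⟩⟩ := ihB (x₀ := x₀ + 1) nB hB (hci ▸ mb)
          exact ⟨⟨η1, PP_pi ht hA (QQ_high hA h) k1⟩,
            ⟨η2, QQ_pi ht hA (PP_high hA h) k2⟩⟩
      · have h' : idx a = i := Nat.le_antisymm h (hci ▸ ma)
        have h2 : i < idx b := by
          rcases Nat.lt_or_ge i (idx b) with h2 | h2
          · exact h2
          · exact (hU a b c hr hci ⟨h', Nat.le_antisymm h2 (hci ▸ mb)⟩).elim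
        obtain ⟨⟨η1, k1⟩, ⟨η2, k2⟩⟩ := ihA (x₀ := x₀) nA hA (hci ▸ ma)
        exact ⟨⟨η2, PP_pi ht hA k2 (PP_high hB h2)⟩,
          ⟨η1, QQ_pi ht hA k1 (QQ_high hB h2)⟩⟩

end Crest.Agent.R298.G2S488
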