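import Crest.Agent.R298.StM_961

/-!
R298 (S0452), helper488: the unipolar model of doc 2282 (section 3) over the abstract
judgement `Jd` of `Jd_961` / `MW_961`: variable headed terms, elimination contexts,
insertion of memories, the least candidate `Bot`, the sets `Rz`, renaming of the source,
monotonicity, closure.
-/

set_option autoImplicit false

namespace Crest.Agent.R298.G2S488

open Crest.LogicCS.PTS Relation
open Crest.Agent.R298.Sub452 Crest.Agent.R298.Par452 Crest.Agent.R298.Mem360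
open Crest.Agent.R298.Mem360.MT (er emb mren mwk mups msub mscons minst dist IsL mren_mren
  er_mren dist_mren mren_app mren_mem mren_id msub_id)
open Crest.Agent.R298.Jd961 Crest.Agent.R298.Jd961.Jd Crest.Agent.R298.MW961

universe u v
variable {S : Type u} {P : Spec S} {C : Type v}

/-! ### neutral frozen terms -/

/-- head variable -/
def hd : Term S → ℕ
  | .var x => x
  | .app M _ => hd M
  | _ => 0

/-- variable headed terms -/
inductive Neu : Term S → Prop
  | var (x : ℕ) : Neu (.var x)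
  | app {M : Term S} (N : Term S) : Neu M → Neu (.app M N)

theorem Neu.uniq {J : Jd P C} {Γ : C} {T : Term S} (h : Neu T) :
    ∀ {A B : Term S}, J.T Γ T A → J.T Γ T B → BetaEq A B := by
  induction h with
  | var x =>
      intro A B hA hB
      obtain ⟨A1, h1, h2⟩ := J.gen_var hA
      obtain ⟨B1, h3, h4⟩ := J.gen_var hB
      have e := J.dc_unique h1 h3
      subst e
      exact BetaEq.trans h2 (BetaEq.symm h4)
  | app N _ ih =>
      intro A B hA hB
      obtain ⟨A1, B1, h1, _, h3⟩ := J.gen_app hA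
      obtain ⟨A2, B2, h4, _, h6⟩ := J.gen_app hB
      have e := (pi_inj (ih h1 h4)).2
      exact BetaEq.trans h3 (BetaEq.trans (BetaEq.inst (.refl _) e) (BetaEq.symm h6))

theorem Neu.sort_uniq {J : Jd P C} {Γ : C} {T : Term S} (h : Neu T) {s t : S}
    (h1 : J.T Γ T (.sort s)) (h2 : J.T Γ T (.sort t)) : s = t :=
  sort_inj (h.uniq h1 h2)

theorem Neu.sub {M : Term S} (h : Neu M) {τ : ℕ → Term S} {y : ℕ} (e : τ (hd M) = .var y) :
    Neu (sub τ M) ∧ hd (sub τ M) = y := by
  induction h with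
  | var x =>
      simp only [hd] at e
      simp only [sub_var, e]
      exact ⟨.var y, rfl⟩
  | app N h ih =>
      obtain ⟨h1, h2⟩ := ih e
      exact ⟨.app _ h1, h2⟩

theorem Neu.beta {M N : Term S} (h : Neu M) (r : Beta M N) : Neu N ∧ hd N = hd M := by
  induction h generalizing N with
  | var x => cases r
  | app Q h ih =>
      cases r with
      | redex A M N => cases h
      | appL _ r =>
          obtain ⟨h1, h2⟩ := ih r
          exact ⟨.app _ h1, h2⟩
      | appR _ r => exact ⟨.app _ h, rfl⟩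

theorem Neu.red {M N : Term S} (h : Neu M) (r : Red M N) : Neu N ∧ hd N = hd M := by
  induction r with
  | refl => exact ⟨h, rfl⟩
  | tail _ r ih =>
      obtain ⟨h1, h2⟩ := ih
      obtain ⟨h3, h4⟩ := h1.beta r
      exact ⟨h3, h4.trans h2⟩

theorem normal_app_left {M N : Term S} (h : Normal (.app M N)) : Normal M :=
  fun _ r => h _ (.appL _ r)

theorem normal_pi {A B : Term S} (h : Normal (.pi A B)) : Normal A ∧ Normal B :=
  ⟨fun _ r => h _ (.piA _ r), fun _ r => h _ (.piB _ r)⟩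

theorem neu_of_normal {J : Jd P C} {Γ : C} {M : Term S} : ∀ {N D : Term S},
    Normal (.app M N) → J.T Γ (.app M N) D → Neu (.app M N) := by
  induction M with
  | var x => intro N C _ _; exact .app _ (.var _)
  | sort s =>
      intro N C _ ht
      obtain ⟨A, B, h1, _, _⟩ := J.gen_app ht
      obtain ⟨s', _, e⟩ := J.gen_sort h1
      exact (not_sort_pi (BetaEq.symm e)).elim
  | app M1 M2 ih _ =>
      intro N C hn ht
      obtain ⟨A, B, h1, _, _⟩ := J.gen_app ht
      exact .app _ (ih (normal_app_left hn) h1)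
  | lam A M _ _ => intro N C hn _; exact (hn _ (.redex _ _ _)).elim
  | pi A B _ _ =>
      intro N C _ ht
      obtain ⟨A, B, h1, _, _⟩ := J.gen_app ht
      obtain ⟨_, _, s', _, _, _, e⟩ := J.gen_pi h1
      exact (not_sort_pi (BetaEq.symm e)).elim

/-! ### elimination contexts -/

/-- elimination contexts -/
inductive EC (S : Type u) : Type u
  | hole : EC S
  | app : EC S → MT S → EC S
  | mem : EC S → MT S → EC S

/-- filling the hole -/
def EC.fill : EC S → MT S → MT S
  | .hole, v => v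
  | .app E Q, v => .app (E.fill v) Q
  | .mem E n, v => .mem (E.fill v) n

/-- renaming -/
def EC.ren (r : ℕ → ℕ) : EC S → EC S
  | .hole => .hole
  | .app E Q => .app (E.ren r) (mren r Q)
  | .mem E n => .mem (E.ren r) (mren r n)

theorem EC.ren_fill (r : ℕ → ℕ) (E : EC S) (v : MT S) :
    mren r (E.fill v) = (E.ren r).fill (mren r v) := by
  induction E with
  | hole => rfl
  | app E Q ih => simp only [EC.fill, EC.ren, mren_app, ih]
  | mem E Q ih => simp only [EC.fill, EC.ren, mren_mem, ih]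

theorem EC.step (E : EC S) {v v' : MT S} (h : MStep v v') : MStep (E.fill v) (E.fill v') := by
  induction E with
  | hole => exact h
  | app E Q ih => exact .appL _ ih
  | mem E Q ih => exact .memP _ ih

theorem EC.er_mem (E : EC S) (v n : MT S) : er (E.fill (.mem v n)) = er (E.fill v) := by
  induction E with
  | hole => rfl
  | app E Q ih => simp only [EC.fill, MT.er_app, ih]
  | mem E Q ih => simp only [EC.fill, MT.er_mem, ih]

/-! ### insertion of memories -/

variable (J : Jd P C) (idx : S → ℕ)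

/-- `Ins k D M M'`: `M'` is `M` with weakly normalising memories inserted along the spine -/
inductive Ins (k : ℕ) (D : C) : MT S → MT S → Prop
  | refl (M : MT S) : Ins k D M M
  | ins {M M' n : MT S} : Ins k D M M' → W J idx k D n → Ins k D M (.mem M' n)
  | app {F F' : MT S} (Q : MT S) : Ins k D F F' → Ins k D (.app F Q) (.app F' Q)
  | mem {F F' : MT S} (N : MT S) : Ins k D F F' → Ins k D (.mem F N) (.mem F' N)

variable {J idx}

theorem Ins.dist {k : ℕ} {D : C} {F F' Q R : MT S} (h : Ins J idx k D F F')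
    (hd : MT.dist F Q = some R) : ∃ R', MT.dist F' Q = some R' ∧ Ins J idx k D R R' := by
  induction h generalizing R with
  | refl M => exact ⟨R, hd, .refl _⟩
  | ins _ hn ih =>
      obtain ⟨R', h1, h2⟩ := ih hd
      exact ⟨.mem R' _, by rw [MT.dist_mem, h1]; rfl, .ins h2 hn⟩
  | app Q' _ _ => simp at hd
  | mem N _ ih =>
      rw [MT.dist_mem, Option.map_eq_some_iff] at hd
      obtain ⟨R1, hR1, rfl⟩ := hd
      obtain ⟨R', h1, h2⟩ := ih hR1
      exact ⟨.mem R' N, by rw [MT.dist_mem, h1]; rfl, .mem _ h2⟩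

theorem Ins.step {k : ℕ} {D : C} {M M' N : MT S} (h : Ins J idx k D M M') (r : MStep M N) :
    ∃ N', MRed M' N' ∧ Ins J idx k D N N' := by
  induction h generalizing N with
  | refl M => exact ⟨N, .single r, .refl _⟩
  | ins _ hn ih =>
      obtain ⟨N', h1, h2⟩ := ih r
      exact ⟨.mem N' _, MRed.mem h1 .refl, .ins h2 hn⟩
  | app Q h ih =>
      cases r with
      | beta hd =>
          obtain ⟨R', h1, h2⟩ := h.dist hd
          exact ⟨R', .single (.beta h1), h2⟩
      | appL _ r =>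
          obtain ⟨N', h1, h2⟩ := ih r
          exact ⟨.app N' Q, MRed.app h1 .refl, .app _ h2⟩
      | appR _ r => exact ⟨_, MRed.app .refl (.single r), .app _ h⟩
  | mem Q h ih =>
      cases r with
      | memP _ r =>
          obtain ⟨N', h1, h2⟩ := ih r
          exact ⟨.mem N' Q, MRed.mem h1 .refl, .mem _ h2⟩
      | memN _ r => exact ⟨_, MRed.mem .refl (.single r), .mem _ h⟩

theorem Ins.red {k : ℕ} {D : C} {M M' N : MT S} (h : Ins J idx k D M M') (r : MRed M N) :
    ∃ N', MRed M' N' ∧ Ins J idx k D N N' := by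
  induction r with
  | refl => exact ⟨M', .refl, h⟩
  | tail _ r ih =>
      obtain ⟨N1, h1, h2⟩ := ih
      obtain ⟨N2, h3, h4⟩ := h2.step r
      exact ⟨N2, h1.trans h3, h4⟩

theorem Ins.nf {k : ℕ} {D : C} {M M' : MT S} (h : Ins J idx k D M M') (hM : NF J idx k M D) :
    ∃ M'', MRed M' M'' ∧ NF J idx k M'' D ∧ er M'' = er M ∧ (IsL M'' → IsL M) := by
  induction h with
  | refl M => exact ⟨M, .refl, hM, rfl, id⟩
  | ins _ hn ih =>
      obtain ⟨M1, h1, h2, h3, h4⟩ := ih hM
      obtain ⟨n', rn, hn'⟩ := hn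
      exact ⟨.mem M1 n', MRed.mem h1 rn, ⟨h2, hn'⟩, h3, h4⟩
  | app Q _ ih =>
      obtain ⟨hl, hF, hQ⟩ := hM
      obtain ⟨M1, h1, h2, h3, h4⟩ := ih hF
      refine ⟨.app M1 Q, MRed.app h1 .refl, ⟨fun hi => ?_, h2, hQ⟩, ?_, id⟩
      · rw [h3]; exact hl (h4 hi)
      · simp only [MT.er_app, h3]
  | mem N _ ih =>
      obtain ⟨hF, hN⟩ := hM
      obtain ⟨M1, h1, h2, h3, h4⟩ := ih hF
      exact ⟨.mem M1 N, MRed.mem h1 .refl, ⟨h2, hN⟩, by simp only [MT.er_mem, h3], h4⟩

theorem W_fill_mem {k : ℕ} {D : C} (E : EC S) {v n : MT S} (hn : W J idx k D n)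
    (h : W J idx k D (E.fill v)) : W J idx k D (E.fill (.mem v n)) := by
  have hI : Ins J idx k D (E.fill v) (E.fill (.mem v n)) := by
    clear h
    induction E with
    | hole => exact .ins (.refl _) hn
    | app E Q ih => exact .app _ ih
    | mem E Q ih => exact .mem _ ih
  obtain ⟨u, ru, hu⟩ := h
  obtain ⟨u', h1, h2⟩ := hI.red ru
  obtain ⟨u'', h3, h4, _, _⟩ := h2.nf hu
  exact ⟨u'', h1.trans h3, h4⟩

theorem W_fill_exp {k : ℕ} {D : C} (E : EC S) {F Q R : MT S} (hd : dist F Q = some R)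
    (h : W J idx k D (E.fill R)) : W J idx k D (E.fill (.app F Q)) :=
  W.expand (.single (E.step (.beta hd))) h

/-! ### typed memory terms -/

variable (J)

/-- legal memory term of type `A` -/
def Tv (D : C) (v : MT S) (A : Term S) : Prop := MOk J v D ∧ J.T D (er v) A

variable {J}

theorem Tv.conv {D : C} {v : MT S} {A B : Term S} {s : S} (h : Tv J D v A)
    (hB : J.T D B (.sort s)) (e : BetaEq A B) : Tv J D v B :=
  ⟨h.1, J.tconv h.2 hB e⟩

theorem Tv.app {D : C} {F Q : MT S} {A B : Term S} (h : Tv J D F (.pi A B)) (h' : Tv J D Q A) :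
    Tv J D (.app F Q) (inst (er Q) B) :=
  ⟨⟨⟨_, J.tappl h.2 h'.2⟩, h.1, h'.1⟩, J.tappl h.2 h'.2⟩

theorem Tv.ren {D D' : C} {v : MT S} {A : Term S} {r : ℕ → ℕ} (h : Tv J D v A) (w : J.Wf D')
    (hr : Sb J (fun x => .var (r x)) D D') : Tv J D' (mren r v) (ren r A) :=
  ⟨h.1.mren w hr, by rw [er_mren]; exact tren h.2 w hr⟩

theorem Tv.fill_exp {E : EC S} {D : C} {F Q R : MT S} {A : Term S} (w : J.Wf D)
    (h1 : dist F Q = some R) (h2 : Tv J D (E.fill (.app F Q)) A) : Tv J D (E.fill R) A :=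
  ⟨h2.1.step w (E.step (.beta h1)), J.sr h2.2 (er_step_red (E.step (.beta h1)))⟩

theorem Tv.fill_mem {E : EC S} {D : C} {v n : MT S} {A : Term S}
    (h : Tv J D (E.fill (.mem v n)) A) : Tv J D (E.fill v) A := by
  refine ⟨?_, by rw [← E.er_mem v n]; exact h.2⟩
  have h1 := h.1
  clear h
  induction E with
  | hole => exact h1.1
  | app E Q ih =>
      obtain ⟨⟨D', hD⟩, h2, h3⟩ := h1
      refine ⟨⟨D', ?_⟩, ih h2, h3⟩
      rw [← E.er_mem v n]; exact hD
  | mem E Q ih => exact ⟨ih h1.1, h1.2⟩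

theorem MOk.fill_memn {E : EC S} {D : C} {v n : MT S} (h : MOk J (E.fill (.mem v n)) D) :
    MOk J n D := by
  induction E with
  | hole => exact h.2
  | app E Q ih => exact ih h.2.1
  | mem E Q ih => exact ih h.1

/-! ### the least candidate -/

variable (J idx)

/-- the least candidate -/
inductive Bot (k : ℕ) (D : C) : MT S → Prop
  | ne {v : MT S} : Ne J idx k D v → Bot k D v
  | exp (E : EC S) {F Q R : MT S} : dist F Q = some R → Bot k D (E.fill R) →
      Bot k D (E.fill (.app F Q))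
  | mem (E : EC S) {v n : MT S} : W J idx k D n → Bot k D (E.fill v) →
      Bot k D (E.fill (.mem v n))

variable {J idx}

theorem Bot.ren {k : ℕ} {D D' : C} {r : ℕ → ℕ} {v : MT S} (h : Bot J idx k D v)
    (hv : MOk J v D) {A : Term S} (hA : J.T D (er v) A) (w : J.Wf D) (w' : J.Wf D')
    (hr : Sb J (fun x => .var (r x)) D D') : Bot J idx k D' (mren r v) := by
  induction h with
  | ne h => exact .ne (h.mren hv w w' hr)
  | exp E h _ ih =>
      have h2 := Tv.fill_exp w h ⟨hv, hA⟩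
      have := ih h2.1 h2.2
      rw [EC.ren_fill] at this ⊢
      exact .exp _ (dist_mren h r) this
  | mem E h _ ih =>
      have h2 := Tv.fill_mem (E := E) ⟨hv, hA⟩
      have := ih h2.1 h2.2
      rw [EC.ren_fill] at this ⊢
      exact .mem _ (h.mren (MOk.fill_memn hv) w w' hr) this

/-! ### the sets `Rz` -/

/-- extension of the second component of an environment -/
def ccons (η : S → Bool) (e : ℕ → S → Bool) : ℕ → S → Bool
  | 0 => η
  | n + 1 => e n

/-- erased substitution -/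
abbrev ers (σ : ℕ → MT S) : ℕ → Term S := fun n => er (σ n)

variable (J idx)

/-- the unipolar model at level `i` -/
def Rz (i : ℕ) :
    Term S → C → C → (ℕ → MT S) → (ℕ → S → Bool) → MT S → Prop
  | .pi A B, Γ, D, σ, e, v =>
      Tv J D v (sub (ers σ) (.pi A B)) ∧ W J idx (i + 1) D v ∧
      (¬ Cg J idx (i + 1) D (sub (ers σ) (.pi A B)) →
        ∀ (D' : C) (r : ℕ → ℕ), Sb J (fun x => .var (r x)) D D' → J.Wf D' → ∀ u : MT S,
          Rz i A Γ D' (fun n => mren r (σ n)) e u →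
          ∀ η : S → Bool, Rz i B (J.cons A Γ) D' (mscons u (fun n => mren r (σ n)))
            (ccons η e) (.app (mren r v) u))
  | .var x, Γ, D, σ, e, v =>
      Tv J D v (sub (ers σ) (.var x)) ∧ W J idx (i + 1) D v ∧
      (¬ Cg J idx (i + 1) D (sub (ers σ) (.var x)) → ∀ s, J.T Γ (.var x) (.sort s) →
        e x s = false → Bot J idx (i + 1) D v)
  | .app M N, Γ, D, σ, e, v =>
      Tv J D v (sub (ers σ) (.app M N)) ∧ W J idx (i + 1) D v ∧
      (¬ Cg J idx (i + 1) D (sub (ers σ) (.app M N)) → ∀ s, J.T Γ (.app M N) (.sort s) →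
        e (hd M) s = false → Bot J idx (i + 1) D v)
  | .sort s, _, D, σ, _, v => Tv J D v (sub (ers σ) (.sort s)) ∧ W J idx (i + 1) D v
  | .lam A M, _, D, σ, _, v => Tv J D v (sub (ers σ) (.lam A M)) ∧ W J idx (i + 1) D v

variable {J idx} {i : ℕ}

theorem Rz.tm {T : Term S} {Γ D : C} {σ : ℕ → MT S} {e : ℕ → S → Bool} {v : MT S}
    (h : Rz J idx i T Γ D σ e v) : Tv J D v (sub (ers σ) T) := by
  cases T <;> exact h.1

theorem Rz.inW {T : Term S} {Γ D : C} {σ : ℕ → MT S} {e : ℕ → S → Bool} {v : MT S}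
    (h : Rz J idx i T Γ D σ e v) : W J idx (i + 1) D v := by
  cases T with
  | sort s => exact h.2
  | lam A M => exact h.2
  | _ => exact h.2.1

theorem Rz_high {T : Term S} {Γ D : C} {σ : ℕ → MT S} {e : ℕ → S → Bool} {v : MT S}
    (hh : Cg J idx (i + 1) D (sub (ers σ) T)) (h1 : Tv J D v (sub (ers σ) T))
    (h2 : W J idx (i + 1) D v) : Rz J idx i T Γ D σ e v := by
  cases T with
  | sort s => exact ⟨h1, h2⟩
  | lam A M => exact ⟨h1, h2⟩
  | _ => exact ⟨h1, h2, fun h => (h hh).elim⟩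

theorem Rz_neu {T : Term S} (hT : Neu T) {Γ D : C} {σ : ℕ → MT S}
    {e : ℕ → S → Bool} {v : MT S} : Rz J idx i T Γ D σ e v ↔
      (Tv J D v (sub (ers σ) T) ∧ W J idx (i + 1) D v ∧
        (¬ Cg J idx (i + 1) D (sub (ers σ) T) → ∀ s, J.T Γ T (.sort s) →
          e (hd T) s = false → Bot J idx (i + 1) D v)) := by
  cases hT with
  | var x => exact Iff.rfl
  | app N h => exact Iff.rfl

theorem ers_mscons (u : MT S) (σ : ℕ → MT S) : ers (mscons u σ) = scons (er u) (ers σ) := by
  funext n; cases n <;> rfl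

theorem sub_ers_mscons (u : MT S) (σ : ℕ → MT S) (B : Term S) :
    sub (ers (mscons u σ)) B = inst (er u) (sub (ups (ers σ)) B) := by
  rw [ers_mscons, sub_scons]

theorem ers_ren (r : ℕ → ℕ) (σ : ℕ → MT S) (T : Term S) :
    sub (ers (fun n => mren r (σ n))) T = ren r (sub (ers σ) T) := by
  rw [ren_sub]
  congr 1
  funext n
  exact er_mren _ _

/-- typing of the application used in the product clause -/
theorem tv_app_clause {A B : Term S} {D D' : C} {σ : ℕ → MT S} {v u : MT S}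
    {r : ℕ → ℕ} (hv : Tv J D v (sub (ers σ) (.pi A B)))
    (hr : Sb J (fun x => .var (r x)) D D') (hw : J.Wf D')
    (hu : Tv J D' u (sub (ers (fun n => mren r (σ n))) A)) :
    Tv J D' (.app (mren r v) u) (sub (ers (mscons u (fun n => mren r (σ n)))) B) := by
  have h1 := hv.ren hw hr
  rw [← ers_ren, sub_pi] at h1
  rw [sub_ers_mscons]
  exact Tv.app h1 hu

/-- renaming of the source -/
theorem Rz_ren {T : Term S} : ∀ {Γ Γ' D : C} {ρ : ℕ → ℕ} {σ : ℕ → MT S}
    {e : ℕ → S → Bool} {v : MT S} {s : S}, Normal T → J.T Γ T (.sort s) → J.Wf Γ' →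
    Sb J (fun n => .var (ρ n)) Γ Γ' →
    (Rz J idx i (ren ρ T) Γ' D σ e v ↔
      Rz J idx i T Γ D (fun n => σ (ρ n)) (fun n => e (ρ n)) v) := by
  have key : ∀ {T : Term S} {Γ Γ' D : C} {ρ : ℕ → ℕ} {σ : ℕ → MT S}
    {e : ℕ → S → Bool} {v : MT S} {s : S}, Neu T → J.T Γ T (.sort s) → J.Wf Γ' →
    Sb J (fun n => .var (ρ n)) Γ Γ' →
    (Rz J idx i (ren ρ T) Γ' D σ e v ↔
      Rz J idx i T Γ D (fun n => σ (ρ n)) (fun n => e (ρ n)) v) := by
    intro T Γ Γ' D ρ σ e v s hT ht hw hs
    have hN := hT.sub (τ := fun n => .var (ρ n)) (y := ρ (hd T)) rfl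
    rw [← ren_eq_sub] at hN
    rw [Rz_neu hN.1, Rz_neu hT, sub_ren, hN.2]
    have h3 : J.T Γ' (ren ρ T) (.sort s) := by
      rw [ren_eq_sub]; exact J.tsub ht hw hs
    constructor
    · rintro ⟨h1, h2, h4⟩
      refine ⟨h1, h2, fun hh t ht' he => h4 hh s h3 ?_⟩
      rwa [← hT.sort_uniq ht ht'] at he
    · rintro ⟨h1, h2, h4⟩
      refine ⟨h1, h2, fun hh t ht' he => h4 hh s ht ?_⟩
      rwa [← hN.1.sort_uniq h3 ht'] at he
  induction T with
  | var x => intro Γ Γ' D ρ σ e v s _ ht hw hs; exact key (.var x) ht hw hs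
  | app M N _ _ =>
      intro Γ Γ' D ρ σ e v s hn ht hw hs
      exact key (neu_of_normal hn ht) ht hw hs
  | sort t => intro Γ Γ' D ρ σ e v s _ ht hw hs; exact Iff.rfl
  | lam A M _ _ =>
      intro Γ Γ' D ρ σ e v s _ ht hw hs
      simp only [ren_lam, Rz]
      rw [← ren_lam, sub_ren]
  | pi A B ihA ihB =>
      intro Γ Γ' D ρ σ e v s hn ht hw hs
      obtain ⟨a, b, c, hA, hB, _, _⟩ := J.gen_pi ht
      obtain ⟨nA, nB⟩ := normal_pi hn
      have hA' : J.T Γ' (sub (fun n => .var (ρ n)) A) (.sort a) := J.tsub hA hw hs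
      have hs' : Sb J (fun n => .var (up ρ n)) (J.cons A Γ) (J.cons (ren ρ A) Γ') := by
        refine sb_up hs hw (s := a) ?_
        rw [ren_eq_sub]; exact hA'
      have hw' : J.Wf (J.cons (ren ρ A) Γ') := J.wf_cons hw (by rw [ren_eq_sub]; exact hA')
      simp only [ren_pi, Rz]
      rw [← ren_pi, sub_ren]
      refine and_congr Iff.rfl (and_congr Iff.rfl (imp_congr Iff.rfl ?_))
      refine forall_congr' fun D' => forall_congr' fun r => imp_congr Iff.rfl
        (imp_congr Iff.rfl (forall_congr' fun u => imp_congr (ihA nA hA hw hs)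
          (forall_congr' fun η => ?_)))
      rw [ihB nB hB hw' hs']
      have e1 : (fun n => mscons u (fun n => mren r (σ n)) (up ρ n)) =
          mscons u (fun n => mren r (σ (ρ n))) := by
        funext n; cases n <;> rfl
      have e2 : (fun n => ccons η e (up ρ n)) = ccons η (fun n => e (ρ n)) := by
        funext n; cases n <;> rfl
      rw [e1, e2]

/-- change of the source context -/
theorem Rz_ctx {T : Term S} {Γ Γ' D : C} {σ : ℕ → MT S}
    {e : ℕ → S → Bool} {v : MT S} {s : S} (hn : Normal T) (ht : J.T Γ T (.sort s))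
    (hw : J.Wf Γ') (hs : Sb J .var Γ Γ') :
    Rz J idx i T Γ' D σ e v ↔ Rz J idx i T Γ D σ e v := by
  have := Rz_ren (J := J) (idx := idx) (i := i) (D := D) (ρ := fun n => n) (σ := σ)
    (e := e) (v := v) hn ht hw hs
  rwa [ren_id] at this

/-! ### closure -/

theorem Rz_ne {T : Term S} : ∀ {Γ D : C} {σ : ℕ → MT S} {e : ℕ → S → Bool} {v : MT S},
    J.Wf D → Ne J idx (i + 1) D v → Tv J D v (sub (ers σ) T) → Rz J idx i T Γ D σ e v := by
  induction T with
  | var x => intro Γ D σ e v _ h2 h3; exact ⟨h3, h2.w, fun _ _ _ _ => .ne h2⟩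
  | app M N _ _ => intro Γ D σ e v _ h2 h3; exact ⟨h3, h2.w, fun _ _ _ _ => .ne h2⟩
  | sort t => intro Γ D σ e v _ h2 h3; exact ⟨h3, h2.w⟩
  | lam A M _ _ => intro Γ D σ e v _ h2 h3; exact ⟨h3, h2.w⟩
  | pi A B _ ihB =>
      intro Γ D σ e v w h2 h3
      refine ⟨h3, h2.w, fun _ D' r hr hw u hu η => ?_⟩
      exact ihB hw (.app (h2.mren h3.1 w hw hr) hu.inW) (tv_app_clause h3 hr hw hu.tm)

theorem Rz_exp {T : Term S} : ∀ {Γ D : C} {σ : ℕ → MT S}
    {e : ℕ → S → Bool} (E : EC S) {F Q R : MT S}, dist F Q = some R →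
    Tv J D (E.fill (.app F Q)) (sub (ers σ) T) →
    Rz J idx i T Γ D σ e (E.fill R) → Rz J idx i T Γ D σ e (E.fill (.app F Q)) := by
  induction T with
  | var x =>
      intro Γ D σ e E F Q R h1 h2 h3
      exact ⟨h2, W_fill_exp E h1 h3.inW, fun a s hs he => .exp E h1 (h3.2.2 a s hs he)⟩
  | app M N _ _ =>
      intro Γ D σ e E F Q R h1 h2 h3
      exact ⟨h2, W_fill_exp E h1 h3.inW, fun a s hs he => .exp E h1 (h3.2.2 a s hs he)⟩
  | sort t => intro Γ D σ e E F Q R h1 h2 h3; exact ⟨h2, W_fill_exp E h1 h3.inW⟩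
  | lam A M _ _ => intro Γ D σ e E F Q R h1 h2 h3; exact ⟨h2, W_fill_exp E h1 h3.inW⟩
  | pi A B _ ihB =>
      intro Γ D σ e E F Q R h1 h2 h3
      refine ⟨h2, W_fill_exp E h1 h3.inW, fun a D' r hr hw u hu η => ?_⟩
      have h4 := h3.2.2 a D' r hr hw u hu η
      have h5 := tv_app_clause h2 hr hw hu.tm
      rw [EC.ren_fill] at h4 h5 ⊢
      exact ihB (.app (E.ren r) u) (dist_mren h1 r) h5 h4

theorem Rz_mem {T : Term S} : ∀ {Γ D : C} {σ : ℕ → MT S}
    {e : ℕ → S → Bool} (E : EC S) {v n : MT S}, J.Wf D → W J idx (i + 1) D n →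
    Tv J D (E.fill (.mem v n)) (sub (ers σ) T) →
    Rz J idx i T Γ D σ e (E.fill v) → Rz J idx i T Γ D σ e (E.fill (.mem v n)) := by
  induction T with
  | var x =>
      intro Γ D σ e E v n _ h1 h2 h3
      exact ⟨h2, W_fill_mem E h1 h3.inW, fun a s hs he => .mem E h1 (h3.2.2 a s hs he)⟩
  | app M N _ _ =>
      intro Γ D σ e E v n _ h1 h2 h3
      exact ⟨h2, W_fill_mem E h1 h3.inW, fun a s hs he => .mem E h1 (h3.2.2 a s hs he)⟩
  | sort t => intro Γ D σ e E v n _ h1 h2 h3; exact ⟨h2, W_fill_mem E h1 h3.inW⟩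
  | lam A M _ _ => intro Γ D σ e E v n _ h1 h2 h3; exact ⟨h2, W_fill_mem E h1 h3.inW⟩
  | pi A B _ ihB =>
      intro Γ D σ e E v n w h1 h2 h3
      refine ⟨h2, W_fill_mem E h1 h3.inW, fun a D' r hr hw u hu η => ?_⟩
      have h4 := h3.2.2 a D' r hr hw u hu η
      have h5 := tv_app_clause h2 hr hw hu.tm
      have h6 := h1.mren (MOk.fill_memn h2.1) w hw hr
      rw [EC.ren_fill] at h4 h5 ⊢
      exact ihB (.app (E.ren r) u) hw h6 h5 h4

theorem Rz_bot {T : Term S} {Γ D : C} {σ : ℕ → MT S}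
    {e : ℕ → S → Bool} {v : MT S} (w : J.Wf D) (hv : Bot J idx (i + 1) D v)
    (ht : Tv J D v (sub (ers σ) T)) : Rz J idx i T Γ D σ e v := by
  induction hv with
  | ne h => exact Rz_ne w h ht
  | exp E h1 _ ih => exact Rz_exp E h1 ht (ih (Tv.fill_exp w h1 ht))
  | mem E h1 _ ih => exact Rz_mem E w h1 ht (ih (Tv.fill_mem ht))

/-- renaming of the target -/
theorem Rz.mono {T : Term S} {Γ D D' : C} {σ : ℕ → MT S}
    {e : ℕ → S → Bool} {v : MT S} {r : ℕ → ℕ} (h : Rz J idx i T Γ D σ e v) (w : J.Wf D)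
    (hr : Sb J (fun x => .var (r x)) D D') (hw : J.Wf D') :
    Rz J idx i T Γ D' (fun n => mren r (σ n)) e (mren r v) := by
  have ht := h.tm.ren hw hr
  rw [← ers_ren] at ht
  have hW := h.inW.mren h.tm.1 w hw hr
  have hH : ¬ Cg J idx (i + 1) D' (sub (ers fun n => mren r (σ n)) T) →
      ¬ Cg J idx (i + 1) D (sub (ers σ) T) := fun hh h1 => hh (by
        rw [ers_ren]; exact h1.ren hw hr)
  cases T with
  | var x =>
      exact ⟨ht, hW, fun hh s hs he => (h.2.2 (hH hh) s hs he).ren h.tm.1 h.tm.2 w hw hr⟩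
  | app M N =>
      exact ⟨ht, hW, fun hh s hs he => (h.2.2 (hH hh) s hs he).ren h.tm.1 h.tm.2 w hw hr⟩
  | sort t => exact ⟨ht, hW⟩
  | lam A M => exact ⟨ht, hW⟩
  | pi A B =>
      refine ⟨ht, hW, fun hh D'' r' hr' hw' u hu η => ?_⟩
      have hc : Sb J (fun x => .var (r' (r x))) D D'' := by
        have := sb_comp hr hr' hw'
        exact this
      have := h.2.2 (hH hh) D'' (fun n => r' (r n)) hc hw' u
      simp only [mren_mren] at hu ⊢
      exact this hu η

end Crest.Agent.R298.G2S488
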