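import Crest.Agent.R298.G2I_488
import Crest.Agent.R298.AA_961
import Crest.Agent.R298.Scc_795

/-!
R298 (S0452), helper488: the unipolar model as a `Stage` of `StM_961`, for any judgement
`J : Jd P C`; result `stage_unipolar`.
-/

set_option autoImplicit false

namespace Crest.Agent.R298.G2S488

open Crest.LogicCS.PTS Relation
open Crest.Agent.R298.Sub452 Crest.Agent.R298.Par452 Crest.Agent.R298.Mem360
open Crest.Agent.R298.Mem360.MT (er emb mren mwk mups msub mscons minst dist IsL mren_mren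
  er_mren dist_mren mren_app mren_mem mren_id msub_id)
open Crest.Agent.R298.Jd961 Crest.Agent.R298.Jd961.Jd Crest.Agent.R298.MW961
open Crest.Agent.R298.AA961

universe u v
variable {S : Type u} {P : Spec S} {C : Type v} {J : Jd P C} {idx : S → ℕ} {i : ℕ}

/-! ### normal forms -/

open Classical in
/-- the normal form -/
noncomputable def nfo (T : Term S) : Term S :=
  if h : ∃ N, Red T N ∧ Normal N then h.choose else T

theorem nfo_spec {T : Term S} (h : WN T) : Red T (nfo T) ∧ Normal (nfo T) := by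
  have h' : ∃ N, Red T N ∧ Normal N := h
  unfold nfo
  rw [dif_pos h']
  exact h'.choose_spec

theorem nfo_eq {T N : Term S} (r : BetaEq T N) (hN : Normal N) : nfo T = N := by
  have h : WN T := ⟨N, red_of_eq_normal r hN, hN⟩
  obtain ⟨h1, h2⟩ := nfo_spec h
  exact normal_unique (BetaEq.trans (BetaEq.symm h1.eq) r) h2 hN

theorem wn_of_eq {T T' : Term S} (e : BetaEq T T') (h : WN T') : WN T := by
  obtain ⟨N, r, hN⟩ := h
  exact ⟨N, red_of_eq_normal (BetaEq.trans e (Red.eq r)) hN, hN⟩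

theorem nfo_conv {T T' : Term S} (e : BetaEq T T') (h : WN T') : nfo T = nfo T' := by
  obtain ⟨h1, h2⟩ := nfo_spec h
  exact nfo_eq (BetaEq.trans e h1.eq) h2

theorem nfo_sort (s : S) : nfo (.sort s) = .sort s :=
  nfo_eq (.refl _) (fun N h => by cases h)

theorem nfo_pi {A B : Term S} (hA : WN A) (hB : WN B) :
    nfo (.pi A B) = .pi (nfo A) (nfo B) := by
  obtain ⟨a1, a2⟩ := nfo_spec hA
  obtain ⟨b1, b2⟩ := nfo_spec hB
  refine nfo_eq (BetaEq.pi a1.eq b1.eq) ?_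
  intro N h
  cases h with
  | piA _ h => exact a2 _ h
  | piB _ h => exact b2 _ h

/-- the hypothesis: types are weakly normalising -/
def TWN (J : Jd P C) : Prop := ∀ (G : C) (A : Term S) (s : S), J.Wf G → J.T G A (.sort s) → WN A

/-- a type of class at least `i` -/
theorem cg_nf (hWN : TWN J) {G : C} (w : J.Wf G) {T : Term S} (h : Cg J idx i G T) :
    WN T ∧ ∃ c, J.T G (nfo T) (.sort c) ∧ i ≤ idx c := by
  obtain ⟨T', s, e, h1, h2⟩ := h
  have hT' := hWN G T' s w h1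
  refine ⟨wn_of_eq e hT', s, ?_, h2⟩
  rw [nfo_conv e hT']
  exact J.sr h1 (nfo_spec hT').1

/-- environments -/
structure En (S : Type u) (C : Type v) : Type (max u v) where
  D : C
  σ : ℕ → MT S
  e : ℕ → S → Bool

/-- realizers -/
def RR (J : Jd P C) (idx : S → ℕ) (i : ℕ) (G : C) (ρ : En S C) (T : Term S) (v : MT S) : Prop :=
  Rz J idx i (nfo T) G ρ.D ρ.σ ρ.e v

/-- correct environments -/
structure Ok (J : Jd P C) (idx : S → ℕ) (i : ℕ) (G : C) (ρ : En S C) : Prop where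
  wfG : J.Wf G
  wf : J.Wf ρ.D
  msb : MSb J ρ.σ G ρ.D
  vR : ∀ {x A}, J.Dc G x A → Cg J idx i G A → RR J idx i G ρ A (ρ.σ x)
  vNe : ∀ {x A}, J.Dc G x A → ¬ Cg J idx i G A → Ne J idx (i + 1) ρ.D (ρ.σ x)

/-- extensions -/
structure Ex (J : Jd P C) (idx : S → ℕ) (i : ℕ) (G : C) (A : Term S) (ρ : En S C)
    (r : ℕ → ℕ) (ρ' : En S C) : Prop where
  ren : Sb J (fun x => .var (r x)) ρ.D ρ'.D
  wf : J.Wf ρ'.D
  ty : ∃ s, J.T G A (.sort s)
  val : ∃ (u : MT S) (η : S → Bool), ρ'.σ = mscons u (fun n => mren r (ρ.σ n)) ∧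
    ρ'.e = ccons η ρ.e ∧ Tv J ρ'.D u (sub (ers (fun n => mren r (ρ.σ n))) A) ∧
    (Cg J idx i G A → Rz J idx i (nfo A) G ρ'.D (fun n => mren r (ρ.σ n)) ρ.e u) ∧
    (¬ Cg J idx i G A → Ne J idx (i + 1) ρ'.D u)

/-- reflection of classes along a renaming of the source -/
theorem RR_wk (hWN : TWN J) {G : C} {A B : Term S} {s : S} {ρ : En S C} {u : MT S}
    {η : S → Bool} {v : MT S} (w : J.Wf G) (hA : J.T G A (.sort s))
    (hB : Cg J idx i G B) :
    RR J idx i (J.cons A G) ⟨ρ.D, mscons u ρ.σ, ccons η ρ.e⟩ (wk B) v ↔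
      RR J idx i G ρ B v := by
  obtain ⟨h1, c, h2, _⟩ := cg_nf hWN w hB
  obtain ⟨h3, h4⟩ := nfo_spec h1
  unfold RR
  have e : nfo (wk B) = Sub452.ren Nat.succ (nfo B) := by
    refine nfo_eq (BetaEq.ren h3.eq _) ?_
    intro N hN
    obtain ⟨N', hN', _⟩ := Ty452.beta_ren_inv hN
    exact h4 _ hN'
  rw [e]
  exact Rz_ren h4 h2 (J.wf_cons w hA) (sb_wk w hA)

/-- from a type to its normal form -/
theorem tv_nf (hWN : TWN J) {G D : C} {σ : ℕ → MT S} (w : J.Wf G) (wD : J.Wf D)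
    (hs : Sb J (ers σ) G D) {T : Term S} (hc : Cg J idx i G T) {v : MT S}
    (h : Tv J D v (sub (ers σ) T)) : Tv J D v (sub (ers σ) (nfo T)) := by
  obtain ⟨h1, c, h2, _⟩ := cg_nf hWN w hc
  exact h.conv (J.tsub h2 wD hs) (BetaEq.sub (nfo_spec h1).1.eq _)

theorem sb_ers_ren {G D D' : C} {σ : ℕ → MT S} {r : ℕ → ℕ} (hs : Sb J (ers σ) G D)
    (hr : Sb J (fun x => .var (r x)) D D') (w' : J.Wf D') :
    Sb J (ers (fun n => mren r (σ n))) G D' := by
  intro n B hl
  rw [ers_ren]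
  show J.T D' (er (mren r (σ n))) _
  rw [er_mren]
  exact tren (hs n B hl) w' hr

theorem Ex.msb {G : C} {A : Term S} {ρ ρ' : En S C} {r : ℕ → ℕ} (h : Ok J idx i G ρ)
    (h' : Ex J idx i G A ρ r ρ') : MSb J ρ'.σ (J.cons A G) ρ'.D := by
  obtain ⟨u, η, h1, _, h3, _, _⟩ := h'.val
  rw [h1]
  refine ⟨?_, ?_⟩
  · have := sb_scons (sb_ers_ren h.msb.1 h'.ren h'.wf) h3.2
    rw [← ers_mscons] at this
    exact this
  · intro x B hB
    cases x with
    | zero => exact h3.1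
    | succ x =>
        obtain ⟨B', hB', _⟩ := J.dc_succ.1 hB
        exact (h.msb.2 _ _ hB').mren h'.wf h'.ren

theorem wk_nf {T : Term S} (h : WN T) : nfo (wk T) = Sub452.ren Nat.succ (nfo T) := by
  obtain ⟨h3, h4⟩ := nfo_spec h
  refine nfo_eq (BetaEq.ren h3.eq _) ?_
  intro N hN
  obtain ⟨N', hN', _⟩ := Ty452.beta_ren_inv hN
  exact h4 _ hN'

theorem Ex.ok (hWN : TWN J) {G : C} {A : Term S} {ρ ρ' : En S C} {r : ℕ → ℕ}
    (h : Ok J idx i G ρ) (h' : Ex J idx i G A ρ r ρ') : Ok J idx i (J.cons A G) ρ' := by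
  have hm := h'.msb h
  obtain ⟨s, hA⟩ := h'.ty
  have wc := J.wf_cons h.wfG hA
  obtain ⟨u, η, h1, h2, h3, h4, h5⟩ := h'.val
  have h0 : ρ'.σ 0 = u := by rw [h1]; rfl
  have hx : ∀ x, ρ'.σ (x + 1) = mren r (ρ.σ x) := fun x => by rw [h1]; rfl
  have hne : ∀ {x B}, J.Dc G x B → ¬ Cg J idx i G B → Ne J idx (i + 1) ρ'.D (ρ'.σ (x + 1)) := by
    intro x B hB hc
    rw [hx]
    exact (h.vNe hB hc).mren (h.msb.2 _ _ hB) h.wf h'.wf h'.ren
  have hR : ∀ {x B}, J.Dc (J.cons A G) x B → Cg J idx i (J.cons A G) B →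
      Ne J idx (i + 1) ρ'.D (ρ'.σ x) → RR J idx i (J.cons A G) ρ' B (ρ'.σ x) := by
    intro x B hB hc hn
    exact Rz_ne h'.wf hn (tv_nf hWN wc h'.wf hm.1 hc ⟨hm.2 _ _ hB, hm.1 _ _ hB⟩)
  have key : ∀ {B v}, Cg J idx i G B →
      Rz J idx i (nfo B) G ρ'.D (fun n => mren r (ρ.σ n)) ρ.e v →
      RR J idx i (J.cons A G) ρ' (wk B) v := by
    intro B v hc hv
    obtain ⟨k1, c, k2, _⟩ := cg_nf hWN h.wfG hc
    obtain ⟨k3, k4⟩ := nfo_spec k1
    unfold RR
    rw [wk_nf k1, h1, h2]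
    exact (Rz_ren (σ := mscons u fun n => mren r (ρ.σ n)) (e := ccons η ρ.e) k4 k2 wc
      (sb_wk h.wfG hA)).2 hv
  refine ⟨wc, h'.wf, hm, ?_, ?_⟩
  · intro x B hB hc
    cases x with
    | zero =>
        by_cases hA' : Cg J idx i G A
        · have := J.dc_zero.1 hB
          subst this
          rw [h0]
          exact key hA' (h4 hA')
        · exact hR hB hc (by rw [h0]; exact h5 hA')
    | succ x =>
        obtain ⟨B', hB', rfl⟩ := J.dc_succ.1 hB
        by_cases hA' : Cg J idx i G B'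
        · rw [hx]
          exact key hA' ((h.vR hB' hA').mono h.wf h'.ren h'.wf)
        · exact hR hB hc (hne hB' hA')
  · intro x B hB hc
    cases x with
    | zero =>
        have := J.dc_zero.1 hB
        subst this
        rw [h0]
        exact h5 fun hA' => hc (hA'.ren wc (sb_wk h.wfG hA))
    | succ x =>
        obtain ⟨B', hB', rfl⟩ := J.dc_succ.1 hB
        exact hne hB' fun hA' => hc (hA'.ren wc (sb_wk h.wfG hA))

/-- the semantic hypothesis: an instance which is at least as big exists -/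
def HInst (J : Jd P C) (idx : S → ℕ) (i : ℕ) : Prop :=
  ∀ (T : Term S) (G : C) (c : S), Normal T → J.T G T (.sort c) → i ≤ idx c →
    ∃ η, PP J idx i T G 0 η

theorem hinst_unary (hm : ∀ a b c, P.rule a b c → idx c ≤ idx a ∧ idx c ≤ idx b)
    (hU : Scc795.Unary P {x | idx x = i}) : HInst J idx i :=
  fun _ _ _ hn ht hc => (inst_unary hm hU hn ht hc).1

theorem hinst_even (hm : ∀ a b c, P.rule a b c → idx c ≤ idx a ∧ idx c ≤ idx b)
    (hE : Scc795.Even P {x | idx x = i}) : HInst J idx i := by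
  obtain ⟨chi, hE⟩ := hE
  exact fun _ _ _ hn ht hc => ⟨_, (inst_even chi hm hE hn ht hc).1⟩

/-- **the unipolar stage model** -/
def stage_of_inst (hWN : TWN J) (hm : ∀ a b c, P.rule a b c → idx c ≤ idx a ∧ idx c ≤ idx b)
    (hI : HInst J idx i) : Stage J idx i where
  Env := En S C
  tgt := En.D
  sb := En.σ
  Ok := Ok J idx i
  Ext := Ex J idx i
  R := RR J idx i
  wf := fun h => h.wf
  msb := fun h => h.msb
  ext_ok := fun h h' => h'.ok hWN h
  ext_ren := fun _ h' => h'.ren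
  ext_sb := by
    intro G A ρ r ρ' _ h' x
    obtain ⟨u, η, h1, _⟩ := h'.val
    rw [h1]; rfl
  R_W := fun _ _ _ _ h => h.inW
  R_ne := by
    intro G ρ T v w ok _ hc h1 h2 h3
    exact Rz_ne ok.wf h3 (tv_nf hWN w ok.wf ok.msb.1 hc ⟨h1, h2⟩)
  R_beta := by
    intro G ρ T F Q v w ok _ hc h1 h2 h3 h4
    exact Rz_exp .hole h3 (tv_nf hWN w ok.wf ok.msb.1 hc ⟨h1, h2⟩) h4
  R_mem := by
    intro G ρ T v n w ok _ hc h1 h2 h3
    exact Rz_mem .hole ok.wf h2 ⟨⟨h3.tm.1, h1⟩, h3.tm.2⟩ h3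
  R_conv := by
    intro G ρ T T' v w ok _ _ hc e h
    have hT := (cg_nf hWN w hc).1
    unfold RR at h ⊢
    rwa [nfo_conv (BetaEq.symm e) hT]
  R_high := by
    intro G ρ T v w ok _ hc h1 h2 h3 h4
    have hT := (cg_nf hWN w hc).1
    exact Rz_high (h1.conv (BetaEq.sub (nfo_spec hT).1.eq _))
      (tv_nf hWN w ok.wf ok.msb.1 hc ⟨h2, h3⟩) h4
  R_sort := by
    intro G ρ s v w ok hc h1 h2 h3
    unfold RR
    rw [nfo_sort]
    exact ⟨⟨h1, h2⟩, h3⟩
  R_pi := by
    intro G ρ A B s v w ok hp hc hn h1 h2 h3 H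
    obtain ⟨a, b, c, hA, hB, _, _⟩ := J.gen_pi hp
    have wc := J.wf_cons w hA
    have nA := hWN _ _ _ w hA
    have nB := hWN _ _ _ wc hB
    have hA' := J.sr hA (nfo_spec nA).1
    have hB' := J.sr hB (nfo_spec nB).1
    have wc' := J.wf_cons w hA'
    have cA := (Cg.of_pi hm w hc (.refl _) hA).1
    have t := tv_nf hWN w ok.wf ok.msb.1 hc ⟨h1, h2⟩
    unfold RR
    rw [nfo_pi nA nB] at t ⊢
    refine ⟨t, h3, fun _ D' r hr hw u hu η => ?_⟩
    have hx : Ex J idx i G A ρ r ⟨D', mscons u (fun n => mren r (ρ.σ n)), ccons η ρ.e⟩ := by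
      refine ⟨hr, hw, ⟨a, hA⟩, u, η, rfl, rfl, ?_, fun _ => hu, fun hn => (hn cA).elim⟩
      exact hu.tm.conv (J.tsub hA hw (sb_ers_ren ok.msb.1 hr hw))
        (BetaEq.sub (BetaEq.symm (nfo_spec nA).1.eq) _)
    have := H r _ hx
    exact (Rz_ctx (nfo_spec nB).2 hB' wc' (sb_conv w hA hA' (nfo_spec nA).1.eq)).2 this
  R_app := by
    intro G ρ A B s v r ρ' w ok hp hc hn h1 hx
    obtain ⟨a, b, c, hA, hB, _, _⟩ := J.gen_pi hp
    have wc := J.wf_cons w hA
    have nA := hWN _ _ _ w hA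
    have nB := hWN _ _ _ wc hB
    have hA' := J.sr hA (nfo_spec nA).1
    have hB' := J.sr hB (nfo_spec nB).1
    have wc' := J.wf_cons w hA'
    have cA := (Cg.of_pi hm w hc (.refl _) hA).1
    obtain ⟨u, η, e1, e2, h3, h4, _⟩ := hx.val
    have hr := hx.ren
    have hw := hx.wf
    obtain ⟨D', σ', e'⟩ := ρ'
    simp only at e1 e2
    subst e1
    subst e2
    unfold RR at h1 ⊢
    rw [nfo_pi nA nB] at h1
    have hn' : ¬ Cg J idx (i + 1) ρ.D (sub (ers ρ.σ) (.pi (nfo A) (nfo B))) := fun hh =>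
      hn (hh.conv (BetaEq.sub (BetaEq.symm
        (BetaEq.pi (nfo_spec nA).1.eq (nfo_spec nB).1.eq)) _))
    have := h1.2.2 hn' D' r hr hw u (h4 cA) η
    exact (Rz_ctx (nfo_spec nB).2 hB' wc' (sb_conv w hA hA' (nfo_spec nA).1.eq)).1 this
  R_inst := by
    intro G ρ A B s N w ok hp hc hn hN hT hR
    obtain ⟨a, b, c, hA, hB, _, _⟩ := J.gen_pi hp
    have wc := J.wf_cons w hA
    have nB := hWN _ _ _ wc hB
    obtain ⟨cA, cB⟩ := Cg.of_pi hm w hc (.refl _) hA
    obtain ⟨_, c', hB', hc'⟩ := cg_nf hWN wc cB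
    obtain ⟨η, hη⟩ := hI _ _ _ (nfo_spec nB).2 hB' hc'
    have eid : (fun n => mren (fun x => x) (ρ.σ n)) = ρ.σ := by funext n; exact mren_id _
    have hid : Sb J (fun x => .var ((fun x => x) x)) ρ.D ρ.D := sb_var ok.wf
    refine ⟨⟨ρ.D, mscons (msub ρ.σ N) (fun n => mren (fun x => x) (ρ.σ n)), ccons η ρ.e⟩,
      ⟨hid, ok.wf, ⟨a, hA⟩, _, η, rfl, rfl, ?_, ?_, fun hn => (hn cA).elim⟩, rfl, rfl, ?_⟩
    · refine ⟨hN.msub ok.wf ok.msb, ?_⟩
      rw [eid, MT.er_msub]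
      exact J.tsub hT ok.wf ok.msb.1
    · intro _
      rw [eid]
      exact hR
    · intro v _ hv
      have nI : WN (inst (er N) B) := hWN G _ b w (by
        have := tinst w hB hT
        exact this)
      have hNs := nfo_spec nI
      unfold RR at hv ⊢
      simp only [eid] at hv
      refine hη (scons (er N) .var) G ρ.D (mscons (msub ρ.σ N) ρ.σ) (ccons η ρ.e) ρ.σ ρ.e _ v
        ⟨w, ok.wf, ?_, ⟨?_, ?_, rfl⟩, ok.msb.1, hNs.2, ?_⟩ hv
      · exact sb_scons (sb_var w) (by rwa [sub_id])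
      · intro x hx
        cases x with
        | zero => exact (hx rfl).elim
        | succ x => exact ⟨x, rfl, rfl, rfl⟩
      · exact MT.er_msub _ _
      · exact BetaEq.trans (BetaEq.sub (BetaEq.symm (nfo_spec nB).1.eq) _) hNs.1.eq
  fresh := by
    intro G ρ A s w ok hA M _
    have hA' := J.tsub hA ok.wf ok.msb.1
    have w' := J.wf_cons ok.wf hA'
    have hr := sb_wk ok.wf hA'
    have e : mscons (.var 0) (fun n => mren (fun x => x + 1) (ρ.σ n)) = mups ρ.σ := by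
      funext n; cases n <;> rfl
    have t : Tv J (J.cons (sub (fun x => er (ρ.σ x)) A) ρ.D) (.var 0)
        (sub (ers (fun n => mren (fun x => x + 1) (ρ.σ n))) A) := by
      have h1 := J.tvar w' (J.dc_zero.2 rfl)
      refine ⟨⟨_, h1⟩, ?_⟩
      rw [ers_ren]
      exact h1
    refine ⟨fun x => x + 1, ⟨J.cons (sub (fun x => er (ρ.σ x)) A) ρ.D,
      mscons (.var 0) (fun n => mren (fun x => x + 1) (ρ.σ n)),
      ccons (fun _ => true) ρ.e⟩, ⟨hr, w', ⟨s, hA⟩, _, _, rfl, rfl, t, fun hc => ?_,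
        fun _ => .var 0⟩, ?_⟩
    · exact Rz_ne w' (.var 0) (tv_nf hWN w w' (sb_ers_ren ok.msb.1 hr w') hc t)
    · intro hW
      simp only [e] at hW
      exact hW
  var_R := fun _ ok h hc => ok.vR h hc
  var_Ne := fun _ ok h hc => ok.vNe h hc
  ident := by
    intro G w M _
    refine ⟨⟨G, .var, fun _ _ => true⟩, ⟨w, w, ⟨?_, ?_⟩, ?_, ?_⟩, ?_⟩
    · exact sb_var w
    · intro x B hB; exact ⟨_, J.tvar w hB⟩
    · intro x A h hc
      have t : Tv J G (.var x) (sub (ers .var) A) := by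
        have h1 := J.tvar w h
        refine ⟨⟨_, h1⟩, ?_⟩
        have : sub (ers .var) A = A := sub_id A
        rw [this]
        exact h1
      have hs : Sb J (ers .var) G G := sb_var w
      exact Rz_ne w (.var x) (tv_nf hWN w w hs hc t)
    · intro x A _ _; exact .var x
    · intro h
      simp only [msub_id] at h
      exact h

/-- **unary or even levels are weakly normalising** -/
theorem wni_unipolar (hWN : TWN J)
    (hm : ∀ a b c, P.rule a b c → idx c ≤ idx a ∧ idx c ≤ idx b)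
    (h : Scc795.Unary P {x | idx x = i} ∨ Scc795.Even P {x | idx x = i}) :
    WNi J idx i := by
  rcases h with h | h
  · exact WNi_of_stage hm (stage_of_inst hWN hm (hinst_unary hm h))
  · exact WNi_of_stage hm (stage_of_inst hWN hm (hinst_even hm h))

end Crest.Agent.R298.G2S488
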