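import Crest.Agent.R298.AAI3_833
import Crest.Agent.R298.Cand_704

/-!
R298 (S0452), helper833: insurance of block (a) in one world, part 1: the unipolar model
`J` on normal types (doc 2282 section 3), closure conditions, change of context, renaming.
-/

set_option autoImplicit false

namespace Crest.Agent.R298.G2W833

open Crest.LogicCS.PTS Relation
open Crest.Agent.R298.Sub452 Crest.Agent.R298.Par452 Crest.Agent.R298.Ty452
open Crest.Agent.R298.Mem360 Crest.Agent.R298.TyF452 Crest.Agent.R298.TyMF452
open Crest.Agent.R298.Main865 Crest.Agent.R298.StrF657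
open Crest.Agent.R298.Uniq452 (FS funiq Neu fneu_uniq fneu_sort_uniq)
open Crest.Agent.R298.Cand704
open Crest.Agent.R298.AAI833 (Ge es MFv tmf_to)
open Crest.Agent.R298.Str657 (normal_app normal_lam normal_pi)
open Crest.Agent.R298.Mem360.MT (er IsL dist mren msub mups mwk mscons minst
  er_mren er_msub er_mups er_mscons msub_mren)

universe u
variable {S : Type u} {P : Spec S} {idx : S → ℕ} {i : ℕ} {D0 : ℕ → Term S}

/-! ### head variables -/

/-- the head variable of a spine -/
def hd : Term S → Option ℕ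
  | .var x => some x
  | .app M _ => hd M
  | .sort _ => none
  | .lam _ _ => none
  | .pi _ _ => none

theorem hd_neu {T : Term S} : ∀ {x : ℕ}, hd T = some x → Neu T := by
  induction T with
  | var y => intro x _; exact .var y
  | app M N ih _ => intro x h; exact .app N (ih h)
  | sort s => intro x h; cases h
  | lam _ _ => intro x h; cases h
  | pi _ _ => intro x h; cases h

theorem hd_not_lam {T : Term S} {x : ℕ} (h : hd T = some x) (A M : Term S) : T ≠ .lam A M := by
  rintro rfl; cases h

theorem hd_beta {M N : Term S} (b : Beta M N) : ∀ {x : ℕ}, hd M = some x → hd N = some x := by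
  induction b with
  | redex A M N => intro x h; cases h
  | appL N _ ih => intro x h; exact ih h
  | appR M _ ih => intro x h; exact h
  | lamA _ _ _ => intro x h; cases h
  | lamM _ _ _ => intro x h; cases h
  | piA _ _ _ => intro x h; cases h
  | piB _ _ _ => intro x h; cases h

theorem hd_red {M N : Term S} {x : ℕ} (r : Red M N) (h : hd M = some x) : hd N = some x := by
  induction r with
  | refl => exact h
  | tail _ b ih => exact hd_beta b ih

theorem hd_sub {σ : ℕ → Term S} {x y : ℕ} (e : σ x = .var y) {T : Term S} (h : hd T = some x) :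
    hd (sub σ T) = some y := by
  induction T with
  | var z => cases h; simp only [sub_var, e]; rfl
  | app M N ih _ => exact ih h
  | sort s => cases h
  | lam _ _ => cases h
  | pi _ _ => cases h

theorem hd_ren {r : ℕ → ℕ} {x : ℕ} {T : Term S} (h : hd T = some x) :
    hd (ren r T) = some (r x) := by
  induction T with
  | var z => cases h; rfl
  | app M N ih _ => exact ih h
  | sort s => cases h
  | lam _ _ => cases h
  | pi _ _ => cases h

theorem hd_ren_none {r : ℕ → ℕ} {T : Term S} (h : hd T = none) : hd (ren r T) = none := by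
  induction T with
  | var z => cases h
  | app M N ih _ => exact ih h
  | sort s => rfl
  | lam _ _ => rfl
  | pi _ _ => rfl

/-- a normal typed application is a spine with a variable at its head -/
theorem hd_app {M N : Term S} : ∀ {G : ℕ → Term S} {C : Term S}, Normal (.app M N) →
    TyF P G (.app M N) C → ∃ x, hd (.app M N) = some x := by
  induction M generalizing N with
  | var x => intro G C _ _; exact ⟨x, rfl⟩
  | sort s =>
      intro G C _ h
      obtain ⟨A, B, h1, _, _⟩ := fgen_app h _ _ rfl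
      obtain ⟨t, _, e⟩ := fgen_sort h1 _ rfl
      exact absurd (BetaEq.symm e) not_sort_pi
  | lam A M _ _ =>
      intro G C hn _
      exact absurd rfl ((normal_app hn).2.2 A M)
  | pi A M _ _ =>
      intro G C _ h
      obtain ⟨A, B, h1, _, _⟩ := fgen_app h _ _ rfl
      obtain ⟨_, _, t, _, _, _, e⟩ := fgen_pi h1 _ _ rfl
      exact absurd (BetaEq.symm e) not_sort_pi
  | app M1 M2 ih _ =>
      intro G C hn h
      obtain ⟨A, B, h1, _, _⟩ := fgen_app h _ _ rfl
      obtain ⟨x, hx⟩ := ih (normal_app hn).1 h1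
      exact ⟨x, hx⟩

/-! ### the model -/

/-- extension of the colours -/
def bcons (η : S → Bool) (e : ℕ → S → Bool) : ℕ → S → Bool
  | 0 => η
  | x + 1 => e x

@[simp] theorem bcons_zero (η : S → Bool) (e : ℕ → S → Bool) : bcons η e 0 = η := rfl
@[simp] theorem bcons_succ (η : S → Bool) (e : ℕ → S → Bool) (x : ℕ) :
    bcons η e (x + 1) = e x := rfl

/-- the leaf clause -/
def JL (P : Spec S) (idx : S → ℕ) (i : ℕ) (D0 : ℕ → Term S) (T : Term S) (G : ℕ → Term S)
    (σ : ℕ → MT S) (e : ℕ → S → Bool) (v : MT S) : Prop :=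
  (TMF P D0 v (sub (es σ) T) ∧ Wn P idx (i + 1) D0 v) ∧
    (¬ Ge P idx (i + 1) D0 (sub (es σ) T) → ∀ x s, hd T = some x → TyF P G T (.sort s) →
      e x s = false → Bot P idx (i + 1) D0 (sub (es σ) T) v)

/-- the realizers of a normal type -/
def J (P : Spec S) (idx : S → ℕ) (i : ℕ) (D0 : ℕ → Term S) : Term S → (ℕ → Term S) →
    (ℕ → MT S) → (ℕ → S → Bool) → MT S → Prop
  | .pi A B, G, σ, e, v => (TMF P D0 v (sub (es σ) (.pi A B)) ∧ Wn P idx (i + 1) D0 v) ∧
      (¬ Ge P idx (i + 1) D0 (sub (es σ) (.pi A B)) → ∀ w (η : S → Bool),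
        J P idx i D0 A G σ e w →
          J P idx i D0 B (fcons A G) (mscons w σ) (bcons η e) (.app v w))
  | .var x, G, σ, e, v => JL P idx i D0 (.var x) G σ e v
  | .sort s, G, σ, e, v => JL P idx i D0 (.sort s) G σ e v
  | .app M N, G, σ, e, v => JL P idx i D0 (.app M N) G σ e v
  | .lam M N, G, σ, e, v => JL P idx i D0 (.lam M N) G σ e v

variable {G G' : ℕ → Term S} {σ : ℕ → MT S} {e : ℕ → S → Bool} {v : MT S}

theorem J_ty {T : Term S} (h : J P idx i D0 T G σ e v) : TMF P D0 v (sub (es σ) T) := by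
  cases T <;> exact h.1.1

theorem J_wn {T : Term S} (h : J P idx i D0 T G σ e v) : Wn P idx (i + 1) D0 v := by
  cases T <;> exact h.1.2

/-- types which are high at run time -/
theorem J_high {T : Term S} (hh : Ge P idx (i + 1) D0 (sub (es σ) T)) :
    J P idx i D0 T G σ e v ↔ (TMF P D0 v (sub (es σ) T) ∧ Wn P idx (i + 1) D0 v) := by
  cases T <;> exact ⟨fun h => h.1, fun h => ⟨h, fun h' => absurd hh h'⟩⟩

theorem J_sort {s : S} (h : TMF P D0 v (.sort s)) (hw : Wn P idx (i + 1) D0 v) :
    J P idx i D0 (.sort s) G σ e v :=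
  ⟨⟨h, hw⟩, fun _ x s' h' => by cases h'⟩

/-- the clause for types which are not products -/
theorem J_leaf {T : Term S} (hT : ∀ A B, T ≠ .pi A B) :
    J P idx i D0 T G σ e v ↔ JL P idx i D0 T G σ e v := by
  cases T with
  | pi A B => exact absurd rfl (hT A B)
  | _ => exact Iff.rfl

theorem cand_and {T : Term S} (p : Prop) :
    Cand P idx (i + 1) D0 T {v | (TMF P D0 v T ∧ Wn P idx (i + 1) D0 v) ∧
      (p → Bot P idx (i + 1) D0 T v)} := by
  by_cases hp : p
  · have e : {v | (TMF P D0 v T ∧ Wn P idx (i + 1) D0 v) ∧ (p → Bot P idx (i + 1) D0 T v)} =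
        {v | Bot P idx (i + 1) D0 T v} := by
      ext v
      exact ⟨fun h => h.2 hp, fun h => ⟨(cand_bot P idx (i + 1) D0 T).sub v h, fun _ => h⟩⟩
    rw [e]
    exact cand_bot P idx (i + 1) D0 T
  · have e : {v | (TMF P D0 v T ∧ Wn P idx (i + 1) D0 v) ∧ (p → Bot P idx (i + 1) D0 T v)} =
        Wt P idx (i + 1) D0 T := by
      ext v
      exact ⟨fun h => h.1, fun h => ⟨h, fun h' => absurd h' hp⟩⟩
    rw [e]
    exact cand_wt P idx (i + 1) D0 T

theorem cand_JL (T : Term S) (G : ℕ → Term S) (σ : ℕ → MT S) (e : ℕ → S → Bool) :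
    Cand P idx (i + 1) D0 (sub (es σ) T) {v | JL P idx i D0 T G σ e v} := by
  have h := cand_and (P := P) (idx := idx) (i := i) (D0 := D0) (T := sub (es σ) T)
    (¬ Ge P idx (i + 1) D0 (sub (es σ) T) ∧ ∃ x s, hd T = some x ∧ TyF P G T (.sort s) ∧
      e x s = false)
  have e : {v | (TMF P D0 v (sub (es σ) T) ∧ Wn P idx (i + 1) D0 v) ∧
      ((¬ Ge P idx (i + 1) D0 (sub (es σ) T) ∧ ∃ x s, hd T = some x ∧ TyF P G T (.sort s) ∧
        e x s = false) → Bot P idx (i + 1) D0 (sub (es σ) T) v)} =
      {v | JL P idx i D0 T G σ e v} := by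
    ext v
    constructor
    · rintro ⟨h1, h2⟩
      exact ⟨h1, fun hh x s a b c => h2 ⟨hh, x, s, a, b, c⟩⟩
    · rintro ⟨h1, h2⟩
      exact ⟨h1, fun ⟨hh, x, s, a, b, c⟩ => h2 hh x s a b c⟩
  rw [← e]
  exact h

/-- the realizers of a type form a candidate -/
theorem cand_J (T : Term S) : ∀ (G : ℕ → Term S) (σ : ℕ → MT S) (e : ℕ → S → Bool),
    Cand P idx (i + 1) D0 (sub (es σ) T) {v | J P idx i D0 T G σ e v} := by
  induction T with
  | var x => intro G σ e; exact cand_JL _ G σ e
  | sort x => intro G σ e; exact cand_JL _ G σ e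
  | app x y _ _ => intro G σ e; exact cand_JL _ G σ e
  | lam x y _ _ => intro G σ e; exact cand_JL _ G σ e
  | pi A B ihA ihB =>
      intro G σ e
      by_cases hh : Ge P idx (i + 1) D0 (sub (es σ) (.pi A B))
      · have e1 : {v | J P idx i D0 (.pi A B) G σ e v} =
            Wt P idx (i + 1) D0 (sub (es σ) (.pi A B)) := by
          ext v
          exact J_high hh
        rw [e1]
        exact cand_wt _ _ _ _ _
      · have e1 : {v | J P idx i D0 (.pi A B) G σ e v} =
            PiSet P idx (i + 1) D0 (.pi (sub (es σ) A) (sub (ups (es σ)) B))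
              {w | J P idx i D0 A G σ e w} (fun _ (_ : S → Bool) => True)
              (fun w η => {v | J P idx i D0 B (fcons A G) (mscons w σ) (bcons η e) v}) := by
          ext v
          constructor
          · rintro ⟨⟨h1, h2⟩, h3⟩
            exact ⟨h1, h2, fun w hw η _ => h3 hh w η hw⟩
          · rintro ⟨h1, h2, h3⟩
            exact ⟨⟨h1, h2⟩, fun _ w η hw => h3 w hw η trivial⟩
        rw [e1]
        refine cand_pi (A := sub (es σ) A) (B := sub (ups (es σ)) B) ?_ ?_
        · intro w hw
          exact (ihA G σ e).sub w hw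
        · intro w hw η _
          have := ihB (fcons A G) (mscons w σ) (bcons η e)
          have e2 : sub (es (mscons w σ)) B = inst (er w) (sub (ups (es σ)) B) := by
            rw [← sub_scons]
            congr 1
            exact er_mscons w σ
          rwa [e2] at this

/-! ### change of context -/

/-- two contexts with convertible declarations -/
structure CC (P : Spec S) (G G' : ℕ → Term S) : Prop where
  l : ∀ {K C : Term S}, TyF P G K C → TyF P G' K C
  r : ∀ {K C : Term S}, TyF P G' K C → TyF P G K C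
  eq : ∀ x, BetaEq (G x) (G' x)
  wl : WfF P G
  wr : WfF P G'

theorem CC.sub_cons {G G' : ℕ → Term S} (hl : ∀ {K C : Term S}, TyF P G K C → TyF P G' K C)
    (eq : ∀ x, BetaEq (G x) (G' x)) (wl : WfF P G) (wr : WfF P G') {A : Term S} {s : S}
    (hA : TyF P G A (.sort s)) {K C : Term S} (h : TyF P (fcons A G) K C) :
    TyF P (fcons A G') K C := by
  have hs : SubF P Term.var (fcons A G) (fcons A G') := by
    intro x
    rw [sub_id]
    cases x with
    | zero => exact tyf_var (wr.cons (hl hA)) 0
    | succ x =>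
        obtain ⟨s, hs⟩ := wl x
        refine .conv (tyf_wk (tyf_var wr x) _) (tyf_wk (hl hs) _) ?_
        exact BetaEq.symm (BetaEq.ren (eq x) _)
  have := tyf_sub h hs
  rwa [sub_id, sub_id] at this

theorem CC.cons {G G' : ℕ → Term S} (h : CC P G G') {A : Term S} {s : S}
    (hA : TyF P G A (.sort s)) : CC P (fcons A G) (fcons A G') where
  l hK := CC.sub_cons h.l h.eq h.wl h.wr hA hK
  r hK := CC.sub_cons h.r (fun x => (h.eq x).symm) h.wr h.wl (h.l hA) hK
  eq x := by
    cases x with
    | zero => exact .refl _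
    | succ x => exact BetaEq.ren (h.eq x) _
  wl := h.wl.cons hA
  wr := h.wr.cons (h.l hA)

theorem CC.head {G : ℕ → Term S} (w : WfF P G) {A A' : Term S} {s s' : S}
    (hA : TyF P G A (.sort s)) (hA' : TyF P G A' (.sort s')) (e : BetaEq A A') :
    CC P (fcons A G) (fcons A' G) where
  l hK := fctx_conv w hK hA hA' e
  r hK := fctx_conv w hK hA' hA e.symm
  eq x := by
    cases x with
    | zero => exact BetaEq.ren e _
    | succ x => exact .refl _
  wl := w.cons hA
  wr := w.cons hA'

theorem CC.symm {G G' : ℕ → Term S} (h : CC P G G') : CC P G' G :=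
  ⟨h.r, h.l, fun x => (h.eq x).symm, h.wr, h.wl⟩

theorem JL_ctx {T : Term S} {G G' : ℕ → Term S} (hc : CC P G G') {σ : ℕ → MT S}
    {e : ℕ → S → Bool} {v : MT S} (h : JL P idx i D0 T G σ e v) : JL P idx i D0 T G' σ e v :=
  ⟨h.1, fun hh x s a b c => h.2 hh x s a (hc.r b) c⟩

theorem J_ctx (T : Term S) : ∀ {G G' : ℕ → Term S}, CC P G G' → ∀ {σ : ℕ → MT S}
    {e : ℕ → S → Bool} {v : MT S}, (∃ C, TyF P G T C) →
    (J P idx i D0 T G σ e v ↔ J P idx i D0 T G' σ e v) := by
  induction T with
  | var x => intro G G' hc σ e v _; exact ⟨JL_ctx hc, JL_ctx hc.symm⟩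
  | sort x => intro G G' hc σ e v _; exact ⟨JL_ctx hc, JL_ctx hc.symm⟩
  | app x y _ _ => intro G G' hc σ e v _; exact ⟨JL_ctx hc, JL_ctx hc.symm⟩
  | lam x y _ _ => intro G G' hc σ e v _; exact ⟨JL_ctx hc, JL_ctx hc.symm⟩
  | pi A B ihA ihB =>
      intro G G' hc σ e v ⟨C, hC⟩
      obtain ⟨a, b, c, hA, hB, -, -⟩ := fgen_pi hC _ _ rfl
      refine and_congr_right fun _ => imp_congr_right fun _ => forall_congr' fun w =>
        forall_congr' fun η => ?_
      exact imp_congr (ihA hc ⟨_, hA⟩) (ihB (hc.cons hA) ⟨_, hB⟩)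

end Crest.Agent.R298.G2W833
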