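import Crest.Agent.R298.G2W1_833

/-!
R298 (S0452), helper833: insurance of block (a) in one world, part 2: renaming of the source
context, admissible colours (`Gd`) for unary and even levels, the instantiation lemma.
-/

set_option autoImplicit false

namespace Crest.Agent.R298.G2W833

open Crest.LogicCS.PTS Relation
open Crest.Agent.R298.Sub452 Crest.Agent.R298.Par452 Crest.Agent.R298.Ty452
open Crest.Agent.R298.Mem360 Crest.Agent.R298.TyF452 Crest.Agent.R298.TyMF452
open Crest.Agent.R298.Main865 Crest.Agent.R298.StrF657 Crest.Agent.R298.Scc795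
open Crest.Agent.R298.Uniq452 (FS funiq Neu fneu_uniq fneu_sort_uniq)
open Crest.Agent.R298.Cand704
open Crest.Agent.R298.AAI833 (Ge es MFv tmf_to Mono)
open Crest.Agent.R298.Str657 (normal_app normal_lam normal_pi)
open Crest.Agent.R298.Mem360.MT (er IsL dist mren msub mups mwk mscons minst
  er_mren er_msub er_mups er_mscons msub_mren)

universe u
variable {S : Type u} {P : Spec S} {idx : S → ℕ} {i : ℕ} {D0 : ℕ → Term S}

/-! ### renaming of the source context -/

theorem JL_ren {T : Term S} {G G' : ℕ → Term S} {r : ℕ → ℕ} (hr : RenF r G G') {σ : ℕ → MT S}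
    {e : ℕ → S → Bool} {v : MT S} {s : S} (hT : TyF P G T (.sort s)) :
    JL P idx i D0 T G (fun x => σ (r x)) (fun x => e (r x)) v ↔
      JL P idx i D0 (ren r T) G' σ e v := by
  have e1 : sub (es σ) (ren r T) = sub (es (fun x => σ (r x))) T := sub_ren _ _ _
  unfold JL
  rw [e1]
  refine and_congr_right fun _ => imp_congr_right fun _ => ?_
  constructor
  · intro h x s' hx hs' he
    cases hd' : hd T with
    | none => rw [hd_ren_none hd'] at hx; cases hx
    | some y =>
        have h1 := hd_ren (r := r) hd'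
        rw [hx] at h1
        injection h1 with h1
        subst h1
        have h2 : s' = s := fneu_sort_uniq (hd_neu (hd_ren (r := r) hd')) hs' (tyf_ren hT hr)
        subst h2
        exact h y s' hd' hT he
  · intro h x s' hx hs' he
    exact h (r x) s' (hd_ren hx) (tyf_ren hs' hr) he

theorem J_ren (T : Term S) : ∀ {G G' : ℕ → Term S} {r : ℕ → ℕ}, RenF r G G' → ∀ {σ : ℕ → MT S}
    {e : ℕ → S → Bool} {v : MT S}, (∃ s, TyF P G T (.sort s)) →
    (J P idx i D0 T G (fun x => σ (r x)) (fun x => e (r x)) v ↔
      J P idx i D0 (ren r T) G' σ e v) := by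
  induction T with
  | var x => intro G G' r hr σ e v ⟨s, hs⟩; exact JL_ren hr hs
  | sort x => intro G G' r hr σ e v ⟨s, hs⟩; exact JL_ren hr hs
  | app x y _ _ => intro G G' r hr σ e v ⟨s, hs⟩; exact JL_ren hr hs
  | lam x y _ _ => intro G G' r hr σ e v ⟨s, hs⟩; exact JL_ren hr hs
  | pi A B ihA ihB =>
      intro G G' r hr σ e v ⟨s, hs⟩
      obtain ⟨a, b, c, hA, hB, -, -⟩ := fgen_pi hs _ _ rfl
      have e1 : sub (es σ) (ren r (.pi A B)) = sub (es (fun x => σ (r x))) (.pi A B) :=
        sub_ren _ _ _
      show (_ ∧ _) ↔ (_ ∧ _)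
      rw [← ren_pi, e1]
      refine and_congr_right fun _ => imp_congr_right fun _ => forall_congr' fun w =>
        forall_congr' fun η => ?_
      have f1 : (fun x => mscons w σ (up r x)) = mscons w (fun x => σ (r x)) := by
        funext x; cases x <;> rfl
      have f2 : (fun x => bcons η e (up r x)) = bcons η (fun x => e (r x)) := by
        funext x; cases x <;> rfl
      have h2 := ihB (hr.up A) (σ := mscons w σ) (e := bcons η e) (v := .app v w) ⟨_, hB⟩
      rw [f1, f2] at h2
      exact imp_congr (ihA hr ⟨_, hA⟩) h2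

/-! ### admissible colours -/

/-- `η` is an admissible colour for the instantiated variable in the type `T`, polarity `p` -/
def Gd (P : Spec S) (idx : S → ℕ) (i : ℕ) (η : S → Bool) :
    Bool → Term S → (ℕ → Term S) → Prop
  | p, .pi A B, G => (Ge P idx (i + 1) G A ∨ Gd P idx i η (!p) A G) ∧
      (Ge P idx (i + 1) (fcons A G) B ∨ Gd P idx i η p B (fcons A G))
  | p, .var x, G => ∀ s, TyF P G (.var x) (.sort s) → η s = !p
  | p, .app M N, G => ∀ s, TyF P G (.app M N) (.sort s) → η s = !p
  | _, .sort _, _ => True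
  | _, .lam _ _, _ => True

theorem gd_even {χ : S → Bool} (hrk : Mono P idx)
    (hχ : ∀ a b c, P.rule a b c → idx c = i →
      (idx a = i → χ a = !(χ c)) ∧ (idx b = i → χ b = χ c)) (T : Term S) :
    ∀ (p : Bool) (G : ℕ → Term S) (c : S), Normal T → TyF P G T (.sort c) →
      idx c = i → Gd P idx i (fun s => xor (χ s == χ c) p) p T G := by
  induction T with
  | var x =>
      intro p G c _ h hc s hs
      have := fneu_sort_uniq (.var x) hs h
      subst this
      simp
  | app M N _ _ =>
      intro p G c hn h hc s hs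
      obtain ⟨x, hx⟩ := hd_app hn h
      have := fneu_sort_uniq (hd_neu hx) hs h
      subst this
      simp
  | sort s => intro _ _ _ _ _ _; trivial
  | lam A M _ _ => intro _ _ _ _ _ _; trivial
  | pi A B ihA ihB =>
      intro p G c hn h hc
      obtain ⟨a, b, c', hA, hB, r, e⟩ := fgen_pi h _ _ rfl
      have := sort_inj e
      subst this
      obtain ⟨h1, h2⟩ := hrk _ _ _ r
      obtain ⟨h3, h4⟩ := hχ _ _ _ r hc
      constructor
      · by_cases ha : idx a = i
        · right
          have k := ihA (!p) G a (normal_pi hn).1 hA ha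
          have e1 : (fun s => xor (χ s == χ a) (!p)) = fun s => xor (χ s == χ c) p := by
            funext s
            rw [h3 ha]
            cases χ s <;> cases χ c <;> cases p <;> rfl
          rwa [e1] at k
        · left
          exact Ge.of hA (by omega)
      · by_cases hb : idx b = i
        · right
          have k := ihB p (fcons A G) b (normal_pi hn).2 hB hb
          rwa [h4 hb] at k
        · left
          exact Ge.of hB (by omega)

theorem gd_unary (hrk : Mono P idx)
    (hu : ∀ a b c, P.rule a b c → idx c = i → ¬ (idx a = i ∧ idx b = i)) (T : Term S) :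
    ∀ (p : Bool) (G : ℕ → Term S) (c : S), TyF P G T (.sort c) →
      idx c = i → ∃ β : Bool, Gd P idx i (fun _ => β) p T G := by
  induction T with
  | var x => intro p G c h hc; exact ⟨!p, fun s _ => rfl⟩
  | app M N _ _ => intro p G c h hc; exact ⟨!p, fun s _ => rfl⟩
  | sort s => intro p G c h hc; exact ⟨p, trivial⟩
  | lam A M _ _ => intro p G c h hc; exact ⟨p, trivial⟩
  | pi A B ihA ihB =>
      intro p G c h hc
      obtain ⟨a, b, c', hA, hB, r, e⟩ := fgen_pi h _ _ rfl
      have := sort_inj e
      subst this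
      obtain ⟨h1, h2⟩ := hrk _ _ _ r
      have h3 := hu _ _ _ r hc
      by_cases ha : idx a = i
      · obtain ⟨β, hβ⟩ := ihA (!p) G a hA ha
        have hb : idx b ≠ i := fun hb => h3 ⟨ha, hb⟩
        exact ⟨β, .inr hβ, .inl (Ge.of hB (by omega))⟩
      · by_cases hb : idx b = i
        · obtain ⟨β, hβ⟩ := ihB p (fcons A G) b hB hb
          exact ⟨β, .inl (Ge.of hA (by omega)), .inr hβ⟩
        · exact ⟨p, .inl (Ge.of hA (by omega)), .inl (Ge.of hB (by omega))⟩

/-! ### the instantiation lemma -/

theorem bot_conv {T T' : Term S} (hc : ∀ v, TMF P D0 v T ↔ TMF P D0 v T') {v : MT S}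
    (h : Bot P idx (i + 1) D0 T v) : Bot P idx (i + 1) D0 T' v :=
  h.le (((cand_bot P idx (i + 1) D0 T').conv (fun v => (hc v).symm)))

section inst

variable {G G' : ℕ → Term S} {τ σ' : ℕ → MT S} {e e' : ℕ → S → Bool} {η : S → Bool}

theorem es_comp (τ σ' : ℕ → MT S) (T : Term S) :
    sub (es (fun x => msub σ' (τ x))) T = sub (es σ') (sub (es τ) T) := by
  rw [sub_sub]
  congr 1
  funext x
  exact er_msub _ _

/-- the value of the type is the same (up to conversion) on both sides -/
theorem val_eq {T T' : Term S} (r : Red (sub (es τ) T) T') :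
    BetaEq (sub (es (fun x => msub σ' (τ x))) T) (sub (es σ') T') := by
  rw [es_comp]
  exact BetaEq.sub (Red.eq r) _

theorem val_ty (w0 : WfF P D0) (g' : WfF P G') (hτ : MSubF P τ G G') (hσ : MSubF P σ' G' D0)
    {T T' : Term S} {c : S} (hT : TyF P G T (.sort c)) (r : Red (sub (es τ) T) T') (v : MT S) :
    TMF P D0 v (sub (es (fun x => msub σ' (τ x))) T) ↔ TMF P D0 v (sub (es σ') T') := by
  have h1 : TyF P G' (sub (es τ) T) (.sort c) := tyf_sub hT hτ.subF
  have h2 : TyF P G' T' (.sort c) := FSR g' h1 r
  refine tmf_conv_iff w0 (s := c) (s' := c) ?_ (tyf_sub h2 hσ.subF) (val_eq r) v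
  rw [es_comp]
  exact tyf_sub h1 hσ.subF

/-- types of high class -/
theorem inst_high (w0 : WfF P D0) (g' : WfF P G') (hτ : MSubF P τ G G')
    (hσ : MSubF P σ' G' D0) {T T' : Term S} {c : S} (hT : TyF P G T (.sort c))
    (r : Red (sub (es τ) T) T') (hh : Ge P idx (i + 1) G T) {v : MT S} :
    J P idx i D0 T G (fun x => msub σ' (τ x)) e v ↔ J P idx i D0 T' G' σ' e' v := by
  have h1 : Ge P idx (i + 1) D0 (sub (es (fun x => msub σ' (τ x))) T) := by
    rw [es_comp]
    exact (hh.sub hτ.subF).sub hσ.subF
  have h2 : Ge P idx (i + 1) D0 (sub (es σ') T') := h1.conv (val_eq r).symm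
  rw [J_high h1, J_high h2]
  exact and_congr_left fun _ => val_ty w0 g' hτ hσ hT r v

theorem hd_not_pi {T : Term S} {x : ℕ} (h : hd T = some x) (A B : Term S) : T ≠ .pi A B := by
  rintro rfl; cases h

/-- the leaf case -/
theorem inst_leaf (w0 : WfF P D0) (g' : WfF P G') (hτ : MSubF P τ G G')
    (hσ : MSubF P σ' G' D0)
    (henv : ∀ x, (∃ y, τ x = .var y ∧ e x = e' y) ∨ e x = η) {T T' : Term S} {c : S}
    {p : Bool} (hT : TyF P G T (.sort c)) (r : Red (sub (es τ) T) T') {x : ℕ}
    (hx : hd T = some x) (hη : η c = !p) {v : MT S} :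
    (p = true → J P idx i D0 T G (fun x => msub σ' (τ x)) e v → J P idx i D0 T' G' σ' e' v) ∧
    (p = false → J P idx i D0 T' G' σ' e' v →
      J P idx i D0 T G (fun x => msub σ' (τ x)) e v) := by
  have h1 : TyF P G' (sub (es τ) T) (.sort c) := tyf_sub hT hτ.subF
  have h2 : TyF P G' T' (.sort c) := FSR g' h1 r
  have ty := val_ty w0 g' hτ hσ hT r
  have ve : BetaEq (sub (es (fun x => msub σ' (τ x))) T) (sub (es σ') T') := val_eq r
  rcases henv x with ⟨y, hy, hey⟩ | hex
  · have hdT' : hd T' = some y := hd_red r (hd_sub (σ := es τ) (by show er (τ x) = _; rw [hy]; rfl) hx)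
    have key : JL P idx i D0 T G (fun x => msub σ' (τ x)) e v ↔
        JL P idx i D0 T' G' σ' e' v := by
      constructor
      · rintro ⟨⟨a1, a2⟩, a3⟩
        refine ⟨⟨(ty v).1 a1, a2⟩, fun hh z s hz hs he => ?_⟩
        rw [hdT'] at hz
        injection hz with hz
        subst hz
        have := fneu_sort_uniq (hd_neu hdT') hs h2
        subst this
        refine bot_conv ty (a3 (fun h => hh (h.conv ve.symm)) x s hx hT ?_)
        rw [hey]; exact he
      · rintro ⟨⟨a1, a2⟩, a3⟩
        refine ⟨⟨(ty v).2 a1, a2⟩, fun hh z s hz hs he => ?_⟩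
        rw [hx] at hz
        injection hz with hz
        subst hz
        have := fneu_sort_uniq (hd_neu hx) hs hT
        subst this
        refine bot_conv (fun v => (ty v).symm) (a3 (fun h => hh (h.conv ve)) y s hdT' h2 ?_)
        rw [← hey]; exact he
    rw [J_leaf (hd_not_pi hx), J_leaf (hd_not_pi hdT')]
    exact ⟨fun _ => key.1, fun _ => key.2⟩
  · constructor
    · rintro rfl hv
      rw [J_leaf (hd_not_pi hx)] at hv
      obtain ⟨⟨a1, a2⟩, a3⟩ := hv
      by_cases hh : Ge P idx (i + 1) D0 (sub (es σ') T')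
      · exact (J_high hh).2 ⟨(ty v).1 a1, a2⟩
      · have hb := a3 (fun h => hh (h.conv ve.symm)) x c hx hT (by rw [hex, hη]; rfl)
        exact (bot_conv ty hb).le (cand_J T' G' σ' e')
    · rintro rfl hv
      rw [J_leaf (hd_not_pi hx)]
      refine ⟨⟨(ty v).2 (J_ty hv), J_wn hv⟩, fun _ z s hz hs he => ?_⟩
      rw [hx] at hz
      injection hz with hz
      subst hz
      have := fneu_sort_uniq (hd_neu hx) hs hT
      subst this
      rw [hex, hη] at he
      cases he

theorem inst_lem (w0 : WfF P D0) (T : Term S) : ∀ {G G' : ℕ → Term S} {τ σ' : ℕ → MT S}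
    {e e' : ℕ → S → Bool} {T' : Term S} {c : S} {p : Bool} {v : MT S}, WfF P G → WfF P G' →
    MSubF P τ G G' → MSubF P σ' G' D0 →
    (∀ x, (∃ y, τ x = .var y ∧ e x = e' y) ∨ e x = η) → Normal T →
    TyF P G T (.sort c) → Red (sub (es τ) T) T' →
    (Ge P idx (i + 1) G T ∨ Gd P idx i η p T G) →
    (p = true → J P idx i D0 T G (fun x => msub σ' (τ x)) e v → J P idx i D0 T' G' σ' e' v) ∧
    (p = false → J P idx i D0 T' G' σ' e' v →
      J P idx i D0 T G (fun x => msub σ' (τ x)) e v) := by
  induction T with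
  | var x =>
      intro G G' τ σ' e e' T' c p v g g' hτ hσ henv _ hT r hg
      rcases hg with hg | hg
      · have := inst_high (e := e) (e' := e') w0 g' hτ hσ hT r hg (v := v)
        exact ⟨fun _ => this.1, fun _ => this.2⟩
      · exact inst_leaf w0 g' hτ hσ henv hT r rfl (hg c hT)
  | app M N _ _ =>
      intro G G' τ σ' e e' T' c p v g g' hτ hσ henv hn hT r hg
      rcases hg with hg | hg
      · have := inst_high (e := e) (e' := e') w0 g' hτ hσ hT r hg (v := v)
        exact ⟨fun _ => this.1, fun _ => this.2⟩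
      · obtain ⟨x, hx⟩ := hd_app hn hT
        exact inst_leaf w0 g' hτ hσ henv hT r hx (hg c hT)
  | sort s =>
      intro G G' τ σ' e e' T' c p v g g' hτ hσ henv _ hT r _
      have := red_sort r
      subst this
      exact ⟨fun _ h => J_sort h.1.1 h.1.2, fun _ h => J_sort h.1.1 h.1.2⟩
  | lam A M _ _ =>
      intro G G' τ σ' e e' T' c p v g g' hτ hσ henv _ hT r _
      obtain ⟨B, s, _, _, eq⟩ := fgen_lam hT _ _ rfl
      exact absurd eq not_sort_pi
  | pi A B ihA ihB =>
      intro G G' τ σ' e e' T' c p v g g' hτ hσ henv hn hT r hg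
      rcases hg with hg | ⟨hgA, hgB⟩
      · have := inst_high (e := e) (e' := e') w0 g' hτ hσ hT r hg (v := v)
        exact ⟨fun _ => this.1, fun _ => this.2⟩
      have ty := val_ty w0 g' hτ hσ hT r
      have ve : BetaEq (sub (es (fun x => msub σ' (τ x))) (.pi A B)) (sub (es σ') T') :=
        val_eq r
      obtain ⟨A', B', rfl, rA, rB⟩ := red_pi (show Red (.pi (sub (es τ) A) (sub (ups (es τ)) B)) T' from r)
      obtain ⟨a, b, c', hA, hB, -, -⟩ := fgen_pi hT _ _ rfl
      have hA1 : TyF P G' (sub (es τ) A) (.sort a) := tyf_sub hA hτ.subF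
      have hA' : TyF P G' A' (.sort a) := FSR g' hA1 rA
      have hτ' : MSubF P (mups τ) (fcons A G) (fcons (sub (es τ) A) G') := hτ.ups hA1
      have hB1 : TyF P (fcons (sub (es τ) A) G') (sub (ups (es τ)) B) (.sort b) := by
        have := tyf_sub hB hτ'.subF
        rw [er_mups] at this
        exact this
      have hB' : TyF P (fcons (sub (es τ) A) G') B' (.sort b) := FSR (g'.cons hA1) hB1 rB
      have cc : CC P (fcons (sub (es τ) A) G') (fcons A' G') := CC.head g' hA1 hA' (Red.eq rA)
      have tyA := val_ty w0 g' hτ hσ hA rA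
      have iA := fun {w : MT S} => ihA (e := e) (e' := e') (v := w) g g' hτ hσ henv
        (normal_pi hn).1 hA rA hgA
      -- the body
      have iB : ∀ {w v : MT S} {ζ : S → Bool}, TMF P D0 w (sub (es σ') A') →
          (p = true → J P idx i D0 B (fcons A G) (mscons w (fun x => msub σ' (τ x))) (bcons ζ e) v →
            J P idx i D0 B' (fcons A' G') (mscons w σ') (bcons ζ e') v) ∧
          (p = false → J P idx i D0 B' (fcons A' G') (mscons w σ') (bcons ζ e') v →
            J P idx i D0 B (fcons A G) (mscons w (fun x => msub σ' (τ x))) (bcons ζ e) v) := by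
        intro w v ζ hw
        have hσ' : MSubF P (mscons w σ') (fcons (sub (es τ) A) G') D0 := by
          refine hσ.scons ?_
          have := (tyA w).2 hw
          rwa [es_comp] at this
        have f1 : (fun x => msub (mscons w σ') (mups τ x)) =
            mscons w (fun x => msub σ' (τ x)) := by
          funext x
          cases x with
          | zero => rfl
          | succ x =>
              show msub (mscons w σ') (mwk (τ x)) = msub σ' (τ x)
              rw [mwk, msub_mren]
              rfl
        have henv' : ∀ x, (∃ y, mups τ x = .var y ∧ bcons ζ e x = bcons ζ e' y) ∨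
            bcons ζ e x = η := by
          intro x
          cases x with
          | zero => exact .inl ⟨0, rfl, rfl⟩
          | succ x =>
              rcases henv x with ⟨y, hy, hey⟩ | hex
              · left
                refine ⟨y + 1, ?_, hey⟩
                show mwk (τ x) = _
                rw [hy]; rfl
              · exact .inr hex
        have k := ihB (e := bcons ζ e) (e' := bcons ζ e') (v := v) (g.cons hA) (g'.cons hA1)
          hτ' hσ' henv' (normal_pi hn).2 hB (T' := B') (by
            have e5 : es (mups τ) = ups (es τ) := er_mups τ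
            rw [e5]; exact rB) hgB
        rw [f1] at k
        have cx := J_ctx (idx := idx) (i := i) (D0 := D0) B' cc (σ := mscons w σ')
          (e := bcons ζ e') (v := v) ⟨_, hB'⟩
        exact ⟨fun hp h => cx.1 (k.1 hp h), fun hp h => k.2 hp (cx.2 h)⟩
      constructor
      · rintro rfl ⟨⟨a1, a2⟩, a3⟩
        refine ⟨⟨(ty v).1 a1, a2⟩, fun hh w ζ hw => ?_⟩
        have hw' := iA.2 rfl hw
        exact (iB (J_ty hw)).1 rfl (a3 (fun h => hh (h.conv ve.symm)) w ζ hw')
      · rintro rfl ⟨⟨a1, a2⟩, a3⟩
        refine ⟨⟨(ty v).2 a1, a2⟩, fun hh w ζ hw => ?_⟩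
        have hw' := iA.1 rfl hw
        exact (iB (J_ty hw')).2 rfl (a3 (fun h => hh (h.conv ve)) w ζ hw')

end inst

end Crest.Agent.R298.G2W833
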