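import Crest.Agent.R298.G2W2_833
import Crest.Agent.R298.AAI4_833
import Crest.Agent.R298.MainW_865

/-!
R298 (S0452), helper833: insurance of block (a) in one world, part 3: the unipolar stage model
in a world and `BlockAW`.
-/

set_option autoImplicit false

namespace Crest.Agent.R298.G2W833

open Crest.LogicCS.PTS Relation
open Crest.Agent.R298.Sub452 Crest.Agent.R298.Par452 Crest.Agent.R298.Ty452
open Crest.Agent.R298.Mem360 Crest.Agent.R298.TyF452 Crest.Agent.R298.TyMF452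
open Crest.Agent.R298.Main865 Crest.Agent.R298.StrF657 Crest.Agent.R298.Scc795
open Crest.Agent.R298.World657
open Crest.Agent.R298.Uniq452 (FS funiq Neu fneu_uniq fneu_sort_uniq)
open Crest.Agent.R298.Cand704
open Crest.Agent.R298.AAI833 (Ge es MFv tmf_to Mono WStage exists_mfv sigF_of_ren
  WNiW wniW_of_stage tyOk_of)
open Crest.Agent.R298.Str657 (normal_app normal_lam normal_pi)
open Crest.Agent.R298.Mem360.MT (er IsL dist mren msub mups mwk mscons minst
  er_mren er_msub er_mups er_mscons msub_mren msub_id msub_mscons)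

universe u
variable {S : Type u} {P : Spec S} {idx : S → ℕ} {i : ℕ} {D0 : ℕ → Term S}

theorem ne_nef {v : MT S} (h : AAI833.Ne P idx (i + 1) D0 v) : NeF P idx (i + 1) D0 v := by
  induction h with
  | var n => exact .var n
  | app _ hQ ih => exact .app ih hQ
  | mem _ hQ ih => exact .mem ih hQ

/-- environments -/
abbrev EnvA (S : Type u) : Type u := (ℕ → MT S) × (ℕ → S → Bool)

/-- realizers of a type -/
def RR (P : Spec S) (idx : S → ℕ) (i : ℕ) (D0 G : ℕ → Term S) (ρ : EnvA S) (T : Term S)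
    (v : MT S) : Prop :=
  ∃ N, LogicCS.PTS.Normal N ∧ Red T N ∧ J P idx i D0 N G ρ.1 ρ.2 v

/-- environments for a context -/
def OkE (P : Spec S) (idx : S → ℕ) (i : ℕ) (D0 G : ℕ → Term S) (ρ : EnvA S) : Prop :=
  MSubF P ρ.1 G D0 ∧ (∀ x, Ge P idx i G (G x) → RR P idx i D0 G ρ (G x) (ρ.1 x)) ∧
    (∀ x, ¬ Ge P idx i G (G x) → ∃ y, ρ.1 x = .var y)

/-- extensions -/
def ExtE (P : Spec S) (idx : S → ℕ) (i : ℕ) (D0 G : ℕ → Term S) (A : Term S)
    (ρ ρ' : EnvA S) : Prop :=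
  Ge P idx i G A ∧ ∃ w η, RR P idx i D0 G ρ A w ∧ ρ' = (mscons w ρ.1, bcons η ρ.2)

variable {G : ℕ → Term S} {ρ : EnvA S}

theorem exists_nf (hP : ∀ (Γ : List (Term S)) (M : Term S), Legal P Γ M → WN M)
    (g : Good P G) {T : Term S} (h : TyOkF P G T) : ∃ N, LogicCS.PTS.Normal N ∧ Red T N := by
  rcases h with ⟨s, rfl⟩ | ⟨s, h⟩
  · refine ⟨_, ?_, .refl⟩
    intro N b; cases b
  · obtain ⟨N, r, n⟩ := (g.wn hP h).1
    exact ⟨N, n, r⟩

theorem ty_nf (w0 : WfF P D0) (g : WfF P G) {σ : ℕ → MT S} (hσ : MSubF P σ G D0) {T N : Term S}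
    (h : TyOkF P G T) (r : Red T N) (v : MT S) :
    TMF P D0 v (sub (es σ) T) ↔ TMF P D0 v (sub (es σ) N) := by
  rcases h with ⟨s, rfl⟩ | ⟨s, h⟩
  · rw [red_sort r]
  · exact tmf_conv_iff w0 (tyf_sub h hσ.subF) (tyf_sub (FSR g h r) hσ.subF)
      (BetaEq.sub (Red.eq r) _) v

theorem RR_ty (w0 : WfF P D0) (g : WfF P G) (hσ : MSubF P ρ.1 G D0) {T : Term S}
    (h : TyOkF P G T) {v : MT S} (hv : RR P idx i D0 G ρ T v) :
    TMF P D0 v (sub (es ρ.1) T) := by
  obtain ⟨N, _, r, hj⟩ := hv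
  exact (ty_nf w0 g hσ h r v).2 (J_ty hj)

theorem RR_ne (hP : ∀ (Γ : List (Term S)) (M : Term S), Legal P Γ M → WN M) (w0 : WfF P D0)
    (g : Good P G) (hσ : MSubF P ρ.1 G D0) {T : Term S} (h : TyOkF P G T) {v : MT S}
    (hv : NeF P idx (i + 1) D0 v) (ht : TMF P D0 v (sub (es ρ.1) T)) :
    RR P idx i D0 G ρ T v := by
  obtain ⟨N, hn, r⟩ := exists_nf hP g h
  exact ⟨N, hn, r, (cand_J N G ρ.1 ρ.2).ne v hv ((ty_nf w0 g.wf hσ h r v).1 ht)⟩

/-- weakening of realizers -/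
theorem RR_wk (g : WfF P G) {T : Term S} {s : S} (h : TyF P G T (.sort s)) (A : Term S)
    (w : MT S) (η : S → Bool) {v : MT S} (hv : RR P idx i D0 G ρ T v) :
    RR P idx i D0 (fcons A G) (mscons w ρ.1, bcons η ρ.2) (wk T) v := by
  obtain ⟨N, hn, r, hj⟩ := hv
  refine ⟨wk N, TyF452.normal_ren hn _, Red.ren r _, ?_⟩
  exact (J_ren (idx := idx) (i := i) (D0 := D0) N (RenF.wk G A) (σ := mscons w ρ.1)
    (e := bcons η ρ.2) (v := v) ⟨s, FSR g h r⟩).1 hj

/-- reflection of the class through weakening -/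
theorem ge_of_wk (hP : ∀ (Γ : List (Term S)) (M : Term S), Legal P Γ M → WN M) {k : ℕ}
    (g : Good P G) {A : Term S} {s : S} (hA : TyF P G A (.sort s)) (x : ℕ)
    (h : Ge P idx k (fcons A G) (wk (G x))) : Ge P idx k G (G x) := by
  obtain ⟨s', hs, hk⟩ := h
  refine ⟨s', ?_, hk⟩
  refine sigF_of_ren hP (ρ := Nat.succ) (X := Set.univ) (K := .var x) ⟨?_, ?_, ?_⟩ g
    (g.wf.cons hA) (tyf_var g.wf x) (fv_univ _) hs
  · intro i _ j _ e
    exact Nat.succ_injective e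
  · intro i _; exact fv_univ _
  · intro i _; rfl

theorem ok_cons (hP : ∀ (Γ : List (Term S)) (M : Term S), Legal P Γ M → WN M) (w0 : WfF P D0)
    (g : Good P G) (ho : OkE P idx i D0 G ρ) {A : Term S} {s : S} (hA : TyF P G A (.sort s))
    {w : MT S} (η : S → Bool) (hw : RR P idx i D0 G ρ A w)
    (hc : Ge P idx i G A ∨ ∃ y, w = .var y) :
    OkE P idx i D0 (fcons A G) (mscons w ρ.1, bcons η ρ.2) := by
  refine ⟨ho.1.scons (RR_ty w0 g.wf ho.1 (tyOk_of hA) hw), ?_, ?_⟩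
  · intro x hx
    cases x with
    | zero => exact RR_wk g.wf hA A w η hw
    | succ x =>
        obtain ⟨s', hs'⟩ := g.wf x
        exact RR_wk g.wf hs' A w η (ho.2.1 x (ge_of_wk hP g hA x hx))
  · intro x hx
    cases x with
    | zero =>
        rcases hc with hc | hc
        · exact absurd (hc.ren (RenF.wk G A)) hx
        · exact hc
    | succ x => exact ho.2.2 x (fun h => hx (h.ren (RenF.wk G A)))

/-- existence of admissible colours -/
def Col (P : Spec S) (idx : S → ℕ) (i : ℕ) : Prop :=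
  ∀ (T : Term S) (G : ℕ → Term S) (c : S), LogicCS.PTS.Normal T → TyF P G T (.sort c) →
    idx c = i → ∃ η, Gd P idx i η true T G

theorem red_nf_pi {A B N : Term S} (hn : LogicCS.PTS.Normal N) (r : Red (.pi A B) N) :
    ∃ A' B', N = .pi A' B' ∧ Red A A' ∧ Red B B' ∧ LogicCS.PTS.Normal A' ∧
      LogicCS.PTS.Normal B' := by
  obtain ⟨A', B', rfl, rA, rB⟩ := red_pi r
  exact ⟨A', B', rfl, rA, rB, (normal_pi hn).1, (normal_pi hn).2⟩

/-- **the unipolar stage model** -/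
def stageA (hP : ∀ (Γ : List (Term S)) (M : Term S), Legal P Γ M → WN M) (wD : World P D0)
    (hrk : Mono P idx) (hcol : Col P idx i) : WStage.{u, u} P idx i D0 where
  Env := EnvA S
  sb := Prod.fst
  Ok := OkE P idx i D0
  Ext := ExtE P idx i D0
  R := RR P idx i D0
  msb _ h := h.1
  ext_ok := by
    rintro G A s ρ ρ' g ho hA ⟨hg, w, η, hw, rfl⟩
    exact ok_cons hP wD.good.wf g ho hA η hw (.inl hg)
  ext_sb := by
    rintro G A s ρ ρ' g ho hA ⟨hg, w, η, hw, rfl⟩ x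
    rfl
  R_W := by
    rintro G ρ T v g ho hT hg ⟨N, hn, r, hj⟩
    exact J_wn hj
  R_ne := by
    intro G ρ T v g ho hT hg ht hv
    exact RR_ne hP wD.good.wf g ho.1 hT (ne_nef hv) ht
  R_beta := by
    rintro G ρ T F Q v g ho hT hg ht hd ⟨N, hn, r, hj⟩
    exact ⟨N, hn, r, (cand_J N G ρ.1 ρ.2).exp [] F Q v hd hj
      ((ty_nf wD.good.wf g.wf ho.1 hT r _).1 ht)⟩
  R_mem := by
    rintro G ρ T v n B g ho hT hg ht hw ⟨N, hn, r, hj⟩
    exact ⟨N, hn, r, (cand_J N G ρ.1 ρ.2).ins [] v n hj hw (.mem (J_ty hj) ht)⟩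
  R_conv := by
    rintro G ρ T T' v g ho hT hT' hg e ⟨N, hn, r, hj⟩
    exact ⟨N, hn, red_of_eq_normal (e.symm.trans _ _ _ (Red.eq r)) hn, hj⟩
  R_high := by
    intro G ρ T v g ho hT hg hh ht hw
    obtain ⟨N, hn, r⟩ := exists_nf hP g hT
    have hh' : Ge P idx (i + 1) D0 (sub (es ρ.1) N) := hh.conv (BetaEq.sub (Red.eq r).symm _)
    exact ⟨N, hn, r, (J_high hh').2 ⟨(ty_nf wD.good.wf g.wf ho.1 hT r _).1 ht, hw⟩⟩
  R_sort := by
    intro G ρ s v g ho hg ht hw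
    exact ⟨.sort s, (by intro N b; cases b), .refl, J_sort ht hw⟩
  R_pi := by
    intro G ρ A B s v g ho hp hg hh ht hw H
    obtain ⟨N, hn, r⟩ := exists_nf hP g (tyOk_of hp)
    obtain ⟨A', B', rfl, rA, rB, nA, nB⟩ := red_nf_pi hn r
    obtain ⟨a, b, c, hA, hB, -, -⟩ := fgen_pi hp _ _ rfl
    have gA := (Ge.pi_inv hrk g.wf hA hg).1
    refine ⟨_, hn, r, ⟨(ty_nf wD.good.wf g.wf ho.1 (tyOk_of hp) r _).1 ht, hw⟩, ?_⟩
    intro _ w η hj
    obtain ⟨N', hn', r', hj'⟩ := H (mscons w ρ.1, bcons η ρ.2) ⟨gA, w, η, ⟨A', nA, rA, hj⟩, rfl⟩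
    have e : N' = B' := normal_unique ((Red.eq r').symm.trans _ _ _ (Red.eq rB)) hn' nB
    subst e
    have cc : CC P (fcons A G) (fcons A' G) := CC.head g.wf hA (FSR g.wf hA rA) (Red.eq rA)
    exact (J_ctx N' cc ⟨_, FSR (g.wf.cons hA) hB rB⟩).1 hj'
  R_app := by
    rintro G ρ A B s v ρ' g ho hp hg hh ⟨N, hn, r, hj⟩ ⟨gA, w, η, ⟨NA, nA, rA, hw⟩, rfl⟩
    obtain ⟨A', B', rfl, rA', rB, nA', nB⟩ := red_nf_pi hn r
    obtain ⟨a, b, c, hA, hB, -, -⟩ := fgen_pi hp _ _ rfl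
    have e : NA = A' := normal_unique ((Red.eq rA).symm.trans _ _ _ (Red.eq rA')) nA nA'
    subst e
    have cc : CC P (fcons A G) (fcons NA G) := CC.head g.wf hA (FSR g.wf hA rA) (Red.eq rA)
    have hh' : ¬ Ge P idx (i + 1) D0 (sub (es ρ.1) (.pi NA B')) :=
      fun h => hh (h.conv (BetaEq.sub (Red.eq r) _))
    exact ⟨B', nB, rB, (J_ctx B' cc ⟨_, FSR (g.wf.cons hA) hB rB⟩).2 (hj.2 hh' w η hw)⟩
  R_inst := by
    intro G ρ A B s N g ho hp hg hh hN hR
    obtain ⟨a, b, c, hA, hB, -, -⟩ := fgen_pi hp _ _ rfl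
    obtain ⟨gA, gB⟩ := Ge.pi_inv hrk g.wf hA hg
    have g' := g.cons hA
    obtain ⟨NB, nB, rB⟩ := exists_nf hP g' (tyOk_of hB)
    have hNB := FSR g'.wf hB rB
    have hη : ∃ η, Ge P idx (i + 1) (fcons A G) NB ∨ Gd P idx i η true NB (fcons A G) := by
      obtain ⟨s', ⟨T', e', hs'⟩, hk⟩ := gB
      by_cases hc : idx s' = i
      · have h2 : TyF P (fcons A G) NB (.sort s') :=
          FSR g'.wf hs' (red_of_eq_normal (e'.symm.trans _ _ _ (Red.eq rB)) nB)
        obtain ⟨η, h⟩ := hcol NB _ s' nB h2 hc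
        exact ⟨η, .inr h⟩
      · refine ⟨fun _ => false, .inl ⟨s', ⟨T', (Red.eq rB).symm.trans _ _ _ e', hs'⟩, ?_⟩⟩
        omega
    obtain ⟨η, hη⟩ := hη
    refine ⟨(mscons (msub ρ.1 N) ρ.1, bcons η ρ.2), ⟨gA, _, η, hR, rfl⟩, rfl, ?_⟩
    rintro v _ ⟨N', hn', r', hj⟩
    have e : N' = NB := normal_unique ((Red.eq r').symm.trans _ _ _ (Red.eq rB)) hn' nB
    subst e
    have tyI : TyF P G (inst (er N) N') (.sort b) := tyf_inst g.wf hNB hN.typed
    obtain ⟨T', nT', rT'⟩ := exists_nf hP g (tyOk_of tyI)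
    refine ⟨T', nT', (red_inst .refl rB).trans rT', ?_⟩
    have hτ : MSubF P (mscons N .var) (fcons A G) G :=
      (MSubF.var g.wf).scons (N := N) (by rwa [sub_er_var])
    have henv : ∀ x, (∃ y, mscons N MT.var x = .var y ∧ bcons η ρ.2 x = ρ.2 y) ∨
        bcons η ρ.2 x = η := by
      intro x
      cases x with
      | zero => exact .inr rfl
      | succ x => exact .inl ⟨x, rfl, rfl⟩
    have f1 : (fun x => msub ρ.1 (mscons N MT.var x)) = mscons (msub ρ.1 N) ρ.1 := by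
      funext x; cases x <;> rfl
    have k := inst_lem (η := η) (i := i) (idx := idx) (v := v) wD.good.wf N' g'.wf g.wf hτ ho.1
      henv nB hNB (T' := T') (by
        have e5 : es (mscons N MT.var) = scons (er N) Term.var := er_mscons_var N
        rw [e5]; exact rT') hη
    rw [f1] at k
    exact k.1 rfl hj
  fresh := by
    rintro G ρ A s g ho hA M ⟨B, hM⟩
    have hA' : TyF P D0 (sub (es ρ.1) A) (.sort s) := tyf_sub hA ho.1.subF
    obtain ⟨m, hm⟩ := exists_mfv (msub (mups ρ.1) M)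
    obtain ⟨k, hk, hDk, -⟩ := wD.fresh hA' m
    have hv : TMF P D0 (.var k) (sub (es ρ.1) A) := by
      have := tmf_var wD.good.wf k
      rwa [hDk] at this
    have hR : RR P idx i D0 G ρ A (.var k) :=
      RR_ne hP wD.good.wf g ho.1 (tyOk_of hA) (.var k) hv
    refine ⟨(mscons (.var k) ρ.1, bcons (fun _ => false) ρ.2),
      ok_cons hP wD.good.wf g ho hA _ hR (.inr ⟨k, rfl⟩), ?_⟩
    intro hW
    have hM' := tmf_sub hM (ho.1.ups hA')
    refine AAI833.Wn.bind hP wD hDk hA' hM' (hm (k + 1) (by omega)) ?_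
    rw [← msub_mscons]
    exact hW
  var_R := by
    intro G ρ x g ho hg
    exact ho.2.1 x hg
  var_Ne := by
    intro G ρ x g ho hg
    obtain ⟨y, hy⟩ := ho.2.2 x hg
    show AAI833.Ne P idx (i + 1) D0 (ρ.1 x)
    rw [hy]
    exact .var y
  ident := by
    rintro M ⟨A, hM⟩
    refine ⟨(MT.var, fun _ _ => false), ⟨MSubF.var wD.good.wf, ?_, fun x _ => ⟨x, rfl⟩⟩, ?_⟩
    · intro x _
      obtain ⟨s, hs⟩ := wD.good.wf x
      refine RR_ne hP wD.good.wf wD.good (MSubF.var wD.good.wf) (tyOk_of hs) (.var x) ?_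
      show TMF P D0 (.var x) (sub (fun i => er (MT.var i)) (D0 x))
      rw [sub_er_var]
      exact tmf_var wD.good.wf x
    · intro h
      have e : msub MT.var M = M := msub_id M
      have h' : AAI833.Wn P idx (i + 1) D0 (msub MT.var M) := h
      rwa [e] at h'

theorem mono_of_idx {N : ℕ} (hi : IsIdx P idx N) : Mono P idx :=
  fun _ _ _ r => ⟨hi.rule_left r, hi.rule_right r⟩

/-- **BLOCK (a)** -/
theorem blockAW : BlockAW := by
  intro n P idx N hS hi D wD i hpos h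
  have hrk := mono_of_idx hi
  have hcol : Col P idx i := by
    rcases h with h | ⟨χ, hχ⟩
    · intro T G c _ hT hc
      obtain ⟨β, hβ⟩ := gd_unary hrk (fun a b c r hc hab => h a b c r hc ⟨hab.1, hab.2⟩) T true G c
        hT hc
      exact ⟨_, hβ⟩
    · intro T G c hn hT hc
      exact ⟨_, gd_even hrk (fun a b c r hc => hχ a b c r hc) T true G c hn hT hc⟩
  exact wniW_of_stage (stageA hS.2 wD hrk hcol) hrk wD.good

end Crest.Agent.R298.G2W833
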