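import Crest.Agent.R298.Uniq_452
import Crest.Agent.R298.Fl1_113

/-!
R298 (S0452), helper452: GOOD TERMS at sort level.  `Gd P 𝒟 G M T`: in every possibly relevant
position of `M` (at the exact type `T`) the function type of every redex has a signed sort.
Closed under substitution and under every beta step.
-/

set_option autoImplicit false

namespace Crest.Agent.R298.Gd452

open Crest.LogicCS.PTS Crest.LogicCS.PTS.Term Relation
open Crest.Agent.R298.Sub452 Crest.Agent.R298.Par452 Crest.Agent.R298.Ty452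
open Crest.Agent.R298.TyF452 Crest.Agent.R298.Uniq452
open Crest.Agent.R298.Fl113 (RelS)

universe u
variable {S : Type u} {P : Spec S} {𝒟 : Set S}

/-- signed sorts -/
def Sgn (P : Spec S) (𝒟 : Set S) (t : S) : Prop := ∃ e, Fl113.Sg P 𝒟 t e

/-- `T` may be relevant -/
def RT (P : Spec S) (𝒟 : Set S) (G : ℕ → Term S) (T : Term S) : Prop :=
  (∀ t, Uniq452.Sg P G T t → RelS P 𝒟 t) ∧ (∀ s, BetaEq T (sort s) → s ∈ 𝒟)

/-- syntactic lambdas -/
def IsLam : Term S → Prop
  | lam _ _ => True
  | _ => False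

theorem IsLam.exists {M : Term S} (h : IsLam M) : ∃ A P, M = lam A P := by
  cases M with
  | lam A P => exact ⟨A, P, rfl⟩
  | var _ => exact h.elim
  | sort _ => exact h.elim
  | app _ _ => exact h.elim
  | pi _ _ => exact h.elim

theorem IsLam.of_ren {M : Term S} {ρ : ℕ → ℕ} (h : IsLam (ren ρ M)) : IsLam M := by
  cases M with
  | lam A P => trivial
  | var _ => exact h.elim
  | sort _ => exact h.elim
  | app _ _ => exact h.elim
  | pi _ _ => exact h.elim

/-- good terms at exact types -/
inductive Gd (P : Spec S) (𝒟 : Set S) : (ℕ → Term S) → Term S → Term S → Prop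
  | irr {G : ℕ → Term S} {M T : Term S} : TyF P G M T → ¬ RT P 𝒟 G T → Gd P 𝒟 G M T
  | var {G : ℕ → Term S} {i : ℕ} {T : Term S} : TyF P G (var i) T → Gd P 𝒟 G (var i) T
  | sort {G : ℕ → Term S} {s : S} {T : Term S} : TyF P G (sort s) T → Gd P 𝒟 G (sort s) T
  | pi {G : ℕ → Term S} {A B T : Term S} {a b c : S} : TyF P G (pi A B) T →
      Gd P 𝒟 G A (sort a) → Gd P 𝒟 (fcons A G) B (sort b) → P.rule a b c →
      BetaEq T (sort c) → Gd P 𝒟 G (pi A B) T
  | lam {G : ℕ → Term S} {A M B T : Term S} : TyF P G (lam A M) T →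
      Gd P 𝒟 (fcons A G) M B → BetaEq T (pi A B) → Gd P 𝒟 G (lam A M) T
  | app {G : ℕ → Term S} {F Q A B T : Term S} : TyF P G (app F Q) T →
      Gd P 𝒟 G F (pi A B) → Gd P 𝒟 G Q A → BetaEq T (inst Q B) →
      (IsLam F → ∃ c, Uniq452.Sg P G (pi A B) c ∧ Sgn P 𝒟 c) → Gd P 𝒟 G (app F Q) T

theorem Gd.typed {G : ℕ → Term S} {M T : Term S} (h : Gd P 𝒟 G M T) : TyF P G M T := by
  cases h <;> assumption

/-! ### relevance -/

theorem RT.conv {G : ℕ → Term S} {T T' : Term S} (h : RT P 𝒟 G T) (e : BetaEq T T') :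
    RT P 𝒟 G T' :=
  ⟨fun t ht => h.1 t (ht.conv e), fun s hs => h.2 s (BetaEq.trans e hs)⟩

theorem RT.of_ren {G G' : ℕ → Term S} {T : Term S} {ρ : ℕ → ℕ} (hr : RenF ρ G G')
    (h : RT P 𝒟 G' (ren ρ T)) : RT P 𝒟 G T :=
  ⟨fun t ht => h.1 t (ht.ren hr), fun s hs => h.2 s (by simpa using BetaEq.ren hs ρ)⟩

theorem RT.of_sub {G G' : ℕ → Term S} {T : Term S} {θ : ℕ → Term S} (hs : SubF P θ G G')
    (h : RT P 𝒟 G' (sub θ T)) : RT P 𝒟 G T :=
  ⟨fun t ht => h.1 t (ht.sub hs), fun s e => h.2 s (by simpa using BetaEq.sub e θ)⟩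

/-- sorts of a product with an instance that may be relevant -/
theorem rule_of_app {G : ℕ → Term S} (w : WfF P G) {A B Q : Term S} {c : S}
    (h : Uniq452.Sg P G (pi A B) c) (hQ : TyF P G Q A) :
    ∃ a b, P.rule a b c ∧ Uniq452.Sg P G A a ∧ Uniq452.Sg P G (inst Q B) b := by
  obtain ⟨a, b, r, hA, A', rA, hA', hB⟩ := h.pi_inv w
  refine ⟨a, b, r, hA, ?_⟩
  exact hB.inst w (.conv hQ hA' rA.eq)

theorem relS_of_app {G : ℕ → Term S} (w : WfF P G) {A B Q : Term S} {c : S}
    (h : Uniq452.Sg P G (pi A B) c) (hQ : TyF P G Q A) (hr : RT P 𝒟 G (inst Q B)) :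
    RelS P 𝒟 c := by
  obtain ⟨a, b, r, _, hb⟩ := rule_of_app w h hQ
  exact .up r (hr.1 b hb)

theorem RT.of_app {G : ℕ → Term S} (w : WfF P G) {A B Q : Term S} (hQ : TyF P G Q A)
    (hr : RT P 𝒟 G (inst Q B)) : RT P 𝒟 G (pi A B) :=
  ⟨fun _ h => relS_of_app w h hQ hr, fun _ e => (not_sort_pi (BetaEq.symm e)).elim⟩

/-! ### conversion, renaming, substitution -/

theorem Gd.conv {G : ℕ → Term S} {M T T' : Term S} (h : Gd P 𝒟 G M T) (e : BetaEq T T')
    (ht : TyF P G M T') : Gd P 𝒟 G M T' := by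
  cases h with
  | irr h hn => exact .irr ht (fun h' => hn (h'.conv (BetaEq.symm e)))
  | var _ => exact .var ht
  | sort _ => exact .sort ht
  | pi _ h1 h2 r e' => exact .pi ht h1 h2 r (BetaEq.trans (BetaEq.symm e) e')
  | lam _ h1 e' => exact .lam ht h1 (BetaEq.trans (BetaEq.symm e) e')
  | app _ h1 h2 e' hl => exact .app ht h1 h2 (BetaEq.trans (BetaEq.symm e) e') hl

theorem gd_ren {G : ℕ → Term S} {M T : Term S} (h : Gd P 𝒟 G M T) :
    ∀ {G' : ℕ → Term S} {ρ : ℕ → ℕ}, RenF ρ G G' → Gd P 𝒟 G' (ren ρ M) (ren ρ T) := by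
  induction h with
  | irr h hn => intro G' ρ hr; exact .irr (tyf_ren h hr) (fun h' => hn (h'.of_ren hr))
  | var h => intro G' ρ hr; exact .var (tyf_ren h hr)
  | sort h => intro G' ρ hr; exact .sort (tyf_ren h hr)
  | pi h _ _ r e ih ih' =>
      intro G' ρ hr
      exact .pi (tyf_ren h hr) (ih hr) (ih' (hr.up _)) r (BetaEq.ren e ρ)
  | lam h _ e ih =>
      intro G' ρ hr
      exact .lam (tyf_ren h hr) (ih (hr.up _)) (BetaEq.ren e ρ)
  | @app G F Q A B T h _ _ e hl ih ih' =>
      intro G' ρ hr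
      refine .app (tyf_ren h hr) (ih hr) (ih' hr) ?_ ?_
      · have := BetaEq.ren e ρ
        rwa [ren_inst] at this
      · intro hF
        obtain ⟨c, h1, h2⟩ := hl hF.of_ren
        exact ⟨c, h1.ren hr, h2⟩

theorem gd_sub {G : ℕ → Term S} {M T : Term S} (h : Gd P 𝒟 G M T) :
    ∀ {G' : ℕ → Term S} {θ : ℕ → Term S}, WfF P G' → SubF P θ G G' →
      (∀ k, Gd P 𝒟 G' (θ k) (sub θ (G k)) ∧
        (IsLam (θ k) → ∃ a, Uniq452.Sg P G (G k) a ∧ (RelS P 𝒟 a → Sgn P 𝒟 a))) →
      Gd P 𝒟 G' (sub θ M) (sub θ T) := by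
  induction h with
  | irr h hn => intro G' θ w hs _; exact .irr (tyf_sub h hs) (fun h' => hn (h'.of_sub hs))
  | @var G i T h =>
      intro G' θ w hs hθ
      obtain ⟨_, e⟩ := fgen_var h i rfl
      exact (hθ i).1.conv (BetaEq.sub (BetaEq.symm e) θ) (tyf_sub h hs)
  | sort h => intro G' θ w hs _; exact .sort (tyf_sub h hs)
  | @pi G A B T a b c h hA hB r e ih ih' =>
      intro G' θ w hs hθ
      have hA' := tyf_sub hA.typed hs
      refine .pi (tyf_sub h hs) (ih w hs hθ) (ih' (w.cons hA') (hs.ups hA') ?_) r (BetaEq.sub e θ)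
      intro k
      cases k with
      | zero =>
          exact ⟨.var ((hs.ups hA') 0), fun h => h.elim⟩
      | succ k =>
          refine ⟨?_, fun h' => ?_⟩
          · simp only [ups_succ, fcons_succ, sub_wk]
            exact gd_ren (hθ k).1 (RenF.wk _ _)
          · obtain ⟨a', h1, h2⟩ := (hθ k).2 h'.of_ren
            exact ⟨a', h1.ren (RenF.wk _ _), h2⟩
  | @lam G A M B T h hM e ih =>
      intro G' θ w hs hθ
      obtain ⟨B', s, h1, h2, h3⟩ := fgen_lam h _ _ rfl
      obtain ⟨s', hA⟩ := fpi_dom h2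
      have hA' := tyf_sub hA hs
      refine .lam (tyf_sub h hs) (ih (w.cons hA') (hs.ups hA') ?_) (BetaEq.sub e θ)
      intro k
      cases k with
      | zero =>
          exact ⟨.var ((hs.ups hA') 0), fun h => h.elim⟩
      | succ k =>
          refine ⟨?_, fun h' => ?_⟩
          · simp only [ups_succ, fcons_succ, sub_wk]
            exact gd_ren (hθ k).1 (RenF.wk _ _)
          · obtain ⟨a', h1, h2⟩ := (hθ k).2 h'.of_ren
            exact ⟨a', h1.ren (RenF.wk _ _), h2⟩
  | @app G F Q A B T h hF hQ e hl ih ih' =>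
      intro G' θ w hs hθ
      by_cases hrt : RT P 𝒟 G' (sub θ T)
      · refine .app (tyf_sub h hs) (ih w hs hθ) (ih' w hs hθ) ?_ ?_
        · have h6 := BetaEq.sub e θ
          rwa [sub_inst] at h6
        · intro hL
          by_cases hF' : IsLam F
          · obtain ⟨c, h1, h2⟩ := hl hF'
            exact ⟨c, h1.sub hs, h2⟩
          · cases F with
            | var k =>
                obtain ⟨a, h1, h2⟩ := (hθ k).2 hL
                obtain ⟨_, e'⟩ := fgen_var hF.typed k rfl
                have h3 : Uniq452.Sg P G (Term.pi A B) a := h1.conv e'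
                have h4 := h3.sub hs
                have hQ' := (ih' w hs hθ).typed
                have h5 : RT P 𝒟 G' (inst (Sub452.sub θ Q) (Sub452.sub (Sub452.ups θ) B)) := by
                  have := hrt.conv (BetaEq.sub e θ)
                  rwa [sub_inst] at this
                exact ⟨a, h4, h2 (relS_of_app w h4 hQ' h5)⟩
            | sort _ => exact hL.elim
            | app _ _ => exact hL.elim
            | pi _ _ => exact hL.elim
            | lam _ _ => exact (hF' trivial).elim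
      · exact .irr (tyf_sub h hs) hrt


theorem gd_ctx {G : ℕ → Term S} {A A' M T : Term S} {s s' : S} (w : WfF P G)
    (h : Gd P 𝒟 (fcons A G) M T) (hA : TyF P G A (sort s)) (hA' : TyF P G A' (sort s'))
    (e : BetaEq A A') : Gd P 𝒟 (fcons A' G) M T := by
  have hs : SubF P Term.var (fcons A G) (fcons A' G) := by
    intro i
    rw [sub_id]
    cases i with
    | zero =>
        refine .conv (TyF.var (D := fcons A' G) (i := 0) (tyf_wk hA' _)) (tyf_wk hA _) ?_
        exact BetaEq.symm (BetaEq.ren e _)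
    | succ i => exact tyf_wk (tyf_var w i) _
  have := gd_sub h (w.cons hA') hs (fun k => ⟨.var (hs k), fun h => h.elim⟩)
  rwa [sub_id, sub_id] at this

theorem gd_inst {G : ℕ → Term S} {A M N T : Term S} (w : WfF P G)
    (h : Gd P 𝒟 (fcons A G) M T) (hN : Gd P 𝒟 G N A)
    (hL : IsLam N → ∃ a, Uniq452.Sg P G A a ∧ (RelS P 𝒟 a → Sgn P 𝒟 a)) :
    Gd P 𝒟 G (inst N M) (inst N T) := by
  have hs : SubF P (scons N Term.var) (fcons A G) G :=
    (SubF.var w).scons (by rw [sub_id]; exact hN.typed)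
  refine gd_sub h w hs (fun k => ?_)
  cases k with
  | zero =>
      refine ⟨?_, fun h' => ?_⟩
      · simpa only [fcons_zero, scons_zero, inst_wk] using hN
      · obtain ⟨a, h1, h2⟩ := hL h'
        exact ⟨a, h1.ren (RenF.wk _ _), h2⟩
  | succ k =>
      exact ⟨.var (hs (k + 1)), fun h => h.elim⟩

/-! ### normal terms are good -/

theorem gd_normal {M : Term S} : ∀ {G : ℕ → Term S} {T : Term S}, Normal M → TyF P G M T →
    Gd P 𝒟 G M T := by
  induction M with
  | var i => intro G T _ h; exact .var h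
  | sort s => intro G T _ h; exact .sort h
  | app F Q ih ih' =>
      intro G T n h
      obtain ⟨A, B, h1, h2, e⟩ := fgen_app h _ _ rfl
      refine .app h (ih (fun _ b => n _ (.appL _ b)) h1) (ih' (fun _ b => n _ (.appR _ b)) h2) e ?_
      intro hL
      obtain ⟨A0, P0, rfl⟩ := hL.exists
      exact (n _ (.redex _ _ _)).elim
  | lam A M _ ih =>
      intro G T n h
      obtain ⟨B, s, h1, h2, e⟩ := fgen_lam h _ _ rfl
      exact .lam h (ih (fun _ b => n _ (.lamM _ b)) h1) e
  | pi A B ih ih' =>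
      intro G T n h
      obtain ⟨a, b, c, h1, h2, r, e⟩ := fgen_pi h _ _ rfl
      exact .pi h (ih (fun _ b => n _ (.piA _ b)) h1) (ih' (fun _ b => n _ (.piB _ b)) h2) r e

/-! ### beta steps preserve goodness -/

/-- the head redex of a good term in a relevant position: its domain has a sort which is signed
as soon as it is relevant, and the body type as well -/
theorem signed_parts {G : ℕ → Term S} (w : WfF P G) {A B Q : Term S} {c : S}
    (h : Uniq452.Sg P G (pi A B) c) (hc : Sgn P 𝒟 c) (hQ : TyF P G Q A)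
    (hr : RT P 𝒟 G (inst Q B)) :
    ∃ a b, P.rule a b c ∧ Uniq452.Sg P G A a ∧ Uniq452.Sg P G (inst Q B) b ∧ Sgn P 𝒟 b ∧
      (RelS P 𝒟 a → Sgn P 𝒟 a) := by
  obtain ⟨a, b, r, hA, hB⟩ := rule_of_app w h hQ
  obtain ⟨e, he⟩ := hc
  have hb := hr.1 b hB
  exact ⟨a, b, r, hA, hB, ⟨e, .cod r hb he⟩, fun ha => ⟨!e, .dom r ha hb he⟩⟩

theorem gd_beta {G : ℕ → Term S} {M T : Term S} (h : Gd P 𝒟 G M T) :
    WfF P G → ∀ M', Beta M M' → Gd P 𝒟 G M' T := by
  induction h with
  | irr h hn => intro w M' b; exact .irr (fsr h w _ b) hn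
  | var h => intro w M' b; cases b
  | sort h => intro w M' b; cases b
  | @pi G A B T a b0 c h hA hB r e ih ih' =>
      intro w M' b
      cases b with
      | piA _ b =>
          have h1 := ih w _ b
          exact .pi (fsr h w _ (.piA _ b)) h1 (gd_ctx w hB hA.typed h1.typed (.rel _ _ b)) r e
      | piB _ b => exact .pi (fsr h w _ (.piB _ b)) hA (ih' (w.cons hA.typed) _ b) r e
  | @lam G A M B T h hM e ih =>
      intro w M' b
      obtain ⟨B', s, h1, h2, h3⟩ := fgen_lam h _ _ rfl
      obtain ⟨s', hA⟩ := fpi_dom h2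
      cases b with
      | @lamA _ A' _ b =>
          have hA' := fsr hA w _ b
          refine .lam (fsr h w _ (.lamA _ b)) (gd_ctx w hM hA hA' (.rel _ _ b)) ?_
          exact BetaEq.trans e (BetaEq.pi (.rel _ _ b) (.refl _))
      | lamM _ b => exact .lam (fsr h w _ (.lamM _ b)) (ih (w.cons hA) _ b) e
  | @app G F Q A B T h hF hQ e hl ih ih' =>
      intro w M' b
      have hT : TyF P G M' T := fsr h w _ b
      by_cases hrt : RT P 𝒟 G T
      swap
      · exact .irr hT hrt
      have hri : RT P 𝒟 G (inst Q B) := hrt.conv e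
      cases b with
      | appR _ b =>
          have hQ' := ih' w _ b
          refine .app hT hF hQ' (BetaEq.trans e ?_) hl
          exact (red_inst (.single b) .refl).eq
      | @appL _ F' _ b =>
          refine .app hT (ih w _ b) hQ e ?_
          intro hL
          by_cases hF' : IsLam F
          · exact hl hF'
          · -- `F` is itself a redex
            cases b with
            | redex A0 P0 Q0 =>
                cases hF with
                | irr _ hn => exact (hn (hri.of_app w hQ.typed)).elim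
                | @app _ _ _ A2 B2 _ _ hF2 hQ2 e2 hl2 =>
                    obtain ⟨c, hc, hs⟩ := hl2 trivial
                    have hr2 : RT P 𝒟 G (inst Q0 B2) := (hri.of_app w hQ.typed).conv e2
                    obtain ⟨a, b, r, _, h2, h3, _⟩ := signed_parts w hc hs hQ2.typed hr2
                    exact ⟨b, h2.conv e2, h3⟩
            | appL _ _ => exact hL.elim
            | appR _ _ => exact hL.elim
            | lamA _ _ => exact (hF' trivial).elim
            | lamM _ _ => exact (hF' trivial).elim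
            | piA _ _ => exact hL.elim
            | piB _ _ => exact hL.elim
      | redex A0 P0 _ =>
          rw [subst_eq] at hT ⊢
          obtain ⟨c, hc, hs⟩ := hl trivial
          obtain ⟨a, b, r, hA, _, _, h4⟩ := signed_parts w hc hs hQ.typed hri
          cases hF with
          | irr _ hn => exact (hn (hri.of_app w hQ.typed)).elim
          | @lam _ _ _ B1 _ h5 h6 e6 =>
              obtain ⟨e7, e8⟩ := pi_inj e6
              obtain ⟨B', s, _, h2, _⟩ := fgen_lam h5 _ _ rfl
              obtain ⟨s', hA0⟩ := fpi_dom h2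
              have hQ0 : Gd P 𝒟 G Q A0 := hQ.conv e7 (.conv hQ.typed hA0 e7)
              have key := gd_inst w h6 hQ0
                (fun _ => ⟨a, hA.conv (BetaEq.symm e7), h4⟩)
              refine key.conv ?_ hT
              exact BetaEq.symm (BetaEq.trans e (BetaEq.sub e8 _))

theorem gd_red {G : ℕ → Term S} {M M' T : Term S} (w : WfF P G) (h : Gd P 𝒟 G M T)
    (r : Red M M') : Gd P 𝒟 G M' T := by
  induction r with
  | refl => exact h
  | tail _ b ih => exact gd_beta ih w _ b

/-- the start: substituting a normal term for a `𝒟`-bound variable in a normal term -/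
theorem gd_start {G : ℕ → Term S} (w : WfF P G) {A B N T : Term S} {a b c : S}
    (hB : TyF P (fcons A G) B T) (nB : Normal B) (hN : TyF P G N A) (nN : Normal N)
    (hA : TyF P G A (sort a)) (r : P.rule a b c) (hb : b ∈ 𝒟) (hc : c ∈ 𝒟) :
    Gd P 𝒟 G (inst N B) (inst N T) :=
  gd_inst w (gd_normal nB hB) (gd_normal nN hN)
    (fun _ => ⟨a, .of hA, fun ha => ⟨true, .base r hb hc ha⟩⟩)

end Crest.Agent.R298.Gd452
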