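import Crest.Agent.R298.Ev_891

/-!
R298 (S0452), helper891, insurance for block (T), file 4: good open terms.
`MIO Γ T`: `T` has a sort reading which is dead (not `RelS`) or signed.
`Gd Γ M T`: every redex of `M` in a live position has an `MIO` function type.
Closed under renaming, substitution, reduction; holds for normal terms.
-/

set_option autoImplicit false

namespace Crest.Agent.R298.T891

open Crest.LogicCS.PTS Crest.LogicCS.PTS.Term Relation
open Crest.Agent.R298.Sub452 Crest.Agent.R298.Par452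
open Crest.Agent.R298.TyF452 Crest.Agent.R298.Mem360
open Crest.Agent.R298.Uniq452 (FS funiq Neu)
open Crest.Agent.R298.Fl113 (RelS)

variable {S : Type} {P : Spec S} {W : ℕ → Term S} {D : Set S}

/-- a type with a sort reading which is dead or signed -/
def MIO (P : Spec S) (D : Set S) (Γ : ℕ → Term S) (T : Term S) : Prop :=
  ∃ t, Srt P Γ T t ∧ (RelS P D t → ∃ e, Fl113.Sg P D t e)

theorem MIO.conv {Γ : ℕ → Term S} {T T' : Term S} (h : MIO P D Γ T) (e : BetaEq T T') :
    MIO P D Γ T' := by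
  obtain ⟨t, h1, h2⟩ := h
  exact ⟨t, h1.conv (BetaEq.symm e), h2⟩

theorem MIO.sub {Γ Γ' : ℕ → Term S} {σ : ℕ → Term S} {T : Term S} (h : MIO P D Γ T)
    (hs : SubF P σ Γ Γ') : MIO P D Γ' (Sub452.sub σ T) := by
  obtain ⟨t, h1, h2⟩ := h
  exact ⟨t, h1.sub hs, h2⟩

theorem MIO.ren {Γ Γ' : ℕ → Term S} {r : ℕ → ℕ} {T : Term S} (h : MIO P D Γ T)
    (hs : RenF r Γ Γ') : MIO P D Γ' (Sub452.ren r T) := by
  obtain ⟨t, h1, h2⟩ := h
  exact ⟨t, h1.ren hs, h2⟩

/-- the sort data of a product -/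
theorem srt_pi {Γ : ℕ → Term S} (w : WfF P Γ) {A B : Term S} {c : S}
    (h : Srt P Γ (pi A B) c) : ∃ a b, P.rule a b c ∧ Srt P Γ A a ∧
      ∀ Q, In P Γ Q A → Srt P Γ (inst Q B) b := by
  obtain ⟨a, b, r, hA, A', rA, hA', hB⟩ := h.pi_inv w
  exact ⟨a, b, r, hA, fun Q hQ => hB.inst w ((hQ.conv rA.eq).typed hA')⟩

theorem MIO.cod {Γ : ℕ → Term S} (w : WfF P Γ) {A B Q : Term S} (h : MIO P D Γ (pi A B))
    (hQ : In P Γ Q A) : MIO P D Γ (inst Q B) := by
  obtain ⟨c, h1, h2⟩ := h
  obtain ⟨a, b, r, _, hB⟩ := srt_pi w h1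
  refine ⟨b, hB Q hQ, fun hb => ?_⟩
  obtain ⟨e, he⟩ := h2 (.up r hb)
  exact ⟨e, .cod r hb he⟩

/-- either the codomain instance is dead or the domain is `MIO` -/
theorem MIO.dom {Γ : ℕ → Term S} (w : WfF P Γ) {A B Q : Term S} (h : MIO P D Γ (pi A B))
    (hQ : In P Γ Q A) : (∃ b, Srt P Γ (inst Q B) b ∧ ¬ RelS P D b) ∨ MIO P D Γ A := by
  obtain ⟨c, h1, h2⟩ := h
  obtain ⟨a, b, r, hA, hB⟩ := srt_pi w h1
  by_cases hb : RelS P D b
  · right
    refine ⟨a, hA, fun ha => ?_⟩
    obtain ⟨e, he⟩ := h2 (.up r hb)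
    exact ⟨_, .dom r ha hb he⟩
  · exact .inl ⟨b, hB Q hQ, hb⟩

/-- good terms at a type -/
inductive Gd (P : Spec S) (D : Set S) : (ℕ → Term S) → Term S → Term S → Prop
  | dead {Γ : ℕ → Term S} {M T : Term S} {t : S} : TyF P Γ M T → Srt P Γ T t →
      ¬ RelS P D t → Gd P D Γ M T
  | var {Γ : ℕ → Term S} {k : ℕ} {s : S} : TyF P Γ (Γ k) (sort s) → Gd P D Γ (var k) (Γ k)
  | sort {Γ : ℕ → Term S} {s t : S} : P.ax s t → Gd P D Γ (sort s) (sort t)
  | pi {Γ : ℕ → Term S} {A B : Term S} {a b c : S} : Gd P D Γ A (sort a) →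
      Gd P D (fcons A Γ) B (sort b) → P.rule a b c → Gd P D Γ (pi A B) (sort c)
  | lam {Γ : ℕ → Term S} {A M B : Term S} {s : S} : TyF P Γ (pi A B) (sort s) →
      Gd P D (fcons A Γ) M B → Gd P D Γ (lam A M) (pi A B)
  | appN {Γ : ℕ → Term S} {F Q A B : Term S} : Neu F → Gd P D Γ F (pi A B) →
      Gd P D Γ Q A → Gd P D Γ (app F Q) (inst Q B)
  | appM {Γ : ℕ → Term S} {F Q A B : Term S} : MIO P D Γ (pi A B) → Gd P D Γ F (pi A B) →
      Gd P D Γ Q A → Gd P D Γ (app F Q) (inst Q B)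
  | conv {Γ : ℕ → Term S} {M T T' : Term S} {s : S} : Gd P D Γ M T → TyF P Γ T' (sort s) →
      BetaEq T T' → Gd P D Γ M T'

theorem Gd.typed {Γ : ℕ → Term S} {M T : Term S} (h : Gd P D Γ M T) : TyF P Γ M T := by
  induction h with
  | dead h _ _ => exact h
  | var h => exact .var h
  | sort h => exact .ax h
  | pi _ _ r ih ih' => exact .prod ih ih' r
  | lam h _ ih => exact .abs ih h
  | appN _ _ _ ih ih' => exact .appl ih ih'
  | appM _ _ _ ih ih' => exact .appl ih ih'
  | conv _ h e ih => exact .conv ih h e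

theorem neu_ren {F : Term S} (h : Neu F) (r : ℕ → ℕ) : Neu (Sub452.ren r F) := by
  induction h with
  | var i => exact .var _
  | app N _ ih => exact .app _ ih

theorem Gd.ren {Γ : ℕ → Term S} {M T : Term S} (h : Gd P D Γ M T) :
    ∀ {Γ' : ℕ → Term S} {r : ℕ → ℕ}, RenF r Γ Γ' →
      Gd P D Γ' (Sub452.ren r M) (Sub452.ren r T) := by
  induction h with
  | dead h1 h2 h3 => intro Γ' r hr; exact .dead (tyf_ren h1 hr) (h2.ren hr) h3
  | @var Γ k s h =>
      intro Γ' r hr
      have := tyf_ren h hr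
      rw [← hr k] at this ⊢
      exact .var this
  | sort h => intro Γ' r hr; exact .sort h
  | pi _ _ ru ih ih' => intro Γ' r hr; exact .pi (ih hr) (ih' (hr.up _)) ru
  | lam h _ ih =>
      intro Γ' r hr
      exact .lam (tyf_ren h hr) (ih (hr.up _))
  | appN hn _ _ ih ih' =>
      intro Γ' r hr
      rw [ren_inst]
      exact .appN (neu_ren hn r) (ih hr) (ih' hr)
  | appM hm _ _ ih ih' =>
      intro Γ' r hr
      rw [ren_inst]
      exact .appM (hm.ren hr) (ih hr) (ih' hr)
  | conv _ h e ih => intro Γ' r hr; exact .conv (ih hr) (tyf_ren h hr) (BetaEq.ren e r)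

/-- admissible substitutions: variables, or good terms of `MIO` type -/
def GSub (P : Spec S) (D : Set S) (σ : ℕ → Term S) (Γ Γ' : ℕ → Term S) : Prop :=
  ∀ k, (∃ j, σ k = var j) ∨
    (Gd P D Γ' (σ k) (Sub452.sub σ (Γ k)) ∧ MIO P D Γ' (Sub452.sub σ (Γ k)))

theorem GSub.ups {σ : ℕ → Term S} {Γ Γ' : ℕ → Term S} (h : GSub P D σ Γ Γ') (A : Term S) :
    GSub P D (ups σ) (fcons A Γ) (fcons (Sub452.sub σ A) Γ') := by
  intro k
  cases k with
  | zero => exact .inl ⟨0, rfl⟩
  | succ k =>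
      rcases h k with ⟨j, hj⟩ | ⟨h1, h2⟩
      · left
        exact ⟨j + 1, by rw [ups_succ, hj]; rfl⟩
      · right
        simp only [ups_succ, fcons_succ, sub_wk]
        exact ⟨h1.ren (RenF.wk _ _), h2.ren (RenF.wk _ _)⟩

theorem neu_sub {σ : ℕ → Term S} {Γ Γ' : ℕ → Term S} (w' : WfF P Γ') (hs : SubF P σ Γ Γ')
    (hg : GSub P D σ Γ Γ') {F : Term S} (hn : Neu F) :
    ∀ {T : Term S}, TyF P Γ F T → Neu (Sub452.sub σ F) ∨ MIO P D Γ' (Sub452.sub σ T) := by
  induction hn with
  | var k =>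
      intro T hT
      rcases hg k with ⟨j, hj⟩ | ⟨_, h2⟩
      · left
        rw [sub_var, hj]
        exact .var j
      · right
        obtain ⟨_, e⟩ := fgen_var hT _ rfl
        exact h2.conv (BetaEq.sub (BetaEq.symm e) _)
  | @app F Q _ ih =>
      intro T hT
      obtain ⟨A, B, hF, hQ, e⟩ := fgen_app hT _ _ rfl
      rcases ih hF with h | h
      · left; exact .app _ h
      · right
        have := MIO.cod w' (A := Sub452.sub σ A) (B := Sub452.sub (Sub452.ups σ) B)
          (Q := Sub452.sub σ Q) h (In.of (tyf_sub hQ hs))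
        rw [← sub_inst] at this
        exact this.conv (BetaEq.sub (BetaEq.symm e) _)

theorem Gd.sub {Γ : ℕ → Term S} {M T : Term S} (h : Gd P D Γ M T) :
    ∀ {Γ' : ℕ → Term S} {σ : ℕ → Term S}, WfF P Γ' → SubF P σ Γ Γ' → GSub P D σ Γ Γ' →
      Gd P D Γ' (Sub452.sub σ M) (Sub452.sub σ T) := by
  induction h with
  | dead h1 h2 h3 => intro Γ' σ _ hs _; exact .dead (tyf_sub h1 hs) (h2.sub hs) h3
  | @var Γ k s h =>
      intro Γ' σ w' hs hg
      rcases hg k with ⟨j, hj⟩ | ⟨h1, _⟩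
      · have ht := hs k
        rw [sub_var, hj] at *
        obtain ⟨⟨s', hs'⟩, e⟩ := fgen_var ht _ rfl
        exact .conv (.var hs') (tyf_sub h hs) (BetaEq.symm e)
      · exact h1
  | sort h => intro Γ' σ _ _ _; exact .sort h
  | pi hA _ ru ih ih' =>
      intro Γ' σ w' hs hg
      have a := ih w' hs hg
      exact .pi a (ih' (w'.cons a.typed) (hs.ups a.typed) (hg.ups _)) ru
  | @lam Γ A M B s h _ ih =>
      intro Γ' σ w' hs hg
      have b : TyF P Γ' (Term.pi (Sub452.sub σ A) (Sub452.sub (Sub452.ups σ) B)) (Term.sort s) :=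
        tyf_sub h hs
      obtain ⟨s', hA⟩ := fpi_dom b
      exact .lam b (ih (w'.cons hA) (hs.ups hA) (hg.ups _))
  | @appN Γ F Q A B hn hF hQ ih ih' =>
      intro Γ' σ w' hs hg
      rw [sub_inst]
      rcases neu_sub w' hs hg hn hF.typed with h | h
      · exact .appN h (ih w' hs hg) (ih' w' hs hg)
      · exact .appM h (ih w' hs hg) (ih' w' hs hg)
  | @appM Γ F Q A B hm hF hQ ih ih' =>
      intro Γ' σ w' hs hg
      rw [sub_inst]
      exact .appM (hm.sub hs) (ih w' hs hg) (ih' w' hs hg)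
  | conv _ h e ih =>
      intro Γ' σ w' hs hg
      exact .conv (ih w' hs hg) (tyf_sub h hs) (BetaEq.sub e σ)

theorem sub_ctx {Γ : ℕ → Term S} (w : WfF P Γ) {A A' : Term S} {s s' : S}
    (hA : TyF P Γ A (Term.sort s)) (hA' : TyF P Γ A' (Term.sort s')) (e : BetaEq A A') :
    SubF P Term.var (fcons A Γ) (fcons A' Γ) := by
  intro i
  rw [sub_id]
  cases i with
  | zero =>
      refine .conv (TyF.var (D := fcons A' Γ) (i := 0) (tyf_wk hA' _)) (tyf_wk hA _) ?_
      exact BetaEq.symm (BetaEq.ren e _)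
  | succ i => exact tyf_wk (tyf_var w i) _

theorem Gd.ctx_conv {Γ : ℕ → Term S} (w : WfF P Γ) {A A' M T : Term S} {s s' : S}
    (h : Gd P D (fcons A Γ) M T) (hA : TyF P Γ A (Term.sort s))
    (hA' : TyF P Γ A' (Term.sort s')) (e : BetaEq A A') : Gd P D (fcons A' Γ) M T := by
  have := h.sub (w.cons hA') (sub_ctx w hA hA' e) (fun k => .inl ⟨k, rfl⟩)
  rwa [sub_id, sub_id] at this

/-- inversion for good abstractions -/
theorem Gd.lam_inv {Γ : ℕ → Term S} {K T : Term S} (h : Gd P D Γ K T) :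
    ∀ A M, K = Term.lam A M → (∃ t, Srt P Γ T t ∧ ¬ RelS P D t) ∨
      ∃ B s, TyF P Γ (Term.pi A B) (Term.sort s) ∧ Gd P D (fcons A Γ) M B ∧
        BetaEq T (Term.pi A B) := by
  induction h with
  | dead _ h2 h3 => intro A M _; exact .inl ⟨_, h2, h3⟩
  | lam h h' _ =>
      intro A M e
      cases e
      exact .inr ⟨_, _, h, h', .refl _⟩
  | conv _ _ e ih =>
      intro A M e'
      rcases ih A M e' with ⟨t, h1, h2⟩ | ⟨B, s, h1, h2, h3⟩
      · exact .inl ⟨t, h1.conv (BetaEq.symm e), h2⟩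
      · exact .inr ⟨B, s, h1, h2, BetaEq.trans (BetaEq.symm e) h3⟩
  | _ => intro A M e; cases e

theorem neu_beta {F F' : Term S} (h : Neu F) (b : Beta F F') : Neu F' := by
  induction h generalizing F' with
  | var i => cases b
  | app N hn ih =>
      cases b with
      | redex A M _ => cases hn
      | appL _ b => exact .app _ (ih b)
      | appR _ b => exact .app _ hn

/-- contraction of a good redex -/
theorem Gd.contract {Γ : ℕ → Term S} (w : WfF P Γ) {A0 M0 Q A B : Term S}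
    (hF : Gd P D Γ (Term.lam A0 M0) (Term.pi A B)) (hQ : Gd P D Γ Q A)
    (hm : MIO P D Γ (Term.pi A B)) : Gd P D Γ (inst Q M0) (inst Q B) := by
  have hty : TyF P Γ (inst Q M0) (inst Q B) :=
    fsr (.appl hF.typed hQ.typed) w _ (beta_redex A0 M0 Q)
  have hleg : ∃ s, TyF P Γ (inst Q B) (Term.sort s) := by
    obtain ⟨s, hp⟩ := fpi_typed w hF.typed
    obtain ⟨s₁, s₂, s₃, _, hB, _, _⟩ := fgen_pi hp _ _ rfl
    exact ⟨s₂, tyf_inst w hB hQ.typed⟩
  rcases hF.lam_inv _ _ rfl with ⟨t, h1, h2⟩ | ⟨B0, s, h1, h2, h3⟩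
  · obtain ⟨a, b, r, _, hB⟩ := srt_pi w h1
    exact .dead hty (hB Q (In.of hQ.typed)) (fun hb => h2 (.up r hb))
  · rcases hm.dom w (In.of hQ.typed) with ⟨b, h4, h5⟩ | hmA
    · exact .dead hty h4 h5
    · obtain ⟨e1, e2⟩ := pi_inj h3
      obtain ⟨sA, hA0⟩ := fpi_dom h1
      have hQ0 : Gd P D Γ Q A0 := .conv hQ hA0 e1
      have key := h2.sub (Γ' := Γ) (σ := scons Q Term.var) w
        ((SubF.var w).scons (by rw [sub_id]; exact hQ0.typed)) (by
          intro k
          cases k with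
          | zero =>
              right
              have e0 : Sub452.sub (scons Q Term.var) (fcons A0 Γ 0) = A0 := inst_wk Q A0
              rw [e0]
              exact ⟨hQ0, hmA.conv e1⟩
          | succ k => exact .inl ⟨k, rfl⟩)
      obtain ⟨s', hleg⟩ := hleg
      exact .conv key hleg (BetaEq.symm (BetaEq.sub e2 _))

theorem Gd.step {Γ : ℕ → Term S} {M T : Term S} (h : Gd P D Γ M T) :
    WfF P Γ → ∀ {M' : Term S}, Beta M M' → Gd P D Γ M' T := by
  induction h with
  | dead h1 h2 h3 => intro w M' b; exact .dead (fsr h1 w _ b) h2 h3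
  | var _ => intro w M' b; cases b
  | sort _ => intro w M' b; cases b
  | pi hA hB r ih ih' =>
      intro w M' b
      cases b with
      | piA _ b =>
          have a := ih w b
          exact .pi a (hB.ctx_conv w hA.typed a.typed (.rel _ _ b)) r
      | piB _ b => exact .pi hA (ih' (w.cons hA.typed) b) r
  | @lam Γ A M B s h hM ih =>
      intro w M' b
      obtain ⟨s', hA⟩ := fpi_dom h
      cases b with
      | lamA _ b =>
          have h2 := fsr h w _ (.piA _ b)
          obtain ⟨s'', hA'⟩ := fpi_dom h2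
          exact .conv (.lam h2 (hM.ctx_conv w hA hA' (.rel _ _ b))) h
            (BetaEq.symm (.rel _ _ (.piA _ b)))
      | lamM _ b => exact .lam h (ih (w.cons hA) b)
  | @appN Γ F Q A B hn hF hQ ih ih' =>
      intro w M' b
      cases b with
      | redex A0 M0 _ => cases hn
      | appL _ b => exact .appN (neu_beta hn b) (ih w b) hQ
      | appR _ b =>
          obtain ⟨s, hp⟩ := fpi_typed w hF.typed
          obtain ⟨s₁, s₂, s₃, _, hB, _, _⟩ := fgen_pi hp _ _ rfl
          exact .conv (.appN hn hF (ih' w b)) (tyf_inst w hB hQ.typed)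
            (BetaEq.symm (red_inst (.single b) .refl).eq)
  | @appM Γ F Q A B hm hF hQ ih ih' =>
      intro w M' b
      cases b with
      | redex A0 M0 _ =>
          rw [subst_eq]
          exact hF.contract w hQ hm
      | appL _ b => exact .appM hm (ih w b) hQ
      | appR _ b =>
          obtain ⟨s, hp⟩ := fpi_typed w hF.typed
          obtain ⟨s₁, s₂, s₃, _, hB, _, _⟩ := fgen_pi hp _ _ rfl
          exact .conv (.appM hm hF (ih' w b)) (tyf_inst w hB hQ.typed)
            (BetaEq.symm (red_inst (.single b) .refl).eq)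
  | conv _ h e ih => intro w M' b; exact .conv (ih w b) h e

theorem Gd.red {Γ : ℕ → Term S} (w : WfF P Γ) {M M' T : Term S} (h : Gd P D Γ M T)
    (r : Red M M') : Gd P D Γ M' T := by
  induction r with
  | refl => exact h
  | tail _ b ih => exact ih.step w b

/-- a normal function that is applied is neutral -/
theorem neu_of_normal {F : Term S} : ∀ {Γ : ℕ → Term S} {Q A B : Term S},
    Normal (app F Q) → TyF P Γ F (Term.pi A B) → Neu F := by
  induction F with
  | var k => intro Γ Q A B _ _; exact .var k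
  | sort s =>
      intro Γ Q A B _ h
      obtain ⟨s', _, e⟩ := fgen_sort h _ rfl
      exact absurd (BetaEq.symm e) not_sort_pi
  | app F1 Q1 ih _ =>
      intro Γ Q A B hn h
      obtain ⟨A1, B1, h1, _, _⟩ := fgen_app h _ _ rfl
      exact .app _ (ih (fun K b => hn _ (.appL _ b)) h1)
  | lam A1 M1 _ _ =>
      intro Γ Q A B hn _
      exact absurd (beta_redex A1 M1 Q) (hn _)
  | pi A1 B1 _ _ =>
      intro Γ Q A B _ h
      obtain ⟨_, _, s₃, _, _, _, e⟩ := fgen_pi h _ _ rfl
      exact absurd (BetaEq.symm e) not_sort_pi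

theorem Gd.of_normal {Γ : ℕ → Term S} {M T : Term S} (h : TyF P Γ M T) :
    Normal M → Gd P D Γ M T := by
  induction h with
  | ax h => intro _; exact .sort h
  | var h _ => intro _; exact .var h
  | prod _ _ r ih ih' =>
      intro hn
      exact .pi (ih fun K b => hn _ (.piA _ b)) (ih' fun K b => hn _ (.piB _ b)) r
  | abs _ h ih _ => intro hn; exact .lam h (ih fun K b => hn _ (.lamM _ b))
  | appl h _ ih ih' =>
      intro hn
      exact .appN (neu_of_normal hn h) (ih fun K b => hn _ (.appL _ b))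
        (ih' fun K b => hn _ (.appR _ b))
  | conv _ h e ih _ => intro hn; exact .conv (ih hn) h e

end Crest.Agent.R298.T891
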