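import Mathlib
import Crest.Prelude.Def_PTS

/-!
R298, finite sort graph (helper328).

* `Fin' P` : finitely many axioms and rules; `typed_fin`: every derivation lives in a finite
  sub-spec; `reduce`: it is enough to prove S0452 for finite specs.
* `Ed P p s t` : signed edge (`p = true` for a domain edge `a → c`, `p = false` for a codomain edge
  `b → c` of a rule `(a,b,c)`), `Pt P p s t` : path, `p` = parity of its number of domain edges.
* `exists_idx` : topological index of the SCCs, not increasing along edges.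
* `even_or_all` : an SCC is 2-colourable or has paths of both parities between any two of its sorts.
* `chain_scc` : an infinite backward path is eventually inside one SCC.
-/

set_option autoImplicit false

universe u

namespace Crest.Agent.R298.Gr328

open Crest.LogicCS.PTS Crest.LogicCS.PTS.Term

variable {S : Type u}

/-- finitely many axioms and rules -/
def Fin' (P : Spec S) : Prop :=
  {p : S × S | P.ax p.1 p.2}.Finite ∧ {p : S × S × S | P.rule p.1 p.2.1 p.2.2}.Finite

/-- inclusion of specs -/
def SubS (P Q : Spec S) : Prop :=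
  (∀ s t, P.ax s t → Q.ax s t) ∧ ∀ a b c, P.rule a b c → Q.rule a b c

/-- union of specs -/
def un (P Q : Spec S) : Spec S :=
  ⟨fun s t => P.ax s t ∨ Q.ax s t, fun a b c => P.rule a b c ∨ Q.rule a b c⟩

theorem SubS.refl (P : Spec S) : SubS P P := ⟨fun _ _ h => h, fun _ _ _ h => h⟩

theorem SubS.trans {P Q R : Spec S} (h : SubS P Q) (h' : SubS Q R) : SubS P R :=
  ⟨fun s t k => h'.1 s t (h.1 s t k), fun a b c k => h'.2 a b c (h.2 a b c k)⟩

theorem sub_un_left (P Q : Spec S) : SubS P (un P Q) :=
  ⟨fun _ _ h => Or.inl h, fun _ _ _ h => Or.inl h⟩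

theorem sub_un_right (P Q : Spec S) : SubS Q (un P Q) :=
  ⟨fun _ _ h => Or.inr h, fun _ _ _ h => Or.inr h⟩

theorem un_sub {P Q R : Spec S} (h : SubS P R) (h' : SubS Q R) : SubS (un P Q) R :=
  ⟨fun s t k => k.elim (h.1 s t) (h'.1 s t), fun a b c k => k.elim (h.2 a b c) (h'.2 a b c)⟩

theorem fin_un {P Q : Spec S} (h : Fin' P) (h' : Fin' Q) : Fin' (un P Q) := by
  constructor
  · refine (h.1.union h'.1).subset ?_
    rintro p (hp | hp)
    · exact Or.inl hp
    · exact Or.inr hp
  · refine (h.2.union h'.2).subset ?_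
    rintro p (hp | hp)
    · exact Or.inl hp
    · exact Or.inr hp

theorem typed_mono {P Q : Spec S} (h : SubS P Q) {Γ : List (Term S)} {M A : Term S}
    (t : Typed P Γ M A) : Typed Q Γ M A := by
  induction t with
  | ax a => exact Typed.ax (h.1 _ _ a)
  | start _ ih => exact Typed.start ih
  | weak _ _ ih1 ih2 => exact Typed.weak ih1 ih2
  | prod _ _ r ih1 ih2 => exact Typed.prod ih1 ih2 (h.2 _ _ _ r)
  | abs _ _ ih1 ih2 => exact Typed.abs ih1 ih2
  | appl _ _ ih1 ih2 => exact Typed.appl ih1 ih2
  | conv _ _ e ih1 ih2 => exact Typed.conv ih1 ih2 e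

theorem legal_mono {P Q : Spec S} (h : SubS P Q) {Γ : List (Term S)} {M : Term S}
    (t : Legal P Γ M) : Legal Q Γ M := by
  obtain ⟨N, t | t⟩ := t
  · exact ⟨N, Or.inl (typed_mono h t)⟩
  · exact ⟨N, Or.inr (typed_mono h t)⟩

/-- the spec with one axiom -/
def axS (s t : S) : Spec S := ⟨fun x y => x = s ∧ y = t, fun _ _ _ => False⟩

/-- the spec with one rule -/
def ruS (a b c : S) : Spec S := ⟨fun _ _ => False, fun x y z => x = a ∧ y = b ∧ z = c⟩

theorem fin_axS (s t : S) : Fin' (axS s t) := by
  constructor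
  · refine (Set.finite_singleton (s, t)).subset ?_
    rintro ⟨x, y⟩ ⟨hx, hy⟩
    exact Set.mem_singleton_iff.2 (Prod.ext hx hy)
  · refine Set.finite_empty.subset ?_
    rintro p hp
    exact hp

theorem fin_ruS (a b c : S) : Fin' (ruS a b c) := by
  constructor
  · refine Set.finite_empty.subset ?_
    rintro p hp
    exact hp
  · refine (Set.finite_singleton (a, b, c)).subset ?_
    rintro ⟨x, y, z⟩ ⟨hx, hy, hz⟩
    exact Set.mem_singleton_iff.2 (Prod.ext hx (Prod.ext hy hz))

/-- every derivation uses only finitely many axioms and rules -/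
theorem typed_fin {P : Spec S} {Γ : List (Term S)} {M A : Term S} (t : Typed P Γ M A) :
    ∃ Q, Fin' Q ∧ SubS Q P ∧ Typed Q Γ M A := by
  induction t with
  | @ax s t a =>
    exact ⟨axS s t, fin_axS s t, ⟨fun x y h => by obtain ⟨rfl, rfl⟩ := h; exact a,
      fun _ _ _ h => h.elim⟩, Typed.ax ⟨rfl, rfl⟩⟩
  | start _ ih =>
    obtain ⟨Q, f, s, t⟩ := ih
    exact ⟨Q, f, s, Typed.start t⟩
  | weak _ _ ih1 ih2 =>
    obtain ⟨Q, f, s, t⟩ := ih1
    obtain ⟨Q', f', s', t'⟩ := ih2
    exact ⟨un Q Q', fin_un f f', un_sub s s', Typed.weak (typed_mono (sub_un_left _ _) t)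
      (typed_mono (sub_un_right _ _) t')⟩
  | @prod Γ A B a b c _ _ r ih1 ih2 =>
    obtain ⟨Q, f, s, t⟩ := ih1
    obtain ⟨Q', f', s', t'⟩ := ih2
    refine ⟨un (un Q Q') (ruS a b c), fin_un (fin_un f f') (fin_ruS a b c),
      un_sub (un_sub s s') ⟨fun _ _ h => h.elim, fun x y z h => ?_⟩, Typed.prod
      (typed_mono ((sub_un_left _ _).trans (sub_un_left _ _)) t)
      (typed_mono ((sub_un_right _ _).trans (sub_un_left _ _)) t') (Or.inr ⟨rfl, rfl, rfl⟩)⟩
    obtain ⟨rfl, rfl, rfl⟩ := h
    exact r
  | abs _ _ ih1 ih2 =>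
    obtain ⟨Q, f, s, t⟩ := ih1
    obtain ⟨Q', f', s', t'⟩ := ih2
    exact ⟨un Q Q', fin_un f f', un_sub s s', Typed.abs (typed_mono (sub_un_left _ _) t)
      (typed_mono (sub_un_right _ _) t')⟩
  | appl _ _ ih1 ih2 =>
    obtain ⟨Q, f, s, t⟩ := ih1
    obtain ⟨Q', f', s', t'⟩ := ih2
    exact ⟨un Q Q', fin_un f f', un_sub s s', Typed.appl (typed_mono (sub_un_left _ _) t)
      (typed_mono (sub_un_right _ _) t')⟩
  | conv _ _ e ih1 ih2 =>
    obtain ⟨Q, f, s, t⟩ := ih1
    obtain ⟨Q', f', s', t'⟩ := ih2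
    exact ⟨un Q Q', fin_un f f', un_sub s s', Typed.conv (typed_mono (sub_un_left _ _) t)
      (typed_mono (sub_un_right _ _) t') e⟩

/-- it is enough to prove S0452 for finite specs -/
theorem reduce
    (main : ∀ Q : Spec S, Fin' Q → (∀ (Γ : List (Term S)) (M : Term S), Legal Q Γ M → WN M) →
      ∀ (Γ : List (Term S)) (M : Term S), Legal Q Γ M → SN M)
    (P : Spec S) (h : ∀ (Γ : List (Term S)) (M : Term S), Legal P Γ M → WN M)
    (Γ : List (Term S)) (M : Term S) (hM : Legal P Γ M) : SN M := by
  obtain ⟨N, t⟩ := hM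
  have key : ∃ Q, Fin' Q ∧ SubS Q P ∧ Legal Q Γ M := by
    rcases t with t | t
    · obtain ⟨Q, f, s, t⟩ := typed_fin t
      exact ⟨Q, f, s, N, Or.inl t⟩
    · obtain ⟨Q, f, s, t⟩ := typed_fin t
      exact ⟨Q, f, s, N, Or.inr t⟩
  obtain ⟨Q, f, s, l⟩ := key
  exact main Q f (fun Δ M' l' => h Δ M' (legal_mono s l')) Γ M l

/-! ### the signed graph -/

/-- signed edges: `Ed P true a c` (domain), `Ed P false b c` (codomain) for a rule `(a,b,c)` -/
inductive Ed (P : Spec S) : Bool → S → S → Prop
  | dom {a b c : S} : P.rule a b c → Ed P true a c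
  | cod {a b c : S} : P.rule a b c → Ed P false b c

/-- paths; the Boolean is the parity of the number of domain edges -/
inductive Pt (P : Spec S) : Bool → S → S → Prop
  | refl (s : S) : Pt P false s s
  | step {p q : Bool} {s t v : S} : Ed P p s t → Pt P q t v → Pt P (xor p q) s v

theorem Ed.pt {P : Spec S} {p : Bool} {s t : S} (h : Ed P p s t) : Pt P p s t := by
  have := Pt.step h (Pt.refl t)
  simpa using this

theorem Pt.trans {P : Spec S} {p q : Bool} {s t v : S} (h : Pt P p s t) (h' : Pt P q t v) :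
    Pt P (xor p q) s v := by
  induction h with
  | refl s => simpa using h'
  | step e _ ih =>
    have := Pt.step e (ih h')
    rwa [← Bool.xor_assoc] at this

/-- reachability -/
def Rch (P : Spec S) (s t : S) : Prop := ∃ p, Pt P p s t

theorem Rch.refl (P : Spec S) (s : S) : Rch P s s := ⟨false, Pt.refl s⟩

theorem Rch.trans {P : Spec S} {s t v : S} (h : Rch P s t) (h' : Rch P t v) : Rch P s v := by
  obtain ⟨p, h⟩ := h
  obtain ⟨q, h'⟩ := h'
  exact ⟨_, h.trans h'⟩

theorem Ed.rch {P : Spec S} {p : Bool} {s t : S} (h : Ed P p s t) : Rch P s t := ⟨p, h.pt⟩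

/-- mutual reachability -/
def Eqv (P : Spec S) (s t : S) : Prop := Rch P s t ∧ Rch P t s

theorem Eqv.refl (P : Spec S) (s : S) : Eqv P s s := ⟨Rch.refl P s, Rch.refl P s⟩

theorem Eqv.symm {P : Spec S} {s t : S} (h : Eqv P s t) : Eqv P t s := ⟨h.2, h.1⟩

theorem Eqv.trans {P : Spec S} {s t v : S} (h : Eqv P s t) (h' : Eqv P t v) : Eqv P s v :=
  ⟨h.1.trans h'.1, h'.2.trans h.2⟩

/-- the sorts that occur in a rule -/
def Occ (P : Spec S) (s : S) : Prop :=
  ∃ a b c, P.rule a b c ∧ (s = a ∨ s = b ∨ s = c)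

theorem occ_finite {P : Spec S} (h : Fin' P) : {s | Occ P s}.Finite := by
  have h1 : {s | Occ P s} ⊆
      ((fun p : S × S × S => p.1) '' {p : S × S × S | P.rule p.1 p.2.1 p.2.2}) ∪
      ((fun p : S × S × S => p.2.1) '' {p : S × S × S | P.rule p.1 p.2.1 p.2.2}) ∪
      ((fun p : S × S × S => p.2.2) '' {p : S × S × S | P.rule p.1 p.2.1 p.2.2}) := by
    rintro s ⟨a, b, c, r, rfl | rfl | rfl⟩
    · exact Or.inl (Or.inl ⟨(s, b, c), r, rfl⟩)
    · exact Or.inl (Or.inr ⟨(a, s, c), r, rfl⟩)
    · exact Or.inr ⟨(a, b, s), r, rfl⟩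
  exact (((h.2.image _).union (h.2.image _)).union (h.2.image _)).subset h1

theorem Ed.occ {P : Spec S} {p : Bool} {s t : S} (h : Ed P p s t) : Occ P s ∧ Occ P t := by
  cases h with
  | dom r => exact ⟨⟨_, _, _, r, Or.inl rfl⟩, ⟨_, _, _, r, Or.inr (Or.inr rfl)⟩⟩
  | cod r => exact ⟨⟨_, _, _, r, Or.inr (Or.inl rfl)⟩, ⟨_, _, _, r, Or.inr (Or.inr rfl)⟩⟩

theorem Pt.eq_or_occ {P : Spec S} {p : Bool} {s t : S} (h : Pt P p s t) :
    s = t ∨ (Occ P s ∧ Occ P t) := by
  induction h with
  | refl s => exact Or.inl rfl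
  | step e _ ih =>
    rcases ih with rfl | ih
    · exact Or.inr e.occ
    · exact Or.inr ⟨e.occ.1, ih.2⟩

/-- **topological index** of the strongly connected components. -/
theorem exists_idx {P : Spec S} (hP : Fin' P) :
    ∃ (idx : S → ℕ) (N : ℕ),
      (∀ s, idx s ≤ N) ∧
      (∀ a b c, P.rule a b c → idx c ≤ idx a ∧ idx c ≤ idx b) ∧
      (∀ s t, Rch P s t → idx t ≤ idx s) ∧
      (∀ s t, Occ P s → (idx s = idx t ↔ Eqv P s t)) ∧
      (∀ s, idx s = 0 ↔ ¬ Occ P s) := by
  classical
  set F : Finset S := (occ_finite hP).toFinset with hF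
  have memF : ∀ s, s ∈ F ↔ Occ P s := fun s => by simp [hF]
  let e : F ≃ Fin (Fintype.card F) := Fintype.equivFin F
  set N := Fintype.card F with hN
  let num : S → ℕ := fun s => if h : s ∈ F then (e ⟨s, h⟩ : ℕ) else 0
  have num_lt : ∀ s, num s ≤ N := by
    intro s
    simp only [num]
    split_ifs with h
    · exact (e ⟨s, h⟩).2.le
    · exact Nat.zero_le _
  have num_inj : ∀ s t, s ∈ F → t ∈ F → num s = num t → s = t := by
    intro s t hs ht h
    simp only [num, hs, ht, dif_pos] at h
    have := e.injective (Fin.ext h)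
    simpa using this
  let dn : S → ℕ := fun s => (F.filter fun t => Rch P s t).card
  let rp : S → ℕ := fun s => if h : ((F.filter fun t => Eqv P s t).image num).Nonempty then
    ((F.filter fun t => Eqv P s t).image num).min' h else 0
  have rp_le : ∀ s, rp s ≤ N := by
    intro s
    simp only [rp]
    split_ifs with h
    · have := Finset.min'_mem _ h
      obtain ⟨t, -, ht⟩ := Finset.mem_image.1 this
      rw [← ht]
      exact num_lt t
    · exact Nat.zero_le _
  have rp_congr : ∀ s t, Eqv P s t → rp s = rp t := by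
    intro s t h
    have : (F.filter fun v => Eqv P s v) = (F.filter fun v => Eqv P t v) := by
      apply Finset.filter_congr
      intro v _
      exact ⟨fun k => h.symm.trans k, fun k => h.trans k⟩
    simp only [rp, this]
  have rp_spec : ∀ s, s ∈ F → ∃ t ∈ F, Eqv P s t ∧ num t = rp s := by
    intro s hs
    have hne : ((F.filter fun t => Eqv P s t).image num).Nonempty :=
      ⟨num s, Finset.mem_image.2 ⟨s, Finset.mem_filter.2 ⟨hs, Eqv.refl P s⟩, rfl⟩⟩
    have := Finset.min'_mem _ hne
    obtain ⟨t, ht, ht'⟩ := Finset.mem_image.1 this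
    obtain ⟨ht1, ht2⟩ := Finset.mem_filter.1 ht
    refine ⟨t, ht1, ht2, ?_⟩
    simp only [rp, hne, dif_pos]
    exact ht'
  have rch_out : ∀ s t, Rch P s t → s ∉ F → s = t := by
    rintro s t ⟨p, h⟩ hs
    rcases h.eq_or_occ with h | h
    · exact h
    · exact absurd ((memF s).2 h.1) hs
  have rch_in : ∀ s t, Rch P s t → t ∉ F → s = t := by
    rintro s t ⟨p, h⟩ hs
    rcases h.eq_or_occ with h | h
    · exact h
    · exact absurd ((memF t).2 h.2) hs
  have dn_mono : ∀ s t, Rch P s t → dn t ≤ dn s := by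
    intro s t h
    apply Finset.card_le_card
    intro v hv
    obtain ⟨h1, h2⟩ := Finset.mem_filter.1 hv
    exact Finset.mem_filter.2 ⟨h1, h.trans h2⟩
  have dn_eq : ∀ s t, Rch P s t → dn s ≤ dn t → Eqv P s t := by
    intro s t h h'
    by_cases hs : s ∈ F
    · have hsub : (F.filter fun v => Rch P t v) ⊆ (F.filter fun v => Rch P s v) := by
        intro v hv
        obtain ⟨h1, h2⟩ := Finset.mem_filter.1 hv
        exact Finset.mem_filter.2 ⟨h1, h.trans h2⟩
      have heq := Finset.eq_of_subset_of_card_le hsub h'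
      have : s ∈ F.filter fun v => Rch P t v := by
        rw [heq]
        exact Finset.mem_filter.2 ⟨hs, Rch.refl P s⟩
      exact ⟨h, (Finset.mem_filter.1 this).2⟩
    · have := rch_out s t h hs
      subst this
      exact Eqv.refl P s
  let idx : S → ℕ := fun s => dn s * (N + 1) + rp s
  have idx_mono : ∀ s t, Rch P s t → idx t ≤ idx s := by
    intro s t h
    rcases lt_or_ge (dn t) (dn s) with h1 | h1
    · have h2 := rp_le t
      have h3 : dn t * (N + 1) + (N + 1) ≤ dn s * (N + 1) := by
        rw [← Nat.succ_mul]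
        exact Nat.mul_le_mul_right _ h1
      simp only [idx]
      omega
    · have h2 := dn_eq s t h h1
      have h3 := dn_mono s t h
      have h4 : dn t = dn s := le_antisymm h3 h1
      simp only [idx, h4, rp_congr s t h2, le_refl]
  have idx_out : ∀ s, s ∉ F → idx s = 0 := by
    intro s hs
    have h1 : dn s = 0 := by
      simp only [dn]
      rw [Finset.card_eq_zero, Finset.filter_eq_empty_iff]
      intro t ht h
      exact hs (by rw [rch_out s t h hs]; exact ht)
    have h2 : rp s = 0 := by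
      simp only [rp]
      rw [dif_neg]
      rintro ⟨x, hx⟩
      obtain ⟨t, ht, -⟩ := Finset.mem_image.1 hx
      obtain ⟨h1, h2⟩ := Finset.mem_filter.1 ht
      exact hs (by rw [rch_out s t h2.1 hs]; exact h1)
    simp only [idx, h1, h2, zero_mul, add_zero]
  have idx_in : ∀ s, s ∈ F → idx s ≠ 0 := by
    intro s hs h
    have h1 : 0 < dn s := Finset.card_pos.2 ⟨s, Finset.mem_filter.2 ⟨hs, Rch.refl P s⟩⟩
    simp only [idx] at h
    have h2 : 0 < dn s * (N + 1) := Nat.mul_pos h1 (Nat.succ_pos _)
    omega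
  refine ⟨idx, F.card * (N + 1) + N, ?_, ?_, idx_mono, ?_, ?_⟩
  · intro s
    have h1 : dn s ≤ F.card := Finset.card_filter_le _ _
    have h2 := rp_le s
    have h3 := Nat.mul_le_mul_right (N + 1) h1
    simp only [idx]
    omega
  · intro a b c r
    exact ⟨idx_mono a c (Ed.dom r).rch, idx_mono b c (Ed.cod r).rch⟩
  · intro s t hs
    have hs' := (memF s).2 hs
    constructor
    · intro h
      have ht' : t ∈ F := by
        by_contra ht
        rw [idx_out t ht] at h
        exact idx_in s hs' h
      have hd : dn s = dn t := by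
        simp only [idx] at h
        have h1 := rp_le s
        have h2 := rp_le t
        rcases lt_trichotomy (dn s) (dn t) with h3 | h3 | h3
        · have h4 : dn s * (N + 1) + (N + 1) ≤ dn t * (N + 1) := by
            rw [← Nat.succ_mul]
            exact Nat.mul_le_mul_right _ h3
          omega
        · exact h3
        · have h4 : dn t * (N + 1) + (N + 1) ≤ dn s * (N + 1) := by
            rw [← Nat.succ_mul]
            exact Nat.mul_le_mul_right _ h3
          omega
      have hr : rp s = rp t := by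
        simp only [idx, hd] at h
        omega
      obtain ⟨v, hv, hv1, hv2⟩ := rp_spec s hs'
      obtain ⟨w, hw, hw1, hw2⟩ := rp_spec t ht'
      have : v = w := num_inj v w hv hw (by rw [hv2, hw2, hr])
      subst this
      exact hv1.trans hw1.symm
    · intro h
      exact le_antisymm (idx_mono t s h.2) (idx_mono s t h.1)
  · intro s
    constructor
    · intro h hs
      exact idx_in s ((memF s).2 hs) h
    · intro h
      exact idx_out s (fun hs => h ((memF s).1 hs))

/-- an SCC (given by a representative `s₀`) is 2-colourable or has paths of both parities between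
any two of its sorts. -/
theorem even_or_all (P : Spec S) (s₀ : S) :
    (∃ χ : S → Bool, ∀ a c p, Eqv P s₀ a → Eqv P s₀ c → Ed P p a c → χ c = xor p (χ a)) ∨
    (∀ s t, Eqv P s₀ s → Eqv P s₀ t → ∀ p, Pt P p s t) := by
  classical
  by_cases h : Pt P true s₀ s₀
  · right
    intro s t hs ht p
    obtain ⟨q, hq⟩ := hs.2
    obtain ⟨r, hr⟩ := ht.1
    rcases Bool.eq_or_eq_not p (xor q r) with h1 | h1
    · rw [h1]
      exact hq.trans hr
    · have h2 := hq.trans (h.trans hr)
      have h3 : (q ^^ (true ^^ r)) = p := by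
        rw [h1]
        cases q <;> cases r <;> rfl
      rwa [h3] at h2
  · left
    have uniq : ∀ t, Eqv P s₀ t → ∀ p q, Pt P p s₀ t → Pt P q s₀ t → p = q := by
      intro t ht p q hp hq
      obtain ⟨r, hr⟩ := ht.2
      by_contra hne
      have h1 := hp.trans hr
      have h2 := hq.trans hr
      have : (p ^^ r) = true ∨ (q ^^ r) = true := by
        cases p <;> cases q <;> cases r <;> simp_all
      rcases this with h3 | h3
      · rw [h3] at h1
        exact h h1
      · rw [h3] at h2
        exact h h2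
    refine ⟨fun t => if Pt P true s₀ t then true else false, ?_⟩
    intro a c p ha hc e
    obtain ⟨q, hq⟩ := ha.1
    have h1 : Pt P (xor q p) s₀ c := by
      have := hq.trans e.pt
      simpa using this
    have ha' : (if Pt P true s₀ a then true else false) = q := by
      cases q with
      | true => simp [hq]
      | false =>
        have : ¬ Pt P true s₀ a := fun k => by
          have := uniq a ha _ _ hq k
          simp at this
        simp [this]
    have hc' : (if Pt P true s₀ c then true else false) = xor q p := by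
      cases hqp : (xor q p) with
      | true =>
        rw [hqp] at h1
        simp [h1]
      | false =>
        rw [hqp] at h1
        have : ¬ Pt P true s₀ c := fun k => by
          have := uniq c hc _ _ h1 k
          simp at this
        simp [this]
    simp only [ha', hc']
    exact Bool.xor_comm q p

/-- unipolar SCC: no rule with all three sorts in it, or 2-colourable -/
def Unip (P : Spec S) (s₀ : S) : Prop :=
  (∀ a b c, P.rule a b c → ¬ (Eqv P s₀ a ∧ Eqv P s₀ b ∧ Eqv P s₀ c)) ∨
  (∃ χ : S → Bool, ∀ a c p, Eqv P s₀ a → Eqv P s₀ c → Ed P p a c → χ c = xor p (χ a))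

/-- bipolar SCC: a rule with all three sorts in it, and paths of both parities everywhere -/
def Bip (P : Spec S) (s₀ : S) : Prop :=
  (∃ a b c, P.rule a b c ∧ Eqv P s₀ a ∧ Eqv P s₀ b ∧ Eqv P s₀ c) ∧
  (∀ s t, Eqv P s₀ s → Eqv P s₀ t → ∀ p, Pt P p s t)

theorem unip_or_bip (P : Spec S) (s₀ : S) : Unip P s₀ ∨ Bip P s₀ := by
  by_cases h : ∃ a b c, P.rule a b c ∧ Eqv P s₀ a ∧ Eqv P s₀ b ∧ Eqv P s₀ c
  · rcases even_or_all P s₀ with h' | h'
    · exact Or.inl (Or.inr h')
    · exact Or.inr ⟨h, h'⟩
  · left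
    left
    intro a b c r k
    exact h ⟨a, b, c, r, k⟩

/-- every intermediate sort of a path inside an SCC is in the SCC: paths as chains -/
theorem Eqv.of_between {P : Spec S} {s₀ s t v : S} (hs : Eqv P s₀ s) (hv : Eqv P s₀ v)
    (h : Rch P s t) (h' : Rch P t v) : Eqv P s₀ t :=
  ⟨hs.1.trans h, h'.trans hv.2⟩

/-- an infinite backward path of sorts is eventually inside one SCC -/
theorem chain_scc {P : Spec S} (hP : Fin' P) (c : ℕ → S) (h : ∀ n, Rch P (c (n + 1)) (c n)) :
    ∃ N, ∀ m n, N ≤ m → N ≤ n → Eqv P (c m) (c n) := by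
  obtain ⟨idx, K, hK, -, hmono, -, -⟩ := exists_idx hP
  have hle : ∀ m n, m ≤ n → Rch P (c n) (c m) := by
    intro m n hmn
    induction n, hmn using Nat.le_induction with
    | base => exact Rch.refl P _
    | succ n _ ih => exact (h n).trans ih
  by_cases hocc : ∃ n, ¬ Occ P (c n)
  · -- then the chain is constant from `n` on
    obtain ⟨n, hn⟩ := hocc
    have : ∀ m, n ≤ m → c m = c n := by
      intro m hm
      obtain ⟨p, hp⟩ := hle n m hm
      rcases hp.eq_or_occ with h1 | h1
      · exact h1
      · exact absurd h1.2 hn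
    refine ⟨n, fun m m' hm hm' => ?_⟩
    rw [this m hm, this m' hm']
    exact Eqv.refl P _
  · push Not at hocc
    obtain ⟨idx, K, hK, -, hmono, heq, -⟩ := exists_idx hP
    -- `idx ∘ c` is monotone and bounded
    have hm : Monotone fun n => idx (c n) := fun m n hmn => hmono _ _ (hle m n hmn)
    have hb : ∃ N, ∀ n, N ≤ n → idx (c n) = idx (c N) := by
      by_contra hcon
      push Not at hcon
      have hstep : ∀ k, ∃ n, k ≤ idx (c n) := by
        intro k
        induction k with
        | zero => exact ⟨0, Nat.zero_le _⟩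
        | succ k ih =>
          obtain ⟨n, hn⟩ := ih
          obtain ⟨m, hm1, hm2⟩ := hcon n
          have := hm hm1
          simp only at this
          exact ⟨m, by omega⟩
      obtain ⟨n, hn⟩ := hstep (K + 1)
      have := hK (c n)
      omega
    obtain ⟨N, hN⟩ := hb
    refine ⟨N, fun m n hm hn => ?_⟩
    exact (heq _ _ (hocc m)).1 (by rw [hN m hm, hN n hn])

end Crest.Agent.R298.Gr328
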