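import Mathlib.Data.Nat.Notation
import Mathlib.Tactic.Tauto
import Mathlib.Tactic.Basic

/-!
R298 (S0452), part P.  The paradox of doc 2233 (A) (helper201: posets as families of sets ordered by
inclusion) in HENKIN form: deep formulas, shallow proofs.  (helper705)

A structure has three carriers `U`, `P` (= predicates on `U`), `Q` (= predicates on `P`), membership
relations `m1`, `m2`, a map `code : Q → U` and a relation `E` on `U`.  Comprehension is only assumed for the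
sets defined by a formula `Fm` (with parameters), nothing is extensional, equality is Leibniz equality.
-/

set_option autoImplicit false

namespace Crest.Agent.R298.HPar705

universe u

/-- a term of sort `U` inside formulas: a variable or `code` of a variable of sort `Q` -/
inductive UT
  | var (n : ℕ)
  | code (n : ℕ)

/-- formulas, one separate de Bruijn stack for each of the sorts `U`, `P`, `Q` -/
inductive Fm
  | bot
  | imp (a b : Fm)
  | allU (a : Fm)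
  | allP (a : Fm)
  | allQ (a : Fm)
  | m1 (i : ℕ) (t : UT)
  | m2 (j i : ℕ)
  | E (s t : UT)

/-- the structure (in the application: closed terms over the big context) -/
structure HStr where
  U : Type u
  P : Type u
  Q : Type u
  m1 : P → U → Prop
  m2 : Q → P → Prop
  code : Q → U
  E : U → U → Prop

/-- environments -/
structure Env (M : HStr.{u}) where
  U : ℕ → M.U
  P : ℕ → M.P
  Q : ℕ → M.Q

variable {M : HStr.{u}}

def Env.pU (x : M.U) (ρ : Env M) : Env M := ⟨fun n => Nat.casesOn n x ρ.U, ρ.P, ρ.Q⟩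
def Env.pP (x : M.P) (ρ : Env M) : Env M := ⟨ρ.U, fun n => Nat.casesOn n x ρ.P, ρ.Q⟩
def Env.pQ (x : M.Q) (ρ : Env M) : Env M := ⟨ρ.U, ρ.P, fun n => Nat.casesOn n x ρ.Q⟩

def val (ρ : Env M) : UT → M.U
  | .var n => ρ.U n
  | .code n => M.code (ρ.Q n)

def eval (ρ : Env M) : Fm → Prop
  | .bot => False
  | .imp a b => eval ρ a → eval ρ b
  | .allU a => ∀ x : M.U, eval (ρ.pU x) a
  | .allP a => ∀ x : M.P, eval (ρ.pP x) a
  | .allQ a => ∀ x : M.Q, eval (ρ.pQ x) a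
  | .m1 i t => M.m1 (ρ.P i) (val ρ t)
  | .m2 j i => M.m2 (ρ.Q j) (ρ.P i)
  | .E s t => M.E (val ρ s) (val ρ t)

/-! ### notions of the paradox -/
section notions
variable (M : HStr.{u})

/-- Leibniz equality on `U` -/
def eqU (a b : M.U) : Prop := ∀ Z : M.P, M.m1 Z a → M.m1 Z b
def le (S S' : M.P) : Prop := ∀ x, M.m1 S x → M.m1 S' x
/-- `T' == child(T, S)` -/
def isChild (T : M.Q) (S : M.P) (T' : M.Q) : Prop :=
  ∀ S', M.m2 T' S' ↔ (M.m2 T S' ∧ le M S' S ∧ ¬ le M S S')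

/-- law (0) of doc 2233 -/
def Law0 : Prop := ∀ (w : M.U) (T : M.Q),
  M.E w (M.code T) ↔ ∃ S, M.m2 T S ∧ ∃ T', isChild M T S T' ∧ eqU M (M.code T') w

/-- comprehension for `P` -/
def Comp1 : Prop := ∀ (f : Fm) (ρ : Env M), ∃ S : M.P, ∀ x, M.m1 S x ↔ eval (ρ.pU x) f
/-- comprehension for `Q` -/
def Comp2 : Prop := ∀ (f : Fm) (ρ : Env M), ∃ T : M.Q, ∀ S, M.m2 T S ↔ eval (ρ.pP S) f

def WF (u : M.U) : Prop := ∀ Z : M.P, (∀ v, (∀ w, M.E w v → M.m1 Z w) → M.m1 Z v) → M.m1 Z u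
def Es (w v : M.U) : Prop := ∀ Z : M.P, (∀ x, M.E x v → M.m1 Z x) →
  (∀ x y, M.m1 Z y → M.E x y → M.m1 Z x) → M.m1 Z w
def dn (w x : M.U) : Prop := eqU M x w ∨ Es M x w
def isDn (S : M.P) (w : M.U) : Prop := ∀ x, M.m1 S x ↔ dn M w x
/-- `T == B(u)` -/
def isB (T : M.Q) (u : M.U) : Prop := ∀ S, M.m2 T S ↔ ∃ w, Es M w u ∧ isDn M S w

end notions

/-! ### definability -/
def Dfn (R : Env M → Prop) : Prop := ∃ f : Fm, ∀ ρ, eval ρ f ↔ R ρ

namespace Dfn
variable {R R' : Env M → Prop}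

theorem congr (h : Dfn R) (e : ∀ ρ, R ρ ↔ R' ρ) : Dfn R' := by
  obtain ⟨f, hf⟩ := h
  exact ⟨f, fun ρ => (hf ρ).trans (e ρ)⟩

theorem bot : Dfn (fun _ : Env M => False) := ⟨.bot, fun _ => Iff.rfl⟩

theorem imp (h : Dfn R) (h' : Dfn R') : Dfn (fun ρ => R ρ → R' ρ) := by
  obtain ⟨f, hf⟩ := h
  obtain ⟨g, hg⟩ := h'
  exact ⟨.imp f g, fun ρ => by simp [eval, hf, hg]⟩

theorem not (h : Dfn R) : Dfn (fun ρ => ¬ R ρ) := h.imp bot

theorem or (h : Dfn R) (h' : Dfn R') : Dfn (fun ρ => R ρ ∨ R' ρ) :=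
  (h.not.imp h').congr (fun ρ => by tauto)

theorem and (h : Dfn R) (h' : Dfn R') : Dfn (fun ρ => R ρ ∧ R' ρ) :=
  (h.imp h'.not).not.congr (fun ρ => by tauto)

theorem iff (h : Dfn R) (h' : Dfn R') : Dfn (fun ρ => R ρ ↔ R' ρ) :=
  ((h.imp h').and (h'.imp h)).congr (fun ρ => by tauto)

theorem allU (h : Dfn R) : Dfn (fun ρ : Env M => ∀ x, R (ρ.pU x)) := by
  obtain ⟨f, hf⟩ := h
  exact ⟨.allU f, fun ρ => by simp [eval, hf]⟩

theorem allP (h : Dfn R) : Dfn (fun ρ : Env M => ∀ x, R (ρ.pP x)) := by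
  obtain ⟨f, hf⟩ := h
  exact ⟨.allP f, fun ρ => by simp [eval, hf]⟩

theorem allQ (h : Dfn R) : Dfn (fun ρ : Env M => ∀ x, R (ρ.pQ x)) := by
  obtain ⟨f, hf⟩ := h
  exact ⟨.allQ f, fun ρ => by simp [eval, hf]⟩

theorem exU (h : Dfn R) : Dfn (fun ρ : Env M => ∃ x, R (ρ.pU x)) :=
  (h.not.allU).not.congr (fun ρ => by simp)

theorem exP (h : Dfn R) : Dfn (fun ρ : Env M => ∃ x, R (ρ.pP x)) :=
  (h.not.allP).not.congr (fun ρ => by simp)

theorem m1 (i : ℕ) (t : UT) : Dfn (fun ρ : Env M => M.m1 (ρ.P i) (val ρ t)) :=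
  ⟨.m1 i t, fun _ => Iff.rfl⟩
theorem m2 (j i : ℕ) : Dfn (fun ρ : Env M => M.m2 (ρ.Q j) (ρ.P i)) := ⟨.m2 j i, fun _ => Iff.rfl⟩
theorem E (s t : UT) : Dfn (fun ρ : Env M => M.E (val ρ s) (val ρ t)) := ⟨.E s t, fun _ => Iff.rfl⟩

end Dfn

/-- shift of a `U`-term under a `U`-binder -/
def UT.up : UT → UT
  | .var n => .var (n + 1)
  | .code n => .code n

/-- shift of a `U`-term under a `Q`-binder -/
def UT.uq : UT → UT
  | .var n => .var n
  | .code n => .code (n + 1)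

theorem val_up (ρ : Env M) (x : M.U) (t : UT) : val (ρ.pU x) t.up = val ρ t := by cases t <;> rfl
theorem val_pP (ρ : Env M) (x : M.P) (t : UT) : val (ρ.pP x) t = val ρ t := by cases t <;> rfl
theorem val_uq (ρ : Env M) (x : M.Q) (t : UT) : val (ρ.pQ x) t.uq = val ρ t := by cases t <;> rfl
theorem val_v0 (ρ : Env M) (x : M.U) : val (ρ.pU x) (.var 0) = x := rfl
theorem val_v1 (ρ : Env M) (x y : M.U) : val ((ρ.pU x).pU y) (.var 1) = x := rfl
theorem pP_0 (ρ : Env M) (x : M.P) : (ρ.pP x).P 0 = x := rfl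
theorem pP_s (ρ : Env M) (x : M.P) (n : ℕ) : (ρ.pP x).P (n + 1) = ρ.P n := rfl
theorem pQ_0 (ρ : Env M) (x : M.Q) : (ρ.pQ x).Q 0 = x := rfl
theorem pQ_s (ρ : Env M) (x : M.Q) (n : ℕ) : (ρ.pQ x).Q (n + 1) = ρ.Q n := rfl
theorem pU_P (ρ : Env M) (x : M.U) (n : ℕ) : (ρ.pU x).P n = ρ.P n := rfl
theorem pU_Q (ρ : Env M) (x : M.U) (n : ℕ) : (ρ.pU x).Q n = ρ.Q n := rfl
theorem pP_Q (ρ : Env M) (x : M.P) (n : ℕ) : (ρ.pP x).Q n = ρ.Q n := rfl
theorem pQ_P (ρ : Env M) (x : M.Q) (n : ℕ) : (ρ.pQ x).P n = ρ.P n := rfl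

theorem d_eqU (s t : UT) : Dfn (fun ρ : Env M => eqU M (val ρ s) (val ρ t)) :=
  (Dfn.allP ((Dfn.m1 0 s).imp (Dfn.m1 0 t))).congr (fun ρ => by simp only [eqU, val_pP, pP_0])

theorem d_WF (t : UT) : Dfn (fun ρ : Env M => WF M (val ρ t)) :=
  (Dfn.allP (((((Dfn.E (.var 0) (.var 1)).imp (Dfn.m1 0 (.var 0))).allU.imp
    (Dfn.m1 0 (.var 0))).allU).imp (Dfn.m1 0 t))).congr
    (fun ρ => by simp only [WF, val_pP, pP_0, val_v0, val_v1, pU_P])

theorem d_Es (s t : UT) : Dfn (fun ρ : Env M => Es M (val ρ s) (val ρ t)) :=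
  (Dfn.allP ((((Dfn.E (.var 0) t.up).imp (Dfn.m1 0 (.var 0))).allU).imp
    ((((Dfn.m1 0 (.var 0)).imp ((Dfn.E (.var 1) (.var 0)).imp (Dfn.m1 0 (.var 1)))).allU.allU).imp
      (Dfn.m1 0 s)))).congr
    (fun ρ => by simp only [Es, val_pP, pP_0, val_v0, val_v1, pU_P, val_up])

theorem d_dn (s t : UT) : Dfn (fun ρ : Env M => dn M (val ρ s) (val ρ t)) :=
  (d_eqU t s).or (d_Es t s)

theorem d_le (i j : ℕ) : Dfn (fun ρ : Env M => le M (ρ.P i) (ρ.P j)) :=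
  (((Dfn.m1 i (.var 0)).imp (Dfn.m1 j (.var 0))).allU).congr
    (fun ρ => by simp only [le, val_v0, pU_P])

theorem d_isDn (i : ℕ) (t : UT) : Dfn (fun ρ : Env M => isDn M (ρ.P i) (val ρ t)) :=
  (((Dfn.m1 i (.var 0)).iff (d_dn t.up (.var 0))).allU).congr
    (fun ρ => by simp only [isDn, val_v0, pU_P, val_up])

theorem d_isB (j : ℕ) (t : UT) : Dfn (fun ρ : Env M => isB M (ρ.Q j) (val ρ t)) :=
  (((Dfn.m2 j 0).iff (((d_Es (.var 0) t.up).and (d_isDn 0 (.var 0))).exU)).allP).congr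
    (fun ρ => by simp only [isB, val_v0, pU_P, val_up, val_pP, pP_0, pP_Q])

/-- definable unary predicate on `U` -/
def Def1 (φ : M.U → Prop) : Prop := ∃ (R : Env M → Prop) (ρ : Env M), Dfn R ∧ ∀ x, R (ρ.pU x) ↔ φ x

section main
variable (c1 : Comp1 M) (c2 : Comp2 M) (h0 : Law0 M) (ρ : Env M)

include c1 in
theorem comp1 {φ : M.U → Prop} (h : Def1 φ) : ∃ S : M.P, ∀ x, M.m1 S x ↔ φ x := by
  obtain ⟨R, ρ, ⟨f, hf⟩, hR⟩ := h
  obtain ⟨S, hS⟩ := c1 f ρ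
  exact ⟨S, fun x => (hS x).trans ((hf _).trans (hR x))⟩

include c2 in
theorem comp2 {φ : M.P → Prop} {R : Env M → Prop} (hd : Dfn R) (ρ : Env M)
    (hR : ∀ x, R (ρ.pP x) ↔ φ x) : ∃ S : M.Q, ∀ x, M.m2 S x ↔ φ x := by
  obtain ⟨f, hf⟩ := hd
  obtain ⟨S, hS⟩ := c2 f ρ
  exact ⟨S, fun x => (hS x).trans ((hf _).trans (hR x))⟩

include c1 c2 h0 ρ in
/-- **The paradox.** -/
theorem paradox : False := by
  -- parameters: `ρ.pU c` puts the parameter `c` at index 1 of `(ρ.pU c).pU x`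
  have use : ∀ {φ : M.U → Prop}, Def1 φ → ∀ {a b}, eqU M a b → φ a → φ b := by
    intro φ hφ a b hab ha
    obtain ⟨Z, hZ⟩ := comp1 c1 hφ
    exact (hZ b).1 (hab Z ((hZ a).2 ha))
  have eqr : ∀ a, eqU M a a := fun a Z h => h
  have eqs : ∀ {a b}, eqU M a b → eqU M b a := by
    intro a b hab
    exact use (φ := fun x => eqU M x a) ⟨_, ρ.pU a, d_eqU (.var 0) (.var 1), fun x => Iff.rfl⟩
      hab (eqr a)
  have eqt : ∀ {a b c}, eqU M a b → eqU M b c → eqU M a c := fun h h' Z hZ => h' Z (h Z hZ)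
  have E1 : ∀ {a b v}, eqU M a b → M.E a v → M.E b v := by
    intro a b v hab h
    exact use (φ := fun x => M.E x v) ⟨_, ρ.pU v, Dfn.E (.var 0) (.var 1), fun x => Iff.rfl⟩ hab h
  have E2 : ∀ {a b v}, eqU M a b → M.E v a → M.E v b := by
    intro a b v hab h
    exact use (φ := fun x => M.E v x) ⟨_, ρ.pU v, Dfn.E (.var 1) (.var 0), fun x => Iff.rfl⟩ hab h
  have Es1 : ∀ {a b v}, eqU M a b → Es M a v → Es M b v := by
    intro a b v hab h
    exact use (φ := fun x => Es M x v) ⟨_, ρ.pU v, d_Es (.var 0) (.var 1), fun x => Iff.rfl⟩ hab h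
  have Es2 : ∀ {a b v}, eqU M a b → Es M v a → Es M v b := by
    intro a b v hab h
    exact use (φ := fun x => Es M v x) ⟨_, ρ.pU v, d_Es (.var 1) (.var 0), fun x => Iff.rfl⟩ hab h
  have WF1 : ∀ {a b}, eqU M a b → WF M a → WF M b := by
    intro a b hab h
    exact use (φ := fun x => WF M x) ⟨_, ρ, d_WF (.var 0), fun x => Iff.rfl⟩ hab h
  have useWF : ∀ {u}, WF M u → ∀ {φ : M.U → Prop}, Def1 φ →
      (∀ v, (∀ w, M.E w v → φ w) → φ v) → φ u := by
    intro u hu φ hφ h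
    obtain ⟨Z, hZ⟩ := comp1 c1 hφ
    exact (hZ u).1 (hu Z (fun v hv => (hZ v).2 (h v (fun w hw => (hZ w).1 (hv w hw)))))
  have useEs : ∀ {w v}, Es M w v → ∀ {φ : M.U → Prop}, Def1 φ → (∀ x, M.E x v → φ x) →
      (∀ x y, φ y → M.E x y → φ x) → φ w := by
    intro w v h φ hφ h1 h2
    obtain ⟨Z, hZ⟩ := comp1 c1 hφ
    exact (hZ w).1 (h Z (fun x hx => (hZ x).2 (h1 x hx))
      (fun x y hy hx => (hZ x).2 (h2 x y ((hZ y).1 hy) hx)))
  have es1 : ∀ {x v}, M.E x v → Es M x v := fun h Z hZ _ => hZ _ h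
  have es2 : ∀ {x y v}, M.E x y → Es M y v → Es M x v := fun h1 h2 Z hZ hZ' => hZ' _ _ (h2 Z hZ hZ') h1
  have estr : ∀ {a b c}, Es M a b → Es M b c → Es M a c := by
    intro a b c hab hbc
    exact useEs hab (φ := fun z => Es M z c)
      ⟨_, ρ.pU c, d_Es (.var 0) (.var 1), fun x => Iff.rfl⟩
      (fun x hx => es2 hx hbc) (fun x y hy hx => es2 hx hy)
  have esdec : ∀ {w v}, Es M w v → ∃ x, M.E x v ∧ dn M x w := by
    intro w v h
    refine useEs h (φ := fun w => ∃ x, M.E x v ∧ dn M x w)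
      ⟨_, ρ.pU v, ((Dfn.E (.var 0) (.var 2)).and (d_dn (.var 0) (.var 1))).exU, fun x => Iff.rfl⟩
      (fun x hx => ⟨x, hx, Or.inl (eqr x)⟩) ?_
    rintro x y ⟨z, hz, hy⟩ hxy
    refine ⟨z, hz, Or.inr ?_⟩
    rcases hy with hy | hy
    · exact es1 (E2 hy hxy)
    · exact es2 hxy hy
  have wfI : ∀ {v}, (∀ w, M.E w v → WF M w) → WF M v :=
    fun h Z hZ => hZ _ (fun w hw => h w hw Z hZ)
  have wfE : ∀ {w v}, WF M v → M.E w v → WF M w := by
    intro w v hv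
    have := useWF hv (φ := fun v => WF M v ∧ ∀ w, M.E w v → WF M w)
      ⟨_, ρ, (d_WF (.var 0)).and (((Dfn.E (.var 0) (.var 1)).imp (d_WF (.var 0))).allU),
        fun x => Iff.rfl⟩ (by
      intro v ih
      have h1 : ∀ w, M.E w v → WF M w := fun w hw => (ih w hw).1
      exact ⟨wfI h1, h1⟩)
    exact fun h => this.2 w h
  have wfEs : ∀ {w v}, WF M v → Es M w v → WF M w := by
    intro w v hv h
    exact useEs h (φ := fun x => WF M x) ⟨_, ρ, d_WF (.var 0), fun x => Iff.rfl⟩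
      (fun x hx => wfE hv hx) (fun x y hy hx => wfE hy hx)
  have wfind : ∀ (q : M.U → Prop), Def1 (fun v => WF M v → ∀ w, dn M v w → q w) →
      (∀ v, WF M v → (∀ w, Es M w v → q w) → q v) → ∀ v, WF M v → q v := by
    intro q hq hQ v hv
    refine (useWF hv hq ?_ hv) v (Or.inl (eqr v))
    intro v ih hv w hw
    have key : ∀ w, Es M w v → q w := by
      intro w hw
      obtain ⟨x, hx, hwx⟩ := esdec hw
      exact ih x hx (wfE hv hx) w hwx
    rcases hw with hw | hw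
    · refine hQ _ (WF1 (eqs hw) hv) (fun z hz => key z (Es2 hw hz))
    · exact key w hw
  have irr : ∀ v, WF M v → ¬ Es M v v := by
    intro v hv
    refine wfind (fun v => ¬ Es M v v)
      ⟨_, ρ, (d_WF (.var 0)).imp (((d_dn (.var 1) (.var 0)).imp
        ((d_Es (.var 0) (.var 0)).not)).allU), fun x => Iff.rfl⟩ ?_ v hv
    intro v _ ih h
    exact ih v h h
  have dnmono : ∀ {a b x}, Es M a b → dn M a x → dn M b x := by
    rintro a b x hab (hx | hx)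
    · exact Or.inr (Es1 (eqs hx) hab)
    · exact Or.inr (estr hx hab)
  -- (2)
  have two : ∀ {w w' S S'}, WF M w → isDn M S w → isDn M S' w' →
      ((le M S' S ∧ ¬ le M S S') ↔ Es M w' w) := by
    intro w w' S S' hw hS hS'
    constructor
    · rintro ⟨h1, h2⟩
      rcases (hS _).1 (h1 w' ((hS' _).2 (Or.inl (eqr w')))) with h | h
      · refine absurd (fun x hx => (hS' x).2 ?_) h2
        rcases (hS x).1 hx with hx | hx
        · exact Or.inl (eqt hx (eqs h))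
        · exact Or.inr (Es2 (eqs h) hx)
      · exact h
    · intro h
      refine ⟨fun x hx => (hS x).2 (dnmono h ((hS' x).1 hx)), fun hc => ?_⟩
      rcases (hS' _).1 (hc w ((hS _).2 (Or.inl (eqr w)))) with h' | h'
      · exact irr _ hw (Es1 (eqs h') h)
      · exact irr _ hw (estr h' h)
  -- (3)
  have three : ∀ {v T S T'}, WF M v → isB M T v → M.m2 T S → isChild M T S T' →
      ∃ w, Es M w v ∧ isB M T' w := by
    intro v T S T' hv hT hS hT'
    obtain ⟨w, hw, hSw⟩ := (hT S).1 hS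
    refine ⟨w, hw, fun S' => ?_⟩
    rw [hT' S']
    constructor
    · rintro ⟨h1, h2⟩
      obtain ⟨x, hx, hxS'⟩ := (hT S').1 h1
      exact ⟨x, (two (wfEs hv hw) hSw hxS').1 h2, hxS'⟩
    · rintro ⟨x, hx, hxS'⟩
      exact ⟨(hT S').2 ⟨x, estr hx hw, hxS'⟩, (two (wfEs hv hw) hSw hxS').2 hx⟩
  have threeb : ∀ {v w T S T'}, WF M v → Es M w v → isB M T v → isDn M S w →
      isB M T' w → isChild M T S T' := by
    intro v w T S T' hv hw hT hSw hT' S'
    rw [hT' S']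
    constructor
    · rintro ⟨x, hx, hxS'⟩
      exact ⟨(hT S').2 ⟨x, estr hx hw, hxS'⟩, (two (wfEs hv hw) hSw hxS').2 hx⟩
    · rintro ⟨h1, h2⟩
      obtain ⟨x, hx, hxS'⟩ := (hT S').1 h1
      exact ⟨x, (two (wfEs hv hw) hSw hxS').1 h2, hxS'⟩
  have exDn : ∀ w, ∃ S, isDn M S w := fun w =>
    comp1 c1 (φ := fun x => dn M w x) ⟨_, ρ.pU w, d_dn (.var 1) (.var 0), fun x => Iff.rfl⟩
  have exB : ∀ u, ∃ T, isB M T u := fun u =>
    comp2 c2 (φ := fun S => ∃ w, Es M w u ∧ isDn M S w)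
      (((d_Es (.var 0) (.var 1)).and (d_isDn 0 (.var 0))).exU) (ρ.pU u) (fun x => Iff.rfl)
  have four : ∀ {v w T T'}, WF M v → Es M w v → isB M T v → isB M T' w →
      M.E (M.code T') (M.code T) := by
    intro v w T T' hv hw hT hT'
    obtain ⟨S, hS⟩ := exDn w
    exact (h0 _ _).2 ⟨S, (hT _).2 ⟨w, hw, hS⟩, T', threeb hv hw hT hS hT', eqr _⟩
  have five : ∀ u, WF M u → ∀ T, isB M T u → WF M (M.code T) := by
    refine wfind (fun u => ∀ T, isB M T u → WF M (M.code T))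
      ⟨_, ρ, (d_WF (.var 0)).imp (((d_dn (.var 1) (.var 0)).imp
        (((d_isB 0 (.var 0)).imp (d_WF (.code 0))).allQ)).allU), fun x => Iff.rfl⟩ ?_
    intro u hu ih T hT
    refine wfI (fun w hw => ?_)
    obtain ⟨S, hS, T', hT', hw⟩ := (h0 _ _).1 hw
    obtain ⟨x, hx, hB⟩ := three hu hT hS hT'
    exact WF1 hw (ih x hx T' hB)
  obtain ⟨TOm, hTOm⟩ := comp2 c2 (φ := fun S => ∃ u, WF M u ∧ isDn M S u)
    (((d_WF (.var 0)).and (d_isDn 0 (.var 0))).exU) ρ (fun x => Iff.rfl)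
  have childOm : ∀ {u S T'}, WF M u → isDn M S u → (isChild M TOm S T' ↔ isB M T' u) := by
    intro u S T' hu hSu
    constructor
    · intro hT' S'
      rw [hT' S']
      constructor
      · rintro ⟨h1, h2⟩
        obtain ⟨x, hx, hxS'⟩ := (hTOm S').1 h1
        exact ⟨x, (two hu hSu hxS').1 h2, hxS'⟩
      · rintro ⟨x, hx, hxS'⟩
        exact ⟨(hTOm S').2 ⟨x, wfEs hu hx, hxS'⟩, (two hu hSu hxS').2 hx⟩
    · intro hT' S'
      rw [hT' S']
      constructor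
      · rintro ⟨x, hx, hxS'⟩
        exact ⟨(hTOm S').2 ⟨x, wfEs hu hx, hxS'⟩, (two hu hSu hxS').2 hx⟩
      · rintro ⟨h1, h2⟩
        obtain ⟨x, hx, hxS'⟩ := (hTOm S').1 h1
        exact ⟨x, (two hu hSu hxS').1 h2, hxS'⟩
  have six : WF M (M.code TOm) := by
    refine wfI (fun w hw => ?_)
    obtain ⟨S, hS, T', hT', hw⟩ := (h0 _ _).1 hw
    obtain ⟨u, hu, hSu⟩ := (hTOm S).1 hS
    exact WF1 hw (five u hu T' ((childOm hu hSu).1 hT'))
  have eight : ∀ u, WF M u → ∀ T, isB M T u → ¬ M.E (M.code T) u := by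
    refine wfind (fun u => ∀ T, isB M T u → ¬ M.E (M.code T) u)
      ⟨_, ρ, (d_WF (.var 0)).imp (((d_dn (.var 1) (.var 0)).imp
        (((d_isB 0 (.var 0)).imp ((Dfn.E (.code 0) (.var 0)).not)).allQ)).allU),
        fun x => Iff.rfl⟩ ?_
    intro u hu ih T hT h
    obtain ⟨T', hT'⟩ := exB (M.code T)
    exact ih _ (es1 h) T' hT' (four hu (es1 h) hT hT')
  obtain ⟨T, hT⟩ := exB (M.code TOm)
  obtain ⟨S, hS⟩ := exDn (M.code TOm)
  exact eight _ six T hT ((h0 _ _).2 ⟨S, (hTOm _).2 ⟨_, six, hS⟩, T, (childOm six hS).2 hT, eqr _⟩)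

end main

end Crest.Agent.R298.HPar705
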