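import Crest.Agent.R298.TyP_795
import Crest.Agent.R298.Scc_795
import Mathlib.Data.Countable.Basic
import Mathlib.Logic.Denumerable

/-!
R298 (S0452), helper795: Henkin block, part 1.  Names in partial contexts, compactness, countability
of terms, generation of products.
-/

set_option autoImplicit false

namespace Crest.Agent.R298.Hen795

open Crest.LogicCS.PTS Crest.LogicCS.PTS.Term Relation
open Crest.Agent.R298.Sub452 Crest.Agent.R298.Par452 Crest.Agent.R298.Ty452
open Crest.Agent.R298.TyF452 Crest.Agent.R298.TyP795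

universe u
variable {S : Type u} {P : Spec S}

/-! ### generation for products over function contexts -/

theorem gen_pi_aux {D : ℕ → Term S} {M C : Term S} (h : TyF P D M C) :
    ∀ A B, M = pi A B → ∃ s₁ s₂ s₃, TyF P D A (sort s₁) ∧ TyF P (fcons A D) B (sort s₂) ∧
      P.rule s₁ s₂ s₃ ∧ BetaEq C (sort s₃) := by
  induction h with
  | ax _ => intro A B e; cases e
  | var _ _ => intro A B e; cases e
  | @prod D A B s₁ s₂ s₃ h₁ h₂ r _ _ =>
      intro A' B' e
      injection e with e1 e2
      subst e1; subst e2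
      exact ⟨s₁, s₂, s₃, h₁, h₂, r, .refl _⟩
  | abs _ _ _ _ => intro A B e; cases e
  | appl _ _ _ _ => intro A B e; cases e
  | conv _ _ e' ih _ =>
      intro A B e
      obtain ⟨s₁, s₂, s₃, a, b, c, d⟩ := ih A B e
      exact ⟨s₁, s₂, s₃, a, b, c, BetaEq.trans (BetaEq.symm e') d⟩

theorem gen_pi {D : ℕ → Term S} {A B C : Term S} (h : TyF P D (pi A B) C) :
    ∃ s₁ s₂ s₃, TyF P D A (sort s₁) ∧ TyF P (fcons A D) B (sort s₂) ∧
      P.rule s₁ s₂ s₃ ∧ BetaEq C (sort s₃) := gen_pi_aux h A B rfl

/-! ### adding a named declaration -/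

/-- add the declaration `k : A` -/
def upd (D : ℕ → Term S) (k : ℕ) (A : Term S) : ℕ → Term S := Function.update D k A

theorem upd_self (D : ℕ → Term S) (k : ℕ) (A : Term S) : upd D k A k = A := by
  simp [upd]

theorem upd_ne {D : ℕ → Term S} {k i : ℕ} {A : Term S} (h : i ≠ k) : upd D k A i = D i := by
  simp [upd, Function.update_of_ne h]

theorem le_upd {D : ℕ → Term S} {k : ℕ} (hk : ¬ Dm D k) (A : Term S) : Le D (upd D k A) := by
  intro i hi
  have : i ≠ k := fun h => hk (h ▸ hi)
  rw [upd_ne this]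

theorem ne_var_of_typed {D : ℕ → Term S} {k : ℕ} (hk : ¬ Dm D k) {A T : Term S}
    (h : TyF P D A T) : A ≠ var k := by
  rintro rfl
  exact hk (dm_of_typed h)

theorem dm_upd {D : ℕ → Term S} {k : ℕ} {A : Term S} (hA : A ≠ var k) {i : ℕ} :
    Dm (upd D k A) i ↔ i = k ∨ Dm D i := by
  by_cases h : i = k
  · subst h
    simp [Dm, upd_self, hA]
  · simp [Dm, upd_ne h, h]

theorem wfP_upd {D : ℕ → Term S} (w : WfP P D) {k : ℕ} (hk : ¬ Dm D k) {A : Term S} {s : S}
    (hA : TyF P D A (sort s)) : WfP P (upd D k A) := by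
  intro i hi
  rw [dm_upd (ne_var_of_typed hk hA)] at hi
  rcases hi with rfl | hi
  · rw [upd_self]
    exact ⟨s, tyF_mono hA (le_upd hk A)⟩
  · obtain ⟨s', h'⟩ := w i hi
    have : i ≠ k := fun h => hk (h ▸ hi)
    rw [upd_ne this]
    exact ⟨s', tyF_mono h' (le_upd hk A)⟩

/-- the renaming which turns the name `k` into the local variable `0` -/
def rot (k : ℕ) (i : ℕ) : ℕ := if i = k then 0 else i + 1

theorem ren_rot {D : ℕ → Term S} {k : ℕ} (hk : ¬ Dm D k) {M : Term S} (h : FvIn (Dm D) M) :
    ren (rot k) M = wk M := by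
  refine ren_congr (X := Dm D) ?_ h
  intro i hi
  have : i ≠ k := fun h => hk (h ▸ hi)
  simp [rot, this]

theorem renP_rot {D : ℕ → Term S} (w : WfP P D) {k : ℕ} (hk : ¬ Dm D k) {A : Term S} {s : S}
    (hA : TyF P D A (sort s)) : RenP (rot k) (upd D k A) (fcons A D) := by
  intro i hi
  rw [dm_upd (ne_var_of_typed hk hA)] at hi
  rcases hi with rfl | hi
  · rw [upd_self, ren_rot hk (fv_typed hA)]
    simp [rot]
  · obtain ⟨s', h'⟩ := w i hi
    have : i ≠ k := fun h => hk (h ▸ hi)
    rw [upd_ne this, ren_rot hk (fv_typed h')]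
    simp [rot, this]

/-- abstracting a fresh name -/
theorem abstract_name {D : ℕ → Term S} (w : WfP P D) {k : ℕ} (hk : ¬ Dm D k) {A : Term S} {s : S}
    (hA : TyF P D A (sort s)) {M T : Term S} (h : TyF P (upd D k A) M T) :
    TyF P (fcons A D) (ren (rot k) M) (ren (rot k) T) :=
  tyF_ren h (renP_rot w hk hA)

theorem subA_mono {σ : ℕ → Term S} {D E F : ℕ → Term S} (h : SubA P σ D E) (l : Le E F) :
    SubA P σ D F := fun i hi => tyF_mono (h i hi) l

/-- instantiating the local variable with a name -/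
theorem name_local {D : ℕ → Term S} (w : WfP P D) {k : ℕ} (hk : ¬ Dm D k) {A : Term S} {s : S}
    (hA : TyF P D A (sort s)) {M T : Term S} (h : TyF P (fcons A D) M T) :
    TyF P (upd D k A) (inst (var k) M) (inst (var k) T) := by
  refine tyF_sub h (SubA.scons (subA_mono (SubA.var w) (le_upd hk A)) ?_)
  rw [sub_id]
  have : TyF P (upd D k A) (upd D k A k) (sort s) := by
    rw [upd_self]; exact tyF_mono hA (le_upd hk A)
  have := TyF.var this
  rwa [upd_self] at this

/-! ### compactness -/

/-- `E` is the union of the increasing chain `C` -/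
structure IsUnion (C : ℕ → ℕ → Term S) (E : ℕ → Term S) : Prop where
  mono : ∀ n, Le (C n) (C (n + 1))
  le : ∀ n, Le (C n) E
  ex : ∀ i, Dm E i → ∃ n, C n i = E i

theorem IsUnion.mono' {C : ℕ → ℕ → Term S} {E : ℕ → Term S} (h : IsUnion C E) {m n : ℕ}
    (hmn : m ≤ n) : Le (C m) (C n) := by
  induction hmn with
  | refl => exact Le.refl _
  | step _ ih => exact ih.trans (h.mono _)

theorem IsUnion.fcons {C : ℕ → ℕ → Term S} {E : ℕ → Term S} (h : IsUnion C E) (A : Term S) :
    IsUnion (fun n => fcons A (C n)) (fcons A E) where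
  mono n := (h.mono n).fcons A
  le n := (h.le n).fcons A
  ex i hi := by
    cases i with
    | zero => exact ⟨0, rfl⟩
    | succ i =>
        obtain ⟨n, hn⟩ := h.ex i (dm_succ.1 hi)
        exact ⟨n, by simp only [fcons_succ, hn]⟩

theorem compact {E : ℕ → Term S} {M A : Term S} (h : TyF P E M A) :
    ∀ {C : ℕ → ℕ → Term S}, IsUnion C E → ∃ n, TyF P (C n) M A := by
  induction h with
  | ax a => intro C _; exact ⟨0, .ax a⟩
  | @var D i s h ih =>
      intro C hC
      obtain ⟨n, hn⟩ := ih hC
      obtain ⟨m, hm⟩ := hC.ex i (dm_of_decl h)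
      have hdm : Dm (C m) i := by
        unfold Dm; rw [hm]; exact dm_of_decl h
      refine ⟨max n m, ?_⟩
      have h1 := tyF_mono hn (hC.mono' (le_max_left n m))
      have h2 : C (max n m) i = D i := by
        rw [hC.mono' (le_max_right n m) i hdm, hm]
      rw [← h2] at h1 ⊢
      exact .var h1
  | prod _ _ r ih₁ ih₂ =>
      intro C hC
      obtain ⟨n, hn⟩ := ih₁ hC
      obtain ⟨m, hm⟩ := ih₂ (hC.fcons _)
      exact ⟨max n m, .prod (tyF_mono hn (hC.mono' (le_max_left n m)))
        (tyF_mono hm ((hC.mono' (le_max_right n m)).fcons _)) r⟩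
  | abs _ _ ih₁ ih₂ =>
      intro C hC
      obtain ⟨n, hn⟩ := ih₂ hC
      obtain ⟨m, hm⟩ := ih₁ (hC.fcons _)
      exact ⟨max n m, .abs (tyF_mono hm ((hC.mono' (le_max_right n m)).fcons _))
        (tyF_mono hn (hC.mono' (le_max_left n m)))⟩
  | appl _ _ ih₁ ih₂ =>
      intro C hC
      obtain ⟨n, hn⟩ := ih₁ hC
      obtain ⟨m, hm⟩ := ih₂ hC
      exact ⟨max n m, .appl (tyF_mono hn (hC.mono' (le_max_left n m)))
        (tyF_mono hm (hC.mono' (le_max_right n m)))⟩
  | conv _ _ e ih₁ ih₂ =>
      intro C hC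
      obtain ⟨n, hn⟩ := ih₁ hC
      obtain ⟨m, hm⟩ := ih₂ hC
      exact ⟨max n m, .conv (tyF_mono hn (hC.mono' (le_max_left n m)))
        (tyF_mono hm (hC.mono' (le_max_right n m))) e⟩

theorem compact₂ {E : ℕ → Term S} {M A M' A' : Term S} {C : ℕ → ℕ → Term S} (hC : IsUnion C E)
    (h : TyF P E M A) (h' : TyF P E M' A') (N : ℕ) :
    ∃ n, N ≤ n ∧ ∀ m, n ≤ m → TyF P (C m) M A ∧ TyF P (C m) M' A' := by
  obtain ⟨n, hn⟩ := compact h hC
  obtain ⟨n', hn'⟩ := compact h' hC
  refine ⟨max N (max n n'), le_max_left _ _, fun m hm => ⟨?_, ?_⟩⟩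
  · exact tyF_mono hn (hC.mono' (by omega))
  · exact tyF_mono hn' (hC.mono' (by omega))

/-- the union of an increasing chain -/
theorem exists_union {C : ℕ → ℕ → Term S} (mono : ∀ n, Le (C n) (C (n + 1))) :
    ∃ E, IsUnion C E := by
  classical
  have mono' : ∀ m n, m ≤ n → Le (C m) (C n) := by
    intro m n hmn
    induction hmn with
    | refl => exact Le.refl _
    | step _ ih => exact ih.trans (mono _)
  let E : ℕ → Term S := fun i => if h : ∃ n, Dm (C n) i then C (Classical.choose h) i else var i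
  have hE : ∀ i n, Dm (C n) i → E i = C n i := by
    intro i n hn
    have h : ∃ n, Dm (C n) i := ⟨n, hn⟩
    simp only [E, dif_pos h]
    have h1 := Classical.choose_spec h
    rcases le_total n (Classical.choose h) with hle | hle
    · exact mono' _ _ hle i hn
    · exact (mono' _ _ hle i h1).symm
  refine ⟨E, mono, fun n i hi => hE i n hi, ?_⟩
  intro i hi
  by_cases h : ∃ n, Dm (C n) i
  · obtain ⟨n, hn⟩ := h
    exact ⟨n, (hE i n hn).symm⟩
  · exact absurd (by simp only [E, dif_neg h]) hi

/-! ### countability and fair enumerations -/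

/-- codes of raw terms as lists -/
def tcode : Term S → List (ℕ ⊕ S)
  | var i => [Sum.inl 0, Sum.inl i]
  | sort s => [Sum.inl 1, Sum.inr s]
  | app M N => Sum.inl 2 :: Sum.inl (tcode M).length :: (tcode M ++ tcode N)
  | lam A M => Sum.inl 3 :: Sum.inl (tcode A).length :: (tcode A ++ tcode M)
  | pi A B => Sum.inl 4 :: Sum.inl (tcode A).length :: (tcode A ++ tcode B)

theorem tcode_inj : Function.Injective (tcode (S := S)) := by
  intro M
  induction M with
  | var i =>
      intro N h
      cases N <;> simp [tcode] at h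
      rw [h]
  | sort s =>
      intro N h
      cases N <;> simp [tcode] at h
      rw [h]
  | app M M' ih ih' =>
      intro N h
      cases N with
      | app K K' =>
          simp only [tcode, List.cons.injEq, true_and] at h
          obtain ⟨h1, h2⟩ := h
          obtain ⟨h3, h4⟩ := List.append_inj h2 (by simpa using h1)
          rw [ih h3, ih' h4]
      | _ => simp [tcode] at h
  | lam M M' ih ih' =>
      intro N h
      cases N with
      | lam K K' =>
          simp only [tcode, List.cons.injEq, true_and] at h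
          obtain ⟨h1, h2⟩ := h
          obtain ⟨h3, h4⟩ := List.append_inj h2 (by simpa using h1)
          rw [ih h3, ih' h4]
      | _ => simp [tcode] at h
  | pi M M' ih ih' =>
      intro N h
      cases N with
      | pi K K' =>
          simp only [tcode, List.cons.injEq, true_and] at h
          obtain ⟨h1, h2⟩ := h
          obtain ⟨h3, h4⟩ := List.append_inj h2 (by simpa using h1)
          rw [ih h3, ih' h4]
      | _ => simp [tcode] at h

instance countable_term [Countable S] : Countable (Term S) :=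
  Function.Injective.countable tcode_inj

/-- an enumeration in which every element occurs arbitrarily late -/
theorem exists_fair (α : Type*) [Countable α] [Nonempty α] :
    ∃ f : ℕ → α, ∀ a N, ∃ n, N ≤ n ∧ f n = a := by
  obtain ⟨g, hg⟩ := exists_surjective_nat (α × ℕ)
  refine ⟨fun n => (g n).1, ?_⟩
  intro a N
  by_contra hcon
  push Not at hcon
  -- all occurrences of `a` are below `N`
  have : ∀ m : ℕ, ∃ n, n < N ∧ g n = (a, m) := by
    intro m
    obtain ⟨n, hn⟩ := hg (a, m)
    refine ⟨n, ?_, hn⟩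
    by_contra hlt
    exact hcon n (not_lt.1 hlt) (by rw [hn])
  choose h hlt heq using this
  have hinj : Function.Injective h := by
    intro m m' hm
    have h1 := heq m
    have h2 := heq m'
    rw [hm, h2] at h1
    exact (congrArg Prod.snd h1).symm
  have : Function.Injective (fun m : ℕ => (⟨h m, hlt m⟩ : Fin N)) := by
    intro m m' hm
    exact hinj (congrArg Fin.val hm)
  exact not_injective_infinite_finite _ this

end Crest.Agent.R298.Hen795
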