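import Crest.Agent.R298.LInst2_705
import Crest.Agent.R298.Hen3_795

/-!
R298 (S0452), part P, helper705: the maximal context of `Hen3_795` satisfies the truth laws
`LInst705.HenT`.
-/

set_option autoImplicit false

namespace Crest.Agent.R298.HenB705

open Crest.LogicCS.PTS Crest.LogicCS.PTS.Term
open Crest.Agent.R298.Sub452 Crest.Agent.R298.TyF452 Crest.Agent.R298.Scc795

universe u
variable {S : Type u} {P : Spec S} {Dd : Set S}

/-- translation of steps -/
def st : LInst705.St S → Hen795.St S
  | .dom b => .dom b
  | .cod a => .cod a

theorem wform_eq (B : Hen795.Base P Dd) (k : ℕ) (w : List (LInst705.St S)) : ∀ X : Term S,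
    LInst705.wform B.R B.E k w X = Hen795.wform B k (w.map st) X := by
  induction w with
  | nil => intro X; rfl
  | cons s w ih =>
      intro X
      cases s with
      | dom b => exact ih _
      | cod a => exact ih _

theorem wl {w : List (LInst705.St S)} {s : Bool} {x y : S} (h : LInst705.WL P Dd w s x y) :
    Hen795.WL P Dd (w.map st) s x y := by
  induction h with
  | nil h => exact .nil h
  | dom r ha _ ih => exact .dom r ha ih
  | cod r hb _ ih => exact .cod r hb ih

theorem stab (B : Hen795.Base P Dd) {k : ℕ} {X : Term S}
    (h : LInst705.Stab B.R (LInst705.Bs P Dd) k X) : Hen795.Stab B k X := by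
  induction h with
  | base k b hb => exact ⟨0, .base hb⟩
  | pi k A C _ ih =>
      obtain ⟨n, hn⟩ := ih
      exact ⟨n + 1, .pi hn⟩

theorem lift_zero' (M : Term S) : Hen795.lift 0 M = M := Hen795.lift_zero M

/-- **the truth laws** -/
theorem henT {B : Hen795.Base P Dd} {D : ℕ → Term S} (h : Hen795.Hen B D) :
    LInst705.HenT P Dd B.R B.E B.e D where
  hR b hb := by
    have := h.over.typed (B.hR b hb)
    simpa only [Hen795.lift_zero] using this
  hE a ha := by
    have := h.over.typed (B.hE a ha)
    simpa only [Hen795.lift_zero] using this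
  he a ha := by
    have := h.over.typed (B.he a ha)
    simpa only [Hen795.lift_zero] using this
  tr_w := by
    intro w s x y X hw hX
    have := Hen795.tr_w h (wl hw) hX
    rw [← wform_eq] at this
    exact this
  tr_imp := by
    intro a b c A X r _ _ _ hA hX hs
    exact Hen795.tr_imp h r hA hX (stab B hs)
  tr_all := by
    intro a b c A X r _ _ hA hX hs
    exact Hen795.tr_all h r hA hX (stab B hs)

end Crest.Agent.R298.HenB705
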