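import Crest.Agent.R298.Hen3_795
import Crest.Agent.R298.Base2_525

/-!
R298 (S0452), helper795: the Henkin context over the base context of 525.
-/

set_option autoImplicit false

namespace Crest.Agent.R298.Hen795

open Crest.LogicCS.PTS Crest.LogicCS.PTS.Term Relation
open Crest.Agent.R298.Sub452 Crest.Agent.R298.Par452 Crest.Agent.R298.Ty452
open Crest.Agent.R298.TyF452 Crest.Agent.R298.TyP795 Crest.Agent.R298.Scc795

/-- the base context -/
theorem exists_Base {T : Type} [Finite T] (Q : Spec T) (D : Set T) (hD : IsScc Q D)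
    (hax : ∀ s ∈ RS Q, ∃ t, Q.ax s t) (hwn : ∀ Γ M, Legal Q Γ M → WN M) :
    Nonempty (Base Q D) := by
  obtain ⟨D0, R, E, e, wf, ⟨n, hn⟩, hR, hE, he, hc, hcon⟩ := Base525.exists_base Q D hD hax hwn
  refine ⟨{ D0 := D0, R := R, E := E, e := e, wf := wf, fin := ?_, hR := hR, hE := hE, he := he,
            conv := hc, con := fun b hb => hcon b (bs_rs hb) }⟩
  refine (Set.finite_lt_nat n).subset ?_
  intro i hi
  by_contra h
  exact hn i (not_lt.1 h) hi

/-- **P1 + P2**: a maximal consistent Henkin context over a base context exists. -/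
theorem exists_Base_Hen {T : Type} [Finite T] (Q : Spec T) (D : Set T) (hD : IsScc Q D)
    (hne : ∃ a, a ∈ RS Q) (hax : ∀ s ∈ RS Q, ∃ t, Q.ax s t)
    (hwn : ∀ Γ M, Legal Q Γ M → WN M) :
    ∃ (B : Base Q D) (Ds : ℕ → Term T), Le B.D0 Ds ∧ WfF Q Ds ∧ Over B 0 Ds ∧ Hen B Ds := by
  obtain ⟨B⟩ := exists_Base Q D hD hax hwn
  obtain ⟨Ds, h⟩ := henkin B hne
  exact ⟨B, Ds, h⟩

end Crest.Agent.R298.Hen795
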