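import Crest.Agent.R298.Hen1_795

/-!
R298 (S0452), helper989 (insurance I3): the Henkin chain.  A base context with inconsistent-free
atoms, walk codes, the calculus of inconsistency, the limit context, the truth laws.
-/

set_option autoImplicit false

namespace Crest.Agent.R298.HenI989

open Crest.LogicCS.PTS Crest.LogicCS.PTS.Term Relation
open Crest.Agent.R298.Sub452 Crest.Agent.R298.Par452 Crest.Agent.R298.Ty452
open Crest.Agent.R298.TyF452 Crest.Agent.R298.TyP795 Crest.Agent.R298.Hen795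
open Crest.Agent.R298.Scc795

universe u
variable {S : Type u} {P : Spec S} {Dd : Set S}

/-- a closed object at depth `k` -/
def lift (k : ℕ) (M : Term S) : Term S := ren (fun i => i + k) M

theorem lift_zero (M : Term S) : lift 0 M = M := ren_id M

theorem wk_lift (k : ℕ) (M : Term S) : wk (lift k M) = lift (k + 1) M := by
  simp only [lift, wk, ren_ren]; rfl

theorem up_wk_lift (k : ℕ) (M : Term S) : ren (up Nat.succ) (lift (k + 1) M) = lift (k + 2) M := by
  rw [← wk_lift, ren_up_wk, ← wk_lift, ← wk_lift]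

@[simp] theorem lift_sort (k : ℕ) (s : S) : lift k (sort s) = (sort s : Term S) := rfl

/-- right ends of the domain steps inside `Dd` -/
def Bs (P : Spec S) (Dd : Set S) : Set S := {b | ∃ a c, P.rule a b c ∧ a ∈ Dd ∧ c ∈ Dd}

theorem mem_RS_of_bs {b : S} (h : b ∈ Bs P Dd) : b ∈ RS P := by
  obtain ⟨a, c, h, -, -⟩ := h
  exact ⟨a, b, c, h, Or.inr (Or.inl rfl)⟩

/-- the base of the Henkin construction -/
structure Base (P : Spec S) (Dd : Set S) where
  /-- the base context -/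
  D0 : ℕ → Term S
  /-- the answer types -/
  R : S → Term S
  /-- inhabited types -/
  E : S → Term S
  /-- their inhabitants -/
  e : S → Term S
  wf : WfP P D0
  bd : ∃ N, ∀ i, Dm D0 i → i < N
  hR : ∀ b ∈ RS P, TyF P D0 (R b) (sort b)
  hE : ∀ a ∈ RS P, TyF P D0 (E a) (sort a)
  he : ∀ a ∈ RS P, TyF P D0 (e a) (E a)
  conv : ∀ b ∈ Bs P Dd, ∀ b' ∈ Bs P Dd, ∃ C, TyF P (fcons (R b) D0) C (wk (R b'))
  con : ∀ b ∈ Bs P Dd, ¬ ∃ M, TyF P D0 M (R b)

/-- `F` has `k` local variables over `D0` -/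
def Over (D0 : ℕ → Term S) (k : ℕ) (F : ℕ → Term S) : Prop :=
  ∀ i, Dm D0 i → F (i + k) = lift k (D0 i)

theorem Over.cons {D0 : ℕ → Term S} {k : ℕ} {F : ℕ → Term S} (h : Over D0 k F) (A : Term S) :
    Over D0 (k + 1) (fcons A F) := fun i hi => by
  show wk (F (i + k)) = _
  rw [h i hi, wk_lift]

theorem Over.of_le {D0 F : ℕ → Term S} (h : Le D0 F) : Over D0 0 F := fun i hi => by
  rw [lift_zero]; exact h i hi

theorem Over.ty {D0 : ℕ → Term S} {k : ℕ} {F : ℕ → Term S} (h : Over D0 k F) {M A : Term S}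
    (hM : TyF P D0 M A) : TyF P F (lift k M) (lift k A) :=
  tyF_ren hM (fun i hi => h i hi)

theorem Over.le {D0 : ℕ → Term S} {k : ℕ} {F G : ℕ → Term S} (h : Over D0 k F)
    (hd : ∀ i, Dm D0 i → Dm F (i + k)) (l : Le F G) : Over D0 k G := fun i hi => by
  rw [l _ (hd i hi), h i hi]

/-- inhabited -/
def Inh (P : Spec S) (F : ℕ → Term S) (X : Term S) : Prop := ∃ M, TyF P F M X

theorem Inh.mono {F G : ℕ → Term S} {X : Term S} (h : Inh P F X) (l : Le F G) : Inh P G X := by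
  obtain ⟨M, h⟩ := h
  exact ⟨M, tyF_mono h l⟩

theorem Inh.wk {F : ℕ → Term S} {X : Term S} (h : Inh P F X) (Y : Term S) :
    Inh P (fcons Y F) (Sub452.wk X) := by
  obtain ⟨M, h⟩ := h
  exact ⟨_, tyF_wk h Y⟩

theorem tv0 {F : ℕ → Term S} {Y : Term S} {s : S} (h : TyF P F Y (sort s)) :
    TyF P (fcons Y F) (var 0) (wk Y) :=
  TyF.var (D := fcons Y F) (i := 0) (tyF_wk h Y)

theorem wk_sub (M : Term S) : wk M = sub (fun i => Term.var (i + 1)) M := ren_eq_sub _ _

theorem subA_succ {F : ℕ → Term S} (w : WfP P F) (Z : Term S) :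
    SubA P (fun i => Term.var (i + 1)) F (fcons Z F) := by
  intro i hi
  have h := tyF_wk (tyF_var w hi) Z
  rw [wk_sub (F i)] at h
  exact h

namespace Base
variable (B : Base P Dd)

/-- inconsistent context with `k` local variables -/
def Inc (k : ℕ) (F : ℕ → Term S) : Prop := ∃ b ∈ Bs P Dd, Inh P F (lift k (B.R b))

variable {B}

theorem Inc.mono {k : ℕ} {F G : ℕ → Term S} (h : B.Inc k F) (l : Le F G) : B.Inc k G := by
  obtain ⟨b, hb, h⟩ := h
  exact ⟨b, hb, h.mono l⟩

theorem Inc.wk {k : ℕ} {F : ℕ → Term S} (h : B.Inc k F) (Y : Term S) :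
    B.Inc (k + 1) (fcons Y F) := by
  obtain ⟨b, hb, h⟩ := h
  refine ⟨b, hb, ?_⟩
  have := h.wk Y
  rwa [wk_lift] at this

/-- all answers are interconvertible -/
theorem Inc.all {k : ℕ} {F : ℕ → Term S} (hF : Over B.D0 k F) (h : B.Inc k F) {b' : S}
    (hb' : b' ∈ Bs P Dd) : Inh P F (lift k (B.R b')) := by
  obtain ⟨b, hb, M, hM⟩ := h
  obtain ⟨C, hC⟩ := B.conv b hb b' hb'
  have hσ : SubA P (scons M (fun i => Term.var (i + k))) (fcons (B.R b) B.D0) F := by
    intro i hi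
    cases i with
    | zero =>
        have : sub (scons M (fun i => Term.var (i + k))) (fcons (B.R b) B.D0 0) =
            lift k (B.R b) := by
          rw [fcons_zero, Sub452.wk, sub_ren, lift, ren_eq_sub]
          rfl
        rw [this]
        exact hM
    | succ i =>
        have hi := dm_succ.1 hi
        have h1 : sub (scons M (fun i => Term.var (i + k))) (fcons (B.R b) B.D0 (i + 1)) =
            lift k (B.D0 i) := by
          rw [fcons_succ, Sub452.wk, sub_ren, lift, ren_eq_sub]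
          rfl
        rw [h1]
        exact hF.ty (tyF_var B.wf hi)
  have := tyF_sub hC hσ
  refine ⟨sub (scons M (fun i => Term.var (i + k))) C, ?_⟩
  · have h1 : sub (scons M (fun i => Term.var (i + k))) (Sub452.wk (B.R b')) =
        lift k (B.R b') := by
      rw [Sub452.wk, sub_ren, lift, ren_eq_sub]
      rfl
    rwa [h1] at this

/-- cut -/
theorem Inc.cut {k : ℕ} {F : ℕ → Term S} (w : WfP P F) {Z Q : Term S}
    (hQ : Inh P (fcons Z F) (Sub452.wk Q)) (h : B.Inc (k + 1) (fcons Q F)) :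
    B.Inc (k + 1) (fcons Z F) := by
  obtain ⟨b, hb, M, hM⟩ := h
  obtain ⟨N, hN⟩ := hQ
  have hσ : SubA P (scons N (fun i => Term.var (i + 1))) (fcons Q F) (fcons Z F) := by
    refine (subA_succ w Z).scons ?_
    rw [wk_sub Q] at hN
    exact hN
  have h1 := tyF_sub hM hσ
  refine ⟨b, hb, sub (scons N (fun i => Term.var (i + 1))) M, ?_⟩
  · have h2 : sub (scons N (fun i => Term.var (i + 1))) (lift (k + 1) (B.R b)) =
        lift (k + 1) (B.R b) := by
      rw [← wk_lift, Sub452.wk, sub_ren]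
      show sub (fun i => Term.var (i + 1)) (lift k (B.R b)) = _
      rw [← ren_eq_sub]
    rwa [h2] at h1

/-- cut with an inhabitant of the base -/
theorem Inc.inst {k : ℕ} {F : ℕ → Term S} (w : WfP P F) {Q : Term S}
    (hQ : Inh P F Q) (h : B.Inc (k + 1) (fcons Q F)) : B.Inc k F := by
  obtain ⟨b, hb, M, hM⟩ := h
  obtain ⟨N, hN⟩ := hQ
  refine ⟨b, hb, Sub452.inst N M, ?_⟩
  · have := tyF_inst w hM hN
    rw [← wk_lift, inst_wk] at this
    exact this

end Base

/-! ### walk codes -/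

/-- a step of a walk -/
inductive St (S : Type u) : Type u
  | dom (b : S)
  | cod (a : S)

/-- the formula of a walk -/
def wform (B : Base P Dd) (k : ℕ) : List (St S) → Term S → Term S
  | [], X => X
  | .dom b :: w, X => wform B k w (pi X (lift (k + 1) (B.R b)))
  | .cod a :: w, X => wform B k w (pi (lift k (B.E a)) (wk X))

/-- walks with codes -/
inductive WL (P : Spec S) (Dd : Set S) : List (St S) → Bool → S → S → Prop
  | nil {x : S} : x ∈ Dd → WL P Dd [] true x x
  | dom {x b y z : S} {w : List (St S)} {s : Bool} : P.rule x b y → x ∈ Dd → WL P Dd w s y z →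
      WL P Dd (.dom b :: w) (!s) x z
  | cod {x a y z : S} {w : List (St S)} {s : Bool} : P.rule a x y → x ∈ Dd → WL P Dd w s y z →
      WL P Dd (.cod a :: w) s x z

theorem WL.left {w : List (St S)} {s : Bool} {x y : S} (h : WL P Dd w s x y) : x ∈ Dd := by
  cases h <;> assumption

theorem WL.right {w : List (St S)} {s : Bool} {x y : S} (h : WL P Dd w s x y) : y ∈ Dd := by
  induction h with
  | nil h => exact h
  | dom _ _ _ ih => exact ih
  | cod _ _ _ ih => exact ih

theorem WL.comp {w w' : List (St S)} {s s' : Bool} {x y z : S} (h : WL P Dd w s x y)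
    (h' : WL P Dd w' s' y z) : WL P Dd (w ++ w') (s == s') x z := by
  induction h with
  | nil _ => simpa using h'
  | @dom x b y' z w s hr hx _ ih =>
      have := WL.dom hr hx (ih h')
      rw [List.cons_append]
      cases s <;> cases s' <;> exact this
  | cod hr hx _ ih => exact WL.cod hr hx (ih h')

theorem WL.of_walk {s : Bool} {x y : S} (h : Walk P Dd s x y) : ∃ w, WL P Dd w s x y := by
  induction h with
  | nil h => exact ⟨[], .nil h⟩
  | neg hr hx _ ih =>
      obtain ⟨w, hw⟩ := ih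
      exact ⟨_, .dom hr hx hw⟩
  | pos hr hx _ ih =>
      obtain ⟨w, hw⟩ := ih
      exact ⟨_, .cod hr hx hw⟩

theorem wform_append (B : Base P Dd) (k : ℕ) (w w' : List (St S)) (X : Term S) :
    wform B k (w ++ w') X = wform B k w' (wform B k w X) := by
  induction w generalizing X with
  | nil => rfl
  | cons a w ih =>
      cases a with
      | dom b => exact ih _
      | cod a => exact ih _

theorem sub_lift {k k' : ℕ} {σ : ℕ → Term S} (h : ∀ i, σ (i + k) = var (i + k')) (M : Term S) :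
    sub σ (lift k M) = lift k' M := by
  rw [lift, sub_ren, lift, ren_eq_sub]
  congr 1
  funext i
  exact h i

theorem wform_sub (B : Base P Dd) {k k' : ℕ} {σ : ℕ → Term S} (h : ∀ i, σ (i + k) = var (i + k'))
    (w : List (St S)) (X : Term S) : sub σ (wform B k w X) = wform B k' w (sub σ X) := by
  induction w generalizing X with
  | nil => rfl
  | cons a w ih =>
      cases a with
      | dom b =>
          rw [wform, ih, sub_pi, wform]
          rw [sub_lift (k := k + 1) (k' := k' + 1) (σ := ups σ)]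
          intro i
          show wk (σ (i + k)) = _
          rw [h i]; rfl
      | cod a =>
          rw [wform, ih, sub_pi, wform, sub_wk, sub_lift h]

theorem wform_ren (B : Base P Dd) {k k' : ℕ} {ρ : ℕ → ℕ} (h : ∀ i, ρ (i + k) = i + k')
    (w : List (St S)) (X : Term S) : ren ρ (wform B k w X) = wform B k' w (ren ρ X) := by
  rw [ren_eq_sub, ren_eq_sub]
  exact wform_sub B (fun i => by rw [h i]) w X

theorem wk_wform (B : Base P Dd) (k : ℕ) (w : List (St S)) (X : Term S) :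
    wk (wform B k w X) = wform B (k + 1) w (wk X) :=
  wform_ren B (fun _ => rfl) w X

theorem wform_ty {B : Base P Dd} {w : List (St S)} {s : Bool} {x y : S} (h : WL P Dd w s x y) :
    ∀ {k : ℕ} {F : ℕ → Term S} {X : Term S}, Over B.D0 k F → TyF P F X (sort x) →
      TyF P F (wform B k w X) (sort y) := by
  induction h with
  | nil _ => intro k F X _ h; exact h
  | @dom x b y z w s hr hx _ ih =>
      intro k F X hF hX
      have hb : b ∈ RS P := ⟨x, b, y, hr, Or.inr (Or.inl rfl)⟩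
      exact ih hF (.prod hX ((hF.cons X).ty (B.hR b hb)) hr)
  | @cod x a y z w s hr hx _ ih =>
      intro k F X hF hX
      have ha : a ∈ RS P := ⟨a, x, y, hr, Or.inl rfl⟩
      exact ih hF (.prod (hF.ty (B.hE a ha)) (tyF_wk hX _) hr)

/-! ### the calculus of inconsistency -/

section cal
variable {B : Base P Dd} {k : ℕ} {F : ℕ → Term S} {X : Term S} {x b y a : S}

theorem dom_inc (hF : Over B.D0 k F) (hr : P.rule x b y) (hx : x ∈ Dd) (hy : y ∈ Dd)
    (hX : TyF P F X (sort x)) (h : Inh P F X) :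
    B.Inc (k + 1) (fcons (pi X (lift (k + 1) (B.R b))) F) := by
  obtain ⟨N, hN⟩ := h
  have hb : b ∈ RS P := ⟨x, b, y, hr, Or.inr (Or.inl rfl)⟩
  have hY : TyF P F (pi X (lift (k + 1) (B.R b))) (sort y) :=
    .prod hX ((hF.cons X).ty (B.hR b hb)) hr
  have h0 := tv0 hY
  rw [Sub452.wk, ren_pi] at h0
  have := TyF.appl h0 (tyF_wk hN _)
  refine ⟨b, ⟨x, y, hr, hx, hy⟩, app (var 0) (wk N), ?_⟩
  · rw [up_wk_lift, ← wk_lift (k + 1), inst_wk] at this
    exact this

theorem dom_inh (hF : Over B.D0 k F) (hr : P.rule x b y) (hx : x ∈ Dd) (hy : y ∈ Dd)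
    (hX : TyF P F X (sort x)) (h : B.Inc (k + 1) (fcons X F)) :
    Inh P F (pi X (lift (k + 1) (B.R b))) := by
  have hb : b ∈ RS P := ⟨x, b, y, hr, Or.inr (Or.inl rfl)⟩
  obtain ⟨M, hM⟩ := h.all (hF.cons X) ⟨x, y, hr, hx, hy⟩
  exact ⟨lam X M, .abs hM (.prod hX ((hF.cons X).ty (B.hR b hb)) hr)⟩

theorem cod_inh (hF : Over B.D0 k F) (hr : P.rule a x y)
    (hX : TyF P F X (sort x)) (h : Inh P F X) :
    Inh P F (pi (lift k (B.E a)) (wk X)) := by
  have ha : a ∈ RS P := ⟨a, x, y, hr, Or.inl rfl⟩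
  obtain ⟨N, hN⟩ := h
  exact ⟨lam (lift k (B.E a)) (wk N), .abs (tyF_wk hN _)
    (.prod (hF.ty (B.hE a ha)) (tyF_wk hX _) hr)⟩

theorem cod_inc (w : WfP P F) (hF : Over B.D0 k F) (hr : P.rule a x y)
    (hX : TyF P F X (sort x)) (h : B.Inc (k + 1) (fcons X F)) :
    B.Inc (k + 1) (fcons (pi (lift k (B.E a)) (wk X)) F) := by
  have ha : a ∈ RS P := ⟨a, x, y, hr, Or.inl rfl⟩
  refine Base.Inc.cut w ?_ h
  have hY : TyF P F (pi (lift k (B.E a)) (wk X)) (sort y) :=
    .prod (hF.ty (B.hE a ha)) (tyF_wk hX _) hr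
  have h0 := tv0 hY
  have h1 : wk (pi (lift k (B.E a)) (wk X)) = pi (lift (k + 1) (B.E a)) (wk (wk X)) := by
    show pi (wk (lift k (B.E a))) (ren (up Nat.succ) (wk X)) = _
    rw [wk_lift, ren_up_wk]
  rw [h1] at h0
  have := TyF.appl h0 ((hF.cons _).ty (B.he a ha))
  rw [inst_wk] at this
  exact ⟨_, this⟩

end cal

/-- **main lemma on walks** -/
theorem wl_main {B : Base P Dd} {w : List (St S)} {s : Bool} {x y : S} (h : WL P Dd w s x y) :
    ∀ {k : ℕ} {F : ℕ → Term S} {X : Term S}, WfP P F → Over B.D0 k F → TyF P F X (sort x) →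
      (s = true → (Inh P F X → Inh P F (wform B k w X)) ∧
        (B.Inc (k + 1) (fcons X F) → B.Inc (k + 1) (fcons (wform B k w X) F))) ∧
      (s = false → (B.Inc (k + 1) (fcons X F) → Inh P F (wform B k w X)) ∧
        (Inh P F X → B.Inc (k + 1) (fcons (wform B k w X) F))) := by
  induction h with
  | nil _ => intro k F X _ _ _; exact ⟨fun _ => ⟨fun h => h, fun h => h⟩, fun h => by cases h⟩
  | @dom x b y z w s hr hx hw ih =>
      intro k F X wf hF hX
      have hb : b ∈ RS P := ⟨x, b, y, hr, Or.inr (Or.inl rfl)⟩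
      have hY : TyF P F (pi X (lift (k + 1) (B.R b))) (sort y) :=
        .prod hX ((hF.cons X).ty (B.hR b hb)) hr
      have h1 := ih wf hF hY
      have d1 := dom_inc (B := B) hF hr hx hw.left hX
      have d2 := dom_inh (B := B) hF hr hx hw.left hX
      cases s with
      | false =>
          refine ⟨fun _ => ⟨fun h => (h1.2 rfl).1 (d1 h), fun h => (h1.2 rfl).2 (d2 h)⟩,
            fun h => by cases h⟩
      | true =>
          refine ⟨fun h => (by cases h), fun _ => ⟨fun h => (h1.1 rfl).1 (d2 h),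
            fun h => (h1.1 rfl).2 (d1 h)⟩⟩
  | @cod x a y z w s hr hx hw ih =>
      intro k F X wf hF hX
      have ha : a ∈ RS P := ⟨a, x, y, hr, Or.inl rfl⟩
      have hY : TyF P F (pi (lift k (B.E a)) (wk X)) (sort y) :=
        .prod (hF.ty (B.hE a ha)) (tyF_wk hX _) hr
      have h1 := ih wf hF hY
      have c1 := cod_inh (B := B) hF hr hX
      have c2 := cod_inc (B := B) wf hF hr hX
      refine ⟨fun hs => ⟨fun h => (h1.1 hs).1 (c1 h), fun h => (h1.1 hs).2 (c2 h)⟩,
        fun hs => ⟨fun h => (h1.2 hs).1 (c2 h), fun h => (h1.2 hs).2 (c1 h)⟩⟩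

/-- stable formulas: values of a negative walk -/
def Stab (B : Base P Dd) (k : ℕ) (F : ℕ → Term S) (X : Term S) : Prop :=
  ∃ (w : List (St S)) (x y : S) (Z : Term S), WL P Dd w false x y ∧ TyF P F Z (sort x) ∧
    X = wform B k w Z

/-- a context with `k` locals is inconsistent: every stable formula is inhabited -/
theorem Stab.of_inc {B : Base P Dd} {k : ℕ} {F : ℕ → Term S} {X : Term S} (h : Stab B k F X)
    (wf : WfP P F) (hF : Over B.D0 k F) (hi : B.Inc k F) : Inh P F X := by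
  obtain ⟨w, x, y, Z, hw, hZ, rfl⟩ := h
  exact ((wl_main hw wf hF hZ).2 rfl).1 (hi.wk Z)

/-- double negation elimination -/
theorem Stab.dne {B : Base P Dd} {k : ℕ} {F : ℕ → Term S} {X : Term S} {v : List (St S)}
    {x y z : S} {Z : Term S} (hv : WL P Dd v false x y) (hZ : TyF P F Z (sort x))
    (hX : X = wform B k v Z) {w : List (St S)} (hw : WL P Dd w false y z)
    (wf : WfP P F) (hF : Over B.D0 k F) (hi : B.Inc (k + 1) (fcons (wform B k w X) F)) :
    Inh P F X := by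
  subst hX
  refine ((wl_main hv wf hF hZ).2 rfl).1 ?_
  refine Base.Inc.cut wf ?_ hi
  have h1 := hv.comp hw
  have h2 := wl_main (B := B) h1 (wf.fcons hZ) (hF.cons Z) (tyF_wk hZ Z)
  have h3 := (h2.1 rfl).1 ⟨_, tv0 hZ⟩
  rw [← wk_wform, wform_append] at h3
  exact h3

/-! ### the construction -/

/-- consistent finite extensions of the base -/
structure Good (B : Base P Dd) (D : ℕ → Term S) : Prop where
  wf : WfP P D
  bd : ∃ N, ∀ i, Dm D i → i < N
  le : Le B.D0 D
  con : ¬ B.Inc 0 D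

theorem good_base (B : Base P Dd) : Good B B.D0 where
  wf := B.wf
  bd := B.bd
  le := Le.refl _
  con := by
    rintro ⟨b, hb, M, hM⟩
    rw [lift_zero] at hM
    exact B.con b hb ⟨M, hM⟩

section ext
variable {B : Base P Dd} {D : ℕ → Term S}

theorem Good.over (g : Good B D) : Over B.D0 0 D := Over.of_le g.le

theorem Good.declare (g : Good B D) {A : Term S} {s : S} (hA : TyF P D A (sort s))
    (hc : ¬ B.Inc 1 (fcons A D)) {k : ℕ} (hk : ¬ Dm D k) : Good B (upd D k A) where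
  wf := wfP_upd g.wf hk hA
  bd := by
    obtain ⟨N, hN⟩ := g.bd
    refine ⟨max N (k + 1), fun i hi => ?_⟩
    rw [dm_upd (ne_var_of_typed hk hA)] at hi
    rcases hi with rfl | hi
    · exact lt_of_lt_of_le (Nat.lt_succ_self i) (le_max_right _ _)
    · exact lt_of_lt_of_le (hN i hi) (le_max_left _ _)
  le := g.le.trans (le_upd hk A)
  con := by
    rintro ⟨b, hb, M, hM⟩
    apply hc
    have h1 := abstract_name g.wf hk hA hM
    rw [lift_zero, ren_rot hk (fv_typed (tyF_mono (B.hR b (mem_RS_of_bs hb)) g.le)),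
      ← lift_zero (B.R b), wk_lift] at h1
    exact ⟨b, hb, _, h1⟩

theorem Good.fresh (g : Good B D) : ∃ k, ¬ Dm D k := by
  obtain ⟨N, hN⟩ := g.bd
  exact ⟨N, fun h => lt_irrefl _ (hN N h)⟩

theorem step1 (g : Good B D) (A : Term S) : ∃ D', Good B D' ∧ Le D D' ∧
    ((∃ s, TyF P D A (sort s)) → ¬ B.Inc 1 (fcons A D) → ∃ k, Dm D' k ∧ D' k = A) := by
  by_cases h : (∃ s, TyF P D A (sort s)) ∧ ¬ B.Inc 1 (fcons A D)
  · obtain ⟨⟨s, hA⟩, hc⟩ := h
    obtain ⟨k, hk⟩ := g.fresh
    refine ⟨upd D k A, g.declare hA hc hk, le_upd hk A, fun _ _ => ⟨k, ?_, upd_self _ _ _⟩⟩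
    rw [dm_upd (ne_var_of_typed hk hA)]
    exact Or.inl rfl
  · exact ⟨D, g, Le.refl _, fun h1 h2 => absurd ⟨h1, h2⟩ h⟩

/-- instantiating with a fresh name and abstracting it again is the identity -/
theorem rot_inst {k : ℕ} (hk : ¬ Dm D k) {A Q : Term S} (h : FvIn (Dm (fcons A D)) Q) :
    ren (rot k) (inst (var k) Q) = Q := by
  have h1 : ren (rot k) (inst (var k) Q) = sub (fun i => ren (rot k) (scons (var k) var i)) Q := by
    rw [Sub452.inst, ren_sub]
  rw [h1]
  conv_rhs => rw [← sub_id Q]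
  refine TyP795.sub_congr (X := Dm (fcons A D)) ?_ h
  intro i hi
  cases i with
  | zero => simp [rot]
  | succ i =>
      have : i ≠ k := fun h => hk (h ▸ dm_succ.1 hi)
      simp [rot, this]

theorem step2 (g : Good B D) (A Q : Term S) : ∃ D', Good B D' ∧ Le D D' ∧
    ((∃ s, TyF P D A (sort s)) → (∃ s, TyF P (fcons A D) Q (sort s)) →
      ¬ B.Inc 2 (fcons Q (fcons A D)) →
      ∃ k, Dm D' k ∧ D' k = A ∧ ∃ h, Dm D' h ∧ D' h = inst (var k) Q) := by
  by_cases h : (∃ s, TyF P D A (sort s)) ∧ (∃ s, TyF P (fcons A D) Q (sort s)) ∧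
      ¬ B.Inc 2 (fcons Q (fcons A D))
  · obtain ⟨⟨s, hA⟩, ⟨t, hQ⟩, hc⟩ := h
    obtain ⟨k, hk⟩ := g.fresh
    have hc1 : ¬ B.Inc 1 (fcons A D) := fun h => hc (h.wk Q)
    have g1 := g.declare hA hc1 hk
    have dk : Dm (upd D k A) k := by
      rw [dm_upd (ne_var_of_typed hk hA)]
      exact Or.inl rfl
    obtain ⟨h, hh⟩ := g1.fresh
    have hQ1 : TyF P (upd D k A) (inst (var k) Q) (sort t) := name_local g.wf hk hA hQ
    have hc2 : ¬ B.Inc 1 (fcons (inst (var k) Q) (upd D k A)) := by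
      rintro ⟨b, hb, M, hM⟩
      apply hc
      have hr := (renP_rot g.wf hk hA).up (inst (var k) Q)
      rw [rot_inst hk (fv_typed hQ)] at hr
      have h1 := tyF_ren hM hr
      refine ⟨b, hb, ren (up (rot k)) M, ?_⟩
      have h2 : ren (up (rot k)) (lift 1 (B.R b)) = lift 2 (B.R b) := by
        have h3 : lift 1 (B.R b) = wk (B.R b) := by rw [← lift_zero (B.R b), wk_lift, lift_zero]
        rw [h3, ren_up_wk, ren_rot hk (fv_typed (tyF_mono (B.hR b (mem_RS_of_bs hb)) g.le)),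
          ← h3, wk_lift]
      rwa [h2] at h1
    have g2 := g1.declare hQ1 hc2 hh
    have l2 := le_upd hh (inst (var k) Q)
    refine ⟨upd (upd D k A) h (inst (var k) Q), g2, (le_upd hk A).trans l2,
      fun _ _ _ => ⟨k, l2.dm dk, ?_, h, ?_, upd_self _ _ _⟩⟩
    · rw [l2 k dk, upd_self]
    · rw [dm_upd (ne_var_of_typed hh hQ1)]
      exact Or.inl rfl
  · exact ⟨D, g, Le.refl _, fun h1 h2 h3 => absurd ⟨h1, h2, h3⟩ h⟩

theorem step0 (g : Good B D) (n : ℕ) {a : S} (ha : a ∈ RS P) :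
    ∃ D', Good B D' ∧ Le D D' ∧ Dm D' n := by
  by_cases h : Dm D n
  · exact ⟨D, g, Le.refl _, h⟩
  · have hE := tyF_mono (B.hE a ha) g.le
    refine ⟨upd D n (B.E a), g.declare hE ?_ h, le_upd h _, ?_⟩
    · intro hc
      exact g.con (hc.inst g.wf ⟨_, tyF_mono (B.he a ha) g.le⟩)
    · rw [dm_upd (ne_var_of_typed h hE)]
      exact Or.inl rfl

theorem step (g : Good B D) (n : ℕ) {a : S} (ha : a ∈ RS P) (A Q : Term S) :
    ∃ D', Good B D' ∧ Le D D' ∧ Dm D' n ∧
      ((∃ s, TyF P D A (sort s)) → B.Inc 1 (fcons A D') ∨ Inh P D' A) ∧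
      ((∃ s, TyF P D A (sort s)) → (∃ s, TyF P (fcons A D) Q (sort s)) →
        B.Inc 2 (fcons Q (fcons A D')) ∨
        ∃ k, Dm D' k ∧ D' k = A ∧ ∃ h, Dm D' h ∧ D' h = inst (var k) Q) := by
  obtain ⟨D1, g1, l1, h1⟩ := step0 g n ha
  obtain ⟨D2, g2, l2, h2⟩ := step1 g1 A
  obtain ⟨D3, g3, l3, h3⟩ := step2 g2 A Q
  refine ⟨D3, g3, (l1.trans l2).trans l3, l3.dm (l2.dm h1), ?_, ?_⟩
  · rintro ⟨s, hA⟩
    by_cases hc : B.Inc 1 (fcons A D1)
    · exact Or.inl (hc.mono ((l2.trans l3).fcons A))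
    · obtain ⟨k, hk, hkA⟩ := h2 ⟨s, tyF_mono hA l1⟩ hc
      refine Or.inr ⟨var k, ?_⟩
      have := tyF_var g2.wf hk
      rw [hkA] at this
      exact tyF_mono this l3
  · rintro ⟨s, hA⟩ ⟨t, hQ⟩
    by_cases hc : B.Inc 2 (fcons Q (fcons A D2))
    · exact Or.inl (hc.mono ((l3.fcons A).fcons Q))
    · exact Or.inr (h3 ⟨s, tyF_mono hA (l1.trans l2)⟩
        ⟨t, tyF_mono hQ ((l1.trans l2).fcons A)⟩ hc)

end ext

/-- the Henkin extension -/
structure Henkin (B : Base P Dd) (Ds : ℕ → Term S) : Prop where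
  le : Le B.D0 Ds
  tot : ∀ i, Dm Ds i
  wf : WfP P Ds
  con : ¬ B.Inc 0 Ds
  max : ∀ A s, TyF P Ds A (sort s) → B.Inc 1 (fcons A Ds) ∨ Inh P Ds A
  wit : ∀ A Q s t, TyF P Ds A (sort s) → TyF P (fcons A Ds) Q (sort t) →
    B.Inc 2 (fcons Q (fcons A Ds)) ∨ ∃ k, Ds k = A ∧ ∃ h, Ds h = inst (var k) Q

theorem Henkin.wfF {B : Base P Dd} {Ds : ℕ → Term S} (h : Henkin B Ds) : WfF P Ds :=
  fun i => h.wf i (h.tot i)

theorem exists_henkin' [Countable S] (B : Base P Dd) {a : S} (ha : a ∈ RS P) :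
    ∃ Ds, Henkin B Ds := by
  classical
  have : Nonempty (Term S) := ⟨var 0⟩
  obtain ⟨f, hf⟩ := exists_fair (Term S × Term S)
  have st : ∀ (D : {D : ℕ → Term S // Good B D}) (n : ℕ), ∃ D' : {D : ℕ → Term S // Good B D},
      Le D.1 D'.1 ∧ Dm D'.1 n ∧
      ((∃ s, TyF P D.1 (f n).1 (sort s)) → B.Inc 1 (fcons (f n).1 D'.1) ∨ Inh P D'.1 (f n).1) ∧
      ((∃ s, TyF P D.1 (f n).1 (sort s)) → (∃ s, TyF P (fcons (f n).1 D.1) (f n).2 (sort s)) →
        B.Inc 2 (fcons (f n).2 (fcons (f n).1 D'.1)) ∨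
        ∃ k, Dm D'.1 k ∧ D'.1 k = (f n).1 ∧ ∃ h, Dm D'.1 h ∧ D'.1 h = inst (var k) (f n).2) := by
    rintro ⟨D, g⟩ n
    obtain ⟨D', g', h⟩ := step g n ha (f n).1 (f n).2
    exact ⟨⟨D', g'⟩, h⟩
  choose nx hnx using st
  let C : ℕ → {D : ℕ → Term S // Good B D} :=
    fun n => Nat.rec ⟨B.D0, good_base B⟩ (fun n D => nx D n) n
  have C0 : (C 0).1 = B.D0 := rfl
  have Cs : ∀ n, C (n + 1) = nx (C n) n := fun _ => rfl
  have mono : ∀ n, Le (C n).1 (C (n + 1)).1 := fun n => by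
    rw [Cs]; exact (hnx (C n) n).1
  obtain ⟨Ds, hU⟩ := exists_union (C := fun n => (C n).1) mono
  have tot : ∀ i, Dm Ds i := by
    intro i
    have h1 : Dm (C (i + 1)).1 i := by rw [Cs]; exact (hnx (C i) i).2.1
    exact (hU.le (i + 1)).dm h1
  have wf : WfP P Ds := by
    intro i hi
    obtain ⟨n, hn⟩ := hU.ex i hi
    have hd : Dm (C n).1 i := by
      have hn' : (C n).1 i = Ds i := hn
      unfold Dm; rw [hn']; exact hi
    obtain ⟨s, hs⟩ := (C n).2.wf i hd
    have hn' : (C n).1 i = Ds i := hn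
    rw [hn'] at hs
    exact ⟨s, tyF_mono hs (hU.le n)⟩
  refine ⟨Ds, ?_, tot, wf, ?_, ?_, ?_⟩
  · rw [← C0]; exact hU.le 0
  · rintro ⟨b, hb, M, hM⟩
    obtain ⟨n, hn⟩ := compact hM hU
    exact (C n).2.con ⟨b, hb, M, hn⟩
  · intro A s hA
    obtain ⟨n, hn⟩ := compact hA hU
    obtain ⟨m, hm, hfm⟩ := hf (A, A) n
    have h1 := (hnx (C m) m).2.2.1
    rw [hfm, ← Cs] at h1
    rcases h1 ⟨s, tyF_mono hn (hU.mono' hm)⟩ with h | h
    · exact Or.inl (h.mono ((hU.le (m + 1)).fcons A))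
    · exact Or.inr (h.mono (hU.le (m + 1)))
  · intro A Q s t hA hQ
    obtain ⟨n, hn⟩ := compact hA hU
    obtain ⟨n', hn'⟩ := compact hQ (hU.fcons A)
    obtain ⟨m, hm, hfm⟩ := hf (A, Q) (max n n')
    have h1 := (hnx (C m) m).2.2.2
    rw [hfm, ← Cs] at h1
    rcases h1 ⟨s, tyF_mono hn (hU.mono' ((le_max_left _ _).trans hm))⟩
      ⟨t, tyF_mono hn' ((hU.mono' ((le_max_right _ _).trans hm)).fcons A)⟩ with h | ⟨k, dk, hk, h, dh, hh⟩
    · exact Or.inl (h.mono (((hU.le (m + 1)).fcons A).fcons Q))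
    · refine Or.inr ⟨k, ?_, h, ?_⟩
      · exact (hU.le (m + 1) k dk).trans hk
      · exact (hU.le (m + 1) h dh).trans hh

/-! ### truth -/

section truth
variable {B : Base P Dd} {Ds : ℕ → Term S}

theorem Henkin.over (H : Henkin B Ds) : Over B.D0 0 Ds := Over.of_le H.le

/-- inconsistency of `A` is falsity -/
theorem Henkin.inc_iff (H : Henkin B Ds) {A : Term S} {s : S} (hA : TyF P Ds A (sort s)) :
    B.Inc 1 (fcons A Ds) ↔ ¬ Inh P Ds A := by
  constructor
  · intro h h'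
    exact H.con (h.inst H.wf h')
  · intro h
    exact (H.max A s hA).resolve_right h

/-- truth along walks -/
theorem Henkin.tr_w (H : Henkin B Ds) {w : List (St S)} {s : Bool} {x y : S}
    (hw : WL P Dd w s x y) {X : Term S} (hX : TyF P Ds X (sort x)) :
    Inh P Ds (wform B 0 w X) ↔ (s = true ↔ Inh P Ds X) := by
  have hY := wform_ty hw H.over hX
  have m := wl_main hw H.wf H.over hX
  rw [H.inc_iff hX, H.inc_iff hY] at m
  cases s with
  | true =>
      obtain ⟨m, -⟩ := m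
      obtain ⟨m1, m2⟩ := m rfl
      by_cases h1 : Inh P Ds X <;> by_cases h2 : Inh P Ds (wform B 0 w X) <;> simp_all
  | false =>
      obtain ⟨-, m⟩ := m
      obtain ⟨m1, m2⟩ := m rfl
      by_cases h1 : Inh P Ds X <;> by_cases h2 : Inh P Ds (wform B 0 w X) <;> simp_all

/-- truth of implications with stable conclusion -/
theorem Henkin.tr_imp (H : Henkin B Ds) {a b c : S} (hr : P.rule a b c)
    {A X : Term S} (hA : TyF P Ds A (sort a)) (hX : TyF P Ds X (sort b)) (hs : Stab B 0 Ds X) :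
    Inh P Ds (pi A (wk X)) ↔ (Inh P Ds A → Inh P Ds X) := by
  have hpi : TyF P Ds (pi A (wk X)) (sort c) := .prod hA (tyF_wk hX _) hr
  constructor
  · rintro ⟨M, hM⟩ ⟨N, hN⟩
    have := TyF.appl hM hN
    rw [inst_wk] at this
    exact ⟨_, this⟩
  · intro h
    by_cases h1 : Inh P Ds A
    · obtain ⟨M, hM⟩ := h h1
      exact ⟨_, .abs (tyF_wk hM A) hpi⟩
    · have h2 := (H.inc_iff hA).2 h1
      obtain ⟨w, x, y, Z, hw, hZ, rfl⟩ := hs
      have h3 : Stab B 1 (fcons A Ds) (wk (wform B 0 w Z)) :=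
        ⟨w, x, y, wk Z, hw, tyF_wk hZ A, wk_wform B 0 w Z⟩
      obtain ⟨M, hM⟩ := h3.of_inc (H.wf.fcons hA) (H.over.cons A) h2
      exact ⟨_, .abs hM hpi⟩

/-- truth of universal quantifications with stable matrix -/
theorem Henkin.tr_all (H : Henkin B Ds) (neg : ∀ y ∈ Dd, ∃ w z, WL P Dd w false y z) {a b c : S}
    (hr : P.rule a b c) {A X : Term S} (hA : TyF P Ds A (sort a))
    (hX : TyF P (fcons A Ds) X (sort b)) (hs : Stab B 1 (fcons A Ds) X) :
    Inh P Ds (pi A X) ↔ ∀ M, TyF P Ds M A → Inh P Ds (inst M X) := by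
  have hpi : TyF P Ds (pi A X) (sort c) := .prod hA hX hr
  constructor
  · rintro ⟨M, hM⟩ N hN
    exact ⟨_, TyF.appl hM hN⟩
  · intro h
    obtain ⟨v, x, y, Z, hv, hZ, hXe⟩ := hs
    obtain ⟨w, z, hw⟩ := neg y hv.right
    have hXy : TyF P (fcons A Ds) X (sort y) := by
      rw [hXe]; exact wform_ty hv (H.over.cons A) hZ
    have hQ : TyF P (fcons A Ds) (wform B 1 w X) (sort z) :=
      wform_ty hw (H.over.cons A) hXy
    rcases H.wit A _ a z hA hQ with h1 | ⟨k, hk, h', hh⟩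
    · obtain ⟨M, hM⟩ := Stab.dne hv hZ hXe hw (H.wf.fcons hA) (H.over.cons A) h1
      exact ⟨_, .abs hM hpi⟩
    · exfalso
      have hkA : TyF P Ds (var k) A := by
        have := tyF_var H.wf (H.tot k)
        rwa [hk] at this
      have hhQ : TyF P Ds (var h') (inst (var k) (wform B 1 w X)) := by
        have := tyF_var H.wf (H.tot h')
        rwa [hh] at this
      have h2 := h (var k) hkA
      have hXk : TyF P Ds (inst (var k) X) (sort y) := tyF_inst H.wf hXy hkA
      have h3 : inst (var k) (wform B 1 w X) = wform B 0 w (inst (var k) X) :=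
        wform_sub B (k := 1) (k' := 0) (σ := scons (var k) var) (fun i => rfl) w X
      rw [h3] at hhQ
      have h4 := (H.tr_w hw hXk).1 ⟨_, hhQ⟩
      exact absurd (h4.2 h2) (by simp)

end truth

/-- negative walks from every sort of a bipolar component -/
theorem exists_neg (hD : IsScc P Dd) (he : ¬ Even P Dd) : ∀ y ∈ Dd, ∃ w z, WL P Dd w false y z := by
  intro y hy
  obtain ⟨w, hw⟩ := WL.of_walk (hD.walk_both he hy hy false)
  exact ⟨w, y, hw⟩

end Crest.Agent.R298.HenI989
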