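import Crest.Agent.R298.Dom_201

/-!
# R298: infos of small (tame) types, valid argument lists, `pack` (helper786)

Over `Dom_201` (`X := Ordinal.{0}`, `Neg := Pt → C`) and an abstract skeleton of closed types:
`dom`, `cod`, `live T a` (`T` is a product, `a : dom T`, `cod T a` relevant), `leaf T` (`T` is a
sort of `D_i`).  Irrelevant types have no live step, so they are tame and have one info.
-/

set_option autoImplicit false
set_option linter.unusedSectionVars false

namespace Crest.Agent.R298.Inf786

open Crest.Agent.R298.Dom201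

/-- skeleton of closed types -/
structure Skel (Tm Ty : Type) where
  dom : Ty → Ty
  cod : Ty → Tm → Ty
  live : Ty → Tm → Prop
  leaf : Ty → Prop

variable {Tm Ty C : Type} [Inhabited C]

section skeleton

variable (K : Skel Tm Ty)

/-- live codomain chains -/
inductive Cd : Ty → Ty → Prop
  | refl (T : Ty) : Cd T T
  | step {T T' : Ty} (a : Tm) : K.live T a → Cd (K.cod T a) T' → Cd T T'

variable {K}

theorem Cd.trans {T T' T'' : Ty} (h : Cd K T T') (h' : Cd K T' T'') : Cd K T T'' := by
  induction h with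
  | refl _ => exact h'
  | step a hl _ ih => exact .step a hl (ih h')

theorem Cd.one {T : Ty} {a : Tm} (h : K.live T a) : Cd K T (K.cod T a) :=
  .step a h (.refl _)

theorem Cd.snoc {T T' : Ty} {a : Tm} (h : Cd K T T') (hl : K.live T' a) :
    Cd K T (K.cod T' a) := h.trans (.one hl)

variable (K)

/-- `A` is the domain of a live codomain descendant of `T` -/
def Dm (A T : Ty) : Prop := ∃ T' a, Cd K T T' ∧ K.live T' a ∧ A = K.dom T'

/-- tame types -/
def Tame (T : Ty) : Prop := Acc (Dm K) T

variable {K}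

theorem Dm.self {T : Ty} {a : Tm} (h : K.live T a) : Dm K (K.dom T) T :=
  ⟨T, a, .refl T, h, rfl⟩

theorem Dm.cd {A T T' : Ty} (h : Cd K T T') (hA : Dm K A T') : Dm K A T := by
  obtain ⟨T'', a, h1, h2, h3⟩ := hA
  exact ⟨T'', a, h.trans h1, h2, h3⟩

theorem Tame.cd {T T' : Ty} (hT : Tame K T) (h : Cd K T T') : Tame K T' :=
  Acc.intro _ fun _ hA => hT.inv (hA.cd h)

theorem Tame.cod {T : Ty} {a : Tm} (hT : Tame K T) (h : K.live T a) : Tame K (K.cod T a) :=
  hT.cd (.one h)

theorem Tame.dom {T : Ty} {a : Tm} (hT : Tame K T) (h : K.live T a) : Tame K (K.dom T) :=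
  hT.inv (Dm.self h)

theorem Tame.dm {A T : Ty} (hT : Tame K T) (h : Dm K A T) : Tame K A := hT.inv h

theorem tame_of_dead {T : Ty} (h : ∀ a, ¬ K.live T a) : Tame K T := by
  refine Acc.intro _ fun A hA => ?_
  obtain ⟨T', a, h1, h2, _⟩ := hA
  cases h1 with
  | refl _ => exact absurd h2 (h a)
  | step b hb _ => exact absurd hb (h b)

theorem tame_intro {T : Ty} (h : ∀ A, Dm K A T → Tame K A) : Tame K T := Acc.intro _ h

variable (K)

/-- the recursion relation -/
def DmA (A T : Ty) : Prop := Dm K A T ∧ Tame K T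

theorem dmA_wf : WellFounded (DmA K) := by
  refine ⟨fun T => ?_⟩
  by_cases hT : Tame K T
  · induction hT with
    | intro T _ ih => exact Acc.intro _ fun A hA => ih A hA.1
  · exact Acc.intro _ fun A hA => absurd hA.2 hT

/-- validity of complete argument lists, relative to the ranges of the domains -/
def ValG (R : Ty → Set (Val Tm C)) : Ty → Args Tm C → Prop
  | T, [] => K.leaf T
  | T, e :: l => K.live T e.1 ∧ e.2 ∈ R (K.dom T) ∧ ValG R (K.cod T e.1) l

/-- infos of tame types -/
noncomputable def Info (C : Type) [Inhabited C] : Ty → Set X :=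
  (dmA_wf K).fix fun T ih =>
    {x | ∃ F : Args Tm C → C,
      (∀ l, ¬ ValG K (fun A => {e | ∃ h : DmA K A T, ∃ y ∈ ih A h, e = Sum.inl y}) T l →
        F l = default) ∧ x = codeF F}

/-- wild minus types -/
def IsNeg (sg : Ty → Prop) (A : Ty) : Prop := ¬ Tame K A ∧ sg A

open Classical in
/-- the infos of a closed type -/
noncomputable def rng (C : Type) [Inhabited C] (sg : Ty → Prop) (A : Ty) : Set (Val Tm C) :=
  if Tame K A then Sum.inl '' Info K C A
  else if sg A then Set.range Sum.inr else Set.range Sum.inl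

/-- complete valid argument lists -/
def Valid (sg : Ty → Prop) : Ty → Args Tm C → Prop := ValG K (rng K C sg)

variable {K}

theorem rng_tame {sg : Ty → Prop} {A : Ty} (h : Tame K A) :
    rng K C sg A = Sum.inl '' Info K C A := by
  unfold rng
  rw [if_pos h]

theorem rng_neg {sg : Ty → Prop} {A : Ty} (h : IsNeg K sg A) :
    rng K C sg A = Set.range Sum.inr := by
  unfold rng
  rw [if_neg h.1, if_pos h.2]

theorem rng_pos {sg : Ty → Prop} {A : Ty} (h : ¬ Tame K A) (h' : ¬ sg A) :
    rng K C sg A = Set.range Sum.inl := by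
  unfold rng
  rw [if_neg h, if_neg h']

variable {sg : Ty → Prop}

@[simp] theorem valid_nil {T : Ty} : Valid K sg T ([] : Args Tm C) ↔ K.leaf T := Iff.rfl

@[simp] theorem valid_cons {T : Ty} {e : Tm × Val Tm C} {l : Args Tm C} :
    Valid K sg T (e :: l) ↔
      K.live T e.1 ∧ e.2 ∈ rng K C sg (K.dom T) ∧ Valid K sg (K.cod T e.1) l := Iff.rfl

theorem info_unfold (T : Ty) : Info K C T =
    {x | ∃ F : Args Tm C → C,
      (∀ l, ¬ ValG K (fun A => {e | ∃ _ : DmA K A T, ∃ y ∈ Info K C A, e = Sum.inl y}) T l →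
        F l = default) ∧ x = codeF F} := by
  unfold Info
  rw [(dmA_wf K).fix_eq]

theorem valG_iff {T : Ty} (hT : Tame K T) {T' : Ty} (h : Cd K T T') (l : Args Tm C) :
    ValG K (fun A => {e | ∃ _ : DmA K A T, ∃ y ∈ Info K C A, e = Sum.inl y}) T' l ↔
      Valid K sg T' l := by
  induction l generalizing T' with
  | nil => exact Iff.rfl
  | cons e l ih =>
    obtain ⟨a, v⟩ := e
    constructor
    · rintro ⟨h1, ⟨h2, y, h3, h4⟩, h5⟩
      refine ⟨h1, ?_, (ih (h.snoc h1)).1 h5⟩
      rw [rng_tame (hT.dm h2.1)]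
      exact ⟨y, h3, h4.symm⟩
    · rintro ⟨h1, h2, h5⟩
      have hD : Dm K (K.dom T') T := (Dm.self h1).cd h
      rw [rng_tame (hT.dm hD)] at h2
      obtain ⟨y, h3, h4⟩ := h2
      exact ⟨h1, ⟨⟨hD, hT⟩, y, h3, h4.symm⟩, (ih (h.snoc h1)).2 h5⟩

/-- **infos of a tame type** = codes of the functions vanishing off the valid lists -/
theorem info_eq (sg : Ty → Prop) {T : Ty} (hT : Tame K T) : Info K C T =
    {x | ∃ F : Args Tm C → C, (∀ l, ¬ Valid K sg T l → F l = default) ∧ x = codeF F} := by
  rw [info_unfold]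
  ext x
  constructor
  · rintro ⟨F, h1, h2⟩
    exact ⟨F, fun l hl => h1 l fun h => hl ((valG_iff hT (.refl T) l).1 h), h2⟩
  · rintro ⟨F, h1, h2⟩
    exact ⟨F, fun l hl => h1 l fun h => hl ((valG_iff hT (.refl T) l).2 h), h2⟩

/-! ### lists with plus entries only -/

/-- no minus entries -/
def NoNeg (l : Args Tm C) : Prop := ∀ e ∈ l, ∃ x, e.2 = Sum.inl x

/-- the plus part of a value -/
def unV : Val Tm C → X
  | Sum.inl x => x
  | Sum.inr _ => 0

/-- argument list to point -/
def ptOf (l : Args Tm C) : Pt Tm := l.map fun e => (e.1, unV e.2)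

/-- point to argument list -/
def argOf (p : Pt Tm) : Args Tm C := p.map fun e => (e.1, Sum.inl e.2)

theorem argOf_ptOf {l : Args Tm C} (h : NoNeg l) : argOf (ptOf l) = l := by
  unfold argOf ptOf
  rw [List.map_map]
  conv_rhs => rw [← List.map_id l]
  apply List.map_congr_left
  rintro ⟨a, v⟩ he
  obtain ⟨x, hx⟩ := h _ he
  simp only at hx
  subst hx
  rfl

theorem ptOf_argOf (p : Pt Tm) : ptOf (argOf p : Args Tm C) = p := by
  unfold argOf ptOf
  rw [List.map_map]
  conv_rhs => rw [← List.map_id p]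
  apply List.map_congr_left
  rintro ⟨a, v⟩ _
  rfl

theorem noNeg_argOf (p : Pt Tm) : NoNeg (argOf p : Args Tm C) := by
  intro e he
  obtain ⟨q, _, rfl⟩ := List.mem_map.1 he
  exact ⟨_, rfl⟩

theorem noNeg_of_agA {α : X} {l l' : Args Tm C} (h : AgA α l l') (hl : NoNeg l) : NoNeg l' := by
  unfold AgA at h
  induction h with
  | nil => exact hl
  | @cons e e' l l' hee _ ih =>
    intro d hd
    rcases List.mem_cons.1 hd with rfl | hd
    · obtain ⟨x, hx⟩ := hl e (List.mem_cons_self ..)
      obtain ⟨h1, h2⟩ := hee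
      rw [hx] at h2
      cases h2' : d.2 with
      | inl y => exact ⟨y, rfl⟩
      | inr G =>
        rw [h2'] at h2
        cases h2
    · exact ih (fun d' hd' => hl d' (List.mem_cons_of_mem _ hd')) d hd

theorem eq_of_agA {α : X} {l l' : Args Tm C} (h : AgA α l l') (hl : NoNeg l) : l = l' := by
  unfold AgA at h
  induction h with
  | nil => rfl
  | @cons e e' l l' hee _ ih =>
    obtain ⟨x, hx⟩ := hl e (List.mem_cons_self ..)
    obtain ⟨a, v⟩ := e
    obtain ⟨a', v'⟩ := e'
    obtain ⟨h1, h2⟩ := hee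
    simp only at h1 h2 hx
    subst hx
    subst h1
    cases h2
    rw [ih fun d' hd' => hl d' (List.mem_cons_of_mem _ hd')]

/-! ### one global bound -/

theorem valid_tame_entries {T : Ty} (hT : Tame K T) {l : Args Tm C} (h : Valid K sg T l) :
    ∀ e ∈ l, ∃ A, Dm K A T ∧ ∃ x ∈ Info K C A, e.2 = Sum.inl x := by
  suffices H : ∀ (l : Args Tm C) (T' : Ty), Cd K T T' → Valid K sg T' l →
      ∀ e ∈ l, ∃ A, Dm K A T ∧ ∃ x ∈ Info K C A, e.2 = Sum.inl x from H l T (.refl T) h
  intro l
  induction l with
  | nil => intro T' _ _ e he; exact absurd he List.not_mem_nil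
  | cons d l ih =>
    intro T' hc hv e he
    obtain ⟨h1, h2, h3⟩ := hv
    rcases List.mem_cons.1 he with rfl | he
    · have hD : Dm K (K.dom T') T := (Dm.self h1).cd hc
      rw [rng_tame (hT.dm hD)] at h2
      obtain ⟨x, hx, hx'⟩ := h2
      exact ⟨_, hD, x, hx, hx'.symm⟩
    · exact ih _ (hc.snoc h1) h3 e he

theorem exists_small_list {β : X} {l : Args Tm C}
    (h : ∀ e ∈ l, ∃ x, x < β ∧ e.2 = Sum.inl x) :
    ∃ s : List (Tm × β.ToType), l = s.map fun e => (e.1, (Sum.inl (up e.2) : Val Tm C)) := by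
  induction l with
  | nil => exact ⟨[], rfl⟩
  | cons e l ih =>
    obtain ⟨s, hs⟩ := ih fun d hd => h d (List.mem_cons_of_mem _ hd)
    obtain ⟨x, hx, hx'⟩ := h e (List.mem_cons_self ..)
    refine ⟨(e.1, dn x hx) :: s, ?_⟩
    rw [List.map_cons, ← hs]
    simp only [up_dn]
    rw [← hx']

theorem info_bounded {T : Ty} (hT : Tame K T) : ∃ b : X, ∀ x ∈ Info K C T, x < b := by
  induction hT with
  | intro T h ih =>
    have hT : Tame K T := Acc.intro _ h
    have hc : ∀ A : Ty, ∃ b : X, Dm K A T → ∀ x ∈ Info K C A, x < b := by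
      intro A
      by_cases hA : Dm K A T
      · obtain ⟨b, hb⟩ := ih A hA
        exact ⟨b, fun _ => hb⟩
      · exact ⟨0, fun h => absurd h hA⟩
    choose bd hbd using hc
    obtain ⟨β, hβ⟩ := exists_bound bd
    let sg : Ty → Prop := fun _ => True
    obtain ⟨b, hb⟩ := exists_bound_of_factor
      (A := {F : Args Tm C → C // ∀ l, ¬ Valid K sg T l → F l = default})
      (ι := List (Tm × β.ToType) → C)
      (fun F s => F.1 (s.map fun e => (e.1, Sum.inl (up e.2))))
      (fun F => codeF F.1) (by
        intro F F' hFF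
        have : F.1 = F'.1 := by
          funext l
          by_cases hl : Valid K sg T l
          · obtain ⟨s, hs⟩ := exists_small_list (β := β) (l := l) (by
              intro e he
              obtain ⟨A, hA, x, hx, hx'⟩ := valid_tame_entries hT hl e he
              exact ⟨x, (hbd A hA x hx).trans (hβ A), hx'⟩)
            rw [hs]
            exact congrFun hFF s
          · rw [F.2 l hl, F'.2 l hl]
        rw [this])
    refine ⟨b, fun x hx => ?_⟩
    rw [info_eq sg hT] at hx
    obtain ⟨F, hF, rfl⟩ := hx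
    exact hb ⟨F, hF⟩

theorem exists_b0 (K : Skel Tm Ty) (C : Type) [Inhabited C] :
    ∃ b : X, ∀ T : Ty, Tame K T → ∀ x ∈ Info K C T, x < b := by
  have hc : ∀ T : Ty, ∃ b : X, Tame K T → ∀ x ∈ Info K C T, x < b := by
    intro T
    by_cases hT : Tame K T
    · obtain ⟨b, hb⟩ := info_bounded (C := C) hT
      exact ⟨b, fun _ => hb⟩
    · exact ⟨0, fun h => absurd h hT⟩
  choose bd hbd using hc
  obtain ⟨β, hβ⟩ := exists_bound bd
  exact ⟨β, fun T hT x hx => (hbd T hT x hx).trans (hβ T)⟩

/-- one ordinal above all infos of all tame types -/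
noncomputable def b0 (K : Skel Tm Ty) (C : Type) [Inhabited C] : X :=
  Classical.choose (exists_b0 K C)

theorem info_lt_b0 {T : Ty} (hT : Tame K T) {x : X} (hx : x ∈ Info K C T) : x < b0 K C :=
  Classical.choose_spec (exists_b0 K C) T hT x hx

/-! ### thin skeletons -/

/-- THIN: under a wild type the wild domains have the opposite sign -/
def Thin (K : Skel Tm Ty) (sg : Ty → Prop) : Prop :=
  ∀ T T' a, ¬ Tame K T → Cd K T T' → K.live T' a → ¬ Tame K (K.dom T') →
    (sg (K.dom T') ↔ ¬ sg T)

theorem valid_argLt (hth : Thin K sg) {T : Ty} (hT : ¬ IsNeg K sg T) {l : Args Tm C}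
    (h : Valid K sg T l) : ArgLt (b0 K C) l := by
  suffices H : ∀ (l : Args Tm C) (T' : Ty), Cd K T T' → Valid K sg T' l →
      ArgLt (b0 K C) l from H l T (.refl T) h
  intro l
  induction l with
  | nil => intro T' _ _ e he; exact absurd he List.not_mem_nil
  | cons d l ih =>
    intro T' hc hv e he x hx
    obtain ⟨h1, h2, h3⟩ := hv
    rcases List.mem_cons.1 he with rfl | he
    · by_cases hD : Tame K (K.dom T')
      · rw [rng_tame hD] at h2
        obtain ⟨y, hy, hy'⟩ := h2
        rw [hx] at hy'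
        have hxy : y = x := Sum.inl.inj hy'
        subst hxy
        exact info_lt_b0 hD hy
      · have hTw : ¬ Tame K T := fun hT' => hD ((hT'.cd hc).dom h1)
        have hsT : ¬ sg T := fun hs => hT ⟨hTw, hs⟩
        have hsD : sg (K.dom T') := (hth T T' _ hTw hc h1 hD).2 hsT
        rw [rng_neg ⟨hD, hsD⟩] at h2
        obtain ⟨G, hG⟩ := h2
        rw [hx] at hG
        exact absurd hG (by simp)
    · exact ih _ (hc.snoc h1) h3 e he x hx

theorem valid_noNeg (hth : Thin K sg) {T : Ty} (hT : Tame K T ∨ sg T) {l : Args Tm C}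
    (h : Valid K sg T l) : NoNeg l := by
  suffices H : ∀ (l : Args Tm C) (T' : Ty), Cd K T T' → Valid K sg T' l →
      NoNeg l from H l T (.refl T) h
  intro l
  induction l with
  | nil => intro T' _ _ e he; exact absurd he List.not_mem_nil
  | cons d l ih =>
    intro T' hc hv e he
    obtain ⟨h1, h2, h3⟩ := hv
    rcases List.mem_cons.1 he with rfl | he
    · by_cases hD : Tame K (K.dom T')
      · rw [rng_tame hD] at h2
        obtain ⟨y, _, hy'⟩ := h2
        exact ⟨y, hy'.symm⟩
      · have hTw : ¬ Tame K T := fun hT' => hD ((hT'.cd hc).dom h1)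
        have hsT : sg T := hT.resolve_left hTw
        have hsD : ¬ sg (K.dom T') := fun hs => (hth T T' _ hTw hc h1 hD).1 hs hsT
        rw [rng_pos hD hsD] at h2
        obtain ⟨y, hy⟩ := h2
        exact ⟨y, hy.symm⟩
    · exact ih _ (hc.snoc h1) h3 e he

theorem valid_congr {T : Ty} {α : X} {l l' : Args Tm C} (h : AgA α l l')
    (hl : Valid K sg T l) : Valid K sg T l' := by
  unfold AgA at h
  induction h generalizing T with
  | nil => exact hl
  | @cons e e' l l' hee _ ih =>
    obtain ⟨a, v⟩ := e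
    obtain ⟨a', v'⟩ := e'
    obtain ⟨h1, h2⟩ := hee
    simp only at h1 h2
    subst h1
    obtain ⟨g1, g2, g3⟩ := hl
    refine ⟨g1, ?_, ih g3⟩
    simp only at g2 ⊢
    cases h2 with
    | inl x => exact g2
    | @inr G H _ =>
      by_cases hD : Tame K (K.dom T)
      · rw [rng_tame hD] at g2
        obtain ⟨y, _, hy⟩ := g2
        exact absurd hy (by simp)
      · by_cases hs : sg (K.dom T)
        · rw [rng_neg ⟨hD, hs⟩]
          exact ⟨H, rfl⟩
        · rw [rng_pos hD hs] at g2
          obtain ⟨y, hy⟩ := g2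
          exact absurd hy (by simp)

/-! ### evaluation of values and `pack` -/

/-- value applied to a complete argument list -/
noncomputable def evalV : Val Tm C → Args Tm C → C
  | Sum.inl x, l => app x l
  | Sum.inr G, l => G (ptOf l)

open Classical in
/-- cut a function to the valid lists -/
noncomputable def clamp (K : Skel Tm Ty) (sg : Ty → Prop) (A : Ty) (f : Args Tm C → C) :
    Args Tm C → C := fun l => if Valid K sg A l then f l else default

open Classical in
/-- the info of a function at a closed type -/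
noncomputable def pack (K : Skel Tm Ty) (sg : Ty → Prop) (A : Ty) (f : Args Tm C → C) :
    Val Tm C :=
  if IsNeg K sg A then Sum.inr fun p => clamp K sg A f (argOf p)
  else Sum.inl (codeF (clamp K sg A f))

theorem clamp_of {A : Ty} {f : Args Tm C → C} {l : Args Tm C} (h : Valid K sg A l) :
    clamp K sg A f l = f l := by
  unfold clamp
  rw [if_pos h]

theorem clamp_off {A : Ty} {f : Args Tm C → C} {l : Args Tm C} (h : ¬ Valid K sg A l) :
    clamp K sg A f l = default := by
  unfold clamp
  rw [if_neg h]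

theorem clamp_congr {A : Ty} {f g : Args Tm C → C} (h : ∀ l, Valid K sg A l → f l = g l) :
    clamp K sg A f = clamp K sg A g := by
  funext l
  by_cases hl : Valid K sg A l
  · rw [clamp_of hl, clamp_of hl, h l hl]
  · rw [clamp_off hl, clamp_off hl]

theorem pack_congr {A : Ty} {f g : Args Tm C → C} (h : ∀ l, Valid K sg A l → f l = g l) :
    pack K sg A f = pack K sg A g := by
  unfold pack
  rw [clamp_congr h]

theorem pack_neg {A : Ty} (h : IsNeg K sg A) (f : Args Tm C → C) :
    pack K sg A f = Sum.inr fun p => clamp K sg A f (argOf p) := by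
  unfold pack
  rw [if_pos h]

theorem pack_pos {A : Ty} (h : ¬ IsNeg K sg A) (f : Args Tm C → C) :
    pack K sg A f = Sum.inl (codeF (clamp K sg A f)) := by
  unfold pack
  rw [if_neg h]

/-- representable functions: at tame and wild plus types one ordinal supports the function on
the valid lists; no condition at wild minus types -/
def Rep (K : Skel Tm Ty) (sg : Ty → Prop) (A : Ty) (f : Args Tm C → C) : Prop :=
  ¬ IsNeg K sg A → ∃ α : X, ∀ l l', Valid K sg A l → Valid K sg A l' → AgA α l l' → f l = f l'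

theorem supp_clamp (hth : Thin K sg) {A : Ty} (hA : ¬ IsNeg K sg A) {f : Args Tm C → C}
    (hf : Rep K sg A f) : ∃ α, Supp α (clamp K sg A f) := by
  obtain ⟨α, hα⟩ := hf hA
  refine ⟨max α (b0 K C), fun l hl => ?_, fun l l' hll => ?_⟩
  · exact clamp_off fun hv => hl ((valid_argLt hth hA hv).mono (le_max_right _ _))
  · by_cases hv : Valid K sg A l
    · have hv' := valid_congr hll hv
      rw [clamp_of hv, clamp_of hv', hα l l' hv hv' (hll.anti (le_max_left _ _))]
    · have hv' : ¬ Valid K sg A l' := fun h => hv (valid_congr hll.symm h)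
      rw [clamp_off hv, clamp_off hv']

theorem evalV_pack (hth : Thin K sg) {A : Ty} {f : Args Tm C → C} (hf : Rep K sg A f)
    {l : Args Tm C} (hl : Valid K sg A l) : evalV (pack K sg A f) l = f l := by
  by_cases hA : IsNeg K sg A
  · rw [pack_neg hA]
    simp only [evalV]
    rw [argOf_ptOf (valid_noNeg hth (Or.inr hA.2) hl), clamp_of hl]
  · rw [pack_pos hA]
    simp only [evalV]
    rw [app_codeF (supp_clamp hth hA hf), clamp_of hl]

theorem rep_tame (hth : Thin K sg) {A : Ty} (hA : Tame K A) (f : Args Tm C → C) :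
    Rep K sg A f := by
  intro _
  refine ⟨0, fun l l' hl _ hll => ?_⟩
  rw [eq_of_agA hll (valid_noNeg hth (Or.inl hA) hl)]

theorem rep_neg {A : Ty} (hA : IsNeg K sg A) (f : Args Tm C → C) : Rep K sg A f :=
  fun h => absurd hA h

theorem rep_congr {A : Ty} {f g : Args Tm C → C} (h : ∀ l, Valid K sg A l → f l = g l)
    (hf : Rep K sg A f) : Rep K sg A g := by
  intro hA
  obtain ⟨α, hα⟩ := hf hA
  exact ⟨α, fun l l' hl hl' hll => by rw [← h l hl, ← h l' hl', hα l l' hl hl' hll]⟩

theorem rep_evalV {A : Ty} {w : Val Tm C} (hw : w ∈ rng K C sg A) :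
    Rep K sg A (evalV w) := by
  intro hA
  cases w with
  | inl x =>
    obtain ⟨α, hα⟩ := app_supp (Tm := Tm) (C := C) x
    exact ⟨α, fun l l' _ _ hll => hα.2 l l' hll⟩
  | inr G =>
    exfalso
    by_cases hT : Tame K A
    · rw [rng_tame hT] at hw
      obtain ⟨y, _, hy⟩ := hw
      exact absurd hy (by simp)
    · have hs : ¬ sg A := fun hs => hA ⟨hT, hs⟩
      rw [rng_pos hT hs] at hw
      obtain ⟨y, hy⟩ := hw
      exact absurd hy (by simp)

theorem pack_mem (sg : Ty → Prop) (A : Ty) (f : Args Tm C → C) :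
    pack K sg A f ∈ rng K C sg A := by
  by_cases hT : Tame K A
  · rw [rng_tame hT, pack_pos fun h => h.1 hT]
    refine ⟨_, ?_, rfl⟩
    rw [info_eq sg hT]
    exact ⟨_, fun l hl => clamp_off hl, rfl⟩
  · by_cases hs : sg A
    · rw [rng_neg ⟨hT, hs⟩, pack_neg ⟨hT, hs⟩]
      exact ⟨_, rfl⟩
    · rw [rng_pos hT hs, pack_pos fun h => hs h.2]
      exact ⟨_, rfl⟩

/-- at tame types `pack` and `evalV` are inverse to each other -/
theorem pack_evalV_tame (hth : Thin K sg) {A : Ty} (hA : Tame K A) {w : Val Tm C}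
    (hw : w ∈ rng K C sg A) : pack K sg A (evalV w) = w := by
  rw [rng_tame hA, info_eq sg hA] at hw
  obtain ⟨x, ⟨F, hF, rfl⟩, rfl⟩ := hw
  have hF' : clamp K sg A F = F := by
    funext l
    by_cases hl : Valid K sg A l
    · rw [clamp_of hl]
    · rw [clamp_off hl, hF l hl]
  have hs : ∃ α, Supp α F := by
    have := supp_clamp hth (fun h => h.1 hA) (rep_tame (f := F) hth hA)
    rwa [hF'] at this
  have hev : (evalV (Sum.inl (codeF F)) : Args Tm C → C) = F := by
    funext l
    simp only [evalV]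
    rw [app_codeF hs]
  rw [hev, pack_pos fun h => h.1 hA, hF']

/-- the default info -/
noncomputable def dflt (K : Skel Tm Ty) (sg : Ty → Prop) (C : Type) [Inhabited C] (A : Ty) :
    Val Tm C := pack K sg A fun _ => default

theorem dflt_mem (A : Ty) : dflt K sg C A ∈ rng K C sg A := pack_mem sg A _

/-- dead types (no valid list) have only one info: `pack` is constant -/
theorem pack_dead {A : Ty} (h : ∀ l : Args Tm C, ¬ Valid K sg A l) (f : Args Tm C → C) :
    pack K sg A f = dflt K sg C A :=
  pack_congr fun l hl => absurd hl (h l)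

end skeleton

end Crest.Agent.R298.Inf786
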