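import Crest.Agent.R298.Par_452

/-!
R298 (S0452), helper452: metatheory of typing for an arbitrary specification:
renaming (thinning) lemma, substitution lemma, generation, type correctness,
context conversion, subject reduction.
-/

set_option autoImplicit false

namespace Crest.Agent.R298.Ty452

open Crest.LogicCS.PTS Crest.LogicCS.PTS.Term Relation
open Crest.Agent.R298.Sub452 Crest.Agent.R298.Par452

universe u
variable {S : Type u} {P : Spec S}

/-- `Lk Γ i A`: the variable `i` has (shifted) declared type `A` in `Γ` -/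
inductive Lk : List (Term S) → ℕ → Term S → Prop
  | zero (A : Term S) (Γ : List (Term S)) : Lk (A :: Γ) 0 (wk A)
  | succ {Γ : List (Term S)} {i : ℕ} {A : Term S} (B : Term S) :
      Lk Γ i A → Lk (B :: Γ) (i + 1) (wk A)

/-- well-formed contexts -/
inductive Wf (P : Spec S) : List (Term S) → Prop
  | nil : Wf P []
  | cons {Γ : List (Term S)} {A : Term S} {s : S} :
      Wf P Γ → Typed P Γ A (sort s) → Wf P (A :: Γ)

theorem twf {Γ : List (Term S)} {M A : Term S} (h : Typed P Γ M A) : Wf P Γ := by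
  induction h with
  | ax _ => exact .nil
  | start h ih => exact .cons ih h
  | weak _ h _ ih => exact .cons ih h
  | prod _ _ _ ih _ => exact ih
  | abs _ _ _ ih => exact ih
  | appl _ _ ih _ => exact ih
  | conv _ _ _ ih _ => exact ih

theorem Wf.tail {Γ : List (Term S)} {A : Term S} (h : Wf P (A :: Γ)) :
    Wf P Γ ∧ ∃ s, Typed P Γ A (sort s) := by
  cases h with
  | cons h h' => exact ⟨h, _, h'⟩

theorem t_start {Γ : List (Term S)} {A : Term S} {s : S} (h : Typed P Γ A (sort s)) :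
    Typed P (A :: Γ) (var 0) (wk A) := by
  rw [← shift_zero]; exact .start h

theorem t_weak {Γ : List (Term S)} {M B A : Term S} {s : S} (h : Typed P Γ M B)
    (h' : Typed P Γ A (sort s)) : Typed P (A :: Γ) (wk M) (wk B) := by
  rw [← shift_zero, ← shift_zero]; exact .weak h h'

theorem t_appl {Γ : List (Term S)} {M N A B : Term S} (h : Typed P Γ M (pi A B))
    (h' : Typed P Γ N A) : Typed P Γ (app M N) (inst N B) := by
  rw [← subst_eq]; exact .appl h h'

/-- an induction principle for `Typed` in terms of `wk` and `inst` -/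
theorem typed_ind {motive : List (Term S) → Term S → Term S → Prop}
    (hax : ∀ {s₁ s₂ : S}, P.ax s₁ s₂ → motive [] (sort s₁) (sort s₂))
    (hstart : ∀ {Γ A s}, Typed P Γ A (sort s) → motive Γ A (sort s) →
      motive (A :: Γ) (var 0) (wk A))
    (hweak : ∀ {Γ M B A s}, Typed P Γ M B → Typed P Γ A (sort s) → motive Γ M B →
      motive Γ A (sort s) → motive (A :: Γ) (wk M) (wk B))
    (hprod : ∀ {Γ A B s₁ s₂ s₃}, Typed P Γ A (sort s₁) → Typed P (A :: Γ) B (sort s₂) →
      P.rule s₁ s₂ s₃ → motive Γ A (sort s₁) → motive (A :: Γ) B (sort s₂) →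
      motive Γ (pi A B) (sort s₃))
    (habs : ∀ {Γ A M B s}, Typed P (A :: Γ) M B → Typed P Γ (pi A B) (sort s) →
      motive (A :: Γ) M B → motive Γ (pi A B) (sort s) → motive Γ (lam A M) (pi A B))
    (happl : ∀ {Γ M N A B}, Typed P Γ M (pi A B) → Typed P Γ N A → motive Γ M (pi A B) →
      motive Γ N A → motive Γ (app M N) (inst N B))
    (hconv : ∀ {Γ M A B s}, Typed P Γ M A → Typed P Γ B (sort s) → BetaEq A B →
      motive Γ M A → motive Γ B (sort s) → motive Γ M B)
    {Γ : List (Term S)} {M A : Term S} (h : Typed P Γ M A) : motive Γ M A := by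
  induction h with
  | ax h => exact hax h
  | start h ih => rw [shift_zero]; exact hstart h ih
  | weak h h' ih ih' => rw [shift_zero, shift_zero]; exact hweak h h' ih ih'
  | prod h h' r ih ih' => exact hprod h h' r ih ih'
  | abs h h' ih ih' => exact habs h h' ih ih'
  | appl h h' ih ih' => rw [subst_eq]; exact happl h h' ih ih'
  | conv h h' e ih ih' => exact hconv h h' e ih ih'

theorem ax_wf {Γ : List (Term S)} (h : Wf P Γ) {s₁ s₂ : S} (a : P.ax s₁ s₂) :
    Typed P Γ (sort s₁) (sort s₂) := by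
  induction h with
  | nil => exact .ax a
  | cons _ h ih => exact t_weak ih h

theorem var_wf {Γ : List (Term S)} {i : ℕ} {A : Term S} (h : Lk Γ i A) (w : Wf P Γ) :
    Typed P Γ (var i) A := by
  induction h with
  | zero A Γ =>
      obtain ⟨_, s, h⟩ := w.tail
      exact t_start h
  | succ B h ih =>
      obtain ⟨w', s, h'⟩ := w.tail
      exact t_weak (ih w') h'

theorem Lk.unique {Γ : List (Term S)} {i : ℕ} {A B : Term S} (h : Lk Γ i A) (h' : Lk Γ i B) :
    A = B := by
  induction h generalizing B with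
  | zero A Γ => cases h'; rfl
  | succ C h ih => cases h' with
    | succ _ h' => rw [ih h']

theorem Lk.exists_of_lt {Γ : List (Term S)} {i : ℕ} (h : i < Γ.length) : ∃ A, Lk Γ i A := by
  induction Γ generalizing i with
  | nil => simp at h
  | cons B Γ ih =>
      cases i with
      | zero => exact ⟨_, .zero _ _⟩
      | succ i =>
          obtain ⟨A, hA⟩ := ih (i := i) (by simpa using h)
          exact ⟨_, .succ _ hA⟩

theorem Lk.lt {Γ : List (Term S)} {i : ℕ} {A : Term S} (h : Lk Γ i A) : i < Γ.length := by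
  induction h with
  | zero A Γ => simp
  | succ B h ih => simpa using ih

/-- the domain of a typed product is typed -/
theorem pi_dom_aux {Γ : List (Term S)} {M C : Term S} (h : Typed P Γ M C) :
    ∀ A B, M = pi A B → ∃ s, Typed P Γ A (sort s) := by
  refine typed_ind (P := P) (motive := fun Γ M _ => ∀ A B, M = pi A B → ∃ s, Typed P Γ A (sort s))
    ?_ ?_ ?_ ?_ ?_ ?_ ?_ h
  · intro s₁ s₂ _ A B e; cases e
  · intro Γ A s _ _ A' B e; cases e
  · intro Γ M B A s h h' ih _ A' B' e
    cases M with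
    | pi M1 M2 =>
        simp only [wk, ren_pi] at e
        injection e with e1 e2
        obtain ⟨s', h''⟩ := ih M1 M2 rfl
        exact ⟨s', e1 ▸ t_weak h'' h'⟩
    | var i => cases e
    | sort i => cases e
    | app _ _ => cases e
    | lam _ _ => cases e
  · intro Γ A B s₁ s₂ s₃ h _ _ _ _ A' B' e
    injection e with e1 e2
    exact ⟨s₁, e1 ▸ h⟩
  · intro Γ A M B s _ _ _ _ A' B' e; cases e
  · intro Γ M N A B _ _ _ _ A' B' e; cases e
  · intro Γ M A B s _ _ _ ih _ A' B' e
    exact ih A' B' e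

theorem pi_dom {Γ : List (Term S)} {A B C : Term S} (h : Typed P Γ (pi A B) C) :
    ∃ s, Typed P Γ A (sort s) := pi_dom_aux h A B rfl

/-! ### renaming -/

/-- `ρ` is a renaming from `Γ` to `Δ` -/
def RenOk (ρ : ℕ → ℕ) (Γ Δ : List (Term S)) : Prop :=
  ∀ i A, Lk Γ i A → Lk Δ (ρ i) (ren ρ A)

theorem ren_up_wk (ρ : ℕ → ℕ) (M : Term S) : ren (up ρ) (wk M) = wk (ren ρ M) := by
  simp only [wk, ren_ren, Nat.succ_eq_add_one, up_succ]

theorem RenOk.up {ρ : ℕ → ℕ} {Γ Δ : List (Term S)} (h : RenOk ρ Γ Δ) (A : Term S) :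
    RenOk (up ρ) (A :: Γ) (ren ρ A :: Δ) := by
  intro i B hl
  cases hl with
  | zero _ _ => rw [ren_up_wk]; exact .zero _ _
  | succ _ hl => rw [ren_up_wk]; exact .succ _ (h _ _ hl)

theorem RenOk.wk (Γ : List (Term S)) (A : Term S) : RenOk Nat.succ Γ (A :: Γ) :=
  fun _ _ h => .succ _ h

theorem RenOk.id (Γ : List (Term S)) : RenOk (fun i => i) Γ Γ :=
  fun i A h => by rwa [ren_id]

theorem RenOk.comp {ρ τ : ℕ → ℕ} {Γ Δ E : List (Term S)} (h : RenOk ρ Γ Δ) (h' : RenOk τ Δ E) :
    RenOk (fun i => τ (ρ i)) Γ E :=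
  fun i A hl => by
    have := h' _ _ (h _ _ hl)
    rwa [ren_ren] at this

theorem typed_ren {Γ : List (Term S)} {M A : Term S} (h : Typed P Γ M A) :
    ∀ {Δ : List (Term S)} {ρ : ℕ → ℕ}, Wf P Δ → RenOk ρ Γ Δ →
      Typed P Δ (ren ρ M) (ren ρ A) := by
  refine typed_ind (P := P) (motive := fun Γ M A => ∀ {Δ : List (Term S)} {ρ : ℕ → ℕ},
    Wf P Δ → RenOk ρ Γ Δ → Typed P Δ (ren ρ M) (ren ρ A)) ?_ ?_ ?_ ?_ ?_ ?_ ?_ h
  · intro s₁ s₂ a Δ ρ w _
    exact ax_wf w a
  · intro Γ A s _ _ Δ ρ w hr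
    exact var_wf (hr 0 _ (.zero _ _)) w
  · intro Γ M B A s _ _ ih _ Δ ρ w hr
    have := ih (Δ := Δ) (ρ := fun i => ρ (Nat.succ i)) w
      ((RenOk.wk Γ A).comp hr)
    simpa only [wk, ren_ren] using this
  · intro Γ A B s₁ s₂ s₃ _ _ r ih ih' Δ ρ w hr
    have a := ih w hr
    exact .prod a (ih' (.cons w a) (hr.up A)) r
  · intro Γ A M B s _ _ ih ih' Δ ρ w hr
    have b : Typed P Δ (pi (ren ρ A) (ren (up ρ) B)) (sort s) := ih' w hr
    obtain ⟨s', a⟩ := pi_dom b
    exact .abs (ih (.cons w a) (hr.up A)) b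
  · intro Γ M N A B _ _ ih ih' Δ ρ w hr
    rw [ren_inst]
    exact t_appl (ih w hr) (ih' w hr)
  · intro Γ M A B s _ _ e ih ih' Δ ρ w hr
    exact .conv (ih w hr) (ih' w hr) (BetaEq.ren e ρ)

/-! ### substitution -/

/-- `σ` is a substitution from `Γ` to `Δ` -/
def SubOk (P : Spec S) (σ : ℕ → Term S) (Γ Δ : List (Term S)) : Prop :=
  ∀ i A, Lk Γ i A → Typed P Δ (σ i) (sub σ A)

theorem SubOk.ups {σ : ℕ → Term S} {Γ Δ : List (Term S)} (h : SubOk P σ Γ Δ) {A : Term S} {s : S}
    (hA : Typed P Δ (sub σ A) (sort s)) : SubOk P (ups σ) (A :: Γ) (sub σ A :: Δ) := by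
  intro i B hl
  cases hl with
  | zero _ _ => rw [sub_wk]; exact t_start hA
  | succ _ hl => rw [sub_wk]; exact t_weak (h _ _ hl) hA

theorem typed_sub {Γ : List (Term S)} {M A : Term S} (h : Typed P Γ M A) :
    ∀ {Δ : List (Term S)} {σ : ℕ → Term S}, Wf P Δ → SubOk P σ Γ Δ →
      Typed P Δ (sub σ M) (sub σ A) := by
  refine typed_ind (P := P) (motive := fun Γ M A => ∀ {Δ : List (Term S)} {σ : ℕ → Term S},
    Wf P Δ → SubOk P σ Γ Δ → Typed P Δ (sub σ M) (sub σ A)) ?_ ?_ ?_ ?_ ?_ ?_ ?_ h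
  · intro s₁ s₂ a Δ ρ w _
    exact ax_wf w a
  · intro Γ A s _ _ Δ σ w hr
    exact hr 0 _ (.zero _ _)
  · intro Γ M B A s _ _ ih _ Δ σ w hr
    have := ih (Δ := Δ) (σ := fun i => σ (Nat.succ i)) w
      (fun i C hl => by
        have := hr _ _ (Lk.succ A hl)
        simpa only [wk, sub_ren] using this)
    simpa only [wk, sub_ren] using this
  · intro Γ A B s₁ s₂ s₃ _ _ r ih ih' Δ σ w hr
    have a := ih w hr
    exact .prod a (ih' (.cons w a) (hr.ups a)) r
  · intro Γ A M B s _ _ ih ih' Δ σ w hr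
    have b : Typed P Δ (pi (sub σ A) (sub (ups σ) B)) (sort s) := ih' w hr
    obtain ⟨s', a⟩ := pi_dom b
    exact .abs (ih (.cons w a) (hr.ups a)) b
  · intro Γ M N A B _ _ ih ih' Δ σ w hr
    rw [sub_inst]
    exact t_appl (ih w hr) (ih' w hr)
  · intro Γ M A B s _ _ e ih ih' Δ σ w hr
    exact .conv (ih w hr) (ih' w hr) (BetaEq.sub e σ)

theorem SubOk.var {Γ : List (Term S)} (w : Wf P Γ) : SubOk P var Γ Γ :=
  fun i A h => by rw [sub_id]; exact var_wf h w

theorem SubOk.scons {σ : ℕ → Term S} {Γ Δ : List (Term S)} (h : SubOk P σ Γ Δ) {N A : Term S}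
    (hN : Typed P Δ N (sub σ A)) : SubOk P (scons N σ) (A :: Γ) Δ := by
  intro i B hl
  cases hl with
  | zero _ _ => simpa only [wk, sub_ren, Nat.succ_eq_add_one, scons_succ, scons_zero] using hN
  | succ _ hl =>
      have := h _ _ hl
      simpa only [wk, sub_ren, Nat.succ_eq_add_one, scons_succ] using this

theorem typed_inst {Γ : List (Term S)} {A M B N : Term S} (h : Typed P (A :: Γ) M B)
    (hN : Typed P Γ N A) : Typed P Γ (inst N M) (inst N B) := by
  refine typed_sub h (twf hN) ?_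
  exact (SubOk.var (twf hN)).scons (by rwa [sub_id])

/-- context conversion -/
theorem ctx_conv {Γ : List (Term S)} {A A' M B : Term S} {s : S} (h : Typed P (A :: Γ) M B)
    (h' : Typed P Γ A' (sort s)) (e : BetaEq A A') : Typed P (A' :: Γ) M B := by
  obtain ⟨w, s₀, hA⟩ := (twf h).tail
  have w' : Wf P (A' :: Γ) := .cons w h'
  have hs : SubOk P var (A :: Γ) (A' :: Γ) := by
    intro i C hl
    rw [sub_id]
    cases hl with
    | zero _ _ =>
        refine .conv (t_start h') (t_weak hA h') ?_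
        exact BetaEq.symm (BetaEq.ren e _)
    | succ _ hl => exact t_weak (var_wf hl w) h'
  have := typed_sub h w' hs
  rwa [sub_id, sub_id] at this

/-! ### generation -/

theorem gen_sort_aux {Γ : List (Term S)} {M C : Term S} (h : Typed P Γ M C) :
    ∀ s, M = sort s → ∃ s', P.ax s s' ∧ BetaEq C (sort s') := by
  refine typed_ind (P := P) (motive := fun Γ M C => ∀ s, M = sort s →
    ∃ s', P.ax s s' ∧ BetaEq C (sort s')) ?_ ?_ ?_ ?_ ?_ ?_ ?_ h
  · intro s₁ s₂ a s e
    injection e with e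
    subst e
    exact ⟨s₂, a, .refl _⟩
  · intro Γ A s _ _ s' e; cases e
  · intro Γ M B A s h h' ih _ s' e
    cases M with
    | sort s'' =>
        simp only [wk, ren_sort] at e
        injection e with e
        subst e
        obtain ⟨s3, a, b⟩ := ih _ rfl
        exact ⟨s3, a, BetaEq.ren b _⟩
    | var i => cases e
    | pi i => cases e
    | app _ _ => cases e
    | lam _ _ => cases e
  · intro Γ A B s₁ s₂ s₃ h _ _ _ _ s' e; cases e
  · intro Γ A M B s _ _ _ _ s' e; cases e
  · intro Γ M N A B _ _ _ _ s' e; cases e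
  · intro Γ M A B s _ _ e' ih _ s' e
    obtain ⟨s3, a, b⟩ := ih _ e
    exact ⟨s3, a, BetaEq.trans (BetaEq.symm e') b⟩

theorem gen_sort {Γ : List (Term S)} {s : S} {C : Term S} (h : Typed P Γ (sort s) C) :
    ∃ s', P.ax s s' ∧ BetaEq C (sort s') := gen_sort_aux h s rfl

theorem gen_var_aux {Γ : List (Term S)} {M C : Term S} (h : Typed P Γ M C) :
    ∀ i, M = var i → ∃ A, Lk Γ i A ∧ BetaEq C A := by
  refine typed_ind (P := P) (motive := fun Γ M C => ∀ i, M = var i →
    ∃ A, Lk Γ i A ∧ BetaEq C A) ?_ ?_ ?_ ?_ ?_ ?_ ?_ h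
  · intro s₁ s₂ a s e; cases e
  · intro Γ A s _ _ i e
    injection e with e
    subst e
    exact ⟨_, .zero _ _, .refl _⟩
  · intro Γ M B A s h h' ih _ i e
    cases M with
    | var j =>
        simp only [wk, ren_var] at e
        injection e with e
        subst e
        obtain ⟨A', a, b⟩ := ih _ rfl
        exact ⟨_, .succ _ a, BetaEq.ren b _⟩
    | sort i => cases e
    | pi i => cases e
    | app _ _ => cases e
    | lam _ _ => cases e
  · intro Γ A B s₁ s₂ s₃ h _ _ _ _ s' e; cases e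
  · intro Γ A M B s _ _ _ _ s' e; cases e
  · intro Γ M N A B _ _ _ _ s' e; cases e
  · intro Γ M A B s _ _ e' ih _ s' e
    obtain ⟨s3, a, b⟩ := ih _ e
    exact ⟨s3, a, BetaEq.trans (BetaEq.symm e') b⟩

theorem gen_var {Γ : List (Term S)} {i : ℕ} {C : Term S} (h : Typed P Γ (var i) C) :
    ∃ A, Lk Γ i A ∧ BetaEq C A := gen_var_aux h i rfl

theorem gen_pi_aux {Γ : List (Term S)} {M C : Term S} (h : Typed P Γ M C) :
    ∀ A B, M = pi A B → ∃ s₁ s₂ s₃, Typed P Γ A (sort s₁) ∧ Typed P (A :: Γ) B (sort s₂) ∧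
      P.rule s₁ s₂ s₃ ∧ BetaEq C (sort s₃) := by
  refine typed_ind (P := P) (motive := fun Γ M C => ∀ A B, M = pi A B →
    ∃ s₁ s₂ s₃, Typed P Γ A (sort s₁) ∧ Typed P (A :: Γ) B (sort s₂) ∧
      P.rule s₁ s₂ s₃ ∧ BetaEq C (sort s₃)) ?_ ?_ ?_ ?_ ?_ ?_ ?_ h
  · intro s₁ s₂ a A B e; cases e
  · intro Γ A s _ _ A' B' e; cases e
  · intro Γ M B A s h h' ih _ A' B' e
    cases M with
    | pi M1 M2 =>
        simp only [wk, ren_pi] at e
        injection e with e1 e2
        subst e1; subst e2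
        obtain ⟨s₁, s₂, s₃, a, b, c, d⟩ := ih _ _ rfl
        refine ⟨s₁, s₂, s₃, t_weak a h', ?_, c, BetaEq.ren d _⟩
        exact typed_ren b (.cons (.cons (twf h) h') (t_weak a h')) ((RenOk.wk Γ A).up M1)
    | sort i => cases e
    | var i => cases e
    | app _ _ => cases e
    | lam _ _ => cases e
  · intro Γ A B s₁ s₂ s₃ h h' r _ _ A' B' e
    injection e with e1 e2
    subst e1; subst e2
    exact ⟨s₁, s₂, s₃, h, h', r, .refl _⟩
  · intro Γ A M B s _ _ _ _ A' B' e; cases e
  · intro Γ M N A B _ _ _ _ A' B' e; cases e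
  · intro Γ M A B s _ _ e' ih _ A' B' e
    obtain ⟨s₁, s₂, s₃, a, b, c, d⟩ := ih _ _ e
    exact ⟨s₁, s₂, s₃, a, b, c, BetaEq.trans (BetaEq.symm e') d⟩

theorem gen_pi {Γ : List (Term S)} {A B C : Term S} (h : Typed P Γ (pi A B) C) :
    ∃ s₁ s₂ s₃, Typed P Γ A (sort s₁) ∧ Typed P (A :: Γ) B (sort s₂) ∧
      P.rule s₁ s₂ s₃ ∧ BetaEq C (sort s₃) := gen_pi_aux h A B rfl

theorem gen_lam_aux {Γ : List (Term S)} {M C : Term S} (h : Typed P Γ M C) :
    ∀ A M', M = lam A M' → ∃ B s, Typed P (A :: Γ) M' B ∧ Typed P Γ (pi A B) (sort s) ∧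
      BetaEq C (pi A B) := by
  refine typed_ind (P := P) (motive := fun Γ M C => ∀ A M', M = lam A M' →
    ∃ B s, Typed P (A :: Γ) M' B ∧ Typed P Γ (pi A B) (sort s) ∧
      BetaEq C (pi A B)) ?_ ?_ ?_ ?_ ?_ ?_ ?_ h
  · intro s₁ s₂ a A B e; cases e
  · intro Γ A s _ _ A' B' e; cases e
  · intro Γ M B A s h h' ih _ A' B' e
    cases M with
    | lam M1 M2 =>
        simp only [wk, ren_lam] at e
        injection e with e1 e2
        subst e1; subst e2
        obtain ⟨B', s', a, b, c⟩ := ih _ _ rfl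
        have b' := t_weak b h'
        obtain ⟨s₁, hM1⟩ := pi_dom b
        refine ⟨ren (up Nat.succ) B', s', ?_, b', BetaEq.ren c _⟩
        exact typed_ren a (.cons (.cons (twf h) h') (t_weak hM1 h')) ((RenOk.wk Γ A).up M1)
    | sort i => cases e
    | var i => cases e
    | app _ _ => cases e
    | pi _ _ => cases e
  · intro Γ A B s₁ s₂ s₃ h h' r _ _ A' B' e; cases e
  · intro Γ A M B s h h' _ _ A' B' e
    injection e with e1 e2
    subst e1; subst e2
    exact ⟨_, _, h, h', .refl _⟩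
  · intro Γ M N A B _ _ _ _ A' B' e; cases e
  · intro Γ M A B s _ _ e' ih _ A' B' e
    obtain ⟨B', s', a, b, c⟩ := ih _ _ e
    exact ⟨B', s', a, b, BetaEq.trans (BetaEq.symm e') c⟩

theorem gen_lam {Γ : List (Term S)} {A M C : Term S} (h : Typed P Γ (lam A M) C) :
    ∃ B s, Typed P (A :: Γ) M B ∧ Typed P Γ (pi A B) (sort s) ∧ BetaEq C (pi A B) :=
  gen_lam_aux h A M rfl

theorem gen_app_aux {Γ : List (Term S)} {M C : Term S} (h : Typed P Γ M C) :
    ∀ M' N, M = app M' N → ∃ A B, Typed P Γ M' (pi A B) ∧ Typed P Γ N A ∧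
      BetaEq C (inst N B) := by
  refine typed_ind (P := P) (motive := fun Γ M C => ∀ M' N, M = app M' N →
    ∃ A B, Typed P Γ M' (pi A B) ∧ Typed P Γ N A ∧ BetaEq C (inst N B)) ?_ ?_ ?_ ?_ ?_ ?_ ?_ h
  · intro s₁ s₂ a A B e; cases e
  · intro Γ A s _ _ A' B' e; cases e
  · intro Γ M B A s h h' ih _ A' B' e
    cases M with
    | app M1 M2 =>
        simp only [wk, ren_app] at e
        injection e with e1 e2
        subst e1; subst e2
        obtain ⟨A', B', a, b, c⟩ := ih _ _ rfl
        refine ⟨wk A', ren (up Nat.succ) B', t_weak a h', t_weak b h', ?_⟩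
        have := BetaEq.ren c Nat.succ
        rwa [ren_inst] at this
    | sort i => cases e
    | var i => cases e
    | lam _ _ => cases e
    | pi _ _ => cases e
  · intro Γ A B s₁ s₂ s₃ h h' r _ _ A' B' e; cases e
  · intro Γ A M B s h h' _ _ A' B' e; cases e
  · intro Γ M N A B h h' _ _ A' B' e
    injection e with e1 e2
    subst e1; subst e2
    exact ⟨_, _, h, h', .refl _⟩
  · intro Γ M A B s _ _ e' ih _ A' B' e
    obtain ⟨A', B', a, b, c⟩ := ih _ _ e
    exact ⟨A', B', a, b, BetaEq.trans (BetaEq.symm e') c⟩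

theorem gen_app {Γ : List (Term S)} {M N C : Term S} (h : Typed P Γ (app M N) C) :
    ∃ A B, Typed P Γ M (pi A B) ∧ Typed P Γ N A ∧ BetaEq C (inst N B) :=
  gen_app_aux h M N rfl

/-! ### type correctness -/

theorem type_correct {Γ : List (Term S)} {M A : Term S} (h : Typed P Γ M A) :
    (∃ s, A = sort s) ∨ ∃ s, Typed P Γ A (sort s) := by
  refine typed_ind (P := P) (motive := fun Γ M A => (∃ s, A = sort s) ∨
    ∃ s, Typed P Γ A (sort s)) ?_ ?_ ?_ ?_ ?_ ?_ ?_ h
  · intro s₁ s₂ _; exact .inl ⟨_, rfl⟩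
  · intro Γ A s h _; exact .inr ⟨s, t_weak h h⟩
  · intro Γ M B A s h h' ih _
    rcases ih with ⟨s', rfl⟩ | ⟨s', h''⟩
    · exact .inl ⟨s', rfl⟩
    · exact .inr ⟨s', t_weak h'' h'⟩
  · intro Γ A B s₁ s₂ s₃ _ _ _ _ _; exact .inl ⟨_, rfl⟩
  · intro Γ A M B s _ h _ _; exact .inr ⟨_, h⟩
  · intro Γ M N A B _ h ih _
    rcases ih with ⟨s', e⟩ | ⟨s', h''⟩
    · cases e
    · obtain ⟨s₁, s₂, s₃, a, b, c, d⟩ := gen_pi h''
      exact .inr ⟨s₂, typed_inst b h⟩
  · intro Γ M A B s _ h _ _ _; exact .inr ⟨_, h⟩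

/-- if `pi A B` is the type of something then it is typed by a sort -/
theorem pi_typed {Γ : List (Term S)} {M A B : Term S} (h : Typed P Γ M (pi A B)) :
    ∃ s, Typed P Γ (pi A B) (sort s) := by
  rcases type_correct h with ⟨s, e⟩ | h
  · cases e
  · exact h

/-! ### subject reduction -/

theorem beta_ren_inv {M N : Term S} {ρ : ℕ → ℕ} (h : Beta (ren ρ M) N) :
    ∃ M', Beta M M' ∧ N = ren ρ M' := by
  induction M generalizing ρ N with
  | var i => cases h
  | sort s => cases h
  | app M1 M2 ih1 ih2 =>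
      simp only [ren_app] at h
      cases M1 with
      | lam A M0 =>
          simp only [ren_lam] at h
          cases h with
          | redex _ _ _ =>
              refine ⟨_, beta_redex A M0 M2, ?_⟩
              rw [subst_eq, ren_inst]
          | appL _ h =>
              obtain ⟨M', a, b⟩ := ih1 (ρ := ρ) (by simpa only [ren_lam] using h)
              exact ⟨_, .appL _ a, by rw [b]; rfl⟩
          | appR _ h =>
              obtain ⟨M', a, b⟩ := ih2 h
              exact ⟨_, .appR _ a, by rw [b]; rfl⟩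
      | var i =>
          cases h with
          | appL _ h => cases h
          | appR _ h =>
              obtain ⟨M', a, b⟩ := ih2 h
              exact ⟨_, .appR _ a, by rw [b]; rfl⟩
      | sort i =>
          cases h with
          | appL _ h => cases h
          | appR _ h =>
              obtain ⟨M', a, b⟩ := ih2 h
              exact ⟨_, .appR _ a, by rw [b]; rfl⟩
      | app _ _ =>
          cases h with
          | appL _ h =>
              obtain ⟨M', a, b⟩ := ih1 h
              exact ⟨_, .appL _ a, by rw [b]; rfl⟩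
          | appR _ h =>
              obtain ⟨M', a, b⟩ := ih2 h
              exact ⟨_, .appR _ a, by rw [b]; rfl⟩
      | pi _ _ =>
          cases h with
          | appL _ h =>
              obtain ⟨M', a, b⟩ := ih1 h
              exact ⟨_, .appL _ a, by rw [b]; rfl⟩
          | appR _ h =>
              obtain ⟨M', a, b⟩ := ih2 h
              exact ⟨_, .appR _ a, by rw [b]; rfl⟩
  | lam M1 M2 ih1 ih2 =>
      simp only [ren_lam] at h
      cases h with
      | lamA _ h =>
          obtain ⟨M', a, b⟩ := ih1 h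
          exact ⟨_, .lamA _ a, by rw [b]; rfl⟩
      | lamM _ h =>
          obtain ⟨M', a, b⟩ := ih2 h
          exact ⟨_, .lamM _ a, by rw [b]; rfl⟩
  | pi M1 M2 ih1 ih2 =>
      simp only [ren_pi] at h
      cases h with
      | piA _ h =>
          obtain ⟨M', a, b⟩ := ih1 h
          exact ⟨_, .piA _ a, by rw [b]; rfl⟩
      | piB _ h =>
          obtain ⟨M', a, b⟩ := ih2 h
          exact ⟨_, .piB _ a, by rw [b]; rfl⟩

/-- subject reduction, one step -/
theorem sr {Γ : List (Term S)} {M A : Term S} (h : Typed P Γ M A) :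
    ∀ M', Beta M M' → Typed P Γ M' A := by
  refine typed_ind (P := P) (motive := fun Γ M A => ∀ M', Beta M M' → Typed P Γ M' A)
    ?_ ?_ ?_ ?_ ?_ ?_ ?_ h
  · intro s₁ s₂ _ M' b; cases b
  · intro Γ A s _ _ M' b; cases b
  · intro Γ M B A s h h' ih _ M' b
    obtain ⟨M0, c, rfl⟩ := beta_ren_inv b
    exact t_weak (ih _ c) h'
  · intro Γ A B s₁ s₂ s₃ h h' r ih ih' M' b
    cases b with
    | piA _ b => exact .prod (ih _ b) (ctx_conv h' (ih _ b) (.rel _ _ b)) r
    | piB _ b => exact .prod h (ih' _ b) r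
  · intro Γ A M B s h h' ih ih' M' b
    cases b with
    | lamA _ b =>
        obtain ⟨s', hA⟩ := pi_dom h'
        have h2 := ih' _ (.piA _ b)
        obtain ⟨s'', hA'⟩ := pi_dom h2
        refine .conv (.abs (ctx_conv h hA' (.rel _ _ b)) h2) h' ?_
        exact BetaEq.symm (.rel _ _ (.piA _ b))
    | lamM _ b => exact .abs (ih _ b) h'
  · intro Γ M N A B h h' ih ih' M' b
    obtain ⟨s, hp⟩ := pi_typed h
    obtain ⟨s₁, s₂, s₃, hA, hB, r, -⟩ := gen_pi hp
    cases b with
    | redex A0 M0 _ =>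
        rw [subst_eq]
        obtain ⟨B0, s', c, d, e⟩ := gen_lam h
        obtain ⟨e1, e2⟩ := pi_inj e
        obtain ⟨s0, hA0⟩ := pi_dom d
        have hN : Typed P Γ N A0 := .conv h' hA0 e1
        refine .conv (typed_inst c hN) (typed_inst hB h') ?_
        exact BetaEq.symm (BetaEq.sub e2 _)
    | appL _ b => exact t_appl (ih _ b) h'
    | appR _ b =>
        refine .conv (t_appl h (ih' _ b)) (typed_inst hB h') ?_
        exact BetaEq.symm (red_inst (.single b) .refl).eq
  · intro Γ M A B s _ h e ih _ M' b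
    exact .conv (ih _ b) h e

/-- subject reduction -/
theorem SR {Γ : List (Term S)} {M M' A : Term S} (h : Typed P Γ M A) (r : Red M M') :
    Typed P Γ M' A := by
  induction r with
  | refl => exact h
  | tail _ b ih => exact sr ih _ b

/-- reduction of the type -/
theorem typed_red_type {Γ : List (Term S)} {M A A' : Term S} (h : Typed P Γ M A) (r : Red A A') :
    Typed P Γ M A' := by
  rcases type_correct h with ⟨s, rfl⟩ | ⟨s, hA⟩
  · rw [red_sort r]; exact h
  · exact .conv h (SR hA r) r.eq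

theorem Legal.red {Γ : List (Term S)} {M M' : Term S} (h : Legal P Γ M) (r : Red M M') :
    Legal P Γ M' := by
  obtain ⟨N, h | h⟩ := h
  · exact ⟨N, .inl (SR h r)⟩
  · exact ⟨N, .inr (typed_red_type h r)⟩

/-- a type convertible with a sort may be replaced by the sort -/
theorem typed_sort_of_eq {Γ : List (Term S)} {M A : Term S} {s : S} (h : Typed P Γ M A)
    (e : BetaEq A (sort s)) : Typed P Γ M (sort s) :=
  typed_red_type h (red_of_eq_sort e)

end Crest.Agent.R298.Ty452
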