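import Crest.Agent.R298.Fin_595
import Crest.Agent.R298.Ty_452

/-!
R298 (S0452), helper95: reduction to specifications over `Fin n` all of whose rules are usable
(the two sorts read by a rule are inhabited), and a common context for all inhabited sorts.
-/

set_option autoImplicit false

namespace Crest.Agent.R298.Inh95

open Crest.LogicCS.PTS Crest.LogicCS.PTS.Term Relation
open Crest.Agent.R298.Sub452 Crest.Agent.R298.Par452 Crest.Agent.R298.Ty452

universe u
variable {S : Type u} {P : Spec S}

/-- some legal type has sort `s` -/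
def Inhab (P : Spec S) (s : S) : Prop := ∃ Γ A, Typed P Γ A (sort s)

/-- the same specification with the usable rules only -/
def useful (P : Spec S) : Spec S where
  ax := P.ax
  rule a b c := P.rule a b c ∧ Inhab P a ∧ Inhab P b

theorem typed_useful {Γ : List (Term S)} {M A : Term S} (h : Typed P Γ M A) :
    Typed (useful P) Γ M A := by
  induction h with
  | ax h => exact .ax h
  | start _ ih => exact .start ih
  | weak _ _ ih1 ih2 => exact .weak ih1 ih2
  | prod h1 h2 hr ih1 ih2 => exact .prod ih1 ih2 ⟨hr, ⟨_, _, h1⟩, ⟨_, _, h2⟩⟩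
  | abs _ _ ih1 ih2 => exact .abs ih1 ih2
  | appl _ _ ih1 ih2 => exact .appl ih1 ih2
  | conv _ _ he ih1 ih2 => exact .conv ih1 ih2 he

theorem typed_of_useful {Γ : List (Term S)} {M A : Term S} (h : Typed (useful P) Γ M A) :
    Typed P Γ M A := by
  induction h with
  | ax h => exact .ax h
  | start _ ih => exact .start ih
  | weak _ _ ih1 ih2 => exact .weak ih1 ih2
  | prod h1 h2 hr ih1 ih2 => exact .prod ih1 ih2 hr.1
  | abs _ _ ih1 ih2 => exact .abs ih1 ih2
  | appl _ _ ih1 ih2 => exact .appl ih1 ih2
  | conv _ _ he ih1 ih2 => exact .conv ih1 ih2 he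

theorem typed_useful_iff {Γ : List (Term S)} {M A : Term S} :
    Typed (useful P) Γ M A ↔ Typed P Γ M A := ⟨typed_of_useful, typed_useful⟩

theorem legal_useful_iff {Γ : List (Term S)} {M : Term S} :
    Legal (useful P) Γ M ↔ Legal P Γ M := by
  simp only [Legal, typed_useful_iff]

theorem inhab_useful_iff {s : S} : Inhab (useful P) s ↔ Inhab P s := by
  simp only [Inhab, typed_useful_iff]

/-- all rules are usable -/
def Usable (P : Spec S) : Prop := ∀ a b c, P.rule a b c → Inhab P a ∧ Inhab P b

theorem usable_useful (P : Spec S) : Usable (useful P) := by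
  intro a b c h
  rw [inhab_useful_iff, inhab_useful_iff]
  exact h.2

/-- **Reduction of the frozen statement**: it suffices to treat specifications over `Fin n` all of
whose rules are usable. -/
theorem reduce_usable
    (H : ∀ (n : ℕ) (P : Spec (Fin n)), Usable P →
      (∀ Γ M, Legal P Γ M → WN M) → ∀ Γ M, Legal P Γ M → SN M) :
    ∀ (S : Type*) (P : Spec S), (∀ Γ M, Legal P Γ M → WN M) → ∀ Γ M, Legal P Γ M → SN M := by
  intro S P
  refine Fin595.reduce_fin ?_ P
  intro n P hWN Γ M hM
  refine H n (useful P) (usable_useful P) ?_ Γ M (legal_useful_iff.2 hM)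
  intro Δ N hN
  exact hWN Δ N (legal_useful_iff.1 hN)

/-! ### appending contexts -/

theorem typed_append {Γ : List (Term S)} {M A : Term S} (h : Typed P Γ M A)
    {Δ : List (Term S)} (w : Wf P Δ) : Typed P (Γ ++ Δ) M A := by
  induction h with
  | ax h => exact ax_wf w h
  | start _ ih => exact .start ih
  | weak _ _ ih1 ih2 => exact .weak ih1 ih2
  | prod h1 h2 hr ih1 ih2 => exact .prod ih1 ih2 hr
  | abs _ _ ih1 ih2 => exact .abs ih1 ih2
  | appl _ _ ih1 ih2 => exact .appl ih1 ih2
  | conv _ _ he ih1 ih2 => exact .conv ih1 ih2 he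

theorem wf_append {Γ Δ : List (Term S)} (h : Wf P Γ) (w : Wf P Δ) : Wf P (Γ ++ Δ) := by
  induction h with
  | nil => exact w
  | cons h h' ih => exact .cons ih (typed_append h' w)

theorem renOk_append (Γ Δ : List (Term S)) : RenOk (fun i => i + Γ.length) Δ (Γ ++ Δ) := by
  induction Γ with
  | nil => simpa using RenOk.id Δ
  | cons A Γ ih =>
      have := ih.comp (RenOk.wk (Γ ++ Δ) A)
      simpa [Nat.succ_eq_add_one, Nat.add_assoc] using this

theorem typed_append_right {Γ Δ : List (Term S)} (w : Wf P (Γ ++ Δ)) {M A : Term S}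
    (h : Typed P Δ M A) :
    Typed P (Γ ++ Δ) (ren (fun i => i + Γ.length) M) (ren (fun i => i + Γ.length) A) :=
  typed_ren h w (renOk_append Γ Δ)

/-- a context in which every inhabited sort of a finite list has a type -/
theorem common_list (l : List S) : (∀ s ∈ l, Inhab P s) →
    ∃ Δ, Wf P Δ ∧ ∀ s ∈ l, ∃ A, Typed P Δ A (sort s) := by
  induction l with
  | nil => exact fun _ => ⟨[], .nil, by simp⟩
  | cons s l ih =>
      intro h
      obtain ⟨Δ, w, hΔ⟩ := ih (fun t ht => h t (List.mem_cons_of_mem _ ht))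
      obtain ⟨Γ, A, hA⟩ := h s List.mem_cons_self
      have hA' := typed_append hA w
      refine ⟨Γ ++ Δ, twf hA', ?_⟩
      intro t ht
      rcases List.mem_cons.1 ht with rfl | ht
      · exact ⟨A, hA'⟩
      · obtain ⟨B, hB⟩ := hΔ t ht
        exact ⟨_, typed_append_right (twf hA') hB⟩

/-- **Common context**: finitely many sorts, one context, one type for every inhabited sort. -/
theorem common_ctx [Finite S] (P : Spec S) :
    ∃ (Δ : List (Term S)) (T : S → Term S), Wf P Δ ∧
      ∀ s, Inhab P s → Typed P Δ (T s) (sort s) := by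
  classical
  obtain ⟨l, hl⟩ : ∃ l : List S, ∀ s, s ∈ l := by
    have := Fintype.ofFinite S
    exact ⟨Finset.univ.toList, by simp⟩
  obtain ⟨Δ, w, hΔ⟩ := common_list (P := P) (l.filter (fun s => Inhab P s))
    (by intro s hs; simpa using (List.mem_filter.1 hs).2)
  refine ⟨Δ, fun s => if h : Inhab P s then (hΔ s (by simp [hl, h])).choose else sort s, w, ?_⟩
  intro s hs
  simp only [hs, dif_pos]
  exact (hΔ s (by simp [hl, hs])).choose_spec

/-- the same with normal types, when all legal terms are weakly normalizing -/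
theorem common_ctx_normal [Finite S] (P : Spec S) (hWN : ∀ Γ M, Legal P Γ M → WN M) :
    ∃ (Δ : List (Term S)) (T : S → Term S), Wf P Δ ∧
      ∀ s, Inhab P s → Typed P Δ (T s) (sort s) ∧ Normal (T s) := by
  classical
  obtain ⟨Δ, T, w, h⟩ := common_ctx P
  have key : ∀ s, Inhab P s → ∃ B, Typed P Δ B (sort s) ∧ Normal B := by
    intro s hs
    obtain ⟨B, hB, hn⟩ := hWN Δ (T s) ⟨_, Or.inl (h s hs)⟩
    exact ⟨B, SR (h s hs) hB, hn⟩
  refine ⟨Δ, fun s => if h : Inhab P s then (key s h).choose else sort s, w, ?_⟩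
  intro s hs
  simp only [hs, dif_pos]
  exact (key s hs).choose_spec

end Crest.Agent.R298.Inh95
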