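import Crest.Agent.R298.Op_98
import Crest.Agent.R298.Md2_254

/-!
R298 (S0452), helper98: congruence of the product operation `opW`, the predicates `StrictW`, `PRW`
(the fields `op_congr`, `strict_dom`, `strict_cod` and the two typed parts of `pr` of
`Ok599.Sys`), the `pi_congr` field of `Ok425.Laws`, and `QL` for `Md254.cl`.
-/

set_option autoImplicit false
set_option linter.unusedVariables false
set_option linter.unusedSectionVars false

namespace Crest.Agent.R298.Op98

open Crest.LogicCS.PTS Crest.LogicCS.PTS.Term Relation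
open Crest.Agent.R298.Sub452 Crest.Agent.R298.Par452 Crest.Agent.R298.Ty452
open Crest.Agent.R298.Mem360 Crest.Agent.R298.TyF452 Crest.Agent.R298.TyMF452
open Crest.Agent.R298.Mem360.MT (er)
open Crest.Agent.R298.Main865 Crest.Agent.R298.Cand704
open Crest.Agent.R298.SM646 (Hi hi_congr RRof TyEval isc)
open Crest.Agent.R298.Inf786 Crest.Agent.R298.Cod893 Crest.Agent.R298.Vt786

variable {S Q : Type} {P : Spec S} {idx : S → ℕ} {i : ℕ} {D : ℕ → Term S}
  {cl : Term S → Q} {rep : Q → Term S} {K : Skel Q Q} {sg : Q → Prop}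

/-- closed types whose value is looked at -/
def StrictW (P : Spec S) (idx : S → ℕ) (i : ℕ) (D : ℕ → Term S) (rep : Q → Term S)
    (q : Q) : Prop := ¬ Hi P idx i D (rep q)

/-- indices looked at in a product -/
def PRW (P : Spec S) (idx : S → ℕ) (i : ℕ) (D : ℕ → Term S) (cl : Term S → Q)
    (rep : Q → Term S) (K : Skel Q Q) (sg : Q → Prop) (qA qT a : Q)
    (e : PEnt Q (SI K (CV S)) (CV S)) : Prop :=
  (∃ w : MT S, a = cl (er w) ∧ TMF P D w (rep qA)) ∧ IQ K sg qA e ∧
    ∃ w : MT S, a = cl (er w) ∧ ∃ A B, BetaEq (rep qT) (pi A B) ∧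
      StrictW P idx i D rep (cl (inst (er w) B))

theorem clT_congr {q : Q} {X X' : Set (MT S)} (h : StrictW P idx i D rep q → X = X') :
    clT P idx i D (rep q) X = clT P idx i D (rep q) X' := by
  by_cases hi : Hi P idx i D (rep q)
  · unfold clT
    rw [if_pos hi, if_pos hi]
  · rw [h hi]

/-- **congruence of the product operation** (no typing) -/
theorem opW_congr {qA qT : Q} {X X' : CV S} {Y Y' : Q → PEnt Q (SI K (CV S)) (CV S) → CV S}
    (hX : StrictW P idx i D rep qA → X = X')
    (hY : ∀ a e, PRW P idx i D cl rep K sg qA qT a e → Y a e = Y' a e) :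
    opW P idx i D cl rep K sg qA qT X Y = opW P idx i D cl rep K sg qA qT X' Y' := by
  unfold opW
  rw [clT_congr hX]
  ext v
  unfold PiSet
  refine and_congr_right fun _ => and_congr_right fun _ => forall_congr' fun w =>
    forall_congr' fun hw => forall_congr' fun e => forall_congr' fun he => ?_
  refine forall_congr' fun A => forall_congr' fun B => forall_congr' fun hb => ?_
  have h : clT P idx i D (rep (cl (inst (er w) B))) (Y (cl (er w)) e) =
      clT P idx i D (rep (cl (inst (er w) B))) (Y' (cl (er w)) e) :=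
    clT_congr fun hs => hY _ _ ⟨⟨w, rfl, (clT_sub hw).1⟩, he, w, rfl, A, B, hb, hs⟩
  rw [h]

/-- the argument of an index of a typed product is typed -/
theorem PRW.ty (w : WfF P D) (q : QL P D cl rep) {A : Term S} {s : S} {qT a : Q}
    {e : PEnt Q (SI K (CV S)) (CV S)} (hA : TyF P D A (sort s))
    (h : PRW P idx i D cl rep K sg (cl A) qT a e) : TyF P D (rep a) A := by
  obtain ⟨⟨v, rfl, hv⟩, -⟩ := h
  exact q.rep_ty (TyF.conv hv.typed hA (q.rep_cl A))

/-- the closed instance of the codomain is strict -/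
theorem PRW.strict (q : QL P D cl rep) {A B : Term S} {qA a : Q}
    {e : PEnt Q (SI K (CV S)) (CV S)}
    (h : PRW P idx i D cl rep K sg qA (cl (pi A B)) a e) :
    StrictW P idx i D rep (cl (inst (rep a) B)) := by
  obtain ⟨-, -, v, rfl, A', B', hb, hs⟩ := h
  have e1 : BetaEq (rep (cl (pi A B))) (pi A B) := q.rep_cl _
  have e2 : cl (inst (er v) B') = cl (inst (rep (cl (er v))) B) := by
    rw [inst_form q hb e1 v]
    refine q.cl_eq ?_
    show BetaEq (sub _ B) (sub _ B)
    refine betaEq_subs B fun x => ?_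
    cases x with
    | zero => exact BetaEq.symm (q.rep_cl _)
    | succ x => exact BetaEq.refl _
  rw [← e2]
  exact hs

theorem PRW.iq {qA qT a : Q} {e : PEnt Q (SI K (CV S)) (CV S)}
    (h : PRW P idx i D cl rep K sg qA qT a e) : IQ K sg qA e := h.2.1

/-- sorts of strict types -/
theorem StrictW.le (q : QL P D cl rep) {T : Term S} {t : S} (h : StrictW P idx i D rep (cl T))
    (hT : Uniq452.Sg P D T t) : idx t ≤ i := by
  by_contra hc
  exact h ⟨t, hT.conv (q.rep_cl T), by omega⟩

theorem strict_lvl (q : QL P D cl rep) {T : Term S} {t : S}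
    (h : StrictW P idx i D rep (cl T)) (hT : Uniq452.Sg P D T t) (h' : i ≤ idx t) :
    idx t = i := le_antisymm (h.le q hT) h'

/-- field `strict_dom` -/
theorem strict_dom (hm : ∀ a b c, P.rule a b c → idx c ≤ idx a ∧ idx c ≤ idx b)
    (q : QL P D cl rep) {A : Term S} {a b c : S} (hA : TyF P D A (sort a)) (r : P.rule a b c)
    (hc : idx c = i) (h : StrictW P idx i D rep (cl A)) : idx a = i :=
  strict_lvl q h (.of hA) (hc ▸ (hm a b c r).1)

/-- field `strict_cod` -/
theorem strict_cod (hm : ∀ a b c, P.rule a b c → idx c ≤ idx a ∧ idx c ≤ idx b)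
    (q : QL P D cl rep) {B : Term S} {a b c : S} (hB : TyF P D B (sort b)) (r : P.rule a b c)
    (hc : idx c = i) (h : StrictW P idx i D rep (cl B)) : idx b = i :=
  strict_lvl q h (.of hB) (hc ▸ (hm a b c r).2)

/-- field `pi_congr` of 425's record: the components matter only when their sorts are in the
stage -/
theorem opW_congr_sorts (w : WfF P D)
    (hm : ∀ a b c, P.rule a b c → idx c ≤ idx a ∧ idx c ≤ idx b)
    (q : QL P D cl rep) {A B : Term S} {a b c : S} {X X' : CV S}
    {Y Y' : Q → PEnt Q (SI K (CV S)) (CV S) → CV S} (hc : idx c = i) (r : P.rule a b c)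
    (hA : TyF P D A (sort a)) (hB : TyF P (fcons A D) B (sort b))
    (hX : idx a = i → X = X')
    (hY : idx b = i → ∀ q' e, TyF P D (rep q') A → IQ K sg (cl A) e → Y q' e = Y' q' e) :
    opW P idx i D cl rep K sg (cl A) (cl (pi A B)) X Y =
      opW P idx i D cl rep K sg (cl A) (cl (pi A B)) X' Y' := by
  refine opW_congr (fun h => hX (strict_dom hm q hA r hc h)) fun q' e h => ?_
  have h1 := h.ty w q hA
  exact hY (strict_cod hm q (tyf_inst w hB h1) r hc (h.strict q)) q' e h1 h.iq

/-- canonical representatives of 254 -/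
theorem ql_cl (w : WfF P D) (hwn : ∀ M A : Term S, TyF P D M A → WN M) :
    QL P D (Md254.cl : Term S → Term S) (fun q => q) where
  cl_eq h := Md254.cl_congr h
  rep_cl M := Md254.cl_eq M
  rep_ty h := Md254.cl_typed w hwn h

end Crest.Agent.R298.Op98
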