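import Crest.Agent.R298.SM1_646
import Crest.Agent.R298.AAI4_833
import Crest.Agent.R298.MainW_865

/-!
R298 (S0452), helper987: helper646's one-world model (`SM646`) as an instance of helper833's
`WStage`; hence `Z.Inst` for a type evaluator `Z` gives `WNiAt`, and `BlockTW` follows from
`∃ Z : TyEval P idx i D, Z.Inst`.
-/

set_option autoImplicit false

namespace Crest.Agent.R298.SM3987

open Crest.LogicCS.PTS Relation
open Crest.Agent.R298.Sub452 Crest.Agent.R298.Par452 Crest.Agent.R298.Ty452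
open Crest.Agent.R298.Mem360 Crest.Agent.R298.TyF452 Crest.Agent.R298.TyMF452
open Crest.Agent.R298.Main865 Crest.Agent.R298.StrF657 Crest.Agent.R298.World657
open Crest.Agent.R298.SM646
open Crest.Agent.R298.Mem360.MT (er emb er_emb IsL isL_of_dist dist mren msub mups mwk mscons minst
  er_mren er_msub er_mups er_mscons er_minst)

universe u v
variable {S : Type u} {P : Spec S} {idx : S → ℕ} {i k : ℕ} {D : ℕ → Term S}

/-! ### bridges between the notions of 704 and 833 -/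

theorem ge_iff_cl {G : ℕ → Term S} {T : Term S} :
    AAI833.Ge P idx i G T ↔ Cl P idx i G T := Iff.rfl

theorem ge_iff_hi {G : ℕ → Term S} {T : Term S} :
    AAI833.Ge P idx (i + 1) G T ↔ Hi P idx i G T := Iff.rfl

theorem wn_iff {v : MT S} : AAI833.Wn P idx k D v ↔ Cand704.Wn P idx k D v := Iff.rfl

theorem nef_of_ne {v : MT S} (h : AAI833.Ne P idx k D v) : Cand704.NeF P idx k D v := by
  induction h with
  | var i => exact .var i
  | app _ h ih => exact .app ih h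
  | mem _ h ih => exact .mem ih h

/-- a legal type of class at least `i` is typed -/
theorem typed_of_ok {G : ℕ → Term S} (w : WfF P G) {T : Term S} (h : TyOkF P G T)
    (hc : Cl P idx i G T) : ∃ s, TyF P G T (.sort s) := by
  rcases h with ⟨s, rfl⟩ | h
  · obtain ⟨t, ⟨T', e, h'⟩, -⟩ := hc
    exact ⟨t, FSR w h' (red_of_eq_sort (BetaEq.symm e))⟩
  · exact h

/-! ### the instance -/

variable (Z : TyEval.{u, v} P idx i D)

/-- helper646's model as a `WStage` -/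
noncomputable def wstage (hP : ∀ (Γ : List (Term S)) (M : Term S), Legal P Γ M → WN M)
    (hr : AAI833.Mono P idx) (wD : World P D) (hZ : Z.Inst) :
    AAI833.WStage.{u, max u v} P idx i D where
  Env := Σ G : ℕ → Term S, SM646.Env Z G
  sb ρ := ρ.2.sig
  Ok G ρ := ρ.1 = G
  Ext _ A ρ ρ' := ρ'.1 = fcons A ρ.1 ∧ (∀ n, ρ'.2.sig (n + 1) = ρ.2.sig n) ∧
    ∀ n, ρ'.2.inf (n + 1) = ρ.2.inf n
  R _ ρ T v := v ∈ ρ.2.R T
  msb := by
    rintro G ⟨_, ρ⟩ g rfl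
    exact ρ.typ
  ext_ok := by
    rintro G A s ⟨_, ρ⟩ ⟨_, ρ'⟩ g rfl hA ⟨h, -⟩
    exact h
  ext_sb := by
    rintro G A s ⟨_, ρ⟩ ⟨_, ρ'⟩ g rfl hA ⟨-, h, -⟩ x
    exact h x
  R_W := by
    rintro G ⟨_, ρ⟩ T v g rfl hT hc h
    obtain ⟨s, hs⟩ := typed_of_ok g.wf hT hc
    exact ((ρ.cand hP wD.good.wf g hs).sub v h).2
  R_ne := by
    rintro G ⟨_, ρ⟩ T v g rfl hT hc ht h
    obtain ⟨s, hs⟩ := typed_of_ok g.wf hT hc
    exact (ρ.cand hP wD.good.wf g hs).ne v (nef_of_ne h) ht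
  R_beta := by
    rintro G ⟨_, ρ⟩ T F Q v g rfl hT hc ht hd h
    obtain ⟨s, hs⟩ := typed_of_ok g.wf hT hc
    exact (ρ.cand hP wD.good.wf g hs).exp [] F Q v hd h ht
  R_mem := by
    rintro G ⟨_, ρ⟩ T v n B g rfl hT hc hn hw h
    obtain ⟨s, hs⟩ := typed_of_ok g.wf hT hc
    have hc' := ρ.cand hP wD.good.wf g hs
    exact hc'.ins [] v n h hw (.mem (hc'.sub v h).1 hn)
  R_conv := by
    rintro G ⟨_, ρ⟩ T T' v g rfl hT hT' hc e h
    obtain ⟨s, hs⟩ := typed_of_ok g.wf hT hc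
    show v ∈ ρ.R T'
    rw [← ρ.R_conv hP g hs e]
    exact h
  R_high := by
    rintro G ⟨_, ρ⟩ T v g rfl hT hc hh ht hw
    obtain ⟨s, hs⟩ := typed_of_ok g.wf hT hc
    show v ∈ ρ.R T
    rw [ρ.R_high hP wD.good.wf g hs hh]
    exact ⟨ht, hw⟩
  R_sort := by
    rintro G ⟨_, ρ⟩ s v g rfl hc ht hw
    obtain ⟨t, hs⟩ := typed_of_ok g.wf (.inl ⟨s, rfl⟩) hc
    show v ∈ ρ.R (.sort s)
    rw [ρ.R_sort wD hs]
    exact ⟨ht, hw⟩
  R_pi := by
    rintro G ⟨_, ρ⟩ A B s v g rfl hT hc hn ht hw h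
    refine (ρ.mem_pi_ext hP hr wD.good.wf g hT hc hn v).2 ⟨ht, hw, fun ρ' he => ?_⟩
    exact h ⟨_, ρ'⟩ ⟨rfl, he.1, he.2⟩
  R_app := by
    rintro G ⟨_, ρ⟩ A B s v ⟨_, ρ'⟩ g rfl hT hc hn h ⟨e, h1, h2⟩
    simp only at e
    subst e
    exact ((ρ.mem_pi_ext hP hr wD.good.wf g hT hc hn v).1 h).2.2 ρ' ⟨h1, h2⟩
  R_inst := by
    rintro G ⟨_, ρ⟩ A B s N g rfl hT hc hn hN h
    obtain ⟨j, hj, hv⟩ := hZ _ ρ A B N s g hT hc hn hN h
    obtain ⟨a, b, c, hA, hB, ru, -⟩ := fgen_pi hT _ _ rfl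
    have hcA : Cl P idx i _ A := Env.cl_dom hr g.wf hc
    have hm : TMF P D (msub ρ.sig N) (sub ρ.th A) := ((ρ.cand hP wD.good.wf g hA).sub _ h).1
    refine ⟨⟨_, ρ.extend hP g hA (msub ρ.sig N) j hm (fun _ => ⟨h, hj⟩)
      (fun h' => absurd hcA h')⟩, ⟨rfl, fun _ => rfl, fun _ => rfl⟩, rfl, ?_⟩
    intro v _ hv'
    refine hv v ?_
    have he := ρ.extend_ext hP g hA (msub ρ.sig N) j hm (fun _ => ⟨h, hj⟩)
      (fun h' => absurd hcA h')
    have hv2 : v ∈ Z.RR (nf B) (ρ.extend hP g hA (msub ρ.sig N) j hm (fun _ => ⟨h, hj⟩)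
      (fun h' => absurd hcA h')).th (ρ.extend hP g hA (msub ρ.sig N) j hm (fun _ => ⟨h, hj⟩)
      (fun h' => absurd hcA h')).inf := hv'
    rw [he.th, he.inf] at hv2
    have e0 : er (msub ρ.sig N) = sub ρ.th (er N) := er_msub _ _
    have hv3 : v ∈ Z.RR (nf B) (scons (er (msub ρ.sig N)) ρ.th) (isc j ρ.inf) := hv2
    rw [e0] at hv3
    exact hv3
  fresh := by
    rintro G ⟨_, ρ⟩ A s g rfl hA M ⟨B, hM⟩
    have hA' : TyF P D (sub ρ.th A) (.sort s) := tyf_sub hA ρ.subF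
    have hM0 := tmf_sub hM (ρ.typ.ups (A := A) hA')
    obtain ⟨m, hm⟩ := AAI833.exists_mfv (msub (mups ρ.sig) M)
    obtain ⟨k, ρ', h1, h2, h3, h4⟩ := ρ.fresh hP wD g hA m
    refine ⟨⟨_, ρ'⟩, rfl, fun h => ?_⟩
    have h5 : ρ'.sig = mscons (.var k) ρ.sig := by
      rw [← h4]; exact h3.sig
    refine AAI833.Wn.bind hP wD h2 hA' hM0 (hm (k + 1) (by omega)) ?_
    have h6 : AAI833.Wn P idx (i + 1) D (msub ρ'.sig M) := h
    rw [h5, MT.msub_mscons] at h6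
    exact h6
  var_R := by
    rintro G ⟨_, ρ⟩ x g rfl hc
    exact ρ.var_mem x hc
  var_Ne := by
    rintro G ⟨_, ρ⟩ x g rfl hc
    obtain ⟨⟨k, hk⟩, -⟩ := ρ.low x hc
    show AAI833.Ne P idx (i + 1) D (ρ.sig x)
    rw [hk]
    exact .var k
  ident := by
    rintro M -
    obtain ⟨ρ, hρ⟩ := Env.exists_ident hP Z wD.good
    refine ⟨⟨_, ρ⟩, rfl, fun h => ?_⟩
    have h' : AAI833.Wn P idx (i + 1) D (msub ρ.sig M) := h
    rwa [hρ, MT.msub_id] at h'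

/-- **a type evaluator with (R4) gives stage `i` at the world** -/
theorem wniAt_of_inst (hP : ∀ (Γ : List (Term S)) (M : Term S), Legal P Γ M → WN M)
    (hr : ∀ a b c, P.rule a b c → idx c ≤ idx a ∧ idx c ≤ idx b) (wD : World P D)
    (hZ : Z.Inst) : WNiAt P idx i D :=
  AAI833.wniW_of_stage (wstage Z hP hr wD hZ) hr wD.good

/-- **`BlockTW` from type evaluators with (R4)** -/
theorem blockTW_of (Fat : FatPred) (h : ∀ (n : ℕ) (P : Spec (Fin n)) (idx : Fin n → ℕ) (N : ℕ),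
    Std P → IsIdx P idx N → ∀ D, World P D → ∀ i, 0 < i → ¬ Fat n P (Lvl idx i) →
      ∃ Z : TyEval.{0, v} P idx i D, Z.Inst) : BlockTW Fat := by
  intro n P idx N hS hI D wD i hi hF
  obtain ⟨Z, hZ⟩ := h n P idx N hS hI D wD i hi hF
  exact wniAt_of_inst Z hS.wn (fun _ _ _ r => ⟨hI.rule_left r, hI.rule_right r⟩) wD hZ

end Crest.Agent.R298.SM3987
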