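import Crest.Agent.R298.T4_795
import Crest.Agent.R298.Op2_98
import Crest.Agent.R298.Fr_201
import Crest.Agent.R298.SM3_987

/-!
R298 (S0452), helper795: the last wire of the T half, over `T4_795`, `Op2_98` and `Fr_201`:
the laws `TL` for the frame of the world, the type evaluator `tyEval` and its law `Inst`, hence
`BlockTW FatP`.
-/

set_option autoImplicit false

namespace Crest.Agent.R298.Inst795

open Crest.LogicCS.PTS Crest.LogicCS.PTS.Term Relation
open Crest.Agent.R298.Sub452 Crest.Agent.R298.Par452 Crest.Agent.R298.TyF452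
open Crest.Agent.R298.Cod893 Crest.Agent.R298.Gd452 Crest.Agent.R298.T4795
open Crest.Agent.R298.Fl113 (RelS Rl Cs Fat)
open Crest.Agent.R298.Vt786 Crest.Agent.R298.Inf786
open Crest.Agent.R298.Md254 Crest.Agent.R298.Op98 Crest.Agent.R298.Fr201
open Crest.Agent.R298.Main865 (Lvl)
open Crest.Agent.R298.Mem360 Crest.Agent.R298.TyMF452
open Crest.Agent.R298.Mem360.MT (er er_msub)
open Crest.Agent.R298.Cand704 (cst Cand Wt)
open Crest.Agent.R298.SM646 (TyEval RRof Hi Cl Env isc nf nf_spec nf_betaEq nf_normal nf_red)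

variable {S : Type} {P : Spec S} {D : Set S} {W : ℕ → Term S}

/-! ### the laws -/

theorem rl_sort_mem {s : S} (h : Rl P D W (sort s)) : s ∈ D := by
  cases h with
  | leaf h hs =>
      have := red_sort h
      injection this with e
      rwa [← e]
  | step h _ =>
      obtain ⟨A, B, N, h1, _, _⟩ := h
      have := red_sort h1
      cases this

theorem rt_of_rl (w : WfF P W) {T : Term S} (h : Rl P D W T) : RT P D W T :=
  ⟨fun _ ht => rl_relS w h ht, fun _ e => rl_sort_mem (rl_conv w h e)⟩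

theorem notO_of_sgn {A : Term S} {a : S} (h : Uniq452.Sg P W A a)
    (hs : RelS P D a → Sgn P D a) (w : WfF P W) : NotO P D W A := by
  intro hR
  obtain ⟨e, he⟩ := hs (rl_relS w hR h)
  exact ⟨hR, e, a, h, he⟩

section laws

variable {C : Type} [Inhabited C] {sv : S → C}
  {op : Term S → Term S → C → (Term S → PEnt (Term S) (SIw P D W C) C → C) → C}

/-- the laws of the frame of the world, from the congruence of the product operation -/
theorem tl_fr (w : WfF P W) (hwn : ∀ M A, TyF P W M A → WN M) (hF : TF P D W)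
    (hop : ∀ {A B : Term S} {a b c : S}, P.rule a b c → c ∈ D → TyF P W A (sort a) →
      TyF P (fcons A W) B (sort b) → ∀ {X X' : C}
      {Y Y' : Term S → PEnt (Term S) (SIw P D W C) C → C},
      (a ∈ D → X = X') → (b ∈ D → ∀ q e, TyF P W q A → Y q e = Y' q e) →
      op (cl A) (cl (pi A B)) X Y = op (cl A) (cl (pi A B)) X' Y') :
    TL P D W (fr P D W sv op) (vt (skel P D W) (sgQ P D W)) (vtW P D W C)
      (rngS (skel P D W) (sgQ P D W)) where
  wf := w
  vl := fr_vlaws w hF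
  cl_eq h := cl_congr h
  rep_cl M := Md254.cl_eq M
  rep_ty h := cl_typed w hwn h
  dty h := dtQ_cl w hwn h
  vw_of_vt _ _ h := vtW_of_vt h
  ok A u := fr_std.entry_ok A u
  vw_sort c s h := by
    have h' : vtW P D W C (sort c) s := vtW_cl.1 h
    exact rl_sort_mem (rl_of_vtW w h')
  vw_nil c hc := ⟨c, hc, Md254.cl_eq _⟩
  vw_inv := by
    intro A B c hT x s h
    obtain ⟨a, hA⟩ := fpi_dom hT
    have h' := (vtW_cons (Md254.cl_eq (pi A B)) hA).1 h
    exact ⟨h'.1, vtW_cl.2 h'.2.2⟩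
  vw_cons := by
    intro A B N c hT hN e s he h
    obtain ⟨a, hA⟩ := fpi_dom hT
    refine (vtW_cons (Md254.cl_eq (pi A B)) hA).2 ⟨cl_typed w hwn hN, he, ?_⟩
    refine (vtW_conv ?_).1 (vtW_cl.1 h)
    exact BetaEq.inst (BetaEq.symm (Md254.cl_eq N)) (BetaEq.refl _)
  vw_rt T s h := rt_of_rl w (rl_conv w (rl_of_vtW w h) (Md254.cl_eq T))
  notO := by
    intro A a hA hs s h
    exact vt_of_vtW w ((notO_of_sgn hA hs w).conv w (BetaEq.symm (Md254.cl_eq A))) h
  op_congr := by
    intro A B a b c r hc hA hB X X' Y Y' hX hY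
    exact hop r hc hA hB hX hY

end laws

/-! ### the type evaluator -/

section eval

variable {idx : S → ℕ} {i : ℕ}

/-- the frame of stage `i` over the world `W` -/
noncomputable def frI (P : Spec S) (idx : S → ℕ) (i : ℕ) (W : ℕ → Term S) :
    Frame S (Term S) (SIw P (Lvl idx i) W (CV S)) (CV S) :=
  fr P (Lvl idx i) W (svW P idx i W)
    (opW P idx i W cl id (skel P (Lvl idx i) W) (sgQ P (Lvl idx i) W))

theorem tl_frI (w : WfF P W) (hwn : ∀ M A, TyF P W M A → WN M) (hF : TF P (Lvl idx i) W)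
    (hm : ∀ a b c, P.rule a b c → idx c ≤ idx a ∧ idx c ≤ idx b) :
    TL P (Lvl idx i) W (frI P idx i W) (vt (skel P (Lvl idx i) W) (sgQ P (Lvl idx i) W))
      (vtW P (Lvl idx i) W (CV S)) (rngS (skel P (Lvl idx i) W) (sgQ P (Lvl idx i) W)) :=
  tl_fr w hwn hF (by
    intro A B a b c r hc hA hB X X' Y Y' hX hY
    exact opW_congr_sorts w hm (ql_cl w hwn) hc r hA hB hX fun hb q e hq _ => hY hb q e hq)

theorem opF_frI : OpF P idx i W cl id (skel P (Lvl idx i) W) (sgQ P (Lvl idx i) W)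
    (frI P idx i W) := opF_std cl id _ _ _

/-- the type evaluator of stage `i` over the world `W` -/
noncomputable def Z (w : WfF P W) (hwn : ∀ M A, TyF P W M A → WN M) :
    TyEval.{0, 1} P idx i W :=
  tyEval w (ql_cl w hwn) (frI P idx i W) opF_frI

theorem Z_good (w : WfF P W) (hwn : ∀ M A, TyF P W M A → WN M) {G : ℕ → Term S}
    (ρ : Env (Z (idx := idx) (i := i) w hwn) G) (x : ℕ) : Cod893.Good (ρ.inf x) := by
  by_cases h : Cl P idx i G (G x)
  · obtain ⟨e, _, he⟩ := ρ.iq x h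
    rw [he]
    exact look_good _ _
  · rw [(ρ.low x h).2]
    exact fun s => SS.const _

/-- **(R4)** -/
theorem Z_inst (w : WfF P W) (hwn : ∀ M A, TyF P W M A → WN M) (hF : TF P (Lvl idx i) W)
    (hP : ∀ (Γ : List (Term S)) (M : Term S), Legal P Γ M → WN M)
    (hm : ∀ a b c, P.rule a b c → idx c ≤ idx a ∧ idx c ≤ idx b) :
    (Z (idx := idx) (i := i) w hwn).Inst := by
  intro G ρ A B N s g hT hCl hnH hN hmem
  have hw : WN (Term.pi A B) := (g.wn hP hT).1
  obtain ⟨wA, wB⟩ := SM646.wn_pi_inv hw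
  have e0 : nf (Term.pi A B) = .pi (nf A) (nf B) := SM646.nf_pi wA wB
  obtain ⟨c, h1, h2⟩ := hCl
  have h3 : TyF P G (.pi (nf A) (nf B)) (.sort c) := by
    rw [← e0]
    exact (Uniq452.Sg.normal g.wf (nf_normal hw)).1 (h1.conv (BetaEq.symm (nf_betaEq hw)))
  have hc : idx c = i := by
    refine le_antisymm ?_ h2
    by_contra h
    exact hnH ⟨c, h1.sub ρ.subF, not_le.1 h⟩
  obtain ⟨a, b, c', hA, hB, r, ec⟩ := fgen_pi h3 _ _ rfl
  have ec' : c = c' := sort_inj ec
  subst ec'
  -- the argument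
  have hNt : TyF P G (er N) A := hN.typed
  have wN : WN (er N) := (g.wn hP hNt).1
  have hN0 : TyF P G (nf (er N)) (nf A) :=
    tyf_red_type g.wf (FSR g.wf hNt (nf_red wN)) (nf_red wA)
  have hN1 : TyF P G (er N) (nf A) := tyf_red_type g.wf hNt (nf_red wA)
  -- the instance
  obtain ⟨_, b', _, _, hB', _, _⟩ := fgen_pi hT _ _ rfl
  obtain ⟨a0, hA0⟩ := fpi_dom hT
  have hI : TyF P G (inst (er N) B) (sort b') := tyf_inst g.wf hB' hNt
  have wI : WN (inst (er N) B) := (g.wn hP hI).1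
  have eI : BetaEq (inst (nf (er N)) (nf B)) (nf (inst (er N) B)) := by
    refine BetaEq.trans (BetaEq.inst (BetaEq.symm (nf_betaEq wN)) (BetaEq.symm (nf_betaEq wB))) ?_
    exact nf_betaEq wI
  have rI : Red (inst (nf (er N)) (nf B)) (nf (inst (er N) B)) :=
    red_of_eq_normal eI (nf_normal wI)
  -- closed types of both sides
  have t1 : TyF P W (sub ρ.th (nf (inst (er N) B))) (sort b') :=
    tyf_sub (FSR g.wf hI (nf_red wI)) ρ.subF
  have hθN : TyF P W (sub ρ.th (er N)) (sub ρ.th (nf A)) := tyf_sub hN1 ρ.subF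
  have t2 : TyF P W (sub (scons (sub ρ.th (er N)) ρ.th) (nf B)) (sort b) :=
    tyf_sub hB (ρ.subF.scons hθN)
  have e12 : BetaEq (sub (scons (sub ρ.th (er N)) ρ.th) (nf B))
      (sub ρ.th (nf (inst (er N) B))) := by
    rw [sub_scons]
    refine BetaEq.trans ?_ (BetaEq.sub (nf_betaEq wI) ρ.th)
    rw [sub_inst]
    exact BetaEq.inst (BetaEq.refl _) (BetaEq.sub (BetaEq.symm (nf_betaEq wB)) _)
  by_cases hH : Hi P idx i W (sub ρ.th (nf (inst (er N) B)))
  · obtain ⟨j, hj⟩ := (Z (idx := idx) (i := i) w hwn).ne (sub ρ.th A)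
    refine ⟨j, hj, fun v hv => ?_⟩
    rw [(Z w hwn).rr_high (hH.conv (BetaEq.symm e12))] at hv
    rw [(Z w hwn).rr_high hH]
    rwa [Cand704.wt_conv w t2 t1 e12] at hv
  · have hH' : ¬ Hi P idx i W (sub (scons (sub ρ.th (er N)) ρ.th) (nf B)) :=
      fun h => hH (h.conv e12)
    have hb : idx b = i := by
      refine le_antisymm ?_ (hc ▸ (hm a b c r).2)
      by_contra h
      exact hH' ⟨b, .of t2, not_le.1 h⟩
    have hbD : b ∈ Lvl idx i := hb
    have hcD : c ∈ Lvl idx i := hc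
    have hAW : TyF P W (sub ρ.th (nf A)) (sort a) := tyf_sub hA ρ.subF
    have eA : BetaEq (sub ρ.th A) (sub ρ.th (nf A)) := BetaEq.sub (nf_betaEq wA) _
    have hq : Tame (skel P (Lvl idx i) W) (cl (sub ρ.th A)) ∨
        sgQ P (Lvl idx i) W (cl (sub ρ.th A)) := by
      by_cases ht : Tame (skel P (Lvl idx i) W) (cl (sub ρ.th A))
      · exact .inl ht
      · refine .inr (bound_sg w r hbD hcD ((Uniq452.Sg.of hAW).conv ?_) ht)
        exact BetaEq.trans (Md254.cl_eq _) eA
    obtain ⟨e, he, hIQ⟩ := exists_index (F := frI P idx i W) fr_std hq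
      (den (frI P idx i W) (nf (er N)) ρ.th ρ.inf)
    refine ⟨look (frI P idx i W) e.ent, ⟨e, hIQ, rfl⟩, fun v hv => ?_⟩
    rw [(Z w hwn).rr_low hH'] at hv
    rw [(Z w hwn).rr_low hH]
    have key := den_R4 (tl_frI w hwn hF hm) g.wf hB (nf_normal wB) hN0 (nf_normal wN) hA r hbD
      hcD rI (θ := ρ.th) (ν := ρ.inf) ρ.subF (Z_good w hwn ρ) (N' := sub ρ.th (er N)) hθN
      (BetaEq.sub (nf_betaEq wN) _) [] (by
        show vtW P (Lvl idx i) W (CV S) (cl (sub ρ.th (inst (nf (er N)) (sort b)))) []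
        exact ⟨b, hbD, Md254.cl_eq _⟩)
    have hcl : (frI P idx i W).cl (sub ρ.th (nf A)) = cl (sub ρ.th A) :=
      cl_congr (BetaEq.symm eA)
    rw [hcl, ← he, icons_isc] at key
    have hev1 : (Z (idx := idx) (i := i) w hwn).ev (nf (inst (er N) B)) ρ.th ρ.inf =
        den (frI P idx i W) (nf (inst (er N) B)) ρ.th ρ.inf [] := rfl
    have hev2 : (Z (idx := idx) (i := i) w hwn).ev (nf B) (scons (sub ρ.th (er N)) ρ.th)
        (isc (look (frI P idx i W) e.ent) ρ.inf) =
        den (frI P idx i W) (nf B) (scons (sub ρ.th (er N)) ρ.th)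
        (isc (look (frI P idx i W) e.ent) ρ.inf) [] := rfl
    rw [hev1, key, ← cst_conv w t2 t1 e12]
    exact hv

end eval

/-- **`BlockTW`** -/
theorem blockTW : Main865.BlockTW Main865.FatP := by
  refine SM3987.blockTW_of.{1} Main865.FatP ?_
  intro n P idx N hS hI D wD i hi hFat
  have hwn : ∀ M A, TyF P D M A → WN M := fun M A h => (wD.good.wn hS.wn h).1
  have hF : TF P (Lvl idx i) D := tf_of_not_fat wD.good.wf
    (fun T t h => hwn T _ h) hFat
  exact ⟨Z wD.good.wf hwn, Z_inst wD.good.wf hwn hF hS.wn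
    (fun _ _ _ r => ⟨hI.rule_left r, hI.rule_right r⟩)⟩

end Crest.Agent.R298.Inst795
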