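import Crest.Agent.R298.Jd_961
import Crest.Agent.R298.TyF_452

/-!
R298 (S0452), helper157: instances of helper961's abstract judgement `Jd` over helper452's function
contexts: `JF P` (all function contexts) and `JW P D` (contexts = finite lists in front of a fixed
function context `D`, the "one world" form).
-/

set_option autoImplicit false

namespace Crest.Agent.R298.JdW157

open Crest.LogicCS.PTS Crest.LogicCS.PTS.Term Relation
open Crest.Agent.R298.Sub452 Crest.Agent.R298.Par452 Crest.Agent.R298.TyF452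
open Crest.Agent.R298.Jd961

universe u
variable {S : Type u}

/-- the judgement over all (well formed) function contexts -/
def JF (P : Spec S) : Jd P (ℕ → Term S) where
  T := fun D M A => TyF P D M A ∧ WfF P D
  Wf := fun D => WfF P D
  Dc := fun D x A => A = D x
  cons := fcons
  dc_unique := by rintro D x A B rfl rfl; rfl
  dc_zero := by intro D A B; exact Iff.rfl
  dc_succ := by
    intro D A x B
    constructor
    · rintro rfl; exact ⟨D x, rfl, rfl⟩
    · rintro ⟨B', rfl, rfl⟩; rfl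
  wf_cons := fun w h => w.cons h.1
  tvar := by rintro D x A w rfl; exact ⟨tyf_var w x, w⟩
  tax := fun w h => ⟨.ax h, w⟩
  tprod := fun h h' r => ⟨.prod h.1 h'.1 r, h.2⟩
  tabs := fun h h' => ⟨.abs h.1 h'.1, h'.2⟩
  tappl := fun h h' => ⟨.appl h.1 h'.1, h.2⟩
  tconv := fun h h' e => ⟨.conv h.1 h'.1 e, h.2⟩
  tsub := fun {G D σ M A} h w hs => ⟨tyf_sub h.1 (fun i => (hs i _ rfl).1), w⟩
  gen_var := fun {G x A} h => by
    obtain h' := fgen_var h.1
    exact ⟨_, rfl, (h' x rfl).2⟩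
  gen_sort := fun {G s A} h => by
    obtain ⟨s', a, e⟩ := fgen_sort h.1 s rfl
    exact ⟨s', a, e⟩
  gen_pi := fun {G A B D} h => by
    obtain ⟨s₁, s₂, s₃, a, b, r, e⟩ := fgen_pi h.1 A B rfl
    exact ⟨s₁, s₂, s₃, ⟨a, h.2⟩, ⟨b, h.2.cons a⟩, r, e⟩
  gen_lam := fun {G A M D} h => by
    obtain ⟨B, s, a, b, e⟩ := fgen_lam h.1 A M rfl
    obtain ⟨s', c⟩ := fpi_dom b
    exact ⟨B, s, ⟨a, h.2.cons c⟩, ⟨b, h.2⟩, e⟩
  gen_app := fun {G M N D} h => by
    obtain ⟨A, B, a, b, e⟩ := fgen_app h.1 M N rfl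
    exact ⟨A, B, ⟨a, h.2⟩, ⟨b, h.2⟩, e⟩
  type_correct := fun {G M A} h => by
    rcases ftype_correct h.2 h.1 with e | ⟨s, hs⟩
    · exact .inl e
    · exact .inr ⟨s, hs, h.2⟩
  sr := fun h r => ⟨FSR h.2 h.1 r, h.2⟩

/-- the context `Ξ` in front of `D` -/
def ctx (D : ℕ → Term S) (Ξ : List (Term S)) : ℕ → Term S := Ξ.foldr fcons D

@[simp] theorem ctx_nil (D : ℕ → Term S) : ctx D [] = D := rfl
@[simp] theorem ctx_cons (D : ℕ → Term S) (A : Term S) (Ξ : List (Term S)) :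
    ctx D (A :: Ξ) = fcons A (ctx D Ξ) := rfl

/-- the judgement over finite extensions of one function context -/
def JW (P : Spec S) (D : ℕ → Term S) : Jd P (List (Term S)) where
  T := fun Ξ M A => (JF P).T (ctx D Ξ) M A
  Wf := fun Ξ => (JF P).Wf (ctx D Ξ)
  Dc := fun Ξ x A => (JF P).Dc (ctx D Ξ) x A
  cons := fun A Ξ => A :: Ξ
  dc_unique := (JF P).dc_unique
  dc_zero := (JF P).dc_zero
  dc_succ := (JF P).dc_succ
  wf_cons := (JF P).wf_cons
  tvar := (JF P).tvar
  tax := (JF P).tax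
  tprod := (JF P).tprod
  tabs := (JF P).tabs
  tappl := (JF P).tappl
  tconv := (JF P).tconv
  tsub := (JF P).tsub
  gen_var := (JF P).gen_var
  gen_sort := (JF P).gen_sort
  gen_pi := (JF P).gen_pi
  gen_lam := (JF P).gen_lam
  gen_app := (JF P).gen_app
  type_correct := (JF P).type_correct
  sr := (JF P).sr

@[simp] theorem jw_T (P : Spec S) (D : ℕ → Term S) (Ξ : List (Term S)) (M A : Term S) :
    (JW P D).T Ξ M A ↔ TyF P (ctx D Ξ) M A ∧ WfF P (ctx D Ξ) := Iff.rfl

@[simp] theorem jw_wf (P : Spec S) (D : ℕ → Term S) (Ξ : List (Term S)) :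
    (JW P D).Wf Ξ ↔ WfF P (ctx D Ξ) := Iff.rfl

@[simp] theorem jw_dc (P : Spec S) (D : ℕ → Term S) (Ξ : List (Term S)) (x : ℕ) (A : Term S) :
    (JW P D).Dc Ξ x A ↔ A = ctx D Ξ x := Iff.rfl

@[simp] theorem jw_cons (P : Spec S) (D : ℕ → Term S) (Ξ : List (Term S)) (A : Term S) :
    (JW P D).cons A Ξ = A :: Ξ := rfl

end Crest.Agent.R298.JdW157
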