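import Crest.Agent.R298.Ty_452

/-!
R298 (S0452), helper961: abstract typing judgement `Jd` (instances: frozen `Typed` over lists,
function contexts), types of a term agree up to the final sort (Jutting), classes.
-/

set_option autoImplicit false

namespace Crest.Agent.R298.Jd961

open Crest.LogicCS.PTS Crest.LogicCS.PTS.Term Relation
open Crest.Agent.R298.Sub452 Crest.Agent.R298.Par452

universe u v

/-- an abstract typing judgement with contexts in `C` -/
structure Jd {S : Type u} (P : Spec S) (C : Type v) where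
  /-- the judgement -/
  T : C → Term S → Term S → Prop
  /-- well-formed contexts -/
  Wf : C → Prop
  /-- declared variables with their types -/
  Dc : C → ℕ → Term S → Prop
  /-- extension -/
  cons : Term S → C → C
  dc_unique : ∀ {G x A B}, Dc G x A → Dc G x B → A = B
  dc_zero : ∀ {G A B}, Dc (cons A G) 0 B ↔ B = wk A
  dc_succ : ∀ {G A x B}, Dc (cons A G) (x + 1) B ↔ ∃ B', Dc G x B' ∧ B = wk B'
  wf_cons : ∀ {G A s}, Wf G → T G A (sort s) → Wf (cons A G)
  tvar : ∀ {G x A}, Wf G → Dc G x A → T G (var x) A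
  tax : ∀ {G s s'}, Wf G → P.ax s s' → T G (sort s) (sort s')
  tprod : ∀ {G A B s₁ s₂ s₃}, T G A (sort s₁) → T (cons A G) B (sort s₂) → P.rule s₁ s₂ s₃ →
    T G (pi A B) (sort s₃)
  tabs : ∀ {G A M B s}, T (cons A G) M B → T G (pi A B) (sort s) → T G (lam A M) (pi A B)
  tappl : ∀ {G M N A B}, T G M (pi A B) → T G N A → T G (app M N) (inst N B)
  tconv : ∀ {G M A B s}, T G M A → T G B (sort s) → BetaEq A B → T G M B
  tsub : ∀ {G D σ M A}, T G M A → Wf D → (∀ x B, Dc G x B → T D (σ x) (sub σ B)) →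
    T D (sub σ M) (sub σ A)
  gen_var : ∀ {G x A}, T G (var x) A → ∃ B, Dc G x B ∧ BetaEq A B
  gen_sort : ∀ {G s A}, T G (sort s) A → ∃ s', P.ax s s' ∧ BetaEq A (sort s')
  gen_pi : ∀ {G A B D}, T G (pi A B) D → ∃ s₁ s₂ s₃, T G A (sort s₁) ∧
    T (cons A G) B (sort s₂) ∧ P.rule s₁ s₂ s₃ ∧ BetaEq D (sort s₃)
  gen_lam : ∀ {G A M D}, T G (lam A M) D → ∃ B s, T (cons A G) M B ∧ T G (pi A B) (sort s) ∧
    BetaEq D (pi A B)
  gen_app : ∀ {G M N D}, T G (app M N) D → ∃ A B, T G M (pi A B) ∧ T G N A ∧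
    BetaEq D (inst N B)
  type_correct : ∀ {G M A}, T G M A → (∃ s, A = sort s) ∨ ∃ s, T G A (sort s)
  sr : ∀ {G M M' A}, T G M A → Red M M' → T G M' A

/-- the frozen judgement -/
def lst {S : Type u} (P : Spec S) : Jd P (List (Term S)) where
  T := Typed P
  Wf := Ty452.Wf P
  Dc := Ty452.Lk
  cons := fun A G => A :: G
  dc_unique := fun h h' => Ty452.Lk.unique h h'
  dc_zero := by
    intro G A B
    constructor
    · intro h; cases h; rfl
    · rintro rfl; exact .zero _ _
  dc_succ := by
    intro G A x B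
    constructor
    · intro h; cases h with | succ _ h => exact ⟨_, h, rfl⟩
    · rintro ⟨B', h, rfl⟩; exact .succ _ h
  wf_cons := fun w h => .cons w h
  tvar := fun w h => Ty452.var_wf h w
  tax := fun w h => Ty452.ax_wf w h
  tprod := fun h h' r => .prod h h' r
  tabs := fun h h' => .abs h h'
  tappl := fun h h' => Ty452.t_appl h h'
  tconv := fun h h' e => .conv h h' e
  tsub := fun h w hs => Ty452.typed_sub h w hs
  gen_var := fun h => Ty452.gen_var h
  gen_sort := fun h => Ty452.gen_sort h
  gen_pi := fun h => Ty452.gen_pi h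
  gen_lam := fun h => Ty452.gen_lam h
  gen_app := fun h => Ty452.gen_app h
  type_correct := fun h => Ty452.type_correct h
  sr := fun h r => Ty452.SR h r

variable {S : Type u} {P : Spec S} {C : Type v} (J : Jd P C)

namespace Jd

variable {J}

theorem pi_typed {G : C} {M A B : Term S} (h : J.T G M (pi A B)) :
    ∃ s, J.T G (pi A B) (sort s) := by
  rcases J.type_correct h with ⟨s, e⟩ | h
  · cases e
  · exact h

theorem red_type {G : C} {M A A' : Term S} (h : J.T G M A) (r : Red A A') : J.T G M A' := by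
  rcases J.type_correct h with ⟨s, rfl⟩ | ⟨s, hA⟩
  · rw [red_sort r]; exact h
  · exact J.tconv h (J.sr hA r) r.eq

theorem sort_of_eq {G : C} {M A : Term S} {s : S} (h : J.T G M A) (e : BetaEq A (sort s)) :
    J.T G M (sort s) := red_type h (red_of_eq_sort e)

/-- `σ` is a typed substitution from `G` to `D` -/
def Sb (J : Jd P C) (σ : ℕ → Term S) (G D : C) : Prop :=
  ∀ x B, J.Dc G x B → J.T D (σ x) (sub σ B)

theorem sb_var {G : C} (w : J.Wf G) : Sb J var G G :=
  fun x B h => by rw [sub_id]; exact J.tvar w h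

theorem tren {G D : C} {r : ℕ → ℕ} {M A : Term S} (h : J.T G M A) (w : J.Wf D)
    (hr : Sb J (fun x => var (r x)) G D) : J.T D (ren r M) (ren r A) := by
  rw [ren_eq_sub, ren_eq_sub]; exact J.tsub h w hr

theorem sb_wk {G : C} {A : Term S} {s : S} (w : J.Wf G) (h : J.T G A (sort s)) :
    Sb J (fun x => var (x + 1)) G (J.cons A G) := by
  intro x B hB
  have : J.T (J.cons A G) (var (x + 1)) (wk B) :=
    J.tvar (J.wf_cons w h) (J.dc_succ.2 ⟨B, hB, rfl⟩)
  rwa [show wk B = sub (fun x => var (x + 1)) B from ren_eq_sub Nat.succ B] at this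

theorem twk {G : C} {M A B : Term S} {s : S} (h : J.T G M B) (w : J.Wf G)
    (hA : J.T G A (sort s)) : J.T (J.cons A G) (wk M) (wk B) := by
  have := J.tsub h (J.wf_cons w hA) (sb_wk w hA)
  rwa [← ren_eq_sub (fun x => x + 1), ← ren_eq_sub (fun x => x + 1)] at this

theorem sb_ups {σ : ℕ → Term S} {G D : C} (h : Sb J σ G D) (w : J.Wf D) {A : Term S} {s : S}
    (hA : J.T D (sub σ A) (sort s)) : Sb J (ups σ) (J.cons A G) (J.cons (sub σ A) D) := by
  intro x B hB
  cases x with
  | zero =>
      rw [J.dc_zero] at hB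
      subst hB
      rw [sub_wk]
      exact J.tvar (J.wf_cons w hA) (J.dc_zero.2 rfl)
  | succ x =>
      obtain ⟨B', hB', rfl⟩ := J.dc_succ.1 hB
      rw [sub_wk]
      exact twk (h _ _ hB') w hA

theorem sb_scons {σ : ℕ → Term S} {G D : C} (h : Sb J σ G D) {N A : Term S}
    (hN : J.T D N (sub σ A)) : Sb J (scons N σ) (J.cons A G) D := by
  intro x B hB
  cases x with
  | zero =>
      rw [J.dc_zero] at hB
      subst hB
      simpa only [wk, sub_ren, Nat.succ_eq_add_one, scons_succ, scons_zero] using hN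
  | succ x =>
      obtain ⟨B', hB', rfl⟩ := J.dc_succ.1 hB
      have := h _ _ hB'
      simpa only [wk, sub_ren, Nat.succ_eq_add_one, scons_succ] using this

theorem sb_comp {σ τ : ℕ → Term S} {G D E : C} (h : Sb J σ G D) (h' : Sb J τ D E)
    (w : J.Wf E) : Sb J (fun x => sub τ (σ x)) G E := by
  intro x B hB
  have := J.tsub (h _ _ hB) w h'
  rwa [sub_sub] at this

theorem tinst {G : C} {A M B N : Term S} (w : J.Wf G) (h : J.T (J.cons A G) M B)
    (hN : J.T G N A) : J.T G (inst N M) (inst N B) := by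
  refine J.tsub h w ?_
  exact sb_scons (sb_var w) (by rwa [sub_id])

/-- conversion of the last declaration -/
theorem sb_conv {G : C} {A A' : Term S} {s s' : S} (w : J.Wf G) (hA : J.T G A (sort s))
    (hA' : J.T G A' (sort s')) (e : BetaEq A A') :
    Sb J var (J.cons A G) (J.cons A' G) := by
  intro x B hB
  rw [sub_id]
  cases x with
  | zero =>
      rw [J.dc_zero] at hB
      subst hB
      refine J.tconv (J.tvar (J.wf_cons w hA') (J.dc_zero.2 rfl)) (twk hA w hA') ?_
      exact BetaEq.symm (BetaEq.ren e _)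
  | succ x =>
      obtain ⟨B', hB', rfl⟩ := J.dc_succ.1 hB
      exact twk (J.tvar w hB') w hA'

theorem ctx_conv {G : C} {A A' M B : Term S} {s s' : S} (w : J.Wf G)
    (h : J.T (J.cons A G) M B) (hA : J.T G A (sort s))
    (hA' : J.T G A' (sort s')) (e : BetaEq A A') : J.T (J.cons A' G) M B := by
  have := J.tsub h (J.wf_cons w hA') (sb_conv w hA hA' e)
  rwa [sub_id, sub_id] at this

end Jd

/-! ### types of a term agree up to the final sort -/

/-- equality of types up to the final sort -/
inductive TE : Term S → Term S → Prop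
  | eq {A B : Term S} : BetaEq A B → TE A B
  | srt {A B : Term S} {s t : S} : BetaEq A (sort s) → BetaEq B (sort t) → TE A B
  | prd {A B C D D' : Term S} : BetaEq A (pi C D) → BetaEq B (pi C D') → TE D D' → TE A B

theorem TE.symm {A B : Term S} (h : TE A B) : TE B A := by
  induction h with
  | eq h => exact .eq (BetaEq.symm h)
  | srt h h' => exact .srt h' h
  | prd h h' _ ih => exact .prd h' h ih

theorem TE.left {A A' B : Term S} (h : TE A B) (e : BetaEq A' A) : TE A' B := by
  cases h with
  | eq h => exact .eq (BetaEq.trans e h)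
  | srt h h' => exact .srt (BetaEq.trans e h) h'
  | prd h h' k => exact .prd (BetaEq.trans e h) h' k

theorem TE.right {A B B' : Term S} (h : TE A B) (e : BetaEq B B') : TE A B' :=
  (h.symm.left (BetaEq.symm e)).symm

theorem TE.sub {A B : Term S} (h : TE A B) (σ : ℕ → Term S) : TE (sub σ A) (sub σ B) := by
  induction h generalizing σ with
  | eq h => exact .eq (BetaEq.sub h σ)
  | srt h h' => exact .srt (BetaEq.sub h σ) (BetaEq.sub h' σ)
  | prd h h' _ ih => exact .prd (BetaEq.sub h σ) (BetaEq.sub h' σ) (ih (ups σ))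

theorem TE.inv_pi {A B C D : Term S} (h : TE (pi A B) (pi C D)) :
    BetaEq A C ∧ TE B D := by
  generalize hX : pi A B = X at h
  generalize hY : pi C D = Y at h
  cases h with
  | eq h =>
      subst hX; subst hY
      obtain ⟨h1, h2⟩ := pi_inj h
      exact ⟨h1, .eq h2⟩
  | srt h h' =>
      subst hX
      exact (not_sort_pi (BetaEq.symm h)).elim
  | prd h h' k =>
      subst hX; subst hY
      obtain ⟨h1, h2⟩ := pi_inj h
      obtain ⟨h3, h4⟩ := pi_inj h'
      exact ⟨BetaEq.trans h1 (BetaEq.symm h3), (k.left h2).right (BetaEq.symm h4)⟩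

/-- a type agreeing with a product is a product -/
theorem TE.left_pi {A B T : Term S} (h : TE (pi A B) T) :
    ∃ B', BetaEq T (pi A B') ∧ TE B B' := by
  generalize hX : pi A B = X at h
  cases h with
  | eq h => subst hX; exact ⟨B, BetaEq.symm h, .eq (.refl _)⟩
  | srt h h' =>
      subst hX
      exact (not_sort_pi (BetaEq.symm h)).elim
  | prd h h' k =>
      subst hX
      obtain ⟨h1, h2⟩ := pi_inj h
      exact ⟨_, BetaEq.trans h' (BetaEq.pi (BetaEq.symm h1) (.refl _)), k.left h2⟩

/-- **types of a term agree up to the final sort** -/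
theorem jutting {G : C} {M A B : Term S} (h : J.T G M A) (h' : J.T G M B) : TE A B := by
  induction M generalizing G A B with
  | var x =>
      obtain ⟨A', hA', eA⟩ := J.gen_var h
      obtain ⟨B', hB', eB⟩ := J.gen_var h'
      obtain rfl := J.dc_unique hA' hB'
      exact .eq (BetaEq.trans eA (BetaEq.symm eB))
  | sort s =>
      obtain ⟨s', -, eA⟩ := J.gen_sort h
      obtain ⟨t', -, eB⟩ := J.gen_sort h'
      exact .srt eA eB
  | app M N ihM _ =>
      obtain ⟨A1, A2, h1, _, eA⟩ := J.gen_app h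
      obtain ⟨B1, B2, h2, _, eB⟩ := J.gen_app h'
      obtain ⟨-, k⟩ := (ihM h1 h2).inv_pi
      exact ((k.sub _).left eA).right (BetaEq.symm eB)
  | lam A0 M _ ihM =>
      obtain ⟨A2, s, h1, _, eA⟩ := J.gen_lam h
      obtain ⟨B2, s', h2, _, eB⟩ := J.gen_lam h'
      exact .prd eA eB (ihM h1 h2)
  | pi A0 B0 _ _ =>
      obtain ⟨_, _, s, _, _, _, eA⟩ := J.gen_pi h
      obtain ⟨_, _, s', _, _, _, eB⟩ := J.gen_pi h'
      exact .srt eA eB

end Crest.Agent.R298.Jd961
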