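import Crest.Agent.R298.Jw_558
import Crest.Agent.R298.AA_961

/-!
R298 (S0452), helper558: from a stage model over the lists over one world (961's `Stage0`, with the
identity environment at the empty local context) to the stage `WNiAt` of the assembly.
-/

set_option autoImplicit false

namespace Crest.Agent.R298.Jw558

open Crest.LogicCS.PTS Crest.LogicCS.PTS.Term Relation
open Crest.Agent.R298.Sub452 Crest.Agent.R298.Par452 Crest.Agent.R298.Mem360
open Crest.Agent.R298.Mem360.MT Crest.Agent.R298.Jd961 Crest.Agent.R298.MW961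
open Crest.Agent.R298.TyF452 Crest.Agent.R298.TyMF452 Crest.Agent.R298.World657
open Crest.Agent.R298.Main865 (NFF WNiAt SigF)

universe u v w

variable {S : Type u} {P : Spec S} {D₀ : ℕ → Term S} {idx : S → ℕ}

theorem wniAt_of_W (g : Good P D₀) {i : ℕ}
    (h : ∀ M : MT S, MOk (wl P D₀) M [] → NF (wl P D₀) idx i M [] →
      W (wl P D₀) idx (i + 1) [] M) : WNiAt P idx i D₀ := by
  intro M A hM hn
  have hm : MOk (wl P D₀) M [] := mok_of_tmf hM (G := []) rfl (.nil g)
  obtain ⟨M', r, hn'⟩ := h M hm (nf_of_nff (G := []) hm hn)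
  exact ⟨M', r, nff_of_nf hn'⟩

theorem wniAt_of (g : Good P D₀) {i : ℕ} (h : AA961.WNi (wl P D₀) idx i) : WNiAt P idx i D₀ :=
  wniAt_of_W g (fun M hm hn => h [] M (.nil g) hm hn)

/-- **a stage model over the world** (environments with the identity environment at `[]`) gives
the stage `i` of the assembly -/
theorem wniAt_of_stage0 (hrule : ∀ a b c, P.rule a b c → idx c ≤ idx a ∧ idx c ≤ idx b)
    (g : Good P D₀) {i : ℕ} (X : AA961.Stage0.{u, u, w} (wl P D₀) idx i) (ρ : X.Env)
    (o : X.Ok [] ρ) (ht : X.tgt ρ = []) (hs : X.sb ρ = MT.var) : WNiAt P idx i D₀ :=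
  wniAt_of_W g (fun _ hm hn => AA961.W_of_stage0 hrule X (.nil g) o ht hs hm hn)

end Crest.Agent.R298.Jw558
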