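import Crest.Agent.R298.Rfl_558
import Crest.Agent.R298.WorldF_657
import Crest.Agent.R298.MainW_865

/-!
R298 (S0452), helper558: 961's abstract judgement `Jd` over LISTS OVER ONE WORLD.

`cx D₀ G := G.foldr fcons D₀` (local context `G` over the world `D₀`); `wl P D₀` is the instance
(`T G M A := WG P D₀ G ∧ TyF P (cx D₀ G) M A`).  The fields `fresh` and `ident` of a stage model
in the world (any name of the right type), and the bridge `WNi (wl P D₀) → WNiAt D₀`.
-/

set_option autoImplicit false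

namespace Crest.Agent.R298.Jw558

open Crest.LogicCS.PTS Crest.LogicCS.PTS.Term Relation
open Crest.Agent.R298.Sub452 Crest.Agent.R298.Par452 Crest.Agent.R298.Mem360
open Crest.Agent.R298.Mem360.MT Crest.Agent.R298.Jd961 Crest.Agent.R298.Jd961.Jd
open Crest.Agent.R298.MW961 Crest.Agent.R298.TyF452 Crest.Agent.R298.TyMF452
open Crest.Agent.R298.Rfl558 Crest.Agent.R298.World657
open Crest.Agent.R298.Main865 (NFF WNiAt SigF)

universe u

variable {S : Type u} {P : Spec S} {D₀ : ℕ → Term S}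

/-- the function context of a local context over a world -/
def cx (D₀ : ℕ → Term S) : List (Term S) → ℕ → Term S
  | [] => D₀
  | A :: G => fcons A (cx D₀ G)

@[simp] theorem cx_nil (D₀ : ℕ → Term S) : cx D₀ [] = D₀ := rfl
@[simp] theorem cx_cons (D₀ : ℕ → Term S) (A : Term S) (G : List (Term S)) :
    cx D₀ (A :: G) = fcons A (cx D₀ G) := rfl

theorem cx_foldr (D₀ : ℕ → Term S) (G : List (Term S)) : cx D₀ G = G.foldr fcons D₀ := by
  induction G with
  | nil => rfl
  | cons A G ih => rw [cx_cons, ih]; rfl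

/-- well-formed local contexts over a good world -/
inductive WG (P : Spec S) (D₀ : ℕ → Term S) : List (Term S) → Prop
  | nil : Good P D₀ → WG P D₀ []
  | cons {A : Term S} {G : List (Term S)} {s : S} : WG P D₀ G → TyF P (cx D₀ G) A (sort s) →
      WG P D₀ (A :: G)

theorem WG.good {G : List (Term S)} (h : WG P D₀ G) : Good P (cx D₀ G) := by
  induction h with
  | nil h => exact h
  | cons _ h ih => exact ih.cons h

theorem WG.wf {G : List (Term S)} (h : WG P D₀ G) : WfF P (cx D₀ G) := h.good.wf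

/-- typing over a local context -/
def TW (P : Spec S) (D₀ : ℕ → Term S) (G : List (Term S)) (M A : Term S) : Prop :=
  WG P D₀ G ∧ TyF P (cx D₀ G) M A

/-- **the judgement of local contexts over one world** -/
def wl (P : Spec S) (D₀ : ℕ → Term S) : Jd P (List (Term S)) where
  T := TW P D₀
  Wf := WG P D₀
  Dc := fun G x A => A = cx D₀ G x
  cons := fun A G => A :: G
  dc_unique := fun h h' => h.trans h'.symm
  dc_zero := Iff.rfl
  dc_succ := by
    intro G A x B
    constructor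
    · intro h; exact ⟨_, rfl, h⟩
    · rintro ⟨B', h, rfl⟩; rw [h]; rfl
  wf_cons := fun w h => .cons w h.2
  tvar := by rintro G x A w rfl; exact ⟨w, tyf_var w.wf x⟩
  tax := fun w h => ⟨w, .ax h⟩
  tprod := fun h h' r => ⟨h.1, .prod h.2 h'.2 r⟩
  tabs := fun h h' => ⟨h'.1, .abs h.2 h'.2⟩
  tappl := fun h h' => ⟨h.1, .appl h.2 h'.2⟩
  tconv := fun h h' e => ⟨h.1, .conv h.2 h'.2 e⟩
  tsub := fun h w hs => ⟨w, tyf_sub h.2 (fun i => (hs i _ rfl).2)⟩
  gen_var := fun h => ⟨_, rfl, (fgen_var h.2 _ rfl).2⟩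
  gen_sort := fun h => fgen_sort h.2 _ rfl
  gen_pi := by
    rintro G A B D ⟨w, h⟩
    obtain ⟨s₁, s₂, s₃, hA, hB, r, e⟩ := fgen_pi h _ _ rfl
    exact ⟨s₁, s₂, s₃, ⟨w, hA⟩, ⟨.cons w hA, hB⟩, r, e⟩
  gen_lam := by
    rintro G A M D ⟨w, h⟩
    obtain ⟨B, s, hM, hp, e⟩ := fgen_lam h _ _ rfl
    obtain ⟨s', hA⟩ := fpi_dom hp
    exact ⟨B, s, ⟨.cons w hA, hM⟩, ⟨w, hp⟩, e⟩
  gen_app := by
    rintro G M N D ⟨w, h⟩
    obtain ⟨A, B, hM, hN, e⟩ := fgen_app h _ _ rfl
    exact ⟨A, B, ⟨w, hM⟩, ⟨w, hN⟩, e⟩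
  type_correct := by
    rintro G M A ⟨w, h⟩
    rcases ftype_correct w.wf h with h | ⟨s, h⟩
    · exact .inl h
    · exact .inr ⟨s, w, h⟩
  sr := fun h r => ⟨h.1, FSR h.1.wf h.2 r⟩

@[simp] theorem wl_T {G : List (Term S)} {M A : Term S} :
    (wl P D₀).T G M A ↔ WG P D₀ G ∧ TyF P (cx D₀ G) M A := Iff.rfl
@[simp] theorem wl_wf {G : List (Term S)} : (wl P D₀).Wf G ↔ WG P D₀ G := Iff.rfl
@[simp] theorem wl_dc {G : List (Term S)} {x : ℕ} {A : Term S} :
    (wl P D₀).Dc G x A ↔ A = cx D₀ G x := Iff.rfl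
@[simp] theorem wl_cons {G : List (Term S)} {A : Term S} : (wl P D₀).cons A G = A :: G := rfl

/-- types are weakly normalising -/
theorem twn_wl (hP : ∀ (Γ : List (Term S)) (M : Term S), Legal P Γ M → WN M) :
    TWN (wl P D₀) := fun w h => (w.good.wn hP h.2).1

theorem wn_wl (hP : ∀ (Γ : List (Term S)) (M : Term S), Legal P Γ M → WN M)
    {G : List (Term S)} {M A : Term S} (h : (wl P D₀).T G M A) : WN M ∧ WN A :=
  h.1.good.wn hP h.2

/-- typed renamings and substitutions over worlds -/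
theorem rn_iff {r : ℕ → ℕ} {G D : List (Term S)} :
    Rn (wl P D₀) r G D ↔ ∀ x, (wl P D₀).T D (.var (r x)) (ren r (cx D₀ G x)) := by
  constructor
  · intro h x
    have := h x _ rfl
    rwa [← ren_eq_sub] at this
  · rintro h x B rfl
    have := h x
    rwa [ren_eq_sub] at this

theorem rn_of_eq {r : ℕ → ℕ} {G D : List (Term S)} (w : WG P D₀ D)
    (h : ∀ x, cx D₀ D (r x) = ren r (cx D₀ G x)) : Rn (wl P D₀) r G D := by
  rw [rn_iff]
  intro x
  rw [← h x]
  exact ⟨w, tyf_var w.wf _⟩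

/-! ### names -/

/-- the renaming which replaces the last variable by the name `k` -/
def nk (k : ℕ) : ℕ → ℕ
  | 0 => k
  | n + 1 => n

@[simp] theorem nk_zero (k : ℕ) : nk k 0 = k := rfl
@[simp] theorem nk_succ (k n : ℕ) : nk k (n + 1) = n := rfl

theorem ren_nk_wk (k : ℕ) (M : Term S) : ren (nk k) (wk M) = M := by
  rw [Sub452.wk, ren_ren]
  exact ren_id M

theorem mren_nk_mwk (k : ℕ) (M : MT S) : mren (nk k) (mwk M) = M := by
  rw [mwk, mren_mren]
  exact mren_id M

theorem rn_nk {A : Term S} {k : ℕ} {G : List (Term S)} (w : WG P D₀ G) (hk : cx D₀ G k = A) :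
    Rn (wl P D₀) (nk k) (A :: G) G := by
  refine rn_of_eq w (fun x => ?_)
  cases x with
  | zero => rw [cx_cons, fcons_zero, ren_nk_wk]; exact hk
  | succ x => rw [cx_cons, fcons_succ, ren_nk_wk]; rfl

theorem msub_name (k : ℕ) (σ : ℕ → MT S) (M : MT S) :
    msub (mscons (.var k) σ) M = mren (nk k) (msub (mups σ) M) := by
  rw [mren_msub]
  congr 1
  funext i
  cases i with
  | zero => rfl
  | succ i => rw [mups_succ, mren_nk_mwk]; rfl

theorem emb_ty {σ : ℕ → MT S} {A : Term S} :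
    er (msub σ (emb A)) = sub (fun x => er (σ x)) A := by rw [er_msub, er_emb]

variable {idx : S → ℕ}

/-- extension of a typed substitution into the world by a term -/
theorem MSb.scons {σ : ℕ → MT S} {G D : List (Term S)} (h : MSb (wl P D₀) σ G D) {A : Term S}
    {N : MT S} (hN : MOk (wl P D₀) N D)
    (hT : (wl P D₀).T D (er N) (sub (fun x => er (σ x)) A)) :
    MSb (wl P D₀) (mscons N σ) (A :: G) D := by
  refine ⟨?_, ?_⟩
  · rw [er_mscons]
    exact sb_scons h.1 hT
  · intro x B hB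
    cases x with
    | zero => exact hN
    | succ x => exact h.2 x _ rfl

theorem MSb.name {σ : ℕ → MT S} {G D : List (Term S)} (h : MSb (wl P D₀) σ G D) {A : Term S}
    {k : ℕ} (w : WG P D₀ D) (hk : cx D₀ D k = sub (fun x => er (σ x)) A) :
    MSb (wl P D₀) (mscons (.var k) σ) (A :: G) D := by
  have hT : (wl P D₀).T D (.var k) (sub (fun x => er (σ x)) A) := by
    rw [← hk]; exact ⟨w, tyf_var w.wf k⟩
  exact MSb.scons h ⟨_, hT⟩ hT

/-- **reflection at a name** (the field `fresh`): `k` is ANY variable of the target with the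
right type -/
theorem fresh_name (hP : ∀ (Γ : List (Term S)) (M : Term S), Legal P Γ M → WN M)
    {σ : ℕ → MT S} {G D : List (Term S)} (h : MSb (wl P D₀) σ G D) (w : WG P D₀ D) {A : Term S}
    {s : S} (hA : (wl P D₀).T G A (sort s)) {k i : ℕ}
    (hk : cx D₀ D k = sub (fun x => er (σ x)) A) {M : MT S} (hM : MOk (wl P D₀) M (A :: G))
    (hW : W (wl P D₀) idx i D (msub (mscons (.var k) σ) M)) :
    W (wl P D₀) idx i (sub (fun x => er (σ x)) A :: D) (msub (mups σ) M) := by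
  rw [msub_name] at hW
  have hA' : (wl P D₀).T D (er (msub σ (emb A))) (sort s) := by
    rw [emb_ty]; exact (wl P D₀).tsub hA w h.1
  have h2 := h.ups (A := emb A) w hA'
  rw [er_emb, emb_ty] at h2
  rw [emb_ty] at hA'
  have w' : WG P D₀ (sub (fun x => er (σ x)) A :: D) := .cons w hA'.2
  exact W.refl (twn_wl hP) w' w (rn_nk w hk) (hM.msub w' h2) hW

/-- every type of the world has a name -/
theorem exists_name (w : World P D₀) {A : Term S} {s : S} (h : TyF P D₀ A (sort s)) :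
    ∃ k, D₀ k = A := by
  obtain ⟨k, _, hk⟩ := w.full A s h 0
  exact ⟨k, hk⟩

/-- **the identity environment**: every local context is mapped into the world by names -/
theorem exists_rn (w : World P D₀) {G : List (Term S)} (h : WG P D₀ G) :
    ∃ r, (∀ x, D₀ (r x) = ren r (cx D₀ G x)) ∧ Rn (wl P D₀) r G [] := by
  have hg : WG P D₀ [] := .nil w.good
  induction h with
  | nil _ =>
      have h1 : ∀ x, D₀ x = ren (fun i => i) (cx D₀ [] x) := fun x => (ren_id _).symm
      exact ⟨fun x => x, h1, rn_of_eq hg h1⟩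
  | @cons A G s hG hA ih =>
      obtain ⟨r, hr, hr'⟩ := ih
      have h0 : (wl P D₀).T G A (sort s) := ⟨hG, hA⟩
      have h1 : (wl P D₀).T [] (ren r A) (sort s) := tren h0 hg hr'
      obtain ⟨k, hk⟩ := exists_name w h1.2
      have h2 : ∀ x, D₀ (match x with | 0 => k | n + 1 => r n) =
          ren (fun x => match x with | 0 => k | n + 1 => r n) (cx D₀ (A :: G) x) := by
        intro x
        cases x with
        | zero =>
            rw [cx_cons, fcons_zero, Sub452.wk, ren_ren]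
            exact hk
        | succ x =>
            rw [cx_cons, fcons_succ, Sub452.wk, ren_ren]
            exact hr x
      exact ⟨fun x => match x with | 0 => k | n + 1 => r n, h2, rn_of_eq hg h2⟩

theorem ident_refl (hP : ∀ (Γ : List (Term S)) (M : Term S), Legal P Γ M → WN M)
    {G D : List (Term S)} {r : ℕ → ℕ} {i : ℕ} (wG : WG P D₀ G) (w : WG P D₀ D)
    (hr : Rn (wl P D₀) r G D) {M : MT S} (hM : MOk (wl P D₀) M G)
    (hW : W (wl P D₀) idx i D (msub (fun x => .var (r x)) M)) : W (wl P D₀) idx i G M := by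
  rw [← mren_eq_msub] at hW
  exact W.refl (twn_wl hP) wG w hr hM hW

theorem msb_of_rn {G D : List (Term S)} {r : ℕ → ℕ} (hr : Rn (wl P D₀) r G D) :
    MSb (wl P D₀) (fun x => .var (r x)) G D := ⟨hr, fun x B hB => ⟨_, hr x B hB⟩⟩

/-! ### the bridge to the assembly over the world -/

theorem mok_of_tmf {D : ℕ → Term S} {M : MT S} {A : Term S} (h : TMF P D M A) :
    ∀ {G : List (Term S)}, D = cx D₀ G → WG P D₀ G → MOk (wl P D₀) M G := by
  induction h with
  | var h =>
      rintro G rfl w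
      exact ⟨_, w, .var h⟩
  | sort a =>
      rintro G rfl w
      exact ⟨_, w, .ax a⟩
  | pi hA hB r ih ih' =>
      rintro G rfl w
      have w' : WG P D₀ (_ :: G) := .cons w hA.typed
      exact ⟨⟨_, w, .prod hA.typed hB.typed r⟩, ih rfl w, ih' rfl w'⟩
  | lam hA hM hp ih ih' =>
      rintro G rfl w
      have w' : WG P D₀ (_ :: G) := .cons w hA.typed
      exact ⟨⟨_, w, .abs hM.typed hp⟩, ih rfl w, ih' rfl w'⟩
  | app hM hN ih ih' =>
      rintro G rfl w
      exact ⟨⟨_, w, .appl hM.typed hN.typed⟩, ih rfl w, ih' rfl w⟩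
  | mem _ _ ih ih' =>
      rintro G rfl w
      exact ⟨ih rfl w, ih' rfl w⟩
  | conv _ _ _ ih =>
      rintro G rfl w
      exact ih rfl w

theorem nf_of_nff {k : ℕ} {M : MT S} : ∀ {G : List (Term S)}, MOk (wl P D₀) M G →
    NFF P idx k (cx D₀ G) M → NF (wl P D₀) idx k M G := by
  induction M with
  | var x => intro G _ _; trivial
  | sort s => intro G _ _; trivial
  | app F Q ihF ihQ =>
      rintro G ⟨⟨A, hA⟩, mF, mQ⟩ ⟨hF, hQ, hl⟩
      refine ⟨fun hi => ?_, ihF mF hF, ihQ mQ hQ⟩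
      obtain ⟨T, s, hT, ⟨T', e, hT'⟩, hk⟩ := hl hi
      exact ⟨T, ⟨hA.1, hT⟩, T', s, e, ⟨hA.1, hT'⟩, hk⟩
  | lam A M ihA ihM =>
      rintro G ⟨_, mA, mM⟩ ⟨h1, h2⟩
      exact ⟨ihA mA h1, ihM mM h2⟩
  | pi A M ihA ihM =>
      rintro G ⟨_, mA, mM⟩ ⟨h1, h2⟩
      exact ⟨ihA mA h1, ihM mM h2⟩
  | mem M N ihM ihN =>
      rintro G ⟨mM, mN⟩ ⟨h1, h2⟩
      exact ⟨ihM mM h1, ihN mN h2⟩

theorem nff_of_nf {k : ℕ} {M : MT S} : ∀ {G : List (Term S)},
    NF (wl P D₀) idx k M G → NFF P idx k (cx D₀ G) M := by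
  induction M with
  | var x => intro G _; trivial
  | sort s => intro G _; trivial
  | app F Q ihF ihQ =>
      rintro G ⟨hl, hF, hQ⟩
      refine ⟨ihF hF, ihQ hQ, fun hi => ?_⟩
      obtain ⟨T, hT, T', s, e, hT', hk⟩ := hl hi
      exact ⟨T, s, hT.2, ⟨T', e, hT'.2⟩, hk⟩
  | lam A M ihA ihM =>
      rintro G ⟨h1, h2⟩
      exact ⟨ihA h1, ihM h2⟩
  | pi A M ihA ihM =>
      rintro G ⟨h1, h2⟩
      exact ⟨ihA h1, ihM h2⟩
  | mem M N ihM ihN =>
      rintro G ⟨h1, h2⟩
      exact ⟨ihM h1, ihN h2⟩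

/-- `Cg` over the world list is `SigF` -/
theorem cg_iff {k : ℕ} {G : List (Term S)} {T : Term S} (w : WG P D₀ G) :
    Cg (wl P D₀) idx k G T ↔ ∃ s, SigF P (cx D₀ G) T s ∧ k ≤ idx s := by
  constructor
  · rintro ⟨T', s, e, h, hk⟩; exact ⟨s, ⟨T', e, h.2⟩, hk⟩
  · rintro ⟨s, ⟨T', e, h⟩, hk⟩; exact ⟨T', s, e, ⟨w, h⟩, hk⟩

end Crest.Agent.R298.Jw558
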