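import Crest.Agent.R298.Tw1_987
import Crest.Agent.R298.Scc_795

/-!
R298 (S0452), part P, helper705: the D-logic as a `Tw987.Logic`.

`wform R E n w X`: the type former of a coded walk `w` inside the component `Dd`
(`dom b : X ↦ X → R b`, `cod a : X ↦ E a → X`).  From the three truth laws of a maximal
(Henkin) context (`HenT`) we get the logic `logic : Logic P Δ` and the leaf converters `cv`.
-/

set_option autoImplicit false

namespace Crest.Agent.R298.LInst705

open Crest.LogicCS.PTS Crest.LogicCS.PTS.Term Relation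
open Crest.Agent.R298.Sub452 Crest.Agent.R298.Par452 Crest.Agent.R298.Ty452
open Crest.Agent.R298.TyF452 Crest.Agent.R298.Scc795 Crest.Agent.R298.Tw987

universe u
variable {S : Type u} {P : Spec S}

/-- steps of coded walks -/
inductive St (S : Type u) : Type u
  | dom (b : S)
  | cod (a : S)

/-- the type former of a coded walk -/
def wform (R E : S → Term S) (n : ℕ) : List (St S) → Term S → Term S
  | [], X => X
  | .dom b :: w, X => wform R E n w (pi X (lft (n + 1) (R b)))
  | .cod a :: w, X => wform R E n w (pi (lft n (E a)) (wk X))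

/-- coded signed walks inside `Dd` -/
inductive WL (P : Spec S) (Dd : Set S) : List (St S) → Bool → S → S → Prop
  | nil {x : S} : x ∈ Dd → WL P Dd [] true x x
  | dom {w : List (St S)} {s : Bool} {a b c d : S} : P.rule a b c → a ∈ Dd →
      WL P Dd w s c d → WL P Dd (.dom b :: w) (!s) a d
  | cod {w : List (St S)} {s : Bool} {a b c d : S} : P.rule a b c → b ∈ Dd →
      WL P Dd w s c d → WL P Dd (.cod a :: w) s b d

/-- types `Π x₁ … xₙ. R b` at depth `k` -/
inductive Stab (R : S → Term S) (Bs : Set S) : ℕ → Term S → Prop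
  | base (k : ℕ) (b : S) (hb : b ∈ Bs) : Stab R Bs k (lft k (R b))
  | pi (k : ℕ) (A B : Term S) : Stab R Bs (k + 1) B → Stab R Bs k (pi A B)

/-- codomain sorts of domain steps inside `Dd` -/
def Bs (P : Spec S) (Dd : Set S) : Set S := {b | ∃ a c, P.rule a b c ∧ a ∈ Dd ∧ c ∈ Dd}

theorem wform_sub (R E : S → Term S) {n m : ℕ} {σ : ℕ → Term S} (h : Base n m σ)
    (w : List (St S)) : ∀ X : Term S, sub σ (wform R E n w X) = wform R E m w (sub σ X) := by
  induction w with
  | nil => intro X; rfl
  | cons st w ih =>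
      intro X
      cases st with
      | dom b => simp only [wform, ih, sub_pi, h.ups.lft]
      | cod a => simp only [wform, ih, sub_pi, h.lft, sub_wk]

theorem wform_eq (R E : S → Term S) (n : ℕ) (w : List (St S)) : ∀ {X Y : Term S},
    BetaEq X Y → BetaEq (wform R E n w X) (wform R E n w Y) := by
  induction w with
  | nil => intro X Y h; exact h
  | cons st w ih =>
      intro X Y h
      cases st with
      | dom b => exact ih (BetaEq.pi h (.refl _))
      | cod a => exact ih (BetaEq.pi (.refl _) (BetaEq.ren h _))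

theorem rs1 {a b c : S} (h : P.rule a b c) : a ∈ RS P := ⟨a, b, c, h, .inl rfl⟩
theorem rs2 {a b c : S} (h : P.rule a b c) : b ∈ RS P := ⟨a, b, c, h, .inr (.inl rfl)⟩
theorem rs3 {a b c : S} (h : P.rule a b c) : c ∈ RS P := ⟨a, b, c, h, .inr (.inr rfl)⟩

/-- the truth laws of a maximal context over the atoms `R`, `E`, `e` -/
structure HenT (P : Spec S) (Dd : Set S) (R E e : S → Term S) (Δ : ℕ → Term S) : Prop where
  hR : ∀ b ∈ RS P, TyF P Δ (R b) (sort b)
  hE : ∀ a ∈ RS P, TyF P Δ (E a) (sort a)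
  he : ∀ a ∈ RS P, TyF P Δ (e a) (E a)
  tr_w : ∀ {w : List (St S)} {s : Bool} {x y : S} {X : Term S}, WL P Dd w s x y →
    TyF P Δ X (sort x) →
    ((∃ M, TyF P Δ M (wform R E 0 w X)) ↔ (s = true ↔ ∃ M, TyF P Δ M X))
  tr_imp : ∀ {a b c : S} {A B : Term S}, P.rule a b c → a ∈ Dd → b ∈ Dd → c ∈ Dd →
    TyF P Δ A (sort a) → TyF P Δ B (sort b) → Stab R (Bs P Dd) 0 B →
    ((∃ M, TyF P Δ M (pi A (wk B))) ↔ ((∃ M, TyF P Δ M A) → ∃ M, TyF P Δ M B))
  tr_all : ∀ {a b c : S} {A B : Term S}, P.rule a b c → b ∈ Dd → c ∈ Dd →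
    TyF P Δ A (sort a) → TyF P (fcons A Δ) B (sort b) → Stab R (Bs P Dd) 1 B →
    ((∃ M, TyF P Δ M (pi A B)) ↔ ∀ M, TyF P Δ M A → ∃ N, TyF P Δ N (inst M B))

section
variable {Dd : Set S} {R E e : S → Term S} {Δ : ℕ → Term S}

theorem wform_typed (hA : HenT P Dd R E e Δ) {n : ℕ} {D : ℕ → Term S} (hD : Ext Δ n D)
    {w : List (St S)} {s : Bool} {x y : S} (hw : WL P Dd w s x y) : ∀ {X : Term S},
    TyF P D X (sort x) → TyF P D (wform R E n w X) (sort y) := by
  induction hw with
  | nil _ => intro X h; exact h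
  | dom r _ _ ih =>
      intro X h
      exact ih (.prod h ((hD.cons X).ty (hA.hR _ (rs2 r))) r)
  | cod r _ _ ih =>
      intro X h
      exact ih (.prod (hD.ty (hA.hE _ (rs1 r))) (tyf_wk h _) r)

/-- the word contains a domain step -/
def HasDom (w : List (St S)) : Prop := ∃ b, St.dom b ∈ w

theorem hasDom_of_neg {w : List (St S)} {s : Bool} {x y : S} (hw : WL P Dd w s x y) :
    s = false → HasDom w := by
  induction hw with
  | nil _ => intro h; cases h
  | @dom w s a b c d r _ _ ih => intro _; exact ⟨b, List.mem_cons_self ..⟩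
  | cod r _ _ ih =>
      intro h
      obtain ⟨b, hb⟩ := ih h
      exact ⟨b, List.mem_cons_of_mem _ hb⟩

theorem HasDom.append_left {w w' : List (St S)} (h : HasDom w) : HasDom (w ++ w') := by
  obtain ⟨b, hb⟩ := h
  exact ⟨b, List.mem_append_left _ hb⟩

theorem Stab.ren {B : Set S} {k : ℕ} {X : Term S} (h : Stab R B k X) :
    ∀ {ρ : ℕ → ℕ} {m : ℕ}, (∀ i, ρ (i + k) = i + m) → Stab R B m (Sub452.ren ρ X) := by
  induction h with
  | base k b hb =>
      intro ρ m hρ
      have : Sub452.ren ρ (lft k (R b)) = lft m (R b) := by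
        simp only [lft, ren_ren]
        congr 1
        funext i
        exact hρ i
      rw [this]
      exact .base m b hb
  | pi k A B _ ih =>
      intro ρ m hρ
      refine .pi m _ _ (ih (m := m + 1) (ρ := up ρ) ?_)
      intro i
      show up ρ (i + k + 1) = _
      rw [up_succ, hρ i]; rfl

theorem WL.left {w : List (St S)} {s : Bool} {x y : S} (hw : WL P Dd w s x y) : x ∈ Dd := by
  cases hw with
  | nil h => exact h
  | dom _ h _ => exact h
  | cod _ h _ => exact h

theorem stab_of_walk {w : List (St S)} {s : Bool} {x y : S} (n : ℕ) (hw : WL P Dd w s x y) :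
    ∀ {X : Term S}, Stab R (Bs P Dd) n X → Stab R (Bs P Dd) n (wform R E n w X) := by
  induction hw with
  | nil _ => intro X h; exact h
  | dom r ha hw ih =>
      intro X _
      exact ih (.pi n _ _ (.base (n + 1) _ ⟨_, _, r, ha, hw.left⟩))
  | cod r _ _ ih =>
      intro X h
      exact ih (.pi n _ _ (h.ren (m := n + 1) (ρ := Nat.succ) (fun i => rfl)))

/-- a walk with a domain step produces stable types -/
theorem stab_wform {w : List (St S)} {s : Bool} {x y : S} (n : ℕ) (hw : WL P Dd w s x y) :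
    ∀ {X : Term S}, HasDom w → Stab R (Bs P Dd) n (wform R E n w X) := by
  induction hw with
  | nil _ => rintro X ⟨b, hb⟩; cases hb
  | dom r ha hw ih =>
      intro X _
      exact stab_of_walk n hw (.pi n _ _ (.base (n + 1) _ ⟨_, _, r, ha, hw.left⟩))
  | cod r _ _ ih =>
      rintro X ⟨b, hb⟩
      refine ih ?_
      cases hb with
      | tail _ hb => exact ⟨b, hb⟩

/-! ### walks -/

theorem exists_wl {s : Bool} {x y : S} (h : Walk P Dd s x y) : ∃ w, WL P Dd w s x y := by
  induction h with
  | nil h => exact ⟨[], .nil h⟩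
  | neg r h _ ih => obtain ⟨w, hw⟩ := ih; exact ⟨_, .dom r h hw⟩
  | pos r h _ ih => obtain ⟨w, hw⟩ := ih; exact ⟨_, .cod r h hw⟩

theorem WL.comp {w w' : List (St S)} {s t : Bool} {x y z : S}
    (h : WL P Dd w s x y) (h' : WL P Dd w' t y z) : WL P Dd (w ++ w') (s == t) x z := by
  induction h with
  | nil _ => simpa using h'
  | @dom w s' a b c d r ha _ ih =>
      have := WL.dom r ha (ih h')
      cases s' <;> cases t <;> exact this
  | cod r hb _ ih => exact WL.cod r hb (ih h')

/-- a positive walk with a domain step -/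
theorem exists_wl_pos (hD : IsScc P Dd) (hE : ¬ Even P Dd) {x y : S} (hx : x ∈ Dd)
    (hy : y ∈ Dd) : ∃ w, WL P Dd w true x y ∧ HasDom w := by
  obtain ⟨w, hw⟩ := exists_wl (hD.walk_both hE hx hy false)
  obtain ⟨w', hw'⟩ := exists_wl (hD.walk_both hE hy hy false)
  exact ⟨w ++ w', hw.comp hw', (hasDom_of_neg hw rfl).append_left⟩

end

end Crest.Agent.R298.LInst705
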