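import Crest.Agent.R298.LInst1_705

/-!
R298 (S0452), part P, helper705: the instance `logic : Tw987.Logic P Δ` of the truth laws `HenT`
for a bipolar strongly connected component, and the leaf converters.
-/

set_option autoImplicit false

namespace Crest.Agent.R298.LInst705

open Crest.LogicCS.PTS Crest.LogicCS.PTS.Term Relation
open Crest.Agent.R298.Sub452 Crest.Agent.R298.Par452 Crest.Agent.R298.Ty452
open Crest.Agent.R298.TyF452 Crest.Agent.R298.Scc795 Crest.Agent.R298.Tw987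

universe u
variable {S : Type u} {P : Spec S} {Dd : Set S} {R E e : S → Term S} {Δ : ℕ → Term S}

/-- sorts over whose types formulas quantify -/
def Bd (P : Spec S) (Dd : Set S) (d : S) : Prop := ∃ b c, P.rule d b c ∧ b ∈ Dd ∧ c ∈ Dd

/-- a positive coded walk with a domain step -/
noncomputable def pw (hD : IsScc P Dd) (hE : ¬ Even P Dd) {x y : S} (hx : x ∈ Dd) (hy : y ∈ Dd) :
    List (St S) := Classical.choose (exists_wl_pos hD hE hx hy)

theorem pw_wl (hD : IsScc P Dd) (hE : ¬ Even P Dd) {x y : S} (hx : x ∈ Dd) (hy : y ∈ Dd) :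
    WL P Dd (pw hD hE hx hy) true x y := (Classical.choose_spec (exists_wl_pos hD hE hx hy)).1

theorem pw_dom (hD : IsScc P Dd) (hE : ¬ Even P Dd) {x y : S} (hx : x ∈ Dd) (hy : y ∈ Dd) :
    HasDom (pw hD hE hx hy) := (Classical.choose_spec (exists_wl_pos hD hE hx hy)).2

/-- a negative coded walk -/
noncomputable def nw (hD : IsScc P Dd) (hE : ¬ Even P Dd) {x y : S} (hx : x ∈ Dd) (hy : y ∈ Dd) :
    List (St S) := Classical.choose (exists_wl (hD.walk_both hE hx hy false))

theorem nw_wl (hD : IsScc P Dd) (hE : ¬ Even P Dd) {x y : S} (hx : x ∈ Dd) (hy : y ∈ Dd) :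
    WL P Dd (nw hD hE hx hy) false x y :=
  Classical.choose_spec (exists_wl (hD.walk_both hE hx hy false))

theorem HenT.wform_conv {X Y : Term S} {s : S} (hX : TyF P Δ X (sort s)) (hY : TyF P Δ Y (sort s))
    (h : BetaEq X Y) : (∃ M, TyF P Δ M X) ↔ ∃ M, TyF P Δ M Y :=
  ⟨fun ⟨M, hM⟩ => ⟨M, .conv hM hY h⟩, fun ⟨M, hM⟩ => ⟨M, .conv hM hX (BetaEq.symm h)⟩⟩

/-- **the D-logic** -/
noncomputable def logic (H : HenT P Dd R E e Δ) (hD : IsScc P Dd) (hE : ¬ Even P Dd) {a₀ b₀ c₀ : S}
    (r₀ : P.rule a₀ b₀ c₀) (ha : a₀ ∈ Dd) (hb : b₀ ∈ Dd) (hc : c₀ ∈ Dd) : Logic P Δ where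
  o := c₀
  Tr X := ∃ M, TyF P Δ M X
  conv := HenT.wform_conv
  bot n := wform R E n (nw hD hE ha hc) (lft n (E a₀))
  bot_ty := fun {n D} h => wform_typed H h (nw_wl hD hE ha hc) (h.ty (H.hE _ (rs1 r₀)))
  bot_sub := fun {n m σ} h => by rw [wform_sub R E h, h.lft]
  bot_tr := by
    rw [lft_zero, H.tr_w (nw_wl hD hE ha hc) (H.hE _ (rs1 r₀))]
    intro h
    exact Bool.false_ne_true (h.2 ⟨_, H.he _ (rs1 r₀)⟩)
  imp n X Y := wform R E n (pw hD hE hc hc)
    (pi (wform R E n (pw hD hE hc ha) X) (wk (wform R E n (pw hD hE hc hb) Y)))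
  imp_ty := fun {n D X Y} h hX hY => wform_typed H h (pw_wl hD hE hc hc)
    (.prod (wform_typed H h (pw_wl hD hE hc ha) hX)
      (tyf_wk (wform_typed H h (pw_wl hD hE hc hb) hY) _) r₀)
  imp_sub := fun {n m σ} X Y h => by
    rw [wform_sub R E h, sub_pi, wform_sub R E h, sub_wk, wform_sub R E h]
  imp_tr := fun {X Y} hX hY => by
    have hX' := wform_typed H (Ext.zero Δ) (pw_wl hD hE hc ha) hX
    have hY' := wform_typed H (Ext.zero Δ) (pw_wl hD hE hc hb) hY
    have h1 := H.tr_w (pw_wl hD hE hc hc) (TyF.prod hX' (tyf_wk hY' _) r₀)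
    have h2 := H.tr_imp r₀ ha hb hc hX' hY' (stab_wform 0 (pw_wl hD hE hc hb) (pw_dom hD hE hc hb))
    have h3 := H.tr_w (pw_wl hD hE hc ha) hX
    have h4 := H.tr_w (pw_wl hD hE hc hb) hY
    simp only [true_iff] at h1 h3 h4
    rw [h1, h2, h3, h4]
  Bd := Bd P Dd
  all d n K Z := by
    classical
    exact if h : Bd P Dd d then
      wform R E n (pw hD hE (x := (Classical.choose_spec h).choose) (y := c₀)
        (Classical.choose_spec h).choose_spec.2.2 hc)
        (pi K (wform R E (n + 1) (pw hD hE (x := c₀) (y := Classical.choose h) hc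
          (Classical.choose_spec h).choose_spec.2.1) Z))
    else sort d
  all_ty := fun {d n D K Z} h hx hK hZ => by
    rw [dif_pos h]
    exact wform_typed H hx (pw_wl hD hE _ hc)
      (.prod hK (wform_typed H (hx.cons K) (pw_wl hD hE hc _) hZ)
        (Classical.choose_spec h).choose_spec.1)
  all_sub := fun {d n m σ} K Z h hs => by
    simp only [dif_pos h]
    rw [wform_sub R E hs, sub_pi, wform_sub R E hs.ups]
  all_tr := fun {d K Z} h hK hZ => by
    have hr := (Classical.choose_spec h).choose_spec.1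
    have hbd := (Classical.choose_spec h).choose_spec.2.1
    have hcd := (Classical.choose_spec h).choose_spec.2.2
    have hZ' := wform_typed H ((Ext.zero Δ).cons K) (pw_wl hD hE hc hbd) hZ
    have h1 := H.tr_w (pw_wl hD hE hcd hc) (TyF.prod hK hZ' hr)
    have h2 := H.tr_all hr hbd hcd hK hZ'
      (stab_wform 1 (pw_wl hD hE hc hbd) (pw_dom hD hE hc hbd))
    simp only [true_iff] at h1
    simp only [dif_pos h]
    rw [h1, h2]
    refine forall_congr' fun M => forall_congr' fun hM => ?_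
    have h3 := H.tr_w (X := inst M Z) (pw_wl hD hE hc hbd) (tyf_inst' (B := sort c₀) hZ hM)
    simp only [true_iff] at h3
    rw [← h3]
    show (∃ N, TyF P Δ N (sub (scons M var) _)) ↔ _
    rw [wform_sub R E (Base.inst 0 M)]

/-- **leaf converters** -/
noncomputable def cv (H : HenT P Dd R E e Δ) (hD : IsScc P Dd) (hE : ¬ Even P Dd) {a₀ b₀ c₀ : S}
    (r₀ : P.rule a₀ b₀ c₀) (ha : a₀ ∈ Dd) (hb : b₀ ∈ Dd) (hc : c₀ ∈ Dd) {s : S} (hs : s ∈ Dd) :
    Cv (logic H hD hE r₀ ha hb hc) s where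
  fwd n X := wform R E n (pw hD hE hc hs) X
  bwd n X := wform R E n (pw hD hE hs hc) X
  fwd_ty := fun h hX => wform_typed H h (pw_wl hD hE hc hs) hX
  bwd_ty := fun h hX => wform_typed H h (pw_wl hD hE hs hc) hX
  fwd_sub := fun X h => wform_sub R E h _ X
  bwd_sub := fun X h => wform_sub R E h _ X
  bwd_eq := fun n _ _ h => wform_eq R E n _ h
  law := fun {X} hX => by
    have hX' := wform_typed H (Ext.zero Δ) (pw_wl hD hE hc hs) hX
    have h1 := H.tr_w (pw_wl hD hE hs hc) hX'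
    have h2 := H.tr_w (pw_wl hD hE hc hs) hX
    simp only [true_iff] at h1 h2
    exact h1.trans h2

end Crest.Agent.R298.LInst705
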