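import Crest.Agent.R298.Jd_961
import Crest.Agent.R298.Mem_360

/-!
R298 (S0452), helper961: legality `MOk` of memory terms over an abstract judgement, classes `Cg`,
the normal form predicates `NF k` (all redexes have class at least `k`), the weak normalisation
sets `W k` and the neutral terms `Ne k`.
-/

set_option autoImplicit false

namespace Crest.Agent.R298.MW961

open Crest.LogicCS.PTS Crest.LogicCS.PTS.Term Relation
open Crest.Agent.R298.Sub452 Crest.Agent.R298.Par452 Crest.Agent.R298.Mem360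
open Crest.Agent.R298.Mem360.MT Crest.Agent.R298.Jd961 Crest.Agent.R298.Jd961.Jd

universe u v

variable {S : Type u} {P : Spec S} {C : Type v} (J : Jd P C) (idx : S → ℕ)

/-- the type `T` has class at least `k` in the context `G` -/
def Cg (k : ℕ) (G : C) (T : Term S) : Prop :=
  ∃ T' s, BetaEq T T' ∧ J.T G T' (.sort s) ∧ k ≤ idx s

/-- `T` is a sort or typed by a sort -/
def TyOk (G : C) (T : Term S) : Prop := (∃ s, T = .sort s) ∨ ∃ s, J.T G T (.sort s)

/-- legal memory terms -/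
def MOk : MT S → C → Prop
  | .var x, G => ∃ A, J.T G (.var x) A
  | .sort s, G => ∃ A, J.T G (.sort s) A
  | .app F Q, G => (∃ A, J.T G (.app (er F) (er Q)) A) ∧ MOk F G ∧ MOk Q G
  | .lam A M, G => (∃ D, J.T G (.lam (er A) (er M)) D) ∧ MOk A G ∧ MOk M (J.cons (er A) G)
  | .pi A M, G => (∃ D, J.T G (.pi (er A) (er M)) D) ∧ MOk A G ∧ MOk M (J.cons (er A) G)
  | .mem M N, G => MOk M G ∧ MOk N G

/-- every redex has class at least `k` -/
def NF (k : ℕ) : MT S → C → Prop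
  | .var _, _ => True
  | .sort _, _ => True
  | .app F Q, G => (IsL F → ∃ T, J.T G (er F) T ∧ Cg J idx k G T) ∧ NF k F G ∧ NF k Q G
  | .lam A M, G => NF k A G ∧ NF k M (J.cons (er A) G)
  | .pi A M, G => NF k A G ∧ NF k M (J.cons (er A) G)
  | .mem M N, G => NF k M G ∧ NF k N G

/-- weakly normalising up to redexes of class at least `k` -/
def W (k : ℕ) (G : C) (v : MT S) : Prop := ∃ v', MRed v v' ∧ NF J idx k v' G

/-- neutral terms -/
inductive Ne (k : ℕ) (G : C) : MT S → Prop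
  | var (x : ℕ) : Ne k G (.var x)
  | app {F Q : MT S} : Ne k G F → W J idx k G Q → Ne k G (.app F Q)
  | mem {F N : MT S} : Ne k G F → W J idx k G N → Ne k G (.mem F N)

variable {J idx}

/-! ### classes -/

theorem Cg.conv {k : ℕ} {G : C} {T T' : Term S} (h : Cg J idx k G T) (e : BetaEq T T') :
    Cg J idx k G T' := by
  obtain ⟨T0, s, e0, h0, hs⟩ := h
  exact ⟨T0, s, BetaEq.trans (BetaEq.symm e) e0, h0, hs⟩

theorem Cg.mono {k l : ℕ} {G : C} {T : Term S} (h : Cg J idx k G T) (hl : l ≤ k) :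
    Cg J idx l G T := by
  obtain ⟨T0, s, e0, h0, hs⟩ := h
  exact ⟨T0, s, e0, h0, hl.trans hs⟩

theorem Cg.sub {k : ℕ} {G D : C} {T : Term S} (h : Cg J idx k G T) {σ : ℕ → Term S}
    (w : J.Wf D) (hs : Sb J σ G D) : Cg J idx k D (sub σ T) := by
  obtain ⟨T0, s, e0, h0, hk⟩ := h
  exact ⟨Sub452.sub σ T0, s, BetaEq.sub e0 σ, J.tsub h0 w hs, hk⟩

theorem Cg.ren {k : ℕ} {G D : C} {T : Term S} (h : Cg J idx k G T) {r : ℕ → ℕ}
    (w : J.Wf D) (hs : Sb J (fun x => .var (r x)) G D) : Cg J idx k D (ren r T) := by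
  rw [ren_eq_sub]; exact h.sub w hs

/-- class of a product: class of the components -/
theorem Cg.of_pi {k : ℕ} {G : C} {T A B : Term S} (hrule : ∀ a b c, P.rule a b c →
    idx c ≤ idx a ∧ idx c ≤ idx b) (w : J.Wf G) (h : Cg J idx k G T) (e : BetaEq T (.pi A B))
    {s : S} (hA : J.T G A (.sort s)) : Cg J idx k G A ∧ Cg J idx k (J.cons A G) B := by
  obtain ⟨T0, t, e0, h0, hk⟩ := h
  obtain ⟨A1, B1, r1, eA, eB⟩ := red_of_eq_pi (BetaEq.trans (BetaEq.symm e0) e)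
  have h1 := J.sr h0 r1
  obtain ⟨s₁, s₂, s₃, hA1, hB1, hr, e3⟩ := J.gen_pi h1
  have := sort_inj e3
  subst this
  obtain ⟨k1, k2⟩ := hrule _ _ _ hr
  exact ⟨⟨A1, s₁, Red.eq eA, hA1, hk.trans k1⟩,
    ⟨B1, s₂, Red.eq eB, ctx_conv w hB1 hA1 hA (BetaEq.symm (Red.eq eA)), hk.trans k2⟩⟩

/-! ### legality -/

theorem dom_pi {G : C} {A B D : Term S} (h : J.T G (.pi A B) D) : ∃ s, J.T G A (.sort s) := by
  obtain ⟨s₁, _, _, hA, _⟩ := J.gen_pi h
  exact ⟨s₁, hA⟩

theorem dom_lam {G : C} {A B D : Term S} (h : J.T G (.lam A B) D) : ∃ s, J.T G A (.sort s) := by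
  obtain ⟨_, _, _, h', _⟩ := J.gen_lam h
  exact dom_pi h'

theorem sb_up {G D : C} {r : ℕ → ℕ} (h : Sb J (fun x => .var (r x)) G D) (w : J.Wf D)
    {A : Term S} {s : S} (hA : J.T D (ren r A) (.sort s)) :
    Sb J (fun x => .var (up r x)) (J.cons A G) (J.cons (ren r A) D) := by
  rw [ren_eq_sub] at hA ⊢
  have := sb_ups h w hA
  rwa [ups_ren] at this

theorem MOk.typed {M : MT S} {G : C} (h : MOk J M G) : ∃ A, J.T G (er M) A := by
  induction M with
  | var x => exact h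
  | sort s => exact h
  | app F Q _ _ => exact h.1
  | lam A M _ _ => exact h.1
  | pi A M _ _ => exact h.1
  | mem M N ih _ => exact ih h.1

theorem MOk.mren {M : MT S} {G D : C} {r : ℕ → ℕ} (h : MOk J M G) (w : J.Wf D)
    (hr : Sb J (fun x => .var (r x)) G D) : MOk J (mren r M) D := by
  induction M generalizing G D r with
  | var x =>
      obtain ⟨A, hA⟩ := h
      exact ⟨_, tren hA w hr⟩
  | sort s =>
      obtain ⟨A, hA⟩ := h
      exact ⟨_, tren hA w hr⟩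
  | app F Q h1 h2 =>
      obtain ⟨⟨A, hA⟩, hF, hQ⟩ := h
      refine ⟨⟨ren r A, ?_⟩, h1 hF w hr, h2 hQ w hr⟩
      rw [er_mren, er_mren]; exact tren hA w hr
  | lam A M h1 h2 =>
      obtain ⟨⟨D', hD⟩, hA, hM⟩ := h
      obtain ⟨s, hs⟩ := dom_lam hD
      have hs' := tren hs w hr
      refine ⟨⟨ren r D', ?_⟩, h1 hA w hr, ?_⟩
      · rw [er_mren, er_mren]; exact tren hD w hr
      · rw [er_mren]
        exact h2 hM (J.wf_cons w hs') (sb_up hr w hs')
  | pi A M h1 h2 =>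
      obtain ⟨⟨D', hD⟩, hA, hM⟩ := h
      obtain ⟨s, hs⟩ := dom_pi hD
      have hs' := tren hs w hr
      refine ⟨⟨ren r D', ?_⟩, h1 hA w hr, ?_⟩
      · rw [er_mren, er_mren]; exact tren hD w hr
      · rw [er_mren]
        exact h2 hM (J.wf_cons w hs') (sb_up hr w hs')
  | mem M N h1 h2 => exact ⟨h1 h.1 w hr, h2 h.2 w hr⟩

theorem MOk.conv {M : MT S} {G D : C} (h : MOk J M G) (w : J.Wf D) (hr : Sb J .var G D) :
    MOk J M D := by
  have := h.mren (r := fun x => x) w hr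
  rwa [mren_id] at this

theorem MOk.wk {M : MT S} {G : C} (h : MOk J M G) (w : J.Wf G) {A : Term S} {s : S}
    (hA : J.T G A (.sort s)) : MOk J (mwk M) (J.cons A G) :=
  h.mren (J.wf_cons w hA) (sb_wk w hA)

/-- typed substitutions of legal memory terms -/
def MSb (J : Jd P C) (σ : ℕ → MT S) (G D : C) : Prop :=
  Sb J (fun x => er (σ x)) G D ∧ ∀ x B, J.Dc G x B → MOk J (σ x) D

theorem MSb.ups {σ : ℕ → MT S} {G D : C} (h : MSb J σ G D) (w : J.Wf D) {A : MT S} {s : S}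
    (hA : J.T D (er (msub σ A)) (.sort s)) :
    MSb J (mups σ) (J.cons (er A) G) (J.cons (er (msub σ A)) D) := by
  refine ⟨?_, ?_⟩
  · rw [er_mups, er_msub]
    rw [er_msub] at hA
    exact sb_ups h.1 w hA
  · intro x B hB
    cases x with
    | zero => exact ⟨_, J.tvar (J.wf_cons w hA) (J.dc_zero.2 rfl)⟩
    | succ x =>
        obtain ⟨B', hB', -⟩ := J.dc_succ.1 hB
        exact (h.2 _ _ hB').wk w hA

theorem MOk.msub {M : MT S} {G D : C} {σ : ℕ → MT S} (h : MOk J M G) (w : J.Wf D)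
    (hs : MSb J σ G D) : MOk J (msub σ M) D := by
  induction M generalizing G D σ with
  | var x =>
      obtain ⟨A, hA⟩ := h
      obtain ⟨B, hB, -⟩ := J.gen_var hA
      exact hs.2 _ _ hB
  | sort s =>
      obtain ⟨A, hA⟩ := h
      exact ⟨_, J.tsub hA w hs.1⟩
  | app F Q h1 h2 =>
      obtain ⟨⟨A, hA⟩, hF, hQ⟩ := h
      refine ⟨⟨sub (fun x => er (σ x)) A, ?_⟩, h1 hF w hs, h2 hQ w hs⟩
      rw [er_msub, er_msub]; exact J.tsub hA w hs.1
  | lam A M h1 h2 =>
      obtain ⟨⟨D', hD⟩, hA, hM⟩ := h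
      obtain ⟨s, hs0⟩ := dom_lam hD
      have hs' := J.tsub hs0 w hs.1
      rw [sub_sort, ← er_msub] at hs'
      refine ⟨⟨sub (fun x => er (σ x)) D', ?_⟩, h1 hA w hs, ?_⟩
      · have := J.tsub hD w hs.1
        rw [sub_lam, ← er_msub, ← er_mups, ← er_msub] at this
        exact this
      · exact h2 hM (J.wf_cons w hs') (hs.ups w hs')
  | pi A M h1 h2 =>
      obtain ⟨⟨D', hD⟩, hA, hM⟩ := h
      obtain ⟨s, hs0⟩ := dom_pi hD
      have hs' := J.tsub hs0 w hs.1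
      rw [sub_sort, ← er_msub] at hs'
      refine ⟨⟨sub (fun x => er (σ x)) D', ?_⟩, h1 hA w hs, ?_⟩
      · have := J.tsub hD w hs.1
        rw [sub_pi, ← er_msub, ← er_mups, ← er_msub] at this
        exact this
      · exact h2 hM (J.wf_cons w hs') (hs.ups w hs')
  | mem M N h1 h2 => exact ⟨h1 h.1 w hs, h2 h.2 w hs⟩

/-- legality of a contractum -/
theorem MOk.dist {F Q R : MT S} {G : C} (hd : dist F Q = some R) (hF : MOk J F G)
    (hQ : MOk J Q G) (w : J.Wf G) {A B : Term S} (h1 : J.T G (er F) (.pi A B))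
    (h2 : J.T G (er Q) A) : MOk J R G := by
  induction F generalizing R with
  | lam A' P' _ _ =>
      rw [dist_lam, Option.some.injEq] at hd
      subst hd
      obtain ⟨-, hA', hP'⟩ := hF
      refine ⟨⟨?_, hQ⟩, hA'⟩
      obtain ⟨B', s, hb, hp, e⟩ := J.gen_lam h1
      obtain ⟨e1, -⟩ := pi_inj e
      obtain ⟨s', hs'⟩ := dom_pi hp
      have h3 : J.T G (er Q) (er A') := J.tconv h2 hs' e1
      refine hP'.msub w ⟨?_, ?_⟩
      · rw [er_mscons]
        exact sb_scons (sb_var w) (by rwa [sub_id])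
      · intro x B hB
        cases x with
        | zero => exact hQ
        | succ x =>
            obtain ⟨B', hB', -⟩ := J.dc_succ.1 hB
            exact ⟨_, J.tvar w hB'⟩
  | mem F N ih _ =>
      rw [dist_mem, Option.map_eq_some_iff] at hd
      obtain ⟨R', hR', rfl⟩ := hd
      exact ⟨ih hR' hF.1 h1, hF.2⟩
  | var i => simp at hd
  | sort s => simp at hd
  | app M N _ _ => simp at hd
  | pi M N _ _ => simp at hd

theorem er_step_red {M M' : MT S} (h : MStep M M') : Red (er M) (er M') := by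
  rcases er_step h with h | h
  · rw [h]
  · exact .single h

theorem MOk.step {M M' : MT S} {G : C} (h : MOk J M G) (w : J.Wf G) (r : MStep M M') :
    MOk J M' G := by
  induction r generalizing G with
  | @beta F Q R hd =>
      obtain ⟨⟨A, hA⟩, hF, hQ⟩ := h
      obtain ⟨A', B', h1, h2, -⟩ := J.gen_app hA
      exact hF.dist hd hQ w h1 h2
  | @appL M M' N r ih =>
      obtain ⟨⟨A, hA⟩, hF, hQ⟩ := h
      exact ⟨⟨A, J.sr hA (Red.app (er_step_red r) .refl)⟩, ih hF w, hQ⟩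
  | @appR M N N' r ih =>
      obtain ⟨⟨A, hA⟩, hF, hQ⟩ := h
      exact ⟨⟨A, J.sr hA (Red.app .refl (er_step_red r))⟩, hF, ih hQ w⟩
  | @lamA A A' M r ih =>
      obtain ⟨⟨D, hD⟩, hA, hM⟩ := h
      obtain ⟨s, hs⟩ := dom_lam hD
      have hs' := J.sr hs (er_step_red r)
      exact ⟨⟨D, J.sr hD (Red.lam (er_step_red r) .refl)⟩, ih hA w,
        hM.conv (J.wf_cons w hs') (sb_conv w hs hs' (Red.eq (er_step_red r)))⟩
  | @lamM A M M' r ih =>
      obtain ⟨⟨D, hD⟩, hA, hM⟩ := h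
      obtain ⟨s, hs⟩ := dom_lam hD
      exact ⟨⟨D, J.sr hD (Red.lam .refl (er_step_red r))⟩, hA, ih hM (J.wf_cons w hs)⟩
  | @piA A A' M r ih =>
      obtain ⟨⟨D, hD⟩, hA, hM⟩ := h
      obtain ⟨s, hs⟩ := dom_pi hD
      have hs' := J.sr hs (er_step_red r)
      exact ⟨⟨D, J.sr hD (Red.pi (er_step_red r) .refl)⟩, ih hA w,
        hM.conv (J.wf_cons w hs') (sb_conv w hs hs' (Red.eq (er_step_red r)))⟩
  | @piB A M M' r ih =>
      obtain ⟨⟨D, hD⟩, hA, hM⟩ := h
      obtain ⟨s, hs⟩ := dom_pi hD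
      exact ⟨⟨D, J.sr hD (Red.pi .refl (er_step_red r))⟩, hA, ih hM (J.wf_cons w hs)⟩
  | memP N _ ih => exact ⟨ih h.1 w, h.2⟩
  | memN P _ ih => exact ⟨h.1, ih h.2 w⟩

theorem MOk.red {M M' : MT S} {G : C} (h : MOk J M G) (w : J.Wf G) (r : MRed M M') :
    MOk J M' G := by
  induction r with
  | refl => exact h
  | tail _ r ih => exact ih.step w r

/-! ### the normal form predicates -/

theorem isL_mren {F : MT S} {r : ℕ → ℕ} : IsL (mren r F) ↔ IsL F := by
  induction F with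
  | lam A P _ _ => exact Iff.rfl
  | mem F N ih _ => exact ih
  | var i => exact Iff.rfl
  | sort s => exact Iff.rfl
  | app M N _ _ => exact Iff.rfl
  | pi M N _ _ => exact Iff.rfl

theorem NF.mren {k : ℕ} {M : MT S} {G D : C} {r : ℕ → ℕ} (h : NF J idx k M G) (hM : MOk J M G)
    (w : J.Wf D) (hr : Sb J (fun x => .var (r x)) G D) : NF J idx k (mren r M) D := by
  induction M generalizing G D r with
  | var x => trivial
  | sort s => trivial
  | app F Q h1 h2 =>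
      obtain ⟨hl, hF, hQ⟩ := h
      obtain ⟨-, mF, mQ⟩ := hM
      refine ⟨?_, h1 hF mF w hr, h2 hQ mQ w hr⟩
      intro hi
      obtain ⟨T, hT, hk⟩ := hl (isL_mren.1 hi)
      exact ⟨ren r T, by rw [er_mren]; exact tren hT w hr, hk.ren w hr⟩
  | lam A M h1 h2 =>
      obtain ⟨⟨D', hD⟩, mA, mM⟩ := hM
      obtain ⟨s, hs⟩ := dom_lam hD
      have hs' := tren hs w hr
      refine ⟨h1 h.1 mA w hr, ?_⟩
      rw [er_mren]
      exact h2 h.2 mM (J.wf_cons w hs') (sb_up hr w hs')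
  | pi A M h1 h2 =>
      obtain ⟨⟨D', hD⟩, mA, mM⟩ := hM
      obtain ⟨s, hs⟩ := dom_pi hD
      have hs' := tren hs w hr
      refine ⟨h1 h.1 mA w hr, ?_⟩
      rw [er_mren]
      exact h2 h.2 mM (J.wf_cons w hs') (sb_up hr w hs')
  | mem M N h1 h2 => exact ⟨h1 h.1 hM.1 w hr, h2 h.2 hM.2 w hr⟩

theorem NF.conv {k : ℕ} {M : MT S} {G D : C} (h : NF J idx k M G) (hM : MOk J M G) (w : J.Wf D)
    (hr : Sb J .var G D) : NF J idx k M D := by
  have := h.mren (r := fun x => x) hM w hr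
  rwa [mren_id] at this

/-- `NF 0` holds for all legal terms -/
theorem NF.zero {M : MT S} {G : C} (hM : MOk J M G) : NF J idx 0 M G := by
  induction M generalizing G with
  | var x => trivial
  | sort s => trivial
  | app F Q h1 h2 =>
      obtain ⟨⟨A, hA⟩, mF, mQ⟩ := hM
      refine ⟨fun _ => ?_, h1 mF, h2 mQ⟩
      obtain ⟨A', B', hF, -⟩ := J.gen_app hA
      obtain ⟨s, hs⟩ := pi_typed hF
      exact ⟨_, hF, _, s, BetaEq.refl _, hs, Nat.zero_le _⟩
  | lam A M h1 h2 => exact ⟨h1 hM.2.1, h2 hM.2.2⟩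
  | pi A M h1 h2 => exact ⟨h1 hM.2.1, h2 hM.2.2⟩
  | mem M N h1 h2 => exact ⟨h1 hM.1, h2 hM.2⟩

/-- `NF k` for large `k` is normality -/
theorem NF.normal {k : ℕ} {M : MT S} {G : C} (h : NF J idx k M G) (hk : ∀ s, idx s < k) :
    MNormal M := by
  intro N hN
  induction hN generalizing G with
  | beta hd =>
      obtain ⟨T, -, T', s, -, -, h3⟩ := h.1 (isL_of_dist hd)
      have := hk s
      omega
  | appL N _ ih => exact ih h.2.1
  | appR M _ ih => exact ih h.2.2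
  | lamA M _ ih => exact ih h.1
  | lamM A _ ih => exact ih h.2
  | piA M _ ih => exact ih h.1
  | piB A _ ih => exact ih h.2
  | memP N _ ih => exact ih h.1
  | memN P _ ih => exact ih h.2

/-! ### weak normalisation sets and neutral terms -/

theorem W.expand {k : ℕ} {G : C} {v v' : MT S} (r : MRed v v') (h : W J idx k G v') :
    W J idx k G v := by
  obtain ⟨u, ru, hu⟩ := h
  exact ⟨u, r.trans ru, hu⟩

theorem W.mren {k : ℕ} {G D : C} {v : MT S} {r : ℕ → ℕ} (h : W J idx k G v) (hv : MOk J v G)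
    (wG : J.Wf G) (w : J.Wf D) (hr : Sb J (fun x => .var (r x)) G D) :
    W J idx k D (mren r v) := by
  obtain ⟨u, ru, hu⟩ := h
  exact ⟨_, ru.mren r, hu.mren (hv.red wG ru) w hr⟩

theorem W.conv {k : ℕ} {G D : C} {v : MT S} (h : W J idx k G v) (hv : MOk J v G)
    (wG : J.Wf G) (w : J.Wf D) (hr : Sb J .var G D) : W J idx k D v := by
  have := h.mren (r := fun x => x) hv wG w hr
  rwa [mren_id] at this

theorem W.sort {k : ℕ} {G : C} (s : S) : W J idx k G (.sort s) := ⟨_, .refl, trivial⟩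

theorem W.var {k : ℕ} {G : C} (x : ℕ) : W J idx k G (.var x) := ⟨_, .refl, trivial⟩

theorem W.mem {k : ℕ} {G : C} {v n : MT S} (h : W J idx k G v) (h' : W J idx k G n) :
    W J idx k G (.mem v n) := by
  obtain ⟨u, ru, hu⟩ := h
  obtain ⟨m, rm, hm⟩ := h'
  exact ⟨_, MRed.mem ru rm, hu, hm⟩

theorem W.lam {k : ℕ} {G : C} {A M : MT S} (h : W J idx k G A)
    (h' : W J idx k (J.cons (er A) G) M) (hM : MOk J (.lam A M) G) (w : J.Wf G) :
    W J idx k G (.lam A M) := by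
  obtain ⟨A', rA, hA⟩ := h
  obtain ⟨M', rM, hM'⟩ := h'
  obtain ⟨⟨D, hD⟩, mA, mM⟩ := hM
  obtain ⟨s, hs⟩ := dom_lam hD
  have hs' := J.sr hs (er_red rA)
  have w' := J.wf_cons w hs
  exact ⟨_, MRed.lam rA rM, hA, hM'.conv (mM.red w' rM) (J.wf_cons w hs')
    (sb_conv w hs hs' (Red.eq (er_red rA)))⟩

theorem W.pi {k : ℕ} {G : C} {A M : MT S} (h : W J idx k G A)
    (h' : W J idx k (J.cons (er A) G) M) (hM : MOk J (.pi A M) G) (w : J.Wf G) :
    W J idx k G (.pi A M) := by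
  obtain ⟨A', rA, hA⟩ := h
  obtain ⟨M', rM, hM'⟩ := h'
  obtain ⟨⟨D, hD⟩, mA, mM⟩ := hM
  obtain ⟨s, hs⟩ := dom_pi hD
  have hs' := J.sr hs (er_red rA)
  have w' := J.wf_cons w hs
  exact ⟨_, MRed.pi rA rM, hA, hM'.conv (mM.red w' rM) (J.wf_cons w hs')
    (sb_conv w hs hs' (Red.eq (er_red rA)))⟩

theorem W.app_high {k : ℕ} {G : C} {F Q : MT S} {T : Term S} (h : W J idx k G F)
    (h' : W J idx k G Q) (hT : J.T G (er F) T) (hk : Cg J idx k G T) :
    W J idx k G (.app F Q) := by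
  obtain ⟨F', rF, hF⟩ := h
  obtain ⟨Q', rQ, hQ⟩ := h'
  exact ⟨_, MRed.app rF rQ, fun _ => ⟨T, J.sr hT (er_red rF), hk⟩, hF, hQ⟩

theorem Ne.nf {k : ℕ} {G : C} {F : MT S} (h : Ne J idx k G F) :
    ∃ F', MRed F F' ∧ NF J idx k F' G ∧ ¬ IsL F' := by
  induction h with
  | var x => exact ⟨_, .refl, trivial, fun h => h⟩
  | app _ hQ ih =>
      obtain ⟨F', rF, hF, nF⟩ := ih
      obtain ⟨Q', rQ, hQ'⟩ := hQ
      exact ⟨_, MRed.app rF rQ, ⟨fun h => (nF h).elim, hF, hQ'⟩, fun h => h⟩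
  | mem _ hN ih =>
      obtain ⟨F', rF, hF, nF⟩ := ih
      obtain ⟨N', rN, hN'⟩ := hN
      exact ⟨_, MRed.mem rF rN, ⟨hF, hN'⟩, nF⟩

theorem Ne.w {k : ℕ} {G : C} {F : MT S} (h : Ne J idx k G F) : W J idx k G F := by
  obtain ⟨F', r, hF, -⟩ := h.nf
  exact ⟨F', r, hF⟩

theorem Ne.mren {k : ℕ} {G D : C} {v : MT S} {r : ℕ → ℕ} (h : Ne J idx k G v) (hv : MOk J v G)
    (wG : J.Wf G) (w : J.Wf D) (hr : Sb J (fun x => .var (r x)) G D) :
    Ne J idx k D (mren r v) := by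
  induction h with
  | var x => exact .var _
  | app _ hQ ih => exact .app (ih hv.2.1) (hQ.mren hv.2.2 wG w hr)
  | mem _ hN ih => exact .mem (ih hv.1) (hN.mren hv.2 wG w hr)

end Crest.Agent.R298.MW961
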