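import Crest.Agent.R298.Fl2_113
import Crest.Agent.R298.Uniq_452

/-!
R298 (S0452), helper254: MODES of closed types over a world `W` (function context), the
conversion-invariant layer between Theorem F (`Fl2_113`) and the evaluation.

`Rl P D W T`   (113): some codomain-instance chain of `T` ends in a sort of `D` (relevance).
`Tame P D W T` (113): every relevant domain of every codomain-instance descendant is tame.
`CT P W T`     : `T` has a sort (up to conversion), i.e. `T` is a closed type.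
`SgT P D W T e`: `T` has a sort reading `t` with sign `Fl113.Sg P D t e`.
`mode`         : dead / small / neg / pos, conversion invariant, with its closure laws.
-/

set_option autoImplicit false

namespace Crest.Agent.R298.Md254

open Crest.LogicCS.PTS Crest.LogicCS.PTS.Term Relation
open Crest.Agent.R298.Sub452 Crest.Agent.R298.Par452 Crest.Agent.R298.Ty452
open Crest.Agent.R298.TyF452
open Crest.Agent.R298.Fl113 (RelS Fat Cs Rl Tame css_red)

universe u
variable {S : Type u} {P : Spec S} {D : Set S} {W : ℕ → Term S}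

/-! ### conversion invariance -/

theorem rl_conv (w : WfF P W) {T T' : Term S} (h : Rl P D W T) (e : BetaEq T T') :
    Rl P D W T' := by
  obtain ⟨Q, q1, q2⟩ := betaEq_iff.1 e
  exact (h.red w q1).of_red q2

theorem rl_iff (w : WfF P W) {T T' : Term S} (e : BetaEq T T') : Rl P D W T ↔ Rl P D W T' :=
  ⟨fun h => rl_conv w h e, fun h => rl_conv w h (BetaEq.symm e)⟩

theorem tame_conv (w : WfF P W) {T T' : Term S} (h : Tame P D W T) (e : BetaEq T T') :
    Tame P D W T' := by
  obtain ⟨Q, q1, q2⟩ := betaEq_iff.1 e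
  exact (h.red q1).of_red w q2

theorem tame_iff (w : WfF P W) {T T' : Term S} (e : BetaEq T T') :
    Tame P D W T ↔ Tame P D W T' :=
  ⟨fun h => tame_conv w h e, fun h => tame_conv w h (BetaEq.symm e)⟩

/-- closed types: terms with a sort, up to conversion -/
def CT (P : Spec S) (W : ℕ → Term S) (T : Term S) : Prop := ∃ t, Uniq452.Sg P W T t

/-- `T` has a sort reading with sign `e` (`true` = the `D`-bound colour) -/
def SgT (P : Spec S) (D : Set S) (W : ℕ → Term S) (T : Term S) (e : Bool) : Prop :=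
  ∃ t, Uniq452.Sg P W T t ∧ Fl113.Sg P D t e

theorem CT.of {T : Term S} {t : S} (h : TyF P W T (sort t)) : CT P W T := ⟨t, .of h⟩

theorem CT.conv {T T' : Term S} (h : CT P W T) (e : BetaEq T T') : CT P W T' := by
  obtain ⟨t, h⟩ := h
  exact ⟨t, h.conv (BetaEq.symm e)⟩

theorem ct_iff {T T' : Term S} (e : BetaEq T T') : CT P W T ↔ CT P W T' :=
  ⟨fun h => h.conv e, fun h => h.conv (BetaEq.symm e)⟩

theorem SgT.conv {T T' : Term S} {e : Bool} (h : SgT P D W T e) (e' : BetaEq T T') :
    SgT P D W T' e := by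
  obtain ⟨t, h1, h2⟩ := h
  exact ⟨t, h1.conv (BetaEq.symm e'), h2⟩

theorem sgT_iff {T T' : Term S} {e : Bool} (h : BetaEq T T') :
    SgT P D W T e ↔ SgT P D W T' e :=
  ⟨fun k => k.conv h, fun k => k.conv (BetaEq.symm h)⟩

theorem SgT.ct {T : Term S} {e : Bool} (h : SgT P D W T e) : CT P W T := by
  obtain ⟨t, h1, _⟩ := h
  exact ⟨t, h1⟩

/-- sort readings of the parts of a closed product (literal parts) -/
theorem sg_pi (w : WfF P W) {T A B : Term S} {t : S} (h : Uniq452.Sg P W T t)
    (e : BetaEq T (pi A B)) :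
    ∃ a b, P.rule a b t ∧ Uniq452.Sg P W A a ∧
      ∀ N, TyF P W N A → Uniq452.Sg P W (inst N B) b := by
  obtain ⟨a, b, r, h1, A', rA, hA', hB⟩ := (h.conv (BetaEq.symm e)).pi_inv w
  exact ⟨a, b, r, h1, fun N hN => hB.inst w (.conv hN hA' rA.eq)⟩

theorem CT.dom (w : WfF P W) {T A B : Term S} (h : CT P W T) (e : BetaEq T (pi A B)) :
    CT P W A := by
  obtain ⟨t, h⟩ := h
  obtain ⟨a, b, r, h1, _⟩ := sg_pi w h e
  exact ⟨a, h1⟩

theorem CT.cod (w : WfF P W) {T A B N : Term S} (h : CT P W T) (e : BetaEq T (pi A B))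
    (hN : TyF P W N A) : CT P W (inst N B) := by
  obtain ⟨t, h⟩ := h
  obtain ⟨a, b, r, _, h1⟩ := sg_pi w h e
  exact ⟨b, h1 N hN⟩

/-- the sort of a relevant type is a relevant sort -/
theorem rl_relS (w : WfF P W) {T : Term S} (h : Rl P D W T) {t : S}
    (ht : Uniq452.Sg P W T t) : RelS P D t := by
  obtain ⟨T', r, h'⟩ := ht.red w
  exact (h.red w r).relS w h'

/-- a relevant product has a relevant instance at the literal parts, up to reduction of `B` -/
theorem rl_pi (w : WfF P W) {T A B : Term S} (h : Rl P D W T) (e : BetaEq T (.pi A B)) :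
    ∃ A' N, Red A A' ∧ TyF P W N A' ∧ Rl P D W (inst N B) := by
  cases h with
  | leaf h hs => exact (not_sort_pi (BetaEq.trans (BetaEq.symm h.eq) e)).elim
  | step h hr =>
    obtain ⟨A₁, B₁, N, h1, h2, rfl⟩ := h
    obtain ⟨Q, q1, q2⟩ := betaEq_iff.1 (BetaEq.trans (BetaEq.symm h1.eq) e)
    obtain ⟨A₂, B₂, rfl, rA, rB⟩ := red_pi q1
    obtain ⟨A₃, B₃, e', rA', rB'⟩ := red_pi q2
    injection e' with e1 e2
    subst e1; subst e2
    exact ⟨A₂, N, rA', tyf_red_type w h2 rA, rl_conv w hr
      (BetaEq.trans (BetaEq.sub rB.eq _) (BetaEq.symm (BetaEq.sub rB'.eq _)))⟩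

/-- relevant instance ⊢ relevant product -/
theorem rl_of_inst {T A B N : Term S} (w : WfF P W) (e : BetaEq T (pi A B)) (hN : TyF P W N A)
    (h : Rl P D W (inst N B)) : Rl P D W T := by
  obtain ⟨Q, q1, q2⟩ := betaEq_iff.1 e
  obtain ⟨A₂, B₂, rfl, rA, rB⟩ := red_pi q2
  exact .step ⟨A₂, B₂, N, q1, tyf_red_type w hN rA, rfl⟩ (h.red w (red_inst .refl rB))

/-! ### signs along products -/

/-- codomain instances keep the sign -/
theorem SgT.cod (w : WfF P W) {T A B N : Term S} {e : Bool} (h : SgT P D W T e)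
    (h' : BetaEq T (pi A B)) (hN : TyF P W N A) (hr : Rl P D W (inst N B)) :
    SgT P D W (inst N B) e := by
  obtain ⟨t, h1, h2⟩ := h
  obtain ⟨x, y, r, _, h3⟩ := sg_pi w h1 h'
  exact ⟨y, h3 N hN, .cod r (rl_relS w hr (h3 N hN)) h2⟩

/-- relevant domains of relevant products flip the sign -/
theorem SgT.dom (w : WfF P W) {T A B : Term S} {e : Bool} (h : SgT P D W T e)
    (h' : BetaEq T (pi A B)) (hT : Rl P D W T) (hA : Rl P D W A) :
    SgT P D W A (!e) := by
  obtain ⟨t, h1, h2⟩ := h
  obtain ⟨A', N, rA, hN, hr⟩ := rl_pi w hT h'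
  obtain ⟨x, y, r, h3, h4⟩ := sg_pi w h1 (BetaEq.trans h' (BetaEq.pi rA.eq (.refl B)))
  exact ⟨x, h3.conv rA.eq, .dom r (rl_relS w hA (h3.conv rA.eq)) (rl_relS w hr (h4 N hN)) h2⟩

/-- relevant `D`-bound types have sign `true` -/
theorem SgT.base (w : WfF P W) {A : Term S} {a b c : S} (r : P.rule a b c) (hb : b ∈ D)
    (hc : c ∈ D) (h : Uniq452.Sg P W A a) (hA : Rl P D W A) : SgT P D W A true :=
  ⟨a, h, .base r hb hc (rl_relS w hA h)⟩

/-! ### tameness along products -/

theorem tame_cod {T A B N : Term S} (w : WfF P W) (h : Tame P D W T) (e : BetaEq T (pi A B))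
    (hN : TyF P W N A) : Tame P D W (inst N B) := by
  obtain ⟨Q, q1, q2⟩ := betaEq_iff.1 e
  obtain ⟨A₂, B₂, rfl, rA, rB⟩ := red_pi q2
  have h1 : Cs P W T (inst N B₂) := ⟨A₂, B₂, N, q1, tyf_red_type w hN rA, rfl⟩
  refine tame_conv w (T := inst N B₂) ?_ (BetaEq.symm (BetaEq.sub rB.eq _))
  exact .mk fun T' A' B' h2 h3 h4 h5 => h.inv T' A' B' (.head h1 h2) h3 h4 h5

theorem tame_dom {T A B : Term S} (w : WfF P W) (h : Tame P D W T) (e : BetaEq T (pi A B))
    (hT : Rl P D W T) (hA : Rl P D W A) : Tame P D W A := by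
  obtain ⟨Q, q1, q2⟩ := betaEq_iff.1 e
  obtain ⟨A₂, B₂, rfl, rA, rB⟩ := red_pi q2
  exact tame_conv w (h.inv T A₂ B₂ .refl q1 (hT.red w q1) (hA.red w rA)) (BetaEq.symm rA.eq)

theorem tame_sort {T : Term S} {s : S} (w : WfF P W) (e : BetaEq T (sort s)) :
    Tame P D W T := tame_conv w (Fl113.tame_sort (s := s)) (BetaEq.symm e)

/-! ### modes -/

/-- the conclusion of Theorem F -/
def TF (P : Spec S) (D : Set S) (W : ℕ → Term S) : Prop :=
  ∀ T, SgT P D W T true → SgT P D W T false → Tame P D W T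

theorem tf_of_not_fat [_root_.Finite S] (w : WfF P W)
    (hwn : ∀ T t, TyF P W T (sort t) → ∃ T₀, Red T T₀ ∧ Normal T₀) (hF : ¬ Fat P D) :
    TF P D W := by
  rintro T ⟨t, h1, h2⟩ ⟨t', h3, h4⟩
  obtain ⟨T₁, r1, k1⟩ := h1.red w
  obtain ⟨T₂, r2, k2⟩ := h3.red w
  obtain ⟨Q, q1, q2⟩ := confluence r1 r2
  exact (Fl113.theoremF w hwn hF (FSR w k1 q1) (FSR w k2 q2) h2 h4).of_red w (r1.trans q1)

/-- signed relevant types -/
def Live (P : Spec S) (D : Set S) (W : ℕ → Term S) (T : Term S) : Prop :=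
  Rl P D W T ∧ ∃ e, SgT P D W T e

def Small (P : Spec S) (D : Set S) (W : ℕ → Term S) (T : Term S) : Prop :=
  Live P D W T ∧ Tame P D W T

/-- wild types of the `D`-bound colour -/
def NegT (P : Spec S) (D : Set S) (W : ℕ → Term S) (T : Term S) : Prop :=
  Rl P D W T ∧ ¬ Tame P D W T ∧ SgT P D W T true

/-- wild types of the other colour -/
def PosT (P : Spec S) (D : Set S) (W : ℕ → Term S) (T : Term S) : Prop :=
  Rl P D W T ∧ ¬ Tame P D W T ∧ SgT P D W T false

theorem live_iff (w : WfF P W) {T T' : Term S} (h : BetaEq T T') :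
    Live P D W T ↔ Live P D W T' :=
  and_congr (rl_iff w h) (exists_congr fun _ => sgT_iff h)

theorem small_iff (w : WfF P W) {T T' : Term S} (h : BetaEq T T') :
    Small P D W T ↔ Small P D W T' := and_congr (live_iff w h) (tame_iff w h)

theorem neg_iff (w : WfF P W) {T T' : Term S} (h : BetaEq T T') :
    NegT P D W T ↔ NegT P D W T' :=
  and_congr (rl_iff w h) (and_congr (not_congr (tame_iff w h)) (sgT_iff h))

theorem pos_iff (w : WfF P W) {T T' : Term S} (h : BetaEq T T') :
    PosT P D W T ↔ PosT P D W T' :=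
  and_congr (rl_iff w h) (and_congr (not_congr (tame_iff w h)) (sgT_iff h))

theorem small_not_neg {T : Term S} (h : Small P D W T) : ¬ NegT P D W T :=
  fun h' => h'.2.1 h.2

theorem small_not_pos {T : Term S} (h : Small P D W T) : ¬ PosT P D W T :=
  fun h' => h'.2.1 h.2

theorem neg_not_pos (hF : TF P D W) {T : Term S} (h : NegT P D W T) : ¬ PosT P D W T :=
  fun h' => h.2.1 (hF T h.2.2 h'.2.2)

theorem live_cases {T : Term S} (h : Live P D W T) :
    Small P D W T ∨ NegT P D W T ∨ PosT P D W T := by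
  by_cases hT : Tame P D W T
  · exact .inl ⟨h, hT⟩
  · obtain ⟨h1, e, h2⟩ := h
    cases e with
    | true => exact .inr (.inl ⟨h1, hT, h2⟩)
    | false => exact .inr (.inr ⟨h1, hT, h2⟩)

theorem NegT.live {T : Term S} (h : NegT P D W T) : Live P D W T := ⟨h.1, _, h.2.2⟩
theorem PosT.live {T : Term S} (h : PosT P D W T) : Live P D W T := ⟨h.1, _, h.2.2⟩
theorem Live.ct {T : Term S} (h : Live P D W T) : CT P W T := by
  obtain ⟨_, e, h⟩ := h
  exact h.ct

/-! ### closure laws along `T ~ pi A B` -/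

theorem Live.cod (w : WfF P W) {T A B N : Term S} (h : Live P D W T) (e : BetaEq T (.pi A B))
    (hN : TyF P W N A) (hr : Rl P D W (inst N B)) : Live P D W (inst N B) := by
  obtain ⟨_, s, hs⟩ := h
  exact ⟨hr, s, hs.cod w e hN hr⟩

theorem Live.dom (w : WfF P W) {T A B : Term S} (h : Live P D W T) (e : BetaEq T (.pi A B))
    (hA : Rl P D W A) : Live P D W A := by
  obtain ⟨hT, s, hs⟩ := h
  exact ⟨hA, !s, hs.dom w e hT hA⟩

theorem Small.dom (w : WfF P W) {T A B : Term S} (h : Small P D W T) (e : BetaEq T (.pi A B))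
    (hA : Rl P D W A) : Small P D W A :=
  ⟨h.1.dom w e hA, tame_dom w h.2 e h.1.1 hA⟩

theorem Small.cod (w : WfF P W) {T A B N : Term S} (h : Small P D W T)
    (e : BetaEq T (.pi A B)) (hN : TyF P W N A) (hr : Rl P D W (inst N B)) :
    Small P D W (inst N B) :=
  ⟨h.1.cod w e hN hr, tame_cod w h.2 e hN⟩

/-- the relevant domain of a `neg` type is `small` or `pos` -/
theorem NegT.dom (w : WfF P W) {T A B : Term S} (h : NegT P D W T)
    (e : BetaEq T (.pi A B)) (hA : Rl P D W A) : Small P D W A ∨ PosT P D W A := by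
  have h1 := h.2.2.dom w e h.1 hA
  by_cases hT : Tame P D W A
  · exact .inl ⟨⟨hA, _, h1⟩, hT⟩
  · exact .inr ⟨hA, hT, h1⟩

theorem PosT.dom (w : WfF P W) {T A B : Term S} (h : PosT P D W T)
    (e : BetaEq T (.pi A B)) (hA : Rl P D W A) : Small P D W A ∨ NegT P D W A := by
  have h1 := h.2.2.dom w e h.1 hA
  by_cases hT : Tame P D W A
  · exact .inl ⟨⟨hA, _, h1⟩, hT⟩
  · exact .inr ⟨hA, hT, h1⟩

theorem NegT.cod (w : WfF P W) {T A B N : Term S} (h : NegT P D W T)
    (e : BetaEq T (.pi A B)) (hN : TyF P W N A) (hr : Rl P D W (inst N B)) :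
    Small P D W (inst N B) ∨ NegT P D W (inst N B) := by
  have h1 := h.2.2.cod w e hN hr
  by_cases hT : Tame P D W (inst N B)
  · exact .inl ⟨⟨hr, _, h1⟩, hT⟩
  · exact .inr ⟨hr, hT, h1⟩

theorem PosT.cod (w : WfF P W) {T A B N : Term S} (h : PosT P D W T)
    (e : BetaEq T (.pi A B)) (hN : TyF P W N A) (hr : Rl P D W (inst N B)) :
    Small P D W (inst N B) ∨ PosT P D W (inst N B) := by
  have h1 := h.2.2.cod w e hN hr
  by_cases hT : Tame P D W (inst N B)
  · exact .inl ⟨⟨hr, _, h1⟩, hT⟩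
  · exact .inr ⟨hr, hT, h1⟩

/-- relevant `D`-bound types are `small` or `neg` -/
theorem bound_mode (w : WfF P W) {A : Term S} {a b c : S} (r : P.rule a b c) (hb : b ∈ D)
    (hc : c ∈ D) (h : Uniq452.Sg P W A a) (hA : Rl P D W A) :
    Small P D W A ∨ NegT P D W A := by
  have h1 := SgT.base w r hb hc h hA
  by_cases hT : Tame P D W A
  · exact .inl ⟨⟨hA, _, h1⟩, hT⟩
  · exact .inr ⟨hA, hT, h1⟩

/-! ### the mode function -/

inductive Mode | dead | small | neg | pos
  deriving DecidableEq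

open Classical in
/-- the mode of a closed type; irrelevant and unsigned types are `dead` -/
noncomputable def mode (P : Spec S) (D : Set S) (W : ℕ → Term S) (T : Term S) : Mode :=
  if Live P D W T then
    if Tame P D W T then .small else if SgT P D W T true then .neg else .pos
  else .dead

theorem mode_dead {T : Term S} : mode P D W T = .dead ↔ ¬ Live P D W T := by
  unfold mode
  split_ifs with h1 h2 h3 <;> simp [h1]

theorem mode_small {T : Term S} : mode P D W T = .small ↔ Small P D W T := by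
  unfold mode Small
  by_cases h1 : Live P D W T
  · by_cases h2 : Tame P D W T
    · simp [h1, h2]
    · by_cases h3 : SgT P D W T true <;> simp [h1, h2, h3]
  · simp [h1]

theorem mode_neg {T : Term S} : mode P D W T = .neg ↔ NegT P D W T := by
  unfold mode NegT
  by_cases h1 : Live P D W T
  · by_cases h2 : Tame P D W T
    · simp [h1, h2]
    · by_cases h3 : SgT P D W T true
      · simp [h1, h2, h3, h1.1]
      · simp [h1, h2, h3]
  · simp only [h1, if_false]
    refine ⟨fun h => (by cases h), ?_⟩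
    rintro ⟨h2, h3, h4⟩
    exact (h1 ⟨h2, _, h4⟩).elim

theorem mode_pos (hF : TF P D W) {T : Term S} :
    mode P D W T = .pos ↔ PosT P D W T := by
  unfold mode PosT
  by_cases h1 : Live P D W T
  · by_cases h2 : Tame P D W T
    · simp [h1, h2]
    · by_cases h3 : SgT P D W T true
      · simp only [h1, h2, h3, if_true, if_false]
        refine ⟨fun h => (by cases h), ?_⟩
        rintro ⟨_, _, h5⟩
        exact (h2 (hF T h3 h5)).elim
      · have h5 : SgT P D W T false := by
          obtain ⟨h4, e, h5⟩ := h1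
          cases e with
          | true => exact (h3 h5).elim
          | false => exact h5
        simp [h1, h2, h3, h1.1, h5]
  · simp only [h1, if_false]
    refine ⟨fun h => (by cases h), ?_⟩
    rintro ⟨h2, h3, h4⟩
    exact (h1 ⟨h2, _, h4⟩).elim

theorem mode_conv (w : WfF P W) {T T' : Term S} (h : BetaEq T T') :
    mode P D W T = mode P D W T' := by
  have h1 : Live P D W T ↔ Live P D W T' := live_iff w h
  have h2 : Tame P D W T ↔ Tame P D W T' := tame_iff w h
  have h3 : SgT P D W T true ↔ SgT P D W T' true := sgT_iff h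
  unfold mode
  split_ifs <;> first | rfl | (exfalso; tauto)

theorem live_iff_mode {T : Term S} : Live P D W T ↔ mode P D W T ≠ .dead := by
  rw [Ne, mode_dead, not_not]

/-- mode of the domain of a live product: dead exactly when irrelevant -/
theorem mode_dom_dead (w : WfF P W) {T A B : Term S} (h : Live P D W T)
    (e : BetaEq T (.pi A B)) : mode P D W A = .dead ↔ ¬ Rl P D W A := by
  rw [mode_dead]
  exact not_congr ⟨fun h => h.1, fun h' => h.dom w e h'⟩

end Crest.Agent.R298.Md254
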