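import Mathlib.Tactic
import Crest.Agent.R298.Par_452

/-!
R298 (S0452), helper575: the raw memory calculus (beta at a distance).
`MT S` = raw terms with an extra constructor `mem P N` (the term `P` remembering `N`).
-/

set_option autoImplicit false

namespace Crest.Agent.R298.Mem575

open Crest.LogicCS.PTS Crest.LogicCS.PTS.Term Relation
open Crest.Agent.R298.Sub452 (up)
open Crest.Agent.R298.Par452 (Red beta_redex)

universe u
variable {S : Type u}

/-- raw terms with memory -/
inductive MT (S : Type u) : Type u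
  | var : ℕ → MT S
  | sort : S → MT S
  | app : MT S → MT S → MT S
  | lam : MT S → MT S → MT S
  | pi : MT S → MT S → MT S
  | mem : MT S → MT S → MT S

namespace MT

/-- parallel renaming -/
def ren (ρ : ℕ → ℕ) : MT S → MT S
  | var i => var (ρ i)
  | sort s => sort s
  | app M N => app (ren ρ M) (ren ρ N)
  | lam A M => lam (ren ρ A) (ren (up ρ) M)
  | pi A B => pi (ren ρ A) (ren (up ρ) B)
  | mem P N => mem (ren ρ P) (ren ρ N)

/-- weakening -/
abbrev wk (M : MT S) : MT S := ren Nat.succ M

/-- extension of a substitution under a binder -/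
def ups (σ : ℕ → MT S) : ℕ → MT S
  | 0 => var 0
  | i + 1 => wk (σ i)

/-- parallel substitution -/
def sub (σ : ℕ → MT S) : MT S → MT S
  | var i => σ i
  | sort s => sort s
  | app M N => app (sub σ M) (sub σ N)
  | lam A M => lam (sub σ A) (sub (ups σ) M)
  | pi A B => pi (sub σ A) (sub (ups σ) B)
  | mem P N => mem (sub σ P) (sub σ N)

def scons (N : MT S) (σ : ℕ → MT S) : ℕ → MT S
  | 0 => N
  | i + 1 => σ i

/-- instantiation of index 0 -/
abbrev inst (N M : MT S) : MT S := sub (scons N var) M

@[simp] theorem ups_zero (σ : ℕ → MT S) : ups σ 0 = var 0 := rfl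
@[simp] theorem ups_succ (σ : ℕ → MT S) (i : ℕ) : ups σ (i + 1) = wk (σ i) := rfl
@[simp] theorem scons_zero (N : MT S) (σ : ℕ → MT S) : scons N σ 0 = N := rfl
@[simp] theorem scons_succ (N : MT S) (σ : ℕ → MT S) (i : ℕ) : scons N σ (i + 1) = σ i := rfl
@[simp] theorem ren_var (ρ : ℕ → ℕ) (i : ℕ) : ren (S := S) ρ (var i) = var (ρ i) := rfl
@[simp] theorem ren_sort (ρ : ℕ → ℕ) (s : S) : ren ρ (sort s) = sort s := rfl
@[simp] theorem ren_app (ρ : ℕ → ℕ) (M N : MT S) : ren ρ (app M N) = app (ren ρ M) (ren ρ N) := rfl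
@[simp] theorem ren_lam (ρ : ℕ → ℕ) (M N : MT S) : ren ρ (lam M N) = lam (ren ρ M) (ren (up ρ) N) := rfl
@[simp] theorem ren_pi (ρ : ℕ → ℕ) (M N : MT S) : ren ρ (pi M N) = pi (ren ρ M) (ren (up ρ) N) := rfl
@[simp] theorem ren_mem (ρ : ℕ → ℕ) (M N : MT S) : ren ρ (mem M N) = mem (ren ρ M) (ren ρ N) := rfl
@[simp] theorem sub_var (σ : ℕ → MT S) (i : ℕ) : sub σ (var i) = σ i := rfl
@[simp] theorem sub_sort (σ : ℕ → MT S) (s : S) : sub σ (sort s) = sort s := rfl
@[simp] theorem sub_app (σ : ℕ → MT S) (M N : MT S) : sub σ (app M N) = app (sub σ M) (sub σ N) := rfl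
@[simp] theorem sub_lam (σ : ℕ → MT S) (M N : MT S) : sub σ (lam M N) = lam (sub σ M) (sub (ups σ) N) := rfl
@[simp] theorem sub_pi (σ : ℕ → MT S) (M N : MT S) : sub σ (pi M N) = pi (sub σ M) (sub (ups σ) N) := rfl
@[simp] theorem sub_mem (σ : ℕ → MT S) (M N : MT S) : sub σ (mem M N) = mem (sub σ M) (sub σ N) := rfl

theorem ren_id (M : MT S) : ren (fun i => i) M = M := by
  induction M with
  | var i => rfl
  | sort s => rfl
  | app M N h1 h2 => simp [h1, h2]
  | lam A M h1 h2 => simp [h1, Sub452.up_id, h2]
  | pi A B h1 h2 => simp [h1, Sub452.up_id, h2]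
  | mem A B h1 h2 => simp [h1, h2]

theorem ren_ren (ρ τ : ℕ → ℕ) (M : MT S) : ren τ (ren ρ M) = ren (fun i => τ (ρ i)) M := by
  induction M generalizing ρ τ with
  | var i => rfl
  | sort s => rfl
  | app M N h1 h2 => simp [h1, h2]
  | lam A M h1 h2 => simp [h1, h2, Sub452.up_comp]
  | pi A B h1 h2 => simp [h1, h2, Sub452.up_comp]
  | mem A B h1 h2 => simp [h1, h2]

theorem ups_var : ups (S := S) var = var := by
  funext i; cases i <;> rfl

theorem sub_id (M : MT S) : sub var M = M := by
  induction M with
  | var i => rfl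
  | sort s => rfl
  | app M N h1 h2 => simp [h1, h2]
  | lam A M h1 h2 => simp [h1, ups_var, h2]
  | pi A B h1 h2 => simp [h1, ups_var, h2]
  | mem A B h1 h2 => simp [h1, h2]

theorem ups_ren (ρ : ℕ → ℕ) : ups (S := S) (fun i => var (ρ i)) = fun i => var (up ρ i) := by
  funext i; cases i <;> rfl

theorem ren_eq_sub (ρ : ℕ → ℕ) (M : MT S) : ren ρ M = sub (fun i => var (ρ i)) M := by
  induction M generalizing ρ with
  | var i => rfl
  | sort s => rfl
  | app M N h1 h2 => simp [h1, h2]
  | lam A M h1 h2 => simp only [ren_lam, sub_lam, ups_ren, h1, h2]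
  | pi A B h1 h2 => simp only [ren_pi, sub_pi, ups_ren, h1, h2]
  | mem A B h1 h2 => simp [h1, h2]

theorem ups_comp_ren (σ : ℕ → MT S) (ρ : ℕ → ℕ) :
    (fun i => ups σ (up ρ i)) = ups (fun i => σ (ρ i)) := by
  funext i; cases i <;> rfl

theorem sub_ren (σ : ℕ → MT S) (ρ : ℕ → ℕ) (M : MT S) :
    sub σ (ren ρ M) = sub (fun i => σ (ρ i)) M := by
  induction M generalizing ρ σ with
  | var i => rfl
  | sort s => rfl
  | app M N h1 h2 => simp [h1, h2]
  | lam A M h1 h2 => simp [h1, h2, ups_comp_ren]
  | pi A B h1 h2 => simp [h1, h2, ups_comp_ren]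
  | mem A B h1 h2 => simp [h1, h2]

theorem ren_comp_ups (σ : ℕ → MT S) (ρ : ℕ → ℕ) :
    (fun i => ren (up ρ) (ups σ i)) = ups (fun i => ren ρ (σ i)) := by
  funext i
  cases i with
  | zero => rfl
  | succ i =>
      simp only [ups_succ, wk, ren_ren]
      rfl

theorem ren_sub (σ : ℕ → MT S) (ρ : ℕ → ℕ) (M : MT S) :
    ren ρ (sub σ M) = sub (fun i => ren ρ (σ i)) M := by
  induction M generalizing ρ σ with
  | var i => rfl
  | sort s => rfl
  | app M N h1 h2 => simp [h1, h2]
  | lam A M h1 h2 => simp [h1, h2, ren_comp_ups]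
  | pi A B h1 h2 => simp [h1, h2, ren_comp_ups]
  | mem A B h1 h2 => simp [h1, h2]

theorem sub_wk (σ : ℕ → MT S) (M : MT S) : sub (ups σ) (wk M) = wk (sub σ M) := by
  simp only [wk, sub_ren, ren_sub, Nat.succ_eq_add_one, ups_succ]

theorem sub_comp_ups (σ τ : ℕ → MT S) :
    (fun i => sub (ups τ) (ups σ i)) = ups (fun i => sub τ (σ i)) := by
  funext i
  cases i with
  | zero => rfl
  | succ i => simp only [ups_succ, sub_wk]

theorem sub_sub (σ τ : ℕ → MT S) (M : MT S) :
    sub τ (sub σ M) = sub (fun i => sub τ (σ i)) M := by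
  induction M generalizing σ τ with
  | var i => rfl
  | sort s => rfl
  | app M N h1 h2 => simp [h1, h2]
  | lam A M h1 h2 => simp [h1, h2, sub_comp_ups]
  | pi A B h1 h2 => simp [h1, h2, sub_comp_ups]
  | mem A B h1 h2 => simp [h1, h2]

theorem inst_wk (N M : MT S) : inst N (wk M) = M := by
  simp only [inst, wk, sub_ren, Nat.succ_eq_add_one, scons_succ, sub_id]

theorem sub_inst (σ : ℕ → MT S) (N M : MT S) :
    sub σ (inst N M) = inst (sub σ N) (sub (ups σ) M) := by
  simp only [inst, sub_sub]
  congr 1
  funext i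
  cases i with
  | zero => rfl
  | succ i =>
      simp only [scons_succ, sub_var, ups_succ, wk, sub_ren, Nat.succ_eq_add_one, sub_id]

theorem ren_inst (ρ : ℕ → ℕ) (N M : MT S) :
    ren ρ (inst N M) = inst (ren ρ N) (ren (up ρ) M) := by
  simp only [ren_eq_sub, sub_inst, ups_ren]

theorem sub_scons (σ : ℕ → MT S) (N M : MT S) :
    sub (scons N σ) M = inst N (sub (ups σ) M) := by
  simp only [inst, sub_sub]
  congr 1
  funext i
  cases i with
  | zero => rfl
  | succ i => simp only [scons_succ, ups_succ, wk, sub_ren, Nat.succ_eq_add_one, sub_id]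

/-! ### erasure -/

/-- erase all memories -/
def er : MT S → Term S
  | var i => .var i
  | sort s => .sort s
  | app M N => .app (er M) (er N)
  | lam A M => .lam (er A) (er M)
  | pi A B => .pi (er A) (er B)
  | mem P _ => er P

@[simp] theorem er_var (i : ℕ) : er (S := S) (var i) = .var i := rfl
@[simp] theorem er_sort (s : S) : er (sort s) = .sort s := rfl
@[simp] theorem er_app (M N : MT S) : er (app M N) = .app (er M) (er N) := rfl
@[simp] theorem er_lam (M N : MT S) : er (lam M N) = .lam (er M) (er N) := rfl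
@[simp] theorem er_pi (M N : MT S) : er (pi M N) = .pi (er M) (er N) := rfl
@[simp] theorem er_mem (M N : MT S) : er (mem M N) = er M := rfl

theorem er_ren (ρ : ℕ → ℕ) (M : MT S) : er (ren ρ M) = Sub452.ren ρ (er M) := by
  induction M generalizing ρ with
  | var i => rfl
  | sort s => rfl
  | app M N h1 h2 => simp [h1, h2]
  | lam A M h1 h2 => simp [h1, h2]
  | pi A B h1 h2 => simp [h1, h2]
  | mem A B h1 h2 => simp [h1]

theorem er_ups (σ : ℕ → MT S) : (fun i => er (ups σ i)) = Sub452.ups (fun i => er (σ i)) := by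
  funext i
  cases i with
  | zero => rfl
  | succ i => simp [er_ren]

theorem er_sub (σ : ℕ → MT S) (M : MT S) : er (sub σ M) = Sub452.sub (fun i => er (σ i)) (er M) := by
  induction M generalizing σ with
  | var i => rfl
  | sort s => rfl
  | app M N h1 h2 => simp [h1, h2]
  | lam A M h1 h2 => simp [h1, h2, er_ups]
  | pi A B h1 h2 => simp [h1, h2, er_ups]
  | mem A B h1 h2 => simp [h1]

theorem er_scons (N : MT S) (σ : ℕ → MT S) :
    (fun i => er (scons N σ i)) = Sub452.scons (er N) (fun i => er (σ i)) := by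
  funext i
  cases i <;> rfl

theorem er_inst (N M : MT S) : er (inst N M) = Sub452.inst (er N) (er M) := by
  rw [inst, er_sub, er_scons]
  rfl

/-- the embedding of raw terms -/
def emb : Term S → MT S
  | .var i => var i
  | .sort s => sort s
  | .app M N => app (emb M) (emb N)
  | .lam A M => lam (emb A) (emb M)
  | .pi A B => pi (emb A) (emb B)

theorem er_emb (M : Term S) : er (emb M) = M := by
  induction M with
  | var i => rfl
  | sort s => rfl
  | app M N h1 h2 => simp [emb, h1, h2]
  | lam A M h1 h2 => simp [emb, h1, h2]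
  | pi A B h1 h2 => simp [emb, h1, h2]

end MT

open MT

/-- `Dist F Q R`: `F` is an abstraction under finitely many memories and `R` is the contractum of
`F Q` (the memories stay outside, the argument and the annotation are remembered). -/
inductive Dist : MT S → MT S → MT S → Prop
  | lam (A P Q : MT S) : Dist (lam A P) Q (mem (mem (inst Q P) Q) A)
  | mem {P Q R : MT S} (N : MT S) : Dist P Q R → Dist (mem P N) Q (mem R N)

/-- one step of the memory calculus, at any position -/
inductive MStep : MT S → MT S → Prop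
  | beta {F Q R : MT S} : Dist F Q R → MStep (app F Q) R
  | appL {M M' : MT S} (N : MT S) : MStep M M' → MStep (app M N) (app M' N)
  | appR (M : MT S) {N N' : MT S} : MStep N N' → MStep (app M N) (app M N')
  | lamA {A A' : MT S} (M : MT S) : MStep A A' → MStep (lam A M) (lam A' M)
  | lamM (A : MT S) {M M' : MT S} : MStep M M' → MStep (lam A M) (lam A M')
  | piA {A A' : MT S} (B : MT S) : MStep A A' → MStep (pi A B) (pi A' B)
  | piB (A : MT S) {B B' : MT S} : MStep B B' → MStep (pi A B) (pi A B')
  | memL {M M' : MT S} (N : MT S) : MStep M M' → MStep (mem M N) (mem M' N)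
  | memR (M : MT S) {N N' : MT S} : MStep N N' → MStep (mem M N) (mem M N')

theorem Dist.unique {F Q R : MT S} (h : Dist F Q R) : ∀ {R' : MT S}, Dist F Q R' → R = R' := by
  induction h with
  | lam A P Q => intro R' h'; cases h'; rfl
  | mem N h ih => intro R' h'; cases h' with | mem _ h' => rw [ih h']

theorem Dist.sub {F Q R : MT S} (h : Dist F Q R) (σ : ℕ → MT S) :
    Dist (MT.sub σ F) (MT.sub σ Q) (MT.sub σ R) := by
  induction h with
  | lam A P Q =>
      simp only [sub_lam, sub_mem, sub_inst]
      exact Dist.lam _ _ _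
  | mem N h ih =>
      simp only [sub_mem]
      exact Dist.mem _ ih

theorem MStep.sub {M M' : MT S} (h : MStep M M') (σ : ℕ → MT S) :
    MStep (MT.sub σ M) (MT.sub σ M') := by
  induction h generalizing σ with
  | beta d => exact .beta (d.sub σ)
  | appL N _ ih => exact .appL _ (ih σ)
  | appR M _ ih => exact .appR _ (ih σ)
  | lamA M _ ih => exact .lamA _ (ih σ)
  | lamM A _ ih => exact .lamM _ (ih _)
  | piA M _ ih => exact .piA _ (ih σ)
  | piB A _ ih => exact .piB _ (ih _)
  | memL N _ ih => exact .memL _ (ih σ)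
  | memR M _ ih => exact .memR _ (ih σ)

theorem MStep.ren {M M' : MT S} (h : MStep M M') (ρ : ℕ → ℕ) :
    MStep (MT.ren ρ M) (MT.ren ρ M') := by
  rw [ren_eq_sub, ren_eq_sub]
  exact h.sub _

/-- many steps -/
abbrev MRed : MT S → MT S → Prop := ReflTransGen MStep

/-- at least one step -/
abbrev MPlus : MT S → MT S → Prop := TransGen MStep

theorem MRed.lift {f : MT S → MT S} (hf : ∀ M N, MStep M N → MStep (f M) (f N)) {M N : MT S}
    (h : MRed M N) : MRed (f M) (f N) := ReflTransGen.lift f hf _ _ h

theorem MPlus.lift {f : MT S → MT S} (hf : ∀ M N, MStep M N → MStep (f M) (f N)) {M N : MT S}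
    (h : MPlus M N) : MPlus (f M) (f N) := TransGen.lift f hf _ _ h

theorem MRed.sub {M M' : MT S} (h : MRed M M') (σ : ℕ → MT S) :
    MRed (MT.sub σ M) (MT.sub σ M') := h.lift (fun _ _ r => r.sub σ)

theorem MRed.ren {M M' : MT S} (h : MRed M M') (ρ : ℕ → ℕ) :
    MRed (MT.ren ρ M) (MT.ren ρ M') := h.lift (fun _ _ r => r.ren ρ)

theorem ups_mred {σ τ : ℕ → MT S} (h : ∀ i, MRed (σ i) (τ i)) : ∀ i, MRed (ups σ i) (ups τ i)
  | 0 => .refl
  | i + 1 => (h i).ren _

theorem mred_sub {σ τ : ℕ → MT S} (h : ∀ i, MRed (σ i) (τ i)) (M : MT S) :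
    MRed (MT.sub σ M) (MT.sub τ M) := by
  induction M generalizing σ τ with
  | var i => exact h i
  | sort s => exact .refl
  | app M N h1 h2 =>
      exact ((h1 h).lift (f := fun x => app x _) (fun _ _ r => .appL _ r)).trans
        ((h2 h).lift (f := fun x => app _ x) (fun _ _ r => .appR _ r))
  | lam M N h1 h2 =>
      exact ((h1 h).lift (f := fun x => MT.lam x _) (fun _ _ r => .lamA _ r)).trans
        ((h2 (ups_mred h)).lift (f := fun x => MT.lam _ x) (fun _ _ r => .lamM _ r))
  | pi M N h1 h2 =>
      exact ((h1 h).lift (f := fun x => MT.pi x _) (fun _ _ r => .piA _ r)).trans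
        ((h2 (ups_mred h)).lift (f := fun x => MT.pi _ x) (fun _ _ r => .piB _ r))
  | mem M N h1 h2 =>
      exact ((h1 h).lift (f := fun x => MT.mem x _) (fun _ _ r => .memL _ r)).trans
        ((h2 h).lift (f := fun x => MT.mem _ x) (fun _ _ r => .memR _ r))

theorem mred_inst_arg {N N' : MT S} (h : MRed N N') (M : MT S) : MRed (inst N M) (inst N' M) :=
  mred_sub (fun i => by cases i with
    | zero => exact h
    | succ i => exact .refl) M

/-! ### strong and weak normalization of the memory calculus -/

/-- strong normalization of the memory calculus -/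
def MSN (M : MT S) : Prop := Acc (fun a b => MStep b a) M

/-- normal form of the memory calculus -/
def MNormal (M : MT S) : Prop := ∀ N, ¬ MStep M N

/-- weak normalization of the memory calculus -/
def MWN (M : MT S) : Prop := ∃ N, MRed M N ∧ MNormal N

/-! ### erasure and reduction -/

theorem Dist.er {F Q R : MT S} (h : Dist F Q R) : Beta (.app (er F) (er Q)) (er R) := by
  induction h with
  | lam A P Q =>
      simp only [er_lam, er_mem, er_inst]
      exact beta_redex _ _ _
  | mem N h ih => exact ih

/-- (C3) a memory step projects to one beta step or to no step. -/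
theorem MStep.er {M M' : MT S} (h : MStep M M') : er M = er M' ∨ Beta (er M) (er M') := by
  induction h with
  | beta d => exact .inr d.er
  | appL N _ ih =>
      rcases ih with h | h
      · left; simp [h]
      · right; exact .appL _ h
  | appR M _ ih =>
      rcases ih with h | h
      · left; simp [h]
      · right; exact .appR _ h
  | lamA M _ ih =>
      rcases ih with h | h
      · left; simp [h]
      · right; exact .lamA _ h
  | lamM A _ ih =>
      rcases ih with h | h
      · left; simp [h]
      · right; exact .lamM _ h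
  | piA M _ ih =>
      rcases ih with h | h
      · left; simp [h]
      · right; exact .piA _ h
  | piB A _ ih =>
      rcases ih with h | h
      · left; simp [h]
      · right; exact .piB _ h
  | memL N _ ih => exact ih
  | memR M _ _ => exact .inl rfl

theorem MRed.er {M M' : MT S} (h : MRed M M') : Red (MT.er M) (MT.er M') := by
  induction h with
  | refl => exact .refl
  | tail _ r ih =>
      rcases r.er with h | h
      · rw [← h]; exact ih
      · exact ih.tail h

theorem exists_dist {F : MT S} {A P : Term S} (h : er F = .lam A P) (Q : MT S) :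
    ∃ R, Dist F Q R ∧ er R = Sub452.inst (er Q) P := by
  induction F with
  | var i => simp at h
  | sort s => simp at h
  | app M N _ _ => simp at h
  | pi M N _ _ => simp at h
  | lam A' P' _ _ =>
      simp only [er_lam, Term.lam.injEq] at h
      refine ⟨_, .lam A' P' Q, ?_⟩
      simp only [er_mem, er_inst, h.2]
  | mem P' N ih _ =>
      obtain ⟨R, d, e⟩ := ih h
      exact ⟨_, .mem N d, e⟩

/-- (C2) every beta step of the erasure lifts to one memory step. -/
theorem lift_beta {M : MT S} {N : Term S} (h : Beta (er M) N) : ∃ M', MStep M M' ∧ er M' = N := by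
  induction M generalizing N with
  | var i => simp only [er_var] at h; cases h
  | sort s => simp only [er_sort] at h; cases h
  | app F Q h1 h2 =>
      simp only [er_app] at h
      generalize hF : er F = F' at h
      generalize hQ : er Q = Q' at h
      cases h with
      | redex A P _ =>
          obtain ⟨R, d, e⟩ := exists_dist hF Q
          refine ⟨R, .beta d, ?_⟩
          rw [e, hQ, Sub452.subst_eq]
      | appL _ r =>
          obtain ⟨F1, r1, e1⟩ := h1 (hF ▸ r)
          exact ⟨_, .appL _ r1, by simp [e1, hQ]⟩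
      | appR _ r =>
          obtain ⟨F1, r1, e1⟩ := h2 (hQ ▸ r)
          exact ⟨_, .appR _ r1, by simp [e1, hF]⟩
  | lam F Q h1 h2 =>
      simp only [er_lam] at h
      generalize hF : er F = F' at h
      generalize hQ : er Q = Q' at h
      cases h with
      | lamA _ r =>
          obtain ⟨F1, r1, e1⟩ := h1 (hF ▸ r)
          exact ⟨_, .lamA _ r1, by simp [e1, hQ]⟩
      | lamM _ r =>
          obtain ⟨F1, r1, e1⟩ := h2 (hQ ▸ r)
          exact ⟨_, .lamM _ r1, by simp [e1, hF]⟩
  | pi F Q h1 h2 =>
      simp only [er_pi] at h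
      generalize hF : er F = F' at h
      generalize hQ : er Q = Q' at h
      cases h with
      | piA _ r =>
          obtain ⟨F1, r1, e1⟩ := h1 (hF ▸ r)
          exact ⟨_, .piA _ r1, by simp [e1, hQ]⟩
      | piB _ r =>
          obtain ⟨F1, r1, e1⟩ := h2 (hQ ▸ r)
          exact ⟨_, .piB _ r1, by simp [e1, hF]⟩
  | mem P N' h1 _ =>
      obtain ⟨P1, r1, e1⟩ := h1 h
      exact ⟨_, .memL _ r1, e1⟩

/-- strong normalization of a memory term implies strong normalization (in the frozen sense) of
its erasure. -/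
theorem MSN.sn {M : MT S} (h : MSN M) : SN (er M) := by
  rintro ⟨f, h0, hf⟩
  have key : ∀ M : MT S, MSN M → ∀ n, er M = f n → False := by
    intro M hM
    induction hM with
    | intro M _ ih =>
        intro n e
        obtain ⟨M', r, e'⟩ := lift_beta (M := M) (N := f (n + 1)) (e ▸ hf n)
        exact ih M' r (n + 1) e'
  exact key M h 0 h0.symm

theorem MSN.sn_emb {M : Term S} (h : MSN (emb M)) : SN M := by
  have := h.sn
  rwa [er_emb] at this

end Crest.Agent.R298.Mem575
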