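import Crest.Agent.R298.Ty_452

/-!
R298 (S0452), helper525: no normal inhabitant of a "false" simple type in a context all of whose
declarations are sorts (type atoms) or "true" simple types.  Truth-table form, for ANY spec.

* `Tv v T b`: `T` is a simple type over the variables (atoms) `var i` (built with `pi A (wk B)`)
  whose truth value under the valuation `v : ℕ → Bool` is `b`.
* `Good v Γ`: every declared type of `Γ` is (convertible to) a sort or to a simple type of value
  `true`.
* `no_nf`: a normal term typed in a `Good` context never has (up to conversion) a simple type of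
  value `false`; `no_wn`: the same for weakly normalizing terms.
-/

set_option autoImplicit false

namespace Crest.Agent.R298.NoNf525

open Crest.LogicCS.PTS Crest.LogicCS.PTS.Term Relation
open Crest.Agent.R298.Sub452 Crest.Agent.R298.Par452 Crest.Agent.R298.Ty452

universe u
variable {S : Type u} {P : Spec S}

/-- simple types over the type variables, with their truth value -/
inductive Tv (v : ℕ → Bool) : Term S → Bool → Prop
  | atom (i : ℕ) : Tv v (var i) (v i)
  | arrow {A B : Term S} {a b : Bool} : Tv v A a → Tv v B b → Tv v (pi A (wk B)) (!a || b)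

theorem wk_inj {M N : Term S} (h : wk M = wk N) : M = N := by
  have := congrArg (inst (var 0)) h
  rwa [inst_wk, inst_wk] at this

theorem Tv.ren {v w : ℕ → Bool} {ρ : ℕ → ℕ} (hv : ∀ i, w (ρ i) = v i) {A : Term S} {a : Bool}
    (h : Tv v A a) : Tv w (Sub452.ren ρ A) a := by
  induction h with
  | atom i =>
      have := Tv.atom (S := S) (v := w) (ρ i)
      rw [hv i] at this
      exact this
  | arrow _ _ ih1 ih2 =>
      rw [ren_pi, ren_up_wk]
      exact .arrow ih1 ih2

/-- extension of a valuation -/
def vcons (b : Bool) (v : ℕ → Bool) : ℕ → Bool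
  | 0 => b
  | i + 1 => v i

theorem Tv.wk {v : ℕ → Bool} (b : Bool) {A : Term S} {a : Bool} (h : Tv v A a) :
    Tv (vcons b v) (Sub452.wk A) a :=
  Tv.ren (ρ := Nat.succ) (fun _ => rfl) h

theorem Tv.det {v : ℕ → Bool} {A : Term S} {a b : Bool} (h : Tv v A a) (h' : Tv v A b) :
    a = b := by
  induction h generalizing b with
  | atom i => cases h'; rfl
  | @arrow A B a1 b1 _ _ ih1 ih2 =>
      generalize hB : Sub452.wk B = B' at h'
      cases h' with
      | @arrow _ B2 a2 b2 h3 h4 =>
          have := wk_inj hB
          subst this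
          rw [ih1 h3, ih2 h4]

theorem Tv.normal {v : ℕ → Bool} {A : Term S} {a : Bool} (h : Tv v A a) : Normal A := by
  induction h with
  | atom i => intro N hN; cases hN
  | @arrow A B a1 b1 _ _ ih1 ih2 =>
      intro N hN
      cases hN with
      | piA _ h => exact ih1 _ h
      | piB _ h =>
          obtain ⟨B', hB', -⟩ := beta_ren_inv h
          exact ih2 _ hB'

theorem Tv.not_sort {v : ℕ → Bool} {A : Term S} {a : Bool} (h : Tv v A a) {s : S} :
    ¬ BetaEq A (sort s) := by
  intro e
  cases h with
  | atom i =>
      have := red_of_eq_sort e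
      have := red_var this
      cases this
  | arrow _ _ => exact not_sort_pi (BetaEq.symm e)

theorem Tv.eq {v : ℕ → Bool} {A B : Term S} {a b : Bool} (h : Tv v A a) (h' : Tv v B b)
    (e : BetaEq A B) : a = b := by
  have := normal_unique e h.normal h'.normal
  subst this
  exact h.det h'

/-- every declared type is a sort or a simple type of value `true` (up to conversion) -/
def Good (v : ℕ → Bool) (Γ : List (Term S)) : Prop :=
  ∀ i A, Lk Γ i A → (∃ s, BetaEq A (sort s)) ∨ ∃ T, Tv v T true ∧ BetaEq A T

theorem Good.nil (v : ℕ → Bool) : Good (S := S) v [] := by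
  intro i A h; cases h

theorem Good.consSort {v : ℕ → Bool} {Γ : List (Term S)} (h : Good v Γ) (b : Bool) (s : S) :
    Good (vcons b v) (sort s :: Γ) := by
  intro i A hl
  cases hl with
  | zero _ _ => exact .inl ⟨s, .refl _⟩
  | succ _ hl =>
      rcases h _ _ hl with ⟨s', e⟩ | ⟨T, hT, e⟩
      · exact .inl ⟨s', BetaEq.ren e _⟩
      · exact .inr ⟨_, hT.wk b, BetaEq.ren e _⟩

theorem Good.cons {v : ℕ → Bool} {Γ : List (Term S)} (h : Good v Γ) (b : Bool) {A T : Term S}
    (hT : Tv v T true) (e : BetaEq A T) : Good (vcons b v) (A :: Γ) := by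
  intro i A hl
  cases hl with
  | zero _ _ => exact .inr ⟨_, hT.wk b, BetaEq.ren e _⟩
  | succ _ hl =>
      rcases h _ _ hl with ⟨s', e⟩ | ⟨T, hT, e⟩
      · exact .inl ⟨s', BetaEq.ren e _⟩
      · exact .inr ⟨_, hT.wk b, BetaEq.ren e _⟩

/-- variables and applications -/
def Neu : Term S → Prop
  | var _ => True
  | app _ _ => True
  | _ => False

theorem no_nf_aux (N : Term S) : ∀ (Γ : List (Term S)) (v : ℕ → Bool) (C : Term S),
    Good v Γ → Typed P Γ N C → Normal N →
    (Neu N → (∃ s, BetaEq C (sort s)) ∨ ∃ T, Tv v T true ∧ BetaEq C T) ∧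
    (∀ T, Tv v T false → ¬ BetaEq C T) := by
  induction N with
  | var i =>
      intro Γ v C hg ht _
      have key : (∃ s, BetaEq C (sort s)) ∨ ∃ T, Tv v T true ∧ BetaEq C T := by
        obtain ⟨A, hl, e⟩ := gen_var ht
        rcases hg _ _ hl with ⟨s', e'⟩ | ⟨T, hT, e'⟩
        · exact .inl ⟨s', BetaEq.trans e e'⟩
        · exact .inr ⟨T, hT, BetaEq.trans e e'⟩
      refine ⟨fun _ => key, fun T hT e => ?_⟩
      rcases key with ⟨s', e'⟩ | ⟨T', hT', e'⟩
      · exact hT.not_sort (BetaEq.trans (BetaEq.symm e) e')
      · have := hT.eq hT' (BetaEq.trans (BetaEq.symm e) e')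
        cases this
  | sort s =>
      intro Γ v C hg ht _
      refine ⟨fun h => h.elim, fun T hT e => ?_⟩
      obtain ⟨s', _, e'⟩ := gen_sort ht
      exact hT.not_sort (BetaEq.trans (BetaEq.symm e) e')
  | pi A B _ _ =>
      intro Γ v C hg ht _
      refine ⟨fun h => h.elim, fun T hT e => ?_⟩
      obtain ⟨s₁, s₂, s₃, _, _, _, e'⟩ := gen_pi ht
      exact hT.not_sort (BetaEq.trans (BetaEq.symm e) e')
  | lam A M _ ihM =>
      intro Γ v C hg ht hn
      refine ⟨fun h => h.elim, fun T hT e => ?_⟩
      obtain ⟨B, s, hM, hpi, e'⟩ := gen_lam ht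
      have e2 := BetaEq.trans (BetaEq.symm e') e
      generalize hf : false = bb at hT
      cases hT with
      | atom i =>
          obtain ⟨A', B', hr, _, _⟩ := red_of_eq_pi (BetaEq.symm e2)
          have := red_var hr
          cases this
      | @arrow A' B' a b hA' hB' =>
          obtain ⟨eA, eB⟩ := pi_inj e2
          obtain ⟨rfl, rfl⟩ : a = true ∧ b = false := by
            revert hf; cases a <;> cases b <;> decide
          have hnM : Normal M := fun M' hM' => hn _ (.lamM A hM')
          exact (ihM (A :: Γ) (vcons true v) B (hg.cons true hA' eA) hM hnM).2 _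
            (hB'.wk true) eB
  | app M Q ihM ihQ =>
      intro Γ v C hg ht hn
      have hnM : Normal M := fun M' hM' => hn _ (.appL Q hM')
      have hnQ : Normal Q := fun M' hM' => hn _ (.appR M hM')
      have key : (∃ s, BetaEq C (sort s)) ∨ ∃ T, Tv v T true ∧ BetaEq C T := by
        obtain ⟨A, B, hM, hQ, e⟩ := gen_app ht
        have hneu : Neu M := by
          cases M with
          | var i => trivial
          | app _ _ => trivial
          | sort s =>
              obtain ⟨s', _, e'⟩ := gen_sort hM
              exact (not_sort_pi (BetaEq.symm e')).elim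
          | pi _ _ =>
              obtain ⟨s₁, s₂, s₃, _, _, _, e'⟩ := gen_pi hM
              exact (not_sort_pi (BetaEq.symm e')).elim
          | lam A' M' => exact (hn _ (Beta.redex A' M' Q)).elim
        rcases (ihM Γ v _ hg hM hnM).1 hneu with ⟨s', e'⟩ | ⟨T, hT, e'⟩
        · exact (not_sort_pi (BetaEq.symm e')).elim
        · generalize hf : true = bb at hT
          cases hT with
          | atom i =>
              obtain ⟨A', B', hr, _, _⟩ := red_of_eq_pi (BetaEq.symm e')
              have := red_var hr
              cases this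
          | @arrow A' B' a b hA' hB' =>
              obtain ⟨eA, eB⟩ := pi_inj e'
              cases a with
              | false => exact ((ihQ Γ v _ hg hQ hnQ).2 _ hA' eA).elim
              | true =>
                  obtain rfl : b = true := by revert hf; cases b <;> decide
                  refine .inr ⟨B', hB', BetaEq.trans e ?_⟩
                  have := BetaEq.inst (BetaEq.refl Q) eB
                  rwa [inst_wk] at this
      refine ⟨fun _ => key, fun T hT e => ?_⟩
      rcases key with ⟨s', e'⟩ | ⟨T', hT', e'⟩
      · exact hT.not_sort (BetaEq.trans (BetaEq.symm e) e')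
      · have := hT.eq hT' (BetaEq.trans (BetaEq.symm e) e')
        cases this

/-- **no normal term of a false simple type in a good context** -/
theorem no_nf {v : ℕ → Bool} {Γ : List (Term S)} (hg : Good v Γ) {N C T : Term S}
    (h : Typed P Γ N C) (hn : Normal N) (hT : Tv v T false) (e : BetaEq C T) : False :=
  (no_nf_aux N Γ v C hg h hn).2 T hT e

/-- no weakly normalizing term of a false simple type in a good context -/
theorem no_wn {v : ℕ → Bool} {Γ : List (Term S)} (hg : Good v Γ) {N T : Term S}
    (h : Typed P Γ N T) (hn : WN N) (hT : Tv v T false) : False := by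
  obtain ⟨N', hr, hn'⟩ := hn
  exact no_nf hg (SR h hr) hn' hT (.refl _)

end Crest.Agent.R298.NoNf525
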