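import Crest.Agent.R298.Vt_786
import Crest.Agent.R298.Cod2_893

/-!
# R298: `VLaws` of standard frames, wide validity (helper786)

* `Std.vlaws`: the standard frames satisfy 893's `VLaws` for `vt K sg`;
* `vtW K sg st`: WIDE validity of paths (captain, 02:01): `st T a` = `T` is a product and
  `a : dom T` (no relevance); it contains `vt`, and agrees with it on "alive" types.
-/

set_option autoImplicit false
set_option linter.unusedSectionVars false

namespace Crest.Agent.R298.Vt786

open Crest.Agent.R298.Dom201 (X Val Args codeF app_codeF Supp ArgLt AgA up up_lt up_dn dn_up)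
open Crest.Agent.R298.Inf786
open Crest.Agent.R298.Cod893

variable {Q C : Type} [Inhabited C]

section frames

variable {S : Type} {K : Skel Q Q} {sg : Q → Prop} {F : Frame S Q (SI K C) C}

theorem mode_small_iff (A : Q) : modeS K sg A = .small ↔ Tame K A := by
  unfold modeS
  by_cases h : Tame K A
  · simp [h]
  · by_cases h' : sg A <;> simp [h, h']

theorem mode_minus_iff (A : Q) : modeS K sg A = .minus ↔ ¬ Tame K A ∧ sg A := by
  unfold modeS
  by_cases h : Tame K A
  · simp [h]
  · by_cases h' : sg A <;> simp [h, h']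

theorem mode_plus_iff (A : Q) : modeS K sg A = .plus ↔ ¬ Tame K A ∧ ¬ sg A := by
  unfold modeS
  by_cases h : Tame K A
  · simp [h]
  · by_cases h' : sg A <;> simp [h, h']

/-- a valid small path of a tame type is a valid argument list -/
theorem valid_of_vt {A : Q} (hA : Tame K A) {l : List (Q × SI K C)}
    (h : vt K sg A (sh (embS l : UPath Q (SI K C) C))) :
    Valid K (fun _ => True) A (cnv K l) := by
  obtain ⟨l', hl, hv⟩ := vt_tame hA (.refl A) h
  rw [toS_embS] at hl
  rw [Option.some.inj hl]
  exact hv

/-- **standard frames satisfy `VLaws`** -/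
theorem Std.vlaws (h : Std K sg F) (hth : Thin K sg) (hnz : ∀ q s c, F.nz q s c = c) :
    VLaws F (vt K sg) where
  nt_pos := by
    intro A s c hs
    rw [h.nt]
    unfold ntS
    rw [if_pos hs]
  nt_neg := by
    intro A s c hs
    rw [h.nt, h.b]
    unfold ntS
    rw [if_neg hs]
  nz_id := hnz
  vm := by
    intro A hm p hp
    rw [h.mode, mode_minus_iff] at hm
    obtain ⟨l, hl⟩ := vt_minus hth hm.1 hm.2 (.refl A) hp
    rw [hl]
    exact Option.some_ne_none _
  vp := by
    intro A hm p hp
    rw [h.mode, mode_plus_iff] at hm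
    exact vt_plus hth hm.1 hm.2 (.refl A) hp
  vs := by
    intro A hm p hp
    rw [h.mode, mode_small_iff] at hm
    obtain ⟨l, hl, _⟩ := vt_tame hm (.refl A) hp
    rw [hl]
    exact Option.some_ne_none _
  get_put := by
    intro A hm v l hl
    rw [h.mode, mode_small_iff] at hm
    rw [h.get, h.put]
    exact getS_putS hm v (valid_of_vt hm hl)

end frames

section wide

variable (K : Skel Q Q) (sg : Q → Prop) (st : Q → Q → Prop)

/-- wide validity: no relevance in the steps -/
def vtW : Q → Sh Q (SI K C) C → Prop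
  | A, [] => K.leaf A
  | A, x :: s => st A x.1 ∧ rngS K sg (K.dom A) x.2 ∧ vtW (K.cod A x.1) s

variable {K sg st}

@[simp] theorem vtW_nil {A : Q} : vtW K sg st A ([] : Sh Q (SI K C) C) ↔ K.leaf A := Iff.rfl

@[simp] theorem vtW_cons {A : Q} {x : Q × ESh Q (SI K C) C} {s : Sh Q (SI K C) C} :
    vtW K sg st A (x :: s) ↔
      st A x.1 ∧ rngS K sg (K.dom A) x.2 ∧ vtW K sg st (K.cod A x.1) s := Iff.rfl

theorem vt_vtW (hst : ∀ T a, K.live T a → st T a) {A : Q} {s : Sh Q (SI K C) C}
    (h : vt K sg A s) : vtW K sg st A s := by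
  induction s generalizing A with
  | nil => exact h
  | cons x s ih => exact ⟨hst _ _ h.1, h.2.1, ih h.2.2⟩

/-- on alive types wide valid paths are valid: `ok` = hereditary under the steps of paths that
reach a leaf (reaching a leaf gives the relevance of every instance on the way) -/
theorem vt_of_vtW {Al : Q → Prop}
    (hal : ∀ T a, Al T → st T a → (∃ s : Sh Q (SI K C) C, vtW K sg st (K.cod T a) s) →
      K.live T a ∧ Al (K.cod T a))
    {A : Q} (hA : Al A) {s : Sh Q (SI K C) C} (h : vtW K sg st A s) : vt K sg A s := by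
  induction s generalizing A with
  | nil => exact h
  | cons x s ih =>
    obtain ⟨h1, h2, h3⟩ := h
    obtain ⟨g1, g2⟩ := hal A x.1 hA h1 ⟨s, h3⟩
    exact ⟨g1, h2, ih g2 h3⟩

/-- relevance through wide steps: some wide path of cod steps ends in a leaf -/
inductive RelW (K : Skel Q Q) (st : Q → Q → Prop) : Q → Prop
  | leaf {T : Q} : K.leaf T → RelW K st T
  | step {T a : Q} : st T a → RelW K st (K.cod T a) → RelW K st T

theorem relW_of_vtW {A : Q} {s : Sh Q (SI K C) C} (h : vtW K sg st A s) : RelW K st A := by
  induction s generalizing A with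
  | nil => exact .leaf h
  | cons x s ih => exact .step h.1 (ih h.2.2)

/-- the form used with `live T a := st T a ∧ RelW (cod T a) ∧ Al T`, where `Al` is closed under the
relevant codomain steps -/
theorem vt_of_vtW' {Al : Q → Prop}
    (hlive : ∀ T a, Al T → st T a → RelW K st (K.cod T a) → K.live T a)
    (hcod : ∀ T a, Al T → st T a → RelW K st (K.cod T a) → Al (K.cod T a))
    {A : Q} (hA : Al A) {s : Sh Q (SI K C) C} (h : vtW K sg st A s) : vt K sg A s :=
  vt_of_vtW (fun T a h1 h2 ⟨_, hs⟩ => ⟨hlive T a h1 h2 (relW_of_vtW hs),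
    hcod T a h1 h2 (relW_of_vtW hs)⟩) hA h

end wide

end Crest.Agent.R298.Vt786
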