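import Crest.Agent.R298.Ok_425
import Crest.Agent.R298.Md2_254
import Crest.Agent.R298.Vt2_786

/-!
R298 (S0452), helper425, block T4 for the interpretation `den` of `Cod_893`.

* `evsOf F`, `den_eq_ev`: `den` is the abstract evaluator of `Ok_425` (when `nz` is the identity);
* `dtyW`: domain types of closed functions, `dtyW_eq`;
* `FOk`: what a frame over the skeleton of closed types must satisfy; `FOk.laws`: the laws of
  `Ok_425`;
* `den_coin`, `den_subst`, `den_inst`, `den_steps`, `den_nf_inst` (= the equality half of (R4)).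
-/

set_option autoImplicit false

namespace Crest.Agent.R298.Ok425

open Crest.LogicCS.PTS Crest.LogicCS.PTS.Term Relation
open Crest.Agent.R298.Sub452 Crest.Agent.R298.Par452 Crest.Agent.R298.Ty452
open Crest.Agent.R298.TyF452 Crest.Agent.R298.Gd452
open Crest.Agent.R298.Fl113 (RelS Fat Rl)
open Crest.Agent.R298.Cod893 (Frame Ent PEnt UPath entry look den Good sh ESh)
open Crest.Agent.R298.Vt786 (Std rngS)
open Crest.Agent.R298.Md254 (skel sgQ vtW TF)

section frames

variable {S Q SI C : Type}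

/-- the evaluator data of a frame -/
noncomputable def evsOf (F : Frame S Q SI C) : Evs S Q (Ent Q SI C) (PEnt Q SI C) C where
  cl := F.cl
  rep := F.rep
  dty := F.dty
  pack := entry F
  evl := look F
  evp := PEnt.ent
  piC := F.op
  srtC := F.sv
  b := F.b

theorem icons_eq (u : UF Q (Ent Q SI C) C) (ν : ℕ → UF Q (Ent Q SI C) C) :
    Cod893.icons u ν = icons u ν := by
  funext n
  cases n <;> rfl

/-- `den` is the abstract evaluator -/
theorem den_eq_ev (F : Frame S Q SI C) (hnz : ∀ q s c, F.nz q s c = c) (M : Term S) :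
    ∀ (θ : ℕ → Term S) (ν : ℕ → UF Q (Ent Q SI C) C), den F M θ ν = ev (evsOf F) M θ ν := by
  induction M with
  | var x => intro θ ν; funext p; simp only [den, hnz, ev_var]
  | sort s => intro θ ν; funext p; simp only [den, hnz, ev_sort]; rfl
  | app M N ihM ihN =>
      intro θ ν
      funext p
      simp only [den, hnz, ev_app, ihM, ihN]
      rfl
  | lam A M _ ihM =>
      intro θ ν
      funext p
      cases p with
      | nil => simp only [den, hnz, ev_lam_nil]; rfl
      | cons x p => simp only [den, hnz, ev_lam_cons, ihM, icons_eq]; rfl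
  | pi A B ihA ihB =>
      intro θ ν
      funext p
      simp only [den, hnz, ev_pi, ihA, ihB, icons_eq]
      rfl

end frames

/-! ### domain types of closed functions -/

section dty

variable {S : Type} {P : Spec S} {W : ℕ → Term S}

open Classical in
/-- domain type of a closed function -/
noncomputable def dtyW (P : Spec S) (W : ℕ → Term S) (M : Term S) : Term S :=
  if h : ∃ A B, TyF P W M (pi A B) then Md254.cl (Classical.choose h) else M

theorem dtyW_eq (w : WfF P W) (hwn : ∀ M A, TyF P W M A → WN M) {M A B : Term S}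
    (h : TyF P W M (pi A B)) : dtyW P W (Md254.cl M) = Md254.cl A := by
  have h1 : ∃ A B, TyF P W (Md254.cl M) (pi A B) := ⟨A, B, Md254.cl_typed w hwn h⟩
  unfold dtyW
  rw [dif_pos h1]
  have h2 := Classical.choose_spec (Classical.choose_spec h1)
  exact Md254.cl_congr (Uniq452.funiq h2 (Md254.cl_typed w hwn h)).pi_inv.1

end dty

/-! ### frames over the skeleton of closed types -/

section world

variable {S : Type} {P : Spec S} {D : Set S} {W : ℕ → Term S} {C : Type} [Inhabited C]

/-- frames over the skeleton of closed types -/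
structure FOk (P : Spec S) (D : Set S) (W : ℕ → Term S)
    (F : Frame S (Term S) (Vt786.SI (skel P D W) C) C) : Prop where
  std : Std (skel P D W) (sgQ P D W) F
  cl : ∀ M, F.cl M = Md254.cl M
  rep : ∀ q, F.rep q = q
  nz : ∀ q s c, F.nz q s c = c
  dty : ∀ M A B, TyF P W M (pi A B) → F.dty (Md254.cl M) = Md254.cl A
  /-- the value of a product only depends on the values of components of class `D` -/
  op : ∀ (A B : Term S) (a b c : S) x x' f f', c ∈ D → P.rule a b c → TyF P W A (sort a) →
    TyF P (fcons A W) B (sort b) → (a ∈ D → x = x') →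
    (b ∈ D → ∀ q v, TyF P W q A → rngS (skel P D W) (sgQ P D W) (Md254.cl A) (PEnt.ent v).sh →
      f q v = f' q v) →
    F.op (Md254.cl A) (Md254.cl (pi A B)) x f = F.op (Md254.cl A) (Md254.cl (pi A B)) x' f'

/-- the standard frame of a world: only the values of sorts and products are open -/
noncomputable def frW (P : Spec S) (D : Set S) (W : ℕ → Term S) (sv : S → C)
    (op : Term S → Term S → C → (Term S → PEnt (Term S) (Vt786.SI (skel P D W) C) C → C) → C) :
    Frame S (Term S) (Vt786.SI (skel P D W) C) C :=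
  Vt786.stdFrame (skel P D W) (sgQ P D W) Md254.cl id (fun _ _ c => c) (dtyW P W) sv op

/-- the only law of the standard frame which depends on `op` -/
theorem frW_ok (w : WfF P W) (hwn : ∀ M A, TyF P W M A → WN M) {sv : S → C}
    {op : Term S → Term S → C → (Term S → PEnt (Term S) (Vt786.SI (skel P D W) C) C → C) → C}
    (hop : ∀ (A B : Term S) (a b c : S) x x' f f', c ∈ D → P.rule a b c → TyF P W A (sort a) →
      TyF P (fcons A W) B (sort b) → (a ∈ D → x = x') →
      (b ∈ D → ∀ q v, TyF P W q A → rngS (skel P D W) (sgQ P D W) (Md254.cl A) (PEnt.ent v).sh →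
        f q v = f' q v) →
      op (Md254.cl A) (Md254.cl (pi A B)) x f = op (Md254.cl A) (Md254.cl (pi A B)) x' f') :
    FOk P D W (frW P D W sv op) where
  std := ⟨rfl, rfl, rfl, rfl, rfl⟩
  cl := fun _ => rfl
  rep := fun _ => rfl
  nz := fun _ _ _ => rfl
  dty := fun _ _ _ h => dtyW_eq w hwn h
  op := hop

/-- complete argument lists valid for a closed type -/
def VW (P : Spec S) (D : Set S) (W : ℕ → Term S) (C : Type) [Inhabited C] (T : Term S)
    (l : UPath (Term S) (Vt786.SI (skel P D W) C) C) : Prop := vtW P D W C T (sh l)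

/-- entries admitted at a closed type -/
def RW (P : Spec S) (D : Set S) (W : ℕ → Term S) (C : Type) [Inhabited C] (A : Term S)
    (v : Ent (Term S) (Vt786.SI (skel P D W) C) C) : Prop :=
  rngS (skel P D W) (sgQ P D W) A v.sh

variable {F : Frame S (Term S) (Vt786.SI (skel P D W) C) C}

theorem FOk.laws (h : FOk P D W F) (w : WfF P W) (hwn : ∀ M A, TyF P W M A → WN M)
    (hF : TF P D W) : Laws P D W (evsOf F) (VW P D W C) (RW P D W C) Good where
  wf := w
  cl_eq := fun M N e => by
    show F.cl M = F.cl N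
    rw [h.cl, h.cl, Md254.cl_congr e]
  rep_beq := fun M A _ => by
    show BetaEq (F.rep (F.cl M)) M
    rw [h.rep, h.cl]; exact Md254.cl_eq M
  rep_ty := fun M A hM => by
    show TyF P W (F.rep (F.cl M)) A
    rw [h.rep, h.cl]; exact Md254.cl_typed w hwn hM
  dty := fun M A B hM => by
    show F.dty (F.cl M) = F.cl A
    rw [h.cl, h.cl]; exact h.dty M A B hM
  V_sort := fun s l => by
    show vtW P D W C (F.cl (sort s)) (sh l) ↔ _
    rw [h.cl, Md254.vtW_cl]
    cases l with
    | nil =>
        constructor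
        · rintro ⟨s', h1, h2⟩
          rw [sort_inj h2]
          exact ⟨rfl, h1⟩
        · rintro ⟨_, h1⟩
          exact ⟨s, h1, .refl _⟩
    | cons x l =>
        constructor
        · rintro ⟨A, B, e, _⟩
          exact (not_sort_pi e).elim
        · rintro ⟨h1, _⟩
          cases h1
  V_cons := fun A B c a v l hp ha _ hr hV => by
    show vtW P D W C (F.cl (pi A B)) (sh ((a, v) :: l))
    obtain ⟨t, hA⟩ := fpi_dom hp
    have ha' : TyF P W a A := by rw [← h.rep a]; exact ha
    rw [h.cl]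
    refine Md254.vtW_cl.2 ((Md254.vtW_cons (.refl _) hA).2 ⟨ha', ?_, ?_⟩)
    · have hr' : rngS (skel P D W) (sgQ P D W) (F.cl A) v.sh := hr
      rw [h.cl] at hr'
      exact hr'
    · have hV' : vtW P D W C (F.cl (inst (F.rep a) B)) (sh l) := hV
      rw [h.cl, h.rep] at hV'
      exact Md254.vtW_cl.1 hV'
  V_inv := fun A B c l hp hV => by
    have hV' : vtW P D W C (F.cl (pi A B)) (sh l) := hV
    obtain ⟨t, hA⟩ := fpi_dom hp
    rw [h.cl, Md254.vtW_cl] at hV'
    cases l with
    | nil => exact (Md254.vtW_nil_pi (.refl _) hV').elim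
    | cons x l =>
        obtain ⟨h1, h2, h3⟩ := (Md254.vtW_cons (.refl _) hA).1 hV'
        refine ⟨x.1, x.2, l, rfl, ?_, ?_, ?_⟩
        · show TyF P W (F.rep x.1) A
          rw [h.rep]; exact h1
        · show rngS (skel P D W) (sgQ P D W) (F.cl A) x.2.sh
          rw [h.cl]; exact h2
        · show vtW P D W C (F.cl (inst (F.rep x.1) B)) (sh l)
          rw [h.cl, h.rep]; exact Md254.vtW_cl.2 h3
  V_rel := fun K k l hK hV => by
    have hV' : vtW P D W C (F.cl K) (sh l) := hV
    rw [h.cl, Md254.vtW_cl] at hV'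
    exact Md254.rl_relS w (Md254.rl_of_vtW w hV') (.of hK)
  pack_rng := fun A a f _ => h.std.entry_ok _ _
  pack_congr := fun A a f g _ hfg => by
    show entry F (F.cl A) f = entry F (F.cl A) g
    rw [h.cl]
    refine Md254.entry_congrW h.std fun p hp => hfg p ?_
    show vtW P D W C (F.cl A) (sh p)
    rw [h.cl]; exact Md254.vtW_cl.2 hp
  evl_pack := fun A a f l hA hs hf hV => by
    show look F (entry F (F.cl A) f) l = f l
    have hV' : vtW P D W C (F.cl A) (sh l) := hV
    rw [h.cl, Md254.vtW_cl] at hV'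
    rw [h.cl]
    obtain ⟨e, he⟩ := hs
    exact Md254.look_entryW h.std w hF (Md254.notO_sgT (e := e) ⟨a, .of hA, he⟩) hf hV'
  pi_congr := fun A B a b c x x' f f' hc r hA hB h1 h2 => by
    show F.op (F.cl A) (F.cl (pi A B)) x f = F.op (F.cl A) (F.cl (pi A B)) x' f'
    rw [h.cl, h.cl]
    refine h.op A B a b c x x' f f' hc r hA hB h1 (fun hb q v hq hv => h2 hb q v ?_ ?_)
    · show TyF P W (F.rep q) A
      rw [h.rep]; exact hq
    · show rngS (skel P D W) (sgQ P D W) (F.cl A) (PEnt.ent v).sh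
      rw [h.cl]; exact hv
  good_evl := fun v => Cod893.look_good F v
  good_ev := fun M θ ν hν => by
    rw [← den_eq_ev F h.nz]
    exact Cod893.den_good F M θ hν

/-- typed coincidence -/
theorem den_coin (h : FOk P D W F) (w : WfF P W) (hwn : ∀ M A, TyF P W M A → WN M)
    (hF : TF P D W) {M T : Term S} {Γ : ℕ → Term S} {θ : ℕ → Term S}
    {ν ν' : ℕ → UF (Term S) (Ent (Term S) (Vt786.SI (skel P D W) C) C) C}
    {l : UPath (Term S) (Vt786.SI (skel P D W) C) C}
    (hM : TyF P Γ M T) (hs : SubF P θ Γ W)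
    (hν : ∀ n l, vtW P D W C (sub θ (Γ n)) (sh l) → ν n l = ν' n l)
    (hV : vtW P D W C (sub θ T) (sh l)) : den F M θ ν l = den F M θ ν' l := by
  rw [den_eq_ev F h.nz, den_eq_ev F h.nz]
  refine ev_coin (h.laws w hwn hF) M hM hs (fun n l hl => hν n l ?_) ?_
  · have hl' : vtW P D W C (F.cl (sub θ (Γ n))) (sh l) := hl
    rw [h.cl] at hl'
    exact Md254.vtW_cl.1 hl'
  · show vtW P D W C (F.cl (sub θ T)) (sh l)
    rw [h.cl]; exact Md254.vtW_cl.2 hV

/-- typed substitution lemma -/
theorem den_subst (h : FOk P D W F) (w : WfF P W) (hwn : ∀ M A, TyF P W M A → WN M)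
    (hF : TF P D W) {M T : Term S} {Γ Γ' : ℕ → Term S} {σ θ : ℕ → Term S}
    {ν ν' : ℕ → UF (Term S) (Ent (Term S) (Vt786.SI (skel P D W) C) C) C}
    {l : UPath (Term S) (Vt786.SI (skel P D W) C) C}
    (hM : TyF P Γ M T) (hσ : SubF P σ Γ Γ') (hs : SubF P θ Γ' W)
    (hν : ∀ n l, vtW P D W C (sub θ (sub σ (Γ n))) (sh l) → ν' n l = den F (σ n) θ ν l)
    (hV : vtW P D W C (sub θ (sub σ T)) (sh l)) :
    den F (sub σ M) θ ν l = den F M (fun n => sub θ (σ n)) ν' l := by
  rw [den_eq_ev F h.nz, den_eq_ev F h.nz]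
  refine ev_subst (h.laws w hwn hF) hM hσ hs (fun n l hl => ?_) ?_
  · have hl' : vtW P D W C (F.cl (sub θ (sub σ (Γ n)))) (sh l) := hl
    rw [h.cl] at hl'
    rw [hν n l (Md254.vtW_cl.1 hl'), den_eq_ev F h.nz]
  · show vtW P D W C (F.cl _) (sh l)
    rw [h.cl]; exact Md254.vtW_cl.2 hV

/-- BETA at a domain type with a signed sort -/
theorem den_inst (h : FOk P D W F) (w : WfF P W) (hwn : ∀ M A, TyF P W M A → WN M)
    (hF : TF P D W) {M N A B : Term S} {Γ : ℕ → Term S} {a : S} {θ : ℕ → Term S}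
    {ν : ℕ → UF (Term S) (Ent (Term S) (Vt786.SI (skel P D W) C) C) C}
    {l : UPath (Term S) (Vt786.SI (skel P D W) C) C} (wΓ : WfF P Γ)
    (hM : TyF P (fcons A Γ) M B) (hN : TyF P Γ N A) (hA : TyF P Γ A (sort a))
    (ha : RelS P D a → Sgn P D a) (hs : SubF P θ Γ W) (hG : ∀ n, Good (ν n))
    (hV : vtW P D W C (sub θ (inst N B)) (sh l)) :
    den F (inst N M) θ ν l =
      den F M (scons (Md254.cl (sub θ N)) θ)
        (Cod893.icons (look F (entry F (Md254.cl (sub θ A)) (den F N θ ν))) ν) l := by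
  have hV' : VW P D W C (F.cl (sub θ (inst N B))) l := by
    rw [h.cl]; exact Md254.vtW_cl.2 hV
  have key := ev_inst (h.laws w hwn hF) wΓ hM hN hA ha hs hG hV'
  rw [den_eq_ev F h.nz, den_eq_ev F h.nz, den_eq_ev F h.nz, icons_eq]
  have e1 : (evsOf F).rep ((evsOf F).cl (sub θ N)) = Md254.cl (sub θ N) := by
    show F.rep (F.cl _) = _
    rw [h.rep, h.cl]
  have e2 : (evsOf F).cl (sub θ A) = Md254.cl (sub θ A) := h.cl _
  rw [e1, e2] at key
  exact key

/-- beta reductions from a good term preserve the value at valid argument lists -/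
theorem den_steps (h : FOk P D W F) (w : WfF P W) (hwn : ∀ M A, TyF P W M A → WN M)
    (hF : TF P D W) {Γ : ℕ → Term S} {M M' T : Term S} (wΓ : WfF P Γ) (hM : Gd P D Γ M T)
    (r : Red M M') {θ : ℕ → Term S}
    {ν : ℕ → UF (Term S) (Ent (Term S) (Vt786.SI (skel P D W) C) C) C}
    {l : UPath (Term S) (Vt786.SI (skel P D W) C) C} (hs : SubF P θ Γ W)
    (hG : ∀ n, Good (ν n)) (hV : vtW P D W C (sub θ T) (sh l)) :
    den F M θ ν l = den F M' θ ν l := by
  rw [den_eq_ev F h.nz, den_eq_ev F h.nz]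
  refine ev_steps (h.laws w hwn hF) wΓ hM r hs hG ?_
  show vtW P D W C (F.cl _) (sh l)
  rw [h.cl]; exact Md254.vtW_cl.2 hV

/-- **the equality half of (R4)** for `den` -/
theorem den_nf_inst (h : FOk P D W F) (w : WfF P W) (hwn : ∀ M A, TyF P W M A → WN M)
    (hF : TF P D W) {Γ : ℕ → Term S} {A B N T B' : Term S} {a b c : S}
    (wΓ : WfF P Γ) (hB : TyF P (fcons A Γ) B T) (nB : Normal B) (hN : TyF P Γ N A)
    (nN : Normal N) (hA : TyF P Γ A (sort a)) (r : P.rule a b c) (hb : b ∈ D) (hc : c ∈ D)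
    (hr : Red (inst N B) B') {θ : ℕ → Term S}
    {ν : ℕ → UF (Term S) (Ent (Term S) (Vt786.SI (skel P D W) C) C) C}
    {l : UPath (Term S) (Vt786.SI (skel P D W) C) C} (hs : SubF P θ Γ W)
    (hG : ∀ n, Good (ν n)) (hV : vtW P D W C (sub θ (inst N T)) (sh l)) :
    den F B' θ ν l =
      den F B (scons (Md254.cl (sub θ N)) θ)
        (Cod893.icons (look F (entry F (Md254.cl (sub θ A)) (den F N θ ν))) ν) l := by
  rw [← den_steps h w hwn hF wΓ (gd_start wΓ hB nB hN nN hA r hb hc) hr hs hG hV]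
  exact den_inst h w hwn hF wΓ hB hN hA (fun ha => ⟨true, .base r hb hc ha⟩) hs hG hV

/-- the same at the empty list, for a type `B : b` -/
theorem den_nf_inst_nil (h : FOk P D W F) (w : WfF P W) (hwn : ∀ M A, TyF P W M A → WN M)
    (hF : TF P D W) {Γ : ℕ → Term S} {A B N B' : Term S} {a b c : S}
    (wΓ : WfF P Γ) (hB : TyF P (fcons A Γ) B (sort b)) (nB : Normal B) (hN : TyF P Γ N A)
    (nN : Normal N) (hA : TyF P Γ A (sort a)) (r : P.rule a b c) (hb : b ∈ D) (hc : c ∈ D)
    (hr : Red (inst N B) B') {θ : ℕ → Term S}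
    {ν : ℕ → UF (Term S) (Ent (Term S) (Vt786.SI (skel P D W) C) C) C} (hs : SubF P θ Γ W)
    (hG : ∀ n, Good (ν n)) :
    den F B' θ ν [] =
      den F B (scons (Md254.cl (sub θ N)) θ)
        (Cod893.icons (look F (entry F (Md254.cl (sub θ A)) (den F N θ ν))) ν) [] :=
  den_nf_inst h w hwn hF wΓ hB nB hN nN hA r hb hc hr hs hG ⟨b, hb, .refl _⟩

end world

end Crest.Agent.R298.Ok425
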