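import Crest.Agent.R298.Gd_452

/-!
R298 (S0452), helper425, block T4 of the semantic half.

An abstract evaluator `ev` (structural recursion on RAW terms, environment = closed terms `θ` and
universal value functions `ν`; the values of arguments are packed at the closed DOMAIN type of the
function) and its laws:

* `ev_ren`, `ev_sub`, `ev_theta`: LITERAL raw lemmas (renaming, substitution, conversion of `θ`);
* `ev_coin`: typed coincidence (only the argument lists valid for the declared types matter);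
* `ev_subst`: typed substitution lemma;
* `ev_beta`: the value of a contracted redex whose domain type has a signed sort;
* `ev_step`, `ev_steps`: beta steps from good terms (`Gd` of Gd_452) preserve the value at valid
  argument lists;
* `ev_nf_inst`: the equality half of (R4).
-/

set_option autoImplicit false

namespace Crest.Agent.R298.Ok425

open Crest.LogicCS.PTS Crest.LogicCS.PTS.Term Relation
open Crest.Agent.R298.Sub452 Crest.Agent.R298.Par452 Crest.Agent.R298.Ty452
open Crest.Agent.R298.TyF452 Crest.Agent.R298.Gd452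
open Crest.Agent.R298.Fl113 (RelS)

universe u v w x y
variable {S : Type u} {Q : Type w} {Val : Type v} {PV : Type y} {C : Type x}

/-- argument lists -/
abbrev Args (Q : Type w) (Val : Type v) := List (Q × Val)

/-- universal value functions -/
abbrev UF (Q : Type w) (Val : Type v) (C : Type x) := Args Q Val → C

/-- data of the evaluator -/
structure Evs (S : Type u) (Q : Type w) (Val : Type v) (PV : Type y) (C : Type x) where
  /-- class of a closed term -/
  cl : Term S → Q
  /-- representative -/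
  rep : Q → Term S
  /-- domain type of a closed function -/
  dty : Q → Q
  /-- pack a value function at a closed type -/
  pack : Q → UF Q Val C → Val
  /-- value function of a packed value -/
  evl : Val → UF Q Val C
  /-- quantified values -/
  evp : PV → Val
  /-- value of a product: domain type, product type, value of the domain, values of the codomain -/
  piC : Q → Q → C → (Q → PV → C) → C
  /-- value of a sort -/
  srtC : S → C
  /-- default -/
  b : C

/-- extension of a value environment -/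
def icons {X : Type*} (x : X) (ν : ℕ → X) : ℕ → X
  | 0 => x
  | n + 1 => ν n

@[simp] theorem icons_zero {X : Type*} (x : X) (ν : ℕ → X) : icons x ν 0 = x := rfl
@[simp] theorem icons_succ {X : Type*} (x : X) (ν : ℕ → X) (n : ℕ) : icons x ν (n + 1) = ν n := rfl

/-- the evaluator on raw terms -/
def ev (E : Evs S Q Val PV C) : Term S → (ℕ → Term S) → (ℕ → UF Q Val C) → UF Q Val C
  | var x, _, ν => ν x
  | sort s, _, _ => fun _ => E.srtC s
  | app M N, θ, ν => fun p =>
      ev E M θ ν ((E.cl (sub θ N), E.pack (E.dty (E.cl (sub θ M))) (ev E N θ ν)) :: p)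
  | lam _ M, θ, ν => fun p => match p with
      | [] => E.b
      | x :: p => ev E M (scons (E.rep x.1) θ) (icons (E.evl x.2) ν) p
  | pi A B, θ, ν => fun _ => E.piC (E.cl (sub θ A)) (E.cl (sub θ (pi A B))) (ev E A θ ν [])
      (fun a v => ev E B (scons (E.rep a) θ) (icons (E.evl (E.evp v)) ν) [])

section raw
variable (E : Evs S Q Val PV C)

@[simp] theorem ev_var (x : ℕ) (θ : ℕ → Term S) (ν : ℕ → UF Q Val C) : ev E (var x) θ ν = ν x := rfl
@[simp] theorem ev_sort (s : S) (θ : ℕ → Term S) (ν : ℕ → UF Q Val C) (p : Args Q Val) :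
    ev E (sort s) θ ν p = E.srtC s := rfl
theorem ev_app (M N : Term S) (θ : ℕ → Term S) (ν : ℕ → UF Q Val C) (p : Args Q Val) :
    ev E (app M N) θ ν p = ev E M θ ν
      ((E.cl (sub θ N), E.pack (E.dty (E.cl (sub θ M))) (ev E N θ ν)) :: p) := rfl
@[simp] theorem ev_lam_nil (A M : Term S) (θ : ℕ → Term S) (ν : ℕ → UF Q Val C) :
    ev E (lam A M) θ ν [] = E.b := rfl
@[simp] theorem ev_lam_cons (A M : Term S) (θ : ℕ → Term S) (ν : ℕ → UF Q Val C) (x : Q × Val)
    (p : Args Q Val) :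
    ev E (lam A M) θ ν (x :: p) = ev E M (scons (E.rep x.1) θ) (icons (E.evl x.2) ν) p := rfl
theorem ev_pi (A B : Term S) (θ : ℕ → Term S) (ν : ℕ → UF Q Val C) (p : Args Q Val) :
    ev E (pi A B) θ ν p = E.piC (E.cl (sub θ A)) (E.cl (sub θ (pi A B))) (ev E A θ ν [])
      (fun a v => ev E B (scons (E.rep a) θ) (icons (E.evl (E.evp v)) ν) []) := rfl

theorem scons_up (a : Term S) (θ : ℕ → Term S) (ξ : ℕ → ℕ) :
    (fun n => scons a θ (up ξ n)) = scons a (fun n => θ (ξ n)) := by
  funext n; cases n <;> rfl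

theorem icons_up {X : Type*} (x : X) (ν : ℕ → X) (ξ : ℕ → ℕ) :
    (fun n => icons x ν (up ξ n)) = icons x (fun n => ν (ξ n)) := by
  funext n; cases n <;> rfl

theorem ev_ren (M : Term S) : ∀ (ξ : ℕ → ℕ) (θ : ℕ → Term S) (ν : ℕ → UF Q Val C),
    ev E (ren ξ M) θ ν = ev E M (fun n => θ (ξ n)) (fun n => ν (ξ n)) := by
  induction M with
  | var x => intro ξ θ ν; rfl
  | sort s => intro ξ θ ν; rfl
  | app M N ihM ihN =>
      intro ξ θ ν
      funext p
      simp only [ren_app, ev_app, ihM, ihN, sub_ren]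
  | lam A M _ ihM =>
      intro ξ θ ν
      funext p
      cases p with
      | nil => rfl
      | cons x p => simp only [ren_lam, ev_lam_cons, ihM, scons_up, icons_up]
  | pi A B ihA ihB =>
      intro ξ θ ν
      funext p
      have h : sub θ (ren ξ (pi A B)) = sub (fun n => θ (ξ n)) (pi A B) := sub_ren _ _ _
      rw [ren_pi] at h
      simp only [ren_pi, ev_pi, ihA, ihB, scons_up, icons_up, h, sub_ren]

theorem scons_ups (a : Term S) (θ : ℕ → Term S) (σ : ℕ → Term S) :
    (fun n => sub (scons a θ) (ups σ n)) = scons a (fun n => sub θ (σ n)) := by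
  funext n
  cases n with
  | zero => rfl
  | succ n => simp only [ups_succ, wk, sub_ren, Nat.succ_eq_add_one, scons_succ]

theorem icons_ups (a : Term S) (θ : ℕ → Term S) (f : UF Q Val C) (ν : ℕ → UF Q Val C)
    (σ : ℕ → Term S) :
    (fun n => ev E (ups σ n) (scons a θ) (icons f ν)) = icons f (fun n => ev E (σ n) θ ν) := by
  funext n
  cases n with
  | zero => rfl
  | succ n => simp only [ups_succ, wk, ev_ren, Nat.succ_eq_add_one, scons_succ, icons_succ]

/-- LITERAL substitution lemma -/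
theorem ev_sub (M : Term S) : ∀ (σ θ : ℕ → Term S) (ν : ℕ → UF Q Val C),
    ev E (sub σ M) θ ν = ev E M (fun n => sub θ (σ n)) (fun n => ev E (σ n) θ ν) := by
  induction M with
  | var x => intro σ θ ν; rfl
  | sort s => intro σ θ ν; rfl
  | app M N ihM ihN =>
      intro σ θ ν
      funext p
      simp only [sub_app, ev_app, ihM, ihN, sub_sub]
  | lam A M _ ihM =>
      intro σ θ ν
      funext p
      cases p with
      | nil => rfl
      | cons x p => simp only [sub_lam, ev_lam_cons, ihM, scons_ups, icons_ups]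
  | pi A B ihA ihB =>
      intro σ θ ν
      funext p
      have h : sub θ (sub σ (pi A B)) = sub (fun n => sub θ (σ n)) (pi A B) := sub_sub _ _ _
      rw [sub_pi] at h
      simp only [sub_pi, ev_pi, ihA, ihB, scons_ups, icons_ups, h, sub_sub]

end raw

theorem betaEq_ups {σ τ : ℕ → Term S} (h : ∀ n, BetaEq (σ n) (τ n)) :
    ∀ n, BetaEq (ups σ n) (ups τ n)
  | 0 => .refl _
  | n + 1 => BetaEq.ren (h n) _

/-- conversion of the substituted terms -/
theorem betaEq_sub (M : Term S) : ∀ {σ τ : ℕ → Term S}, (∀ n, BetaEq (σ n) (τ n)) →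
    BetaEq (sub σ M) (sub τ M) := by
  induction M with
  | var x => intro σ τ h; exact h x
  | sort s => intro σ τ h; exact .refl _
  | app M N ihM ihN => intro σ τ h; exact BetaEq.app (ihM h) (ihN h)
  | lam A M ihA ihM => intro σ τ h; exact BetaEq.lam (ihA h) (ihM (betaEq_ups h))
  | pi A M ihA ihM => intro σ τ h; exact BetaEq.pi (ihA h) (ihM (betaEq_ups h))

theorem betaEq_scons {a a' : Term S} {θ θ' : ℕ → Term S} (h : BetaEq a a')
    (h' : ∀ n, BetaEq (θ n) (θ' n)) : ∀ n, BetaEq (scons a θ n) (scons a' θ' n)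
  | 0 => h
  | n + 1 => h' n

/-- conversion of `θ` -/
theorem ev_theta (E : Evs S Q Val PV C) (hcl : ∀ M N, BetaEq M N → E.cl M = E.cl N) (M : Term S) :
    ∀ {θ θ' : ℕ → Term S} (ν : ℕ → UF Q Val C), (∀ n, BetaEq (θ n) (θ' n)) →
      ev E M θ ν = ev E M θ' ν := by
  induction M with
  | var x => intro θ θ' ν _; rfl
  | sort s => intro θ θ' ν _; rfl
  | app M N ihM ihN =>
      intro θ θ' ν h
      funext p
      rw [ev_app, ev_app, ihM ν h, ihN ν h, hcl _ _ (betaEq_sub N h), hcl _ _ (betaEq_sub M h)]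
  | lam A M _ ihM =>
      intro θ θ' ν h
      funext p
      cases p with
      | nil => rfl
      | cons x p =>
          rw [ev_lam_cons, ev_lam_cons, ihM _ (betaEq_scons (.refl _) h)]
  | pi A B ihA ihB =>
      intro θ θ' ν h
      funext p
      rw [ev_pi, ev_pi, ihA ν h, hcl _ _ (betaEq_sub (pi A B) h), hcl _ _ (betaEq_sub A h)]
      congr 1
      funext a v
      rw [ihB _ (betaEq_scons (.refl _) h)]

/-! ### the laws -/

/-- the laws of the data; `V` = complete argument lists valid for a closed type, `rng` = values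
admitted at a closed type, `G` = good value functions (small support) -/
structure Laws (P : Spec S) (𝒟 : Set S) (W : ℕ → Term S) (E : Evs S Q Val PV C)
    (V : Q → Args Q Val → Prop) (rng : Q → Val → Prop) (G : UF Q Val C → Prop) : Prop where
  wf : WfF P W
  cl_eq : ∀ M N, BetaEq M N → E.cl M = E.cl N
  rep_beq : ∀ M A, TyF P W M A → BetaEq (E.rep (E.cl M)) M
  rep_ty : ∀ M A, TyF P W M A → TyF P W (E.rep (E.cl M)) A
  dty : ∀ F A B, TyF P W F (pi A B) → E.dty (E.cl F) = E.cl A
  V_sort : ∀ s l, V (E.cl (sort s)) l ↔ l = [] ∧ s ∈ 𝒟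
  V_cons : ∀ A B c a v l, TyF P W (pi A B) (sort c) → TyF P W (E.rep a) A →
    E.cl (E.rep a) = a → rng (E.cl A) v → V (E.cl (inst (E.rep a) B)) l →
    V (E.cl (pi A B)) ((a, v) :: l)
  V_inv : ∀ A B c l, TyF P W (pi A B) (sort c) → V (E.cl (pi A B)) l →
    ∃ a v l', l = (a, v) :: l' ∧ TyF P W (E.rep a) A ∧ rng (E.cl A) v ∧
      V (E.cl (inst (E.rep a) B)) l'
  V_rel : ∀ K k l, TyF P W K (sort k) → V (E.cl K) l → RelS P 𝒟 k
  pack_rng : ∀ A a f, TyF P W A (sort a) → rng (E.cl A) (E.pack (E.cl A) f)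
  pack_congr : ∀ A a f g, TyF P W A (sort a) → (∀ l, V (E.cl A) l → f l = g l) →
    E.pack (E.cl A) f = E.pack (E.cl A) g
  evl_pack : ∀ A a f l, TyF P W A (sort a) → Sgn P 𝒟 a → G f → V (E.cl A) l →
    E.evl (E.pack (E.cl A) f) l = f l
  pi_congr : ∀ A B a b c x x' f f', c ∈ 𝒟 → P.rule a b c → TyF P W A (sort a) →
    TyF P (fcons A W) B (sort b) → (a ∈ 𝒟 → x = x') →
    (b ∈ 𝒟 → ∀ q v, TyF P W (E.rep q) A → rng (E.cl A) (E.evp v) → f q v = f' q v) →
    E.piC (E.cl A) (E.cl (pi A B)) x f = E.piC (E.cl A) (E.cl (pi A B)) x' f'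
  good_evl : ∀ v, G (E.evl v)
  good_ev : ∀ M θ ν, (∀ n, G (ν n)) → G (ev E M θ ν)

section typed

variable {P : Spec S} {𝒟 : Set S} {W : ℕ → Term S} {E : Evs S Q Val PV C}
  {V : Q → Args Q Val → Prop} {rng : Q → Val → Prop} {G : UF Q Val C → Prop}

theorem Laws.cl_rep (L : Laws P 𝒟 W E V rng G) {M A : Term S} (h : TyF P W M A) :
    E.cl (E.rep (E.cl M)) = E.cl M := L.cl_eq _ _ (L.rep_beq _ _ h)

theorem Laws.cl_sub (L : Laws P 𝒟 W E V rng G) {T T' : Term S} (e : BetaEq T T')
    (θ : ℕ → Term S) : E.cl (sub θ T) = E.cl (sub θ T') := L.cl_eq _ _ (BetaEq.sub e θ)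

/-- valid lists at an open type convertible to a sort -/
theorem Laws.V_sort' (L : Laws P 𝒟 W E V rng G) {T : Term S} {s : S} {θ : ℕ → Term S}
    {l : Args Q Val} (e : BetaEq T (sort s)) (hV : V (E.cl (sub θ T)) l) : l = [] ∧ s ∈ 𝒟 := by
  rw [L.cl_sub e θ] at hV
  exact (L.V_sort s l).1 hV

theorem Laws.V_nil (L : Laws P 𝒟 W E V rng G) {s : S} (h : s ∈ 𝒟) (θ : ℕ → Term S) :
    V (E.cl (sub θ (sort s))) [] := (L.V_sort s []).2 ⟨rfl, h⟩

/-- valid lists at an open type convertible to a product -/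
theorem Laws.V_inv' (L : Laws P 𝒟 W E V rng G) {Γ : ℕ → Term S} {T A B : Term S} {c : S}
    {θ : ℕ → Term S} {l : Args Q Val} (hs : SubF P θ Γ W) (hp : TyF P Γ (pi A B) (sort c))
    (e : BetaEq T (pi A B)) (hV : V (E.cl (sub θ T)) l) :
    ∃ a v l', l = (a, v) :: l' ∧ TyF P W (E.rep a) (sub θ A) ∧ rng (E.cl (sub θ A)) v ∧
      V (E.cl (sub (scons (E.rep a) θ) B)) l' := by
  rw [L.cl_sub e θ] at hV
  have hp' : TyF P W (pi (sub θ A) (sub (ups θ) B)) (sort c) := tyf_sub hp hs
  obtain ⟨a, v, l', h1, h2, h3, h4⟩ := L.V_inv _ _ _ _ hp' hV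
  rw [← sub_scons] at h4
  exact ⟨a, v, l', h1, h2, h3, h4⟩

/-- the argument list met by the function of an application -/
theorem Laws.V_app (L : Laws P 𝒟 W E V rng G) {Γ : ℕ → Term S} {F N T A B : Term S}
    {θ : ℕ → Term S} {l : Args Q Val} (hs : SubF P θ Γ W)
    (hF : TyF P Γ F (pi A B)) (hN : TyF P Γ N A) (e : BetaEq T (inst N B))
    (hV : V (E.cl (sub θ T)) l) (f : UF Q Val C) :
    V (E.cl (sub θ (pi A B)))
      ((E.cl (sub θ N), E.pack (E.dty (E.cl (sub θ F))) f) :: l) := by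
  have hF' : TyF P W (sub θ F) (pi (sub θ A) (sub (ups θ) B)) := tyf_sub hF hs
  have hN' : TyF P W (sub θ N) (sub θ A) := tyf_sub hN hs
  obtain ⟨c, hp⟩ := fpi_typed L.wf hF'
  obtain ⟨a, hA⟩ := fpi_dom hp
  rw [L.dty _ _ _ hF', sub_pi]
  refine L.V_cons _ _ c _ _ _ hp (L.rep_ty _ _ hN') (L.cl_rep hN') (L.pack_rng _ _ _ hA) ?_
  have e1 : BetaEq (sub θ T) (inst (E.rep (E.cl (sub θ N))) (sub (ups θ) B)) := by
    refine BetaEq.trans (BetaEq.sub e θ) ?_
    rw [sub_inst, inst, inst]
    refine betaEq_sub _ (betaEq_scons (BetaEq.symm (L.rep_beq _ _ hN')) fun _ => .refl _)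
  rw [← L.cl_eq _ _ e1]
  exact hV

/-- TYPED COINCIDENCE: only the values at the lists valid for the declared types matter -/
theorem ev_coin (L : Laws P 𝒟 W E V rng G) (M : Term S) :
    ∀ {Γ : ℕ → Term S} {T : Term S} {θ : ℕ → Term S} {ν ν' : ℕ → UF Q Val C} {l : Args Q Val},
      TyF P Γ M T → SubF P θ Γ W →
      (∀ n l, V (E.cl (sub θ (Γ n))) l → ν n l = ν' n l) →
      V (E.cl (sub θ T)) l → ev E M θ ν l = ev E M θ ν' l := by
  have ext : ∀ {Γ : ℕ → Term S} {θ : ℕ → Term S} {ν ν' : ℕ → UF Q Val C} {A a : Term S}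
      (f : UF Q Val C), (∀ n l, V (E.cl (sub θ (Γ n))) l → ν n l = ν' n l) →
      ∀ n l, V (E.cl (sub (scons a θ) (fcons A Γ n))) l → icons f ν n l = icons f ν' n l := by
    intro Γ θ ν ν' A a f h n l hV
    cases n with
    | zero => rfl
    | succ n =>
        refine h n l ?_
        simpa only [fcons_succ, wk, sub_ren, Nat.succ_eq_add_one, scons_succ] using hV
  induction M with
  | var i =>
      intro Γ T θ ν ν' l hM hs h hV
      obtain ⟨_, e⟩ := fgen_var hM _ rfl
      rw [L.cl_sub e θ] at hV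
      exact h i l hV
  | sort s => intro Γ T θ ν ν' l _ _ _ _; rfl
  | app F N ihF ihN =>
      intro Γ T θ ν ν' l hM hs h hV
      obtain ⟨A, B, hF, hN, e⟩ := fgen_app hM _ _ rfl
      have hF' : TyF P W (sub θ F) (pi (sub θ A) (sub (ups θ) B)) := tyf_sub hF hs
      obtain ⟨c, hp⟩ := fpi_typed L.wf hF'
      obtain ⟨a, hA⟩ := fpi_dom hp
      have hpk : E.pack (E.dty (E.cl (sub θ F))) (ev E N θ ν) =
          E.pack (E.dty (E.cl (sub θ F))) (ev E N θ ν') := by
        rw [L.dty _ _ _ hF']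
        exact L.pack_congr _ _ _ _ hA (fun l hl => ihN hN hs h hl)
      rw [ev_app, ev_app, ← hpk]
      exact ihF hF hs h (L.V_app hs hF hN e hV _)
  | lam A M _ ihM =>
      intro Γ T θ ν ν' l hM hs h hV
      obtain ⟨B, s, hB, hp, e⟩ := fgen_lam hM _ _ rfl
      obtain ⟨a, v, l', rfl, h1, h2, h3⟩ := L.V_inv' hs hp e hV
      rw [ev_lam_cons, ev_lam_cons]
      exact ihM hB (hs.scons h1) (ext _ h) h3
  | pi A B ihA ihB =>
      intro Γ T θ ν ν' l hM hs h hV
      obtain ⟨a, b, c, hA, hB, r, e⟩ := fgen_pi hM _ _ rfl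
      obtain ⟨rfl, hc⟩ := L.V_sort' e hV
      rw [ev_pi, ev_pi, sub_pi]
      refine L.pi_congr _ _ a b c _ _ _ _ hc r (tyf_sub hA hs)
        (tyf_sub hB (hs.ups (tyf_sub hA hs))) (fun ha => ?_) (fun hb q v hq _ => ?_)
      · exact ihA hA hs h (L.V_nil ha θ)
      · exact ihB hB (hs.scons hq) (ext _ h) (L.V_nil hb _)

/-- TYPED SUBSTITUTION LEMMA -/
theorem ev_subst (L : Laws P 𝒟 W E V rng G) {M T : Term S} {Γ Γ' : ℕ → Term S}
    {σ θ : ℕ → Term S} {ν ν' : ℕ → UF Q Val C} {l : Args Q Val}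
    (hM : TyF P Γ M T) (hσ : SubF P σ Γ Γ') (hs : SubF P θ Γ' W)
    (h : ∀ n l, V (E.cl (sub θ (sub σ (Γ n)))) l → ν' n l = ev E (σ n) θ ν l)
    (hV : V (E.cl (sub θ (sub σ T))) l) :
    ev E (sub σ M) θ ν l = ev E M (fun n => sub θ (σ n)) ν' l := by
  rw [ev_sub]
  refine ev_coin L M hM (hσ.comp hs) (fun n l hl => ?_) (by rwa [sub_sub] at hV)
  rw [h n l (by rwa [sub_sub])]

/-- `V` at an exact type proves that the type may be relevant -/
theorem Laws.rt (L : Laws P 𝒟 W E V rng G) {Γ : ℕ → Term S} {T : Term S} {θ : ℕ → Term S}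
    {l : Args Q Val} (hs : SubF P θ Γ W) (hV : V (E.cl (sub θ T)) l) : RT P 𝒟 Γ T := by
  refine ⟨fun t ht => ?_, fun s e => (L.V_sort' e hV).2⟩
  obtain ⟨T', e, hT'⟩ := ht
  rw [L.cl_sub e θ] at hV
  exact L.V_rel _ t l (tyf_sub hT' hs) hV

/-- BETA: the domain type has a signed sort -/
theorem ev_inst (L : Laws P 𝒟 W E V rng G) {M N A B : Term S} {Γ : ℕ → Term S} {a : S}
    {θ : ℕ → Term S} {ν : ℕ → UF Q Val C} {l : Args Q Val} (w : WfF P Γ)
    (hM : TyF P (fcons A Γ) M B) (hN : TyF P Γ N A) (hA : TyF P Γ A (sort a))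
    (ha : RelS P 𝒟 a → Sgn P 𝒟 a) (hs : SubF P θ Γ W) (hG : ∀ n, G (ν n))
    (hV : V (E.cl (sub θ (inst N B))) l) :
    ev E (inst N M) θ ν l =
      ev E M (scons (E.rep (E.cl (sub θ N))) θ)
        (icons (E.evl (E.pack (E.cl (sub θ A)) (ev E N θ ν))) ν) l := by
  have hN' : TyF P W (sub θ N) (sub θ A) := tyf_sub hN hs
  have hA' : TyF P W (sub θ A) (sort a) := tyf_sub hA hs
  have hσ : SubF P (scons N Term.var) (fcons A Γ) Γ :=
    (SubF.var w).scons (by rwa [sub_id])
  have key := ev_subst L (ν' := icons (E.evl (E.pack (E.cl (sub θ A)) (ev E N θ ν))) ν)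
    (ν := ν) hM hσ hs (fun n l hl => ?_) hV
  · refine Eq.trans key ?_
    refine congrFun (ev_theta E L.cl_eq M _ fun n => ?_) l
    cases n with
    | zero => exact BetaEq.symm (L.rep_beq _ _ hN')
    | succ n => exact .refl _
  · cases n with
    | zero =>
        have e0 : sub (scons N Term.var) (fcons A Γ 0) = A := by
          simp only [fcons_zero, wk, sub_ren, Nat.succ_eq_add_one, scons_succ]
          exact sub_id _
        rw [e0] at hl
        exact L.evl_pack _ a _ _ hA' (ha (L.V_rel _ a l hA' hl)) (L.good_ev _ _ _ hG) hl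
    | succ n => rfl

/-- **BETA STEP** from a good term at a valid argument list -/
theorem ev_step (L : Laws P 𝒟 W E V rng G) {Γ : ℕ → Term S} {M T : Term S}
    (h : Gd P 𝒟 Γ M T) : ∀ {M' : Term S} {θ : ℕ → Term S} {ν : ℕ → UF Q Val C} {l : Args Q Val},
      WfF P Γ → SubF P θ Γ W → (∀ n, G (ν n)) → Beta M M' → V (E.cl (sub θ T)) l →
      ev E M θ ν l = ev E M' θ ν l := by
  have extG : ∀ {ν : ℕ → UF Q Val C} (v : Val), (∀ n, G (ν n)) → ∀ n, G (icons (E.evl v) ν n) := by
    intro ν v h n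
    cases n with
    | zero => exact L.good_evl v
    | succ n => exact h n
  induction h with
  | irr h hn => intro M' θ ν l w hs hG b hV; exact (hn (L.rt hs hV)).elim
  | var h => intro M' θ ν l w hs hG b hV; cases b
  | sort h => intro M' θ ν l w hs hG b hV; cases b
  | @pi Γ A B T a b c h hA hB r e ihA ihB =>
      intro M' θ ν l w hs hG st hV
      obtain ⟨rfl, hc⟩ := L.V_sort' e hV
      have tA := tyf_sub hA.typed hs
      have tB := tyf_sub hB.typed (hs.ups tA)
      cases st with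
      | @piA _ A' _ st =>
          have e1 : BetaEq (sub θ A) (sub θ A') := BetaEq.sub (.rel _ _ st) θ
          rw [ev_pi, ev_pi, sub_pi, sub_pi, ← L.cl_eq _ _ e1,
            ← L.cl_eq _ _ (BetaEq.pi e1 (.refl (sub (ups θ) B)))]
          refine L.pi_congr _ _ a b c _ _ _ _ hc r tA tB (fun ha => ?_) (fun _ _ _ _ _ => rfl)
          exact ihA w hs hG st (L.V_nil ha θ)
      | @piB _ _ B' st =>
          have e1 : BetaEq (sub (ups θ) B) (sub (ups θ) B') := BetaEq.sub (.rel _ _ st) _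
          rw [ev_pi, ev_pi, sub_pi, sub_pi,
            ← L.cl_eq _ _ (BetaEq.pi (.refl (sub θ A)) e1)]
          refine L.pi_congr _ _ a b c _ _ _ _ hc r tA tB (fun _ => rfl) (fun hb q v hq _ => ?_)
          exact ihB (w.cons hA.typed) (hs.scons hq) (extG _ hG) st (L.V_nil hb _)
  | @lam Γ A M B T h hM e ihM =>
      intro M' θ ν l w hs hG st hV
      obtain ⟨B', s, hB', hp, e'⟩ := fgen_lam h _ _ rfl
      have hp2 : TyF P Γ (Term.pi A B') (sort s) := hp
      obtain ⟨e1, e2⟩ := pi_inj (BetaEq.trans (BetaEq.symm e) e')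
      obtain ⟨a, v, l', rfl, h1, h2, h3⟩ := L.V_inv' hs hp e' hV
      rw [← L.cl_sub e2] at h3
      cases st with
      | lamA _ st => rfl
      | lamM _ st =>
          rw [ev_lam_cons, ev_lam_cons]
          obtain ⟨s', hA⟩ := fpi_dom hp
          exact ihM (w.cons hA) (hs.scons h1) (extG _ hG) st h3
  | @app Γ F N A B T h hF hN e hl ihF ihN =>
      intro M' θ ν l w hs hG st hV
      have tF : TyF P W (sub θ F) (Term.pi (sub θ A) (sub (ups θ) B)) := tyf_sub hF.typed hs
      obtain ⟨c0, hp⟩ := fpi_typed L.wf tF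
      obtain ⟨a0, tA⟩ := fpi_dom hp
      have hV' := fun f => L.V_app hs hF.typed hN.typed e hV f
      cases st with
      | @appL _ F' _ st =>
          rw [ev_app, ev_app, ← L.cl_eq _ _ (BetaEq.sub (.rel _ _ st) θ)]
          exact ihF w hs hG st (hV' _)
      | @appR _ _ N' st =>
          have hpk : E.pack (E.dty (E.cl (sub θ F))) (ev E N θ ν) =
              E.pack (E.dty (E.cl (sub θ F))) (ev E N' θ ν) := by
            rw [L.dty _ _ _ tF]
            exact L.pack_congr _ _ _ _ tA (fun l hl => ihN w hs hG st hl)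
          rw [ev_app, ev_app, ← hpk, L.cl_eq _ _ (BetaEq.sub (.rel _ _ st) θ)]
      | redex A0 M _ =>
          rw [subst_eq]
          obtain ⟨c, hc, hsg⟩ := hl trivial
          have hrt : RT P 𝒟 Γ (inst N B) := (L.rt hs hV).conv e
          obtain ⟨a, b, r, hA, _, _, hsa⟩ := signed_parts w hc hsg hN.typed hrt
          obtain ⟨B1, s, hM, hp1, e1⟩ := fgen_lam hF.typed _ _ rfl
          obtain ⟨e2, e3⟩ := pi_inj e1
          obtain ⟨s0, hA0⟩ := fpi_dom hp1
          obtain ⟨A', e4, hA'⟩ := hA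
          have e5 : BetaEq A0 A' := BetaEq.trans (BetaEq.symm e2) e4
          have hM' : TyF P (fcons A' Γ) M B1 := fctx_conv w hM hA0 hA' e5
          have hN' : TyF P Γ N A' := .conv hN.typed hA' e4
          have e6 : BetaEq T (inst N B1) := BetaEq.trans e (BetaEq.sub e3 _)
          rw [ev_app, ev_lam_cons, L.dty _ _ _ tF, L.cl_sub e4 θ]
          rw [L.cl_sub e6 θ] at hV
          exact (ev_inst L w hM' hN' hA' hsa hs hG hV).symm

/-- beta reductions from a good term preserve the value at valid argument lists -/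
theorem ev_steps (L : Laws P 𝒟 W E V rng G) {Γ : ℕ → Term S} {M M' T : Term S}
    (w : WfF P Γ) (h : Gd P 𝒟 Γ M T) (r : Red M M') {θ : ℕ → Term S} {ν : ℕ → UF Q Val C}
    {l : Args Q Val} (hs : SubF P θ Γ W) (hG : ∀ n, G (ν n)) (hV : V (E.cl (sub θ T)) l) :
    ev E M θ ν l = ev E M' θ ν l := by
  induction r with
  | refl => rfl
  | tail r b ih => exact ih.trans (ev_step L (gd_red w h r) w hs hG b hV)

/-- **the equality half of (R4)**: `B`, `N` normal, `x : A` bound in a product of a rule `(a,b,c)`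
with `b, c ∈ 𝒟`; `B'` any reduct of `B[N]` (its normal form) -/
theorem ev_nf_inst (L : Laws P 𝒟 W E V rng G) {Γ : ℕ → Term S} {A B N T B' : Term S} {a b c : S}
    (w : WfF P Γ) (hB : TyF P (fcons A Γ) B T) (nB : Normal B) (hN : TyF P Γ N A)
    (nN : Normal N) (hA : TyF P Γ A (sort a)) (r : P.rule a b c) (hb : b ∈ 𝒟) (hc : c ∈ 𝒟)
    (hr : Red (inst N B) B') {θ : ℕ → Term S} {ν : ℕ → UF Q Val C}
    {l : Args Q Val} (hs : SubF P θ Γ W) (hG : ∀ n, G (ν n))
    (hV : V (E.cl (sub θ (inst N T))) l) :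
    ev E B' θ ν l =
      ev E B (scons (E.rep (E.cl (sub θ N))) θ)
        (icons (E.evl (E.pack (E.cl (sub θ A)) (ev E N θ ν))) ν) l := by
  rw [← ev_steps L w (gd_start w hB nB hN nN hA r hb hc) hr hs hG hV]
  exact ev_inst L w hB hN hA (fun ha => ⟨true, .base r hb hc ha⟩) hs hG hV

end typed

end Crest.Agent.R298.Ok425
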