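import Crest.Agent.R298.Sub_893
import Crest.Agent.R298.Uniq_452

/-!
R298 (S0452), helper599: typed substitution / congruence lemma and beta invariance of the
interpretation `den` (Cod_893) along the evaluation.

`OK Y M G T θ ν p` (`G ⊢ M : T`, path `p` valid for `T[θ]`): every redex which is looked at has a
live function type; at a dead (relevant, not live) function type the function is neutral.
The open typing is carried, so the ambiguity of the final sort never appears.
-/

set_option autoImplicit false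

namespace Crest.Agent.R298.Ok599

open Crest.LogicCS.PTS Crest.LogicCS.PTS.Term Relation
open Crest.Agent.R298.Sub452 Crest.Agent.R298.Par452 Crest.Agent.R298.Ty452
open Crest.Agent.R298.TyF452 Crest.Agent.R298.Uniq452 Crest.Agent.R298.Cod893

variable {S Q SI C : Type} {P : Spec S} {W : ℕ → Term S} {F : Frame S Q SI C}

/-- the closed type `T` is typed -/
def CT (P : Spec S) (W : ℕ → Term S) (T : Term S) : Prop := ∃ s, TyF P W T (.sort s)

/-- laws of a frame over a world `W` used for the typed substitution lemma -/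
structure Sys (P : Spec S) (W : ℕ → Term S) (F : Frame S Q SI C) where
  /-- sorts of the stage -/
  D : Set S
  /-- valid complete shapes of a closed type -/
  vt : Q → Sh Q SI C → Prop
  /-- live closed product types -/
  Live : Q → Prop
  /-- relevant closed types -/
  Rel : Q → Prop
  /-- closed types whose value is looked at -/
  Strict : Q → Prop
  /-- shapes of entries admitted at a closed domain type -/
  eok : Q → ESh Q SI C → Prop
  /-- entries admitted in a product (domain class, product class, argument, entry) -/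
  PR : Q → Q → Q → PEnt Q SI C → Prop
  wf : WfF P W
  nz_id : ∀ q s v, F.nz q s v = v
  cl_eq : ∀ {M N : Term S}, BetaEq M N → F.cl M = F.cl N
  rep_cl : ∀ M : Term S, BetaEq (F.rep (F.cl M)) M
  rep_ty : ∀ {M T : Term S}, TyF P W M T → TyF P W (F.rep (F.cl M)) T
  dty_eq : ∀ {M A B : Term S}, TyF P W M (.pi A B) → F.dty (F.cl M) = F.cl A
  vt_pi_nil : ∀ A B : Term S, ¬ vt (F.cl (.pi A B)) []
  vt_sort_cons : ∀ (c : S) (x : Q × ESh Q SI C) (s : Sh Q SI C), ¬ vt (F.cl (.sort c)) (x :: s)
  vt_sort : ∀ c : S, vt (F.cl (.sort c)) [] ↔ c ∈ D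
  vt_cons : ∀ {A B : Term S} (a : Q) (e : ESh Q SI C) (s : Sh Q SI C), CT P W (.pi A B) →
    (vt (F.cl (.pi A B)) ((a, e) :: s) ↔ Live (F.cl (.pi A B)) ∧ TyF P W (F.rep a) A ∧
      eok (F.cl A) e ∧ vt (F.cl (inst (F.rep a) B)) s)
  rel_vt : ∀ q s, vt q s → Rel q
  rel_pi : ∀ {A B N : Term S}, CT P W (.pi A B) → TyF P W N A → Rel (F.cl (inst N B)) →
    Rel (F.cl (.pi A B))
  live_inst : ∀ {A B N A' B' : Term S}, CT P W (.pi A B) → Live (F.cl (.pi A B)) →
    TyF P W N A → BetaEq (inst N B) (.pi A' B') → Rel (F.cl (inst N B)) →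
    Live (F.cl (inst N B))
  live_dom : ∀ {A B A' B' : Term S}, CT P W (.pi A B) → Live (F.cl (.pi A B)) →
    BetaEq A (.pi A' B') → Rel (F.cl A) → Live (F.cl A)
  eok_entry : ∀ {A : Term S} (u : UF Q SI C), CT P W A →
    ¬ ((∃ A' B', BetaEq A (.pi A' B')) ∧ Rel (F.cl A) ∧ ¬ Live (F.cl A)) →
    eok (F.cl A) (entry F (F.cl A) u).sh
  look_entry : ∀ {A : Term S} {u : UF Q SI C} {p : UPath Q SI C}, CT P W A → Good u →
    vt (F.cl A) (sh p) → look F (entry F (F.cl A) u) p = u p
  entry_congr : ∀ {A : Term S} {u v : UF Q SI C}, CT P W A →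
    (∀ p, vt (F.cl A) (sh p) → u p = v p) → entry F (F.cl A) u = entry F (F.cl A) v
  op_congr : ∀ {A B : Term S} {v v' : C} {f f' : Q → PEnt Q SI C → C},
    (Strict (F.cl A) → v = v') →
    (∀ a e, PR (F.cl A) (F.cl (.pi A B)) a e → f a e = f' a e) →
    F.op (F.cl A) (F.cl (.pi A B)) v f = F.op (F.cl A) (F.cl (.pi A B)) v' f'
  pr : ∀ {A B : Term S} {c : S} {a : Q} {e : PEnt Q SI C}, TyF P W (.pi A B) (.sort c) → c ∈ D →
    PR (F.cl A) (F.cl (.pi A B)) a e → TyF P W (F.rep a) A ∧
      ((∃ A' B', BetaEq A (.pi A' B')) ∧ Rel (F.cl A) ∧ ¬ Live (F.cl A) →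
        look F e.ent = fun _ => F.b) ∧ Strict (F.cl (inst (F.rep a) B))
  strict_dom : ∀ {A : Term S} {a b c : S}, TyF P W A (.sort a) → P.rule a b c → c ∈ D →
    Strict (F.cl A) → a ∈ D
  strict_cod : ∀ {B : Term S} {a b c : S}, TyF P W B (.sort b) → P.rule a b c → c ∈ D →
    Strict (F.cl B) → b ∈ D

/-- dead closed types: relevant products which are not live -/
def Sys.Dead (Y : Sys P W F) (T : Term S) : Prop :=
  (∃ A B, BetaEq T (.pi A B)) ∧ Y.Rel (F.cl T) ∧ ¬ Y.Live (F.cl T)

theorem Sys.Dead.conv {Y : Sys P W F} {T T' : Term S} (h : Y.Dead T) (e : BetaEq T T') :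
    Y.Dead T' := by
  obtain ⟨⟨A, B, h1⟩, h2, h3⟩ := h
  rw [Y.cl_eq e] at h2 h3
  exact ⟨⟨A, B, BetaEq.trans (BetaEq.symm e) h1⟩, h2, h3⟩

/-- environments -/
structure Env (Y : Sys P W F) (G θ : ℕ → Term S) (ν : ℕ → UF Q SI C) : Prop where
  wf : WfF P G
  sub : SubF P θ G W
  good : ∀ x, Good (ν x)
  dead : ∀ x, Y.Dead (Sub452.sub θ (G x)) → ν x = fun _ => F.b

/-- evaluation only looks at live redexes -/
def OK (Y : Sys P W F) : Term S → (ℕ → Term S) → Term S → (ℕ → Term S) → (ℕ → UF Q SI C) →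
    UPath Q SI C → Prop
  | .var _, _, _, _, _, _ => True
  | .sort _, _, _, _, _, _ => True
  | .app M N, G, T, θ, ν, p => ∃ A B, TyF P G M (.pi A B) ∧ TyF P G N A ∧
      BetaEq T (inst N B) ∧
      (Y.Live (F.cl (sub θ (.pi A B))) →
        OK Y M G (.pi A B) θ ν
          ((F.cl (sub θ N), entry F (F.cl (sub θ A)) (den F N θ ν)) :: p) ∧
        ∀ l : UPath Q SI C, Y.vt (F.cl (sub θ A)) (sh l) → OK Y N G A θ ν l) ∧
      (¬ Y.Live (F.cl (sub θ (.pi A B))) → Neu M)
  | .lam _ _, _, _, _, _, [] => True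
  | .lam A M, G, T, θ, ν, x :: p => ∃ A0 B s, BetaEq A A0 ∧ TyF P G (.pi A0 B) (.sort s) ∧
      TyF P (fcons A0 G) M B ∧ BetaEq T (.pi A0 B) ∧
      OK Y M (fcons A0 G) B (scons (F.rep x.1) θ) (icons (look F x.2) ν) p
  | .pi A B, G, T, θ, ν, [] => ∃ A0 a b c, BetaEq A A0 ∧ BetaEq T (.sort c) ∧ P.rule a b c ∧
      TyF P G A (.sort a) ∧ TyF P G A0 (.sort a) ∧ TyF P (fcons A0 G) B (.sort b) ∧
      (Y.Strict (F.cl (sub θ A)) → OK Y A G (.sort a) θ ν []) ∧
      ∀ q e, Y.PR (F.cl (sub θ A)) (F.cl (sub θ (.pi A B))) q e →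
        OK Y B (fcons A0 G) (.sort b) (scons (F.rep q) θ) (icons (look F e.ent) ν) []
  | .pi _ _, _, _, _, _, _ :: _ => True

/-- conversion of the type -/
theorem OK.conv {Y : Sys P W F} {M : Term S} {G : ℕ → Term S} {T T' : Term S}
    {θ : ℕ → Term S} {ν : ℕ → UF Q SI C} {p : UPath Q SI C} (h : OK Y M G T θ ν p)
    (e : BetaEq T T') : OK Y M G T' θ ν p := by
  cases M with
  | var x => trivial
  | sort s => trivial
  | app M N =>
      obtain ⟨A, B, h1, h2, h3, h4⟩ := h
      exact ⟨A, B, h1, h2, BetaEq.trans (BetaEq.symm e) h3, h4⟩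
  | lam A M =>
      cases p with
      | nil => trivial
      | cons x p =>
          obtain ⟨A0, B, s, h1, h2, h3, h4, h5⟩ := h
          exact ⟨A0, B, s, h1, h2, h3, BetaEq.trans (BetaEq.symm e) h4, h5⟩
  | pi A B =>
      cases p with
      | nil =>
          obtain ⟨A0, a, b, c, h1, h2, h3⟩ := h
          exact ⟨A0, a, b, c, h1, BetaEq.trans (BetaEq.symm e) h2, h3⟩
      | cons x p => trivial

theorem neu_ren {M : Term S} (h : Neu M) (ρ : ℕ → ℕ) : Neu (ren ρ M) := by
  induction h with
  | var i => exact .var _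
  | app N _ ih => exact .app _ ih

/-- renaming -/
theorem OK.ren {Y : Sys P W F} (M : Term S) : ∀ {G G' : ℕ → Term S} {T : Term S}
    {ρ : ℕ → ℕ} {θ θ' : ℕ → Term S} {ν ν' : ℕ → UF Q SI C} {p : UPath Q SI C},
    OK Y M G T θ ν p → RenF ρ G G' → (∀ x, θ' (ρ x) = θ x) → (∀ x, ν' (ρ x) = ν x) →
    OK Y (Sub452.ren ρ M) G' (Sub452.ren ρ T) θ' ν' p := by
  induction M with
  | var x => intros; trivial
  | sort s => intros; trivial
  | app M N ihM ihN =>
      intro G G' T ρ θ θ' ν ν' p h hr h1 h2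
      have e : ∀ t : Term S, sub θ' (Sub452.ren ρ t) = sub θ t := fun t => by
        rw [sub_ren]; congr 1; funext x; exact h1 x
      obtain ⟨A, B, a1, a2, a3, a4, a5⟩ := h
      refine ⟨Sub452.ren ρ A, Sub452.ren (up ρ) B, tyf_ren a1 hr, tyf_ren a2 hr, ?_, ?_, ?_⟩
      · rw [← ren_inst]; exact BetaEq.ren a3 ρ
      · rw [← ren_pi, e, e, e, den_ren F N ρ θ θ' ν ν' h1 h2]
        intro hL
        obtain ⟨b1, b2⟩ := a4 hL
        exact ⟨ihM b1 hr h1 h2, fun l hl => ihN (b2 l hl) hr h1 h2⟩
      · rw [← ren_pi, e]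
        intro hL
        exact neu_ren (a5 hL) ρ
  | lam A M ihA ihM =>
      intro G G' T ρ θ θ' ν ν' p h hr h1 h2
      cases p with
      | nil => trivial
      | cons x p =>
          obtain ⟨A0, B, s, a1, a2, a3, a4, a5⟩ := h
          refine ⟨Sub452.ren ρ A0, Sub452.ren (up ρ) B, s, BetaEq.ren a1 ρ, tyf_ren a2 hr,
            tyf_ren a3 (hr.up _), BetaEq.ren a4 ρ, ihM a5 (hr.up _) (fun x => ?_) (fun x => ?_)⟩
          · cases x with
            | zero => rfl
            | succ x => exact h1 x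
          · cases x with
            | zero => rfl
            | succ x => exact h2 x
  | pi A B ihA ihB =>
      intro G G' T ρ θ θ' ν ν' p h hr h1 h2
      have e : ∀ t : Term S, sub θ' (Sub452.ren ρ t) = sub θ t := fun t => by
        rw [sub_ren]; congr 1; funext x; exact h1 x
      cases p with
      | cons x p => trivial
      | nil =>
          obtain ⟨A0, a, b, c, a1, a2, a3, a4, a5, a6, a7, a8⟩ := h
          refine ⟨Sub452.ren ρ A0, a, b, c, BetaEq.ren a1 ρ, BetaEq.ren a2 ρ, a3,
            tyf_ren a4 hr, tyf_ren a5 hr, tyf_ren a6 (hr.up _), ?_, ?_⟩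
          · rw [e]
            intro hS
            exact ihA (a7 hS) hr h1 h2
          · rw [← ren_pi, e, e]
            intro q t hq
            refine ihB (a8 q t hq) (hr.up _) (fun x => ?_) (fun x => ?_)
            · cases x with
              | zero => rfl
              | succ x => exact h1 x
            · cases x with
              | zero => rfl
              | succ x => exact h2 x

/-- closed instance of a typed product -/
theorem ct_pi {Y : Sys P W F} {G θ : ℕ → Term S} {ν : ℕ → UF Q SI C} (E : Env Y G θ ν)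
    {M A B : Term S} (h : TyF P G M (.pi A B)) : CT P W (sub θ (.pi A B)) := by
  obtain ⟨s, hs⟩ := fpi_typed E.wf h
  exact ⟨s, tyf_sub hs E.sub⟩

theorem ct_dom {A B : Term S} (h : CT P W (.pi A B)) : CT P W A := by
  obtain ⟨s, hs⟩ := h
  exact fpi_dom hs

/-- neutral terms of a dead type have the default value -/
theorem neu_dead {Y : Sys P W F} {G θ : ℕ → Term S} {ν : ℕ → UF Q SI C} (E : Env Y G θ ν)
    {M : Term S} (n : Neu M) : ∀ {T : Term S}, TyF P G M T → Y.Dead (sub θ T) →
      ∀ p, den F M θ ν p = F.b := by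
  induction n with
  | var i =>
      intro T h hd p
      obtain ⟨_, e⟩ := fgen_var h _ rfl
      have := E.dead i (hd.conv (BetaEq.sub e θ))
      show F.nz _ _ (ν i p) = F.b
      rw [Y.nz_id, this]
  | @app M N n ih =>
      intro T h hd p
      obtain ⟨A, B, h1, h2, e⟩ := fgen_app h _ _ rfl
      have hd' := hd.conv (BetaEq.sub e θ)
      rw [sub_inst] at hd'
      have hc := ct_pi E h1
      have hN := tyf_sub h2 E.sub
      have hr : Y.Rel (F.cl (sub θ (.pi A B))) := Y.rel_pi hc hN hd'.2.1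
      have hl : ¬ Y.Live (F.cl (sub θ (.pi A B))) := fun hl => by
        obtain ⟨A', B', e'⟩ := hd'.1
        exact hd'.2.2 (Y.live_inst hc hl hN e' hd'.2.1)
      show F.nz _ _ (den F M θ ν _) = F.b
      rw [Y.nz_id]
      exact ih h1 ⟨⟨_, _, .refl _⟩, hr, hl⟩ _

/-- the relation between environments along a substitution -/
structure SR (Y : Sys P W F) (G θ : ℕ → Term S) (ν : ℕ → UF Q SI C) (G' : ℕ → Term S)
    (s : ℕ → Term S) (θ' : ℕ → Term S) (ν' : ℕ → UF Q SI C) : Prop where
  env : Env Y G θ ν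
  env' : Env Y G' θ' ν'
  sf : SubF P s G G'
  th : ∀ x, BetaEq (θ x) (sub θ' (s x))
  val : ∀ x (l : UPath Q SI C), Y.vt (F.cl (sub θ (G x))) (sh l) → den F (s x) θ' ν' l = ν x l
  ok : ∀ x (l : UPath Q SI C), Y.vt (F.cl (sub θ (G x))) (sh l) →
    OK Y (s x) G' (sub s (G x)) θ' ν' l
  dd : ∀ x, Y.Dead (sub θ (G x)) → ∃ y, s x = .var y

theorem SR.beq {Y : Sys P W F} {G θ : ℕ → Term S} {ν : ℕ → UF Q SI C} {G' s θ' : ℕ → Term S}
    {ν' : ℕ → UF Q SI C} (h : SR Y G θ ν G' s θ' ν') (t : Term S) :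
    BetaEq (sub θ' (sub s t)) (sub θ t) := by
  rw [sub_sub]
  exact betaEq_subs t (fun x => BetaEq.symm (h.th x))

theorem SR.cl {Y : Sys P W F} {G θ : ℕ → Term S} {ν : ℕ → UF Q SI C} {G' s θ' : ℕ → Term S}
    {ν' : ℕ → UF Q SI C} (h : SR Y G θ ν G' s θ' ν') (t : Term S) :
    F.cl (sub θ' (sub s t)) = F.cl (sub θ t) := Y.cl_eq (h.beq t)

theorem Env.cons {Y : Sys P W F} {G θ : ℕ → Term S} {ν : ℕ → UF Q SI C} (E : Env Y G θ ν)
    {A : Term S} {s : S} (hA : TyF P G A (.sort s)) {a : Term S}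
    (ha : TyF P W a (Sub452.sub θ A))
    {u : UF Q SI C} (hu : Good u) (hd : Y.Dead (Sub452.sub θ A) → u = fun _ => F.b) :
    Env Y (fcons A G) (scons a θ) (icons u ν) := by
  have e : ∀ t : Term S, Sub452.sub (scons a θ) (wk t) = Sub452.sub θ t := fun t => by
    rw [wk, sub_ren]; rfl
  refine ⟨E.wf.cons hA, E.sub.scons ha, fun x => ?_, fun x => ?_⟩
  · cases x with
    | zero => exact hu
    | succ x => exact E.good x
  · cases x with
    | zero => rw [fcons_zero, e]; exact hd
    | succ x => rw [fcons_succ, e]; exact E.dead x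

theorem SR.cons {Y : Sys P W F} {G θ : ℕ → Term S} {ν : ℕ → UF Q SI C} {G' s θ' : ℕ → Term S}
    {ν' : ℕ → UF Q SI C} (h : SR Y G θ ν G' s θ' ν') {A : Term S} {t : S}
    (hA : TyF P G A (.sort t)) {a : Term S} (ha : TyF P W a (sub θ A))
    {u : UF Q SI C} (hu : Good u) (hd : Y.Dead (sub θ A) → u = fun _ => F.b) :
    SR Y (fcons A G) (scons a θ) (icons u ν) (fcons (sub s A) G') (ups s) (scons a θ')
      (icons u ν') := by
  have e : ∀ (θ : ℕ → Term S) (t : Term S), Sub452.sub (scons a θ) (wk t) = Sub452.sub θ t :=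
    fun θ t => by rw [wk, sub_ren]; rfl
  have hA' : TyF P G' (sub s A) (.sort t) := tyf_sub hA h.sf
  have ha' : TyF P W a (sub θ' (sub s A)) :=
    .conv ha (tyf_sub hA' h.env'.sub) (BetaEq.symm (h.beq A))
  have hd' : Y.Dead (sub θ' (sub s A)) → u = fun _ => F.b := fun hh => hd (hh.conv (h.beq A))
  refine ⟨h.env.cons hA ha hu hd, h.env'.cons hA' ha' hu hd', h.sf.ups hA',
    fun x => ?_, fun x l hl => ?_, fun x l hl => ?_, fun x hx => ?_⟩
  · cases x with
    | zero => exact .refl _
    | succ x => rw [ups_succ, e]; exact h.th x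
  · cases x with
    | zero => exact Y.nz_id _ _ _
    | succ x =>
        rw [fcons_succ, e] at hl
        rw [ups_succ, den_wk]
        exact h.val x l hl
  · cases x with
    | zero => trivial
    | succ x =>
        rw [fcons_succ, e] at hl
        rw [ups_succ, fcons_succ, sub_wk]
        exact OK.ren (s x) (h.ok x l hl) (RenF.wk G' _) (fun _ => rfl) (fun _ => rfl)
  · cases x with
    | zero => exact ⟨0, rfl⟩
    | succ x =>
        rw [fcons_succ, e] at hx
        obtain ⟨y, hy⟩ := h.dd x hx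
        exact ⟨y + 1, by rw [ups_succ, hy]; rfl⟩

/-- neutral terms of a dead type stay neutral -/
theorem neu_sub {Y : Sys P W F} {G θ : ℕ → Term S} {ν : ℕ → UF Q SI C} {G' s θ' : ℕ → Term S}
    {ν' : ℕ → UF Q SI C} (h : SR Y G θ ν G' s θ' ν') {M : Term S} (n : Neu M) :
    ∀ {T : Term S}, TyF P G M T → Y.Dead (sub θ T) → Neu (sub s M) := by
  induction n with
  | var i =>
      intro T hT hd
      obtain ⟨_, e⟩ := fgen_var hT _ rfl
      obtain ⟨y, hy⟩ := h.dd i (hd.conv (BetaEq.sub e θ))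
      rw [sub_var, hy]
      exact .var y
  | @app M N n ih =>
      intro T hT hd
      obtain ⟨A, B, h1, h2, e⟩ := fgen_app hT _ _ rfl
      have hd' := hd.conv (BetaEq.sub e θ)
      rw [sub_inst] at hd'
      have hc := ct_pi h.env h1
      have hN := tyf_sub h2 h.env.sub
      have hr : Y.Rel (F.cl (sub θ (.pi A B))) := Y.rel_pi hc hN hd'.2.1
      have hl : ¬ Y.Live (F.cl (sub θ (.pi A B))) := fun hl => by
        obtain ⟨A', B', e'⟩ := hd'.1
        exact hd'.2.2 (Y.live_inst hc hl hN e' hd'.2.1)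
      exact .app _ (ih h1 ⟨⟨_, _, .refl _⟩, hr, hl⟩)

/-- a path valid for the value type of an application is valid for the function, if live -/
theorem vt_app {Y : Sys P W F} {G θ : ℕ → Term S} {ν : ℕ → UF Q SI C} (E : Env Y G θ ν)
    {M N A B T : Term S} (h1 : TyF P G M (.pi A B)) (h2 : TyF P G N A)
    (e : BetaEq T (inst N B)) {p : UPath Q SI C} (hp : Y.vt (F.cl (sub θ T)) (sh p))
    (hL : Y.Live (F.cl (sub θ (.pi A B)))) (u : UF Q SI C) :
    Y.vt (F.cl (sub θ (.pi A B))) (sh ((F.cl (sub θ N), entry F (F.cl (sub θ A)) u) :: p)) := by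
  have hc := ct_pi E h1
  have hN := tyf_sub h2 E.sub
  have hA : CT P W (sub θ A) := ct_dom hc
  rw [sh_cons]
  refine (Y.vt_cons _ _ _ hc).2 ⟨hL, Y.rep_ty hN, Y.eok_entry u hA ?_, ?_⟩
  · rintro ⟨⟨A', B', e1⟩, e2, e3⟩
    exact e3 (Y.live_dom hc hL e1 e2)
  · have e1 := BetaEq.sub e θ
    rw [sub_inst] at e1
    rw [Y.cl_eq e1] at hp
    rw [Y.cl_eq (BetaEq.inst (Y.rep_cl _) (.refl _))]
    exact hp

/-- relevance of the function type -/
theorem rel_app {Y : Sys P W F} {G θ : ℕ → Term S} {ν : ℕ → UF Q SI C} (E : Env Y G θ ν)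
    {M N A B T : Term S} (h1 : TyF P G M (.pi A B)) (h2 : TyF P G N A)
    (e : BetaEq T (inst N B)) {p : UPath Q SI C} (hp : Y.vt (F.cl (sub θ T)) (sh p)) :
    Y.Rel (F.cl (sub θ (.pi A B))) := by
  have e1 := BetaEq.sub e θ
  rw [sub_inst] at e1
  rw [Y.cl_eq e1] at hp
  exact Y.rel_pi (ct_pi E h1) (tyf_sub h2 E.sub) (Y.rel_vt _ _ hp)

/-- **SIM**: substitution, congruence and renaming in one typed statement -/
theorem sim {Y : Sys P W F} (M : Term S) : ∀ {G θ : ℕ → Term S} {ν : ℕ → UF Q SI C}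
    {G' s θ' : ℕ → Term S} {ν' : ℕ → UF Q SI C} {T : Term S} {p : UPath Q SI C},
    TyF P G M T → OK Y M G T θ ν p → Y.vt (F.cl (sub θ T)) (sh p) →
    SR Y G θ ν G' s θ' ν' →
    den F (sub s M) θ' ν' p = den F M θ ν p ∧ OK Y (sub s M) G' (sub s T) θ' ν' p := by
  induction M with
  | var x =>
      intro G θ ν G' s θ' ν' T p hT _ hp R
      obtain ⟨_, e⟩ := fgen_var hT _ rfl
      rw [Y.cl_eq (BetaEq.sub e θ)] at hp
      refine ⟨?_, OK.conv (R.ok x p hp) (BetaEq.sub (BetaEq.symm e) s)⟩
      rw [sub_var, R.val x p hp]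
      exact (Y.nz_id _ _ _).symm
  | sort c =>
      intro G θ ν G' s θ' ν' T p hT _ hp R
      exact ⟨rfl, trivial⟩
  | app M N ihM ihN =>
      intro G θ ν G' s θ' ν' T p hT hO hp R
      obtain ⟨A, B, h1, h2, e, h4, h5⟩ := hO
      have hc := ct_pi R.env h1
      have h1' := tyf_sub h1 R.sf
      have h2' := tyf_sub h2 R.sf
      have d1 : F.dty (F.cl (sub θ M)) = F.cl (sub θ A) := Y.dty_eq (tyf_sub h1 R.env.sub)
      have d2 : F.dty (F.cl (sub θ' (sub s M))) = F.cl (sub θ A) := by rw [R.cl]; exact d1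
      by_cases hL : Y.Live (F.cl (sub θ (.pi A B)))
      · obtain ⟨h6, h7⟩ := h4 hL
        have hN : ∀ l : UPath Q SI C, Y.vt (F.cl (sub θ A)) (sh l) →
            den F (sub s N) θ' ν' l = den F N θ ν l := fun l hl => (ihN h2 (h7 l hl) hl R).1
        have he : entry F (F.cl (sub θ A)) (den F (sub s N) θ' ν') =
            entry F (F.cl (sub θ A)) (den F N θ ν) := Y.entry_congr (ct_dom hc) hN
        have hv := vt_app R.env h1 h2 e hp hL (den F N θ ν)
        obtain ⟨h8, h9⟩ := ihM h1 h6 hv R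
        constructor
        · show F.nz _ _ _ = F.nz _ _ _
          rw [Y.nz_id, Y.nz_id, d1, d2, he]
          rw [R.cl N]
          exact h8
        · refine ⟨sub s A, sub (ups s) B, h1', h2', ?_, ?_, ?_⟩
          · rw [← sub_inst]; exact BetaEq.sub e s
          · rw [← sub_pi, R.cl, R.cl, R.cl, he]
            intro _
            exact ⟨h9, fun l hl => (ihN h2 (h7 l hl) hl R).2⟩
          · rw [← sub_pi, R.cl]
            intro h; exact absurd hL h
      · have hn := h5 hL
        have hd : Y.Dead (sub θ (.pi A B)) :=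
          ⟨⟨_, _, .refl _⟩, rel_app R.env h1 h2 e hp, hL⟩
        have hn' := neu_sub R hn h1 hd
        have hd' : Y.Dead (sub θ' (sub s (.pi A B))) := hd.conv (BetaEq.symm (R.beq _))
        constructor
        · show F.nz _ _ _ = F.nz _ _ _
          rw [Y.nz_id, Y.nz_id, neu_dead R.env hn h1 hd, neu_dead R.env' hn' h1' hd']
        · refine ⟨sub s A, sub (ups s) B, h1', h2', ?_, ?_, ?_⟩
          · rw [← sub_inst]; exact BetaEq.sub e s
          · rw [← sub_pi, R.cl]
            intro h; exact absurd h hL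
          · intro _; exact hn'
  | lam A M ihA ihM =>
      intro G θ ν G' s θ' ν' T p hT hO hp R
      cases p with
      | nil =>
          obtain ⟨B, t, _, _, e⟩ := fgen_lam hT _ _ rfl
          rw [Y.cl_eq (BetaEq.sub e θ)] at hp
          exact absurd hp (Y.vt_pi_nil _ _)
      | cons x p =>
          obtain ⟨A0, B, t, h1, h2', h3, h4, h5⟩ := hO
          have hc : CT P W (sub θ (.pi A0 B)) := ⟨t, tyf_sub h2' R.env.sub⟩
          obtain ⟨t0, h2⟩ := fpi_dom h2'
          rw [Y.cl_eq (BetaEq.sub h4 θ), sh_cons] at hp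
          obtain ⟨hL, ha, he, hv⟩ := (Y.vt_cons _ _ _ hc).1 hp
          have hdA : Y.Dead (sub θ A0) → look F x.2 = fun _ => F.b := by
            rintro ⟨⟨A', B', e1⟩, e2, e3⟩
            exact absurd (Y.live_dom hc hL e1 e2) e3
          have R1 := R.cons h2 (a := F.rep x.1) ha (look_good F x.2) hdA
          have hv1 : Y.vt (F.cl (sub (scons (F.rep x.1) θ) B)) (sh p) := by
            rw [sub_scons]; exact hv
          obtain ⟨h8, h9⟩ := ihM h3 h5 hv1 R1
          constructor
          · show F.nz _ _ _ = F.nz _ _ _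
            rw [Y.nz_id, Y.nz_id]
            exact h8
          · exact ⟨sub s A0, sub (ups s) B, t, BetaEq.sub h1 s, tyf_sub h2' R.sf,
              tyf_sub h3 R1.sf, BetaEq.sub h4 s, h9⟩
  | pi A B ihA ihB =>
      intro G θ ν G' s θ' ν' T p hT hO hp R
      cases p with
      | cons x p =>
          obtain ⟨_, _, c, _, _, _, e⟩ := fgen_pi hT _ _ rfl
          rw [Y.cl_eq (BetaEq.sub e θ)] at hp
          exact absurd hp (Y.vt_sort_cons _ _ _)
      | nil =>
          obtain ⟨A0, a, b, c, h1, h2, h3, h4, h5, h6, h7, h8⟩ := hO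
          have hcD : c ∈ Y.D := by
            rw [Y.cl_eq (BetaEq.sub h2 θ)] at hp
            exact (Y.vt_sort c).1 hp
          have hpi : TyF P W (sub θ (.pi A B)) (.sort c) := by
            have : TyF P G (.pi A B) (.sort c) :=
              .prod h4 (fctx_conv R.env.wf h6 h5 h4 (BetaEq.symm h1)) h3
            exact tyf_sub this R.env.sub
          have hA : Y.Strict (F.cl (sub θ A)) →
              den F (sub s A) θ' ν' [] = den F A θ ν [] ∧
                OK Y (sub s A) G' (sub s (.sort a)) θ' ν' [] := by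
            intro hS
            refine ihA h4 (h7 hS) ?_ R
            exact (Y.vt_sort a).2 (Y.strict_dom (tyf_sub h4 R.env.sub) h3 hcD hS)
          have hB : ∀ q e, Y.PR (F.cl (sub θ A)) (F.cl (sub θ (.pi A B))) q e →
              den F (sub (ups s) B) (scons (F.rep q) θ') (icons (look F e.ent) ν') [] =
                den F B (scons (F.rep q) θ) (icons (look F e.ent) ν) [] ∧
              OK Y (sub (ups s) B) (fcons (sub s A0) G') (sub (ups s) (.sort b))
                (scons (F.rep q) θ') (icons (look F e.ent) ν') [] := by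
            intro q e hq
            obtain ⟨c1, c2, c3⟩ := Y.pr hpi hcD hq
            have ha : TyF P W (F.rep q) (sub θ A0) :=
              .conv c1 (tyf_sub h5 R.env.sub) (BetaEq.sub h1 θ)
            have hdA : Y.Dead (sub θ A0) → look F e.ent = fun _ => F.b :=
              fun hh => c2 (hh.conv (BetaEq.symm (BetaEq.sub h1 θ)))
            have R1 := R.cons h5 (a := F.rep q) ha (look_good F e.ent) hdA
            refine ihB h6 (h8 q e hq) ?_ R1
            have hb := tyf_sub h6 R1.env.sub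
            refine (Y.vt_sort b).2 (Y.strict_cod hb h3 hcD ?_)
            rw [sub_scons]; exact c3
          constructor
          · show F.nz _ _ _ = F.nz _ _ _
            rw [Y.nz_id, Y.nz_id, R.cl A, ← sub_pi, R.cl (.pi A B)]
            refine Y.op_congr (fun hS => (hA hS).1) (fun q e hq => (hB q e hq).1)
          · refine ⟨sub s A0, a, b, c, BetaEq.sub h1 s, BetaEq.sub h2 s, h3, tyf_sub h4 R.sf,
              tyf_sub h5 R.sf, tyf_sub h6 (R.sf.ups (tyf_sub h5 R.sf)), ?_, ?_⟩
            · rw [R.cl]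
              exact fun hS => (hA hS).2
            · rw [← sub_pi, R.cl, R.cl]
              exact fun q e hq => (hB q e hq).2

/-! ### beta steps -/

theorem neu_beta {M M' : Term S} (n : Neu M) (b : Beta M M') : Neu M' := by
  induction n generalizing M' with
  | var i => cases b
  | app N n ih =>
      cases b with
      | redex A M _ => cases n
      | appL _ b => exact .app _ (ih b)
      | appR _ b => exact .app _ n

/-- the environment change of a beta redex -/
theorem sr_inst {Y : Sys P W F} {G θ : ℕ → Term S} {ν : ℕ → UF Q SI C} (E : Env Y G θ ν)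
    {A N : Term S} {t : S} (hA : TyF P G A (.sort t)) (hN : TyF P G N A)
    (hd : ¬ Y.Dead (sub θ A))
    (hO : ∀ l : UPath Q SI C, Y.vt (F.cl (sub θ A)) (sh l) → OK Y N G A θ ν l) :
    SR Y (fcons A G) (scons (F.rep (F.cl (sub θ N))) θ)
      (icons (look F (entry F (F.cl (sub θ A)) (den F N θ ν))) ν) G (scons N Term.var) θ ν := by
  have e : ∀ (θ : ℕ → Term S) (a t : Term S), Sub452.sub (scons a θ) (wk t) = Sub452.sub θ t :=
    fun θ a t => by rw [wk, sub_ren]; rfl
  have hN' := tyf_sub hN E.sub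
  have hcA : CT P W (sub θ A) := ⟨t, tyf_sub hA E.sub⟩
  refine ⟨E.cons hA (Y.rep_ty hN') (look_good F _) (fun h => absurd h hd), E,
    (SubF.var E.wf).scons (by rwa [sub_id]), fun x => ?_, fun x l hl => ?_, fun x l hl => ?_,
    fun x hx => ?_⟩
  · cases x with
    | zero => exact Y.rep_cl _
    | succ x => exact .refl _
  · cases x with
    | zero =>
        rw [fcons_zero, e] at hl
        exact (Y.look_entry hcA (den_good F N θ E.good) hl).symm
    | succ x => exact Y.nz_id _ _ _
  · cases x with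
    | zero =>
        rw [fcons_zero, e] at hl
        rw [fcons_zero, e, sub_id]
        exact hO l hl
    | succ x => trivial
  · cases x with
    | zero =>
        rw [fcons_zero, e] at hx
        exact absurd hx hd
    | succ x => exact ⟨x, rfl⟩

/-- **beta invariance** -/
theorem beta_inv {Y : Sys P W F} {M M' : Term S} (b : Beta M M') : ∀ {G θ : ℕ → Term S}
    {ν : ℕ → UF Q SI C} {T : Term S} {p : UPath Q SI C}, Env Y G θ ν → TyF P G M T →
    OK Y M G T θ ν p → Y.vt (F.cl (sub θ T)) (sh p) →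
    den F M' θ ν p = den F M θ ν p ∧ OK Y M' G T θ ν p := by
  induction b with
  | redex A M N =>
      intro G θ ν T p E hT hO hp
      rw [subst_eq]
      obtain ⟨A1, B1, h1, h2, e, h4, h5⟩ := hO
      by_cases hL : Y.Live (F.cl (sub θ (.pi A1 B1)))
      · obtain ⟨⟨A0, B, t, k1, k2, k3, k4, k5⟩, h7⟩ := h4 hL
        obtain ⟨e1, e2⟩ := pi_inj k4
        obtain ⟨t0, k2'⟩ := fpi_dom k2
        have hc := ct_pi E h1
        have hcl : F.cl (sub θ A0) = F.cl (sub θ A1) := Y.cl_eq (BetaEq.symm (BetaEq.sub e1 θ))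
        have hN : TyF P G N A0 := .conv h2 k2' e1
        have hd : ¬ Y.Dead (sub θ A0) := fun hd => by
          have hd' := hd.conv (BetaEq.symm (BetaEq.sub e1 θ))
          obtain ⟨⟨A', B', e3⟩, e4, e5⟩ := hd'
          exact e5 (Y.live_dom hc hL e3 e4)
        have R := sr_inst E k2' hN hd (fun l hl => (h7 l (by rw [← hcl]; exact hl)).conv e1)
        have hv : Y.vt (F.cl (sub (scons (F.rep (F.cl (sub θ N))) θ) B)) (sh p) := by
          have e3 : BetaEq (sub (scons (F.rep (F.cl (sub θ N))) θ) B) (sub θ T) := by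
            rw [sub_scons]
            have e4 := BetaEq.sub (BetaEq.trans e (BetaEq.sub e2 _)) θ
            rw [sub_inst] at e4
            exact BetaEq.trans (BetaEq.inst (Y.rep_cl _) (.refl _)) (BetaEq.symm e4)
          rw [Y.cl_eq e3]; exact hp
        have k5' : OK Y M (fcons A0 G) B (scons (F.rep (F.cl (sub θ N))) θ)
            (icons (look F (entry F (F.cl (sub θ A0)) (den F N θ ν))) ν) p := by
          rw [hcl]; exact k5
        obtain ⟨r1, r2⟩ := sim M k3 k5' hv R
        constructor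
        · rw [show inst N M = sub (scons N Term.var) M from rfl, r1]
          show _ = F.nz _ _ (F.nz _ _ _)
          rw [Y.nz_id, Y.nz_id, Y.dty_eq (tyf_sub h1 E.sub), hcl]
        · exact r2.conv (BetaEq.symm (BetaEq.trans e (BetaEq.sub e2 _)))
      · cases h5 hL
  | @appL M M' N b ih =>
      intro G θ ν T p E hT hO hp
      obtain ⟨A, B, h1, h2, e, h4, h5⟩ := hO
      have h1' := fsr h1 E.wf _ b
      by_cases hL : Y.Live (F.cl (sub θ (.pi A B)))
      · obtain ⟨h6, h7⟩ := h4 hL
        obtain ⟨r1, r2⟩ := ih E h1 h6 (vt_app E h1 h2 e hp hL _)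
        constructor
        · show F.nz _ _ _ = F.nz _ _ _
          rw [Y.nz_id, Y.nz_id, Y.dty_eq (tyf_sub h1 E.sub), Y.dty_eq (tyf_sub h1' E.sub)]
          exact r1
        · exact ⟨A, B, h1', h2, e, fun _ => ⟨r2, h7⟩, fun h => absurd hL h⟩
      · have hd : Y.Dead (sub θ (.pi A B)) := ⟨⟨_, _, .refl _⟩, rel_app E h1 h2 e hp, hL⟩
        have hn := h5 hL
        have hn' := neu_beta hn b
        constructor
        · show F.nz _ _ _ = F.nz _ _ _
          rw [Y.nz_id, Y.nz_id, neu_dead E hn h1 hd, neu_dead E hn' h1' hd]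
        · exact ⟨A, B, h1', h2, e, fun h => absurd h hL, fun _ => hn'⟩
  | @appR M N N' b ih =>
      intro G θ ν T p E hT hO hp
      obtain ⟨A, B, h1, h2, e, h4, h5⟩ := hO
      have h2' := fsr h2 E.wf _ b
      have ebt : BetaEq N N' := .rel _ _ b
      have e' : BetaEq T (inst N' B) := BetaEq.trans e (BetaEq.inst ebt (.refl _))
      have hcl : F.cl (sub θ N') = F.cl (sub θ N) := Y.cl_eq (BetaEq.symm (BetaEq.sub ebt θ))
      have hc := ct_pi E h1
      by_cases hL : Y.Live (F.cl (sub θ (.pi A B)))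
      · obtain ⟨h6, h7⟩ := h4 hL
        have he : entry F (F.cl (sub θ A)) (den F N' θ ν) =
            entry F (F.cl (sub θ A)) (den F N θ ν) :=
          Y.entry_congr (ct_dom hc) (fun l hl => (ih E h2 (h7 l hl) hl).1)
        constructor
        · show F.nz _ _ _ = F.nz _ _ _
          rw [Y.nz_id, Y.nz_id, Y.dty_eq (tyf_sub h1 E.sub), he, hcl]
        · refine ⟨A, B, h1, h2', e', fun _ => ⟨?_, fun l hl => (ih E h2 (h7 l hl) hl).2⟩,
            fun h => absurd hL h⟩
          rw [he, hcl]; exact h6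
      · have hd : Y.Dead (sub θ (.pi A B)) := ⟨⟨_, _, .refl _⟩, rel_app E h1 h2 e hp, hL⟩
        have hn := h5 hL
        constructor
        · show F.nz _ _ _ = F.nz _ _ _
          rw [Y.nz_id, Y.nz_id, neu_dead E hn h1 hd, neu_dead E hn h1 hd]
        · exact ⟨A, B, h1, h2', e', fun h => absurd h hL, fun _ => hn⟩
  | @lamA A A' M b _ =>
      intro G θ ν T p E hT hO hp
      cases p with
      | nil =>
          refine ⟨?_, trivial⟩
          show F.nz _ _ _ = F.nz _ _ _
          rw [Y.nz_id, Y.nz_id]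
      | cons x p =>
          obtain ⟨A0, B, t, h1, h2, h3, h4, h5⟩ := hO
          refine ⟨?_, A0, B, t, BetaEq.trans (BetaEq.symm (.rel _ _ b)) h1, h2, h3, h4, h5⟩
          show F.nz _ _ _ = F.nz _ _ _
          rw [Y.nz_id, Y.nz_id]
  | @lamM A M M' b ih =>
      intro G θ ν T p E hT hO hp
      cases p with
      | nil =>
          refine ⟨?_, trivial⟩
          show F.nz _ _ _ = F.nz _ _ _
          rw [Y.nz_id, Y.nz_id]
      | cons x p =>
          obtain ⟨A0, B, t, h1, h2, h3, h4, h5⟩ := hO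
          obtain ⟨t0, h2'⟩ := fpi_dom h2
          have hc : CT P W (sub θ (.pi A0 B)) := ⟨t, tyf_sub h2 E.sub⟩
          rw [Y.cl_eq (BetaEq.sub h4 θ), sh_cons] at hp
          obtain ⟨hL, ha, he, hv⟩ := (Y.vt_cons _ _ _ hc).1 hp
          have hdA : Y.Dead (sub θ A0) → look F x.2 = fun _ => F.b := by
            rintro ⟨⟨A', B', e1⟩, e2, e3⟩
            exact absurd (Y.live_dom hc hL e1 e2) e3
          have E1 := E.cons h2' (a := F.rep x.1) ha (look_good F x.2) hdA
          have hv1 : Y.vt (F.cl (sub (scons (F.rep x.1) θ) B)) (sh p) := by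
            rw [sub_scons]; exact hv
          obtain ⟨r1, r2⟩ := ih E1 h3 h5 hv1
          refine ⟨?_, A0, B, t, h1, h2, fsr h3 E1.wf _ b, h4, r2⟩
          show F.nz _ _ _ = F.nz _ _ _
          rw [Y.nz_id, Y.nz_id]
          exact r1
  | @piA A A' B b ih =>
      intro G θ ν T p E hT hO hp
      cases p with
      | cons x p =>
          obtain ⟨_, _, c, _, _, _, e⟩ := fgen_pi hT _ _ rfl
          rw [Y.cl_eq (BetaEq.sub e θ)] at hp
          exact absurd hp (Y.vt_sort_cons _ _ _)
      | nil =>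
          obtain ⟨A0, a, b', c, h1, h2, h3, h4, h5, h6, h7, h8⟩ := hO
          have hcD : c ∈ Y.D := by
            rw [Y.cl_eq (BetaEq.sub h2 θ)] at hp
            exact (Y.vt_sort c).1 hp
          have ebt : BetaEq A A' := .rel _ _ b
          have c1 : F.cl (sub θ A') = F.cl (sub θ A) := Y.cl_eq (BetaEq.symm (BetaEq.sub ebt θ))
          have c2 : F.cl (sub θ (.pi A' B)) = F.cl (sub θ (.pi A B)) :=
            Y.cl_eq (BetaEq.symm (BetaEq.sub (BetaEq.pi ebt (.refl _)) θ))
          have hA : Y.Strict (F.cl (sub θ A)) →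
              den F A' θ ν [] = den F A θ ν [] ∧ OK Y A' G (.sort a) θ ν [] := fun hS =>
            ih E h4 (h7 hS)
              ((Y.vt_sort a).2 (Y.strict_dom (tyf_sub h4 E.sub) h3 hcD hS))
          constructor
          · show F.nz _ _ _ = F.nz _ _ _
            rw [Y.nz_id, Y.nz_id, c1, c2]
            exact Y.op_congr (fun hS => (hA hS).1) (fun _ _ _ => rfl)
          · refine ⟨A0, a, b', c, BetaEq.trans (BetaEq.symm ebt) h1, h2, h3,
              fsr h4 E.wf _ b, h5, h6, ?_, ?_⟩
            · rw [c1]; exact fun hS => (hA hS).2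
            · rw [c1, c2]; exact h8
  | @piB A B B' b ih =>
      intro G θ ν T p E hT hO hp
      cases p with
      | cons x p =>
          obtain ⟨_, _, c, _, _, _, e⟩ := fgen_pi hT _ _ rfl
          rw [Y.cl_eq (BetaEq.sub e θ)] at hp
          exact absurd hp (Y.vt_sort_cons _ _ _)
      | nil =>
          obtain ⟨A0, a, b', c, h1, h2, h3, h4, h5, h6, h7, h8⟩ := hO
          have hcD : c ∈ Y.D := by
            rw [Y.cl_eq (BetaEq.sub h2 θ)] at hp
            exact (Y.vt_sort c).1 hp
          have ebt : BetaEq B B' := .rel _ _ b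
          have c2 : F.cl (sub θ (.pi A B')) = F.cl (sub θ (.pi A B)) :=
            Y.cl_eq (BetaEq.symm (BetaEq.sub (BetaEq.pi (.refl _) ebt) θ))
          have hpi : TyF P W (sub θ (.pi A B)) (.sort c) := by
            have : TyF P G (.pi A B) (.sort c) :=
              .prod h4 (fctx_conv E.wf h6 h5 h4 (BetaEq.symm h1)) h3
            exact tyf_sub this E.sub
          have hB : ∀ q e, Y.PR (F.cl (sub θ A)) (F.cl (sub θ (.pi A B))) q e →
              den F B' (scons (F.rep q) θ) (icons (look F e.ent) ν) [] =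
                den F B (scons (F.rep q) θ) (icons (look F e.ent) ν) [] ∧
              OK Y B' (fcons A0 G) (.sort b') (scons (F.rep q) θ)
                (icons (look F e.ent) ν) [] := by
            intro q e hq
            obtain ⟨c1, c2, c3⟩ := Y.pr hpi hcD hq
            have ha : TyF P W (F.rep q) (sub θ A0) :=
              .conv c1 (tyf_sub h5 E.sub) (BetaEq.sub h1 θ)
            have hdA : Y.Dead (sub θ A0) → look F e.ent = fun _ => F.b :=
              fun hh => c2 (hh.conv (BetaEq.symm (BetaEq.sub h1 θ)))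
            have E1 := E.cons h5 (a := F.rep q) ha (look_good F e.ent) hdA
            refine ih E1 h6 (h8 q e hq) ?_
            have hb := tyf_sub h6 E1.sub
            refine (Y.vt_sort b').2 (Y.strict_cod hb h3 hcD ?_)
            rw [sub_scons]; exact c3
          have E0 : ∀ {t : S}, TyF P G A0 (.sort t) → WfF P (fcons A0 G) := fun h => E.wf.cons h
          constructor
          · show F.nz _ _ _ = F.nz _ _ _
            rw [Y.nz_id, Y.nz_id]
            have c2' : F.cl (.pi (sub θ A) (sub (ups θ) B')) =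
                F.cl (.pi (sub θ A) (sub (ups θ) B)) := c2
            show F.op _ (F.cl (.pi (sub θ A) (sub (ups θ) B'))) _ _ = _
            rw [c2']
            exact Y.op_congr (fun _ => rfl) (fun q e hq => (hB q e hq).1)
          · refine ⟨A0, a, b', c, h1, h2, h3, h4, h5, fsr h6 (E0 h5) _ b, h7, ?_⟩
            rw [c2]; exact fun q e hq => (hB q e hq).2

/-- beta invariance along a reduction -/
theorem red_inv {Y : Sys P W F} {M M' : Term S} (r : Red M M') {G θ : ℕ → Term S}
    {ν : ℕ → UF Q SI C} {T : Term S} {p : UPath Q SI C} (E : Env Y G θ ν) (hT : TyF P G M T)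
    (hO : OK Y M G T θ ν p) (hp : Y.vt (F.cl (sub θ T)) (sh p)) :
    den F M' θ ν p = den F M θ ν p ∧ OK Y M' G T θ ν p := by
  induction r with
  | refl => exact ⟨rfl, hO⟩
  | @tail K K' r b ih =>
      obtain ⟨r1, r2⟩ := ih
      obtain ⟨r3, r4⟩ := beta_inv b E (FSR E.wf hT r) r2 hp
      exact ⟨r3.trans r1, r4⟩

/-! ### normal terms -/

theorem normal_app_neu {M N T : Term S} {G : ℕ → Term S} (n : Normal (.app M N))
    (h : TyF P G (.app M N) T) : Neu M := by
  induction M generalizing N T with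
  | var i => exact .var i
  | sort s =>
      obtain ⟨A, B, h1, -, -⟩ := fgen_app h _ _ rfl
      obtain ⟨s', -, e⟩ := fgen_sort h1 _ rfl
      exact (not_sort_pi (BetaEq.symm e)).elim
  | app M K ih _ =>
      obtain ⟨A, B, h1, -, -⟩ := fgen_app h _ _ rfl
      exact .app _ (ih (fun _ b => n _ (.appL _ b)) h1)
  | lam A M => exact (n _ (.redex _ _ _)).elim
  | pi A B =>
      obtain ⟨A', B', h1, -, -⟩ := fgen_app h _ _ rfl
      obtain ⟨_, _, _, -, -, -, e⟩ := fgen_pi h1 _ _ rfl
      exact (not_sort_pi (BetaEq.symm e)).elim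

/-- **normal terms are OK** -/
theorem normal_ok (Y : Sys P W F) (M : Term S) : ∀ {G : ℕ → Term S} {T : Term S}, Normal M →
    TyF P G M T → ∀ (θ : ℕ → Term S) (ν : ℕ → UF Q SI C) (p : UPath Q SI C),
      OK Y M G T θ ν p := by
  induction M with
  | var i => intros; trivial
  | sort s => intros; trivial
  | app M N ihM ihN =>
      intro G T n h θ ν p
      obtain ⟨A, B, h1, h2, e⟩ := fgen_app h _ _ rfl
      exact ⟨A, B, h1, h2, e, fun _ => ⟨ihM (fun _ b => n _ (.appL _ b)) h1 _ _ _,
        fun l _ => ihN (fun _ b => n _ (.appR _ b)) h2 _ _ _⟩, fun _ => normal_app_neu n h⟩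
  | lam A M _ ihM =>
      intro G T n h θ ν p
      cases p with
      | nil => trivial
      | cons x p =>
          obtain ⟨B, s, h1, h2, e⟩ := fgen_lam h _ _ rfl
          exact ⟨A, B, s, .refl _, h2, h1, e, ihM (fun _ b => n _ (.lamM _ b)) h1 _ _ _⟩
  | pi A B ihA ihB =>
      intro G T n h θ ν p
      cases p with
      | cons x p => trivial
      | nil =>
          obtain ⟨a, b, c, h1, h2, r, e⟩ := fgen_pi h _ _ rfl
          exact ⟨A, a, b, c, .refl _, e, r, h1, h1, h2,
            fun _ => ihA (fun _ b => n _ (.piA _ b)) h1 _ _ _,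
            fun q t _ => ihB (fun _ b => n _ (.piB _ b)) h2 _ _ _⟩

/-- **B4**: the value of the normal form of an instance -/
theorem den_nf_inst {Y : Sys P W F} {G θ : ℕ → Term S} {ν : ℕ → UF Q SI C} (E : Env Y G θ ν)
    {A M N K T : Term S} {t : S} (hA : TyF P G A (.sort t)) (hM : TyF P (fcons A G) M T)
    (hN : TyF P G N A) (nM : Normal M) (nN : Normal N) (hd : ¬ Y.Dead (sub θ A))
    {p : UPath Q SI C} (hp : Y.vt (F.cl (sub θ (inst N T))) (sh p)) (r : Red (inst N M) K) :
    den F K θ ν p = den F M (scons (F.rep (F.cl (sub θ N))) θ)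
      (icons (look F (entry F (F.cl (sub θ A)) (den F N θ ν))) ν) p := by
  have R := sr_inst E hA hN hd (fun l _ => normal_ok Y N nN hN θ ν l)
  have hv : Y.vt (F.cl (sub (scons (F.rep (F.cl (sub θ N))) θ) T)) (sh p) := by
    have e3 : BetaEq (sub (scons (F.rep (F.cl (sub θ N))) θ) T) (sub θ (inst N T)) := by
      rw [sub_scons, sub_inst]
      exact BetaEq.inst (Y.rep_cl _) (.refl _)
    rw [Y.cl_eq e3]; exact hp
  obtain ⟨r1, r2⟩ := sim M hM (normal_ok Y M nM hM _ _ _) hv R
  obtain ⟨r3, _⟩ := red_inv r E (tyf_inst E.wf hM hN) r2 hp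
  exact r3.trans r1

end Crest.Agent.R298.Ok599
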