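import Crest.Agent.R298.Par_452
import Crest.Agent.R298.Cod_893

/-!
R298 (S0452), helper893: renaming lemma, LITERAL substitution lemma (all raw terms), faithfulness
of packed arguments and the beta rule for the interpretation `den` of `Cod_893`.
-/

set_option autoImplicit false

namespace Crest.Agent.R298.Cod893

open Crest.LogicCS.PTS Crest.LogicCS.PTS.Term Crest.Agent.R298.Sub452 Crest.Agent.R298.Par452

variable {S Q SI C : Type}

/-- the interpretation is insensitive to renamings -/
theorem den_ren (F : Frame S Q SI C) (t : Term S) :
    ∀ (ρ : ℕ → ℕ) (θ θ' : ℕ → Term S) (ν ν' : ℕ → UF Q SI C),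
      (∀ x, θ' (ρ x) = θ x) → (∀ x, ν' (ρ x) = ν x) →
      den F (ren ρ t) θ' ν' = den F t θ ν := by
  induction t with
  | var x =>
      intro ρ θ θ' ν ν' h1 h2
      simp only [ren, den, h1, h2]
  | sort s => intro ρ θ θ' ν ν' h1 h2; rfl
  | app M N ihM ihN =>
      intro ρ θ θ' ν ν' h1 h2
      have e : ∀ t : Term S, sub θ' (ren ρ t) = sub θ t := fun t => by
        rw [sub_ren]; congr 1; funext x; exact h1 x
      have e' : sub θ' (app (ren ρ M) (ren ρ N)) = sub θ (app M N) := e (app M N)
      simp only [ren, den, e, e', ihM ρ θ θ' ν ν' h1 h2, ihN ρ θ θ' ν ν' h1 h2]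
  | lam A M ihA ihM =>
      intro ρ θ θ' ν ν' h1 h2
      have e : ∀ t : Term S, sub θ' (ren ρ t) = sub θ t := fun t => by
        rw [sub_ren]; congr 1; funext x; exact h1 x
      have e' : sub θ' (lam (ren ρ A) (ren (up ρ) M)) = sub θ (lam A M) := e (lam A M)
      have h : ∀ (a : Term S) (u : UF Q SI C),
          den F (ren (up ρ) M) (scons a θ') (icons u ν') = den F M (scons a θ) (icons u ν) := by
        intro a u
        refine ihM (up ρ) _ _ _ _ (fun x => ?_) (fun x => ?_)
        · cases x with
          | zero => rfl
          | succ x => exact h1 x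
        · cases x with
          | zero => rfl
          | succ x => exact h2 x
      funext p
      cases p with
      | nil => simp only [ren, den, e']
      | cons x p => simp only [ren, den, e', h]
  | pi A B ihA ihB =>
      intro ρ θ θ' ν ν' h1 h2
      have e : ∀ t : Term S, sub θ' (ren ρ t) = sub θ t := fun t => by
        rw [sub_ren]; congr 1; funext x; exact h1 x
      have e' : sub θ' (pi (ren ρ A) (ren (up ρ) B)) = sub θ (pi A B) := e (pi A B)
      have h : ∀ (a : Term S) (u : UF Q SI C),
          den F (ren (up ρ) B) (scons a θ') (icons u ν') = den F B (scons a θ) (icons u ν) := by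
        intro a u
        refine ihB (up ρ) _ _ _ _ (fun x => ?_) (fun x => ?_)
        · cases x with
          | zero => rfl
          | succ x => exact h1 x
        · cases x with
          | zero => rfl
          | succ x => exact h2 x
      simp only [ren, den, e, e', ihA ρ θ θ' ν ν' h1 h2, h]

theorem den_wk (F : Frame S Q SI C) (t : Term S) (a : Term S) (u : UF Q SI C)
    (θ : ℕ → Term S) (ν : ℕ → UF Q SI C) :
    den F (wk t) (scons a θ) (icons u ν) = den F t θ ν :=
  den_ren F t Nat.succ θ (scons a θ) ν (icons u ν) (fun _ => rfl) (fun _ => rfl)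

/-- **SUBSTITUTION LEMMA** (literal equality, all raw terms) -/
theorem den_sub (F : Frame S Q SI C) (t : Term S) :
    ∀ (σ : ℕ → Term S) (θ : ℕ → Term S) (ν ν' : ℕ → UF Q SI C),
      (∀ x, den F (var x) (fun x => sub θ (σ x)) ν' = den F (σ x) θ ν) →
      den F (sub σ t) θ ν = den F t (fun x => sub θ (σ x)) ν' := by
  induction t with
  | var x => intro σ θ ν ν' h; exact (h x).symm
  | sort s => intro σ θ ν ν' h; rfl
  | app M N ihM ihN =>
      intro σ θ ν ν' h
      have e : ∀ t : Term S, sub θ (sub σ t) = sub (fun x => sub θ (σ x)) t := fun t =>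
        sub_sub σ θ t
      have e' : sub θ (app (sub σ M) (sub σ N)) = sub (fun x => sub θ (σ x)) (app M N) :=
        e (app M N)
      simp only [sub_app, den, e, e', ihM σ θ ν ν' h, ihN σ θ ν ν' h]
  | lam A M ihA ihM =>
      intro σ θ ν ν' h
      have e' : sub θ (lam (sub σ A) (sub (ups σ) M)) = sub (fun x => sub θ (σ x)) (lam A M) :=
        sub_sub σ θ (lam A M)
      have h' : ∀ (a : Term S) (u : UF Q SI C),
          den F (sub (ups σ) M) (scons a θ) (icons u ν) =
            den F M (scons a (fun x => sub θ (σ x))) (icons u ν') := by
        intro a u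
        have e2 : (fun x => sub (scons a θ) (ups σ x)) = scons a (fun x => sub θ (σ x)) := by
          funext x
          cases x with
          | zero => rfl
          | succ x =>
              show sub (scons a θ) (wk (σ x)) = sub θ (σ x)
              rw [sub_ren]; rfl
        rw [← e2]
        refine ihM (ups σ) (scons a θ) (icons u ν) (icons u ν') (fun x => ?_)
        cases x with
        | zero => rfl
        | succ x =>
            rw [e2]
            show den F (var (x + 1)) (scons a (fun x => sub θ (σ x))) (icons u ν') =
              den F (wk (σ x)) (scons a θ) (icons u ν)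
            rw [den_wk, ← h x]
            rfl
      funext p
      cases p with
      | nil => simp only [sub_lam, den, e']
      | cons x p => simp only [sub_lam, den, e', h']
  | pi A B ihA ihB =>
      intro σ θ ν ν' h
      have e : ∀ t : Term S, sub θ (sub σ t) = sub (fun x => sub θ (σ x)) t := fun t =>
        sub_sub σ θ t
      have e' : sub θ (pi (sub σ A) (sub (ups σ) B)) = sub (fun x => sub θ (σ x)) (pi A B) :=
        e (pi A B)
      have h' : ∀ (a : Term S) (u : UF Q SI C),
          den F (sub (ups σ) B) (scons a θ) (icons u ν) =
            den F B (scons a (fun x => sub θ (σ x))) (icons u ν') := by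
        intro a u
        have e2 : (fun x => sub (scons a θ) (ups σ x)) = scons a (fun x => sub θ (σ x)) := by
          funext x
          cases x with
          | zero => rfl
          | succ x =>
              show sub (scons a θ) (wk (σ x)) = sub θ (σ x)
              rw [sub_ren]; rfl
        rw [← e2]
        refine ihB (ups σ) (scons a θ) (icons u ν) (icons u ν') (fun x => ?_)
        cases x with
        | zero => rfl
        | succ x =>
            rw [e2]
            show den F (var (x + 1)) (scons a (fun x => sub θ (σ x))) (icons u ν') =
              den F (wk (σ x)) (scons a θ) (icons u ν)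
            rw [den_wk, ← h x]
            rfl
      simp only [sub_pi, den, e, e', ihA σ θ ν ν' h, h']

theorem betaEq_subs (t : Term S) : ∀ {θ θ' : ℕ → Term S}, (∀ x, BetaEq (θ x) (θ' x)) →
    BetaEq (sub θ t) (sub θ' t) := by
  induction t with
  | var x => intro θ θ' h; exact h x
  | sort s => intro θ θ' h; exact BetaEq.refl _
  | app M N ihM ihN => intro θ θ' h; exact BetaEq.app (ihM h) (ihN h)
  | lam A M ihA ihM =>
      intro θ θ' h
      refine BetaEq.lam (ihA h) (ihM (fun x => ?_))
      cases x with
      | zero => exact BetaEq.refl _
      | succ x => exact BetaEq.ren (h x) _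
  | pi A B ihA ihB =>
      intro θ θ' h
      refine BetaEq.pi (ihA h) (ihB (fun x => ?_))
      cases x with
      | zero => exact BetaEq.refl _
      | succ x => exact BetaEq.ren (h x) _

/-- closed terms only matter up to conversion, infos only through the values of the variables -/
theorem den_congr (F : Frame S Q SI C) (hcl : ∀ M N : Term S, BetaEq M N → F.cl M = F.cl N)
    (t : Term S) : ∀ {θ θ' : ℕ → Term S} {ν ν' : ℕ → UF Q SI C},
      (∀ x, BetaEq (θ x) (θ' x)) → (∀ x, den F (var x) θ ν = den F (var x) θ' ν') →
      den F t θ ν = den F t θ' ν' := by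
  induction t with
  | var x => intro θ θ' ν ν' h h2; exact h2 x
  | sort s => intro θ θ' ν ν' h h2; rfl
  | app M N ihM ihN =>
      intro θ θ' ν ν' h h2
      have e : ∀ t : Term S, F.cl (sub θ t) = F.cl (sub θ' t) := fun t =>
        hcl _ _ (betaEq_subs t h)
      funext p
      simp only [den, e, ihM h h2, ihN h h2]
  | lam A M ihA ihM =>
      intro θ θ' ν ν' h h2
      have e : ∀ t : Term S, F.cl (sub θ t) = F.cl (sub θ' t) := fun t =>
        hcl _ _ (betaEq_subs t h)
      have h' : ∀ (a : Term S) (u : UF Q SI C),
          den F M (scons a θ) (icons u ν) = den F M (scons a θ') (icons u ν') := by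
        intro a u
        refine ihM (fun x => ?_) (fun x => ?_)
        · cases x with
          | zero => exact BetaEq.refl _
          | succ x => exact h x
        · cases x with
          | zero => rfl
          | succ x => exact h2 x
      funext p
      cases p with
      | nil => simp only [den, e]
      | cons x p => simp only [den, e, h']
  | pi A B ihA ihB =>
      intro θ θ' ν ν' h h2
      have e : ∀ t : Term S, F.cl (sub θ t) = F.cl (sub θ' t) := fun t =>
        hcl _ _ (betaEq_subs t h)
      have h' : ∀ (a : Term S) (u : UF Q SI C),
          den F B (scons a θ) (icons u ν) = den F B (scons a θ') (icons u ν') := by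
        intro a u
        refine ihB (fun x => ?_) (fun x => ?_)
        · cases x with
          | zero => exact BetaEq.refl _
          | succ x => exact h x
        · cases x with
          | zero => rfl
          | succ x => exact h2 x
      funext p
      simp only [den, e, ihA h h2, h']

/-! ### laws of a frame -/

/-- entry shapes admitted at a closed type -/
def okE (F : Frame S Q SI C) (A : Q) : ESh Q SI C → Prop
  | .sm s => F.mode A = Mode.small ∧ ∃ v, s = F.put A v
  | .co _ => F.mode A = Mode.plus
  | .hole => F.mode A = Mode.minus

theorem entry_okE (F : Frame S Q SI C) (A : Q) (u : UF Q SI C) : okE F A (entry F A u).sh := by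
  cases h : F.mode A with
  | small => simp only [entry, h, Ent.sh, okE]; exact ⟨trivial, _, rfl⟩
  | minus => simp only [entry, h, Ent.sh, okE]
  | plus => simp only [entry, h, Ent.sh, okE]

/-- abstract laws: `has q A` = the closed term `q` has the closed ALLOWED type `A` -/
structure Laws (F : Frame S Q SI C) (has : Q → Q → Prop) : Prop where
  cl_eq : ∀ M N : Term S, BetaEq M N → F.cl M = F.cl N
  rep_cl : ∀ M : Term S, BetaEq (F.rep (F.cl M)) M
  idem : ∀ q s c, F.nz q s (F.nz q s c) = F.nz q s c
  /-- the clamp by the closed term is finer than the clamp by its type -/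
  nznt : ∀ q A, has q A → ∀ s c, F.nz q s (F.nt A s c) = F.nz q s c
  /-- off-mode paths carry no information -/
  minus : ∀ q A, has q A → F.mode A = Mode.minus → ∀ p : UPath Q SI C, toM p = none →
    ∀ c c', F.nz q (sh p) c = F.nz q (sh p) c'
  plus : ∀ q A, has q A → F.mode A = Mode.plus → ∀ p : UPath Q SI C, ¬ IsP p →
    ∀ c c', F.nz q (sh p) c = F.nz q (sh p) c'
  small : ∀ q A, has q A → F.mode A = Mode.small → ∀ p : UPath Q SI C, toS p = none →
    ∀ c c', F.nz q (sh p) c = F.nz q (sh p) c'
  /-- small infos -/
  get_put : ∀ q A, has q A → F.mode A = Mode.small → ∀ (v : List (Q × SI) → C) l,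
    F.nz q (sh (embS l : UPath Q SI C)) (F.get (F.put A v) l) =
      F.nz q (sh (embS l : UPath Q SI C)) (v l)
  /-- clamps under a legal application -/
  app : ∀ M N : Term S, has (F.cl N) (F.dty (F.cl M)) → ∀ e, okE F (F.dty (F.cl M)) e →
    ∀ s c, F.nz (F.cl M) ((F.cl N, e) :: s) c = F.nz (F.cl (Term.app M N)) s c

section
variable {F : Frame S Q SI C} {has : Q → Q → Prop}

/-- values of terms are clamped -/
theorem nz_den (L : Laws F has) (t : Term S) (θ : ℕ → Term S) (ν : ℕ → UF Q SI C)
    (p : UPath Q SI C) : F.nz (F.cl (sub θ t)) (sh p) (den F t θ ν p) = den F t θ ν p := by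
  cases t with
  | var x => exact L.idem _ _ _
  | sort s => exact L.idem _ _ _
  | app M N => exact L.idem _ _ _
  | lam A M => exact L.idem _ _ _
  | pi A B => exact L.idem _ _ _

/-- **faithfulness of packed arguments** -/
theorem look_entry (L : Laws F has) {q A : Q} (hq : has q A) {u : UF Q SI C}
    (hu : Good u) (p : UPath Q SI C) :
    F.nz q (sh p) (look F (entry F A u) p) = F.nz q (sh p) (u p) := by
  classical
  cases h : F.mode A with
  | small =>
      cases hp : toS p with
      | none => exact L.small q A hq h p hp _ _
      | some l =>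
          have e : embS l = p := embS_toS hp
          have e2 : look F (entry F A u) p =
              F.get (F.put A (fun l => ntu F A u (embS l))) l := by
            simp only [entry, h, look, hp]
          rw [e2, ← e, L.get_put q A hq h _ l]
          exact L.nznt q A hq _ _
  | minus =>
      cases hp : toM p with
      | none => exact L.minus q A hq h p hp _ _
      | some l =>
          have e : emb l = p := emb_toM hp
          have e2 : look F (entry F A u) p = ntu F A u (emb l) := by
            simp only [entry, h, look, hp]
          rw [e2, e]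
          exact L.nznt q A hq _ _
  | plus =>
      by_cases hp : IsP p
      · have e2 : look F (entry F A u) p = dec F.b (enc F.b (ntu F A u)) p := by
          simp only [entry, h, look]
        rw [e2, dec_enc F.b ((ntu_good F A hu).coded F.b) hp]
        exact L.nznt q A hq _ _
      · exact L.plus q A hq h p hp _ _

/-- **BETA RULE** -/
theorem den_beta (L : Laws F has) (A M N : Term S) (θ : ℕ → Term S) {ν : ℕ → UF Q SI C}
    (hν : ∀ x, Good (ν x))
    (hN : has (F.cl (sub θ N)) (F.dty (F.cl (sub θ (lam A M))))) :
    den F (Term.app (lam A M) N) θ ν = den F (inst N M) θ ν := by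
  funext p
  set qN := F.cl (sub θ N) with hqN
  set u := den F N θ ν with hu
  set e := entry F (F.dty (F.cl (sub θ (lam A M)))) u with he
  have hcu : Good u := den_good F N θ hν
  -- the right hand side
  have h1 : den F (inst N M) θ ν = den F M (scons (F.rep qN) θ) (icons (look F e) ν) := by
    have h2 : den F (sub (scons N var) M) θ ν =
        den F M (fun x => sub θ (scons N var x)) (icons (look F e) ν) := by
      refine den_sub F M (scons N var) θ ν _ (fun x => ?_)
      cases x with
      | zero =>
          funext p
          show F.nz (F.cl (sub θ N)) (sh p) (look F e p) = den F N θ ν p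
          rw [he, look_entry L hN hcu p]
          exact nz_den L N θ ν p
      | succ x => rfl
    have h3 : den F M (fun x => sub θ (scons N var x)) (icons (look F e) ν) =
        den F M (scons (F.rep qN) θ) (icons (look F e) ν) := by
      refine den_congr F L.cl_eq M (fun x => ?_) (fun x => ?_)
      · cases x with
        | zero => exact BetaEq.symm (L.rep_cl _)
        | succ x => exact BetaEq.refl _
      · cases x with
        | zero =>
            funext p
            show F.nz (F.cl (sub θ N)) (sh p) (look F e p) =
              F.nz (F.cl (F.rep qN)) (sh p) (look F e p)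
            rw [L.cl_eq _ _ (L.rep_cl (sub θ N))]
        | succ x => rfl
    show den F (sub (scons N var) M) θ ν = _
    rw [h2, h3]
  have h4 : F.cl (sub θ (inst N M)) = F.cl (sub θ (Term.app (lam A M) N)) := by
    refine (L.cl_eq _ _ ?_).symm
    have h5 : BetaEq (Term.app (lam A M) N) (inst N M) := by
      have := Relation.EqvGen.rel _ _ (Beta.redex A M N)
      rwa [subst_eq] at this
    exact BetaEq.sub h5 θ
  show F.nz (F.cl (sub θ (Term.app (lam A M) N))) (sh p)
    (F.nz (F.cl (sub θ (lam A M))) (sh ((qN, e) :: p))
      (den F M (scons (F.rep qN) θ) (icons (look F e) ν) p)) = den F (inst N M) θ ν p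
  rw [← h1]
  have h6 := L.app (sub θ (lam A M)) (sub θ N) hN e.sh (entry_okE F _ u) (sh p)
    (den F (inst N M) θ ν p)
  rw [sh_cons]
  show F.nz (F.cl (sub θ (Term.app (lam A M) N))) (sh p)
    (F.nz (F.cl (sub θ (lam A M))) ((F.cl (sub θ N), e.sh) :: sh p)
      (den F (inst N M) θ ν p)) = den F (inst N M) θ ν p
  rw [h6]
  show F.nz (F.cl (sub θ (Term.app (lam A M) N))) (sh p)
    (F.nz (F.cl (sub θ (Term.app (lam A M) N))) (sh p) (den F (inst N M) θ ν p)) = _
  rw [L.idem, ← h4]
  exact nz_den L _ θ ν p

end

end Crest.Agent.R298.Cod893
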