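import Crest.Agent.R298.SM1_646
import Crest.Agent.R298.Vt_786
import Crest.Agent.R298.Sub_893

/-!
R298 (S0452), helper98: T2i, the candidate half. Values `CV S = Set (MT S)`, clamp `clQ`,
admissible infos of product indices `IQ`, the product operation `opW`, values of sorts `svW`, and
the instance `tyEval : TyEval P idx i D` (646's record) of the interpretation `den` (893) in any
frame with these operations.

Everything is over abstract `cl : Term S → Q`, `rep : Q → Term S` (structure `QL`) and an abstract
skeleton `K : Skel Q Q`, `sg : Q → Prop` (786).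
-/

set_option autoImplicit false
set_option linter.unusedVariables false
set_option linter.unusedSectionVars false

namespace Crest.Agent.R298.Op98

open Crest.LogicCS.PTS Crest.LogicCS.PTS.Term Relation
open Crest.Agent.R298.Sub452 Crest.Agent.R298.Par452 Crest.Agent.R298.Ty452
open Crest.Agent.R298.Mem360 Crest.Agent.R298.TyF452 Crest.Agent.R298.TyMF452
open Crest.Agent.R298.Mem360.MT (er)
open Crest.Agent.R298.Main865 Crest.Agent.R298.Cand704
open Crest.Agent.R298.SM646 (Hi hi_congr RRof TyEval isc)
open Crest.Agent.R298.Inf786 Crest.Agent.R298.Cod893 Crest.Agent.R298.Vt786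

universe v

variable {S Q : Type} {P : Spec S} {idx : S → ℕ} {i : ℕ} {D : ℕ → Term S}

/-- closed terms modulo conversion -/
structure QL (P : Spec S) (D : ℕ → Term S) (cl : Term S → Q) (rep : Q → Term S) : Prop where
  cl_eq : ∀ {M N : Term S}, BetaEq M N → cl M = cl N
  rep_cl : ∀ M : Term S, BetaEq (rep (cl M)) M
  rep_ty : ∀ {M A : Term S}, TyF P D M A → TyF P D (rep (cl M)) A

section ql

variable {cl : Term S → Q} {rep : Q → Term S}

theorem QL.beq (q : QL P D cl rep) {M N : Term S} (h : cl M = cl N) : BetaEq M N :=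
  BetaEq.trans (BetaEq.symm (q.rep_cl M)) (h ▸ q.rep_cl N)

theorem QL.iff (q : QL P D cl rep) {M N : Term S} : cl M = cl N ↔ BetaEq M N := ⟨q.beq, q.cl_eq⟩

theorem QL.cl_rep (q : QL P D cl rep) (M : Term S) : cl (rep (cl M)) = cl M :=
  q.cl_eq (q.rep_cl M)

end ql

/-! ### the clamp -/

/-- conversion of the type in 704's clamp -/
theorem cst_conv (w : WfF P D) {k : ℕ} {T T' : Term S} {s s' : S} (hT : TyF P D T (sort s))
    (hT' : TyF P D T' (sort s')) (e : BetaEq T T') (X : Set (MT S)) :
    cst P idx k D T X = cst P idx k D T' X := by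
  unfold cst
  by_cases h : Cand P idx k D T X
  · rw [if_pos h, if_pos (h.conv' w hT hT' e)]
  · rw [if_neg h, if_neg fun h' => h (h'.conv' w hT' hT (BetaEq.symm e)), wt_conv w hT hT' e]

open Classical in
/-- clamp of a set of terms at a closed type -/
noncomputable def clT (P : Spec S) (idx : S → ℕ) (i : ℕ) (D : ℕ → Term S)
    (T : Term S) (X : Set (MT S)) : Set (MT S) :=
  if Hi P idx i D T then Wt P idx (i + 1) D T else cst P idx (i + 1) D T X

theorem clT_conv (w : WfF P D) {T T' : Term S} {s s' : S} (hT : TyF P D T (sort s))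
    (hT' : TyF P D T' (sort s')) (e : BetaEq T T') (X : Set (MT S)) :
    clT P idx i D T X = clT P idx i D T' X := by
  unfold clT
  by_cases h : Hi P idx i D T
  · rw [if_pos h, if_pos ((hi_congr e).1 h), wt_conv w hT hT' e]
  · rw [if_neg h, if_neg fun h' => h ((hi_congr e).2 h'), cst_conv w hT hT' e]

theorem cand_clT (T : Term S) (X : Set (MT S)) :
    Cand P idx (i + 1) D T (clT P idx i D T X) := by
  unfold clT
  split_ifs with h
  · exact cand_wt _ _ _ _ _
  · exact cand_cst _ _ _ _ _ _

theorem clT_sub {T : Term S} {X : Set (MT S)} {v : MT S} (h : v ∈ clT P idx i D T X) :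
    TMF P D v T ∧ Wn P idx (i + 1) D v := (cand_clT T X).sub v h

/-! ### admissible infos of product indices -/

section iq

variable {C : Type} [Inhabited C] (K : Skel Q Q) (sg : Q → Prop)

/-- infos over which a product with closed domain `q` ranges -/
def IQ (q : Q) (e : PEnt Q (SI K C) C) : Prop :=
  rngS K sg q e.ent.sh ∨
    ((∀ e' : PEnt Q (SI K C) C, ¬ rngS K sg q e'.ent.sh) ∧ e = Sum.inr fun _ => default)

theorem exists_IQ (q : Q) : ∃ e : PEnt Q (SI K C) C, IQ K sg q e := by
  by_cases h : ∃ e : PEnt Q (SI K C) C, rngS K sg q e.ent.sh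
  · obtain ⟨e, he⟩ := h
    exact ⟨e, .inl he⟩
  · exact ⟨Sum.inr fun _ => default, .inr ⟨fun e' he => h ⟨e', he⟩, rfl⟩⟩

variable {K sg}

/-- at tame types -/
theorem IQ_tame {q : Q} (hq : Tame K q) {e : PEnt Q (SI K C) C} :
    IQ K sg q e ↔ rngS K sg q e.ent.sh := by
  constructor
  · rintro (h | ⟨h, -⟩)
    · exact h
    · exact absurd (show rngS K sg q (PEnt.ent (Sum.inl (putS K q fun _ => default))).sh from
        ⟨hq, putS_mem hq _⟩) (h _)
  · exact .inl

/-- at wild types of the `D`-bound colour -/
theorem IQ_neg {q : Q} (hq : ¬ Tame K q) (hs : sg q) {e : PEnt Q (SI K C) C} :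
    IQ K sg q e ↔ rngS K sg q e.ent.sh := by
  constructor
  · rintro (h | ⟨h, -⟩)
    · exact h
    · exact absurd (show rngS K sg q (PEnt.ent (Sum.inr fun _ => default)).sh from
        ⟨hq, hs⟩) (h _)
  · exact .inl

theorem IQ_rng {q : Q} (hq : Tame K q ∨ sg q) {e : PEnt Q (SI K C) C} (h : IQ K sg q e) :
    rngS K sg q e.ent.sh := by
  by_cases ht : Tame K q
  · exact (IQ_tame ht).1 h
  · exact (IQ_neg ht (hq.resolve_left ht)).1 h

/-- the packed entry of a value at a tame or wild minus type is admissible, as a product index -/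
theorem exists_index {F : Frame S Q (SI K C) C} (hF : Std K sg F) {q : Q}
    (hq : Tame K q ∨ sg q) (u : UF Q (SI K C) C) :
    ∃ e : PEnt Q (SI K C) C, e.ent = entry F q u ∧ IQ K sg q e := by
  by_cases ht : Tame K q
  · refine ⟨Sum.inl (putS K q (fun l => ntu F q u (embS l))), (hF.entry_tame ht u).symm, ?_⟩
    exact .inl ⟨ht, putS_mem ht _⟩
  · have hs := hq.resolve_left ht
    refine ⟨Sum.inr (fun l => ntu F q u (emb l)), (hF.entry_minus ht hs u).symm, ?_⟩
    exact .inl ⟨ht, hs⟩

end iq

/-! ### values of sorts and products -/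

section op

variable (P : Spec S) (idx : S → ℕ) (i : ℕ) (D : ℕ → Term S) (cl : Term S → Q) (rep : Q → Term S)
  (K : Skel Q Q) (sg : Q → Prop)

/-- the values of the types -/
abbrev CV (S : Type) := Set (MT S)

/-- value of a sort -/
noncomputable def svW (s : S) : CV S := Wt P idx (i + 1) D (sort s)

/-- value of a product: closed domain, closed product, value of the domain, values of the
codomain -/
noncomputable def opW (qA qT : Q) (X : CV S)
    (Y : Q → PEnt Q (SI K (CV S)) (CV S) → CV S) : CV S :=
  PiSet P idx (i + 1) D (rep qT) (J := PEnt Q (SI K (CV S)) (CV S))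
    (clT P idx i D (rep qA) X) (fun _ e => IQ K sg qA e)
    (fun w e => {v | ∀ A B, BetaEq (rep qT) (pi A B) →
      v ∈ clT P idx i D (rep (cl (inst (er w) B))) (Y (cl (er w)) e)})

/-- frames with the operations of the stage model -/
structure OpF (F : Frame S Q (SI K (CV S)) (CV S)) : Prop where
  fcl : F.cl = cl
  frep : F.rep = rep
  fnz : ∀ q s c, F.nz q s c = c
  fsv : F.sv = svW P idx i D
  fop : F.op = opW P idx i D cl rep K sg

end op

section laws

variable {cl : Term S → Q} {rep : Q → Term S} {K : Skel Q Q} {sg : Q → Prop}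

/-- the closed instance type does not depend on the product form -/
theorem inst_form (q : QL P D cl rep) {T A B A' B' : Term S} (h : BetaEq T (pi A B))
    (h' : BetaEq T (pi A' B')) (w : MT S) : cl (inst (er w) B) = cl (inst (er w) B') := by
  obtain ⟨-, hB⟩ := pi_inj (BetaEq.trans (BetaEq.symm h) h')
  exact q.cl_eq (BetaEq.sub hB _)

/-- **the value of a closed typed product** -/
theorem opW_eq (w : WfF P D) (q : QL P D cl rep) {A B : Term S} {s : S}
    (hp : TyF P D (pi A B) (sort s)) (X : CV S)
    (Y : Q → PEnt Q (SI K (CV S)) (CV S) → CV S) :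
    opW P idx i D cl rep K sg (cl A) (cl (pi A B)) X Y =
      PiSet P idx (i + 1) D (pi A B) (J := PEnt Q (SI K (CV S)) (CV S))
        (clT P idx i D A X) (fun _ e => IQ K sg (cl A) e)
        (fun w e => clT P idx i D (inst (er w) B) (Y (cl (er w)) e)) := by
  have hT := q.rep_ty hp
  have e : BetaEq (rep (cl (pi A B))) (pi A B) := q.rep_cl _
  obtain ⟨a, b, c, hA, hB, r, -⟩ := fgen_pi hp _ _ rfl
  have eX : clT P idx i D (rep (cl A)) X = clT P idx i D A X :=
    clT_conv w (q.rep_ty hA) hA (q.rep_cl A) X
  ext v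
  unfold opW PiSet
  rw [eX]
  refine and_congr (tmf_conv_iff w hT hp e v) (and_congr_right fun _ => forall_congr' fun z =>
    forall_congr' fun hz => forall_congr' fun j => forall_congr' fun hj => ?_)
  have hzA : TyF P D (er z) A := (clT_sub hz).1.typed
  have hty : TyF P D (inst (er z) B) (sort b) := tyf_inst w hB hzA
  have e2 : clT P idx i D (rep (cl (inst (er z) B))) (Y (cl (er z)) j) =
      clT P idx i D (inst (er z) B) (Y (cl (er z)) j) :=
    clT_conv w (q.rep_ty hty) hty (q.rep_cl _) _
  show (∀ A' B', BetaEq (rep (cl (pi A B))) (pi A' B') →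
      MT.app v z ∈ clT P idx i D (rep (cl (inst (er z) B'))) (Y (cl (er z)) j)) ↔
    MT.app v z ∈ clT P idx i D (inst (er z) B) (Y (cl (er z)) j)
  rw [← e2]
  constructor
  · intro h
    exact h A B e
  · intro h A' B' h'
    rw [← inst_form q e h' z]
    exact h

theorem isc_eq {X : Type v} (j : X) (ν : ℕ → X) (ν' : ℕ → X) (h : ∀ n, ν n = ν' n) :
    isc j ν = isc j ν' := by
  funext n
  cases n with
  | zero => rfl
  | succ n => exact h n

theorem icons_isc {SI C : Type} (u : UF Q SI C) (ν : ℕ → UF Q SI C) : icons u ν = isc u ν := by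
  funext n
  cases n <;> rfl

/-- **the type evaluator of the interpretation `den`** -/
noncomputable def tyEval (w : WfF P D) (q : QL P D cl rep)
    (F : Frame S Q (SI K (CV S)) (CV S)) (hF : OpF P idx i D cl rep K sg F) :
    TyEval.{0, 1} P idx i D where
  Inf := UF Q (SI K (CV S)) (CV S)
  IQ T u := ∃ e : PEnt Q (SI K (CV S)) (CV S), IQ K sg (cl T) e ∧ u = look F e.ent
  ne T := by
    obtain ⟨e, he⟩ := exists_IQ (C := CV S) K sg (cl T)
    exact ⟨_, e, he, rfl⟩
  iq_conv := by
    intro T T' u h hu
    rw [← q.cl_eq h]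
    exact hu
  dfl := fun _ => F.b
  ev T θ ν := den F T θ ν []
  ev_ren T r θ ν := congrFun (den_ren F T r (fun k => θ (r k)) θ (fun k => ν (r k)) ν
    (fun _ => rfl) (fun _ => rfl)) []
  ev_sort s θ ν := by
    right
    show F.nz _ _ (F.sv s) = _
    rw [hF.fnz, hF.fsv]
    rfl
  ev_pi A B θ ν c hp hc hn := by
    show F.nz _ _ (F.op _ _ _ _) = _
    rw [hF.fnz, hF.fop, hF.fcl, hF.frep]
    have h1 := opW_eq (idx := idx) (i := i) (K := K) (sg := sg) w q (A := sub θ A)
      (B := sub (ups θ) B) hp (den F A θ ν [])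
      (fun a e => den F B (scons (rep a) θ) (icons (look F e.ent) ν) [])
    refine h1.trans ?_
    ext v
    unfold PiSet
    refine and_congr_right fun _ => and_congr_right fun _ => forall_congr' fun z =>
      forall_congr' fun hz => ?_
    have e3 : ∀ u : UF Q (SI K (CV S)) (CV S),
        den F B (scons (rep (cl (er z))) θ) (icons u ν) [] =
          den F B (scons (er z) θ) (isc u ν) [] := by
      intro u
      rw [icons_isc]
      refine congrFun (den_congr F (θ := scons (rep (cl (er z))) θ) (θ' := scons (er z) θ)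
        (ν := isc u ν) (ν' := isc u ν) (fun M N h => ?_) B (fun x => ?_) (fun x => ?_)) []
      · rw [hF.fcl]; exact q.cl_eq h
      · cases x with
        | zero => exact q.rep_cl _
        | succ x => exact BetaEq.refl _
      · funext p
        show F.nz _ _ _ = F.nz _ _ _
        rw [hF.fnz, hF.fnz]
    have e4 : ∀ u : UF Q (SI K (CV S)) (CV S),
        clT P idx i D (inst (er z) (sub (ups θ) B))
            (den F B (scons (rep (cl (er z))) θ) (icons u ν) []) =
          RRof P idx i D (fun T θ ν => den F T θ ν []) B (scons (er z) θ) (isc u ν) := by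
      intro u
      rw [e3 u]
      unfold RRof clT
      rw [sub_scons]
    constructor
    · rintro h j ⟨e, he, rfl⟩
      show MT.app v z ∈ RRof P idx i D (fun T θ ν => den F T θ ν []) B (scons (er z) θ)
        (isc (look F e.ent) ν)
      rw [← e4]
      exact h e he
    · intro h e he
      show MT.app v z ∈ clT P idx i D (inst (er z) (sub (ups θ) B))
        (den F B (scons (rep (cl (er z))) θ) (icons (look F e.ent) ν) [])
      rw [e4]
      exact h (look F e.ent) ⟨e, he, rfl⟩

/-- the standard frame with these operations -/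
theorem opF_std (cl : Term S → Q) (rep : Q → Term S) (K : Skel Q Q) (sg : Q → Prop)
    (dty : Q → Q) : OpF P idx i D cl rep K sg
      (stdFrame K sg cl rep (fun _ _ c => c) dty (svW P idx i D)
        (opW P idx i D cl rep K sg)) :=
  ⟨rfl, rfl, fun _ _ _ => rfl, rfl, rfl⟩

theorem tyEval_IQ (w : WfF P D) (q : QL P D cl rep)
    (F : Frame S Q (SI K (CV S)) (CV S)) (hF : OpF P idx i D cl rep K sg F) (T : Term S)
    (u : UF Q (SI K (CV S)) (CV S)) : (tyEval w q F hF).IQ T u ↔
      ∃ e : PEnt Q (SI K (CV S)) (CV S), IQ K sg (cl T) e ∧ u = look F e.ent := Iff.rfl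

theorem tyEval_ev (w : WfF P D) (q : QL P D cl rep)
    (F : Frame S Q (SI K (CV S)) (CV S)) (hF : OpF P idx i D cl rep K sg F) (T : Term S)
    (θ : ℕ → Term S) (ν : ℕ → UF Q (SI K (CV S)) (CV S)) :
    (tyEval w q F hF).ev T θ ν = den F T θ ν [] := rfl

end laws

end Crest.Agent.R298.Op98
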