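import Crest.Agent.R298.TyP_795

/-!
R298 (S0452), helper734: a well-formed LIST context as a partial FUNCTION context (`pad`), with
typing in both directions.
-/

set_option autoImplicit false

namespace Crest.Agent.R298.Pad734

open Crest.LogicCS.PTS Crest.LogicCS.PTS.Term Relation
open Crest.Agent.R298.Sub452 Crest.Agent.R298.Par452 Crest.Agent.R298.Ty452
open Crest.Agent.R298.TyF452 Crest.Agent.R298.TyP795

universe u
variable {T : Type u} {Q : Spec T}

/-- the (partial) function context of a list context -/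
def pad : List (Term T) → ℕ → Term T
  | [] => var
  | A :: Γ => fcons A (pad Γ)

theorem pad_lk {Γ : List (Term T)} {i : ℕ} {A : Term T} (h : Lk Γ i A) : pad Γ i = A := by
  induction h with
  | zero A Γ => rfl
  | succ B _ ih => rw [pad, fcons_succ, ih]

theorem dm_pad {Γ : List (Term T)} {i : ℕ} (h : Dm (pad Γ) i) : i < Γ.length := by
  induction Γ generalizing i with
  | nil => exact (h rfl).elim
  | cons A Γ ih =>
      cases i with
      | zero => simp
      | succ i =>
          have := ih (dm_succ.1 h)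
          simpa using this

theorem dm_pad_finite (Γ : List (Term T)) : {i | Dm (pad Γ) i}.Finite :=
  (Set.finite_lt_nat Γ.length).subset (fun _ h => dm_pad h)

theorem lk_pad {Γ : List (Term T)} {i : ℕ} (h : Dm (pad Γ) i) : Lk Γ i (pad Γ i) := by
  obtain ⟨A, hA⟩ := Lk.exists_of_lt (dm_pad h)
  rwa [pad_lk hA]

theorem typed_pad {Γ : List (Term T)} {M A : Term T} (h : Typed Q Γ M A) :
    TyF Q (pad Γ) M A := typed_tyf_id h (fun _ _ hl => pad_lk hl)

/-- declared types are typed by a sort -/
theorem lk_typed {Γ : List (Term T)} {i : ℕ} {A : Term T} (hl : Lk Γ i A) (w : Wf Q Γ) :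
    ∃ s, Typed Q Γ A (sort s) := by
  induction hl with
  | zero A Γ =>
      obtain ⟨_, s, h⟩ := w.tail
      exact ⟨s, t_weak h h⟩
  | succ B _ ih =>
      obtain ⟨w', s, h⟩ := w.tail
      obtain ⟨s', h'⟩ := ih w'
      exact ⟨s', t_weak h' h⟩

theorem wfP_pad {Γ : List (Term T)} (w : Wf Q Γ) : WfP Q (pad Γ) := by
  intro i hi
  obtain ⟨s, h⟩ := lk_typed (lk_pad hi) w
  exact ⟨s, typed_pad h⟩

theorem typed_of_pad_aux {D : ℕ → Term T} {M A : Term T} (h : TyF Q D M A) :
    ∀ {Γ : List (Term T)}, D = pad Γ → Wf Q Γ → Typed Q Γ M A := by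
  induction h with
  | ax a => intro Γ _ w; exact ax_wf w a
  | @var D i s h _ =>
      intro Γ e w
      subst e
      exact var_wf (lk_pad (dm_of_decl h)) w
  | prod _ _ r ih ih' =>
      intro Γ e w
      subst e
      have a := ih rfl w
      exact .prod a (ih' (Γ := _ :: Γ) rfl (.cons w a)) r
  | abs _ _ ih ih' =>
      intro Γ e w
      subst e
      have b := ih' rfl w
      obtain ⟨s', a⟩ := Ty452.pi_dom b
      exact .abs (ih (Γ := _ :: Γ) rfl (.cons w a)) b
  | appl _ _ ih ih' => intro Γ e w; exact t_appl (ih e w) (ih' e w)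
  | conv _ _ e' ih ih' => intro Γ e w; exact .conv (ih e w) (ih' e w) e'

theorem typed_of_pad {Γ : List (Term T)} {M A : Term T} (h : TyF Q (pad Γ) M A) (w : Wf Q Γ) :
    Typed Q Γ M A := typed_of_pad_aux h rfl w

end Crest.Agent.R298.Pad734
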