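import Mathlib.Logic.Basic
import Mathlib.Tactic.Common

/-!
# R298, part P: the paradox of 201 (doc 2233 (A)), abstract Henkin form (helper650)

`U, PU, PPU` = classes of objects, `m1`, `m2` = (intensional) membership, `code : PPU → U`,
`E : U → U → Prop`.  The only hypotheses are `h0` (what a code does) and the ten comprehension
instances of `Cmp`; no extensionality, no closure of definable sets under anything else.
-/

set_option autoImplicit false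

namespace Crest.Agent.R298.Pdx650

universe u v w

variable {U : Type u} {PU : Type v} {PPU : Type w}

/-- `S ≤ S'` -/
def Le (m1 : PU → U → Prop) (S S' : PU) : Prop := ∀ x, m1 S x → m1 S' x

/-- `T' == child (T, S)` -/
def IsChild (m1 : PU → U → Prop) (m2 : PPU → PU → Prop) (T : PPU) (S : PU) (T' : PPU) : Prop :=
  ∀ S', m2 T' S' ↔ (m2 T S' ∧ Le m1 S' S ∧ ¬ Le m1 S S')

/-- well founded part -/
def WF (m1 : PU → U → Prop) (E : U → U → Prop) (a : U) : Prop :=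
  ∀ Z : PU, (∀ b, (∀ c, E c b → m1 Z c) → m1 Z b) → m1 Z a

/-- transitive closure of `E` -/
def Es (m1 : PU → U → Prop) (E : U → U → Prop) (a b : U) : Prop :=
  ∀ Z : PU, (∀ x, E x b → m1 Z x) → (∀ x y, m1 Z y → E x y → m1 Z x) → m1 Z a

/-- reflexive transitive closure -/
def Lw (m1 : PU → U → Prop) (E : U → U → Prop) (a b : U) : Prop := a = b ∨ Es m1 E a b

/-- `S == dn a` -/
def IsDn (m1 : PU → U → Prop) (E : U → U → Prop) (a : U) (S : PU) : Prop :=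
  ∀ x, m1 S x ↔ Lw m1 E x a

/-- `T == B a` -/
def IsB (m1 : PU → U → Prop) (m2 : PPU → PU → Prop) (E : U → U → Prop) (a : U) (T : PPU) : Prop :=
  ∀ S, m2 T S ↔ ∃ b, Es m1 E b a ∧ IsDn m1 E b S

/-- **the comprehension instances which are used.** -/
structure Cmp (m1 : PU → U → Prop) (m2 : PPU → PU → Prop) (code : PPU → U) (E : U → U → Prop) :
    Prop where
  /-- `{v | all E-predecessors of v are well founded}` -/
  c1 : ∃ Z, ∀ v, m1 Z v ↔ ∀ a, E a v → WF m1 E a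
  /-- `{v | WF v}` -/
  c2 : ∃ Z, ∀ v, m1 Z v ↔ WF m1 E v
  /-- `{v | not v E* v}` -/
  c3 : ∃ Z, ∀ v, m1 Z v ↔ ¬ Es m1 E v v
  /-- `{x | x E* b}` -/
  c4 : ∀ b, ∃ Z, ∀ x, m1 Z x ↔ Es m1 E x b
  /-- `{a | exists x E b, a <= x}` -/
  c5 : ∀ b, ∃ Z, ∀ a, m1 Z a ↔ ∃ x, E x b ∧ Lw m1 E a x
  /-- `dn b` -/
  c6 : ∀ b, ∃ Z, IsDn m1 E b Z
  /-- the induction set of (5) -/
  c7 : ∃ Z, ∀ v, m1 Z v ↔ (WF m1 E v → ∀ a, Lw m1 E a v → ∀ T, IsB m1 m2 E a T →
    WF m1 E (code T))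
  /-- the induction set of (8) -/
  c8 : ∃ Z, ∀ v, m1 Z v ↔ (WF m1 E v → ¬ ∀ T, IsB m1 m2 E v T → E (code T) v)
  /-- `B a` -/
  c9 : ∀ a, ∃ T, IsB m1 m2 E a T
  /-- the set of all well founded `dn a` -/
  c10 : ∃ T, ∀ S, m2 T S ↔ ∃ a, WF m1 E a ∧ IsDn m1 E a S

variable {m1 : PU → U → Prop} {m2 : PPU → PU → Prop} {code : PPU → U} {E : U → U → Prop}

theorem es_of {a b : U} (h : E a b) : Es m1 E a b := fun _ h1 _ => h1 a h

theorem es_step {x y b : U} (h : Es m1 E y b) (hx : E x y) : Es m1 E x b :=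
  fun Z h1 h2 => h2 x y (h Z h1 h2) hx

theorem wf_intro {a : U} (h : ∀ b, E b a → WF m1 E b) : WF m1 E a :=
  fun Z hZ => hZ a fun b hb => h b hb Z hZ

section

variable (C : Cmp m1 m2 code E)
include C

theorem es_trans {x y z : U} (h : Es m1 E x y) (h' : Es m1 E y z) : Es m1 E x z := by
  obtain ⟨Z, hZ⟩ := C.c4 z
  exact (hZ x).1 (h Z (fun a ha => (hZ a).2 (es_step h' ha))
    (fun a b hb ha => (hZ a).2 (es_step ((hZ b).1 hb) ha)))

theorem es_last {a b : U} (h : Es m1 E a b) : ∃ x, E x b ∧ Lw m1 E a x := by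
  obtain ⟨Z, hZ⟩ := C.c5 b
  refine (hZ a).1 (h Z (fun x hx => (hZ x).2 ⟨x, hx, Or.inl rfl⟩) (fun x y hy hx => (hZ x).2 ?_))
  obtain ⟨z, hz, hyz⟩ := (hZ y).1 hy
  refine ⟨z, hz, Or.inr ?_⟩
  rcases hyz with rfl | hyz
  · exact es_of hx
  · exact es_step hyz hx

theorem wf_pred {a b : U} (h : WF m1 E a) (hb : E b a) : WF m1 E b := by
  obtain ⟨Z, hZ⟩ := C.c1
  exact (hZ a).1 (h Z fun v hv => (hZ v).2 fun x hx => wf_intro ((hZ x).1 (hv x hx))) b hb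

theorem wf_es {a b : U} (h : WF m1 E a) (hb : Es m1 E b a) : WF m1 E b := by
  obtain ⟨Z, hZ⟩ := C.c2
  exact (hZ b).1 (hb Z (fun x hx => (hZ x).2 (wf_pred C h hx))
    (fun x y hy hx => (hZ x).2 (wf_pred C ((hZ y).1 hy) hx)))

theorem wf_irr {a : U} (h : WF m1 E a) : ¬ Es m1 E a a := by
  obtain ⟨Z, hZ⟩ := C.c3
  refine (hZ a).1 (h Z fun v hv => (hZ v).2 fun hvv => ?_)
  obtain ⟨x, hx, hvx⟩ := es_last C hvv
  refine (hZ x).1 (hv x hx) ?_
  rcases hvx with rfl | hvx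
  · exact hvv
  · exact es_trans C (es_of hx) hvx

theorem lw_trans {x y z : U} (h : Lw m1 E x y) (h' : Lw m1 E y z) : Lw m1 E x z := by
  rcases h with rfl | h
  · exact h'
  rcases h' with rfl | h'
  · exact Or.inr h
  · exact Or.inr (es_trans C h h')

/-- (2) -/
theorem dn_lt {a b : U} (ha : WF m1 E a) {S S' : PU} (hS : IsDn m1 E a S)
    (hS' : IsDn m1 E b S') : (Le m1 S' S ∧ ¬ Le m1 S S') ↔ Es m1 E b a := by
  constructor
  · rintro ⟨h1, h2⟩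
    have h3 : Lw m1 E b a := (hS b).1 (h1 b ((hS' b).2 (Or.inl rfl)))
    rcases h3 with rfl | h
    · exact absurd (fun x hx => (hS' x).2 ((hS x).1 hx)) h2
    · exact h
  · intro h
    refine ⟨fun x hx => (hS x).2 (lw_trans C ((hS' x).1 hx) (Or.inr h)), fun hle => ?_⟩
    have h3 : Lw m1 E a b := (hS' a).1 (hle a ((hS a).2 (Or.inl rfl)))
    rcases h3 with rfl | h'
    · exact wf_irr C ha h
    · exact wf_irr C ha (es_trans C h' h)

/-- (3), for a family which contains all `dn b`, `b E* a` -/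
theorem child_B {T : PPU} {S : PU} {a : U} (ha : WF m1 E a)
    (h1 : ∀ S', m2 T S' → ∃ b, IsDn m1 E b S') (h2 : ∀ S' b, Es m1 E b a → IsDn m1 E b S' → m2 T S')
    (hS : IsDn m1 E a S) {T' : PPU} : IsChild m1 m2 T S T' ↔ IsB m1 m2 E a T' := by
  have key : ∀ S', (m2 T S' ∧ Le m1 S' S ∧ ¬ Le m1 S S') ↔ ∃ b, Es m1 E b a ∧ IsDn m1 E b S' := by
    intro S'
    constructor
    · rintro ⟨h3, h4⟩
      obtain ⟨b, hb⟩ := h1 S' h3
      exact ⟨b, (dn_lt C ha hS hb).1 h4, hb⟩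
    · rintro ⟨b, hb, hS'⟩
      exact ⟨h2 S' b hb hS', (dn_lt C ha hS hS').2 hb⟩
  unfold IsChild IsB
  exact ⟨fun h S' => (h S').trans (key S'), fun h S' => (h S').trans (key S').symm⟩

variable (h0 : ∀ a T, E a (code T) ↔ ∃ S, m2 T S ∧ ∃ T', IsChild m1 m2 T S T' ∧ code T' = a)
include h0

/-- (4) -/
theorem E_bar {a b : U} (ha : WF m1 E a) (hb : Es m1 E b a) {T T' : PPU} (hT : IsB m1 m2 E a T)
    (hT' : IsB m1 m2 E b T') : E (code T') (code T) := by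
  rw [h0]
  obtain ⟨S, hS⟩ := C.c6 b
  refine ⟨S, (hT S).2 ⟨b, hb, hS⟩, T', (child_B C (wf_es C ha hb) ?_ ?_ hS).2 hT', rfl⟩
  · intro S' h
    obtain ⟨c, -, hc⟩ := (hT S').1 h
    exact ⟨c, hc⟩
  · exact fun S' c hc hS' => (hT S').2 ⟨c, es_trans C hc hb, hS'⟩

/-- (5) -/
theorem wf_code {a : U} (ha : WF m1 E a) {T : PPU} (hT : IsB m1 m2 E a T) : WF m1 E (code T) := by
  obtain ⟨Z, hZ⟩ := C.c7
  refine (hZ a).1 (ha Z fun v hv => (hZ v).2 fun hvw => ?_) ha a (Or.inl rfl) T hT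
  have h1 : ∀ b, Es m1 E b v → ∀ T, IsB m1 m2 E b T → WF m1 E (code T) := by
    intro b hb
    obtain ⟨x, hx, hbx⟩ := es_last C hb
    exact (hZ x).1 (hv x hx) (wf_pred C hvw hx) b hbx
  intro b hb
  rcases hb with rfl | hb
  · intro T hT
    refine wf_intro fun z hz => ?_
    rw [h0] at hz
    obtain ⟨S, hS, T', hT', rfl⟩ := hz
    obtain ⟨c, hc, hS'⟩ := (hT S).1 hS
    refine h1 c hc T' ((child_B C (wf_es C hvw hc) ?_ ?_ hS').1 hT')
    · intro S'' h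
      obtain ⟨d, -, hd⟩ := (hT S'').1 h
      exact ⟨d, hd⟩
    · exact fun S'' d hd hS'' => (hT S'').2 ⟨d, es_trans C hd hc, hS''⟩
  · exact h1 b hb

/-- **the paradox (201, doc 2233 (A)).** -/
theorem paradox : False := by
  obtain ⟨O, hO⟩ := C.c10
  have hch : ∀ a, WF m1 E a → ∀ S, IsDn m1 E a S → ∀ T', IsChild m1 m2 O S T' ↔ IsB m1 m2 E a T' :=
    fun a ha S hS T' => child_B C ha
      (fun S' h => by
        obtain ⟨c, -, hc⟩ := (hO S').1 h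
        exact ⟨c, hc⟩)
      (fun S' b hb hS' => (hO S').2 ⟨b, wf_es C ha hb, hS'⟩) hS
  have hWF : WF m1 E (code O) := by
    refine wf_intro fun z hz => ?_
    rw [h0] at hz
    obtain ⟨S, hS, T', hT', rfl⟩ := hz
    obtain ⟨a, ha, hS'⟩ := (hO S).1 hS
    exact wf_code C h0 ha ((hch a ha S hS' T').1 hT')
  -- (7)
  have h7 : ∀ T, IsB m1 m2 E (code O) T → E (code T) (code O) := by
    intro T hT
    obtain ⟨S, hS⟩ := C.c6 (code O)
    rw [h0]
    exact ⟨S, (hO S).2 ⟨code O, hWF, hS⟩, T, (hch _ hWF S hS T).2 hT, rfl⟩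
  -- (8)
  obtain ⟨Z, hZ⟩ := C.c8
  refine (hZ _).1 (hWF Z fun v hv => (hZ v).2 fun hvw h => ?_) hWF h7
  obtain ⟨T, hT⟩ := C.c9 v
  have h1 := h T hT
  have h2 := wf_pred C hvw h1
  exact (hZ _).1 (hv _ h1) h2 fun T' hT' => E_bar C h0 hvw (es_of h1) hT hT'

end

end Crest.Agent.R298.Pdx650
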