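import Crest.Agent.R298.VL_891

/-!
R298 (S0452), helper891, insurance for block (T), file 2: packing, shapes of valid lists,
smallness of the infos of tame types, supports.
-/

set_option autoImplicit false

namespace Crest.Agent.R298.T891

open Crest.LogicCS.PTS Crest.LogicCS.PTS.Term Relation
open Crest.Agent.R298.Sub452 Crest.Agent.R298.Par452
open Crest.Agent.R298.TyF452 Crest.Agent.R298.Mem360
open Crest.Agent.R298.Dom201 (X Pt Neg Val Args Supp AgA AgV AgN ArgLt PtLt codeF app_codeF
  app_supp exists_bound exists_bound_of_factor supp_const_default)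
open Crest.Agent.R298.Fl113 (RelS)

variable {S : Type} {P : Spec S} {W : ℕ → Term S} {D : Set S}

/-- packing of a functional as an info of the closed type `A` -/
noncomputable def pack (P : Spec S) (W : ℕ → Term S) (D : Set S) (A : Term S)
    (F : Args (Term S) (CS S) → CS S) : Val (Term S) (CS S) :=
  match kd P W D A with
  | .irr => dmy S
  | .tm => Sum.inl (codeF (cn P W D A F))
  | .ng => Sum.inr fun p => cn P W D A F (p.map fun e => (e.1, Sum.inl e.2))
  | .ps => Sum.inl (codeF (cn P W D A F))

/-- argument lists as points -/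
noncomputable def toPt (l : Args (Term S) (CS S)) : Pt (Term S) :=
  l.map fun e => (e.1, match e.2 with | Sum.inl x => x | Sum.inr _ => 0)

/-- value of an info at an argument list -/
noncomputable def evV : Val (Term S) (CS S) → Args (Term S) (CS S) → CS S
  | Sum.inl x, l => Dom201.app x l
  | Sum.inr G, l => G (toPt l)

theorem app_dmy (l : Args (Term S) (CS S)) : evV (dmy S) l = (default : CS S) := by
  show Dom201.app _ l = _
  rw [app_codeF ⟨0, supp_const_default⟩]

theorem cn_congr {A : Term S} {F F' : Args (Term S) (CS S) → CS S}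
    (h : ∀ l, VL P W D l A → F l = F' l) : cn P W D A F = cn P W D A F' := by
  funext l
  by_cases hl : VL P W D l A
  · rw [cn_valid hl, cn_valid hl, h l hl]
  · rw [cn_not hl, cn_not hl]

theorem pack_congr {A : Term S} {F F' : Args (Term S) (CS S) → CS S}
    (h : ∀ l, VL P W D l A → F l = F' l) : pack P W D A F = pack P W D A F' := by
  unfold pack
  rw [cn_congr h]

theorem pack_conv {A A' : Term S} (e : BetaEq A A') (F : Args (Term S) (CS S) → CS S) :
    pack P W D A F = pack P W D A' F := by
  unfold pack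
  rw [kd_conv e, cn_conv e]

theorem VM_irr {A : Term S} (h : kd P W D A = .irr) {v : Val (Term S) (CS S)} :
    VM P W D A v ↔ v = dmy S := by
  unfold VM VMI; rw [h]

theorem VM_tm {A : Term S} (h : kd P W D A = .tm) {v : Val (Term S) (CS S)} :
    VM P W D A v ↔ ∃ x ∈ info P W D A, v = Sum.inl x := by
  unfold VM VMI; rw [h]

theorem VM_ng {A : Term S} (h : kd P W D A = .ng) {v : Val (Term S) (CS S)} :
    VM P W D A v ↔ ∃ G, v = Sum.inr G := by
  unfold VM VMI; rw [h]

theorem VM_ps {A : Term S} (h : kd P W D A = .ps) {v : Val (Term S) (CS S)} :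
    VM P W D A v ↔ ∃ x, v = Sum.inl x := by
  unfold VM VMI; rw [h]

theorem pack_irr {A : Term S} (h : kd P W D A = .irr) (F : Args (Term S) (CS S) → CS S) :
    pack P W D A F = dmy S := by
  unfold pack; rw [h]

theorem pack_tm {A : Term S} (h : kd P W D A = .tm) (F : Args (Term S) (CS S) → CS S) :
    pack P W D A F = Sum.inl (codeF (cn P W D A F)) := by
  unfold pack; rw [h]

theorem pack_ng {A : Term S} (h : kd P W D A = .ng) (F : Args (Term S) (CS S) → CS S) :
    pack P W D A F = Sum.inr fun p => cn P W D A F (p.map fun e => (e.1, Sum.inl e.2)) := by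
  unfold pack; rw [h]

theorem pack_ps {A : Term S} (h : kd P W D A = .ps) (F : Args (Term S) (CS S) → CS S) :
    pack P W D A F = Sum.inl (codeF (cn P W D A F)) := by
  unfold pack; rw [h]

theorem pack_VM (A : Term S) (F : Args (Term S) (CS S) → CS S) :
    VM P W D A (pack P W D A F) := by
  cases hk : kd P W D A with
  | irr => rw [VM_irr hk, pack_irr hk]
  | tm =>
      rw [VM_tm hk, pack_tm hk, info_eq (kd_tm.1 hk).2]
      exact ⟨_, ⟨F, rfl⟩, rfl⟩
  | ng => rw [VM_ng hk, pack_ng hk]; exact ⟨_, rfl⟩
  | ps => rw [VM_ps hk, pack_ps hk]; exact ⟨_, rfl⟩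

/-! ### shapes of valid lists -/

/-- all entries of the list are plus infos -/
def AllL (l : Args (Term S) (CS S)) : Prop := ∀ e ∈ l, ∃ x, e.2 = Sum.inl x

theorem AllL.nil : AllL ([] : Args (Term S) (CS S)) := fun _ h => by simp at h

theorem AllL.cons {e : Term S × Val (Term S) (CS S)} {l : Args (Term S) (CS S)}
    (h : ∃ x, e.2 = Sum.inl x) (hl : AllL l) : AllL (e :: l) := by
  intro e' he'
  rcases List.mem_cons.1 he' with rfl | h'
  · exact h
  · exact hl _ h'

theorem AllL.toPt {l : Args (Term S) (CS S)} (h : AllL l) :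
    ((toPt l).map fun e => (e.1, (Sum.inl e.2 : Val (Term S) (CS S)))) = l := by
  unfold T891.toPt
  rw [List.map_map]
  conv_rhs => rw [← List.map_id l]
  apply List.map_congr_left
  intro e he
  obtain ⟨x, hx⟩ := h e he
  obtain ⟨a, v⟩ := e
  simp only at hx
  subst hx
  rfl

theorem AllL.eq_of_agA {α : X} {l l' : Args (Term S) (CS S)} (h : AllL l) (ha : AgA α l l') :
    l = l' := by
  unfold Dom201.AgA at ha
  induction ha with
  | nil => rfl
  | @cons e e' l l' h1 _ ih =>
      obtain ⟨x, hx⟩ := h e (List.mem_cons_self ..)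
      obtain ⟨h2, h3⟩ := h1
      rw [hx] at h3
      have : e = e' := by
        cases e; cases e'
        simp only at h2 hx h3 ⊢
        subst h2
        cases h3
        rw [hx]
      rw [this, ih (fun e'' he'' => h e'' (List.mem_cons_of_mem _ he''))]

/-- the hypothesis delivered by Theorem F: types of both modes are tame -/
def NC (P : Spec S) (W : ℕ → Term S) (D : Set S) : Prop :=
  ∀ T, Rel P W D T → Mode P W D T true → Mode P W D T false → Tame P W D T

/-- tame or of mode `true` -/
def Nz (P : Spec S) (W : ℕ → Term S) (D : Set S) (T : Term S) : Prop :=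
  Tame P W D T ∨ Mode P W D T true

/-- tame or of mode `false` -/
def Pz (P : Spec S) (W : ℕ → Term S) (D : Set S) (T : Term S) : Prop :=
  Tame P W D T ∨ Mode P W D T false

theorem Nz.conv {T T' : Term S} (h : Nz P W D T) (e : BetaEq T T') : Nz P W D T' :=
  h.imp (fun h => h.conv e) (fun h => h.conv e)

theorem Pz.conv {T T' : Term S} (h : Pz P W D T) (e : BetaEq T T') : Pz P W D T' :=
  h.imp (fun h => h.conv e) (fun h => h.conv e)

theorem Nz.cod (w : WfF P W) {A B a : Term S} (h : Nz P W D (pi A B)) (ha : In P W a A)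
    (hr : Rel P W D (inst a B)) : Nz P W D (inst a B) :=
  h.imp (fun h => h.cod ha) (fun h => h.cod w ha hr)

theorem Pz.cod (w : WfF P W) {A B a : Term S} (h : Pz P W D (pi A B)) (ha : In P W a A)
    (hr : Rel P W D (inst a B)) : Pz P W D (inst a B) :=
  h.imp (fun h => h.cod ha) (fun h => h.cod w ha hr)

theorem Nz.dom (w : WfF P W) {A B a : Term S} (h : Nz P W D (pi A B)) (ha : In P W a A)
    (hr : Rel P W D (inst a B)) (hA : Rel P W D A) : Pz P W D A :=
  h.imp (fun h => h.dom ha hr hA) (fun h => h.dom w ha hr hA)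

theorem Pz.dom (w : WfF P W) {A B a : Term S} (h : Pz P W D (pi A B)) (ha : In P W a A)
    (hr : Rel P W D (inst a B)) (hA : Rel P W D A) : Nz P W D A :=
  h.imp (fun h => h.dom ha hr hA) (fun h => h.dom w ha hr hA)

/-- a relevant `Pz` type is not of kind minus -/
theorem Pz.kd_ne (nc : NC P W D) {T : Term S} (h : Pz P W D T) : kd P W D T ≠ .ng := by
  intro hk
  obtain ⟨h1, h2, h3⟩ := kd_ng.1 hk
  rcases h with h | h
  · exact h2 h
  · exact h2 (nc T h1 h3 h)

/-- a relevant `Nz` type is not of kind plus -/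
theorem Nz.kd_ne {T : Term S} (h : Nz P W D T) : kd P W D T ≠ .ps := by
  intro hk
  obtain ⟨h1, h2, h3, h4⟩ := kd_ps.1 hk
  rcases h with h | h
  · exact h2 h
  · exact h3 h

theorem Nz.of_ng {T : Term S} (h : kd P W D T = .ng) : Nz P W D T := .inr (kd_ng.1 h).2.2

theorem Pz.of_ps {T : Term S} (h : kd P W D T = .ps) : Pz P W D T := .inr (kd_ps.1 h).2.2.2

/-- `Pz` or `Nz` = moded or tame -/
theorem Pz.of_kd {T : Term S} (h : kd P W D T ≠ .irr) (h' : kd P W D T ≠ .ng) : Pz P W D T := by
  cases hk : kd P W D T with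
  | irr => exact absurd hk h
  | tm => exact .inl (kd_tm.1 hk).2
  | ng => exact absurd hk h'
  | ps => exact Pz.of_ps hk

theorem vl_nz (w : WfF P W) (nc : NC P W D) {l : Args (Term S) (CS S)} :
    ∀ {T : Term S}, Nz P W D T → VL P W D l T → AllL l := by
  induction l with
  | nil => intro T _ _; exact AllL.nil
  | cons e l ih =>
      rintro T hT ⟨A, B, e1, h1, h2, h3, h4⟩
      have hT' := hT.conv e1
      have hr : Rel P W D (inst e.1 B) := VL.rel h4
      refine AllL.cons ?_ (ih (hT'.cod w h1 hr) h4)
      have h3' : VM P W D A e.2 := h3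
      cases hk : kd P W D A with
      | irr => rw [VM_irr hk] at h3'; exact ⟨_, h3'⟩
      | tm => rw [VM_tm hk] at h3'; obtain ⟨x, _, hx⟩ := h3'; exact ⟨x, hx⟩
      | ng => exact absurd hk ((hT'.dom w h1 hr (kd_ng.1 hk).1).kd_ne nc)
      | ps => rw [VM_ps hk] at h3'; exact h3'

/-! ### smallness -/

theorem tame_lists_small {T : Term S} (h : Tame P W D T)
    (ih : ∀ A, DS P W D A T → ∃ (ι : Type) (f : ι → X), info P W D A ⊆ Set.range f) :
    ∃ (ι : Type) (f : ι → Args (Term S) (CS S)), ∀ l, ∀ T1, Desc P W T T1 → VL P W D l T1 →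
      ∃ j, f j = l := by
  classical
  have hh : ∀ A : Term S, ∃ (ι : Type) (f : ι → X), (DS P W D A T → info P W D A ⊆ Set.range f) := by
    intro A
    by_cases hA : DS P W D A T
    · obtain ⟨ι, f, hf⟩ := ih A hA
      exact ⟨ι, f, fun _ => hf⟩
    · exact ⟨Empty, fun e => e.elim, fun h' => absurd h' hA⟩
  choose ι f hf using hh
  let E : Type := Term S × Option (Sigma ι)
  let g : E → Term S × Val (Term S) (CS S) := fun e =>
    (e.1, match e.2 with | none => dmy S | some p => Sum.inl (f p.1 p.2))
  refine ⟨List E, List.map g, ?_⟩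
  intro l
  induction l with
  | nil => intro T1 _ _; exact ⟨[], rfl⟩
  | cons e l ihl =>
      rintro T1 hd ⟨A, B, e1, h1, h2, h3, h4⟩
      obtain ⟨j, hj⟩ := ihl _ (hd.step e1 h1) h4
      have hr : Rel P W D (inst e.1 B) := VL.rel h4
      have hT1 : Tame P W D (pi A B) := (h.desc hd).conv e1
      have h3' : VM P W D A e.2 := h3
      have hex : ∃ i : E, g i = e := by
        cases hk : kd P W D A with
        | irr =>
            rw [VM_irr hk] at h3'
            exact ⟨(e.1, none), Prod.ext rfl h3'.symm⟩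
        | tm =>
            rw [VM_tm hk] at h3'
            obtain ⟨x, hx, hx'⟩ := h3'
            obtain ⟨i, hi⟩ := hf A ⟨T1, A, B, e.1, hd, e1, .refl _, h1, hr, (kd_tm.1 hk).1⟩ hx
            refine ⟨(e.1, some ⟨A, i⟩), Prod.ext rfl ?_⟩
            rw [hx', ← hi]
        | ng => exact absurd (hT1.dom h1 hr (kd_ng.1 hk).1) (kd_ng.1 hk).2.1
        | ps => exact absurd (hT1.dom h1 hr (kd_ps.1 hk).1) (kd_ps.1 hk).2.1
      obtain ⟨i, hi⟩ := hex
      exact ⟨i :: j, by rw [List.map_cons, hi, hj]⟩

theorem info_small {T : Term S} (h : Tame P W D T) :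
    ∃ (ι : Type) (f : ι → X), info P W D T ⊆ Set.range f := by
  classical
  induction h with
  | intro T h' ih =>
      have hT : Tame P W D T := Acc.intro T h'
      obtain ⟨J, F, hF⟩ := tame_lists_small hT ih
      refine ⟨J → CS S, fun φ => codeF (cn P W D T fun l =>
        if h : ∃ j, F j = l then φ (Classical.choose h) else default), ?_⟩
      intro x hx
      rw [info_eq hT] at hx
      obtain ⟨F0, rfl⟩ := hx
      refine ⟨fun j => F0 (F j), ?_⟩
      show codeF _ = codeF _
      congr 1
      refine cn_congr fun l hl => ?_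
      have he : ∃ j, F j = l := hF l T (.base (.refl _)) hl
      show (if h : ∃ j, F j = l then F0 (F (Classical.choose h)) else default) = F0 l
      rw [dif_pos he, Classical.choose_spec he]

/-- all infos of tame types are below one ordinal -/
theorem exists_bd0 (P : Spec S) (W : ℕ → Term S) (D : Set S) :
    ∃ β : X, (∀ A, Tame P W D A → ∀ x ∈ info P W D A, x < β) ∧
      ∀ x, dmy S = Sum.inl x → x < β := by
  classical
  have hh : ∀ A : Term S, ∃ (ι : Type) (f : ι → X), (Tame P W D A → info P W D A ⊆ Set.range f) := by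
    intro A
    by_cases hA : Tame P W D A
    · obtain ⟨ι, f, hf⟩ := info_small hA
      exact ⟨ι, f, fun _ => hf⟩
    · exact ⟨Empty, fun e => e.elim, fun h' => absurd h' hA⟩
  choose ι f hf using hh
  obtain ⟨β, hβ⟩ := exists_bound (fun o : Option (Sigma ι) =>
    match o with
    | none => codeF (fun _ : Args (Term S) (CS S) => (default : CS S))
    | some p => f p.1 p.2)
  refine ⟨β, ?_, ?_⟩
  · intro A hA x hx
    obtain ⟨i, rfl⟩ := hf A hA hx
    exact hβ (some ⟨A, i⟩)
  · intro x hx
    have := hβ none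
    simp only at this
    unfold dmy at hx
    rw [Sum.inl.injEq] at hx
    rwa [← hx]

/-- the bound of all infos of tame types -/
noncomputable def bd0 (P : Spec S) (W : ℕ → Term S) (D : Set S) : X :=
  Classical.choose (exists_bd0 P W D)

theorem info_lt {A : Term S} (h : Tame P W D A) {x : X} (hx : x ∈ info P W D A) :
    x < bd0 P W D := (Classical.choose_spec (exists_bd0 P W D)).1 A h x hx

theorem dmy_lt {x : X} (h : dmy S = Sum.inl x) : x < bd0 P W D :=
  (Classical.choose_spec (exists_bd0 P W D)).2 x h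

theorem vl_pz (w : WfF P W) {l : Args (Term S) (CS S)} :
    ∀ {T : Term S}, Pz P W D T → VL P W D l T → ArgLt (bd0 P W D) l := by
  induction l with
  | nil => intro T _ _ e he; simp at he
  | cons e l ih =>
      rintro T hT ⟨A, B, e1, h1, h2, h3, h4⟩
      have hT' := hT.conv e1
      have hr : Rel P W D (inst e.1 B) := VL.rel h4
      have ih' := ih (hT'.cod w h1 hr) h4
      have h3' : VM P W D A e.2 := h3
      intro e' he' x hx
      rcases List.mem_cons.1 he' with rfl | he'
      · cases hk : kd P W D A with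
        | irr => rw [VM_irr hk, hx] at h3'; exact dmy_lt h3'.symm
        | tm =>
            rw [VM_tm hk] at h3'
            obtain ⟨y, hy, hy'⟩ := h3'
            rw [hx, Sum.inl.injEq] at hy'
            rw [hy']
            exact info_lt (kd_tm.1 hk).2 hy
        | ng =>
            rw [VM_ng hk] at h3'
            obtain ⟨G, hG⟩ := h3'
            rw [hx] at hG; cases hG
        | ps => exact absurd hk ((hT'.dom w h1 hr (kd_ps.1 hk).1).kd_ne)
      · exact ih' e' he' x hx

/-! ### supports -/

theorem VM_agV {α : X} {A : Term S} {v v' : Val (Term S) (CS S)} (h : AgV α v v')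
    (hv : VM P W D A v) : VM P W D A v' := by
  cases h with
  | inl x => exact hv
  | inr hG =>
      cases hk : kd P W D A with
      | irr => rw [VM_irr hk] at hv; unfold dmy at hv; cases hv
      | tm => rw [VM_tm hk] at hv; obtain ⟨x, _, hx⟩ := hv; cases hx
      | ng => rw [VM_ng hk]; exact ⟨_, rfl⟩
      | ps => rw [VM_ps hk] at hv; obtain ⟨x, hx⟩ := hv; cases hx

theorem VL_agA {α : X} {l l' : Args (Term S) (CS S)} (h : AgA α l l') :
    ∀ {T : Term S}, VL P W D l T → VL P W D l' T := by
  unfold Dom201.AgA at h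
  induction h with
  | nil => intro T h; exact h
  | @cons e e' l l' h1 _ ih =>
      rintro T ⟨A, B, e1, h2, h3, h4, h5⟩
      obtain ⟨h6, h7⟩ := h1
      refine ⟨A, B, e1, h6 ▸ h2, h6 ▸ h3, VM_agV h7 h4, ?_⟩
      have := ih h5
      rwa [h6] at this

theorem supp_tm (w : WfF P W) (nc : NC P W D) {T : Term S} (h : Tame P W D T)
    (F : Args (Term S) (CS S) → CS S) : Supp (bd0 P W D) (cn P W D T F) := by
  refine ⟨fun l hl => cn_not fun h' => hl (vl_pz w (.inl h) h'), fun l l' ha => ?_⟩
  by_cases h1 : VL P W D l T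
  · rw [(vl_nz w nc (.inl h) h1).eq_of_agA ha]
  · by_cases h2 : VL P W D l' T
    · rw [(vl_nz w nc (.inl h) h2).eq_of_agA ha.symm]
    · rw [cn_not h1, cn_not h2]

theorem supp_ps (w : WfF P W) {T : Term S} (h : Pz P W D T) {α : X}
    {F : Args (Term S) (CS S) → CS S}
    (hF : ∀ l l', VL P W D l T → VL P W D l' T → AgA α l l' → F l = F l') :
    Supp (max α (bd0 P W D)) (cn P W D T F) := by
  refine ⟨fun l hl => cn_not fun h' => hl ((vl_pz w h h').mono (le_max_right _ _)),
    fun l l' ha => ?_⟩
  have ha' := ha.anti (le_max_left α (bd0 P W D))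
  by_cases h1 : VL P W D l T
  · have h2 := VL_agA ha' h1
    rw [cn_valid h1, cn_valid h2, hF l l' h1 h2 ha']
  · have h2 : ¬ VL P W D l' T := fun h2 => h1 (VL_agA ha'.symm h2)
    rw [cn_not h1, cn_not h2]

theorem evV_pack (w : WfF P W) (nc : NC P W D) {A : Term S} {F : Args (Term S) (CS S) → CS S}
    {l : Args (Term S) (CS S)} (hl : VL P W D l A) (hk : kd P W D A ≠ .irr)
    (hs : kd P W D A = .ps → ∃ α : X, ∀ l l', VL P W D l A → VL P W D l' A → AgA α l l' →
      F l = F l') : evV (pack P W D A F) l = F l := by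
  cases hk' : kd P W D A with
  | irr => exact absurd hk' hk
  | tm =>
      rw [pack_tm hk']
      show Dom201.app _ l = _
      rw [app_codeF ⟨_, supp_tm w nc (kd_tm.1 hk').2 F⟩, cn_valid hl]
  | ng =>
      rw [pack_ng hk']
      show cn P W D A F _ = _
      rw [(vl_nz w nc (Nz.of_ng hk') hl).toPt, cn_valid hl]
  | ps =>
      obtain ⟨α, hα⟩ := hs hk'
      rw [pack_ps hk']
      show Dom201.app _ l = _
      rw [app_codeF ⟨_, supp_ps w (Pz.of_ps hk') hα⟩, cn_valid hl]

end Crest.Agent.R298.T891
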