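import Crest.Agent.R298.Mem_360

/-!
R298 (S0452), helper157: T3 = the FINITE RANK LEMMA of the uniform semantics (doc 2313, section 5)
and the representation lemma (AP).  No typing: raw terms, environments of (term, info) pairs.

* `DomEq Tm Ti C`: a domain `V` of codes with a level `lev : V → ℕ`, decoding to functionals;
* `Inf`: infos `none | dflt | bo | ar | qu`;  `ap`: application of an info to a list of arguments;
* `Sig`: the abstract data of the evaluation (nf, cst, admissible infos, domain types, paths);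
* `ev`: evaluation of raw terms;  `rank_lemma`: for all `M` and `m` there is `N` such that `ev M`
  only depends on the environment up to `(m, N)`.
-/

set_option autoImplicit false

namespace Crest.Agent.R298.Rank157

open Crest.LogicCS.PTS Crest.LogicCS.PTS.Term
open Crest.Agent.R298.Sub452 Crest.Agent.R298.Mem360

universe u

/-! ### lists and agreement -/

section raw

variable {Tm Ti V C : Type u}

/-- coordinates of `Q`-infos: lists whose interesting entries are `Ti`- or `V`-entries -/
abbrev PV (Tm Ti V : Type u) : Type u := List (Tm × Option (Ti ⊕ V))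

/-- `Q`-infos: all functions on coordinates -/
abbrev QW (Tm Ti V C : Type u) : Type u := PV Tm Ti V → C

/-- argument lists of `A`-infos -/
abbrev PW (Tm Ti V C : Type u) : Type u := List (Tm × Option (Ti ⊕ QW Tm Ti V C))

/-- all `V`-entries have level at most `N` -/
def LevLe (lev : V → ℕ) (N : ℕ) (p : PV Tm Ti V) : Prop :=
  ∀ a v, (a, some (Sum.inr v)) ∈ p → lev v ≤ N

/-- agreement of `Q`-infos up to level `N` -/
def AgW (lev : V → ℕ) (N : ℕ) (w w' : QW Tm Ti V C) : Prop := ∀ p, LevLe lev N p → w p = w' p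

/-- agreement of entries -/
inductive AgO (lev : V → ℕ) (N : ℕ) : Option (Ti ⊕ QW Tm Ti V C) → Option (Ti ⊕ QW Tm Ti V C) → Prop
  | none : AgO lev N none none
  | inl (t : Ti) : AgO lev N (some (Sum.inl t)) (some (Sum.inl t))
  | inr {w w' : QW Tm Ti V C} : AgW lev N w w' → AgO lev N (some (Sum.inr w)) (some (Sum.inr w'))

/-- agreement of argument lists -/
def AgP (lev : V → ℕ) (N : ℕ) : PW Tm Ti V C → PW Tm Ti V C → Prop :=
  List.Forall₂ fun e e' => e.1 = e'.1 ∧ AgO lev N e.2 e'.2

theorem LevLe.mono {lev : V → ℕ} {N N' : ℕ} (h : N ≤ N') {p : PV Tm Ti V} (hp : LevLe lev N p) :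
    LevLe lev N' p := fun a v hv => (hp a v hv).trans h

theorem AgW.refl (lev : V → ℕ) (N : ℕ) (w : QW Tm Ti V C) : AgW lev N w w := fun _ _ => rfl

theorem AgW.anti {lev : V → ℕ} {N N' : ℕ} (h : N ≤ N') {w w' : QW Tm Ti V C}
    (hw : AgW lev N' w w') : AgW lev N w w' := fun p hp => hw p (hp.mono h)

theorem AgO.anti {lev : V → ℕ} {N N' : ℕ} (h : N ≤ N') {o o' : Option (Ti ⊕ QW Tm Ti V C)}
    (ho : AgO lev N' o o') : AgO lev N o o' := by
  cases ho with
  | none => exact .none
  | inl t => exact .inl t
  | inr hw => exact .inr (hw.anti h)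

theorem AgO.refl (lev : V → ℕ) (N : ℕ) : ∀ o : Option (Ti ⊕ QW Tm Ti V C), AgO lev N o o
  | Option.none => .none
  | some (Sum.inl t) => .inl t
  | some (Sum.inr w) => .inr (AgW.refl lev N w)

theorem AgP.anti {lev : V → ℕ} {N N' : ℕ} (h : N ≤ N') {p p' : PW Tm Ti V C}
    (hp : AgP lev N' p p') : AgP lev N p p' := by
  unfold AgP at *
  exact hp.imp fun _ _ he => ⟨he.1, he.2.anti h⟩

theorem AgP.refl (lev : V → ℕ) (N : ℕ) (p : PW Tm Ti V C) : AgP lev N p p := by
  unfold AgP
  induction p with
  | nil => exact .nil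
  | cons e p ih => exact .cons ⟨rfl, AgO.refl lev N _⟩ ih

end raw

/-- the domain equation `V ≅ finite rank functionals`, as a retraction -/
structure DomEq (Tm Ti C : Type u) where
  V : Type u
  lev : V → ℕ
  dec : V → PW Tm Ti V C → C
  D1 : ∀ {N : ℕ} {v : V} {p p' : PW Tm Ti V C}, lev v ≤ N → AgP lev N p p' → dec v p = dec v p'
  D2 : ∀ {N : ℕ} {g : PW Tm Ti V C → C}, (∀ p p', AgP lev N p p' → g p = g p') →
    ∃ v, lev v ≤ N + 1 ∧ dec v = g

namespace DomEq

variable {Tm Ti C : Type u} (D : DomEq Tm Ti C)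

theorem exists_lev {g : PW Tm Ti D.V C → C} (h : ∃ v, D.dec v = g) :
    ∃ n, ∃ v, D.lev v = n ∧ D.dec v = g := by
  obtain ⟨v, hv⟩ := h
  exact ⟨_, v, rfl, hv⟩

open Classical in
/-- a code of minimal level of a functional -/
noncomputable def enc [Inhabited C] (g : PW Tm Ti D.V C → C) : D.V :=
  if h : ∃ v, D.dec v = g then Classical.choose (Nat.find_spec (D.exists_lev h))
  else Classical.choose (D.D2 (N := 0) (g := fun _ => (default : C)) fun _ _ _ => rfl)

theorem dec_enc [Inhabited C] {g : PW Tm Ti D.V C → C} (h : ∃ v, D.dec v = g) :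
    D.dec (D.enc g) = g := by
  classical
  unfold enc
  rw [dif_pos h]
  exact (Classical.choose_spec (Nat.find_spec (D.exists_lev h))).2

theorem lev_enc [Inhabited C] {g : PW Tm Ti D.V C → C} {n : ℕ}
    (h : ∃ v, D.lev v ≤ n ∧ D.dec v = g) : D.lev (D.enc g) ≤ n := by
  classical
  obtain ⟨v, hv, hg⟩ := h
  have h' : ∃ v, D.dec v = g := ⟨v, hg⟩
  unfold enc
  rw [dif_pos h', (Classical.choose_spec (Nat.find_spec (D.exists_lev h'))).1]
  exact (Nat.find_min' (D.exists_lev h') ⟨v, rfl, hg⟩).trans hv

end DomEq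

/-! ### infos -/

/-- infos -/
inductive Inf (Ti V W : Type u) : Type u
  | none : Inf Ti V W
  | dflt : Inf Ti V W
  | bo (t : Ti) : Inf Ti V W
  | ar (v : V) : Inf Ti V W
  | qu (w : W) : Inf Ti V W

section infos

variable {Tm Ti C : Type u} (D : DomEq Tm Ti C)

/-- infos over a domain -/
abbrev I : Type u := Inf Ti D.V (QW Tm Ti D.V C)

/-- arguments -/
abbrev Arg : Type u := Tm × I D

variable {D}

/-- the coordinate of a list of arguments (`Q`-entries are dropped) -/
def toV : I D → Option (Ti ⊕ D.V)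
  | .bo t => some (Sum.inl t)
  | .ar v => some (Sum.inr v)
  | _ => none

def toW : I D → Option (Ti ⊕ QW Tm Ti D.V C)
  | .bo t => some (Sum.inl t)
  | .qu w => some (Sum.inr w)
  | _ => none

def toB : I D → Option Ti
  | .bo t => some t
  | _ => none

def toPV (p : List (Arg D)) : PV Tm Ti D.V := p.map fun e => (e.1, toV e.2)
def toPW (p : List (Arg D)) : PW Tm Ti D.V C := p.map fun e => (e.1, toW e.2)
def toPB (p : List (Arg D)) : List (Tm × Option Ti) := p.map fun e => (e.1, toB e.2)

/-- embeddings back into lists of arguments -/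
def ofV : Option (Ti ⊕ D.V) → I D
  | some (Sum.inl t) => .bo t
  | some (Sum.inr v) => .ar v
  | none => .none

def ofW : Option (Ti ⊕ QW Tm Ti D.V C) → I D
  | some (Sum.inl t) => .bo t
  | some (Sum.inr w) => .qu w
  | none => .none

def ofB : Option Ti → I D
  | some t => .bo t
  | none => .none

def ofPV (p : PV Tm Ti D.V) : List (Arg D) := p.map fun e => (e.1, ofV e.2)
def ofPW (p : PW Tm Ti D.V C) : List (Arg D) := p.map fun e => (e.1, ofW e.2)
def ofPB (p : List (Tm × Option Ti)) : List (Arg D) := p.map fun e => (e.1, ofB e.2)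

/-- application of an info to a list of arguments; `apB` is the application of `Ti`-infos -/
def ap [Inhabited C] (apB : Ti → List (Tm × Option Ti) → C) : I D → List (Arg D) → C
  | .none, _ => default
  | .dflt, _ => default
  | .bo t, p => apB t (toPB p)
  | .ar v, p => D.dec v (toPW p)
  | .qu w, p => w (toPV p)

/-- relatedness of infos: `A`-infos are equal and of level at most `m`, `Q`-infos agree up to
level `N`, the others are equal -/
inductive RelI (m N : ℕ) : I D → I D → Prop
  | none : RelI m N .none .none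
  | dflt : RelI m N .dflt .dflt
  | bo (t : Ti) : RelI m N (.bo t) (.bo t)
  | ar {v : D.V} : D.lev v ≤ m → RelI m N (.ar v) (.ar v)
  | qu {w w' : QW Tm Ti D.V C} : AgW D.lev N w w' → RelI m N (.qu w) (.qu w')

def RelA (m N : ℕ) (a a' : Arg D) : Prop := a.1 = a'.1 ∧ RelI m N a.2 a'.2

def RelL (m N : ℕ) : List (Arg D) → List (Arg D) → Prop := List.Forall₂ (RelA m N)

def RelE (m N : ℕ) (ρ ρ' : ℕ → Arg D) : Prop := ∀ k, RelA m N (ρ k) (ρ' k)

theorem RelI.mono {m m' N N' : ℕ} (hm : m ≤ m') (hN : N' ≤ N) {i i' : I D} (h : RelI m N i i') :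
    RelI m' N' i i' := by
  cases h with
  | none => exact .none
  | dflt => exact .dflt
  | bo t => exact .bo t
  | ar hv => exact .ar (hv.trans hm)
  | qu hw => exact .qu (hw.anti hN)

theorem RelA.mono {m m' N N' : ℕ} (hm : m ≤ m') (hN : N' ≤ N) {a a' : Arg D}
    (h : RelA m N a a') : RelA m' N' a a' := ⟨h.1, h.2.mono hm hN⟩

theorem RelL.mono {m m' N N' : ℕ} (hm : m ≤ m') (hN : N' ≤ N) {p p' : List (Arg D)}
    (h : RelL m N p p') : RelL m' N' p p' := by
  unfold RelL at *
  exact h.imp fun _ _ he => he.mono hm hN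

theorem RelE.mono {m m' N N' : ℕ} (hm : m ≤ m') (hN : N' ≤ N) {ρ ρ' : ℕ → Arg D}
    (h : RelE m N ρ ρ') : RelE m' N' ρ ρ' := fun k => (h k).mono hm hN

theorem RelI.right {m N : ℕ} {i i' : I D} (h : RelI m N i i') : RelI m N i' i' := by
  cases h with
  | none => exact .none
  | dflt => exact .dflt
  | bo t => exact .bo t
  | ar hv => exact .ar hv
  | qu hw => exact .qu (AgW.refl _ _ _)

theorem RelE.right {m N : ℕ} {ρ ρ' : ℕ → Arg D} (h : RelE m N ρ ρ') : RelE m N ρ' ρ' :=
  fun k => ⟨rfl, (h k).2.right⟩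

theorem RelL.terms {m N : ℕ} {p p' : List (Arg D)} (h : RelL m N p p') :
    p.map Prod.fst = p'.map Prod.fst := by
  unfold RelL at h
  induction h with
  | nil => rfl
  | cons h _ ih => simp only [List.map_cons, h.1, ih]

theorem RelL.toPB {m N : ℕ} {p p' : List (Arg D)} (h : RelL m N p p') : toPB p = toPB p' := by
  unfold RelL at h
  induction h with
  | nil => rfl
  | @cons a b _ _ h _ ih =>
      obtain ⟨a1, a2⟩ := a
      obtain ⟨b1, b2⟩ := b
      obtain ⟨h1, h2⟩ := h
      simp only at h1 h2
      subst h1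
      simp only [Rank157.toPB, List.map_cons, List.cons.injEq, Prod.mk.injEq, true_and] at ih ⊢
      refine ⟨?_, ih⟩
      cases h2 <;> rfl

theorem RelL.toPV {m N : ℕ} {p p' : List (Arg D)} (h : RelL m N p p') : toPV p = toPV p' := by
  unfold RelL at h
  induction h with
  | nil => rfl
  | @cons a b _ _ h _ ih =>
      obtain ⟨a1, a2⟩ := a
      obtain ⟨b1, b2⟩ := b
      obtain ⟨h1, h2⟩ := h
      simp only at h1 h2
      subst h1
      simp only [Rank157.toPV, List.map_cons, List.cons.injEq, Prod.mk.injEq, true_and] at ih ⊢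
      refine ⟨?_, ih⟩
      cases h2 <;> rfl

theorem RelL.levLe {m N : ℕ} {p p' : List (Arg D)} (h : RelL m N p p') :
    LevLe D.lev m (Rank157.toPV p) := by
  unfold RelL at h
  intro a v hv
  obtain ⟨e, he, hev⟩ := List.mem_map.1 hv
  induction h with
  | nil => cases he
  | @cons x y _ _ h _ ih =>
      rcases List.mem_cons.1 he with rfl | he
      · obtain ⟨e1, e2⟩ := e
        obtain ⟨y1, y2⟩ := y
        obtain ⟨_, h2⟩ := h
        simp only [Prod.mk.injEq] at hev h2
        obtain ⟨_, hev⟩ := hev
        cases h2 with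
        | none => simp [toV] at hev
        | dflt => simp [toV] at hev
        | bo t => simp [toV] at hev
        | ar hv' => simp only [toV, Option.some.injEq, Sum.inr.injEq] at hev; rwa [← hev]
        | qu _ => simp [toV] at hev
      · exact ih (List.mem_map.2 ⟨e, he, hev⟩) he

theorem RelL.toPW {m N : ℕ} {p p' : List (Arg D)} (h : RelL m N p p') :
    AgP D.lev N (Rank157.toPW p) (Rank157.toPW p') := by
  unfold RelL at h
  unfold AgP Rank157.toPW
  induction h with
  | nil => exact .nil
  | @cons x y _ _ h _ ih =>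
      refine .cons ⟨h.1, ?_⟩ ih
      obtain ⟨x1, x2⟩ := x
      obtain ⟨y1, y2⟩ := y
      obtain ⟨_, h2⟩ := h
      simp only at h2 ⊢
      cases h2 with
      | none => exact .none
      | dflt => exact .none
      | bo t => exact .inl t
      | ar hv' => exact .none
      | qu hw => exact .inr hw

/-- application is a function of the agreement classes -/
theorem ap_rel [Inhabited C] (apB : Ti → List (Tm × Option Ti) → C) {m N : ℕ} (hmN : m ≤ N)
    {i i' : I D} (hi : RelI m N i i') {p p' : List (Arg D)} (hp : RelL m N p p') :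
    ap apB i p = ap apB i' p' := by
  cases hi with
  | none => rfl
  | dflt => rfl
  | bo t => simp only [ap, hp.toPB]
  | ar hv => exact D.D1 (hv.trans hmN) hp.toPW
  | qu hw =>
      simp only [ap, ← hp.toPV]
      exact hw _ (hp.levLe.mono hmN)

theorem relL_ofPB {m N : ℕ} (p : List (Tm × Option Ti)) : RelL (D := D) m N (ofPB p) (ofPB p) := by
  unfold RelL ofPB
  induction p with
  | nil => exact .nil
  | cons e p ih =>
      refine .cons ⟨rfl, ?_⟩ ih
      obtain ⟨a, o⟩ := e
      cases o with
      | none => exact .none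
      | some t => exact .bo t

theorem relL_ofPV {m N : ℕ} {p : PV Tm Ti D.V} (h : LevLe D.lev m p) :
    RelL m N (ofPV p) (ofPV p) := by
  unfold RelL ofPV
  induction p with
  | nil => exact .nil
  | cons e p ih =>
      refine .cons ⟨rfl, ?_⟩ (ih fun a v hv => h a v (List.mem_cons_of_mem _ hv))
      obtain ⟨a, o⟩ := e
      match o, h with
      | none, _ => exact .none
      | some (Sum.inl t), _ => exact .bo t
      | some (Sum.inr v), h => exact .ar (h a v (List.mem_cons_self ..))

theorem relL_ofPW {m N : ℕ} {p p' : PW Tm Ti D.V C} (h : AgP D.lev N p p') :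
    RelL m N (ofPW p) (ofPW p') := by
  unfold AgP at h
  unfold RelL ofPW
  induction h with
  | nil => exact .nil
  | @cons x y _ _ h _ ih =>
      refine .cons ⟨h.1, ?_⟩ ih
      obtain ⟨x1, x2⟩ := x
      obtain ⟨y1, y2⟩ := y
      obtain ⟨_, h2⟩ := h
      simp only at h2 ⊢
      cases h2 with
      | none => exact .none
      | inl t => exact .bo t
      | inr hw => exact .qu hw

end infos

/-! ### evaluation -/

/-- modes of closed types -/
inductive Mode
  | none | dead | both | quant | arith
  deriving DecidableEq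

/-- abstract data of the evaluation: `C = Set (MT S)`, terms = raw terms -/
structure Sig (S Ti : Type) where
  /-- the domain of `A`-infos -/
  D : DomEq (Term S) Ti (Set (MT S))
  /-- application of `B`-infos -/
  apB : Ti → List (Term S × Option Ti) → Set (MT S)
  /-- code of a `B`-info at a type -/
  mkB : Term S → (List (Term S × Option Ti) → Set (MT S)) → Ti
  /-- normal form of closed terms -/
  nf : Term S → Term S
  /-- clamping to candidates -/
  cst : Term S → Set (MT S) → Set (MT S)
  /-- domain of the type of a closed function term -/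
  dom : Term S → Term S
  mode : Term S → Mode
  /-- infos over which products quantify -/
  IQ : Term S → I D → Prop
  /-- valid argument lists at a closed type -/
  POk : Term S → List (Arg D) → Prop
  /-- the closed term applied to a list of closed terms -/
  apt : Term S → List (Term S) → Term S

namespace Sig

variable {S Ti : Type} (G : Sig S Ti)

/-- the laws needed by the finite rank lemma -/
structure Laws : Prop where
  iq_ar : ∀ K v, ¬ G.IQ K (.ar v)
  pok_rel : ∀ {K : Term S} {m N : ℕ} {p p' : List (Arg G.D)}, RelL m N p p' →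
    (G.POk K p ↔ G.POk K p')

open Classical in
/-- the clamped value of a behaviour `f` of the closed term `a` at the closed type `K` -/
noncomputable def val (K a : Term S) (f : List (Arg G.D) → Set (MT S)) (q : List (Arg G.D)) :
    Set (MT S) :=
  if G.POk K q then G.cst (G.apt a (q.map Prod.fst)) (f q) else ∅

/-- the info of a behaviour -/
noncomputable def info (K a : Term S) (f : List (Arg G.D) → Set (MT S)) : I G.D :=
  match G.mode K with
  | .none => .none
  | .dead => .dflt
  | .both => .bo (G.mkB K fun q => G.val K a f (ofPB q))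
  | .quant => .qu fun q => G.val K a f (ofPV q)
  | .arith => .ar (G.D.enc fun q => G.val K a f (ofPW q))

/-- extension of an environment -/
def ext (x : Arg G.D) (ρ : ℕ → Arg G.D) : ℕ → Arg G.D
  | 0 => x
  | k + 1 => ρ k

/-- the substitution of an environment -/
def sg (ρ : ℕ → Arg G.D) : ℕ → Term S := fun k => (ρ k).1

/-- **evaluation** of raw terms -/
noncomputable def ev : Term S → (ℕ → Arg G.D) → List (Arg G.D) → Set (MT S)
  | .var k, ρ, p => ap G.apB (ρ k).2 p
  | .sort _, _, _ => ∅
  | .lam _ _, _, [] => ∅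
  | .lam _ M, ρ, x :: p => ev M (G.ext x ρ) p
  | .pi A B, ρ, _ => {v | ∀ w ∈ G.cst (G.nf (sub (G.sg ρ) A)) (ev A ρ []),
      ∀ j, G.IQ (G.nf (sub (G.sg ρ) A)) j →
        MT.app v w ∈ G.cst (G.nf (sub (G.sg (G.ext (G.nf (MT.er w), j) ρ)) B))
          (ev B (G.ext (G.nf (MT.er w), j) ρ) [])}
  | .app M N, ρ, p => ev M ρ ((G.nf (sub (G.sg ρ) N),
      G.info (G.dom (sub (G.sg ρ) M)) (G.nf (sub (G.sg ρ) N)) (ev N ρ)) :: p)

variable {G}

theorem RelE.ext {m N : ℕ} {ρ ρ' : ℕ → Arg G.D} (h : RelE m N ρ ρ') {x x' : Arg G.D}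
    (hx : RelA m N x x') : RelE m N (G.ext x ρ) (G.ext x' ρ') := by
  intro k
  cases k with
  | zero => exact hx
  | succ k => exact h k

theorem RelE.sg {m N : ℕ} {ρ ρ' : ℕ → Arg G.D} (h : RelE m N ρ ρ') : G.sg ρ = G.sg ρ' :=
  funext fun k => (h k).1

/-- the conclusion of the rank lemma -/
def Rk (G : Sig S Ti) (M : Term S) (m N : ℕ) : Prop :=
  ∀ (ρ ρ' : ℕ → Arg G.D) (p p' : List (Arg G.D)), RelE m N ρ ρ' → RelL m N p p' →
    G.ev M ρ p = G.ev M ρ' p'

theorem Rk.mono {M : Term S} {m m' N N' : ℕ} (h : Rk G M m N) (hm : m' ≤ m) (hN : N ≤ N') :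
    Rk G M m' N' := fun _ _ _ _ hρ hp => h _ _ _ _ (hρ.mono hm hN) (hp.mono hm hN)

theorem val_rel (L : G.Laws) {M : Term S} {m N : ℕ} (h : Rk G M m N) {ρ ρ' : ℕ → Arg G.D}
    (hρ : RelE m N ρ ρ') {q q' : List (Arg G.D)} (hq : RelL m N q q') (K a : Term S) :
    G.val K a (G.ev M ρ) q = G.val K a (G.ev M ρ') q' := by
  unfold val
  rw [h _ _ _ _ hρ hq, hq.terms]
  by_cases hp : G.POk K q
  · rw [if_pos hp, if_pos ((L.pok_rel hq).1 hp)]
  · rw [if_neg hp, if_neg fun h' => hp ((L.pok_rel hq).2 h')]

/-- **the finite rank lemma** -/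
theorem rank_lemma (L : G.Laws) (M : Term S) : ∀ m, ∃ N, Rk G M m N := by
  induction M with
  | var k =>
      intro m
      exact ⟨m, fun ρ ρ' p p' hρ hp => ap_rel G.apB le_rfl (hρ k).2 hp⟩
  | sort s => intro m; exact ⟨0, fun _ _ _ _ _ _ => rfl⟩
  | lam A M _ ih =>
      intro m
      obtain ⟨N, hN⟩ := ih m
      refine ⟨N, fun ρ ρ' p p' hρ hp => ?_⟩
      unfold RelL at hp
      cases hp with
      | nil => rfl
      | cons hx hp => exact hN _ _ _ _ (RelE.ext hρ hx) hp
  | pi A B ihA ihB =>
      intro m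
      obtain ⟨N1, h1⟩ := ihA m
      obtain ⟨N2, h2⟩ := ihB m
      refine ⟨max N1 N2, fun ρ ρ' p p' hρ _ => ?_⟩
      have hA : G.ev A ρ [] = G.ev A ρ' [] :=
        (h1.mono le_rfl (le_max_left _ _)) _ _ _ _ hρ List.Forall₂.nil
      simp only [ev]
      rw [hA, RelE.sg hρ]
      ext v
      simp only [Set.mem_ofPred_eq]
      refine forall₂_congr fun w _ => forall₂_congr fun j hj => ?_
      have hx : RelA m (max N1 N2) (G.nf (MT.er w), j) (G.nf (MT.er w), j) := by
        refine ⟨rfl, ?_⟩
        cases j with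
        | none => exact .none
        | dflt => exact .dflt
        | bo t => exact .bo t
        | ar v => exact absurd hj (L.iq_ar _ _)
        | qu w => exact .qu (AgW.refl _ _ _)
      have hB : G.ev B (G.ext (G.nf (MT.er w), j) ρ) [] =
          G.ev B (G.ext (G.nf (MT.er w), j) ρ') [] :=
        (h2.mono le_rfl (le_max_right _ _)) _ _ _ _ (RelE.ext hρ hx) List.Forall₂.nil
      rw [hB, RelE.sg (RelE.ext hρ hx)]
  | app M N ihM ihN =>
      intro m
      obtain ⟨n1, h1⟩ := ihN m
      obtain ⟨n2, h2⟩ := ihM (max m (n1 + 1))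
      obtain ⟨n3, h3⟩ := ihN (max m n2)
      refine ⟨max n1 (max n2 n3), fun ρ ρ' p p' hρ hp => ?_⟩
      simp only [ev]
      have hsg := RelE.sg hρ
      rw [hsg]
      -- the argument entry
      have hx : RelA (max m (n1 + 1)) n2
          (G.nf (sub (G.sg ρ') N), G.info (G.dom (sub (G.sg ρ') M)) (G.nf (sub (G.sg ρ') N)) (G.ev N ρ))
          (G.nf (sub (G.sg ρ') N), G.info (G.dom (sub (G.sg ρ') M)) (G.nf (sub (G.sg ρ') N)) (G.ev N ρ')) := by
        refine ⟨rfl, ?_⟩
        generalize G.dom (sub (G.sg ρ') M) = K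
        generalize G.nf (sub (G.sg ρ') N) = a
        have hρ1 : RelE m n1 ρ ρ' := hρ.mono le_rfl (le_max_left _ _)
        simp only [info]
        cases hK : G.mode K with
        | none => exact .none
        | dead => exact .dflt
        | both =>
            have : (fun q => G.val K a (G.ev N ρ) (ofPB q)) =
                fun q => G.val K a (G.ev N ρ') (ofPB q) :=
              funext fun q => val_rel L h1 hρ1 (relL_ofPB q) K a
            simp only [this]
            exact .bo _
        | quant =>
            refine .qu fun q hq => ?_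
            exact val_rel L h3 (hρ.mono (le_max_left _ _)
              ((le_max_right _ _).trans (le_max_right _ _)))
              (relL_ofPV (hq.mono (le_max_right _ _))) K a
        | arith =>
            have e : (fun q => G.val K a (G.ev N ρ) (ofPW q)) =
                fun q => G.val K a (G.ev N ρ') (ofPW q) :=
              funext fun q => val_rel L h1 hρ1 (relL_ofPW (AgP.refl _ _ q)) K a
            simp only [e]
            refine .ar ((G.D.lev_enc (n := n1 + 1) ?_).trans (le_max_right _ _))
            exact G.D.D2 (N := n1) fun q q' hq => val_rel L h1 hρ1.right (relL_ofPW hq) K a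
      exact h2 _ _ _ _ (hρ.mono (le_max_left _ _) ((le_max_left _ _).trans (le_max_right _ _)))
        (List.Forall₂.cons hx (hp.mono (le_max_left _ _)
          ((le_max_left _ _).trans (le_max_right _ _))))

/-- the `A`-infos of an environment have bounded level -/
def Bdd (ρ : ℕ → Arg G.D) : Prop := ∃ m, ∀ k v, (ρ k).2 = .ar v → G.D.lev v ≤ m

theorem Bdd.ext {ρ : ℕ → Arg G.D} (h : Bdd ρ) (x : Arg G.D) : Bdd (G.ext x ρ) := by
  obtain ⟨m, hm⟩ := h
  cases hx : x.2 with
  | ar v0 =>
      refine ⟨max m (G.D.lev v0), fun k v hv => ?_⟩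
      cases k with
      | zero =>
          have : x.2 = .ar v := hv
          rw [hx] at this
          cases this
          exact le_max_right _ _
      | succ k => exact (hm k v hv).trans (le_max_left _ _)
  | _ =>
      refine ⟨m, fun k v hv => ?_⟩
      cases k with
      | zero =>
          have : x.2 = .ar v := hv
          rw [hx] at this
          cases this
      | succ k => exact hm k v hv

theorem Bdd.relE {ρ : ℕ → Arg G.D} (h : Bdd ρ) : ∃ m, ∀ N, RelE m N ρ ρ := by
  obtain ⟨m, hm⟩ := h
  refine ⟨m, fun N k => ⟨rfl, ?_⟩⟩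
  have := hm k
  cases hx : (ρ k).2 with
  | none => exact .none
  | dflt => exact .dflt
  | bo t => exact .bo t
  | ar v => exact .ar (this v hx)
  | qu w => exact .qu (AgW.refl _ _ _)

/-- the functional of an argument has a code -/
theorem exists_code (L : G.Laws) {ρ : ℕ → Arg G.D} (hb : Bdd ρ) (N K a : Term S) :
    ∃ v, G.D.dec v = fun q => G.val K a (G.ev N ρ) (ofPW q) := by
  obtain ⟨m, hm⟩ := hb.relE
  obtain ⟨n, hn⟩ := rank_lemma L N m
  obtain ⟨v, _, hv⟩ := G.D.D2 (N := n) (g := fun q => G.val K a (G.ev N ρ) (ofPW q))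
    fun q q' hq => val_rel L hn (hm n) (relL_ofPW hq) K a
  exact ⟨v, hv⟩

/-- **(AP), mode `arith`** -/
theorem ap_arith (L : G.Laws) {ρ : ℕ → Arg G.D} (hb : Bdd ρ) {N K a : Term S}
    (hK : G.mode K = .arith) {p : List (Arg G.D)} (hp : ofPW (toPW p) = p) :
    ap G.apB (G.info K a (G.ev N ρ)) p = G.val K a (G.ev N ρ) p := by
  simp only [info, hK, ap]
  rw [G.D.dec_enc (exists_code L hb N K a)]
  show G.val K a (G.ev N ρ) (ofPW (toPW p)) = _
  rw [hp]

/-- **(AP), mode `quant`** (any behaviour) -/
theorem ap_quant {K a : Term S} {f : List (Arg G.D) → Set (MT S)} (hK : G.mode K = .quant)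
    {p : List (Arg G.D)} (hp : ofPV (toPV p) = p) :
    ap G.apB (G.info K a f) p = G.val K a f p := by
  simp only [info, hK, ap]
  rw [hp]

/-- **(AP), mode `both`** (any behaviour), from the law of `mkB` -/
theorem ap_both {K a : Term S} {f : List (Arg G.D) → Set (MT S)} (hK : G.mode K = .both)
    {p : List (Arg G.D)} (hp : ofPB (toPB p) = p)
    (hmk : ∀ g : List (Term S × Option Ti) → Set (MT S), G.apB (G.mkB K g) (toPB p) = g (toPB p)) :
    ap G.apB (G.info K a f) p = G.val K a f p := by
  simp only [info, hK, ap]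
  rw [hmk, hp]

end Sig

end Crest.Agent.R298.Rank157
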