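import Mathlib
import Crest.Prelude.Def_PTS

/-!
R298, Lean base, part 1: substitution algebra of the frozen raw terms.

`ren r` (renamings), `sub σ` (parallel substitutions), the σ-calculus identities, and the frozen
`shift`, `shiftBy`, `substAt`, `subst` expressed by them.
-/

set_option autoImplicit false

namespace Crest.Agent.R298.Raw631

open Crest.LogicCS.PTS Crest.LogicCS.PTS.Term

universe u
variable {S : Type u}

/-- lift a renaming under a binder. -/
def upr (r : ℕ → ℕ) : ℕ → ℕ
  | 0 => 0
  | i + 1 => r i + 1

/-- renaming. -/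
def ren : (ℕ → ℕ) → Term S → Term S
  | r, var i => var (r i)
  | _, sort s => sort s
  | r, app M N => app (ren r M) (ren r N)
  | r, lam A M => lam (ren r A) (ren (upr r) M)
  | r, pi A B => pi (ren r A) (ren (upr r) B)

/-- lift a substitution under a binder. -/
def up (σ : ℕ → Term S) : ℕ → Term S
  | 0 => var 0
  | i + 1 => ren Nat.succ (σ i)

/-- parallel substitution. -/
def sub : (ℕ → Term S) → Term S → Term S
  | σ, var i => σ i
  | _, sort s => sort s
  | σ, app M N => app (sub σ M) (sub σ N)
  | σ, lam A M => lam (sub σ A) (sub (up σ) M)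
  | σ, pi A B => pi (sub σ A) (sub (up σ) B)

/-- the substitution of the variable 0 by `N` (the others go down by one). -/
def inst (N : Term S) : ℕ → Term S
  | 0 => N
  | i + 1 => var i

@[simp] theorem ren_var (r : ℕ → ℕ) (i : ℕ) : ren r (var i : Term S) = var (r i) := rfl
@[simp] theorem ren_sort (r : ℕ → ℕ) (s : S) : ren r (sort s) = sort s := rfl
@[simp] theorem ren_app (r : ℕ → ℕ) (M N : Term S) :
    ren r (app M N) = app (ren r M) (ren r N) := rfl
@[simp] theorem ren_lam (r : ℕ → ℕ) (A M : Term S) :
    ren r (lam A M) = lam (ren r A) (ren (upr r) M) := rfl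
@[simp] theorem ren_pi (r : ℕ → ℕ) (A M : Term S) :
    ren r (pi A M) = pi (ren r A) (ren (upr r) M) := rfl
@[simp] theorem sub_var' (σ : ℕ → Term S) (i : ℕ) : sub σ (var i) = σ i := rfl
@[simp] theorem sub_sort (σ : ℕ → Term S) (s : S) : sub σ (sort s) = sort s := rfl
@[simp] theorem sub_app (σ : ℕ → Term S) (M N : Term S) :
    sub σ (app M N) = app (sub σ M) (sub σ N) := rfl
@[simp] theorem sub_lam (σ : ℕ → Term S) (A M : Term S) :
    sub σ (lam A M) = lam (sub σ A) (sub (up σ) M) := rfl
@[simp] theorem sub_pi (σ : ℕ → Term S) (A M : Term S) :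
    sub σ (pi A M) = pi (sub σ A) (sub (up σ) M) := rfl
@[simp] theorem upr_zero (r : ℕ → ℕ) : upr r 0 = 0 := rfl
@[simp] theorem upr_succ (r : ℕ → ℕ) (i : ℕ) : upr r (i + 1) = r i + 1 := rfl
@[simp] theorem up_zero (σ : ℕ → Term S) : up σ 0 = var 0 := rfl
@[simp] theorem up_succ (σ : ℕ → Term S) (i : ℕ) : up σ (i + 1) = ren Nat.succ (σ i) := rfl
@[simp] theorem inst_zero (N : Term S) : inst N 0 = N := rfl
@[simp] theorem inst_succ (N : Term S) (i : ℕ) : inst N (i + 1) = var i := rfl

theorem upr_id : upr id = id := by
  funext i; cases i <;> rfl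

theorem ren_id' (M : Term S) : ren id M = M := by
  induction M with
  | var i => rfl
  | sort s => rfl
  | app M N ihM ihN => simp [ihM, ihN]
  | lam A M ihA ihM => simp [ihA, upr_id, ihM]
  | pi A M ihA ihM => simp [ihA, upr_id, ihM]

theorem upr_comp (r r' : ℕ → ℕ) : upr r ∘ upr r' = upr (r ∘ r') := by
  funext i; cases i <;> rfl

theorem ren_ren (M : Term S) : ∀ (r r' : ℕ → ℕ), ren r (ren r' M) = ren (r ∘ r') M := by
  induction M with
  | var i => intro r r'; rfl
  | sort s => intro r r'; rfl
  | app M N ihM ihN => intro r r'; simp [ihM, ihN]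
  | lam A M ihA ihM => intro r r'; simp [ihA, ihM, upr_comp]
  | pi A M ihA ihM => intro r r'; simp [ihA, ihM, upr_comp]

theorem up_comp_upr (σ : ℕ → Term S) (r : ℕ → ℕ) : up σ ∘ upr r = up (σ ∘ r) := by
  funext i; cases i <;> rfl

theorem sub_ren (M : Term S) : ∀ (σ : ℕ → Term S) (r : ℕ → ℕ),
    sub σ (ren r M) = sub (σ ∘ r) M := by
  induction M with
  | var i => intro r r'; rfl
  | sort s => intro r r'; rfl
  | app M N ihM ihN => intro r r'; simp [ihM, ihN]
  | lam A M ihA ihM => intro r r'; simp [ihA, ihM, up_comp_upr]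
  | pi A M ihA ihM => intro r r'; simp [ihA, ihM, up_comp_upr]

theorem ren_comp_up (σ : ℕ → Term S) (r : ℕ → ℕ) :
    ren (upr r) ∘ up σ = up (ren r ∘ σ) := by
  funext i
  cases i with
  | zero => rfl
  | succ i =>
    simp only [Function.comp, up_succ, ren_ren]
    rfl

theorem ren_sub (M : Term S) : ∀ (σ : ℕ → Term S) (r : ℕ → ℕ),
    ren r (sub σ M) = sub (ren r ∘ σ) M := by
  induction M with
  | var i => intro r r'; rfl
  | sort s => intro r r'; rfl
  | app M N ihM ihN => intro r r'; simp [ihM, ihN]
  | lam A M ihA ihM => intro r r'; simp [ihA, ihM, ren_comp_up]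
  | pi A M ihA ihM => intro r r'; simp [ihA, ihM, ren_comp_up]

theorem sub_comp_up (τ σ : ℕ → Term S) : sub (up τ) ∘ up σ = up (sub τ ∘ σ) := by
  funext i
  cases i with
  | zero => rfl
  | succ i =>
    simp only [Function.comp, up_succ, sub_ren, ren_sub]
    rfl

theorem sub_sub (M : Term S) : ∀ (τ σ : ℕ → Term S),
    sub τ (sub σ M) = sub (sub τ ∘ σ) M := by
  induction M with
  | var i => intro r r'; rfl
  | sort s => intro r r'; rfl
  | app M N ihM ihN => intro r r'; simp [ihM, ihN]
  | lam A M ihA ihM => intro r r'; simp [ihA, ihM, sub_comp_up]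
  | pi A M ihA ihM => intro r r'; simp [ihA, ihM, sub_comp_up]

theorem up_var : up (var : ℕ → Term S) = var := by
  funext i; cases i <;> rfl

@[simp] theorem sub_var (M : Term S) : sub var M = M := by
  induction M with
  | var i => rfl
  | sort s => rfl
  | app M N ihM ihN => simp [ihM, ihN]
  | lam A M ihA ihM => simp [ihA, ihM, up_var]
  | pi A M ihA ihM => simp [ihA, ihM, up_var]

theorem up_var_comp (r : ℕ → ℕ) : up ((var : ℕ → Term S) ∘ r) = var ∘ upr r := by
  funext i; cases i <;> rfl

theorem ren_eq_sub (M : Term S) : ∀ (r : ℕ → ℕ), ren r M = sub (var ∘ r) M := by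
  induction M with
  | var i => intro r; rfl
  | sort s => intro r; rfl
  | app M N ihM ihN => intro r; simp [ihM, ihN]
  | lam A M ihA ihM => intro r; simp [ihA, ihM, up_var_comp]
  | pi A M ihA ihM => intro r; simp [ihA, ihM, up_var_comp]

/-! ### the frozen operations -/

/-- the renaming behind `shift c`. -/
def shr (c : ℕ) (i : ℕ) : ℕ := if i < c then i else i + 1

theorem upr_shr (c : ℕ) : upr (shr c) = shr (c + 1) := by
  funext i
  cases i with
  | zero => simp [shr]
  | succ i =>
    simp only [upr_succ, shr]
    split_ifs <;> omega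

theorem shift_eq_ren (M : Term S) : ∀ c, shift c M = ren (shr c) M := by
  induction M with
  | var i =>
    intro c
    simp only [shift, ren_var, shr]
    split_ifs <;> rfl
  | sort s => intro c; rfl
  | app M N ihM ihN => intro c; simp [shift, ihM, ihN]
  | lam A M ihA ihM => intro c; simp [shift, ihA, ihM, upr_shr]
  | pi A M ihA ihM => intro c; simp [shift, ihA, ihM, upr_shr]

theorem shr_zero : shr 0 = Nat.succ := by
  funext i; simp [shr]

theorem shift_zero_eq (M : Term S) : shift 0 M = ren Nat.succ M := by
  rw [shift_eq_ren, shr_zero]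

theorem shiftBy_eq_ren (M : Term S) : ∀ n, shiftBy n M = ren (fun i => i + n) M := by
  intro n
  induction n with
  | zero => exact (ren_id' M).symm
  | succ n ih =>
    show shift 0 (shiftBy n M) = _
    rw [ih, shift_zero_eq, ren_ren]
    rfl

/-- the substitution behind `substAt k N`. -/
def atk (k : ℕ) (N : Term S) (i : ℕ) : Term S :=
  if i < k then var i else if i = k then shiftBy k N else var (i - 1)

theorem up_atk (k : ℕ) (N : Term S) : up (atk k N) = atk (k + 1) N := by
  funext i
  cases i with
  | zero => simp [atk]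
  | succ i =>
    simp only [up_succ, atk]
    by_cases h1 : i < k
    · simp [h1]
    · by_cases h2 : i = k
      · subst h2
        simp only [lt_irrefl, if_false, if_true]
        show ren Nat.succ (shiftBy i N) = shift 0 (shiftBy i N)
        rw [shift_zero_eq]
      · have h3 : ¬ i + 1 < k + 1 := by omega
        have h4 : ¬ i + 1 = k + 1 := by omega
        simp only [h1, h2, h3, h4, if_false, ren_var]
        congr 1
        omega

theorem substAt_eq_sub (N : Term S) (M : Term S) : ∀ k, substAt k N M = sub (atk k N) M := by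
  induction M with
  | var i => intro k; rfl
  | sort s => intro k; rfl
  | app M N ihM ihN => intro k; simp [substAt, ihM, ihN]
  | lam A M ihA ihM => intro k; simp [substAt, ihA, ihM, up_atk]
  | pi A M ihA ihM => intro k; simp [substAt, ihA, ihM, up_atk]

theorem atk_zero (N : Term S) : atk 0 N = inst N := by
  funext i
  cases i with
  | zero => simp [atk, shiftBy]
  | succ i => simp [atk]

theorem subst_eq (N M : Term S) : subst N M = sub (inst N) M := by
  rw [subst, substAt_eq_sub, atk_zero]

/-! ### combined identities -/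

theorem sub_comp_inst (σ : ℕ → Term S) (N : Term S) :
    sub σ ∘ inst N = sub (inst (sub σ N)) ∘ up σ := by
  funext i
  cases i with
  | zero => rfl
  | succ i =>
    simp only [Function.comp, inst_succ, sub_var', up_succ, sub_ren]
    symm
    exact sub_var _

theorem sub_inst (σ : ℕ → Term S) (N M : Term S) :
    sub σ (sub (inst N) M) = sub (inst (sub σ N)) (sub (up σ) M) := by
  rw [sub_sub, sub_sub, sub_comp_inst]

theorem sub_subst (σ : ℕ → Term S) (N M : Term S) :
    sub σ (subst N M) = subst (sub σ N) (sub (up σ) M) := by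
  rw [subst_eq, subst_eq, sub_inst]

theorem ren_inst (r : ℕ → ℕ) (N M : Term S) :
    ren r (sub (inst N) M) = sub (inst (ren r N)) (ren (upr r) M) := by
  simp only [ren_eq_sub, sub_inst, up_var_comp]

theorem ren_subst (r : ℕ → ℕ) (N M : Term S) :
    ren r (subst N M) = subst (ren r N) (ren (upr r) M) := by
  rw [subst_eq, subst_eq, ren_inst]

theorem inst_comp_succ (N : Term S) : inst N ∘ Nat.succ = var := by
  funext i; rfl

@[simp] theorem sub_inst_ren_succ (N M : Term S) : sub (inst N) (ren Nat.succ M) = M := by
  rw [sub_ren, inst_comp_succ, sub_var]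

@[simp] theorem subst_shift (N M : Term S) : subst N (shift 0 M) = M := by
  rw [subst_eq, shift_zero_eq, sub_inst_ren_succ]

theorem sub_up_ren_succ (σ : ℕ → Term S) (M : Term S) :
    sub (up σ) (ren Nat.succ M) = ren Nat.succ (sub σ M) := by
  rw [sub_ren, ren_sub]; rfl

theorem sub_up_shift (σ : ℕ → Term S) (M : Term S) :
    sub (up σ) (shift 0 M) = shift 0 (sub σ M) := by
  rw [shift_zero_eq, shift_zero_eq, sub_up_ren_succ]

theorem ren_upr_shift (r : ℕ → ℕ) (M : Term S) :
    ren (upr r) (shift 0 M) = shift 0 (ren r M) := by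
  rw [shift_zero_eq, shift_zero_eq, ren_ren, ren_ren]; rfl

/-- instantiation after lifting: `(up σ)` followed by `inst N` is the extended substitution. -/
def scons (N : Term S) (σ : ℕ → Term S) : ℕ → Term S
  | 0 => N
  | i + 1 => σ i

@[simp] theorem scons_zero (N : Term S) (σ : ℕ → Term S) : scons N σ 0 = N := rfl
@[simp] theorem scons_succ (N : Term S) (σ : ℕ → Term S) (i : ℕ) : scons N σ (i + 1) = σ i := rfl

theorem sub_inst_up (σ : ℕ → Term S) (N M : Term S) :
    sub (inst N) (sub (up σ) M) = sub (scons N σ) M := by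
  rw [sub_sub]
  congr 1
  funext i
  cases i with
  | zero => rfl
  | succ i => simp [Function.comp]

theorem subst_up (σ : ℕ → Term S) (N M : Term S) :
    subst N (sub (up σ) M) = sub (scons N σ) M := by
  rw [subst_eq, sub_inst_up]

theorem inst_eq_scons (N : Term S) : inst N = scons N var := by
  funext i; cases i <;> rfl

/-! ### injectivity of injective renamings -/

theorem upr_inj {r : ℕ → ℕ} (hr : Function.Injective r) : Function.Injective (upr r) := by
  intro i j h
  cases i <;> cases j <;> simp_all [upr]
  exact hr h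

theorem ren_inj (M : Term S) : ∀ {r : ℕ → ℕ}, Function.Injective r → ∀ {N : Term S},
    ren r M = ren r N → M = N := by
  induction M with
  | var i =>
    intro r hr N h
    cases N <;> simp_all [ren]
    exact hr h
  | sort s => intro r hr N h; cases N <;> simp_all [ren]
  | app M N ihM ihN =>
    intro r hr L h
    cases L with
    | app M' N' =>
      simp only [ren, Term.app.injEq] at h
      rw [ihM hr h.1, ihN hr h.2]
    | _ => simp [ren] at h
  | lam A M ihA ihM =>
    intro r hr L h
    cases L with
    | lam M' N' =>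
      simp only [ren, Term.lam.injEq] at h
      rw [ihA hr h.1, ihM (upr_inj hr) h.2]
    | _ => simp [ren] at h
  | pi A M ihA ihM =>
    intro r hr L h
    cases L with
    | pi M' N' =>
      simp only [ren, Term.pi.injEq] at h
      rw [ihA hr h.1, ihM (upr_inj hr) h.2]
    | _ => simp [ren] at h

theorem shift_inj {M N : Term S} (h : shift 0 M = shift 0 N) : M = N := by
  rw [shift_zero_eq, shift_zero_eq] at h
  exact ren_inj M Nat.succ_injective h

end Crest.Agent.R298.Raw631
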