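import Mathlib
import Crest.Prelude.Def_PTS
import Crest.Agent.R298.RawA_631

/-!
R298, Lean base, part 2: congruence and substitution lemmas for the frozen `Beta`,
Church-Rosser (Takahashi), consequences for `BetaEq` (joinability, injectivity of `pi`,
sorts), behaviour of `Beta` under renaming and substitution.
-/

set_option autoImplicit false

namespace Crest.Agent.R298.Raw631

open Crest.LogicCS.PTS Crest.LogicCS.PTS.Term Relation

universe u
variable {S : Type u}

/-- many-step β-reduction. -/
abbrev Reds (M N : Term S) : Prop := ReflTransGen Beta M N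

/-! ### congruence for `Reds` -/

theorem reds_lift {M N : Term S} (f : Term S → Term S)
    (hf : ∀ M N, Beta M N → Beta (f M) (f N)) (h : Reds M N) : Reds (f M) (f N) := by
  induction h with
  | refl => exact ReflTransGen.refl
  | tail _ h ih => exact ih.tail (hf _ _ h)

theorem reds_appL {M M' : Term S} (N : Term S) (h : Reds M M') : Reds (app M N) (app M' N) :=
  reds_lift (fun X => app X N) (fun _ _ h => Beta.appL N h) h

theorem reds_appR (M : Term S) {N N' : Term S} (h : Reds N N') : Reds (app M N) (app M N') :=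
  reds_lift (fun X => app M X) (fun _ _ h => Beta.appR M h) h

theorem reds_lamA {A A' : Term S} (M : Term S) (h : Reds A A') : Reds (lam A M) (lam A' M) :=
  reds_lift (fun X => lam X M) (fun _ _ h => Beta.lamA M h) h

theorem reds_lamM (A : Term S) {M M' : Term S} (h : Reds M M') : Reds (lam A M) (lam A M') :=
  reds_lift (fun X => lam A X) (fun _ _ h => Beta.lamM A h) h

theorem reds_piA {A A' : Term S} (M : Term S) (h : Reds A A') : Reds (pi A M) (pi A' M) :=
  reds_lift (fun X => pi X M) (fun _ _ h => Beta.piA M h) h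

theorem reds_piB (A : Term S) {M M' : Term S} (h : Reds M M') : Reds (pi A M) (pi A M') :=
  reds_lift (fun X => pi A X) (fun _ _ h => Beta.piB A h) h

theorem reds_app {M M' N N' : Term S} (h : Reds M M') (h' : Reds N N') :
    Reds (app M N) (app M' N') := (reds_appL N h).trans (reds_appR M' h')

theorem reds_lam {M M' N N' : Term S} (h : Reds M M') (h' : Reds N N') :
    Reds (lam M N) (lam M' N') := (reds_lamA N h).trans (reds_lamM M' h')

theorem reds_pi {M M' N N' : Term S} (h : Reds M M') (h' : Reds N N') :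
    Reds (pi M N) (pi M' N') := (reds_piA N h).trans (reds_piB M' h')

/-! ### β and substitution -/

theorem beta_sub {M M' : Term S} (h : Beta M M') : ∀ (σ : ℕ → Term S),
    Beta (sub σ M) (sub σ M') := by
  induction h with
  | redex A M N =>
    intro σ
    rw [sub_subst]
    exact Beta.redex _ _ _
  | appL N _ ih => intro σ; exact Beta.appL _ (ih σ)
  | appR M _ ih => intro σ; exact Beta.appR _ (ih σ)
  | lamA M _ ih => intro σ; exact Beta.lamA _ (ih σ)
  | lamM A _ ih => intro σ; exact Beta.lamM _ (ih _)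
  | piA B _ ih => intro σ; exact Beta.piA _ (ih σ)
  | piB A _ ih => intro σ; exact Beta.piB _ (ih _)

theorem beta_ren {M M' : Term S} (h : Beta M M') (r : ℕ → ℕ) :
    Beta (ren r M) (ren r M') := by
  rw [ren_eq_sub, ren_eq_sub]; exact beta_sub h _

theorem reds_sub {M M' : Term S} (h : Reds M M') (σ : ℕ → Term S) :
    Reds (sub σ M) (sub σ M') :=
  reds_lift _ (fun _ _ h => beta_sub h σ) h

theorem reds_ren {M M' : Term S} (h : Reds M M') (r : ℕ → ℕ) :
    Reds (ren r M) (ren r M') :=
  reds_lift _ (fun _ _ h => beta_ren h r) h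

theorem reds_up {σ τ : ℕ → Term S} (h : ∀ i, Reds (σ i) (τ i)) :
    ∀ i, Reds (up σ i) (up τ i) := by
  intro i
  cases i with
  | zero => exact ReflTransGen.refl
  | succ i => exact reds_ren (h i) _

theorem reds_sub_arg (M : Term S) : ∀ {σ τ : ℕ → Term S}, (∀ i, Reds (σ i) (τ i)) →
    Reds (sub σ M) (sub τ M) := by
  induction M with
  | var i => intro σ τ h; exact h i
  | sort s => intro σ τ h; exact ReflTransGen.refl
  | app M N ihM ihN => intro σ τ h; exact reds_app (ihM h) (ihN h)
  | lam A M ihA ihM => intro σ τ h; exact reds_lam (ihA h) (ihM (reds_up h))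
  | pi A M ihA ihM => intro σ τ h; exact reds_pi (ihA h) (ihM (reds_up h))

theorem reds_inst {N N' : Term S} (h : Reds N N') : ∀ i, Reds (inst N i) (inst N' i) := by
  intro i
  cases i with
  | zero => exact h
  | succ i => exact ReflTransGen.refl

theorem reds_subst {M M' N N' : Term S} (h : Reds M M') (h' : Reds N N') :
    Reds (subst N M) (subst N' M') := by
  rw [subst_eq, subst_eq]
  exact (reds_sub h _).trans (reds_sub_arg M' (reds_inst h'))

theorem reds_sub2 {M M' : Term S} (h : Reds M M') {σ τ : ℕ → Term S}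
    (hs : ∀ i, Reds (σ i) (τ i)) : Reds (sub σ M) (sub τ M') :=
  (reds_sub h _).trans (reds_sub_arg M' hs)

/-- a β-step of a renamed term comes from a β-step of the term. -/
theorem beta_of_ren {M : Term S} : ∀ {r : ℕ → ℕ} {N : Term S},
    Beta (ren r M) N → ∃ M', Beta M M' ∧ N = ren r M' := by
  induction M with
  | var i => intro r N h; cases h
  | sort s => intro r N h; cases h
  | app M N ihM ihN =>
    intro r L h
    simp only [ren_app] at h
    generalize hX : ren r M = X at h
    cases h with
    | redex A P Q =>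
      cases M with
      | lam A' P' =>
        simp only [ren_lam, Term.lam.injEq] at hX
        obtain ⟨hA, hP⟩ := hX
        refine ⟨subst N P', Beta.redex _ _ _, ?_⟩
        rw [ren_subst, hP]
      | _ => simp [ren] at hX
    | appL N' h =>
      subst hX
      obtain ⟨M', h1, rfl⟩ := ihM h
      exact ⟨app M' N, Beta.appL _ h1, rfl⟩
    | appR M' h =>
      subst hX
      obtain ⟨N', h1, rfl⟩ := ihN h
      exact ⟨app M N', Beta.appR _ h1, rfl⟩
  | lam A M ihA ihM =>
    intro r L h
    simp only [ren_lam] at h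
    cases h with
    | lamA M' h =>
      obtain ⟨M', h1, rfl⟩ := ihA h
      exact ⟨lam M' M, Beta.lamA _ h1, rfl⟩
    | lamM A' h =>
      obtain ⟨N', h1, rfl⟩ := ihM h
      exact ⟨lam A N', Beta.lamM _ h1, rfl⟩
  | pi A M ihA ihM =>
    intro r L h
    simp only [ren_pi] at h
    cases h with
    | piA M' h =>
      obtain ⟨M', h1, rfl⟩ := ihA h
      exact ⟨pi M' M, Beta.piA _ h1, rfl⟩
    | piB A' h =>
      obtain ⟨N', h1, rfl⟩ := ihM h
      exact ⟨pi A N', Beta.piB _ h1, rfl⟩

theorem reds_of_ren {M : Term S} {r : ℕ → ℕ} {N : Term S}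
    (h : Reds (ren r M) N) : ∃ M', Reds M M' ∧ N = ren r M' := by
  induction h with
  | refl => exact ⟨M, ReflTransGen.refl, rfl⟩
  | tail _ h ih =>
    obtain ⟨M', h1, rfl⟩ := ih
    obtain ⟨M'', h2, rfl⟩ := beta_of_ren h
    exact ⟨M'', h1.tail h2, rfl⟩

/-! ### parallel reduction -/

/-- parallel β-reduction. -/
inductive Par : Term S → Term S → Prop
  | var (i : ℕ) : Par (var i) (var i)
  | sort (s : S) : Par (sort s) (sort s)
  | app {M M' N N' : Term S} : Par M M' → Par N N' → Par (app M N) (app M' N')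
  | lam {M M' N N' : Term S} : Par M M' → Par N N' → Par (lam M N) (lam M' N')
  | pi {M M' N N' : Term S} : Par M M' → Par N N' → Par (pi M N) (pi M' N')
  | redex (A : Term S) {M M' N N' : Term S} : Par M M' → Par N N' →
      Par (Term.app (Term.lam A M) N) (subst N' M')

theorem par_refl (M : Term S) : Par M M := by
  induction M with
  | var i => exact Par.var i
  | sort s => exact Par.sort s
  | app M N ihM ihN => exact Par.app ihM ihN
  | lam M N ihM ihN => exact Par.lam ihM ihN
  | pi M N ihM ihN => exact Par.pi ihM ihN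

theorem par_of_beta {M M' : Term S} (h : Beta M M') : Par M M' := by
  induction h with
  | redex A M N => exact Par.redex A (par_refl M) (par_refl N)
  | appL N _ ih => exact Par.app ih (par_refl _)
  | appR M _ ih => exact Par.app (par_refl _) ih
  | lamA M _ ih => exact Par.lam ih (par_refl _)
  | lamM A _ ih => exact Par.lam (par_refl _) ih
  | piA B _ ih => exact Par.pi ih (par_refl _)
  | piB A _ ih => exact Par.pi (par_refl _) ih

theorem par_reds {M M' : Term S} (h : Par M M') : Reds M M' := by
  induction h with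
  | var i => exact ReflTransGen.refl
  | sort s => exact ReflTransGen.refl
  | app _ _ ih1 ih2 => exact reds_app ih1 ih2
  | lam _ _ ih1 ih2 => exact reds_lam ih1 ih2
  | pi _ _ ih1 ih2 => exact reds_pi ih1 ih2
  | redex A _ _ ih1 ih2 =>
    exact (reds_app (reds_lamM A ih1) ih2).tail (Beta.redex _ _ _)

theorem par_ren {M M' : Term S} (h : Par M M') : ∀ r, Par (ren r M) (ren r M') := by
  induction h with
  | var i => intro r; exact Par.var _
  | sort s => intro r; exact Par.sort _
  | app _ _ ih1 ih2 => intro r; exact Par.app (ih1 r) (ih2 r)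
  | lam _ _ ih1 ih2 => intro r; exact Par.lam (ih1 r) (ih2 _)
  | pi _ _ ih1 ih2 => intro r; exact Par.pi (ih1 r) (ih2 _)
  | redex A _ _ ih1 ih2 =>
    intro r
    rw [ren_subst]
    exact Par.redex _ (ih1 _) (ih2 r)

theorem par_up {σ τ : ℕ → Term S} (h : ∀ i, Par (σ i) (τ i)) :
    ∀ i, Par (up σ i) (up τ i) := by
  intro i
  cases i with
  | zero => exact Par.var 0
  | succ i => exact par_ren (h i) _

theorem par_sub {M M' : Term S} (h : Par M M') : ∀ {σ τ : ℕ → Term S},
    (∀ i, Par (σ i) (τ i)) → Par (sub σ M) (sub τ M') := by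
  induction h with
  | var i => intro σ τ hs; exact hs i
  | sort s => intro σ τ hs; exact Par.sort _
  | app _ _ ih1 ih2 => intro σ τ hs; exact Par.app (ih1 hs) (ih2 hs)
  | lam _ _ ih1 ih2 => intro σ τ hs; exact Par.lam (ih1 hs) (ih2 (par_up hs))
  | pi _ _ ih1 ih2 => intro σ τ hs; exact Par.pi (ih1 hs) (ih2 (par_up hs))
  | redex A _ _ ih1 ih2 =>
    intro σ τ hs
    rw [sub_subst]
    exact Par.redex _ (ih1 (par_up hs)) (ih2 hs)

theorem par_subst {M M' N N' : Term S} (h : Par M M') (h' : Par N N') :
    Par (subst N M) (subst N' M') := by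
  rw [subst_eq, subst_eq]
  refine par_sub h ?_
  intro i
  cases i with
  | zero => exact h'
  | succ i => exact Par.var i

/-- complete development. -/
def cd : Term S → Term S
  | var i => var i
  | sort s => sort s
  | app (lam _ M) N => subst (cd N) (cd M)
  | app M N => app (cd M) (cd N)
  | lam A M => lam (cd A) (cd M)
  | pi A M => pi (cd A) (cd M)

theorem cd_app_of_not_lam {M N : Term S} (h : ∀ A P, M ≠ lam A P) :
    cd (app M N) = app (cd M) (cd N) := by
  cases M with
  | lam A P => exact absurd rfl (h A P)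
  | _ => simp [cd]

theorem par_triangle {M M' : Term S} (h : Par M M') : Par M' (cd M) := by
  induction h with
  | var i => exact Par.var i
  | sort s => exact Par.sort s
  | @app M M' N N' h1 h2 ih1 ih2 =>
    by_cases hM : ∃ A P, M = lam A P
    · obtain ⟨A, P, rfl⟩ := hM
      cases h1 with
      | @lam _ A' _ P' hA hP =>
        simp only [cd] at ih1 ⊢
        cases ih1 with
        | lam ha hp => exact Par.redex _ hp ih2
    · push Not at hM
      rw [cd_app_of_not_lam (fun A P => hM A P)]
      exact Par.app ih1 ih2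
  | lam _ _ ih1 ih2 => exact Par.lam ih1 ih2
  | pi _ _ ih1 ih2 => exact Par.pi ih1 ih2
  | redex A _ _ ih1 ih2 =>
    simp only [cd]
    exact par_subst ih1 ih2

theorem reds_iff_par {M N : Term S} : Reds M N ↔ ReflTransGen Par M N := by
  constructor
  · intro h
    induction h with
    | refl => exact ReflTransGen.refl
    | tail _ h ih => exact ih.tail (par_of_beta h)
  · intro h
    induction h with
    | refl => exact ReflTransGen.refl
    | tail _ h ih => exact ih.trans (par_reds h)

/-- Church-Rosser for many-step reduction. -/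
theorem church_rosser {M N L : Term S} (h1 : Reds M N) (h2 : Reds M L) :
    ∃ K, Reds N K ∧ Reds L K := by
  rw [reds_iff_par] at h1 h2
  obtain ⟨K, hK1, hK2⟩ := Relation.church_rosser
    (fun a b c hab hac => ⟨cd a, ReflGen.single (par_triangle hab),
      ReflTransGen.single (par_triangle hac)⟩) h1 h2
  exact ⟨K, reds_iff_par.2 hK1, reds_iff_par.2 hK2⟩

/-! ### convertibility -/

theorem betaEq_refl (M : Term S) : BetaEq M M := EqvGen.refl M

theorem betaEq_symm {M N : Term S} (h : BetaEq M N) : BetaEq N M := EqvGen.symm _ _ h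

theorem betaEq_trans {M N L : Term S} (h : BetaEq M N) (h' : BetaEq N L) : BetaEq M L :=
  EqvGen.trans _ _ _ h h'

theorem betaEq_of_beta {M N : Term S} (h : Beta M N) : BetaEq M N := EqvGen.rel _ _ h

theorem betaEq_of_reds {M N : Term S} (h : Reds M N) : BetaEq M N := by
  induction h with
  | refl => exact betaEq_refl _
  | tail _ h ih => exact betaEq_trans ih (betaEq_of_beta h)

theorem betaEq_iff_join {M N : Term S} : BetaEq M N ↔ ∃ K, Reds M K ∧ Reds N K := by
  constructor
  · intro h
    induction h with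
    | rel M N h => exact ⟨N, ReflTransGen.single h, ReflTransGen.refl⟩
    | refl M => exact ⟨M, ReflTransGen.refl, ReflTransGen.refl⟩
    | symm M N _ ih =>
      obtain ⟨K, h1, h2⟩ := ih
      exact ⟨K, h2, h1⟩
    | trans M N L _ _ ih1 ih2 =>
      obtain ⟨K, h1, h2⟩ := ih1
      obtain ⟨K', h1', h2'⟩ := ih2
      obtain ⟨K'', h3, h4⟩ := church_rosser h2 h1'
      exact ⟨K'', h1.trans h3, h2'.trans h4⟩
  · rintro ⟨K, h1, h2⟩
    exact betaEq_trans (betaEq_of_reds h1) (betaEq_symm (betaEq_of_reds h2))

theorem betaEq_lift {f : Term S → Term S} (hf : ∀ M N, Beta M N → BetaEq (f M) (f N))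
    {M N : Term S} (h : BetaEq M N) : BetaEq (f M) (f N) := by
  induction h with
  | rel M N h => exact hf _ _ h
  | refl M => exact betaEq_refl _
  | symm M N _ ih => exact betaEq_symm ih
  | trans M N L _ _ ih1 ih2 => exact betaEq_trans ih1 ih2

theorem betaEq_app {M M' N N' : Term S} (h : BetaEq M M') (h' : BetaEq N N') :
    BetaEq (app M N) (app M' N') :=
  betaEq_trans
    (betaEq_lift (f := fun X => app X N) (fun _ _ h => betaEq_of_beta (Beta.appL N h)) h)
    (betaEq_lift (f := fun X => app M' X) (fun _ _ h => betaEq_of_beta (Beta.appR M' h)) h')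

theorem betaEq_lam {M M' N N' : Term S} (h : BetaEq M M') (h' : BetaEq N N') :
    BetaEq (lam M N) (lam M' N') :=
  betaEq_trans
    (betaEq_lift (f := fun X => lam X N) (fun _ _ h => betaEq_of_beta (Beta.lamA N h)) h)
    (betaEq_lift (f := fun X => lam M' X) (fun _ _ h => betaEq_of_beta (Beta.lamM M' h)) h')

theorem betaEq_pi {M M' N N' : Term S} (h : BetaEq M M') (h' : BetaEq N N') :
    BetaEq (pi M N) (pi M' N') :=
  betaEq_trans
    (betaEq_lift (f := fun X => pi X N) (fun _ _ h => betaEq_of_beta (Beta.piA N h)) h)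
    (betaEq_lift (f := fun X => pi M' X) (fun _ _ h => betaEq_of_beta (Beta.piB M' h)) h')

theorem betaEq_sub {M M' : Term S} (h : BetaEq M M') (σ : ℕ → Term S) :
    BetaEq (sub σ M) (sub σ M') :=
  betaEq_lift (fun _ _ h => betaEq_of_beta (beta_sub h σ)) h

theorem betaEq_ren {M M' : Term S} (h : BetaEq M M') (r : ℕ → ℕ) :
    BetaEq (ren r M) (ren r M') :=
  betaEq_lift (fun _ _ h => betaEq_of_beta (beta_ren h r)) h

theorem betaEq_shift {M M' : Term S} (h : BetaEq M M') :
    BetaEq (shift 0 M) (shift 0 M') := by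
  rw [shift_zero_eq, shift_zero_eq]
  exact betaEq_ren h _

theorem betaEq_up {σ τ : ℕ → Term S} (h : ∀ i, BetaEq (σ i) (τ i)) :
    ∀ i, BetaEq (up σ i) (up τ i) := by
  intro i
  cases i with
  | zero => exact betaEq_refl _
  | succ i => exact betaEq_ren (h i) _

theorem betaEq_sub_arg (M : Term S) : ∀ {σ τ : ℕ → Term S}, (∀ i, BetaEq (σ i) (τ i)) →
    BetaEq (sub σ M) (sub τ M) := by
  induction M with
  | var i => intro σ τ h; exact h i
  | sort s => intro σ τ h; exact betaEq_refl _
  | app M N ihM ihN => intro σ τ h; exact betaEq_app (ihM h) (ihN h)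
  | lam A M ihA ihM => intro σ τ h; exact betaEq_lam (ihA h) (ihM (betaEq_up h))
  | pi A M ihA ihM => intro σ τ h; exact betaEq_pi (ihA h) (ihM (betaEq_up h))

theorem betaEq_subst {M M' N N' : Term S} (h : BetaEq M M') (h' : BetaEq N N') :
    BetaEq (subst N M) (subst N' M') := by
  rw [subst_eq, subst_eq]
  refine betaEq_trans (betaEq_sub h _) (betaEq_sub_arg M' ?_)
  intro i
  cases i with
  | zero => exact h'
  | succ i => exact betaEq_refl _

/-! ### reducts of sorts, products, variables -/

theorem reds_sort_inv {s : S} {L : Term S} (h : Reds (sort s) L) : L = sort s := by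
  induction h with
  | refl => rfl
  | tail _ h ih => subst ih; cases h

theorem reds_var_inv {i : ℕ} {L : Term S} (h : Reds (var i) L) : L = var i := by
  induction h with
  | refl => rfl
  | tail _ h ih => subst ih; cases h

theorem reds_pi_inv {A B L : Term S} (h : Reds (pi A B) L) :
    ∃ A' B', L = pi A' B' ∧ Reds A A' ∧ Reds B B' := by
  induction h with
  | refl => exact ⟨A, B, rfl, ReflTransGen.refl, ReflTransGen.refl⟩
  | tail _ h ih =>
    obtain ⟨A', B', rfl, h1, h2⟩ := ih
    cases h with
    | piA _ h => exact ⟨_, _, rfl, h1.tail h, h2⟩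
    | piB _ h => exact ⟨_, _, rfl, h1, h2.tail h⟩

theorem reds_lam_inv {A B L : Term S} (h : Reds (lam A B) L) :
    ∃ A' B', L = lam A' B' ∧ Reds A A' ∧ Reds B B' := by
  induction h with
  | refl => exact ⟨A, B, rfl, ReflTransGen.refl, ReflTransGen.refl⟩
  | tail _ h ih =>
    obtain ⟨A', B', rfl, h1, h2⟩ := ih
    cases h with
    | lamA _ h => exact ⟨_, _, rfl, h1.tail h, h2⟩
    | lamM _ h => exact ⟨_, _, rfl, h1, h2.tail h⟩

theorem betaEq_pi_inj {A B A' B' : Term S} (h : BetaEq (pi A B) (pi A' B')) :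
    BetaEq A A' ∧ BetaEq B B' := by
  obtain ⟨K, h1, h2⟩ := betaEq_iff_join.1 h
  obtain ⟨C, D, rfl, hC, hD⟩ := reds_pi_inv h1
  obtain ⟨C', D', h3, hC', hD'⟩ := reds_pi_inv h2
  simp only [Term.pi.injEq] at h3
  obtain ⟨rfl, rfl⟩ := h3
  exact ⟨betaEq_trans (betaEq_of_reds hC) (betaEq_symm (betaEq_of_reds hC')),
    betaEq_trans (betaEq_of_reds hD) (betaEq_symm (betaEq_of_reds hD'))⟩

theorem betaEq_lam_inj {A B A' B' : Term S} (h : BetaEq (lam A B) (lam A' B')) :
    BetaEq A A' ∧ BetaEq B B' := by
  obtain ⟨K, h1, h2⟩ := betaEq_iff_join.1 h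
  obtain ⟨C, D, rfl, hC, hD⟩ := reds_lam_inv h1
  obtain ⟨C', D', h3, hC', hD'⟩ := reds_lam_inv h2
  simp only [Term.lam.injEq] at h3
  obtain ⟨rfl, rfl⟩ := h3
  exact ⟨betaEq_trans (betaEq_of_reds hC) (betaEq_symm (betaEq_of_reds hC')),
    betaEq_trans (betaEq_of_reds hD) (betaEq_symm (betaEq_of_reds hD'))⟩

theorem betaEq_sort_inj {s t : S} (h : BetaEq (sort s) (sort t)) : s = t := by
  obtain ⟨K, h1, h2⟩ := betaEq_iff_join.1 h
  have e1 := reds_sort_inv h1
  have e2 := reds_sort_inv h2
  rw [e1] at e2
  exact Term.sort.inj e2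

theorem not_betaEq_sort_pi {s : S} {A B : Term S} (h : BetaEq (sort s) (pi A B)) : False := by
  obtain ⟨K, h1, h2⟩ := betaEq_iff_join.1 h
  have e1 := reds_sort_inv h1
  obtain ⟨C, D, e2, -, -⟩ := reds_pi_inv h2
  rw [e1] at e2
  cases e2

theorem not_betaEq_pi_sort {s : S} {A B : Term S} (h : BetaEq (pi A B) (sort s)) : False :=
  not_betaEq_sort_pi (betaEq_symm h)

/-- convertible to a sort = reduces to it. -/
theorem reds_sort_of_betaEq {M : Term S} {s : S} (h : BetaEq M (sort s)) :
    Reds M (sort s) := by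
  obtain ⟨K, h1, h2⟩ := betaEq_iff_join.1 h
  rw [reds_sort_inv h2] at h1
  exact h1

/-- convertible to a product = reduces to a product with convertible parts. -/
theorem reds_pi_of_betaEq {M A B : Term S} (h : BetaEq M (pi A B)) :
    ∃ A' B', Reds M (pi A' B') ∧ Reds A A' ∧ Reds B B' := by
  obtain ⟨K, h1, h2⟩ := betaEq_iff_join.1 h
  obtain ⟨A', B', rfl, h3, h4⟩ := reds_pi_inv h2
  exact ⟨A', B', h1, h3, h4⟩

/-! ### normal forms -/

theorem reds_eq_of_normal {M N : Term S} (h : Reds M N) (hM : Normal M) : N = M := by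
  rcases h.cases_head with h | ⟨L, h, -⟩
  · exact h.symm
  · exact absurd h (hM L)

/-- convertible normal forms are equal. -/
theorem betaEq_eq_of_normal {M N : Term S} (h : BetaEq M N) (hM : Normal M) (hN : Normal N) :
    M = N := by
  obtain ⟨K, h1, h2⟩ := betaEq_iff_join.1 h
  rw [← reds_eq_of_normal h1 hM, reds_eq_of_normal h2 hN]

theorem reds_of_betaEq_normal {M N : Term S} (h : BetaEq M N) (hN : Normal N) : Reds M N := by
  obtain ⟨K, h1, h2⟩ := betaEq_iff_join.1 h
  rw [reds_eq_of_normal h2 hN] at h1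
  exact h1

theorem normal_ren {M : Term S} (h : Normal M) (r : ℕ → ℕ) : Normal (ren r M) := by
  intro N hN
  obtain ⟨M', h1, -⟩ := beta_of_ren hN
  exact h M' h1

end Crest.Agent.R298.Raw631
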