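import Crest.Agent.R298.MW_961
import Crest.Agent.R298.Uniq_452
import Crest.Agent.R298.Brg_865

/-!
R298 (S0452), helper558: REFLECTION ALONG TYPED RENAMINGS (any type preserving renaming, not
necessarily injective, no freshness), over an abstract judgement `Jd`.

If `M` is typable in `G` and `r : G → D` preserves the declared types, then every type of
`ren r M` in `D` is (up to conversion) a renamed type of `M` in `G`.  Consequences: classes, the
predicates `NF k` and the sets `W k` are reflected.  This gives the fields `fresh` and `ident` of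
961's stage models for one big world: the new name only has to have the right type.
-/

set_option autoImplicit false

namespace Crest.Agent.R298.Rfl558

open Crest.LogicCS.PTS Crest.LogicCS.PTS.Term Relation
open Crest.Agent.R298.Sub452 Crest.Agent.R298.Par452 Crest.Agent.R298.Mem360
open Crest.Agent.R298.Mem360.MT Crest.Agent.R298.Jd961 Crest.Agent.R298.Jd961.Jd
open Crest.Agent.R298.MW961
open Crest.Agent.R298.Ty452 (beta_ren_inv)
open Crest.Agent.R298.TyF452 (red_ren_inv normal_ren)
open Crest.Agent.R298.Uniq452 (Neu)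
open Crest.Agent.R298.Main865 (mred_mren_inv)

universe u v

variable {S : Type u} {P : Spec S} {C : Type v} {J : Jd P C}

/-! ### neutral terms -/

theorem neu_uniq {M : Term S} (n : Neu M) : ∀ {G : C} {A B : Term S}, J.T G M A → J.T G M B →
    BetaEq A B := by
  induction n with
  | var i =>
      intro G A B h h'
      obtain ⟨C1, l, e⟩ := J.gen_var h
      obtain ⟨C2, l', e'⟩ := J.gen_var h'
      rw [J.dc_unique l l'] at e
      exact BetaEq.trans e (BetaEq.symm e')
  | app N _ ih =>
      intro G A B h h'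
      obtain ⟨A1, B1, h1, h2, e⟩ := J.gen_app h
      obtain ⟨A2, B2, h3, h4, e'⟩ := J.gen_app h'
      obtain ⟨_, h5⟩ := pi_inj (ih h1 h3)
      exact BetaEq.trans e (BetaEq.trans (BetaEq.sub h5 _) (BetaEq.symm e'))

theorem normal_app_left {M N : Term S} (h : Normal (.app M N)) : Normal M :=
  fun _ b => h _ (.appL N b)

/-- a normal function which is not an abstraction is neutral -/
theorem neu_of_pi {M : Term S} : ∀ {G : C} {A B : Term S}, J.T G M (.pi A B) → Normal M →
    (∀ X Y, M ≠ .lam X Y) → Neu M := by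
  induction M with
  | var i => intro G A B _ _ _; exact .var i
  | sort s =>
      intro G A B h _ _
      obtain ⟨s', _, e⟩ := J.gen_sort h
      exact (not_sort_pi (BetaEq.symm e)).elim
  | app M N ih _ =>
      intro G A B h hn _
      obtain ⟨A1, B1, h1, _, _⟩ := J.gen_app h
      refine .app N (ih h1 (normal_app_left hn) ?_)
      rintro X Y rfl
      exact hn _ (.redex X Y N)
  | lam X Y _ _ => intro G A B _ _ h; exact (h _ _ rfl).elim
  | pi X Y _ _ =>
      intro G A B h _ _
      obtain ⟨_, _, s', _, _, _, e⟩ := J.gen_pi h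
      exact (not_sort_pi (BetaEq.symm e)).elim

theorem neu_of_normal_app {M N A : Term S} {G : C} (h : J.T G (.app M N) A)
    (hn : Normal (.app M N)) : Neu (.app M N) := by
  obtain ⟨A1, B1, h1, _, _⟩ := J.gen_app h
  refine .app N (neu_of_pi h1 (normal_app_left hn) ?_)
  rintro X Y rfl
  exact hn _ (.redex X Y N)

theorem normal_pi' {A B : Term S} (h : Normal (.pi A B)) : Normal A ∧ Normal B :=
  ⟨fun _ b => h _ (.piA B b), fun _ b => h _ (.piB A b)⟩

/-- a typed renaming -/
abbrev Rn (J : Jd P C) (r : ℕ → ℕ) (G D : C) : Prop := Sb J (fun x => .var (r x)) G D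

theorem Rn.cons {G D : C} {r : ℕ → ℕ} (h : Rn J r G D) (w : J.Wf D) {A : Term S} {s : S}
    (hA : J.T D (ren r A) (.sort s)) : Rn J (up r) (J.cons A G) (J.cons (ren r A) D) :=
  sb_up h w hA

/-- **sorts of normal typable terms are reflected** -/
theorem sort_refl {B : Term S} : ∀ {G D : C} {r : ℕ → ℕ} {s0 s : S}, J.Wf G → J.Wf D →
    Rn J r G D → Normal B → J.T G B (.sort s0) → J.T D (ren r B) (.sort s) →
    J.T G B (.sort s) := by
  induction B with
  | var i =>
      intro G D r s0 s wG w hr hn h h'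
      have h1 := tren h w hr
      have := sort_inj (neu_uniq (.var (r i)) h1 h')
      subst this; exact h
  | sort t =>
      intro G D r s0 s wG w hr hn h h'
      obtain ⟨s', a, e⟩ := J.gen_sort h'
      have := sort_inj e
      subst this; exact J.tax wG a
  | app M N _ _ =>
      intro G D r s0 s wG w hr hn h h'
      have h1 := tren h w hr
      have h2 : Neu (ren r (.app M N)) := by
        have hn' : Normal (ren r (.app M N)) := normal_ren hn r
        exact neu_of_normal_app h1 hn'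
      have := sort_inj (neu_uniq h2 h1 h')
      subst this; exact h
  | lam A M _ _ =>
      intro G D r s0 s wG w hr hn h h'
      obtain ⟨B, s', _, _, e⟩ := J.gen_lam h
      exact (not_sort_pi e).elim
  | pi A B ihA ihB =>
      intro G D r s0 s wG w hr hn h h'
      obtain ⟨nA, nB⟩ := normal_pi' hn
      obtain ⟨a0, b0, c0, hA0, hB0, r0, e0⟩ := J.gen_pi h
      obtain ⟨a, b, c, hA, hB, r1, e1⟩ := J.gen_pi h'
      have := sort_inj e1
      subst this
      have hA' := ihA wG w hr nA hA0 hA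
      have hB' := ihB (J.wf_cons wG hA0) (J.wf_cons w hA) (hr.cons w hA) nB hB0 hB
      exact J.tprod hA' hB' r1

/-- types of typable terms are weakly normalising -/
abbrev TWN (J : Jd P C) : Prop := ∀ {G : C} {T : Term S} {s : S}, J.Wf G → J.T G T (.sort s) →
  WN T

theorem ren_eq_sort {T : Term S} {r : ℕ → ℕ} {s : S} (h : BetaEq (ren r T) (.sort s)) :
    Red T (.sort s) := by
  obtain ⟨T', r', e⟩ := red_ren_inv (red_of_eq_sort h)
  cases T' with
  | sort t =>
      rw [ren_sort] at e
      injection e with e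
      subst e; exact r'
  | var i => rw [ren_var] at e; cases e
  | app M N => rw [ren_app] at e; cases e
  | lam M N => rw [ren_lam] at e; cases e
  | pi M N => rw [ren_pi] at e; cases e

theorem ren_eq_pi {T A B : Term S} {r : ℕ → ℕ} (h : BetaEq (ren r T) (.pi A B)) :
    ∃ A' B', Red T (.pi A' B') ∧ BetaEq (ren r A') A ∧ BetaEq (ren (up r) B') B := by
  obtain ⟨A1, B1, r1, rA, rB⟩ := red_of_eq_pi h
  obtain ⟨T', r', e⟩ := red_ren_inv r1
  cases T' with
  | sort t => rw [ren_sort] at e; cases e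
  | var i => rw [ren_var] at e; cases e
  | app M N => rw [ren_app] at e; cases e
  | lam M N => rw [ren_lam] at e; cases e
  | pi M N =>
      rw [ren_pi] at e
      injection e with e1 e2
      subst e1; subst e2
      exact ⟨M, N, r', BetaEq.symm (Red.eq rA), BetaEq.symm (Red.eq rB)⟩

/-- a typable type whose renaming has the sort `b` up to conversion has (in normal form) the
sort `b` -/
theorem sort_refl_nf (hWN : TWN J) {G D : C} {r : ℕ → ℕ} {B B' : Term S} {t b : S}
    (wG : J.Wf G) (w : J.Wf D) (hr : Rn J r G D) (hB : J.T G B (.sort t))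
    (e : BetaEq (ren r B) B') (hB' : J.T D B' (.sort b)) :
    ∃ B1, Red B B1 ∧ J.T G B1 (.sort b) := by
  obtain ⟨B1, r1, n1⟩ := hWN wG hB
  refine ⟨B1, r1, ?_⟩
  have e2 : BetaEq B' (ren r B1) := BetaEq.trans (BetaEq.symm e) (BetaEq.ren (Red.eq r1) r)
  have h3 := J.sr hB' (red_of_eq_normal e2 (normal_ren n1 r))
  exact sort_refl wG w hr n1 (J.sr hB r1) h3

/-- **types are reflected along typed renamings** -/
theorem ty_refl (hWN : TWN J) {M : Term S} : ∀ {G D : C} {r : ℕ → ℕ} {A0 T' : Term S},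
    J.Wf G → J.Wf D → Rn J r G D → J.T G M A0 → J.T D (ren r M) T' →
    ∃ T, J.T G M T ∧ BetaEq (ren r T) T' := by
  induction M with
  | var x =>
      intro G D r A0 T' wG w hr h h'
      obtain ⟨B, hB, eB⟩ := J.gen_var h
      obtain ⟨B', hB', eB'⟩ := J.gen_var h'
      have h1 := hr x B hB
      rw [← ren_eq_sub] at h1
      obtain ⟨B'', hB'', eB''⟩ := J.gen_var h1
      rw [J.dc_unique hB'' hB'] at eB''
      exact ⟨B, J.tvar wG hB, BetaEq.trans eB'' (BetaEq.symm eB')⟩
  | sort s =>
      intro G D r A0 T' wG w hr h h'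
      obtain ⟨s', a, e⟩ := J.gen_sort h'
      exact ⟨.sort s', J.tax wG a, BetaEq.symm e⟩
  | app Q N ihQ ihN =>
      intro G D r A0 T' wG w hr h h'
      obtain ⟨A1, E1, hQ, hN, -⟩ := J.gen_app h
      obtain ⟨A2, E2, hQ', hN', e2⟩ := J.gen_app h'
      obtain ⟨T, hT, eT⟩ := ihQ wG w hr hQ hQ'
      obtain ⟨A3, E3, rT, eA, eE⟩ := ren_eq_pi eT
      have hT3 := red_type hT rT
      obtain ⟨e13, -⟩ := (jutting J hQ hT3).inv_pi
      obtain ⟨s, hs⟩ := pi_typed hT3
      obtain ⟨a, _, _, hA3, _⟩ := J.gen_pi hs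
      have hN3 := J.tconv hN hA3 e13
      refine ⟨_, J.tappl hT3 hN3, ?_⟩
      rw [ren_inst]
      exact BetaEq.trans (BetaEq.inst (.refl _) eE) (BetaEq.symm e2)
  | lam A M ihA ihM =>
      intro G D r A0 T' wG w hr h h'
      obtain ⟨B0, s0, hM, hp, -⟩ := J.gen_lam h
      obtain ⟨B', s', hM', hp', e'⟩ := J.gen_lam h'
      obtain ⟨a1, b1, c1, hA, hB0, -, -⟩ := J.gen_pi hp
      obtain ⟨a, b, c, hA', hB', r1, ec⟩ := J.gen_pi hp'
      have := sort_inj ec
      subst this
      have hrA := tren hA w hr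
      rw [ren_sort] at hrA
      have wG' := J.wf_cons wG hA
      have w' := J.wf_cons w hrA
      obtain ⟨B1, hB1, e1⟩ := ihM wG' w' (hr.cons w hrA) hM hM'
      obtain ⟨TA, hTA, eTA⟩ := ihA wG w hr hA hA'
      have hAa : J.T G A (.sort a) := red_type hTA (ren_eq_sort eTA)
      have key : ∃ B2, Red B1 B2 ∧ J.T (J.cons A G) B2 (.sort b) := by
        rcases J.type_correct hB1 with ⟨t, rfl⟩ | ⟨t, ht⟩
        · refine ⟨_, .refl, ?_⟩
          rw [ren_sort] at e1
          have h3 := J.sr hB' (red_of_eq_sort (BetaEq.symm e1))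
          obtain ⟨s'', ax, e3⟩ := J.gen_sort h3
          have := sort_inj e3
          subst this
          exact J.tax wG' ax
        · exact sort_refl_nf hWN wG' w' (hr.cons w hrA) ht e1 hB'
      obtain ⟨B2, r2, hB2⟩ := key
      refine ⟨.pi A B2, J.tabs (red_type hB1 r2) (J.tprod hAa hB2 r1), ?_⟩
      rw [ren_pi]
      exact BetaEq.trans (BetaEq.pi (.refl _)
        (BetaEq.trans (BetaEq.symm (BetaEq.ren (Red.eq r2) _)) e1)) (BetaEq.symm e')
  | pi A B ihA ihB =>
      intro G D r A0 T' wG w hr h h'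
      obtain ⟨a1, b1, c1, hA, hB, -, -⟩ := J.gen_pi h
      obtain ⟨a, b, c, hA', hB', r1, ec⟩ := J.gen_pi h'
      obtain ⟨TA, hTA, eTA⟩ := ihA wG w hr hA hA'
      have hAa : J.T G A (.sort a) := red_type hTA (ren_eq_sort eTA)
      obtain ⟨TB, hTB, eTB⟩ := ihB (J.wf_cons wG hA) (J.wf_cons w hA') (hr.cons w hA') hB hB'
      have hBb : J.T (J.cons A G) B (.sort b) := red_type hTB (ren_eq_sort eTB)
      exact ⟨.sort c, J.tprod hAa hBb r1, BetaEq.symm ec⟩

/-! ### classes, `NF` and `W` are reflected -/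

variable {idx : S → ℕ}

theorem Cg.refl (hWN : TWN J) {k : ℕ} {G D : C} {r : ℕ → ℕ} {T : Term S} (wG : J.Wf G)
    (w : J.Wf D) (hr : Rn J r G D) (hT : TyOk J G T) (h : Cg J idx k D (ren r T)) :
    Cg J idx k G T := by
  obtain ⟨T1, s, e, h1, hk⟩ := h
  rcases hT with ⟨t, rfl⟩ | ⟨t, ht⟩
  · rw [ren_sort] at e
    have h3 := J.sr h1 (red_of_eq_sort (BetaEq.symm e))
    obtain ⟨s'', ax, e3⟩ := J.gen_sort h3
    have := sort_inj e3
    subst this
    exact ⟨_, _, .refl _, J.tax wG ax, hk⟩
  · obtain ⟨B1, r1, hB1⟩ := sort_refl_nf hWN wG w hr ht e h1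
    exact ⟨B1, s, Red.eq r1, hB1, hk⟩

theorem NF.refl (hWN : TWN J) {k : ℕ} {M : MT S} : ∀ {G D : C} {r : ℕ → ℕ}, J.Wf G →
    J.Wf D → Rn J r G D → MOk J M G → NF J idx k (mren r M) D → NF J idx k M G := by
  induction M with
  | var x => intro G D r _ _ _ _ _; trivial
  | sort s => intro G D r _ _ _ _ _; trivial
  | app F Q ihF ihQ =>
      intro G D r wG w hr hM h
      obtain ⟨⟨A, hA⟩, mF, mQ⟩ := hM
      obtain ⟨hl, hF, hQ⟩ := h
      refine ⟨fun hi => ?_, ihF wG w hr mF hF, ihQ wG w hr mQ hQ⟩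
      obtain ⟨T', hT', hk⟩ := hl (isL_mren.2 hi)
      rw [er_mren] at hT'
      obtain ⟨A', hA'⟩ := mF.typed
      obtain ⟨T, hT, eT⟩ := ty_refl hWN wG w hr hA' hT'
      exact ⟨T, hT, Cg.refl hWN wG w hr (J.type_correct hT) (hk.conv (BetaEq.symm eT))⟩
  | lam A M ihA ihM =>
      intro G D r wG w hr hM h
      obtain ⟨⟨D', hD⟩, mA, mM⟩ := hM
      obtain ⟨s, hs⟩ := dom_lam hD
      have hs' := tren hs w hr
      rw [ren_sort] at hs'
      have h2 := h.2
      rw [er_mren] at h2
      exact ⟨ihA wG w hr mA h.1, ihM (J.wf_cons wG hs) (J.wf_cons w hs') (hr.cons w hs') mM h2⟩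
  | pi A M ihA ihM =>
      intro G D r wG w hr hM h
      obtain ⟨⟨D', hD⟩, mA, mM⟩ := hM
      obtain ⟨s, hs⟩ := dom_pi hD
      have hs' := tren hs w hr
      rw [ren_sort] at hs'
      have h2 := h.2
      rw [er_mren] at h2
      exact ⟨ihA wG w hr mA h.1, ihM (J.wf_cons wG hs) (J.wf_cons w hs') (hr.cons w hs') mM h2⟩
  | mem M N ihM ihN =>
      intro G D r wG w hr hM h
      exact ⟨ihM wG w hr hM.1 h.1, ihN wG w hr hM.2 h.2⟩

/-- **`W` is reflected along typed renamings** -/
theorem W.refl (hWN : TWN J) {k : ℕ} {G D : C} {r : ℕ → ℕ} {M : MT S} (wG : J.Wf G)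
    (w : J.Wf D) (hr : Rn J r G D) (hM : MOk J M G) (h : W J idx k D (mren r M)) :
    W J idx k G M := by
  obtain ⟨v, rv, hv⟩ := h
  obtain ⟨N, rN, rfl⟩ := mred_mren_inv rv
  exact ⟨N, rN, NF.refl hWN wG w hr (hM.red wG rN) hv⟩

end Crest.Agent.R298.Rfl558
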