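import Mathlib.Logic.Basic
import Mathlib.Data.List.Basic
import Mathlib.Tactic

/-!
R298 (S0452), helper198: the levelled domain of "plus" infos (doc 2313 of the captain, 2 (b)).

`V` = codes of finite rank functionals, `W` = all functions on lists with entries in `Ti ⊕ V`
(minus infos).  No well-foundedness, no cardinals: `V = Σ n, E n`, `E (n+1)` = functions which see
the minus infos only on lists with entries of level `≤ n`.
-/

set_option autoImplicit false

namespace Crest.Agent.R298.Sem198

variable (Tm Ti C : Type)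

/-- codes of level `≤ n` -/
def Vle : ℕ → Type
  | 0 => List (Tm × Option Ti) → C
  | n + 1 => Vle n ⊕ (List (Tm × Option (Ti ⊕ (List (Tm × Option (Ti ⊕ Vle n)) → C))) → C)

/-- codes of level exactly `n` -/
def E : ℕ → Type
  | 0 => Vle Tm Ti C 0
  | n + 1 => List (Tm × Option (Ti ⊕ (List (Tm × Option (Ti ⊕ Vle Tm Ti C n)) → C))) → C

/-- all codes -/
abbrev V : Type := Σ n, E Tm Ti C n

/-- minus infos -/
abbrev W : Type := List (Tm × Option (Ti ⊕ V Tm Ti C)) → C

variable {Tm Ti C}

/-- embedding of the codes of level `≤ n` -/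
def inc : (n : ℕ) → Vle Tm Ti C n → V Tm Ti C
  | 0, x => ⟨0, x⟩
  | n + 1, .inl x => inc n x
  | n + 1, .inr f => ⟨n + 1, f⟩

theorem inc_lev : ∀ (n : ℕ) (x : Vle Tm Ti C n), (inc n x).1 ≤ n
  | 0, x => le_refl 0
  | n + 1, .inl x => (inc_lev n x).trans (Nat.le_succ n)
  | n + 1, .inr f => le_refl (n + 1)

theorem inc_surj : ∀ (n : ℕ) (v : V Tm Ti C), v.1 ≤ n → ∃ x, inc n x = v
  | 0, ⟨0, x⟩, _ => ⟨x, rfl⟩
  | 0, ⟨k + 1, x⟩, h => absurd h (Nat.not_succ_le_zero k)
  | n + 1, ⟨m, x⟩, h => by
      rcases Nat.lt_or_ge m (n + 1) with h' | h'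
      · obtain ⟨y, hy⟩ := inc_surj n ⟨m, x⟩ (Nat.le_of_lt_succ h')
        exact ⟨.inl y, hy⟩
      · have e : m = n + 1 := le_antisymm h h'
        subst e
        exact ⟨.inr x, rfl⟩

/-- entries of the lists read by minus infos -/
abbrev MEnt (Tm Ti C : Type) := Tm × Option (Ti ⊕ V Tm Ti C)

/-- entries of the lists read by codes -/
abbrev PEnt (Tm Ti C : Type) := Tm × Option (Ti ⊕ W Tm Ti C)

/-- all codes in the list have level `≤ n` -/
def LevLe (n : ℕ) (l : List (MEnt Tm Ti C)) : Prop :=
  ∀ x ∈ l, ∀ v, x.2 = some (Sum.inr v) → v.1 ≤ n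

/-- agreement of minus infos up to level `n` -/
def WEq (n : ℕ) (w w' : W Tm Ti C) : Prop := ∀ l, LevLe n l → w l = w' l

theorem WEq.refl (n : ℕ) (w : W Tm Ti C) : WEq n w w := fun _ _ => rfl

theorem LevLe.mono {n m : ℕ} (h : n ≤ m) {l : List (MEnt Tm Ti C)} (hl : LevLe n l) :
    LevLe m l := fun x hx v hv => (hl x hx v hv).trans h

theorem WEq.anti {n m : ℕ} (h : n ≤ m) {w w' : W Tm Ti C} (hw : WEq m w w') : WEq n w w' :=
  fun l hl => hw l (hl.mono h)

/-- restriction of a minus info to level `≤ n` -/
def restW (n : ℕ) (w : W Tm Ti C) : List (Tm × Option (Ti ⊕ Vle Tm Ti C n)) → C :=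
  fun l => w (l.map fun x => (x.1, x.2.map (Sum.map id (inc n))))

theorem restW_eq_of {n : ℕ} {w w' : W Tm Ti C} (h : WEq n w w') : restW n w = restW n w' := by
  funext l
  refine h _ ?_
  intro x hx v hv
  obtain ⟨y, _, rfl⟩ := List.mem_map.1 hx
  obtain ⟨a, y⟩ := y
  cases y with
  | none => cases hv
  | some y =>
      cases y with
      | inl t => cases hv
      | inr z =>
          have : inc n z = v := by simpa using hv
          rw [← this]
          exact inc_lev n z

theorem exists_pre (n : ℕ) : ∀ (l : List (MEnt Tm Ti C)), LevLe n l →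
    ∃ l' : List (Tm × Option (Ti ⊕ Vle Tm Ti C n)),
      (l'.map fun x => (x.1, x.2.map (Sum.map id (inc n)))) = l
  | [], _ => ⟨[], rfl⟩
  | x :: l, h => by
      obtain ⟨l', hl'⟩ := exists_pre n l (fun y hy => h y (List.mem_cons_of_mem _ hy))
      obtain ⟨a, y⟩ := x
      have hx := h (a, y) List.mem_cons_self
      cases y with
      | none => exact ⟨(a, none) :: l', by simp [hl']⟩
      | some y =>
          cases y with
          | inl t => exact ⟨(a, some (Sum.inl t)) :: l', by simp [hl']⟩
          | inr v =>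
              obtain ⟨z, hz⟩ := inc_surj n v (hx v rfl)
              exact ⟨(a, some (Sum.inr z)) :: l', by simp [hl', hz]⟩

theorem weq_of_restW {n : ℕ} {w w' : W Tm Ti C} (h : restW n w = restW n w') : WEq n w w' := by
  intro l hl
  obtain ⟨l', rfl⟩ := exists_pre n l hl
  exact congrFun h l'

/-- restriction of the lists read by codes -/
def restP (n : ℕ) (p : List (PEnt Tm Ti C)) :
    List (Tm × Option (Ti ⊕ (List (Tm × Option (Ti ⊕ Vle Tm Ti C n)) → C))) :=
  p.map fun x => (x.1, x.2.map (Sum.map id (restW n)))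

/-- agreement of two entries up to level `n` -/
inductive OEq (n : ℕ) : Option (Ti ⊕ W Tm Ti C) → Option (Ti ⊕ W Tm Ti C) → Prop
  | none : OEq n none none
  | inl (t : Ti) : OEq n (some (Sum.inl t)) (some (Sum.inl t))
  | inr {w w' : W Tm Ti C} : WEq n w w' → OEq n (some (Sum.inr w)) (some (Sum.inr w'))

/-- agreement of lists up to level `n` -/
def PEq (n : ℕ) : List (PEnt Tm Ti C) → List (PEnt Tm Ti C) → Prop :=
  List.Forall₂ fun x y => x.1 = y.1 ∧ OEq n x.2 y.2

theorem OEq.refl (n : ℕ) (o : Option (Ti ⊕ W Tm Ti C)) : OEq n o o := by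
  cases o with
  | none => exact .none
  | some o => cases o with
    | inl t => exact .inl t
    | inr w => exact .inr (WEq.refl n w)

theorem OEq.anti {n m : ℕ} (h : n ≤ m) {o o' : Option (Ti ⊕ W Tm Ti C)} (ho : OEq m o o') :
    OEq n o o' := by
  cases ho with
  | none => exact .none
  | inl t => exact .inl t
  | inr hw => exact .inr (hw.anti h)

theorem PEq.anti {n m : ℕ} (h : n ≤ m) {p p' : List (PEnt Tm Ti C)} (hp : PEq m p p') :
    PEq n p p' := by
  unfold PEq at hp ⊢
  exact hp.imp fun x y hxy => ⟨hxy.1, hxy.2.anti h⟩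

theorem restP_eq_of {n : ℕ} {p p' : List (PEnt Tm Ti C)} (h : PEq n p p') :
    restP n p = restP n p' := by
  unfold PEq at h
  induction h with
  | nil => rfl
  | @cons x y l l' hxy _ ih =>
      obtain ⟨a, o⟩ := x
      obtain ⟨b, o'⟩ := y
      obtain ⟨h1, h2⟩ := hxy
      have h1' : a = b := h1
      subst h1'
      have h3 : restP n ((a, o) :: l) = (a, o.map (Sum.map id (restW n))) :: restP n l := rfl
      have h4 : restP n ((a, o') :: l') = (a, o'.map (Sum.map id (restW n))) :: restP n l' := rfl
      rw [h3, h4, ih]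
      congr 2
      have h2' : OEq n o o' := h2
      cases h2' with
      | none => rfl
      | inl t => rfl
      | inr hw => simp [restW_eq_of hw]

theorem peq_of_restP {n : ℕ} : ∀ {p p' : List (PEnt Tm Ti C)}, restP n p = restP n p' →
    PEq n p p'
  | [], [], _ => List.Forall₂.nil
  | [], _ :: _, h => by cases h
  | _ :: _, [], h => by cases h
  | (a, o) :: p, (b, o') :: p', h => by
      have h3 : restP n ((a, o) :: p) = (a, o.map (Sum.map id (restW n))) :: restP n p := rfl
      have h4 : restP n ((b, o') :: p') = (b, o'.map (Sum.map id (restW n))) :: restP n p' := rfl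
      rw [h3, h4] at h
      obtain ⟨h1, h2⟩ := List.cons.inj h
      obtain ⟨h5, h6⟩ := Prod.mk.inj h1
      refine List.Forall₂.cons ⟨h5, ?_⟩ (peq_of_restP h2)
      show OEq n o o'
      cases o with
      | none => cases o' with
        | none => exact .none
        | some o' => cases h6
      | some o => cases o' with
        | none => cases h6
        | some o' =>
            cases o with
            | inl t => cases o' with
              | inl t' =>
                  have : t = t' := by simpa using h6
                  subst this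
                  exact .inl t
              | inr w' => simp at h6
            | inr w => cases o' with
              | inl t' => simp at h6
              | inr w' =>
                  have : restW n w = restW n w' := by simpa using h6
                  exact .inr (weq_of_restW this)

/-- forget the minus infos of a list -/
def cutP (p : List (PEnt Tm Ti C)) : List (Tm × Option Ti) :=
  p.map fun x => (x.1, x.2.bind fun y => match y with
    | Sum.inl t => some t
    | Sum.inr _ => none)

/-- decoding -/
def dec : V Tm Ti C → List (PEnt Tm Ti C) → C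
  | ⟨0, f⟩, p => (show List (Tm × Option Ti) → C from f) (cutP p)
  | ⟨n + 1, f⟩, p =>
      (show List (Tm × Option (Ti ⊕ (List (Tm × Option (Ti ⊕ Vle Tm Ti C n)) → C))) → C from f)
        (restP n p)

theorem cutP_eq_of {n : ℕ} {p p' : List (PEnt Tm Ti C)} (h : PEq n p p') : cutP p = cutP p' := by
  unfold PEq at h
  induction h with
  | nil => rfl
  | @cons x y l l' hxy _ ih =>
      obtain ⟨a, o⟩ := x
      obtain ⟨b, o'⟩ := y
      obtain ⟨h1, h2⟩ := hxy
      have h1' : a = b := h1
      subst h1'
      have h2' : OEq n o o' := h2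
      unfold cutP at ih ⊢
      simp only [List.map_cons, ih]
      congr 2
      cases h2' with
      | none => rfl
      | inl t => rfl
      | inr hw => rfl

/-- (D1) a code of level `≤ n` depends on the minus infos only up to level `n` -/
theorem dec_congr {n : ℕ} {v : V Tm Ti C} (hv : v.1 ≤ n) {p p' : List (PEnt Tm Ti C)}
    (h : PEq n p p') : dec v p = dec v p' := by
  obtain ⟨m, f⟩ := v
  cases m with
  | zero =>
      show (show List (Tm × Option Ti) → C from f) (cutP p) = _
      rw [cutP_eq_of h]
      rfl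
  | succ m =>
      have h' : PEq m p p' := h.anti (Nat.le_of_succ_le hv)
      show (show List (Tm × Option (Ti ⊕ (List (Tm × Option (Ti ⊕ Vle Tm Ti C m)) → C))) → C
        from f) (restP m p) = _
      rw [restP_eq_of h']
      rfl

open Classical in
/-- (D2) every functional of rank `≤ n` is decoded from a code of level `≤ n + 1` -/
theorem exists_dec [Inhabited C] {n : ℕ} {g : List (PEnt Tm Ti C) → C}
    (hg : ∀ p p', PEq n p p' → g p = g p') : ∃ v : V Tm Ti C, v.1 ≤ n + 1 ∧ ∀ p, dec v p = g p := by
  refine ⟨⟨n + 1, fun q => if h : ∃ p, restP n p = q then g h.choose else default⟩, le_refl _,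
    fun p => ?_⟩
  have hex : ∃ p', restP n p' = restP n p := ⟨p, rfl⟩
  show (if h : ∃ p', restP n p' = restP n p then g h.choose else default) = g p
  rw [dif_pos hex]
  exact hg _ _ (peq_of_restP hex.choose_spec)

/-- some code of `g` of minimal level -/
theorem exists_min {g : List (PEnt Tm Ti C) → C} (h : ∃ v : V Tm Ti C, ∀ p, dec v p = g p) :
    ∃ v : V Tm Ti C, (∀ p, dec v p = g p) ∧ ∀ v' : V Tm Ti C, (∀ p, dec v' p = g p) → v.1 ≤ v'.1 := by
  classical
  have h' : ∃ n, ∃ v : V Tm Ti C, v.1 = n ∧ ∀ p, dec v p = g p := by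
    obtain ⟨v, hv⟩ := h
    exact ⟨v.1, v, rfl, hv⟩
  obtain ⟨v, hv1, hv2⟩ := Nat.find_spec h'
  refine ⟨v, hv2, fun v' hv' => ?_⟩
  rw [hv1]
  exact Nat.find_min' h' ⟨v', rfl, hv'⟩

open Classical in
/-- canonical code -/
noncomputable def enc [Inhabited C] (g : List (PEnt Tm Ti C) → C) : V Tm Ti C :=
  if h : ∃ v : V Tm Ti C, ∀ p, dec v p = g p then (exists_min h).choose
  else ⟨0, fun _ => default⟩

theorem enc_spec [Inhabited C] {n : ℕ} {g : List (PEnt Tm Ti C) → C}
    (hg : ∀ p p', PEq n p p' → g p = g p') : (∀ p, dec (enc g) p = g p) ∧ (enc g).1 ≤ n + 1 := by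
  obtain ⟨v, h1, h2⟩ := exists_dec hg
  have h : ∃ v : V Tm Ti C, ∀ p, dec v p = g p := ⟨v, h2⟩
  have h3 := (exists_min h).choose_spec
  unfold enc
  rw [dif_pos h]
  exact ⟨h3.1, (h3.2 v h2).trans h1⟩

end Crest.Agent.R298.Sem198
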