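import Mathlib.Data.List.Basic
import Mathlib.Data.List.Forall2
import Mathlib.Logic.Basic
import Mathlib.Data.Sigma.Basic
import Mathlib.Order.WellFounded
import Mathlib.Data.Nat.Find

/-!
R298 (S0452), helper253: the info domain with ranks in `ℕ` (doc 2313 of helper716).

`Sk` = a type of closed terms `Tm`, a type of leaf values `C`, a well founded relation `R`
("`A` is a domain of `T`", restricted to tame types).
`U T` = infos of a tame type (recursion along `R`), `Ti = Σ T, U T`, `V` = functionals of finite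
rank (plus infos), `W` = all functions (minus infos).  Everything lives in `Type`.
-/

set_option autoImplicit false

namespace Crest.Agent.R298.Rk1

/-- entries of argument lists: a closed term and possibly a tame info or an element of `X` -/
abbrev En (Tm Ti X : Type) : Type := Tm × Option (Ti ⊕ X)
/-- argument lists -/
abbrev Pa (Tm Ti X : Type) : Type := List (En Tm Ti X)

section Dom

variable {Tm Ti C : Type}

/-- relabelling of entries -/
def enMap {X Y : Type} (f : X → Y) (e : En Tm Ti X) : En Tm Ti Y := (e.1, e.2.map (Sum.map id f))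

/-- relabelling of lists -/
def paMap {X Y : Type} (f : X → Y) (l : Pa Tm Ti X) : Pa Tm Ti Y := l.map (enMap f)

@[simp] theorem paMap_nil {X Y : Type} (f : X → Y) : paMap f ([] : Pa Tm Ti X) = [] := rfl
@[simp] theorem paMap_cons {X Y : Type} (f : X → Y) (e : En Tm Ti X) (l : Pa Tm Ti X) :
    paMap f (e :: l) = enMap f e :: paMap f l := rfl

/-- functionals of rank `< n` -/
def Vle (Tm Ti C : Type) : ℕ → Type
  | 0 => Empty
  | n + 1 => Vle Tm Ti C n ⊕ (Pa Tm Ti (Pa Tm Ti (Vle Tm Ti C n) → C) → C)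

/-- functionals of rank `n` -/
abbrev Fn (Tm Ti C : Type) (n : ℕ) : Type := Pa Tm Ti (Pa Tm Ti (Vle Tm Ti C n) → C) → C

/-- functionals of finite rank -/
abbrev V (Tm Ti C : Type) : Type := Σ n, Fn Tm Ti C n

/-- inclusion -/
def inc : (n : ℕ) → Vle Tm Ti C n → V Tm Ti C
  | 0, x => nomatch (x : Empty)
  | n + 1, x => match (x : Vle Tm Ti C n ⊕ Fn Tm Ti C n) with
    | Sum.inl y => inc n y
    | Sum.inr f => ⟨n, f⟩

theorem inc_lt : ∀ (n : ℕ) (x : Vle Tm Ti C n), (inc n x).1 < n
  | 0, x => nomatch (x : Empty)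
  | n + 1, x => by
      rcases x with y | f
      · exact (inc_lt n y).trans (Nat.lt_succ_self n)
      · exact Nat.lt_succ_self n

theorem inc_surj : ∀ (n : ℕ) (v : V Tm Ti C), v.1 < n → ∃ x, inc n x = v
  | 0, _, h => absurd h (Nat.not_lt_zero _)
  | n + 1, v, h => by
      rcases Nat.lt_succ_iff_lt_or_eq.1 h with h | h
      · obtain ⟨x, hx⟩ := inc_surj n v h
        exact ⟨Sum.inl x, hx⟩
      · obtain ⟨m, f⟩ := v
        cases h
        exact ⟨Sum.inr f, rfl⟩

/-- minus infos: all functions -/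
abbrev W (Tm Ti C : Type) : Type := Pa Tm Ti (V Tm Ti C) → C

/-- restriction of a minus info to lists of rank `< n` -/
def res (n : ℕ) (w : W Tm Ti C) : Pa Tm Ti (Vle Tm Ti C n) → C := fun l => w (paMap (inc n) l)

/-- application of a functional of finite rank -/
def dec (v : V Tm Ti C) (p : Pa Tm Ti (W Tm Ti C)) : C := v.2 (paMap (res v.1) p)

/-- all functionals in the list have rank `< n` -/
def Bd (n : ℕ) (l : Pa Tm Ti (V Tm Ti C)) : Prop := ∀ e ∈ l, ∀ v, e.2 = some (Sum.inr v) → v.1 < n

theorem Bd.mono {n m : ℕ} (h : n ≤ m) {l : Pa Tm Ti (V Tm Ti C)} (hl : Bd n l) : Bd m l :=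
  fun e he v hv => (hl e he v hv).trans_le h

theorem bd_paMap (n : ℕ) (l : Pa Tm Ti (Vle Tm Ti C n)) : Bd n (paMap (inc n) l) := by
  intro e he v hv
  unfold paMap at he
  rw [List.mem_map] at he
  obtain ⟨e', _, rfl⟩ := he
  obtain ⟨a, o⟩ := e'
  rcases o with _ | (t | x)
  · simp [enMap] at hv
  · simp [enMap] at hv
  · simp only [enMap, Option.map_some, Sum.map_inr, Option.some.injEq, Sum.inr.injEq] at hv
    rw [← hv]
    exact inc_lt n x

theorem exists_paMap (n : ℕ) (l : Pa Tm Ti (V Tm Ti C)) (h : Bd n l) :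
    ∃ l', paMap (inc n) l' = l := by
  induction l with
  | nil => exact ⟨[], rfl⟩
  | cons e l ih =>
      obtain ⟨l', hl'⟩ := ih fun e' he' => h e' (List.mem_cons_of_mem _ he')
      obtain ⟨a, o⟩ := e
      rcases o with _ | (t | v)
      · exact ⟨(a, none) :: l', by rw [paMap_cons, hl']; rfl⟩
      · exact ⟨(a, some (Sum.inl t)) :: l', by rw [paMap_cons, hl']; rfl⟩
      · obtain ⟨x, hx⟩ := inc_surj n v (h _ (List.mem_cons_self ..) v rfl)
        refine ⟨(a, some (Sum.inr x)) :: l', ?_⟩
        rw [paMap_cons, hl']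
        simp [enMap, hx]

/-- agreement of minus infos up to rank `n` -/
def AgW (n : ℕ) (w w' : W Tm Ti C) : Prop := ∀ l, Bd n l → w l = w' l

theorem AgW.refl (n : ℕ) (w : W Tm Ti C) : AgW n w w := fun _ _ => rfl
theorem AgW.symm {n : ℕ} {w w' : W Tm Ti C} (h : AgW n w w') : AgW n w' w :=
  fun l hl => (h l hl).symm
theorem AgW.trans {n : ℕ} {w w' w'' : W Tm Ti C} (h : AgW n w w') (h' : AgW n w' w'') :
    AgW n w w'' := fun l hl => (h l hl).trans (h' l hl)
theorem AgW.anti {n m : ℕ} (h : n ≤ m) {w w' : W Tm Ti C} (hw : AgW m w w') : AgW n w w' :=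
  fun l hl => hw l (hl.mono h)

theorem AgW.res_eq {n : ℕ} {w w' : W Tm Ti C} (h : AgW n w w') : res n w = res n w' :=
  funext fun l => h _ (bd_paMap n l)

/-- agreement of entries -/
inductive AgO (n : ℕ) : Option (Ti ⊕ W Tm Ti C) → Option (Ti ⊕ W Tm Ti C) → Prop
  | non : AgO n none none
  | ti (t : Ti) : AgO n (some (Sum.inl t)) (some (Sum.inl t))
  | wi {w w' : W Tm Ti C} : AgW n w w' → AgO n (some (Sum.inr w)) (some (Sum.inr w'))

/-- agreement of lists -/
def AgP (n : ℕ) : Pa Tm Ti (W Tm Ti C) → Pa Tm Ti (W Tm Ti C) → Prop :=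
  List.Forall₂ fun e e' => e.1 = e'.1 ∧ AgO n e.2 e'.2

theorem AgO.anti {n m : ℕ} (h : n ≤ m) {a b : Option (Ti ⊕ W Tm Ti C)} (hab : AgO m a b) :
    AgO n a b := by
  cases hab with
  | non => exact .non
  | ti t => exact .ti t
  | wi hw => exact .wi (hw.anti h)

theorem AgP.anti {n m : ℕ} (h : n ≤ m) {a b : Pa Tm Ti (W Tm Ti C)} (hab : AgP m a b) :
    AgP n a b := List.Forall₂.imp (fun _ _ he => ⟨he.1, he.2.anti h⟩) hab

theorem AgP.map_res {n : ℕ} {p p' : Pa Tm Ti (W Tm Ti C)} (h : AgP n p p') :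
    paMap (res n) p = paMap (res n) p' := by
  unfold AgP at h
  induction h with
  | nil => rfl
  | @cons e e' l l' h _ ih =>
      rw [paMap_cons, paMap_cons, ih]
      congr 1
      obtain ⟨a, o⟩ := e
      obtain ⟨a', o'⟩ := e'
      obtain ⟨h1, h2⟩ := h
      cases h1
      cases h2 with
      | non => rfl
      | ti t => rfl
      | wi hw => simp [enMap, hw.res_eq]

/-- (D1) -/
theorem dec_congr {n : ℕ} (v : V Tm Ti C) (hv : v.1 ≤ n) {p p' : Pa Tm Ti (W Tm Ti C)}
    (h : AgP n p p') : dec v p = dec v p' := by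
  unfold dec
  rw [(h.anti hv).map_res]

variable [Inhabited C]

open Classical in
/-- extension of a restricted minus info -/
noncomputable def ext (n : ℕ) (h : Pa Tm Ti (Vle Tm Ti C n) → C) : W Tm Ti C := fun l =>
  if hl : ∃ l', paMap (inc n) l' = l then h (Classical.choose hl) else default

theorem ag_ext_res (n : ℕ) (w : W Tm Ti C) : AgW n (ext n (res n w)) w := by
  intro l hl
  have h := exists_paMap n l hl
  unfold ext
  rw [dif_pos h]
  unfold res
  rw [Classical.choose_spec h]

/-- `g` depends on its minus entries only up to rank `n` -/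
def Cont (n : ℕ) (g : Pa Tm Ti (W Tm Ti C) → C) : Prop := ∀ p p', AgP n p p' → g p = g p'

omit [Inhabited C] in
theorem Cont.mono {n m : ℕ} (h : n ≤ m) {g : Pa Tm Ti (W Tm Ti C) → C} (hg : Cont n g) :
    Cont m g := fun p p' hp => hg p p' (hp.anti h)

/-- (D2) -/
theorem exists_dec {n : ℕ} {g : Pa Tm Ti (W Tm Ti C) → C} (hg : Cont n g) :
    ∃ f : Fn Tm Ti C n, ∀ p, dec ⟨n, f⟩ p = g p := by
  refine ⟨fun q => g (paMap (ext n) q), fun p => ?_⟩
  show g (paMap (ext n) (paMap (res n) p)) = g p
  refine hg _ _ ?_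
  induction p with
  | nil => exact List.Forall₂.nil
  | cons e p ih =>
      refine List.Forall₂.cons ⟨rfl, ?_⟩ ih
      obtain ⟨a, o⟩ := e
      rcases o with _ | (t | w)
      · exact AgO.non
      · exact AgO.ti t
      · exact AgO.wi (ag_ext_res n w)

open Classical in
/-- a functional of minimal rank with the given values -/
noncomputable def enc (g : Pa Tm Ti (W Tm Ti C) → C) : V Tm Ti C :=
  if h : ∃ n, ∃ f : Fn Tm Ti C n, ∀ p, dec ⟨n, f⟩ p = g p then
    ⟨Nat.find h, Classical.choose (Nat.find_spec h)⟩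
  else ⟨0, fun _ => default⟩

theorem dec_enc {n : ℕ} {g : Pa Tm Ti (W Tm Ti C) → C} (hg : Cont n g)
    (p : Pa Tm Ti (W Tm Ti C)) : dec (enc g) p = g p := by
  classical
  have h : ∃ n, ∃ f : Fn Tm Ti C n, ∀ p, dec ⟨n, f⟩ p = g p := ⟨n, exists_dec hg⟩
  unfold enc
  rw [dif_pos h]
  exact Classical.choose_spec (Nat.find_spec h) p

theorem enc_le {n : ℕ} {g : Pa Tm Ti (W Tm Ti C) → C} (hg : Cont n g) : (enc g).1 ≤ n := by
  classical
  have h : ∃ n, ∃ f : Fn Tm Ti C n, ∀ p, dec ⟨n, f⟩ p = g p := ⟨n, exists_dec hg⟩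
  unfold enc
  rw [dif_pos h]
  exact Nat.find_min' h (exists_dec hg)

end Dom

/-! ### tame infos and the type of all infos -/

/-- skeleton: closed terms, leaf values, the (tame part of the) domain relation -/
structure Sk where
  Tm : Type
  C : Type
  inh : Inhabited C
  R : Tm → Tm → Prop
  wf : WellFounded R

namespace Sk

variable (K : Sk)

instance : Inhabited K.C := K.inh

/-- infos of a tame type -/
def U : K.Tm → Type :=
  K.wf.fix fun T ih => List (K.Tm × Option (Σ T1 : {T1 // K.R T1 T}, ih T1.1 T1.2)) → K.C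

/-- argument lists of tame infos -/
abbrev UA (T : K.Tm) : Type := List (K.Tm × Option (Σ T1 : {T1 // K.R T1 T}, K.U T1.1))

theorem U_eq (T : K.Tm) : K.U T = (K.UA T → K.C) := K.wf.fix_eq _ T

/-- application of a tame info -/
def uapp {T : K.Tm} (u : K.U T) : K.UA T → K.C := cast (K.U_eq T) u

/-- abstraction of a tame info -/
def umk {T : K.Tm} (f : K.UA T → K.C) : K.U T := cast (K.U_eq T).symm f

@[simp] theorem uapp_umk {T : K.Tm} (f : K.UA T → K.C) : K.uapp (K.umk f) = f := by
  unfold uapp umk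
  simp

/-- tagged tame infos -/
abbrev Ti : Type := Σ T : K.Tm, K.U T

end Sk

/-- infos: none, tame, plus (finite rank), minus (all functions) -/
inductive Inf (K : Sk) : Type
  | non : Inf K
  | bo (t : K.Ti) : Inf K
  | ar (v : V K.Tm K.Ti K.C) : Inf K
  | qu (w : W K.Tm K.Ti K.C) : Inf K

/-- arguments -/
abbrev Arg (K : Sk) : Type := K.Tm × Inf K

section Ap

variable {K : Sk}

/-- view of an info as an entry of a minus info -/
def toQ : Inf K → Option (K.Ti ⊕ V K.Tm K.Ti K.C)
  | .non => none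
  | .bo t => some (Sum.inl t)
  | .ar v => some (Sum.inr v)
  | .qu _ => none

/-- view of an info as an entry of a plus info -/
def toA : Inf K → Option (K.Ti ⊕ W K.Tm K.Ti K.C)
  | .non => none
  | .bo t => some (Sum.inl t)
  | .ar _ => none
  | .qu w => some (Sum.inr w)

open Classical in
/-- view of an info as an entry of a tame info at `T` -/
noncomputable def toB (T : K.Tm) : Inf K → Option (Σ T1 : {T1 // K.R T1 T}, K.U T1.1)
  | .bo t => if h : K.R t.1 T then some ⟨⟨t.1, h⟩, t.2⟩ else none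
  | _ => none

def ofQ : Option (K.Ti ⊕ V K.Tm K.Ti K.C) → Inf K
  | none => .non
  | some (Sum.inl t) => .bo t
  | some (Sum.inr v) => .ar v

def ofA : Option (K.Ti ⊕ W K.Tm K.Ti K.C) → Inf K
  | none => .non
  | some (Sum.inl t) => .bo t
  | some (Sum.inr w) => .qu w

def ofB {T : K.Tm} : Option (Σ T1 : {T1 // K.R T1 T}, K.U T1.1) → Inf K
  | none => .non
  | some t => .bo ⟨t.1.1, t.2⟩

/-- list versions -/
def lQ (p : List (Arg K)) : Pa K.Tm K.Ti (V K.Tm K.Ti K.C) := p.map fun e => (e.1, toQ e.2)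
def lA (p : List (Arg K)) : Pa K.Tm K.Ti (W K.Tm K.Ti K.C) := p.map fun e => (e.1, toA e.2)
noncomputable def lB (T : K.Tm) (p : List (Arg K)) : K.UA T := p.map fun e => (e.1, toB T e.2)
def eQ (q : Pa K.Tm K.Ti (V K.Tm K.Ti K.C)) : List (Arg K) := q.map fun e => (e.1, ofQ e.2)
def eA (q : Pa K.Tm K.Ti (W K.Tm K.Ti K.C)) : List (Arg K) := q.map fun e => (e.1, ofA e.2)
def eB {T : K.Tm} (q : K.UA T) : List (Arg K) := q.map fun e => (e.1, ofB e.2)

/-- application of an info to an argument list -/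
noncomputable def ap : Inf K → List (Arg K) → K.C
  | .non, _ => default
  | .bo t, p => K.uapp t.2 (lB t.1 p)
  | .ar v, p => dec v (lA p)
  | .qu w, p => w (lQ p)

@[simp] theorem ap_non (p : List (Arg K)) : ap (.non : Inf K) p = default := rfl

/-- entries seen by a minus info / plus info / tame info -/
def VisQ : Inf K → Prop
  | .qu _ => False
  | _ => True
def VisA : Inf K → Prop
  | .ar _ => False
  | _ => True
def VisB (T : K.Tm) : Inf K → Prop
  | .non => True
  | .bo t => K.R t.1 T
  | _ => False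

theorem ofQ_toQ {j : Inf K} (h : VisQ j) : ofQ (toQ j) = j := by
  cases j with
  | non => rfl
  | bo t => rfl
  | ar v => rfl
  | qu w => exact h.elim

theorem ofA_toA {j : Inf K} (h : VisA j) : ofA (toA j) = j := by
  cases j with
  | non => rfl
  | bo t => rfl
  | ar v => exact h.elim
  | qu w => rfl

theorem ofB_toB {T : K.Tm} {j : Inf K} (h : VisB T j) : ofB (toB T j) = j := by
  cases j with
  | non => rfl
  | bo t =>
      have h' : K.R t.1 T := h
      simp only [toB, dif_pos h']
      rfl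
  | ar v => exact h.elim
  | qu w => exact h.elim

theorem eQ_lQ {p : List (Arg K)} (h : ∀ e ∈ p, VisQ e.2) : eQ (lQ p) = p := by
  unfold eQ lQ
  rw [List.map_map]
  conv_rhs => rw [← List.map_id p]
  exact List.map_congr_left fun e he => Prod.ext rfl (ofQ_toQ (h e he))

theorem eA_lA {p : List (Arg K)} (h : ∀ e ∈ p, VisA e.2) : eA (lA p) = p := by
  unfold eA lA
  rw [List.map_map]
  conv_rhs => rw [← List.map_id p]
  exact List.map_congr_left fun e he => Prod.ext rfl (ofA_toA (h e he))

theorem eB_lB {T : K.Tm} {p : List (Arg K)} (h : ∀ e ∈ p, VisB T e.2) : eB (lB T p) = p := by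
  unfold eB lB
  rw [List.map_map]
  conv_rhs => rw [← List.map_id p]
  exact List.map_congr_left fun e he => Prod.ext rfl (ofB_toB (h e he))

/-! ### agreement of infos -/

/-- agreement: equal, plus infos have rank `< m`, minus infos agree up to rank `n` -/
inductive Ag (n m : ℕ) : Inf K → Inf K → Prop
  | non : Ag n m .non .non
  | bo (t : K.Ti) : Ag n m (.bo t) (.bo t)
  | ar {v : V K.Tm K.Ti K.C} : v.1 < m → Ag n m (.ar v) (.ar v)
  | qu {w w' : W K.Tm K.Ti K.C} : AgW n w w' → Ag n m (.qu w) (.qu w')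

/-- agreement of arguments -/
def AgE (n m : ℕ) (e e' : Arg K) : Prop := e.1 = e'.1 ∧ Ag n m e.2 e'.2

/-- agreement of argument lists -/
def AgL (n m : ℕ) : List (Arg K) → List (Arg K) → Prop := List.Forall₂ (AgE n m)

theorem Ag.mono {n n' m m' : ℕ} (hn : n' ≤ n) (hm : m ≤ m') {j j' : Inf K} (h : Ag n m j j') :
    Ag n' m' j j' := by
  cases h with
  | non => exact .non
  | bo t => exact .bo t
  | ar h => exact .ar (h.trans_le hm)
  | qu h => exact .qu (h.anti hn)

theorem AgE.mono {n n' m m' : ℕ} (hn : n' ≤ n) (hm : m ≤ m') {j j' : Arg K}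
    (h : AgE n m j j') : AgE n' m' j j' := ⟨h.1, h.2.mono hn hm⟩

theorem AgL.mono {n n' m m' : ℕ} (hn : n' ≤ n) (hm : m ≤ m') {p p' : List (Arg K)}
    (h : AgL n m p p') : AgL n' m' p p' := List.Forall₂.imp (fun _ _ he => he.mono hn hm) h

/-- all plus infos of rank `< m` -/
def Lt (m : ℕ) (j : Inf K) : Prop := ∀ v, j = .ar v → v.1 < m

theorem Ag.refl (n : ℕ) {m : ℕ} {j : Inf K} (h : Lt m j) : Ag n m j j := by
  cases j with
  | non => exact .non
  | bo t => exact .bo t
  | ar v => exact .ar (h v rfl)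
  | qu w => exact .qu (AgW.refl n w)

theorem Ag.left {n m : ℕ} {j j' : Inf K} (h : Ag n m j j') : Lt m j := by
  cases h with
  | non => intro v hv; cases hv
  | bo t => intro v hv; cases hv
  | ar h => intro v hv; cases hv; exact h
  | qu h => intro v hv; cases hv

theorem AgL.refl (n : ℕ) {m : ℕ} {p : List (Arg K)} (h : ∀ e ∈ p, Lt m e.2) : AgL n m p p := by
  unfold AgL
  induction p with
  | nil => exact .nil
  | cons e p ih =>
      exact .cons ⟨rfl, Ag.refl n (h e (List.mem_cons_self ..))⟩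
        (ih fun e' he' => h e' (List.mem_cons_of_mem _ he'))

theorem lQ_eq {n m : ℕ} {p p' : List (Arg K)} (h : AgL n m p p') : lQ p = lQ p' := by
  unfold AgL at h
  induction h with
  | nil => rfl
  | @cons e e' p p' h _ ih =>
      obtain ⟨a, j⟩ := e
      obtain ⟨a', j'⟩ := e'
      obtain ⟨h1, h2⟩ := h
      change a = a' at h1
      change Ag n m j j' at h2
      show (a, toQ j) :: lQ p = (a', toQ j') :: lQ p'
      rw [ih, h1]
      cases h2 <;> rfl

theorem lQ_bd {n m : ℕ} {p p' : List (Arg K)} (h : AgL n m p p') : Bd m (lQ p) := by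
  unfold AgL at h
  induction h with
  | nil => intro e he; cases he
  | @cons e e' p p' h _ ih =>
      intro x hx v hv
      rcases List.mem_cons.1 hx with rfl | hx
      · obtain ⟨a, j⟩ := e
        obtain ⟨a', j'⟩ := e'
        obtain ⟨-, h2⟩ := h
        change Ag n m j j' at h2
        change toQ j = some (Sum.inr v) at hv
        revert hv
        cases h2 with
        | non => intro hv; cases hv
        | bo t => intro hv; cases hv
        | ar h => intro hv; cases hv; exact h
        | qu h => intro hv; cases hv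
      · exact ih x hx v hv

theorem lA_ag {n m : ℕ} {p p' : List (Arg K)} (h : AgL n m p p') :
    Rk1.AgP n (lA p) (lA p') := by
  unfold AgL at h
  induction h with
  | nil => exact List.Forall₂.nil
  | @cons e e' p p' h _ ih =>
      refine List.Forall₂.cons ⟨h.1, ?_⟩ ih
      obtain ⟨a, j⟩ := e
      obtain ⟨a', j'⟩ := e'
      obtain ⟨h1, h2⟩ := h
      change Ag n m j j' at h2
      show AgO n (toA j) (toA j')
      cases h2 with
      | non => exact .non
      | bo t => exact .ti t
      | ar h => exact .non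
      | qu h => exact .wi h

theorem lB_eq {n m : ℕ} (T : K.Tm) {p p' : List (Arg K)} (h : AgL n m p p') :
    lB T p = lB T p' := by
  unfold AgL at h
  induction h with
  | nil => rfl
  | @cons e e' p p' h _ ih =>
      obtain ⟨a, j⟩ := e
      obtain ⟨a', j'⟩ := e'
      obtain ⟨h1, h2⟩ := h
      change a = a' at h1
      change Ag n m j j' at h2
      show (a, toB T j) :: lB T p = (a', toB T j') :: lB T p'
      rw [ih, h1]
      cases h2 <;> rfl

/-- application respects agreement -/
theorem ap_congr {n m : ℕ} (hmn : m ≤ n) {j j' : Inf K} (h : Ag n m j j')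
    {p p' : List (Arg K)} (hp : AgL n m p p') : ap j p = ap j' p' := by
  cases h with
  | non => rfl
  | bo t => show K.uapp t.2 (lB t.1 p) = K.uapp t.2 (lB t.1 p'); rw [lB_eq _ hp]
  | @ar v hv => exact dec_congr v ((Nat.le_of_lt hv).trans hmn) (lA_ag hp)
  | @qu w w' hw =>
      show w (lQ p) = w' (lQ p')
      rw [← lQ_eq hp]
      exact hw _ ((lQ_bd hp).mono hmn)

theorem agL_eQ {n m : ℕ} {q : Pa K.Tm K.Ti (V K.Tm K.Ti K.C)} (h : Bd m q) :
    AgL (K := K) n m (eQ q) (eQ q) := by
  refine AgL.refl n fun e he => ?_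
  unfold eQ at he
  rw [List.mem_map] at he
  obtain ⟨e', he', rfl⟩ := he
  intro v hv
  obtain ⟨a, o⟩ := e'
  rcases o with _ | (t | x)
  · cases hv
  · cases hv
  · cases hv
    exact h _ he' _ rfl

theorem agL_eA {n m : ℕ} {q q' : Pa K.Tm K.Ti (W K.Tm K.Ti K.C)} (h : Rk1.AgP n q q') :
    AgL (K := K) n m (eA q) (eA q') := by
  unfold Rk1.AgP at h
  induction h with
  | nil => exact List.Forall₂.nil
  | @cons e e' p p' h _ ih =>
      refine List.Forall₂.cons ⟨h.1, ?_⟩ ih
      obtain ⟨a, o⟩ := e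
      obtain ⟨a', o'⟩ := e'
      obtain ⟨h1, h2⟩ := h
      cases h1
      show Ag n m (ofA o) (ofA o')
      cases h2 with
      | non => exact .non
      | ti t => exact .bo t
      | wi hw => exact .qu hw

theorem agL_eB {n m : ℕ} {T : K.Tm} (q : K.UA T) : AgL (K := K) n m (eB q) (eB q) := by
  refine AgL.refl n fun e he => ?_
  unfold eB at he
  rw [List.mem_map] at he
  obtain ⟨e', he', rfl⟩ := he
  intro v hv
  obtain ⟨a, o⟩ := e'
  rcases o with _ | t
  · cases hv
  · cases hv

end Ap

end Crest.Agent.R298.Rk1
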