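import Crest.Agent.R298.Rk1_198
import Crest.Agent.R298.Uniq_452
import Crest.Agent.R298.Fl1_113
import Crest.Agent.R298.Mem_360

/-!
R298 (S0452), helper198: closed types of a stage, relevance, tame types, modes, infos, `pack`.
-/

set_option autoImplicit false

namespace Crest.Agent.R298.Sem198

open Crest.LogicCS.PTS Crest.LogicCS.PTS.Term Relation
open Crest.Agent.R298.Sub452 Crest.Agent.R298.Par452 Crest.Agent.R298.Ty452
open Crest.Agent.R298.TyF452 Crest.Agent.R298.Mem360

section NF

variable {S : Type}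

open Classical in
/-- the normal form (if there is one) -/
noncomputable def nf (M : Term S) : Term S :=
  if h : ∃ N, Red M N ∧ Normal N then h.choose else M

theorem nf_red {M : Term S} (h : WN M) : Red M (nf M) := by
  have h' : ∃ N, Red M N ∧ Normal N := h
  unfold nf; rw [dif_pos h']; exact h'.choose_spec.1

theorem nf_normal {M : Term S} (h : WN M) : Normal (nf M) := by
  have h' : ∃ N, Red M N ∧ Normal N := h
  unfold nf; rw [dif_pos h']; exact h'.choose_spec.2

theorem nf_eq {M : Term S} (h : WN M) : BetaEq M (nf M) := (nf_red h).eq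

theorem wn_of_eq {M N : Term S} (h : WN M) (e : BetaEq M N) : WN N :=
  ⟨nf M, red_of_eq_normal (BetaEq.trans (BetaEq.symm e) (nf_eq h)) (nf_normal h), nf_normal h⟩

theorem nf_congr {M N : Term S} (h : WN M) (e : BetaEq M N) : nf M = nf N := by
  have h' := wn_of_eq h e
  exact normal_unique (BetaEq.trans (BetaEq.symm (nf_eq h)) (BetaEq.trans e (nf_eq h')))
    (nf_normal h) (nf_normal h')

theorem nf_of_normal {M : Term S} (h : Normal M) : nf M = M :=
  normal_red h (nf_red ⟨M, .refl, h⟩)

theorem nf_unique {M N : Term S} (e : BetaEq M N) (h : Normal N) : nf M = N := by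
  have hM : WN M := ⟨N, red_of_eq_normal e h, h⟩
  rw [nf_congr hM e, nf_of_normal h]

theorem nf_nf {M : Term S} (h : WN M) : nf (nf M) = nf M := nf_of_normal (nf_normal h)

theorem wn_pi_inv {A B : Term S} (h : WN (pi A B)) : WN A ∧ WN B := by
  obtain ⟨N, hr, hn⟩ := h
  obtain ⟨A', B', e, hA, hB⟩ := red_pi hr
  subst e
  exact ⟨⟨A', hA, fun K hK => hn _ (.piA _ hK)⟩, ⟨B', hB, fun K hK => hn _ (.piB _ hK)⟩⟩

theorem normal_pi {A B : Term S} : Normal (pi A B) ↔ Normal A ∧ Normal B := by
  constructor
  · intro h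
    exact ⟨fun K hK => h _ (.piA _ hK), fun K hK => h _ (.piB _ hK)⟩
  · rintro ⟨hA, hB⟩ K hK
    cases hK with
    | piA _ h => exact hA _ h
    | piB _ h => exact hB _ h

theorem nf_pi {A B : Term S} (h : WN (pi A B)) : nf (pi A B) = pi (nf A) (nf B) := by
  obtain ⟨hA, hB⟩ := wn_pi_inv h
  exact nf_unique (BetaEq.pi (nf_eq hA) (nf_eq hB)) (normal_pi.2 ⟨nf_normal hA, nf_normal hB⟩)

theorem normal_sort (s : S) : Normal (sort s : Term S) := by
  intro K hK; cases hK

theorem nf_sort (s : S) : nf (sort s : Term S) = sort s := nf_of_normal (normal_sort s)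

end NF

/-- data of a stage -/
structure Setup (S : Type) where
  P : Spec S
  D : ℕ → Term S
  idx : S → ℕ
  i : ℕ
  wf : WfF P D
  wn : ∀ M A, TyF P D M A → WN M
  wnt : ∀ M A, TyF P D M A → WN A
  /-- the candidate operator -/
  cst : Term S → Set (MT S) → Set (MT S)
  cst_high : ∀ T X Y, (∃ s, TyF P D T (sort s) ∧ i < idx s) → cst T X = cst T Y
  cst_typed : ∀ T X v, v ∈ cst T X → TyF P D (MT.er v) T
  rl : ∀ a b c, P.rule a b c → idx c ≤ idx a ∧ idx c ≤ idx b

variable {S : Type} (X : Setup S)

/-- closed typing -/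
abbrev Setup.Ty (M A : Term S) : Prop := TyF X.P X.D M A

/-- the sorts of the stage -/
def Setup.L : Set S := {s | X.idx s = X.i}

/-- relevant closed types -/
inductive Rel : Term S → Prop
  | leaf {s : S} : X.idx s = X.i → Rel (sort s)
  | step {A B a : Term S} : X.Ty a A → Normal a → Rel (nf (inst a B)) → Rel (pi A B)

/-- codomain descendants -/
inductive Cd : Term S → Term S → Prop
  | refl (T : Term S) : Cd T T
  | step {A B a T : Term S} : X.Ty a A → Normal a → Cd (nf (inst a B)) T → Cd (pi A B) T

variable {X}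

theorem Cd.rel {T T' : Term S} (h : Cd X T T') (h' : Rel X T') : Rel X T := by
  induction h with
  | refl T => exact h'
  | step ha hn _ ih => exact .step ha hn (ih h')

variable (X)

/-- `A` is a domain of a codomain descendant of `T` -/
def LtR (A T : Term S) : Prop := ∃ B, Cd X T (pi A B) ∧ Rel X (pi A B)

/-- tame closed types -/
def Tame (T : Term S) : Prop := Acc (LtR X) T

/-- the well-founded part -/
def LtT (A T : Term S) : Prop := LtR X A T ∧ Acc (LtR X) T

theorem ltT_wf : WellFounded (LtT X) := by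
  refine ⟨fun T => ?_⟩
  by_cases h : Acc (LtR X) T
  · induction h with
    | intro T _ ih =>
        exact ⟨T, fun A hA => ih A hA.1⟩
  · exact ⟨T, fun A hA => absurd hA.2 h⟩

theorem tame_of_irrel {T : Term S} (h : ¬ Rel X T) : Tame X T := by
  refine ⟨T, ?_⟩
  rintro A ⟨B, h1, h2⟩
  exact absurd (h1.rel h2) h

/-! ### small infos -/

/-- values -/
abbrev Val (S : Type) := Set (MT S)

/-- infos of the elements of a tame type -/
noncomputable def U : Term S → Type :=
  (ltT_wf X).fix fun T ih => List (Term S × Option (Σ A : {A // LtT X A T}, ih A.1 A.2)) → Val S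

theorem U_eq (T : Term S) :
    U X T = (List (Term S × Option (Σ A : {A // LtT X A T}, U X A.1)) → Val S) :=
  (ltT_wf X).fix_eq _ T

/-- small infos -/
abbrev Ti : Type := Σ T, U X T

open Classical in
/-- entries read by an info of a tame type -/
noncomputable def toSub (T : Term S) (x : Term S × Option (Ti X)) :
    Term S × Option (Σ A : {A // LtT X A T}, U X A.1) :=
  (x.1, x.2.bind fun t => if h : LtT X t.1 T then some ⟨⟨t.1, h⟩, t.2⟩ else none)

/-- evaluation of small infos -/
noncomputable def apU (t : Ti X) (l : List (Term S × Option (Ti X))) : Val S :=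
  cast (U_eq X t.1) t.2 (l.map (toSub X t.1))

/-- small infos from functions -/
noncomputable def mkU (T : Term S) (g : List (Term S × Option (Ti X)) → Val S) : Ti X :=
  ⟨T, cast (U_eq X T).symm (fun l => g (l.map fun x => (x.1, x.2.map fun s => ⟨s.1.1, s.2⟩)))⟩

theorem mkU_fst (T : Term S) (g : List (Term S × Option (Ti X)) → Val S) : (mkU X T g).1 = T := rfl

theorem apU_mkU {T : Term S} {g : List (Term S × Option (Ti X)) → Val S}
    {l : List (Term S × Option (Ti X))}
    (hl : ∀ x ∈ l, ∃ t, x.2 = some t ∧ LtT X t.1 T) : apU X (mkU X T g) l = g l := by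
  unfold apU mkU
  simp only [cast_cast, cast_eq]
  congr 1
  rw [List.map_map]
  conv_rhs => rw [← List.map_id l]
  refine List.map_congr_left fun x hx => ?_
  obtain ⟨t, h1, h2⟩ := hl x hx
  obtain ⟨a, o⟩ := x
  have h1' : o = some t := h1
  subst h1'
  simp [toSub, h2]

theorem U_nonempty (T : Term S) : Nonempty (U X T) := by
  rw [U_eq X T]
  exact ⟨fun _ => ∅⟩

/-! ### infos -/

/-- codes of the stage -/
abbrev Vx : Type := V (Term S) (Ti X) (Val S)
/-- minus infos of the stage -/
abbrev Wx : Type := W (Term S) (Ti X) (Val S)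

/-- infos -/
inductive Inf : Type
  | df : Inf
  | bo (t : Ti X) : Inf
  | ar (v : Vx X) : Inf
  | qu (w : Wx X) : Inf

/-- arguments -/
abbrev Arg : Type := Term S × Inf X

variable {X}

def toB (x : Arg X) : Term S × Option (Ti X) :=
  (x.1, match x.2 with | .bo t => some t | _ => none)

def toA (x : Arg X) : Term S × Option (Ti X ⊕ Wx X) :=
  (x.1, match x.2 with | .bo t => some (.inl t) | .qu w => some (.inr w) | _ => none)

def toM (x : Arg X) : Term S × Option (Ti X ⊕ Vx X) :=
  (x.1, match x.2 with | .bo t => some (.inl t) | .ar v => some (.inr v) | _ => none)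

def bkB (x : Term S × Option (Ti X)) : Arg X :=
  (x.1, match x.2 with | some t => .bo t | none => .df)

def bkA (x : Term S × Option (Ti X ⊕ Wx X)) : Arg X :=
  (x.1, match x.2 with | some (.inl t) => .bo t | some (.inr w) => .qu w | none => .df)

def bkM (x : Term S × Option (Ti X ⊕ Vx X)) : Arg X :=
  (x.1, match x.2 with | some (.inl t) => .bo t | some (.inr v) => .ar v | none => .df)

/-- evaluation of infos -/
noncomputable def ap : Inf X → List (Arg X) → Val S
  | .df, _ => ∅
  | .bo t, p => apU X t (p.map toB)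
  | .ar v, p => dec v (p.map toA)
  | .qu w, p => w (p.map toM)

/-! ### signs -/

/-- closed types with a sign (`true` = minus mode, the `D`-bound colour) -/
def SgT (X : Setup S) (e : Bool) (T : Term S) : Prop :=
  ∃ t, X.Ty T (sort t) ∧ Fl113.Sg X.P X.L t e

theorem rel_relS {T : Term S} (h : Rel X T) : ∀ {t : S}, X.Ty T (sort t) →
    Fl113.RelS X.P X.L t := by
  induction h with
  | @leaf s hs =>
      intro t ht
      obtain ⟨s', h1, h2⟩ := fgen_sort ht s rfl
      have := sort_inj h2
      subst this
      exact .base hs h1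
  | @step A B a ha hn _ ih =>
      intro t ht
      obtain ⟨a', b, c, hA, hB, r, e⟩ := fgen_pi ht _ _ rfl
      have := sort_inj e
      subst this
      have h1 : X.Ty (inst a B) (sort b) := tyf_inst X.wf hB ha
      exact .up r (ih (FSR X.wf h1 (nf_red (X.wn _ _ h1))))

theorem SgT.dom {e : Bool} {A B : Term S} (h : SgT X e (pi A B)) (hr : Rel X (pi A B))
    (hA : Rel X A) : SgT X (!e) A := by
  obtain ⟨t, h1, h2⟩ := h
  obtain ⟨a', b, c, hA', hB, r, e'⟩ := fgen_pi h1 _ _ rfl
  have := sort_inj e'
  subst this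
  cases hr with
  | step ha hn hr =>
      have h3 : X.Ty (inst _ B) (sort b) := tyf_inst X.wf hB ha
      exact ⟨a', hA', .dom r (rel_relS hA hA')
        (rel_relS hr (FSR X.wf h3 (nf_red (X.wn _ _ h3)))) h2⟩

theorem SgT.cod {e : Bool} {A B a : Term S} (h : SgT X e (pi A B)) (ha : X.Ty a A)
    (hr : Rel X (nf (inst a B))) : SgT X e (nf (inst a B)) := by
  obtain ⟨t, h1, h2⟩ := h
  obtain ⟨a', b, c, hA', hB, r, e'⟩ := fgen_pi h1 _ _ rfl
  have := sort_inj e'
  subst this
  have h3 : X.Ty (inst a B) (sort b) := tyf_inst X.wf hB ha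
  have h4 := FSR X.wf h3 (nf_red (X.wn _ _ h3))
  exact ⟨b, h4, .cod r (rel_relS hr h4) h2⟩

/-- the domain of a strict product with strict codomain -/
def DBr (X : Setup S) (K : Term S) : Prop :=
  ∃ a b c, X.Ty K (sort a) ∧ X.P.rule a b c ∧ X.idx b = X.i ∧ X.idx c = X.i

theorem DBr.sg {K : Term S} (h : DBr X K) (hr : Rel X K) : SgT X true K := by
  obtain ⟨a, b, c, h1, h2, h3, h4⟩ := h
  exact ⟨a, h1, .base h2 h3 h4 (rel_relS hr h1)⟩

/-! ### ranges, valid argument lists, `pack` -/

open Classical in
/-- the infos of the elements of a closed type -/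
noncomputable def rng (K : Term S) : Set (Inf X) :=
  if Tame X K then {j | ∃ u, j = .bo ⟨K, u⟩}
  else if SgT X true K then {j | ∃ w, j = .qu w}
  else if SgT X false K then {j | ∃ v, j = .ar v}
  else {.df}

/-- dead types: no infos -/
def Dead (X : Setup S) (K : Term S) : Prop := ¬ Tame X K ∧ ¬ SgT X true K ∧ ¬ SgT X false K

open Classical in
/-- the infos ranged over by products -/
noncomputable def qr (K : Term S) : Set (Inf X) :=
  if DBr X K ∨ ¬ Rel X K then rng K else {.df}

theorem rng_nonempty (K : Term S) : ∃ j, j ∈ (rng K : Set (Inf X)) := by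
  unfold rng
  split_ifs
  · obtain ⟨u⟩ := U_nonempty X K
    exact ⟨_, u, rfl⟩
  · exact ⟨_, fun _ => ∅, rfl⟩
  · exact ⟨_, ⟨0, fun _ => ∅⟩, rfl⟩
  · exact ⟨_, rfl⟩

theorem qr_nonempty (K : Term S) : ∃ j, j ∈ (qr K : Set (Inf X)) := by
  unfold qr
  split_ifs
  · exact rng_nonempty K
  · exact ⟨_, rfl⟩

/-- complete valid argument lists -/
def Valid : Term S → List (Arg X) → Prop
  | K, [] => ∃ s, K = sort s ∧ X.idx s = X.i
  | K, x :: p => ∃ A B, K = pi A B ∧ X.Ty x.1 A ∧ Normal x.1 ∧ x.2 ∈ (rng A : Set (Inf X)) ∧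
      Valid (nf (inst x.1 B)) p

theorem Valid.rel : ∀ {p : List (Arg X)} {K : Term S}, Valid K p → Rel X K
  | [], K, h => by
      obtain ⟨s, rfl, hs⟩ := h
      exact .leaf hs
  | x :: p, K, h => by
      obtain ⟨A, B, rfl, h1, h2, _, h3⟩ := h
      exact .step h1 h2 h3.rel

theorem valid_pi {A B : Term S} {x : Arg X} {p : List (Arg X)} :
    Valid (pi A B) (x :: p) ↔ X.Ty x.1 A ∧ Normal x.1 ∧ x.2 ∈ (rng A : Set (Inf X)) ∧
      Valid (nf (inst x.1 B)) p := by
  constructor
  · rintro ⟨A', B', e, h⟩
    cases e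
    exact h
  · intro h
    exact ⟨A, B, rfl, h⟩

/-- the closed types with both signs are tame: the output of Theorem F -/
def Thin (X : Setup S) : Prop := ∀ T, Normal T → SgT X true T → SgT X false T → Tame X T

/-- entry kinds along valid lists, by a property of the domains -/
theorem Valid.entries {Q : Term S → Prop} {R : Inf X → Prop}
    (hcod : ∀ A B a, Q (pi A B) → Rel X (pi A B) → X.Ty a A → Normal a →
      Rel X (nf (inst a B)) → Q (nf (inst a B)))
    (hdom : ∀ A B, Q (pi A B) → Rel X (pi A B) → ∀ j ∈ (rng A : Set (Inf X)), R j) :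
    ∀ {p : List (Arg X)} {K : Term S}, Q K → Valid K p → ∀ x ∈ p, R x.2
  | [], _, _, _, x, hx => absurd hx List.not_mem_nil
  | y :: p, K, hQ, h, x, hx => by
      have hr := h.rel
      obtain ⟨A, B, rfl, h1, h2, h3, h4⟩ := h
      rcases List.mem_cons.1 hx with rfl | hx
      · exact hdom A B hQ hr _ h3
      · exact Valid.entries hcod hdom (hcod A B _ hQ hr h1 h2 h4.rel) h4 x hx

theorem Tame.cod {A B a : Term S} (h : Tame X (pi A B)) (ha : X.Ty a A) (hn : Normal a) :
    Tame X (nf (inst a B)) := by
  refine ⟨_, ?_⟩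
  rintro C ⟨E, h1, h2⟩
  exact h.inv ⟨E, .step ha hn h1, h2⟩

theorem valid_tame {p : List (Arg X)} {K : Term S} (hK : Tame X K) (h : Valid K p) :
    ∀ x ∈ p, ∃ t, x.2 = .bo t ∧ LtT X t.1 K := by
  have key : ∀ (p : List (Arg X)) (K' : Term S), Cd X K K' → Valid K' p →
      ∀ x ∈ p, ∃ t, x.2 = .bo t ∧ LtT X t.1 K := by
    intro p
    induction p with
    | nil => intro K' _ _ x hx; exact absurd hx List.not_mem_nil
    | cons y p ih =>
        intro K' hc h x hx
        have hr := h.rel
        obtain ⟨A, B, rfl, h1, h2, h3, h4⟩ := h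
        rcases List.mem_cons.1 hx with rfl | hx
        · have hl : LtR X A K := ⟨B, hc, hr⟩
          have ht : Tame X A := hK.inv hl
          unfold rng at h3
          rw [if_pos ht] at h3
          obtain ⟨u, hu⟩ := h3
          exact ⟨⟨A, u⟩, hu, hl, hK⟩
        · have hcd : ∀ {T T' : Term S}, Cd X T T' → ∀ {A B a : Term S}, T' = pi A B →
              X.Ty a A → Normal a → Cd X T (nf (inst a B)) := by
            intro T T' hc
            induction hc with
            | refl T => intro A B a e ha hn; subst e; exact .step ha hn (.refl _)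
            | step ha' hn' _ ih' => intro A B a e ha hn; exact .step ha' hn' (ih' e ha hn)
          exact ih _ (hcd hc rfl h1 h2) h4 x hx
  exact key p K (.refl K) h

/-- the entries of lists valid for a type with a sign -/
theorem valid_sg (hT : Thin X) (e : Bool) {p : List (Arg X)} {K : Term S} (hn : Normal K)
    (hK : SgT X e K) (h : Valid K p) :
    ∀ x ∈ p, (∃ t, x.2 = .bo t) ∨ (if e then ∃ v, x.2 = .ar v else ∃ w, x.2 = .qu w) := by
  refine Valid.entries (Q := fun K => Normal K ∧ SgT X e K)
    (R := fun j => (∃ t, j = .bo t) ∨ (if e then ∃ v, j = .ar v else ∃ w, j = .qu w))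
    ?_ ?_ ⟨hn, hK⟩ h
  · intro A B a hQ _ ha hna hr
    refine ⟨?_, hQ.2.cod ha hr⟩
    obtain ⟨t, h1, _⟩ := hQ.2.cod ha hr
    obtain ⟨t', h1', _⟩ := hQ.2
    obtain ⟨a', b, c, hA', hB, r, e'⟩ := fgen_pi h1' _ _ rfl
    exact nf_normal (X.wn _ _ (tyf_inst X.wf hB ha))
  · intro A B hQ hr j hj
    unfold rng at hj
    by_cases ht : Tame X A
    · rw [if_pos ht] at hj
      obtain ⟨u, hu⟩ := hj
      exact Or.inl ⟨_, hu⟩
    · rw [if_neg ht] at hj
      have hA : Rel X A := by
        by_contra hA
        exact ht (tame_of_irrel X hA)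
      have hs := hQ.2.dom hr hA
      have hnA := (normal_pi.1 hQ.1).1
      cases e with
      | true =>
          have hs' : SgT X false A := hs
          have h1 : ¬ SgT X true A := fun h1 => ht (hT A hnA h1 hs')
          rw [if_neg h1, if_pos hs'] at hj
          exact Or.inr (by simpa using hj)
      | false =>
          have hs' : SgT X true A := hs
          rw [if_pos hs'] at hj
          exact Or.inr (by simpa using hj)

open Classical in
/-- functions cut down to valid lists -/
noncomputable def clampf (K : Term S) (f : List (Arg X) → Val S) : List (Arg X) → Val S :=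
  fun p => if Valid K p then f p else ∅

theorem clampf_congr {K : Term S} {f g : List (Arg X) → Val S}
    (h : ∀ p, Valid K p → f p = g p) : clampf K f = clampf K g := by
  funext p
  unfold clampf
  split_ifs with hp
  · exact h p hp
  · rfl

open Classical in
/-- the info of a path function at a closed type -/
noncomputable def pack (K : Term S) (f : List (Arg X) → Val S) : Inf X :=
  if Tame X K then .bo (mkU X K fun l => clampf K f (l.map bkB))
  else if SgT X true K then .qu fun l => clampf K f (l.map bkM)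
  else if SgT X false K then .ar (enc fun l => clampf K f (l.map bkA))
  else .df

theorem pack_congr {K : Term S} {f g : List (Arg X) → Val S}
    (h : ∀ p, Valid K p → f p = g p) : pack K f = pack K g := by
  unfold pack
  rw [clampf_congr h]

theorem pack_mem (K : Term S) (f : List (Arg X) → Val S) : pack K f ∈ (rng K : Set (Inf X)) := by
  unfold pack rng
  split_ifs
  · exact ⟨_, rfl⟩
  · exact ⟨_, rfl⟩
  · exact ⟨_, rfl⟩
  · rfl

/-- `f` is representable at `K` (a condition only for wild plus types) -/
def Rep (K : Term S) (f : List (Arg X) → Val S) : Prop :=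
  ∃ n, ∀ p p' : List (Term S × Option (Ti X ⊕ Wx X)), PEq n p p' →
    clampf K f (p.map bkA) = clampf K f (p'.map bkA)

theorem ap_pack (hT : Thin X) {K : Term S} (hn : Normal K) (hd : ¬ Dead X K)
    {f : List (Arg X) → Val S} (hf : Rep K f) {p : List (Arg X)} (hp : Valid K p) :
    ap (pack K f) p = f p := by
  have hcl : clampf K f p = f p := by unfold clampf; rw [if_pos hp]
  unfold pack
  by_cases ht : Tame X K
  · rw [if_pos ht]
    show apU X _ (p.map toB) = f p
    have hv := valid_tame ht hp
    rw [apU_mkU X (by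
      intro x hx
      obtain ⟨y, hy, rfl⟩ := List.mem_map.1 hx
      obtain ⟨t, h1, h2⟩ := hv y hy
      exact ⟨t, by simp [toB, h1], h2⟩), List.map_map, ← hcl]
    congr 1
    conv_rhs => rw [← List.map_id p]
    refine List.map_congr_left fun x hx => ?_
    obtain ⟨t, h1, h2⟩ := hv x hx
    obtain ⟨a, j⟩ := x
    have h1' : j = .bo t := h1
    subst h1'
    rfl
  · rw [if_neg ht]
    by_cases h1 : SgT X true K
    · rw [if_pos h1]
      show clampf K f ((p.map toM).map bkM) = f p
      rw [List.map_map, ← hcl]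
      congr 1
      conv_rhs => rw [← List.map_id p]
      refine List.map_congr_left fun x hx => ?_
      obtain ⟨a, j⟩ := x
      rcases valid_sg hT true hn h1 hp _ hx with ⟨t, h2⟩ | h2
      · have h2' : j = .bo t := h2
        subst h2'
        rfl
      · obtain ⟨v, h2⟩ : ∃ v, j = .ar v := by simpa using h2
        subst h2
        rfl
    · rw [if_neg h1]
      by_cases h2 : SgT X false K
      · rw [if_pos h2]
        obtain ⟨n, hf⟩ := hf
        show dec (enc fun l => clampf K f (l.map bkA)) (p.map toA) = f p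
        rw [(enc_spec (n := n) hf).1, List.map_map, ← hcl]
        congr 1
        conv_rhs => rw [← List.map_id p]
        refine List.map_congr_left fun x hx => ?_
        obtain ⟨a, j⟩ := x
        rcases valid_sg hT false hn h2 hp _ hx with ⟨t, h3⟩ | h3
        · have h3' : j = .bo t := h3
          subst h3'
          rfl
        · obtain ⟨w, h3⟩ : ∃ w, j = .qu w := by simpa using h3
          subst h3
          rfl
      · exact absurd ⟨ht, h1, h2⟩ hd

theorem qr_ne_ar {K : Term S} {j : Inf X} (h : j ∈ (qr K : Set (Inf X))) (v : Vx X) :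
    j ≠ .ar v := by
  rintro rfl
  unfold qr at h
  split_ifs at h with h1
  · unfold rng at h
    split_ifs at h with h2 h3 h4
    · obtain ⟨u, hu⟩ := h
      cases hu
    · obtain ⟨w, hw⟩ := h
      cases hw
    · rcases h1 with h1 | h1
      · by_cases hr : Rel X K
        · exact h3 (h1.sg hr)
        · exact h2 (tame_of_irrel X hr)
      · exact h2 (tame_of_irrel X h1)
    · cases h
  · cases h

theorem rng_sub_qr {K : Term S} (h : DBr X K ∨ ¬ Rel X K) : (qr K : Set (Inf X)) = rng K := by
  unfold qr; rw [if_pos h]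

theorem not_dead_of_qr {K : Term S} (h : DBr X K ∨ ¬ Rel X K) : ¬ Dead X K := by
  rintro ⟨h1, h2, _⟩
  by_cases hr : Rel X K
  · rcases h with h | h
    · exact h2 (h.sg hr)
    · exact h hr
  · exact h1 (tame_of_irrel X hr)

/-- closure of the live types -/
theorem not_dead_dom {A B : Term S} (hd : ¬ Dead X (pi A B)) (hr : Rel X (pi A B)) :
    ¬ Dead X A := by
  rintro ⟨h1, h2, h3⟩
  have hA : Rel X A := by
    by_contra hA
    exact h1 (tame_of_irrel X hA)
  refine hd ⟨fun ht => h1 (ht.inv ⟨B, .refl _, hr⟩), fun hs => h3 (hs.dom hr hA), fun hs =>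
    h2 (hs.dom hr hA)⟩

theorem not_dead_cod {A B a : Term S} (hd : ¬ Dead X (pi A B)) (ha : X.Ty a A) (hna : Normal a)
    (hr : Rel X (nf (inst a B))) : ¬ Dead X (nf (inst a B)) := by
  rintro ⟨h1, h2, h3⟩
  exact hd ⟨fun ht => h1 (ht.cod ha hna), fun hs => h2 (hs.cod ha hr), fun hs => h3 (hs.cod ha hr)⟩

end Crest.Agent.R298.Sem198
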