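import Crest.Agent.R298.Rk1_253
import Crest.Agent.R298.Mem_360

/-!
R298 (S0452), helper253: the raw evaluation `ev` of source terms over the rank domain `Rk1_253`,
the finite rank lemma (raw, no typing), and faithfulness of packed values.
-/

set_option autoImplicit false

namespace Crest.Agent.R298.Rk2

open Crest.LogicCS.PTS Crest.LogicCS.PTS.Term
open Crest.Agent.R298.Sub452 Crest.Agent.R298.Mem360
open Crest.Agent.R298.Rk1

/-- modes of closed types: irrelevant, tame, plus, minus, out of reach -/
inductive Mode : Type
  | non | tame | plus | minus | out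
  deriving DecidableEq

/-- data of the semantics (no laws) -/
structure Fr (S : Type) where
  R : Term S → Term S → Prop
  wf : WellFounded R
  mode : Term S → Mode
  nf : Term S → Term S
  dom : Term S → Term S
  Ty : Term S → Term S → Prop
  leaf : Term S → Prop
  Wt : Term S → Set (MT S)
  cst : Term S → Set (MT S) → Set (MT S)

variable {S : Type}

/-- the skeleton of the domain -/
def Fr.sk (F : Fr S) : Sk where
  Tm := Term S
  C := Set (MT S)
  inh := ⟨∅⟩
  R := F.R
  wf := F.wf

abbrev Fr.Ag' (F : Fr S) : Type := Arg F.sk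
abbrev Fr.In (F : Fr S) : Type := Inf F.sk

/-- environments -/
abbrev Fr.Env (F : Fr S) : Type := ℕ → Term S × Inf F.sk

section

variable {F : Fr S}

/-- the closed substitution of an environment -/
def sg (rho : F.Env) : ℕ → Term S := fun k => (rho k).1

/-- extension of an environment -/
def ecs (x : Term S × Inf F.sk) (rho : F.Env) : F.Env
  | 0 => x
  | k + 1 => rho k

@[simp] theorem ecs_zero (x : Term S × Inf F.sk) (rho : F.Env) : ecs x rho 0 = x := rfl
@[simp] theorem ecs_succ (x : Term S × Inf F.sk) (rho : F.Env) (k : ℕ) :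
    ecs x rho (k + 1) = rho k := rfl

theorem sg_ecs (x : Term S × Inf F.sk) (rho : F.Env) : sg (ecs x rho) = scons x.1 (sg rho) := by
  funext k; cases k <;> rfl

/-- `j` is a possible info of an element of the closed type `A` (elements of types out of reach
carry the trivial info) -/
def IOk (F : Fr S) (A : Term S) (j : Inf F.sk) : Prop :=
  match F.mode A, j with
  | .non, .non => True
  | .tame, .bo t => t.1 = A
  | .plus, .ar _ => True
  | .minus, .qu _ => True
  | .out, .non => True
  | _, _ => False

/-- `j` is in the range of the quantifier over `A` -/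
def IQ (F : Fr S) (A : Term S) (j : Inf F.sk) : Prop :=
  match F.mode A, j with
  | .non, .non => True
  | .tame, .bo t => t.1 = A
  | .minus, .qu _ => True
  | .plus, .non => True
  | .out, .non => True
  | _, _ => False

/-- complete argument paths of the closed type `T` -/
def pok (F : Fr S) : Term S → List (Term S × Inf F.sk) → Prop
  | T, [] => F.leaf T
  | T, e :: p => ∃ A B, T = pi A B ∧ F.Ty e.1 A ∧ IOk F A e.2 ∧ pok F (F.nf (inst e.1 B)) p

/-- a closed term applied to the terms of a path -/
def cap (F : Fr S) : Term S → List (Term S × Inf F.sk) → Term S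
  | c, [] => c
  | c, e :: p => cap F (F.nf (app c e.1)) p

open Classical in
/-- the clamped value of `f` (of closed type `T`, closed term `c`) -/
noncomputable def val (F : Fr S) (T c : Term S)
    (f : List (Term S × Inf F.sk) → Set (MT S)) (p : List (Term S × Inf F.sk)) : Set (MT S) :=
  if pok F T p then F.cst (cap F c p) (f p) else ∅

/-- packing of a value into an info, by the mode of the closed type `T` -/
noncomputable def pk (F : Fr S) (T c : Term S)
    (f : List (Term S × Inf F.sk) → Set (MT S)) : Inf F.sk :=
  match F.mode T with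
  | .non => .non
  | .out => .non
  | .tame => .bo ⟨T, F.sk.umk fun q => val F T c f (eB q)⟩
  | .minus => .qu fun q => val F T c f (eQ q)
  | .plus => .ar (enc (C := F.sk.C) fun q => val F T c f (eA q))

/-- the product clause -/
def pset (F : Fr S) (T A : Term S) (X : Set (MT S)) (G : Term S → Inf F.sk → Set (MT S)) :
    Set (MT S) :=
  {v | v ∈ F.Wt T ∧ ∀ w ∈ F.cst A X, ∀ j, IQ F A j → MT.app v w ∈ G (F.nf (MT.er w)) j}

/-- evaluation, by structural recursion on the raw term -/
noncomputable def ev (F : Fr S) : Term S → F.Env → List (Term S × Inf F.sk) → Set (MT S)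
  | .var k => fun rho p => ap (K := F.sk) (rho k).2 p
  | .sort _ => fun _ _ => ∅
  | .app M N => fun rho p =>
      ev F M rho ((F.nf (sub (sg rho) N),
        pk F (F.dom (F.nf (sub (sg rho) M))) (F.nf (sub (sg rho) N)) (ev F N rho)) :: p)
  | .lam _ M => fun rho p =>
      match p with
      | [] => ∅
      | x :: p => ev F M (ecs x rho) p
  | .pi A B => fun rho _ =>
      pset F (F.nf (sub (sg rho) (.pi A B))) (F.nf (sub (sg rho) A)) (ev F A rho [])
        (fun a j => F.cst (F.nf (sub (scons a (sg rho)) B)) (ev F B (ecs (a, j) rho) []))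

theorem ev_var (k : ℕ) (rho : F.Env) (p : List (Term S × Inf F.sk)) :
    ev F (.var k) rho p = ap (K := F.sk) (rho k).2 p := rfl
theorem ev_sort (s : S) (rho : F.Env) (p : List (Term S × Inf F.sk)) :
    ev F (.sort s) rho p = ∅ := rfl
theorem ev_app (M N : Term S) (rho : F.Env) (p : List (Term S × Inf F.sk)) :
    ev F (.app M N) rho p = ev F M rho ((F.nf (sub (sg rho) N),
        pk F (F.dom (F.nf (sub (sg rho) M))) (F.nf (sub (sg rho) N)) (ev F N rho)) :: p) := rfl
theorem ev_lam_nil (A M : Term S) (rho : F.Env) : ev F (.lam A M) rho [] = ∅ := rfl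
theorem ev_lam_cons (A M : Term S) (rho : F.Env) (x : Term S × Inf F.sk)
    (p : List (Term S × Inf F.sk)) : ev F (.lam A M) rho (x :: p) = ev F M (ecs x rho) p := rfl
theorem ev_pi (A B : Term S) (rho : F.Env) (p : List (Term S × Inf F.sk)) :
    ev F (.pi A B) rho p = pset F (F.nf (sub (sg rho) (.pi A B))) (F.nf (sub (sg rho) A))
      (ev F A rho []) (fun a j => F.cst (F.nf (sub (scons a (sg rho)) B))
        (ev F B (ecs (a, j) rho) [])) := rfl

/-! ### congruence of the tests -/

theorem IOk_congr {n m : ℕ} {A : Term S} {j j' : Inf F.sk} (h : Ag n m j j') :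
    IOk F A j ↔ IOk F A j' := by
  unfold IOk
  cases h with
  | non => rfl
  | bo t => rfl
  | ar _ => rfl
  | qu _ => cases F.mode A <;> simp

theorem pok_congr {n m : ℕ} {p p' : List (Term S × Inf F.sk)} (h : AgL (K := F.sk) n m p p') :
    ∀ T, pok F T p ↔ pok F T p' := by
  unfold AgL at h
  induction h with
  | nil => intro T; rfl
  | @cons e e' p p' h _ ih =>
      intro T
      obtain ⟨h1, h2⟩ := h
      simp only [pok]
      rw [← h1]
      constructor
      · rintro ⟨A, B, e1, e2, e3, e4⟩
        exact ⟨A, B, e1, e2, (IOk_congr h2).1 e3, (ih _).1 e4⟩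
      · rintro ⟨A, B, e1, e2, e3, e4⟩
        exact ⟨A, B, e1, e2, (IOk_congr h2).2 e3, (ih _).2 e4⟩

theorem cap_congr {n m : ℕ} {p p' : List (Term S × Inf F.sk)} (h : AgL (K := F.sk) n m p p') :
    ∀ c, cap F c p = cap F c p' := by
  unfold AgL at h
  induction h with
  | nil => intro c; rfl
  | @cons e e' p p' h _ ih =>
      intro c
      simp only [cap]
      rw [← h.1]
      exact ih _

/-- values only depend on the function on complete paths -/
theorem val_congr {T c : Term S} {f f' : List (Term S × Inf F.sk) → Set (MT S)}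
    (h : ∀ p, pok F T p → F.cst (cap F c p) (f p) = F.cst (cap F c p) (f' p)) :
    val F T c f = val F T c f' := by
  funext p
  unfold val
  split_ifs with hp
  · exact h p hp
  · rfl

theorem pk_congr {T c : Term S} {f f' : List (Term S × Inf F.sk) → Set (MT S)}
    (h : ∀ p, pok F T p → F.cst (cap F c p) (f p) = F.cst (cap F c p) (f' p)) :
    pk F T c f = pk F T c f' := by
  unfold pk
  rw [val_congr h]

theorem IQ_lt {A : Term S} {j : Inf F.sk} (h : IQ F A j) : Lt 0 j := by
  intro v hv
  subst hv
  unfold IQ at h
  revert h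
  cases F.mode A <;> exact fun h => h.elim

theorem pset_congr {T A : Term S} {X X' : Set (MT S)} {G G' : Term S → Inf F.sk → Set (MT S)}
    (hX : F.cst A X = F.cst A X') (hG : ∀ a j, IQ F A j → G a j = G' a j) :
    pset F T A X G = pset F T A X' G' := by
  unfold pset
  ext v
  simp only [Set.mem_ofPred_eq]
  rw [hX]
  constructor
  · rintro ⟨h1, h2⟩
    exact ⟨h1, fun w hw j hj => by rw [← hG _ j hj]; exact h2 w hw j hj⟩
  · rintro ⟨h1, h2⟩
    exact ⟨h1, fun w hw j hj => by rw [hG _ j hj]; exact h2 w hw j hj⟩

/-! ### finite rank lemma -/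

/-- agreement of environments -/
def AgR (n m : ℕ) (rho rho' : F.Env) : Prop := ∀ k, AgE (K := F.sk) n m (rho k) (rho' k)

theorem AgR.mono {n n' m m' : ℕ} (hn : n' ≤ n) (hm : m ≤ m') {rho rho' : F.Env}
    (h : AgR n m rho rho') : AgR n' m' rho rho' := fun k => (h k).mono hn hm

theorem AgR.ecs {n m : ℕ} {rho rho' : F.Env} (h : AgR n m rho rho')
    {x x' : Term S × Inf F.sk} (hx : AgE (K := F.sk) n m x x') :
    AgR n m (ecs x rho) (ecs x' rho') := by
  intro k
  cases k with
  | zero => exact hx
  | succ k => exact h k

theorem AgR.sg {n m : ℕ} {rho rho' : F.Env} (h : AgR n m rho rho') : sg rho = sg rho' :=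
  funext fun k => (h k).1

theorem AgR.refl (n : ℕ) {m : ℕ} {rho : F.Env} (h : ∀ k, Lt m (rho k).2) : AgR n m rho rho :=
  fun k => ⟨rfl, Ag.refl n (h k)⟩

theorem AgR.left {n m : ℕ} {rho rho' : F.Env} (h : AgR n m rho rho') : AgR n m rho rho :=
  AgR.refl n fun k => (h k).2.left

/-- the function `f` evaluated at packed arguments of type `T` is continuous -/
theorem val_cont {n m : ℕ} {T c : Term S} {f f' : List (Term S × Inf F.sk) → Set (MT S)}
    (h : ∀ p p', AgL (K := F.sk) n m p p' → f p = f' p') {p p' : List (Term S × Inf F.sk)}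
    (hp : AgL (K := F.sk) n m p p') : val F T c f p = val F T c f' p' := by
  unfold val
  by_cases hq : pok F T p
  · rw [if_pos hq, if_pos ((pok_congr hp T).1 hq), cap_congr hp, h p p' hp]
  · rw [if_neg hq, if_neg (fun h' => hq ((pok_congr hp T).2 h'))]

/-- **finite rank lemma** -/
theorem rank (F : Fr S) (M : Term S) : ∀ m : ℕ, ∃ n : ℕ, ∀ rho rho' : F.Env, AgR n m rho rho' →
    ∀ p p' : List (Term S × Inf F.sk), AgL (K := F.sk) n m p p' →
      ev F M rho p = ev F M rho' p' := by
  induction M with
  | var k =>
      intro m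
      exact ⟨m, fun rho rho' hr p p' hp => ap_congr le_rfl (hr k).2 hp⟩
  | sort s => intro m; exact ⟨0, fun _ _ _ _ _ _ => rfl⟩
  | lam A M _ ih =>
      intro m
      obtain ⟨n, hn⟩ := ih m
      refine ⟨n, fun rho rho' hr p p' hp => ?_⟩
      unfold AgL at hp
      cases hp with
      | nil => rfl
      | cons hx hp => exact hn _ _ (hr.ecs hx) _ _ hp
  | pi A B ihA ihB =>
      intro m
      obtain ⟨nA, hA⟩ := ihA m
      obtain ⟨nB, hB⟩ := ihB m
      refine ⟨max nA nB, fun rho rho' hr p p' _ => ?_⟩
      rw [ev_pi, ev_pi, hr.sg]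
      refine pset_congr ?_ fun a j hj => ?_
      · rw [hA rho rho' (hr.mono (le_max_left _ _) le_rfl) [] [] List.Forall₂.nil]
      · rw [hB (ecs (a, j) rho) (ecs (a, j) rho')
          ((hr.mono (le_max_right _ _) le_rfl).ecs ⟨rfl, Ag.refl _ fun v hv =>
            (Nat.not_lt_zero _ (IQ_lt hj v hv)).elim⟩) [] [] List.Forall₂.nil]
  | app M N ihM ihN =>
      intro m
      obtain ⟨n1, h1⟩ := ihN m
      obtain ⟨n2, h2⟩ := ihM (max m (n1 + 1))
      obtain ⟨n3, h3⟩ := ihN (max m n2)
      refine ⟨max n1 (max n2 n3), fun rho rho' hr p p' hp => ?_⟩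
      have l1 : n1 ≤ max n1 (max n2 n3) := le_max_left _ _
      have l2 : n2 ≤ max n1 (max n2 n3) := (le_max_left _ _).trans (le_max_right _ _)
      have l3 : n3 ≤ max n1 (max n2 n3) := (le_max_right _ _).trans (le_max_right _ _)
      rw [ev_app, ev_app, hr.sg]
      refine h2 _ _ (hr.mono l2 (le_max_left _ _)) _ _
        (List.Forall₂.cons ⟨rfl, ?_⟩ (hp.mono l2 (le_max_left _ _)))
      -- agreement of the packed arguments
      generalize F.dom (F.nf (sub (sg rho') M)) = T
      generalize F.nf (sub (sg rho') N) = c
      show Ag n2 (max m (n1 + 1)) (pk F T c (ev F N rho)) (pk F T c (ev F N rho'))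
      unfold pk
      cases F.mode T with
      | non => exact .non
      | out => exact .non
      | tame =>
          have : (fun q => val F T c (ev F N rho) (eB q)) =
              fun q : F.sk.UA T => val F T c (ev F N rho') (eB q) := by
            funext q
            exact val_cont (n := n1) (m := m) (fun p p' hp => h1 _ _ (hr.mono l1 le_rfl) _ _ hp)
              (agL_eB q)
          simp only [this]
          exact .bo _
      | minus =>
          refine .qu fun q hq => ?_
          refine val_cont (n := n3) (m := max m n2) (fun p p' hp => ?_)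
            (agL_eQ (hq.mono (le_max_right _ _)))
          exact h3 _ _ (hr.mono l3 (le_max_left _ _)) _ _ hp
      | plus =>
          have hc : Cont (C := F.sk.C) n1 (fun q => val F T c (ev F N rho) (eA q)) := by
            intro q q' hq
            exact val_cont (n := n1) (m := m)
              (fun p p' hp => h1 _ _ (hr.left.mono l1 le_rfl) _ _ hp) (agL_eA hq)
          have : (fun q => val F T c (ev F N rho) (eA q)) =
              fun q : Pa F.sk.Tm F.sk.Ti (W F.sk.Tm F.sk.Ti F.sk.C) =>
                val F T c (ev F N rho') (eA q) := by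
            funext q
            refine val_cont (n := n1) (m := m) (fun p p' hp => h1 _ _ (hr.mono l1 le_rfl) _ _ hp)
              (agL_eA ?_)
            unfold Rk1.AgP
            induction q with
            | nil => exact .nil
            | cons e q ih =>
                refine .cons ⟨rfl, ?_⟩ ih
                rcases e with ⟨a, _ | (t | w)⟩
                · exact .non
                · exact .ti t
                · exact .wi (AgW.refl _ w)
          simp only [← this]
          exact .ar ((Nat.lt_succ_of_le (enc_le hc)).trans_le (le_max_right _ _))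

/-- continuity of a packed plus value -/
theorem cont_val (M : Term S) {m : ℕ} {rho : F.Env} (h : ∀ k, Lt m (rho k).2) (T c : Term S) :
    ∃ n, Cont (C := F.sk.C) n (fun q => val F T c (ev F M rho) (eA q)) := by
  obtain ⟨n, hn⟩ := rank F M m
  refine ⟨n, fun q q' hq => ?_⟩
  exact val_cont (n := n) (m := m) (fun p p' hp => hn _ _ (AgR.refl n h) _ _ hp) (agL_eA hq)

/-! ### laws of the modes, faithfulness of packing -/

/-- closure laws of the modes -/
structure Laws (F : Fr S) : Prop where
  non_leaf : ∀ {T : Term S}, F.mode T = .non → ¬ F.leaf T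
  non_cod : ∀ {A B a : Term S}, F.mode (pi A B) = .non → F.Ty a A →
    F.mode (F.nf (inst a B)) = .non
  tame_dom : ∀ {A B : Term S}, F.mode (pi A B) = .tame →
    F.mode A = .non ∨ (F.mode A = .tame ∧ F.R A (pi A B))
  tame_cod : ∀ {A B a : Term S}, F.mode (pi A B) = .tame → F.Ty a A →
    (F.mode (F.nf (inst a B)) = .non ∨ F.mode (F.nf (inst a B)) = .tame) ∧
      ∀ X, F.R X (F.nf (inst a B)) → F.R X (pi A B)
  minus_dom : ∀ {A B : Term S}, F.mode (pi A B) = .minus →
    F.mode A = .non ∨ F.mode A = .tame ∨ F.mode A = .plus
  minus_cod : ∀ {A B a : Term S}, F.mode (pi A B) = .minus → F.Ty a A →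
    F.mode (F.nf (inst a B)) = .non ∨ F.mode (F.nf (inst a B)) = .tame ∨
      F.mode (F.nf (inst a B)) = .minus
  plus_dom : ∀ {A B : Term S}, F.mode (pi A B) = .plus →
    F.mode A = .non ∨ F.mode A = .tame ∨ F.mode A = .minus
  plus_cod : ∀ {A B a : Term S}, F.mode (pi A B) = .plus → F.Ty a A →
    F.mode (F.nf (inst a B)) = .non ∨ F.mode (F.nf (inst a B)) = .tame ∨
      F.mode (F.nf (inst a B)) = .plus
  cst_cst : ∀ (T : Term S) (X : Set (MT S)), F.cst T (F.cst T X) = F.cst T X

variable (L : Laws F)
include L

theorem Laws.non_pok {p : List (Term S × Inf F.sk)} : ∀ {T : Term S}, F.mode T = .non →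
    ¬ pok F T p := by
  induction p with
  | nil => intro T h; exact L.non_leaf h
  | cons e p ih =>
      rintro T h ⟨A, B, rfl, h1, _, h3⟩
      exact ih (L.non_cod h h1) h3

theorem Laws.visB {T0 : Term S} {p : List (Term S × Inf F.sk)} : ∀ {T : Term S},
    F.mode T = .tame → (∀ X, F.R X T → F.R X T0) → pok F T p →
      ∀ e ∈ p, VisB (K := F.sk) T0 e.2 := by
  induction p with
  | nil => intro T _ _ _ e he; cases he
  | cons x p ih =>
      rintro T h hR ⟨A, B, rfl, h1, h2, h3⟩ e he
      rcases List.mem_cons.1 he with rfl | he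
      · rcases L.tame_dom h with h' | ⟨h', hr⟩
        · unfold IOk at h2
          rw [h'] at h2
          revert h2
          cases e.2 with
          | non => intro _; trivial
          | bo t => intro h2; exact h2.elim
          | ar v => intro h2; exact h2.elim
          | qu w => intro h2; exact h2.elim
        · unfold IOk at h2
          rw [h'] at h2
          revert h2
          cases e.2 with
          | non => intro h2; exact h2.elim
          | bo t => intro h2; exact hR _ (h2 ▸ hr)
          | ar v => intro h2; exact h2.elim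
          | qu w => intro h2; exact h2.elim
      · obtain ⟨h4, h5⟩ := L.tame_cod h h1
        rcases h4 with h4 | h4
        · exact (L.non_pok h4 h3).elim
        · exact ih h4 (fun X hX => hR _ (h5 X hX)) h3 e he

theorem Laws.visQ {p : List (Term S × Inf F.sk)} : ∀ {T : Term S},
    (F.mode T = .tame ∨ F.mode T = .minus) → pok F T p →
      ∀ e ∈ p, VisQ (K := F.sk) e.2 := by
  induction p with
  | nil => intro T _ _ e he; cases he
  | cons x p ih =>
      rintro T h ⟨A, B, rfl, h1, h2, h3⟩ e he
      have hdom : F.mode A = .non ∨ F.mode A = .tame ∨ F.mode A = .plus := by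
        rcases h with h | h
        · rcases L.tame_dom h with h' | ⟨h', _⟩
          · exact .inl h'
          · exact .inr (.inl h')
        · exact L.minus_dom h
      have hcod : F.mode (F.nf (inst x.1 B)) = .non ∨ F.mode (F.nf (inst x.1 B)) = .tame ∨
          F.mode (F.nf (inst x.1 B)) = .minus := by
        rcases h with h | h
        · rcases (L.tame_cod h h1).1 with h' | h'
          · exact .inl h'
          · exact .inr (.inl h')
        · exact L.minus_cod h h1
      rcases List.mem_cons.1 he with rfl | he
      · unfold IOk at h2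
        rcases hdom with h' | h' | h' <;> rw [h'] at h2 <;> revert h2 <;> cases e.2 <;>
          first | (intro _; trivial) | (intro h2; exact h2.elim)
      · rcases hcod with h' | h'
        · exact (L.non_pok h' h3).elim
        · exact ih h' h3 e he

theorem Laws.visA {p : List (Term S × Inf F.sk)} : ∀ {T : Term S},
    (F.mode T = .tame ∨ F.mode T = .plus) → pok F T p →
      ∀ e ∈ p, VisA (K := F.sk) e.2 := by
  induction p with
  | nil => intro T _ _ e he; cases he
  | cons x p ih =>
      rintro T h ⟨A, B, rfl, h1, h2, h3⟩ e he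
      have hdom : F.mode A = .non ∨ F.mode A = .tame ∨ F.mode A = .minus := by
        rcases h with h | h
        · rcases L.tame_dom h with h' | ⟨h', _⟩
          · exact .inl h'
          · exact .inr (.inl h')
        · exact L.plus_dom h
      have hcod : F.mode (F.nf (inst x.1 B)) = .non ∨ F.mode (F.nf (inst x.1 B)) = .tame ∨
          F.mode (F.nf (inst x.1 B)) = .plus := by
        rcases h with h | h
        · rcases (L.tame_cod h h1).1 with h' | h'
          · exact .inl h'
          · exact .inr (.inl h')
        · exact L.plus_cod h h1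
      rcases List.mem_cons.1 he with rfl | he
      · unfold IOk at h2
        rcases hdom with h' | h' | h' <;> rw [h'] at h2 <;> revert h2 <;> cases e.2 <;>
          first | (intro _; trivial) | (intro h2; exact h2.elim)
      · rcases hcod with h' | h'
        · exact (L.non_pok h' h3).elim
        · exact ih h' h3 e he

/-- **faithfulness of packing** -/
theorem Laws.ap_pk (M : Term S) {m : ℕ} {rho : F.Env} (h : ∀ k, Lt m (rho k).2) {T : Term S}
    (c : Term S) (hT : F.mode T ≠ .out) {p : List (Term S × Inf F.sk)} (hp : pok F T p) :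
    ap (K := F.sk) (pk F T c (ev F M rho)) p = F.cst (cap F c p) (ev F M rho p) := by
  have hv : val F T c (ev F M rho) p = F.cst (cap F c p) (ev F M rho p) := by
    unfold val
    rw [if_pos hp]
  rw [← hv]
  unfold pk
  cases hm : F.mode T with
  | non => exact (L.non_pok hm hp).elim
  | out => exact (hT hm).elim
  | tame =>
      show F.sk.uapp (F.sk.umk fun q => val F T c (ev F M rho) (eB q)) (lB T p) = _
      rw [Sk.uapp_umk]
      rw [eB_lB (L.visB hm (fun X h => h) hp)]
  | minus =>
      show val F T c (ev F M rho) (eQ (K := F.sk) (lQ (K := F.sk) p)) = _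
      rw [eQ_lQ (L.visQ (.inr hm) hp)]
  | plus =>
      obtain ⟨n, hn⟩ := cont_val M h T c
      show dec (enc (C := F.sk.C) fun q => val F T c (ev F M rho) (eA q)) (lA p) = _
      rw [dec_enc hn]
      show val F T c (ev F M rho) (eA (K := F.sk) (lA (K := F.sk) p)) = _
      rw [eA_lA (L.visA (.inr hm) hp)]

omit L in
theorem IOk_pk (T c : Term S) (f : List (Term S × Inf F.sk) → Set (MT S)) :
    IOk F T (pk F T c f) := by
  unfold IOk pk
  cases hm : F.mode T with
  | non => trivial
  | out => trivial
  | tame => rfl
  | minus => trivial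
  | plus => trivial

omit L in
/-- every info has a rank -/
theorem exists_lt (j : Inf F.sk) : ∃ m, Lt m j := by
  cases j with
  | non => exact ⟨0, fun v hv => by cases hv⟩
  | bo t => exact ⟨0, fun v hv => by cases hv⟩
  | ar v => exact ⟨v.1 + 1, fun v' hv => by cases hv; exact Nat.lt_succ_self _⟩
  | qu w => exact ⟨0, fun v hv => by cases hv⟩

end

end Crest.Agent.R298.Rk2
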