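import Crest.Agent.R298.Rk2_198

/-!
R298 (S0452), helper198: evaluation of raw terms, finite rank lemma, renaming lemma.
-/

set_option autoImplicit false

namespace Crest.Agent.R298.Sem198

open Crest.LogicCS.PTS Crest.LogicCS.PTS.Term Relation
open Crest.Agent.R298.Sub452 Crest.Agent.R298.Par452 Crest.Agent.R298.Ty452
open Crest.Agent.R298.TyF452 Crest.Agent.R298.Mem360

variable {S : Type} {X : Setup S}

/-- environments: closed terms and infos -/
abbrev Env (X : Setup S) := ℕ → Arg X

/-- the closed instance of a term -/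
def cl (ρ : Env X) (M : Term S) : Term S := sub (fun k => (ρ k).1) M

/-- extension of an environment -/
def econs (x : Arg X) (ρ : Env X) : Env X
  | 0 => x
  | k + 1 => ρ k

@[simp] theorem econs_zero (x : Arg X) (ρ : Env X) : econs x ρ 0 = x := rfl
@[simp] theorem econs_succ (x : Arg X) (ρ : Env X) (k : ℕ) : econs x ρ (k + 1) = ρ k := rfl

theorem econs_fst (x : Arg X) (ρ : Env X) :
    (fun k => (econs x ρ k).1) = scons x.1 (fun k => (ρ k).1) := by
  funext k
  cases k <;> rfl

theorem cl_econs (x : Arg X) (ρ : Env X) (M : Term S) :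
    cl (econs x ρ) M = inst x.1 (sub (ups fun k => (ρ k).1) M) := by
  unfold cl
  rw [econs_fst, sub_scons]

variable (X) in
open Classical in
/-- the (normal) domain type of a closed function -/
noncomputable def domT (M : Term S) : Term S :=
  if h : ∃ A B, X.Ty M (pi A B) then nf h.choose else M

theorem domT_eq {M A B : Term S} (h : X.Ty M (pi A B)) : domT X M = nf A := by
  have h' : ∃ A B, X.Ty M (pi A B) := ⟨A, B, h⟩
  unfold domT
  rw [dif_pos h']
  obtain ⟨B', hB'⟩ := h'.choose_spec
  have h1 := (Crest.Agent.R298.Uniq452.FS.pi_inv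
    (Crest.Agent.R298.Uniq452.funiq hB' h)).1
  exact nf_congr (wn_pi_inv (X.wnt _ _ hB')).1 h1

/-- realizer set of a closed type from a value -/
def RRv (X : Setup S) (T : Term S) (V : Val S) : Val S := X.cst (nf T) V

/-- evaluation of raw terms -/
noncomputable def ev : Term S → Env X → List (Arg X) → Val S
  | .var k, ρ, p => ap (ρ k).2 p
  | .sort _, _, _ => ∅
  | .app M N, ρ, p => ev M ρ ((nf (cl ρ N), pack (domT X (cl ρ M)) (ev N ρ)) :: p)
  | .lam _ _, _, [] => ∅
  | .lam _ M, ρ, x :: p => ev M (econs x ρ) p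
  | .pi A B, ρ, _ => {v | ∀ w ∈ RRv X (cl ρ A) (ev A ρ []), ∀ j ∈ (qr (nf (cl ρ A)) : Set (Inf X)),
      MT.app v w ∈ RRv X (cl (econs (nf (MT.er w), j) ρ) B) (ev B (econs (nf (MT.er w), j) ρ) [])}

/-- the realizer set of a type in an environment -/
noncomputable def RR (T : Term S) (ρ : Env X) : Val S := RRv X (cl ρ T) (ev T ρ [])

@[simp] theorem ev_var (k : ℕ) (ρ : Env X) (p : List (Arg X)) :
    ev (.var k) ρ p = ap (ρ k).2 p := by simp only [ev]
@[simp] theorem ev_sort (s : S) (ρ : Env X) (p : List (Arg X)) : ev (.sort s) ρ p = ∅ := by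
  simp only [ev]
theorem ev_app (M N : Term S) (ρ : Env X) (p : List (Arg X)) :
    ev (.app M N) ρ p = ev M ρ ((nf (cl ρ N), pack (domT X (cl ρ M)) (ev N ρ)) :: p) := by
  simp only [ev]
@[simp] theorem ev_lam_nil (A M : Term S) (ρ : Env X) : ev (.lam A M) ρ [] = ∅ := by
  simp only [ev]
@[simp] theorem ev_lam_cons (A M : Term S) (ρ : Env X) (x : Arg X) (p : List (Arg X)) :
    ev (.lam A M) ρ (x :: p) = ev M (econs x ρ) p := by simp only [ev]
theorem ev_pi (A B : Term S) (ρ : Env X) (p : List (Arg X)) :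
    ev (.pi A B) ρ p = {v | ∀ w ∈ RR A ρ, ∀ j ∈ (qr (nf (cl ρ A)) : Set (Inf X)),
      MT.app v w ∈ RR B (econs (nf (MT.er w), j) ρ)} := by
  simp only [ev, RR]

/-! ### finite rank -/

/-- agreement of infos: levels of codes `≤ m`, minus infos agree up to level `n` -/
inductive JEq (m n : ℕ) : Inf X → Inf X → Prop
  | df : JEq m n .df .df
  | bo (t : Ti X) : JEq m n (.bo t) (.bo t)
  | ar (v : Vx X) : v.1 ≤ m → JEq m n (.ar v) (.ar v)
  | qu {w w' : Wx X} : WEq n w w' → JEq m n (.qu w) (.qu w')

/-- agreement of argument lists -/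
def LEq (m n : ℕ) : List (Arg X) → List (Arg X) → Prop :=
  List.Forall₂ fun x y => x.1 = y.1 ∧ JEq m n x.2 y.2

/-- agreement of environments -/
def EEq (m n : ℕ) (ρ ρ' : Env X) : Prop := ∀ k, (ρ k).1 = (ρ' k).1 ∧ JEq m n (ρ k).2 (ρ' k).2

theorem JEq.mono {m m' n n' : ℕ} (hm : m ≤ m') (hn : n' ≤ n) {j j' : Inf X} (h : JEq m n j j') :
    JEq m' n' j j' := by
  cases h with
  | df => exact .df
  | bo t => exact .bo t
  | ar v hv => exact .ar v (hv.trans hm)
  | qu hw => exact .qu (hw.anti hn)

theorem LEq.mono {m m' n n' : ℕ} (hm : m ≤ m') (hn : n' ≤ n) {p p' : List (Arg X)}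
    (h : LEq m n p p') : LEq m' n' p p' := by
  unfold LEq at h ⊢
  exact h.imp fun x y hxy => ⟨hxy.1, hxy.2.mono hm hn⟩

theorem EEq.mono {m m' n n' : ℕ} (hm : m ≤ m') (hn : n' ≤ n) {ρ ρ' : Env X}
    (h : EEq m n ρ ρ') : EEq m' n' ρ ρ' := fun k => ⟨(h k).1, (h k).2.mono hm hn⟩

theorem EEq.cons {m n : ℕ} {ρ ρ' : Env X} (h : EEq m n ρ ρ') {x y : Arg X} (hx : x.1 = y.1)
    (hj : JEq m n x.2 y.2) : EEq m n (econs x ρ) (econs y ρ') := by
  intro k
  cases k with
  | zero => exact ⟨hx, hj⟩
  | succ k => exact h k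

theorem EEq.fst {m n : ℕ} {ρ ρ' : Env X} (h : EEq m n ρ ρ') :
    (fun k => (ρ k).1) = fun k => (ρ' k).1 := funext fun k => (h k).1

theorem EEq.cl {m n : ℕ} {ρ ρ' : Env X} (h : EEq m n ρ ρ') (M : Term S) : cl ρ M = cl ρ' M := by
  unfold Sem198.cl
  rw [h.fst]

theorem map_toB_eq {m n : ℕ} {p p' : List (Arg X)} (h : LEq m n p p') :
    p.map toB = p'.map toB := by
  unfold LEq at h
  induction h with
  | nil => rfl
  | @cons x y l l' hxy _ ih =>
      obtain ⟨a, j⟩ := x
      obtain ⟨b, j'⟩ := y
      obtain ⟨h1, h2⟩ := hxy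
      have h1' : a = b := h1
      subst h1'
      have h2' : JEq m n j j' := h2
      rw [List.map_cons, List.map_cons, ih]
      cases h2' <;> rfl

theorem map_toM_eq {m n : ℕ} {p p' : List (Arg X)} (h : LEq m n p p') :
    p.map toM = p'.map toM ∧ LevLe m (p.map toM) := by
  unfold LEq at h
  induction h with
  | nil => exact ⟨rfl, fun x hx => absurd hx List.not_mem_nil⟩
  | @cons x y l l' hxy _ ih =>
      obtain ⟨a, j⟩ := x
      obtain ⟨b, j'⟩ := y
      obtain ⟨h1, h2⟩ := hxy
      have h1' : a = b := h1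
      subst h1'
      have h2' : JEq m n j j' := h2
      refine ⟨?_, ?_⟩
      · rw [List.map_cons, List.map_cons, ih.1]
        cases h2' <;> rfl
      · rw [List.map_cons]
        intro z hz v hv
        rcases List.mem_cons.1 hz with rfl | hz
        · cases h2' with
          | df => cases hv
          | bo t => cases hv
          | ar u hu =>
              have : u = v := by simpa [toM] using hv
              rw [← this]
              exact hu
          | qu hw => cases hv
        · exact ih.2 z hz v hv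

theorem map_toA_eq {m n : ℕ} {p p' : List (Arg X)} (h : LEq m n p p') :
    PEq n (p.map toA) (p'.map toA) := by
  unfold LEq at h
  induction h with
  | nil => exact List.Forall₂.nil
  | @cons x y l l' hxy _ ih =>
      obtain ⟨a, j⟩ := x
      obtain ⟨b, j'⟩ := y
      obtain ⟨h1, h2⟩ := hxy
      have h1' : a = b := h1
      subst h1'
      have h2' : JEq m n j j' := h2
      rw [List.map_cons, List.map_cons]
      refine List.Forall₂.cons ⟨rfl, ?_⟩ ih
      cases h2' with
      | df => exact .none
      | bo t => exact .inl t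
      | ar u hu => exact .none
      | qu hw => exact .inr hw

theorem ap_eq {m n : ℕ} (hmn : m ≤ n) {j j' : Inf X} (h : JEq m n j j') {p p' : List (Arg X)}
    (hp : LEq m n p p') : ap j p = ap j' p' := by
  cases h with
  | df => rfl
  | bo t =>
      show apU X t (p.map toB) = apU X t (p'.map toB)
      rw [map_toB_eq hp]
  | ar v hv => exact dec_congr (hv.trans hmn) (map_toA_eq hp)
  | @qu w w' hw =>
      show w (p.map toM) = w' (p'.map toM)
      obtain ⟨h1, h2⟩ := map_toM_eq hp
      rw [← h1]
      exact hw _ (h2.mono hmn)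

theorem leq_bkB (m n : ℕ) (l : List (Term S × Option (Ti X))) :
    LEq m n (l.map bkB) (l.map bkB) := by
  unfold LEq
  induction l with
  | nil => exact .nil
  | cons x l ih =>
      obtain ⟨a, o⟩ := x
      refine .cons ⟨rfl, ?_⟩ ih
      cases o with
      | none => exact .df
      | some t => exact .bo t

theorem leq_bkM {m n : ℕ} {l : List (Term S × Option (Ti X ⊕ Vx X))} (h : LevLe m l) :
    LEq m n (l.map bkM) (l.map bkM) := by
  unfold LEq
  induction l with
  | nil => exact .nil
  | cons x l ih =>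
      obtain ⟨a, o⟩ := x
      refine .cons ⟨rfl, ?_⟩ (ih fun y hy => h y (List.mem_cons_of_mem _ hy))
      have hx := h (a, o) List.mem_cons_self
      cases o with
      | none => exact .df
      | some t => cases t with
        | inl t => exact .bo t
        | inr v => exact .ar v (hx v rfl)

theorem leq_bkA (m : ℕ) {n : ℕ} {l l' : List (Term S × Option (Ti X ⊕ Wx X))} (h : PEq n l l') :
    LEq m n (l.map bkA) (l'.map bkA) := by
  unfold PEq at h
  unfold LEq
  induction h with
  | nil => exact .nil
  | @cons x y l l' hxy _ ih =>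
      obtain ⟨a, o⟩ := x
      obtain ⟨b, o'⟩ := y
      obtain ⟨h1, h2⟩ := hxy
      refine .cons ⟨h1, ?_⟩ ih
      have h2' : OEq n o o' := h2
      cases h2' with
      | none => exact .df
      | inl t => exact .bo t
      | inr hw => exact .qu hw

/-- membership in the range of a closed type only looks at the kind of the info and at small
infos -/
theorem JEq.rng {m n : ℕ} {j j' : Inf X} (h : JEq m n j j') {K : Term S}
    (hj : j ∈ (rng K : Set (Inf X))) : j' ∈ (Sem198.rng K : Set (Inf X)) := by
  unfold Sem198.rng at hj ⊢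
  cases h with
  | df => exact hj
  | bo t => exact hj
  | ar v _ => exact hj
  | @qu w w' hw =>
      split_ifs at hj ⊢ with h1 h2 h3
      · obtain ⟨u, hu⟩ := hj; cases hu
      · exact ⟨w', rfl⟩
      · obtain ⟨u, hu⟩ := hj; cases hu
      · cases hj

theorem JEq.symm {m n : ℕ} {j j' : Inf X} (h : JEq m n j j') : JEq m n j' j := by
  cases h with
  | df => exact .df
  | bo t => exact .bo t
  | ar v hv => exact .ar v hv
  | qu hw => exact .qu fun l hl => (hw l hl).symm

theorem LEq.valid {m n : ℕ} {p p' : List (Arg X)} (h : LEq m n p p') :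
    ∀ {K : Term S}, Valid K p → Valid K p' := by
  unfold LEq at h
  induction h with
  | nil => intro K hK; exact hK
  | @cons x y l l' hxy _ ih =>
      intro K hK
      obtain ⟨a, j⟩ := x
      obtain ⟨b, j'⟩ := y
      obtain ⟨h1, h2⟩ := hxy
      have h1' : a = b := h1
      subst h1'
      obtain ⟨A, B, e, h3, h4, h5, h6⟩ := hK
      exact ⟨A, B, e, h3, h4, h2.rng h5, ih h6⟩

theorem LEq.symm {m n : ℕ} {p p' : List (Arg X)} (h : LEq m n p p') : LEq m n p' p := by
  unfold LEq at h ⊢
  induction h with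
  | nil => exact .nil
  | cons hxy _ ih => exact .cons ⟨hxy.1.symm, hxy.2.symm⟩ ih

theorem clampf_eq {m n : ℕ} {p p' : List (Arg X)} (h : LEq m n p p') {K : Term S}
    {f g : List (Arg X) → Val S} (e : f p = g p') : clampf K f p = clampf K g p' := by
  unfold clampf
  by_cases hp : Valid K p
  · rw [if_pos hp, if_pos (h.valid hp), e]
  · rw [if_neg hp, if_neg fun h' => hp (h.symm.valid h')]

/-- the finite rank property of a raw term -/
def Rk (M : Term S) (m n : ℕ) : Prop :=
  ∀ (ρ ρ' : Env X) (p p' : List (Arg X)), EEq m n ρ ρ' → LEq m n p p' → ev M ρ p = ev M ρ' p'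

theorem Rk.mono {M : Term S} {m n n' : ℕ} (h : Rk (X := X) M m n) (hn : n ≤ n') :
    Rk (X := X) M m n' := fun ρ ρ' p p' hρ hp => h ρ ρ' p p' (hρ.mono le_rfl hn) (hp.mono le_rfl hn)

/-- **finite rank lemma** -/
theorem exists_rk (M : Term S) : ∀ m : ℕ, ∃ n, m ≤ n ∧ Rk (X := X) M m n := by
  induction M with
  | var k =>
      intro m
      refine ⟨m, le_rfl, fun ρ ρ' p p' hρ hp => ?_⟩
      rw [ev_var, ev_var]
      exact ap_eq le_rfl (hρ k).2 hp
  | sort s => intro m; exact ⟨m, le_rfl, fun ρ ρ' p p' _ _ => by rw [ev_sort, ev_sort]⟩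
  | lam A M _ ih =>
      intro m
      obtain ⟨n, hn, h⟩ := ih m
      refine ⟨n, hn, fun ρ ρ' p p' hρ hp => ?_⟩
      cases hp with
      | nil => rw [ev_lam_nil, ev_lam_nil]
      | @cons x y l l' hxy hl =>
          rw [ev_lam_cons, ev_lam_cons]
          exact h _ _ _ _ (hρ.cons hxy.1 hxy.2) hl
  | pi A B ihA ihB =>
      intro m
      obtain ⟨n1, hn1, h1⟩ := ihA m
      obtain ⟨n2, hn2, h2⟩ := ihB m
      refine ⟨max n1 n2, hn1.trans (le_max_left _ _), fun ρ ρ' p p' hρ hp => ?_⟩
      rw [ev_pi, ev_pi]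
      have eA : RR A ρ = RR A ρ' := by
        unfold RR
        rw [hρ.cl, (h1.mono (le_max_left _ _)) ρ ρ' [] [] hρ .nil]
      have eB : ∀ (a : Term S) (j : Inf X), j ∈ (qr (nf (cl ρ A)) : Set (Inf X)) →
          RR B (econs (a, j) ρ) = RR B (econs (a, j) ρ') := by
        intro a j hj
        have hj' : JEq m (max n1 n2) j j := by
          cases j with
          | df => exact .df
          | bo t => exact .bo t
          | ar v => exact absurd rfl (qr_ne_ar hj v)
          | qu w => exact .qu (WEq.refl _ _)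
        have hρ' := hρ.cons (x := (a, j)) (y := (a, j)) rfl hj'
        unfold RR
        rw [hρ'.cl, (h2.mono (le_max_right _ _)) _ _ [] [] hρ' .nil]
      ext v
      simp only [Set.mem_ofPred_eq]
      constructor
      · intro hv w hw j hj
        rw [← eA] at hw
        rw [← hρ.cl] at hj
        rw [← eB _ _ hj]
        exact hv w hw j hj
      · intro hv w hw j hj
        rw [eA] at hw
        rw [eB _ _ hj]
        rw [hρ.cl] at hj
        exact hv w hw j hj
  | app M N ihM ihN =>
      intro m
      obtain ⟨n1, hn1, h1⟩ := ihN m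
      obtain ⟨n2, hn2, h2⟩ := ihM (max m (n1 + 1))
      obtain ⟨n3, hn3, h3⟩ := ihN (max m n2)
      refine ⟨max n1 (max n2 n3), hn1.trans (le_max_left _ _), fun ρ ρ' p p' hρ hp => ?_⟩
      rw [ev_app, ev_app]
      have b1 : n1 ≤ max n1 (max n2 n3) := le_max_left _ _
      have b2 : n2 ≤ max n1 (max n2 n3) := (le_max_left _ _).trans (le_max_right _ _)
      have b3 : n3 ≤ max n1 (max n2 n3) := (le_max_right _ _).trans (le_max_right _ _)
      have em : m ≤ max m (n1 + 1) := le_max_left _ _
      refine h2 ρ ρ' _ _ (hρ.mono em b2) (.cons ⟨by rw [hρ.cl], ?_⟩ (hp.mono em b2))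
      rw [hρ.cl M]
      generalize domT X (cl ρ' M) = K
      show JEq _ _ (pack K (ev N ρ)) (pack K (ev N ρ'))
      unfold pack
      split_ifs with c1 c2 c3
      · have : (fun l : List (Term S × Option (Ti X)) => clampf K (ev N ρ) (l.map bkB)) =
            fun l => clampf K (ev N ρ') (l.map bkB) := by
          funext l
          have hl := leq_bkB (X := X) m n1 l
          exact clampf_eq hl (h1 _ _ _ _ (hρ.mono le_rfl b1) hl)
        rw [this]
        exact .bo _
      · refine .qu fun l hl => ?_
        have hl' := leq_bkM (X := X) (n := n3) (hl.mono (le_max_right m n2))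
        exact clampf_eq hl' (h3 _ _ _ _ (hρ.mono (le_max_left _ _) b3) hl')
      · have : (fun l : List (Term S × Option (Ti X ⊕ Wx X)) => clampf K (ev N ρ) (l.map bkA)) =
            fun l => clampf K (ev N ρ') (l.map bkA) := by
          funext l
          have hl := leq_bkA (X := X) m (n := n1) (l := l) (l' := l)
            (List.forall₂_same.2 fun x _ => ⟨rfl, OEq.refl _ _⟩)
          exact clampf_eq hl (h1 _ _ _ _ (hρ.mono le_rfl b1) hl)
        rw [this]
        refine .ar _ (le_trans ?_ (le_max_right m (n1 + 1)))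
        refine (enc_spec (n := n1) fun l l' hl => ?_).2
        have hl' := leq_bkA (X := X) m hl
        refine clampf_eq hl' (h1 _ _ _ _ (fun k => ⟨rfl, ?_⟩) hl')
        have := (hρ k).2
        have h4 := this.symm
        cases h5 : (ρ' k).2 with
        | df => exact .df
        | bo t => exact .bo t
        | ar v =>
            rw [h5] at h4
            generalize (ρ k).2 = z at h4
            cases h4 with
            | ar _ hv => exact .ar v hv
        | qu w => exact .qu (WEq.refl _ _)
      · exact .df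

/-- bounded environments -/
def BdE (ρ : Env X) : Prop := ∃ m, ∀ k v, (ρ k).2 = .ar v → v.1 ≤ m

theorem BdE.cons {ρ : Env X} (h : BdE ρ) (x : Arg X) : BdE (econs x ρ) := by
  obtain ⟨m, hm⟩ := h
  obtain ⟨a, j⟩ := x
  cases j with
  | ar v =>
      refine ⟨max m v.1, fun k u hu => ?_⟩
      cases k with
      | zero =>
          have : v = u := by simpa using hu
          rw [← this]
          exact le_max_right _ _
      | succ k => exact (hm k u hu).trans (le_max_left _ _)
  | _ =>
      refine ⟨m, fun k u hu => ?_⟩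
      cases k with
      | zero => cases hu
      | succ k => exact hm k u hu

theorem rep_ev {ρ : Env X} (h : BdE ρ) (K N : Term S) : Rep K (ev N ρ) := by
  obtain ⟨m, hm⟩ := h
  obtain ⟨n, _, hn⟩ := exists_rk (X := X) N m
  refine ⟨n, fun p p' hp => ?_⟩
  have hl := leq_bkA (X := X) m hp
  refine clampf_eq hl (hn ρ ρ _ _ (fun k => ⟨rfl, ?_⟩) hl)
  cases h5 : (ρ k).2 with
  | df => exact .df
  | bo t => exact .bo t
  | ar v => exact .ar v (hm k v h5)
  | qu w => exact .qu (WEq.refl _ _)

/-- the info of a term is faithful on valid lists -/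
theorem ap_pack_ev (hT : Thin X) {ρ : Env X} (h : BdE ρ) {K : Term S} (hn : Normal K)
    (hd : ¬ Dead X K) (N : Term S) {p : List (Arg X)} (hp : Valid K p) :
    ap (pack K (ev N ρ)) p = ev N ρ p := ap_pack hT hn hd (rep_ev h K N) hp

/-! ### renaming -/

theorem cl_ren (r : ℕ → ℕ) (ρ : Env X) (M : Term S) : cl ρ (ren r M) = cl (fun k => ρ (r k)) M := by
  unfold cl
  rw [sub_ren]

theorem econs_up (x : Arg X) (ρ : Env X) (r : ℕ → ℕ) :
    (fun k => econs x ρ (up r k)) = econs x (fun k => ρ (r k)) := by
  funext k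
  cases k <;> rfl

theorem ev_ren (M : Term S) : ∀ (r : ℕ → ℕ) (ρ : Env X) (p : List (Arg X)),
    ev (ren r M) ρ p = ev M (fun k => ρ (r k)) p := by
  induction M with
  | var k => intro r ρ p; simp only [ren, ev_var]
  | sort s => intro r ρ p; simp only [ren, ev_sort]
  | app M N ihM ihN =>
      intro r ρ p
      have e : ev (ren r N) ρ = ev N (fun k => ρ (r k)) := funext fun q => ihN r ρ q
      show ev (.app (ren r M) (ren r N)) ρ p = _
      rw [ev_app, ev_app, ihM, cl_ren, cl_ren, e]
  | lam A M _ ihM =>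
      intro r ρ p
      show ev (.lam (ren r A) (ren (up r) M)) ρ p = _
      cases p with
      | nil => rw [ev_lam_nil, ev_lam_nil]
      | cons x p => rw [ev_lam_cons, ev_lam_cons, ihM, econs_up]
  | pi A B ihA ihB =>
      intro r ρ p
      show ev (.pi (ren r A) (ren (up r) B)) ρ p = _
      rw [ev_pi, ev_pi]
      have eA : RR (ren r A) ρ = RR A (fun k => ρ (r k)) := by unfold RR; rw [cl_ren, ihA]
      have eB : ∀ x : Arg X, RR (ren (up r) B) (econs x ρ) = RR B (econs x fun k => ρ (r k)) := by
        intro x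
        unfold RR
        rw [cl_ren, ihB, econs_up]
      rw [eA, cl_ren]
      simp only [eB]

theorem cl_wk (x : Arg X) (ρ : Env X) (M : Term S) : cl (econs x ρ) (wk M) = cl ρ M :=
  cl_ren Nat.succ (econs x ρ) M

theorem ev_wk (x : Arg X) (ρ : Env X) (M : Term S) (p : List (Arg X)) :
    ev (wk M) (econs x ρ) p = ev M ρ p := ev_ren M Nat.succ (econs x ρ) p

end Crest.Agent.R298.Sem198
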