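import Crest.Agent.R298.Rk2_253
import Crest.Agent.R298.Gd_452

/-!
R298 (S0452), helper253: typed part of the rank semantics: the substitution lemma for all typed
terms, invariance along beta steps of good terms, and the equality behind (R4).
-/

set_option autoImplicit false

namespace Crest.Agent.R298.Rk3

open Crest.LogicCS.PTS Crest.LogicCS.PTS.Term Relation
open Crest.Agent.R298.Sub452 Crest.Agent.R298.Par452 Crest.Agent.R298.Ty452
open Crest.Agent.R298.TyF452 Crest.Agent.R298.Uniq452 Crest.Agent.R298.Gd452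
open Crest.Agent.R298.Mem360 Crest.Agent.R298.Rk1 Crest.Agent.R298.Rk2
open Crest.Agent.R298.Fl113 (RelS)

variable {S : Type} {P : Spec S} {𝒟 H : Set S} {D : ℕ → Term S} {F : Fr S}

/-! ### conversion of substitutions -/

theorem beq_ren (r : ℕ → ℕ) {M N : Term S} (h : BetaEq M N) : BetaEq (ren r M) (ren r N) :=
  BetaEq.ren h r

/-- pointwise convertible substitutions -/
theorem beq_sub {σ τ : ℕ → Term S} (h : ∀ k, BetaEq (σ k) (τ k)) (M : Term S) :
    BetaEq (sub σ M) (sub τ M) := by
  induction M generalizing σ τ with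
  | var i => exact h i
  | sort s => exact .refl _
  | app M N ih ih' => exact BetaEq.app (ih h) (ih' h)
  | lam A M ih ih' =>
      refine BetaEq.lam (ih h) (ih' fun k => ?_)
      cases k with
      | zero => exact .refl _
      | succ k => exact beq_ren _ (h k)
  | pi A M ih ih' =>
      refine BetaEq.pi (ih h) (ih' fun k => ?_)
      cases k with
      | zero => exact .refl _
      | succ k => exact beq_ren _ (h k)

/-! ### renaming of the evaluation (raw) -/

theorem sg_ren (r : ℕ → ℕ) (rho : F.Env) (M : Term S) :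
    sub (sg rho) (ren r M) = sub (sg (fun k => rho (r k))) M := by
  rw [sub_ren]
  rfl

theorem ecs_up (r : ℕ → ℕ) (x : Term S × Inf F.sk) (rho : F.Env) :
    (fun k => ecs x rho (up r k)) = ecs x (fun k => rho (r k)) := by
  funext k
  cases k <;> rfl

theorem ev_ren (M : Term S) : ∀ (r : ℕ → ℕ) (rho : F.Env),
    ev F (ren r M) rho = ev F M (fun k => rho (r k)) := by
  induction M with
  | var i => intro r rho; rfl
  | sort s => intro r rho; rfl
  | app M N ih ih' =>
      intro r rho
      funext p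
      rw [ren_app, ev_app, ev_app, ih, ih', sg_ren, sg_ren]
  | lam A M _ ih' =>
      intro r rho
      funext p
      rw [ren_lam]
      cases p with
      | nil => rfl
      | cons x p => rw [ev_lam_cons, ev_lam_cons, ih', ecs_up]
  | pi A B ih ih' =>
      intro r rho
      funext p
      have e1 : sub (sg rho) (ren r (.pi A B)) = sub (sg (fun k => rho (r k))) (.pi A B) :=
        sg_ren r rho _
      rw [ren_pi] at e1 ⊢
      rw [ev_pi, ev_pi, e1, ih, sg_ren]
      congr 1
      funext a j
      have e2 : sub (scons a (sg rho)) (ren (up r) B) =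
          sub (scons a (sg (fun k => rho (r k)))) B := by
        have := sg_ren (F := F) (up r) (ecs (a, j) rho) B
        rw [ecs_up, sg_ecs, sg_ecs] at this
        exact this
      rw [ih', ecs_up, e2]

theorem ev_wk (M : Term S) (x : Term S × Inf F.sk) (rho : F.Env) :
    ev F (wk M) (ecs x rho) = ev F M rho := ev_ren M _ _

/-! ### bounded environments -/

/-- all infos below one rank -/
def Bdd (rho : F.Env) : Prop := ∃ m, ∀ k, Lt m (rho k).2

theorem Lt.mono {K : Sk} {m n : ℕ} (h : m ≤ n) {j : Inf K} (hj : Lt m j) : Lt n j :=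
  fun v hv => (hj v hv).trans_le h

theorem Bdd.ecs {rho : F.Env} (h : Bdd rho) (x : Term S × Inf F.sk) : Bdd (ecs x rho) := by
  obtain ⟨m, hm⟩ := h
  obtain ⟨n, hn⟩ := exists_lt (F := F) x.2
  refine ⟨max m n, fun k => ?_⟩
  cases k with
  | zero => exact Lt.mono (le_max_right _ _) hn
  | succ k => exact Lt.mono (le_max_left _ _) (hm k)

/-! ### typed laws -/

/-- laws of the frame `F` over the world `D`; `𝒟` = sorts of the stage, `H` = higher sorts -/
structure TL (P : Spec S) (𝒟 H : Set S) (D : ℕ → Term S) (F : Fr S) : Prop where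
  wf : WfF P D
  beq : ∀ T : Term S, BetaEq (F.nf T) T
  nfeq : ∀ {T T' : Term S}, BetaEq T T' → F.nf T = F.nf T'
  nfty : ∀ {M T : Term S}, TyF P D M T → TyF P D (F.nf M) T
  nfpi : ∀ {A B : Term S} {s : S}, TyF P D (pi A B) (sort s) →
    F.nf (pi A B) = pi (F.nf A) (F.nf B)
  nfsort : ∀ s : S, F.nf (sort s) = sort s
  ty : ∀ {a A : Term S}, F.Ty a A ↔ TyF P D a A
  dom : ∀ {M A B : Term S}, TyF P D M (pi A B) → F.dom (F.nf M) = F.nf A
  leaf : ∀ {T : Term S}, F.leaf T ↔ ∃ s ∈ 𝒟, T = sort s
  rule : ∀ {a b c : S}, P.rule a b c → c ∈ 𝒟 → (a ∈ 𝒟 ∨ a ∈ H) ∧ (b ∈ 𝒟 ∨ b ∈ H)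
  high : ∀ {A : Term S} {s : S} {X Y : Set (MT S)}, TyF P D A (sort s) → s ∈ H →
    F.cst (F.nf A) X = F.cst (F.nf A) Y
  mem : ∀ {A : Term S} {s : S} {X : Set (MT S)} {w : MT S}, TyF P D A (sort s) →
    w ∈ F.cst (F.nf A) X → TyF P D (MT.er w) A
  live : ∀ {A : Term S} {a : S}, Uniq452.Sg P D A a → (RelS P 𝒟 a → Sgn P 𝒟 a) →
    F.mode (F.nf A) ≠ .out

namespace TL

variable (W : TL P 𝒟 H D F) (L : Laws F)
include W

theorem nfnf (T : Term S) : F.nf (F.nf T) = F.nf T := W.nfeq (W.beq T)

theorem leaf_sort {s : S} (h : s ∈ 𝒟) : pok F (F.nf (sort s)) [] :=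
  W.leaf.2 ⟨s, h, W.nfsort s⟩

/-- complete paths of a sort -/
theorem pok_sort {s : S} {p : List (Term S × Inf F.sk)} (h : pok F (F.nf (sort s)) p) :
    p = [] ∧ s ∈ 𝒟 := by
  rw [W.nfsort] at h
  cases p with
  | nil =>
      obtain ⟨t, h1, h2⟩ := W.leaf.1 h
      cases h2
      exact ⟨rfl, h1⟩
  | cons e p =>
      obtain ⟨A, B, h1, _⟩ := h
      cases h1

theorem pok_pi_nil {A B : Term S} {s : S} (hT : TyF P D (pi A B) (sort s))
    (h : pok F (F.nf (pi A B)) []) : False := by
  rw [W.nfpi hT] at h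
  obtain ⟨t, _, h2⟩ := W.leaf.1 h
  cases h2

/-- complete paths of a product -/
theorem pok_pi {A B : Term S} {s : S} (hT : TyF P D (pi A B) (sort s))
    {e : Term S × Inf F.sk} {p : List (Term S × Inf F.sk)} :
    pok F (F.nf (pi A B)) (e :: p) ↔
      TyF P D e.1 A ∧ IOk F (F.nf A) e.2 ∧ pok F (F.nf (inst e.1 B)) p := by
  obtain ⟨sa, hA⟩ := fpi_dom hT
  have e1 : F.nf (inst e.1 (F.nf B)) = F.nf (inst e.1 B) :=
    W.nfeq (BetaEq.inst (.refl _) (W.beq B))
  rw [W.nfpi hT]
  constructor
  · rintro ⟨A', B', h1, h2, h3, h4⟩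
    cases h1
    rw [e1] at h4
    exact ⟨.conv (W.ty.1 h2) hA (W.beq A), h3, h4⟩
  · rintro ⟨h2, h3, h4⟩
    refine ⟨_, _, rfl, W.ty.2 (.conv h2 (W.nfty hA) (BetaEq.symm (W.beq A))), h3, ?_⟩
    rw [e1]
    exact h4

/-- a complete path makes the type possibly relevant -/
theorem rt_of_pok {p : List (Term S × Inf F.sk)} : ∀ {T : Term S}, pok F (F.nf T) p →
    RT P 𝒟 D T := by
  induction p with
  | nil =>
      intro T h
      obtain ⟨s, h1, h2⟩ := W.leaf.1 h
      have e : BetaEq T (sort s) := by
        have := BetaEq.symm (W.beq T)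
        rwa [h2] at this
      refine ⟨fun t ht => ?_, fun s' hs' => ?_⟩
      · obtain ⟨T', r, hT'⟩ := (ht.conv (BetaEq.symm e)).red W.wf
        rw [red_sort r] at hT'
        obtain ⟨t', ha, e'⟩ := fgen_sort hT' _ rfl
        cases sort_inj e'
        exact .base h1 ha
      · cases sort_inj (BetaEq.trans (BetaEq.symm e) hs')
        exact h1
  | cons e p ih =>
      intro T h
      obtain ⟨A, B, h1, h2, h3, h4⟩ := h
      have hr := ih h4
      have := RT.of_app W.wf (W.ty.1 h2) hr
      refine this.conv ?_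
      rw [← h1]
      exact W.beq T

omit W in
theorem sg_ecs_subF {G : ℕ → Term S} {rho : F.Env} (hs : SubF P (sg rho) G D) {A : Term S}
    {x : Term S × Inf F.sk} (hx : TyF P D x.1 (sub (sg rho) A)) :
    SubF P (sg (ecs x rho)) (fcons A G) D := by
  rw [sg_ecs]
  exact hs.scons hx

omit W in
/-- congruence of the product clause, at the members only -/
theorem pset_congr' {T A : Term S} {X X' : Set (MT S)} {K K' : Term S → Inf F.sk → Set (MT S)}
    (hX : F.cst A X = F.cst A X')
    (hG : ∀ w ∈ F.cst A X, ∀ j, IQ F A j → K (F.nf (MT.er w)) j = K' (F.nf (MT.er w)) j) :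
    pset F T A X K = pset F T A X' K' := by
  unfold pset
  ext v
  simp only [Set.mem_ofPred_eq]
  rw [← hX]
  constructor
  · rintro ⟨h1, h2⟩
    exact ⟨h1, fun w hw j hj => by rw [← hG _ hw j hj]; exact h2 w hw j hj⟩
  · rintro ⟨h1, h2⟩
    exact ⟨h1, fun w hw j hj => by rw [hG _ hw j hj]; exact h2 w hw j hj⟩

include L

/-- relation of environments along the substitution `θ` -/
def EnvR (F : Fr S) (G2 θ : ℕ → Term S) (rho rho2 : F.Env) : Prop :=
  ∀ k, (∃ l, θ k = var l ∧ (rho2 k).2 = (rho l).2) ∨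
    (F.mode (F.nf (sub (sg rho2) (G2 k))) ≠ .out ∧
      (rho2 k).2 = pk F (F.nf (sub (sg rho2) (G2 k))) (F.nf (rho2 k).1) (ev F (θ k) rho))

omit W L in
theorem EnvR.ecs {G2 θ : ℕ → Term S} {rho rho2 : F.Env} (h : EnvR F G2 θ rho rho2)
    (A : Term S) (x : Term S × Inf F.sk) :
    EnvR F (fcons A G2) (ups θ) (ecs x rho) (ecs x rho2) := by
  intro k
  cases k with
  | zero => exact .inl ⟨0, rfl, rfl⟩
  | succ k =>
      rcases h k with ⟨l, h1, h2⟩ | ⟨h1, h2⟩
      · exact .inl ⟨l + 1, by rw [ups_succ, h1]; rfl, h2⟩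
      · refine .inr ?_
        have e : sub (sg (Rk2.ecs x rho2)) (fcons A G2 (k + 1)) = sub (sg rho2) (G2 k) := by
          rw [fcons_succ, wk, sub_ren]
          rfl
        rw [e, ups_succ, ev_wk]
        exact ⟨h1, h2⟩

/-- **SUBSTITUTION LEMMA**, for all typed terms -/
theorem sub_ev (M : Term S) : ∀ {G G2 θ : ℕ → Term S} {rho rho2 : F.Env} {T : Term S},
    TyF P G2 M T → WfF P G2 → SubF P θ G2 G → SubF P (sg rho) G D → SubF P (sg rho2) G2 D →
    Bdd rho → (∀ k, BetaEq ((rho2 k).1) (sub (sg rho) (θ k))) →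
    EnvR F G2 θ rho rho2 →
    ∀ p, pok F (F.nf (sub (sg rho2) T)) p →
      F.cst (cap F (F.nf (sub (sg rho2) M)) p) (ev F (sub θ M) rho p) =
        F.cst (cap F (F.nf (sub (sg rho2) M)) p) (ev F M rho2 p) := by
  have key : ∀ {θ : ℕ → Term S} {rho rho2 : F.Env},
      (∀ k, BetaEq ((rho2 k).1) (sub (sg rho) (θ k))) → ∀ X : Term S,
        F.nf (sub (sg rho) (sub θ X)) = F.nf (sub (sg rho2) X) := by
    intro θ rho rho2 h X
    rw [sub_sub]
    exact W.nfeq (BetaEq.symm (beq_sub h X))
  have key2 : ∀ {θ : ℕ → Term S} {rho rho2 : F.Env} (x : Term S × Inf F.sk),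
      (∀ k, BetaEq ((rho2 k).1) (sub (sg rho) (θ k))) →
        ∀ k, BetaEq ((ecs x rho2 k).1) (sub (sg (ecs x rho)) (ups θ k)) := by
    intro θ rho rho2 x h k
    cases k with
    | zero => exact .refl _
    | succ k =>
        have e : sub (sg (ecs x rho)) (ups θ (k + 1)) = sub (sg rho) (θ k) := by
          rw [ups_succ, wk, sub_ren]
          rfl
        rw [e]
        exact h k
  induction M with
  | var k =>
      intro G G2 θ rho rho2 T hM w hθ hs hs2 hb hbe he p hp
      obtain ⟨_, eT⟩ := fgen_var hM k rfl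
      rw [sub_var θ k]
      rcases he k with ⟨l, h1, h2⟩ | ⟨h1, h2⟩
      · rw [h1, ev_var, ev_var, h2]
      · rw [ev_var k rho2, h2]
        have hp' : pok F (F.nf (sub (sg rho2) (G2 k))) p := by
          rwa [W.nfeq (BetaEq.sub eT _)] at hp
        obtain ⟨m, hm⟩ := hb
        rw [L.ap_pk (θ k) hm (F.nf (rho2 k).1) h1 hp']
        show _ = F.cst (cap F (F.nf (rho2 k).1) p) _
        rw [L.cst_cst]
        rfl
  | sort s => intro G G2 θ rho rho2 T _ _ _ _ _ _ _ _ p _; rfl
  | app M N ih ih' =>
      intro G G2 θ rho rho2 T hM w hθ hs hs2 hb hbe he p hp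
      obtain ⟨A, B, h1, h2, eT⟩ := fgen_app hM _ _ rfl
      obtain ⟨s, hpi⟩ := fpi_typed w h1
      have hpi' : TyF P D (pi (sub (sg rho2) A) (sub (ups (sg rho2)) B)) (sort s) :=
        tyf_sub hpi hs2
      have hM' : TyF P D (sub (sg rho2) M) (pi (sub (sg rho2) A) (sub (ups (sg rho2)) B)) :=
        tyf_sub h1 hs2
      have hN' : TyF P D (sub (sg rho2) N) (sub (sg rho2) A) := tyf_sub h2 hs2
      have hdom := W.dom hM'
      rw [sub_app θ, ev_app, ev_app, key hbe M, key hbe N, hdom]
      have hpk : pk F (F.nf (sub (sg rho2) A)) (F.nf (sub (sg rho2) N)) (ev F (sub θ N) rho) =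
          pk F (F.nf (sub (sg rho2) A)) (F.nf (sub (sg rho2) N)) (ev F N rho2) :=
        pk_congr fun q hq => ih' h2 w hθ hs hs2 hb hbe he q hq
      rw [hpk]
      have hcap : cap F (F.nf (sub (sg rho2) (app M N))) p =
          cap F (F.nf (sub (sg rho2) M)) ((F.nf (sub (sg rho2) N),
            pk F (F.nf (sub (sg rho2) A)) (F.nf (sub (sg rho2) N)) (ev F N rho2)) :: p) := by
        show _ = cap F (F.nf (app (F.nf (sub (sg rho2) M)) (F.nf (sub (sg rho2) N)))) p
        rw [W.nfeq (BetaEq.app (W.beq (sub (sg rho2) M)) (W.beq (sub (sg rho2) N)))]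
        rfl
      rw [hcap]
      refine ih h1 w hθ hs hs2 hb hbe he _ ?_
      rw [sub_pi, W.pok_pi hpi']
      refine ⟨W.nfty hN', IOk_pk _ _ _, ?_⟩
      have : F.nf (inst (F.nf (sub (sg rho2) N)) (sub (ups (sg rho2)) B)) =
          F.nf (sub (sg rho2) T) := by
        refine W.nfeq (BetaEq.trans (BetaEq.inst (W.beq _) (.refl _)) ?_)
        rw [← sub_inst]
        exact BetaEq.symm (BetaEq.sub eT _)
      show pok F (F.nf (inst (F.nf (sub (sg rho2) N)) (sub (ups (sg rho2)) B))) p
      rw [this]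
      exact hp
  | lam A M _ ih' =>
      intro G G2 θ rho rho2 T hM w hθ hs hs2 hb hbe he p hp
      obtain ⟨B, s, h1, h2, eT⟩ := fgen_lam hM _ _ rfl
      obtain ⟨sa, hA⟩ := fpi_dom h2
      have hpi' : TyF P D (pi (sub (sg rho2) A) (sub (ups (sg rho2)) B)) (sort s) :=
        tyf_sub h2 hs2
      rw [W.nfeq (BetaEq.sub eT _), sub_pi] at hp
      cases p with
      | nil => exact (W.pok_pi_nil hpi' hp).elim
      | cons x p =>
          rw [W.pok_pi hpi'] at hp
          obtain ⟨hx, _, hp⟩ := hp
          rw [sub_lam θ, ev_lam_cons, ev_lam_cons]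
          have hA' := tyf_sub hA hθ
          have hx' : TyF P D x.1 (sub (sg rho) (sub θ A)) := by
            refine .conv hx (tyf_sub hA' hs) ?_
            rw [sub_sub]
            exact beq_sub hbe A
          have e1 : inst x.1 (sub (ups (sg rho2)) B) = sub (sg (ecs x rho2)) B := by
            rw [sg_ecs, sub_scons]
          rw [e1] at hp
          have := ih' h1 (w.cons hA) (hθ.ups hA') (sg_ecs_subF hs hx') (sg_ecs_subF hs2 hx)
            (hb.ecs x) (key2 x hbe) (he.ecs A x) p hp
          have hcap : cap F (F.nf (sub (sg rho2) (lam A M))) (x :: p) =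
              cap F (F.nf (sub (sg (ecs x rho2)) M)) p := by
            show cap F (F.nf (app (F.nf (sub (sg rho2) (lam A M))) x.1)) p = _
            congr 1
            refine W.nfeq (BetaEq.trans (BetaEq.app (W.beq _) (.refl _)) ?_)
            rw [sub_lam, sg_ecs, sub_scons, ← subst_eq]
            exact .rel _ _ (.redex _ _ _)
          rw [hcap]
          exact this
  | pi A B ih ih' =>
      intro G G2 θ rho rho2 T hM w hθ hs hs2 hb hbe he p hp
      obtain ⟨a, b, c, hA, hB, r, eT⟩ := fgen_pi hM _ _ rfl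
      rw [W.nfeq (BetaEq.sub eT _), sub_sort] at hp
      obtain ⟨rfl, hc⟩ := W.pok_sort hp
      have e0 := key hbe (pi A B)
      have e1 := key hbe A
      have hA' := tyf_sub hA hθ
      have hAD : TyF P D (sub (sg rho2) A) (sort a) := tyf_sub hA hs2
      obtain ⟨ra, rb⟩ := W.rule r hc
      rw [sub_pi θ] at e0 ⊢
      rw [ev_pi, ev_pi, e0, e1]
      congr 1
      have hX : F.cst (F.nf (sub (sg rho2) A)) (ev F (sub θ A) rho []) =
          F.cst (F.nf (sub (sg rho2) A)) (ev F A rho2 []) := by
        rcases ra with ra | ra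
        · exact ih hA w hθ hs hs2 hb hbe he [] (W.leaf_sort ra)
        · exact W.high hAD ra
      refine pset_congr' hX ?_
      intro v hv j hj
      have hv' := W.nfty (W.mem hAD hv)
      set a0 := F.nf (MT.er v) with ha0
      have hx' : TyF P D a0 (sub (sg rho) (sub θ A)) := by
        refine .conv hv' (tyf_sub hA' hs) ?_
        rw [sub_sub]
        exact beq_sub hbe A
      have hs1' := sg_ecs_subF (x := (a0, j)) hs hx'
      have hs2' := sg_ecs_subF (x := (a0, j)) hs2 hv'
      have e2 := key (key2 (a0, j) hbe) B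
      rw [sg_ecs, sg_ecs] at e2
      show F.cst (F.nf (sub (scons a0 (sg rho)) (sub (ups θ) B)))
          (ev F (sub (ups θ) B) (ecs (a0, j) rho) []) =
        F.cst (F.nf (sub (scons a0 (sg rho2)) B)) (ev F B (ecs (a0, j) rho2) [])
      rw [e2]
      rcases rb with rb | rb
      · have := ih' hB (w.cons hA) (hθ.ups hA') hs1' hs2' (hb.ecs (a0, j)) (key2 (a0, j) hbe)
          (he.ecs A (a0, j)) [] (W.leaf_sort rb)
        rw [sg_ecs] at this
        exact this
      · have hBD : TyF P D (sub (scons a0 (sg rho2)) B) (sort b) := by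
          have := tyf_sub hB hs2'
          rwa [sg_ecs] at this
        exact W.high hBD rb

/-- substitution of one variable -/
theorem inst_ev {G : ℕ → Term S} {A M N T : Term S} {rho : F.Env} {a : S} (w : WfF P G)
    (hs : SubF P (sg rho) G D) (hb : Bdd rho) (hA : TyF P G A (sort a))
    (hM : TyF P (fcons A G) M T) (hN : TyF P G N A)
    (hm : F.mode (F.nf (sub (sg rho) A)) ≠ .out)
    {p : List (Term S × Inf F.sk)} (hp : pok F (F.nf (sub (sg rho) (inst N T))) p) :
    F.cst (cap F (F.nf (sub (sg rho) (inst N M))) p) (ev F (inst N M) rho p) =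
      F.cst (cap F (F.nf (sub (sg rho) (inst N M))) p)
        (ev F M (ecs (F.nf (sub (sg rho) N), pk F (F.nf (sub (sg rho) A))
          (F.nf (sub (sg rho) N)) (ev F N rho)) rho) p) := by
  set x : Term S × Inf F.sk := (F.nf (sub (sg rho) N), pk F (F.nf (sub (sg rho) A))
          (F.nf (sub (sg rho) N)) (ev F N rho)) with hx
  have hNx : TyF P D x.1 (sub (sg rho) A) := W.nfty (tyf_sub hN hs)
  have hbe : ∀ k, BetaEq ((ecs x rho k).1) (sub (sg rho) (scons N var k)) := by
    intro k
    cases k with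
    | zero => exact W.beq _
    | succ k => exact .refl _
  have e : ∀ X : Term S, F.nf (sub (sg rho) (inst N X)) = F.nf (sub (sg (ecs x rho)) X) := by
    intro X
    rw [inst, sub_sub]
    exact W.nfeq (BetaEq.symm (beq_sub hbe X))
  rw [e T] at hp
  rw [e M]
  refine W.sub_ev L M hM (w.cons hA) ((SubF.var w).scons (by rwa [sub_id])) hs
    (sg_ecs_subF hs hNx) hb hbe ?_ p hp
  intro k
  cases k with
  | zero =>
      refine .inr ?_
      have e1 : sub (sg (ecs x rho)) (fcons A G 0) = sub (sg rho) A := by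
        rw [fcons_zero, wk, sub_ren]
        rfl
      have e2 : F.nf ((ecs x rho 0).1) = F.nf (sub (sg rho) N) := W.nfnf _
      rw [e1, e2]
      exact ⟨hm, rfl⟩
  | succ k => exact .inl ⟨k, rfl, rfl⟩

/-- **invariance along beta steps** of good terms -/
theorem beta_ev {G : ℕ → Term S} {M T : Term S} (h : Gd P 𝒟 G M T) :
    ∀ {rho : F.Env}, WfF P G → SubF P (sg rho) G D → Bdd rho → ∀ M', Beta M M' →
      ∀ p, pok F (F.nf (sub (sg rho) T)) p →
        F.cst (cap F (F.nf (sub (sg rho) M)) p) (ev F M rho p) =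
          F.cst (cap F (F.nf (sub (sg rho) M)) p) (ev F M' rho p) := by
  induction h with
  | irr h hn =>
      intro rho w hs hb M' b p hp
      exact (hn (RT.of_sub hs (W.rt_of_pok hp))).elim
  | var h => intro rho w hs hb M' b; cases b
  | sort h => intro rho w hs hb M' b; cases b
  | @pi G A B T a b0 c h hA hB r eT ih ih' =>
      intro rho w hs hb M' b p hp
      rw [W.nfeq (BetaEq.sub eT _), sub_sort] at hp
      obtain ⟨rfl, hc⟩ := W.pok_sort hp
      obtain ⟨ra, rb⟩ := W.rule r hc
      have hAD : TyF P D (sub (sg rho) A) (sort a) := tyf_sub hA.typed hs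
      congr 1
      cases b with
      | @piA _ A' _ b =>
          have e1 : F.nf (sub (sg rho) A') = F.nf (sub (sg rho) A) :=
            W.nfeq (BetaEq.symm (BetaEq.sub (.rel _ _ b) _))
          have e0 : F.nf (sub (sg rho) (pi A' B)) = F.nf (sub (sg rho) (pi A B)) :=
            W.nfeq (BetaEq.symm (BetaEq.sub (.rel _ _ (.piA _ b)) _))
          rw [ev_pi, ev_pi, e0, e1]
          refine pset_congr ?_ fun _ _ _ => rfl
          rcases ra with ra | ra
          · exact ih w hs hb _ b [] (W.leaf_sort ra)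
          · exact W.high hAD ra
      | @piB _ _ B' b =>
          have e0 : F.nf (sub (sg rho) (pi A B')) = F.nf (sub (sg rho) (pi A B)) :=
            W.nfeq (BetaEq.symm (BetaEq.sub (.rel _ _ (.piB _ b)) _))
          rw [ev_pi, ev_pi, e0]
          refine pset_congr' rfl ?_
          intro v hv j hj
          have hv' := W.nfty (W.mem hAD hv)
          set a0 := F.nf (MT.er v) with ha0
          have hs' := sg_ecs_subF (x := (a0, j)) hs hv'
          have e2 : F.nf (sub (scons a0 (sg rho)) B') = F.nf (sub (scons a0 (sg rho)) B) :=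
            W.nfeq (BetaEq.symm (BetaEq.sub (.rel _ _ b) _))
          show F.cst (F.nf (sub (scons a0 (sg rho)) B)) (ev F B (ecs (a0, j) rho) []) =
            F.cst (F.nf (sub (scons a0 (sg rho)) B')) (ev F B' (ecs (a0, j) rho) [])
          rw [e2]
          rcases rb with rb | rb
          · have := ih' (w.cons hA.typed) hs' (hb.ecs (a0, j)) _ b [] (W.leaf_sort rb)
            rw [sg_ecs] at this
            exact this
          · have hBD : TyF P D (sub (scons a0 (sg rho)) B) (sort b0) := by
              have := tyf_sub hB.typed hs'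
              rwa [sg_ecs] at this
            exact W.high hBD rb
  | @lam G A M B T h hM eT ih =>
      intro rho w hs hb M' b p hp
      obtain ⟨B0, s, h1, h2, h3⟩ := fgen_lam h _ _ rfl
      obtain ⟨sa, hA⟩ := fpi_dom h2
      have eT' : BetaEq T (pi A B) := eT
      rw [W.nfeq (BetaEq.sub (BetaEq.trans (BetaEq.symm (BetaEq.symm h3)) (.refl _)) _)] at hp
      have hpi' : TyF P D (pi (sub (sg rho) A) (sub (ups (sg rho)) B0)) (sort s) :=
        tyf_sub h2 hs
      rw [sub_pi] at hp
      cases p with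
      | nil => exact (W.pok_pi_nil hpi' hp).elim
      | cons x p =>
          rw [W.pok_pi hpi'] at hp
          obtain ⟨hx, _, hp⟩ := hp
          cases b with
          | lamA _ b => rfl
          | @lamM _ _ M1 b =>
              rw [ev_lam_cons, ev_lam_cons]
              have e1 : inst x.1 (sub (ups (sg rho)) B0) = sub (sg (ecs x rho)) B0 := by
                rw [sg_ecs, sub_scons]
              rw [e1] at hp
              have e3 : BetaEq B0 B := (pi_inj (BetaEq.trans (BetaEq.symm h3) eT')).2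
              rw [W.nfeq (BetaEq.sub e3 _)] at hp
              have := ih (w.cons hA) (sg_ecs_subF hs hx) (hb.ecs x) _ b p hp
              have hcap : cap F (F.nf (sub (sg rho) (lam A M))) (x :: p) =
                  cap F (F.nf (sub (sg (ecs x rho)) M)) p := by
                show cap F (F.nf (app (F.nf (sub (sg rho) (lam A M))) x.1)) p = _
                congr 1
                refine W.nfeq (BetaEq.trans (BetaEq.app (W.beq _) (.refl _)) ?_)
                rw [sub_lam, sg_ecs, sub_scons, ← subst_eq]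
                exact .rel _ _ (.redex _ _ _)
              rw [hcap]
              exact this
  | @app G M N A B T h hM hN eT hl ih ih' =>
      intro rho w hs hb M' b p hp
      obtain ⟨s, hpi⟩ := fpi_typed w hM.typed
      have hpi' : TyF P D (pi (sub (sg rho) A) (sub (ups (sg rho)) B)) (sort s) :=
        tyf_sub hpi hs
      have hM' : TyF P D (sub (sg rho) M) (pi (sub (sg rho) A) (sub (ups (sg rho)) B)) :=
        tyf_sub hM.typed hs
      have hN' : TyF P D (sub (sg rho) N) (sub (sg rho) A) := tyf_sub hN.typed hs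
      have hdom := W.dom hM'
      have hrt : RT P 𝒟 G (inst N B) := (RT.of_sub hs (W.rt_of_pok hp)).conv eT
      -- the path of the function
      have hpath : ∀ f : List (Term S × Inf F.sk) → Set (MT S),
          pok F (F.nf (sub (sg rho) (pi A B))) ((F.nf (sub (sg rho) N),
            pk F (F.nf (sub (sg rho) A)) (F.nf (sub (sg rho) N)) f) :: p) := by
        intro f
        rw [sub_pi, W.pok_pi hpi']
        refine ⟨W.nfty hN', IOk_pk _ _ _, ?_⟩
        have : F.nf (inst (F.nf (sub (sg rho) N)) (sub (ups (sg rho)) B)) =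
            F.nf (sub (sg rho) T) := by
          refine W.nfeq (BetaEq.trans (BetaEq.inst (W.beq _) (.refl _)) ?_)
          rw [← sub_inst]
          exact BetaEq.symm (BetaEq.sub eT _)
        show pok F (F.nf (inst (F.nf (sub (sg rho) N)) (sub (ups (sg rho)) B))) p
        rw [this]
        exact hp
      have hcap : ∀ f : List (Term S × Inf F.sk) → Set (MT S),
          cap F (F.nf (sub (sg rho) (app M N))) p =
          cap F (F.nf (sub (sg rho) M)) ((F.nf (sub (sg rho) N),
            pk F (F.nf (sub (sg rho) A)) (F.nf (sub (sg rho) N)) f) :: p) := by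
        intro f
        show _ = cap F (F.nf (app (F.nf (sub (sg rho) M)) (F.nf (sub (sg rho) N)))) p
        rw [W.nfeq (BetaEq.app (W.beq (sub (sg rho) M)) (W.beq (sub (sg rho) N)))]
        rfl
      cases b with
      | @appL _ M1 _ b =>
          have e1 : F.nf (sub (sg rho) M1) = F.nf (sub (sg rho) M) :=
            W.nfeq (BetaEq.symm (BetaEq.sub (.rel _ _ b) _))
          rw [ev_app, ev_app, e1, hdom, hcap (ev F N rho)]
          exact ih w hs hb _ b _ (hpath _)
      | @appR _ _ N1 b =>
          have e1 : F.nf (sub (sg rho) N1) = F.nf (sub (sg rho) N) :=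
            W.nfeq (BetaEq.symm (BetaEq.sub (.rel _ _ b) _))
          rw [ev_app, ev_app, e1, hdom]
          rw [pk_congr fun q hq => ih' w hs hb _ b q hq]
      | redex A0 P0 _ =>
          obtain ⟨c, hc, hsg⟩ := hl trivial
          obtain ⟨a, b, r, hAa, _, _, h4⟩ := signed_parts w hc hsg hN.typed hrt
          have hlam := hM.typed
          obtain ⟨B1, s1, h5, h6, h7⟩ := fgen_lam hlam _ _ rfl
          obtain ⟨e7, e8⟩ := pi_inj h7
          obtain ⟨sa, hA0⟩ := fpi_dom h6
          have hN0 : TyF P G N A0 := .conv hN.typed hA0 e7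
          have hmode : F.mode (F.nf (sub (sg rho) A0)) ≠ .out := by
            refine W.live (a := a) ?_ h4
            exact (hAa.conv (BetaEq.symm e7)).sub hs
          rw [subst_eq]
          have hpT : pok F (F.nf (sub (sg rho) (inst N B1))) p := by
            rw [← W.nfeq (BetaEq.sub (BetaEq.trans eT (BetaEq.sub e8 _)) (sg rho))]
            exact hp
          have := W.inst_ev L w hs hb hA0 h5 hN0 hmode hpT
          rw [ev_app, ev_lam_cons, hdom]
          have eA : F.nf (sub (sg rho) A) = F.nf (sub (sg rho) A0) :=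
            W.nfeq (BetaEq.sub e7 _)
          have eC : F.nf (sub (sg rho) (app (lam A0 P0) N)) = F.nf (sub (sg rho) (inst N P0)) := by
            refine W.nfeq (BetaEq.sub ?_ _)
            rw [← subst_eq]
            exact .rel _ _ (.redex _ _ _)
          rw [eA, eC]
          exact this.symm

/-- invariance along reductions -/
theorem red_ev {G : ℕ → Term S} {M M' T : Term S} (h : Gd P 𝒟 G M T) {rho : F.Env}
    (w : WfF P G) (hs : SubF P (sg rho) G D) (hb : Bdd rho) (r : Red M M')
    {p : List (Term S × Inf F.sk)} (hp : pok F (F.nf (sub (sg rho) T)) p) :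
    F.cst (cap F (F.nf (sub (sg rho) M)) p) (ev F M rho p) =
      F.cst (cap F (F.nf (sub (sg rho) M)) p) (ev F M' rho p) := by
  induction r with
  | refl => rfl
  | @tail M1 M2 r b ih =>
      rw [ih]
      have e : F.nf (sub (sg rho) M) = F.nf (sub (sg rho) M1) := W.nfeq (BetaEq.sub (Red.eq r) _)
      rw [e]
      exact W.beta_ev L (gd_red w h r) w hs hb _ b p hp

/-- **the equality behind (R4)** -/
theorem r4 {G : ℕ → Term S} {A B N K : Term S} {a b c : S} {rho : F.Env} (w : WfF P G)
    (hs : SubF P (sg rho) G D) (hb : Bdd rho) (hA : TyF P G A (sort a)) (r : P.rule a b c)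
    (hbD : b ∈ 𝒟) (hcD : c ∈ 𝒟) (hB : TyF P (fcons A G) B (sort b)) (nB : Normal B)
    (hN : TyF P G N A) (nN : Normal N) (hK : Red (inst N B) K) :
    F.cst (F.nf (sub (sg rho) K)) (ev F K rho []) =
      F.cst (F.nf (sub (sg rho) K)) (ev F B (ecs (F.nf (sub (sg rho) N),
        pk F (F.nf (sub (sg rho) A)) (F.nf (sub (sg rho) N)) (ev F N rho)) rho) []) := by
  have hp : pok F (F.nf (sub (sg rho) (inst N (sort b)))) [] := W.leaf_sort hbD
  have hg : Gd P 𝒟 G (inst N B) (inst N (sort b)) := gd_start w hB nB hN nN hA r hbD hcD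
  have e : F.nf (sub (sg rho) K) = F.nf (sub (sg rho) (inst N B)) :=
    W.nfeq (BetaEq.symm (BetaEq.sub (Red.eq hK) _))
  have h1 := W.red_ev L hg w hs hb hK hp
  have hm : F.mode (F.nf (sub (sg rho) A)) ≠ .out :=
    W.live (a := a) (.of (tyf_sub hA hs)) fun ha => ⟨true, .base r hbD hcD ha⟩
  have h2 := W.inst_ev L w hs hb hA hB hN hm hp
  rw [e]
  exact h1.symm.trans h2

end TL

end Crest.Agent.R298.Rk3
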