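import Crest.Agent.R298.Rk3_198

/-!
R298 (S0452), helper198: the typed substitution lemma of the evaluation.
-/

set_option autoImplicit false

namespace Crest.Agent.R298.Sem198

open Crest.LogicCS.PTS Crest.LogicCS.PTS.Term Relation
open Crest.Agent.R298.Sub452 Crest.Agent.R298.Par452 Crest.Agent.R298.Ty452
open Crest.Agent.R298.TyF452 Crest.Agent.R298.Mem360

variable {S : Type} {X : Setup S}

/-! ### closed instances -/

/-- typed environments -/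
def EnvT (Γ : ℕ → Term S) (ρ : Env X) : Prop := SubF X.P (fun k => (ρ k).1) Γ X.D

@[simp] theorem cl_var (ρ : Env X) (k : ℕ) : cl ρ (var k) = (ρ k).1 := rfl
@[simp] theorem cl_sort (ρ : Env X) (s : S) : cl ρ (sort s) = sort s := rfl
@[simp] theorem cl_app (ρ : Env X) (M N : Term S) : cl ρ (app M N) = app (cl ρ M) (cl ρ N) := rfl
theorem cl_pi (ρ : Env X) (A B : Term S) :
    cl ρ (pi A B) = pi (cl ρ A) (sub (ups fun k => (ρ k).1) B) := rfl
theorem cl_lam (ρ : Env X) (A B : Term S) :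
    cl ρ (lam A B) = lam (cl ρ A) (sub (ups fun k => (ρ k).1) B) := rfl

theorem cl_inst (ρ : Env X) (N B : Term S) :
    cl ρ (inst N B) = inst (cl ρ N) (sub (ups fun k => (ρ k).1) B) := sub_inst _ N B

theorem EnvT.cl {Γ : ℕ → Term S} {ρ : Env X} (h : EnvT Γ ρ) {M A : Term S}
    (hM : TyF X.P Γ M A) : X.Ty (cl ρ M) (cl ρ A) := tyf_sub hM h

theorem EnvT.cons {Γ : ℕ → Term S} {ρ : Env X} (h : EnvT Γ ρ) {x : Arg X} {A : Term S}
    (hx : X.Ty x.1 (Sem198.cl ρ A)) : EnvT (fcons A Γ) (econs x ρ) := by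
  unfold EnvT
  rw [econs_fst]
  exact SubF.scons h hx

/-- conversion of closed types -/
theorem Setup.conv {M A B : Term S} (h : X.Ty M A) (e : BetaEq A B) {s : S}
    (hB : X.Ty B (sort s)) : X.Ty M B := .conv h hB e

theorem ty_nf {A : Term S} {s : S} (h : X.Ty A (sort s)) : X.Ty (nf A) (sort s) :=
  FSR X.wf h (nf_red (X.wn _ _ h))

theorem ty_nf' {M A : Term S} (h : X.Ty M A) : X.Ty (nf M) A :=
  FSR X.wf h (nf_red (X.wn _ _ h))

/-- validity at an application: `f : pi A B`, `n : A` -/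
theorem valid_cons_of {A B n : Term S} {s : S} (hp : X.Ty (pi A B) (sort s)) (hn : X.Ty n A)
    {j : Inf X} {p : List (Arg X)} (hj : j ∈ (rng (nf A) : Set (Inf X)))
    (hv : Valid (nf (inst n B)) p) : Valid (nf (pi A B)) ((nf n, j) :: p) := by
  have wp := X.wn _ _ hp
  obtain ⟨wA, wB⟩ := wn_pi_inv wp
  obtain ⟨a, b, c, hA, hB, r, e⟩ := fgen_pi hp _ _ rfl
  rw [nf_pi wp, valid_pi]
  have hn' : X.Ty (nf n) (nf A) := .conv (ty_nf' hn) (ty_nf hA) (nf_eq wA)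
  refine ⟨hn', nf_normal (X.wn _ _ hn), hj, ?_⟩
  have h1 : nf (inst (nf n) (nf B)) = nf (inst n B) := by
    refine (nf_congr (X.wn _ _ (tyf_inst X.wf hB hn)) ?_).symm
    exact BetaEq.inst (nf_eq (X.wn _ _ hn)) (nf_eq wB)
  show Valid (nf (inst (nf n) (nf B))) p
  rw [h1]
  exact hv

/-- inversion of validity at a product -/
theorem valid_pi_inv {A B : Term S} {s : S} (hp : X.Ty (pi A B) (sort s)) {x : Arg X}
    {p : List (Arg X)} (h : Valid (nf (pi A B)) (x :: p)) :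
    X.Ty x.1 A ∧ Normal x.1 ∧ x.2 ∈ (rng (nf A) : Set (Inf X)) ∧ Valid (nf (inst x.1 B)) p := by
  have wp := X.wn _ _ hp
  obtain ⟨wA, wB⟩ := wn_pi_inv wp
  obtain ⟨a, b, c, hA, hB, r, e⟩ := fgen_pi hp _ _ rfl
  rw [nf_pi wp, valid_pi] at h
  obtain ⟨h1, h2, h3, h4⟩ := h
  have h1' : X.Ty x.1 A := .conv h1 hA (BetaEq.symm (nf_eq wA))
  refine ⟨h1', h2, h3, ?_⟩
  have h5 : nf (inst x.1 (nf B)) = nf (inst x.1 B) := by
    refine (nf_congr (X.wn _ _ (tyf_inst X.wf hB h1')) ?_).symm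
    exact BetaEq.inst (BetaEq.refl _) (nf_eq wB)
  rw [← h5]
  exact h4

/-! ### substitution environments -/

/-- the entry `x` interprets the term `t` (substituted for a variable of type `C`) -/
def EntS (ρ : Env X) (C : Term S) (t : Term S) (x : Arg X) : Prop :=
  (∃ k', t = var k' ∧ x = ρ k') ∨
  (Red (cl ρ t) x.1 ∧ Normal C ∧ ¬ Dead X C ∧ x.2 = pack C (ev t ρ))

/-- `ρ₂` interprets `θ` in `ρ` -/
structure SubE (Γ₂ Γ : ℕ → Term S) (θ : ℕ → Term S) (ρ ρ₂ : Env X) : Prop where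
  w : WfF X.P Γ
  w₂ : WfF X.P Γ₂
  th : SubF X.P θ Γ₂ Γ
  e : EnvT Γ ρ
  e₂ : EnvT Γ₂ ρ₂
  bd : BdE ρ
  ent : ∀ k, EntS ρ (nf (cl ρ₂ (Γ₂ k))) (θ k) (ρ₂ k)

theorem EntS.red {ρ : Env X} {C t : Term S} {x : Arg X} (h : EntS ρ C t x) :
    Red (cl ρ t) x.1 := by
  rcases h with ⟨k', rfl, rfl⟩ | ⟨h, _⟩
  · exact .refl
  · exact h

theorem SubE.red {Γ₂ Γ : ℕ → Term S} {θ : ℕ → Term S} {ρ ρ₂ : Env X}
    (h : SubE Γ₂ Γ θ ρ ρ₂) (M : Term S) : Red (cl ρ (sub θ M)) (cl ρ₂ M) := by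
  unfold cl
  rw [sub_sub]
  exact red_sub (fun k => (h.ent k).red) M

theorem SubE.nf {Γ₂ Γ : ℕ → Term S} {θ : ℕ → Term S} {ρ ρ₂ : Env X}
    (h : SubE Γ₂ Γ θ ρ ρ₂) {M : Term S} (hM : WN (cl ρ₂ M)) :
    nf (cl ρ (sub θ M)) = nf (cl ρ₂ M) :=
  (nf_congr hM (BetaEq.symm (h.red M).eq)).symm

theorem SubE.cons {Γ₂ Γ : ℕ → Term S} {θ : ℕ → Term S} {ρ ρ₂ : Env X}
    (h : SubE Γ₂ Γ θ ρ ρ₂) {A : Term S} {s : S} (hA : TyF X.P Γ₂ A (sort s)) {x : Arg X}
    (hx : X.Ty x.1 (cl ρ₂ A)) :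
    SubE (fcons A Γ₂) (fcons (sub θ A) Γ) (ups θ) (econs x ρ) (econs x ρ₂) := by
  have hA' : TyF X.P Γ (sub θ A) (sort s) := tyf_sub hA h.th
  have c2 : X.Ty (cl ρ₂ A) (sort s) := h.e₂.cl hA
  have c1 : X.Ty (cl ρ (sub θ A)) (sort s) := h.e.cl hA'
  refine ⟨h.w.cons hA', h.w₂.cons hA, h.th.ups hA',
    h.e.cons (.conv hx c1 (BetaEq.symm (h.red A).eq)), h.e₂.cons hx, h.bd.cons x, ?_⟩
  intro k
  cases k with
  | zero => exact Or.inl ⟨0, rfl, rfl⟩
  | succ k =>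
      have hC : cl (econs x ρ₂) (fcons A Γ₂ (k + 1)) = cl ρ₂ (Γ₂ k) := cl_wk x ρ₂ (Γ₂ k)
      rw [hC]
      rcases h.ent k with ⟨k', h1, h2⟩ | ⟨h1, h2, h3, h4⟩
      · refine Or.inl ⟨k' + 1, ?_, h2⟩
        rw [ups_succ, h1]; rfl
      · refine Or.inr ⟨?_, h2, h3, ?_⟩
        · rw [ups_succ, cl_wk]; exact h1
        · rw [ups_succ, econs_succ, h4]
          congr 1
          funext q
          exact (ev_wk x ρ (θ k) q).symm

/-- **substitution lemma** -/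
theorem ev_sub (hT : Thin X) (M : Term S) : ∀ {Γ₂ Γ : ℕ → Term S} {θ : ℕ → Term S}
    {ρ ρ₂ : Env X} {T : Term S}, SubE Γ₂ Γ θ ρ ρ₂ → TyF X.P Γ₂ M T →
    ∀ p, Valid (nf (cl ρ₂ T)) p → ev (sub θ M) ρ p = ev M ρ₂ p := by
  induction M with
  | var k =>
      intro Γ₂ Γ θ ρ ρ₂ T h hM p hp
      obtain ⟨⟨s, hs⟩, e⟩ := fgen_var hM k rfl
      have c := h.e₂.cl hs
      have hp' : Valid (nf (cl ρ₂ (Γ₂ k))) p := by
        rw [nf_congr (X.wn _ _ c) (BetaEq.symm (BetaEq.sub e _))]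
        exact hp
      rw [sub_var, ev_var]
      rcases h.ent k with ⟨k', h1, h2⟩ | ⟨h1, h2, h3, h4⟩
      · rw [h1, ev_var, h2]
      · rw [h4, ap_pack_ev hT h.bd h2 h3 (θ k) hp']
  | sort s =>
      intro Γ₂ Γ θ ρ ρ₂ T h hM p hp
      rw [sub_sort, ev_sort, ev_sort]
  | app M N ihM ihN =>
      intro Γ₂ Γ θ ρ ρ₂ T h hM p hp
      obtain ⟨A, B, hM', hN, e⟩ := fgen_app hM M N rfl
      obtain ⟨s, hpi⟩ := fpi_typed h.w₂ hM'
      obtain ⟨a, b, c, hA, hB, r, -⟩ := fgen_pi hpi _ _ rfl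
      have cM : X.Ty (cl ρ₂ M) (cl ρ₂ (pi A B)) := h.e₂.cl hM'
      have cN : X.Ty (cl ρ₂ N) (cl ρ₂ A) := h.e₂.cl hN
      have cpi : X.Ty (cl ρ₂ (pi A B)) (sort s) := h.e₂.cl hpi
      have cA : X.Ty (cl ρ₂ A) (sort a) := h.e₂.cl hA
      have cM' : X.Ty (cl ρ (sub θ M)) (cl ρ (sub θ (pi A B))) := h.e.cl (tyf_sub hM' h.th)
      have cB : X.Ty (cl ρ₂ (inst N B)) (sort b) := h.e₂.cl (tyf_inst h.w₂ hB hN)
      rw [sub_app, ev_app, ev_app]
      have d2 : domT X (cl ρ₂ M) = nf (cl ρ₂ A) := domT_eq cM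
      have d1 : domT X (cl ρ (sub θ M)) = nf (cl ρ₂ A) := by
        rw [sub_pi, cl_pi] at cM'
        rw [domT_eq cM', h.nf (X.wn _ _ cA)]
      rw [d1, d2, h.nf (X.wn _ _ cN),
        pack_congr (fun q hq => ihN h hN q hq)]
      refine ihM h hM' _ ?_
      rw [cl_pi] at cpi ⊢
      refine valid_cons_of cpi cN (pack_mem _ _) ?_
      rw [← cl_inst, nf_congr (X.wn _ _ cB) (BetaEq.symm (BetaEq.sub e _))]
      exact hp
  | lam A M _ ihM =>
      intro Γ₂ Γ θ ρ ρ₂ T h hM p hp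
      obtain ⟨B, s, hM', hpi, e⟩ := fgen_lam hM A M rfl
      obtain ⟨a, b, c, hA, hB, r, -⟩ := fgen_pi hpi _ _ rfl
      have cpi : X.Ty (cl ρ₂ (pi A B)) (sort s) := h.e₂.cl hpi
      rw [sub_lam]
      cases p with
      | nil => rw [ev_lam_nil, ev_lam_nil]
      | cons x p =>
          rw [ev_lam_cons, ev_lam_cons]
          have hp' : Valid (nf (cl ρ₂ (pi A B))) (x :: p) := by
            rw [nf_congr (X.wn _ _ cpi) (BetaEq.symm (BetaEq.sub e _))]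
            exact hp
          rw [cl_pi] at cpi hp'
          obtain ⟨h1, h2, h3, h4⟩ := valid_pi_inv cpi hp'
          refine ihM (h.cons hA h1) hM' p ?_
          rw [cl_econs]
          exact h4
  | pi A B ihA ihB =>
      intro Γ₂ Γ θ ρ ρ₂ T h hM p hp
      obtain ⟨a, b, c, hA, hB, r, e⟩ := fgen_pi hM A B rfl
      have hK : nf (cl ρ₂ T) = sort c := nf_unique (BetaEq.sub e _) (normal_sort c)
      rw [hK] at hp
      have hc : X.idx c = X.i := by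
        cases p with
        | nil =>
            obtain ⟨s, h1, h2⟩ := hp
            cases h1
            exact h2
        | cons x p =>
            obtain ⟨A', B', h1, _⟩ := hp
            cases h1
      obtain ⟨ra, rb⟩ := X.rl a b c r
      have cA : X.Ty (cl ρ₂ A) (sort a) := h.e₂.cl hA
      have eA : RR (sub θ A) ρ = RR A ρ₂ := by
        unfold RR RRv
        rw [h.nf (X.wn _ _ cA)]
        rcases Nat.lt_or_ge X.i (X.idx a) with ha | ha
        · exact X.cst_high _ _ _ ⟨a, ty_nf cA, ha⟩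
        · rw [ihA h hA [] ⟨a, nf_sort a, by omega⟩]
      have eB : ∀ x : Arg X, X.Ty x.1 (cl ρ₂ A) →
          RR (sub (ups θ) B) (econs x ρ) = RR B (econs x ρ₂) := by
        intro x hx
        have h' := h.cons hA hx
        have cB : X.Ty (cl (econs x ρ₂) B) (sort b) := h'.e₂.cl hB
        unfold RR RRv
        rw [h'.nf (X.wn _ _ cB)]
        rcases Nat.lt_or_ge X.i (X.idx b) with hb | hb
        · exact X.cst_high _ _ _ ⟨b, ty_nf cB, hb⟩
        · rw [ihB h' hB [] ⟨b, nf_sort b, by omega⟩]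
      rw [sub_pi, ev_pi, ev_pi, eA, h.nf (X.wn _ _ cA)]
      ext v
      simp only [Set.mem_ofPred_eq]
      have ty : ∀ w ∈ RR A ρ₂, X.Ty (nf (MT.er w)) (cl ρ₂ A) := by
        intro w hw
        have h1 : X.Ty (MT.er w) (nf (cl ρ₂ A)) := X.cst_typed _ _ _ hw
        exact ty_nf' (.conv h1 cA (BetaEq.symm (nf_eq (X.wn _ _ cA))))
      constructor
      · intro hv w hw j hj
        rw [← eB (nf (MT.er w), j) (ty w hw)]
        exact hv w hw j hj
      · intro hv w hw j hj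
        rw [eB (nf (MT.er w), j) (ty w hw)]
        exact hv w hw j hj

end Crest.Agent.R298.Sem198
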