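import Crest.Agent.R298.Rk4_198

/-!
R298 (S0452), helper198: good terms, beta invariance of the evaluation, instantiation (R4).
-/

set_option autoImplicit false

namespace Crest.Agent.R298.Sem198

open Crest.LogicCS.PTS Crest.LogicCS.PTS.Term Relation
open Crest.Agent.R298.Sub452 Crest.Agent.R298.Par452 Crest.Agent.R298.Ty452
open Crest.Agent.R298.TyF452 Crest.Agent.R298.Mem360

variable {S : Type} {X : Setup S}

/-- high closed types (through the normal form) -/
def HighN (X : Setup S) (T : Term S) : Prop := ∃ s, X.Ty (nf T) (sort s) ∧ X.i < X.idx s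

/-- rigid terms: headed by a rigid variable -/
def Rig (r : ℕ → Prop) : Term S → Prop
  | .var k => r k
  | .app M _ => Rig r M
  | _ => False

/-- extension of the set of rigid variables by a non-rigid one -/
def rcons (r : ℕ → Prop) : ℕ → Prop
  | 0 => False
  | k + 1 => r k

/-- good terms, along the evaluation -/
def Gd : Term S → (ℕ → Prop) → Env X → List (Arg X) → Prop
  | .var _, _, _, _ => True
  | .sort _, _, _, _ => True
  | .app M N, r, ρ, p => Rig r M ∨ (¬ Dead X (domT X (cl ρ M)) ∧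
      Gd M r ρ ((nf (cl ρ N), pack (domT X (cl ρ M)) (ev N ρ)) :: p) ∧
      ∀ q, Valid (domT X (cl ρ M)) q → Gd N r ρ q)
  | .lam _ _, _, _, [] => True
  | .lam _ M, r, ρ, x :: p => Gd M (rcons r) (econs x ρ) p
  | .pi A B, r, ρ, _ => (¬ HighN X (cl ρ A) → Gd A r ρ []) ∧
      ∀ x : Arg X, X.Ty x.1 (nf (cl ρ A)) → Normal x.1 → x.2 ∈ (qr (nf (cl ρ A)) : Set (Inf X)) →
        ¬ HighN X (cl (econs x ρ) B) → Gd B (rcons r) (econs x ρ) []

/-- rigid variables carry the default info -/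
def EnvR (r : ℕ → Prop) (ρ : Env X) : Prop := ∀ k, r k → (ρ k).2 = .df

theorem EnvR.cons {r : ℕ → Prop} {ρ : Env X} (h : EnvR r ρ) (x : Arg X) :
    EnvR (rcons r) (econs x ρ) := by
  intro k hk
  cases k with
  | zero => exact absurd hk id
  | succ k => exact h k hk

theorem ev_rig {r : ℕ → Prop} {ρ : Env X} (h : EnvR r ρ) {M : Term S} (hM : Rig r M) :
    ∀ p, ev M ρ p = ∅ := by
  induction M with
  | var k => intro p; rw [ev_var, h k hM]; rfl
  | app M N ih _ => intro p; rw [ev_app]; exact ih hM _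
  | sort s => exact absurd hM id
  | lam A M => exact absurd hM id
  | pi A M => exact absurd hM id

theorem rr_high {T : Term S} {ρ : Env X} (h : HighN X (cl ρ T)) (V : Val S) :
    RR T ρ = X.cst (nf (cl ρ T)) V := X.cst_high _ _ _ h

/-- the relation of the rigid variables under a substitution -/
def SubR (r₂ r : ℕ → Prop) (Γ₂ : ℕ → Term S) (θ : ℕ → Term S) (ρ ρ₂ : Env X) : Prop :=
  ∀ k, (∃ k', θ k = var k' ∧ ρ₂ k = ρ k' ∧ (r₂ k → r k')) ∨
    (¬ r₂ k ∧ ∀ q, Valid (nf (cl ρ₂ (Γ₂ k))) q → Gd (θ k) r ρ q)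

theorem rig_sub {r₂ r : ℕ → Prop} {Γ₂ : ℕ → Term S} {θ : ℕ → Term S} {ρ ρ₂ : Env X}
    (h : SubR r₂ r Γ₂ θ ρ ρ₂) {M : Term S} (hM : Rig r₂ M) : Rig r (sub θ M) := by
  induction M with
  | var k =>
      rcases h k with ⟨k', h1, _, h2⟩ | ⟨h1, _⟩
      · rw [sub_var, h1]; exact h2 hM
      · exact absurd hM h1
  | app M N ih _ => exact ih hM
  | sort s => exact absurd hM id
  | lam A M => exact absurd hM id
  | pi A M => exact absurd hM id

theorem rcons_up (r : ℕ → Prop) (k : ℕ) : rcons r (k + 1) = r k := rfl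

theorem gd_ren (M : Term S) : ∀ (f : ℕ → ℕ) (r : ℕ → Prop) (ρ : Env X) (p : List (Arg X)),
    Gd (ren f M) r ρ p ↔ Gd M (fun k => r (f k)) (fun k => ρ (f k)) p := by
  have rig : ∀ (M : Term S) (f : ℕ → ℕ) (r : ℕ → Prop),
      Rig r (ren f M) ↔ Rig (fun k => r (f k)) M := by
    intro M f r
    induction M with
    | var k => exact Iff.rfl
    | app M N ih _ => exact ih
    | sort s => exact Iff.rfl
    | lam A M => exact Iff.rfl
    | pi A M => exact Iff.rfl
  have hup : ∀ (f : ℕ → ℕ) (r : ℕ → Prop), (fun k => rcons r (up f k)) =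
      rcons fun k => r (f k) := by
    intro f r
    funext k
    cases k <;> rfl
  induction M with
  | var k => intro f r ρ p; exact Iff.rfl
  | sort s => intro f r ρ p; exact Iff.rfl
  | app M N ihM ihN =>
      intro f r ρ p
      have e : ev (ren f N) ρ = ev N (fun k => ρ (f k)) := funext fun q => ev_ren N f ρ q
      show (Rig r (ren f M) ∨ _) ↔ (Rig _ M ∨ _)
      rw [rig, cl_ren, cl_ren, e, ihM]
      simp only [ihN]
  | lam A M _ ihM =>
      intro f r ρ p
      cases p with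
      | nil => exact Iff.rfl
      | cons x p =>
          show Gd (ren (up f) M) (rcons r) (econs x ρ) p ↔ Gd M _ _ p
          rw [ihM, hup, econs_up]
  | pi A B ihA ihB =>
      intro f r ρ p
      show ((¬ HighN X (cl ρ (ren f A)) → Gd (ren f A) r ρ []) ∧ _) ↔ _
      rw [cl_ren, ihA]
      refine and_congr Iff.rfl (forall_congr' fun x => ?_)
      show (_ → _ → _ → ¬ HighN X (cl (econs x ρ) (ren (up f) B)) →
        Gd (ren (up f) B) (rcons r) (econs x ρ) []) ↔ _
      rw [cl_ren, ihB, econs_up, hup]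

theorem gd_wk (M : Term S) (r : ℕ → Prop) (x : Arg X) (ρ : Env X) (p : List (Arg X)) :
    Gd (wk M) (rcons r) (econs x ρ) p ↔ Gd M r ρ p := gd_ren M Nat.succ (rcons r) (econs x ρ) p

theorem SubR.cons {r₂ r : ℕ → Prop} {Γ₂ : ℕ → Term S} {θ : ℕ → Term S} {ρ ρ₂ : Env X}
    (h : SubR r₂ r Γ₂ θ ρ ρ₂) (A : Term S) (x : Arg X) :
    SubR (rcons r₂) (rcons r) (fcons A Γ₂) (ups θ) (econs x ρ) (econs x ρ₂) := by
  intro k
  cases k with
  | zero => exact Or.inl ⟨0, rfl, rfl, fun h => h⟩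
  | succ k =>
      rcases h k with ⟨k', h1, h2, h3⟩ | ⟨h1, h2⟩
      · exact Or.inl ⟨k' + 1, by rw [ups_succ, h1]; rfl, h2, h3⟩
      · refine Or.inr ⟨h1, fun q hq => ?_⟩
        rw [ups_succ, gd_wk]
        refine h2 q ?_
        have hC : cl (econs x ρ₂) (fcons A Γ₂ (k + 1)) = cl ρ₂ (Γ₂ k) := cl_wk x ρ₂ (Γ₂ k)
        rw [hC] at hq
        exact hq

theorem gd_sub (hT : Thin X) (M : Term S) : ∀ {Γ₂ Γ : ℕ → Term S} {θ : ℕ → Term S}
    {ρ ρ₂ : Env X} {T : Term S} {r₂ r : ℕ → Prop}, SubE Γ₂ Γ θ ρ ρ₂ → SubR r₂ r Γ₂ θ ρ ρ₂ →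
    TyF X.P Γ₂ M T → ∀ p, Valid (nf (cl ρ₂ T)) p → Gd M r₂ ρ₂ p → Gd (sub θ M) r ρ p := by
  induction M with
  | var k =>
      intro Γ₂ Γ θ ρ ρ₂ T r₂ r h hr hM p hp hg
      obtain ⟨⟨s, hs⟩, e⟩ := fgen_var hM k rfl
      have c := h.e₂.cl hs
      have hp' : Valid (nf (cl ρ₂ (Γ₂ k))) p := by
        rw [nf_congr (X.wn _ _ c) (BetaEq.symm (BetaEq.sub e _))]
        exact hp
      rw [sub_var]
      rcases hr k with ⟨k', h1, _, _⟩ | ⟨_, h1⟩
      · rw [h1]; exact trivial
      · exact h1 p hp'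
  | sort s => intro Γ₂ Γ θ ρ ρ₂ T r₂ r h hr hM p hp hg; exact trivial
  | app M N ihM ihN =>
      intro Γ₂ Γ θ ρ ρ₂ T r₂ r h hr hM p hp hg
      rcases hg with hg | ⟨hg1, hg2, hg3⟩
      · exact Or.inl (rig_sub hr hg)
      right
      obtain ⟨A, B, hM', hN, e⟩ := fgen_app hM M N rfl
      obtain ⟨s, hpi⟩ := fpi_typed h.w₂ hM'
      obtain ⟨a, b, c, hA, hB, ru, -⟩ := fgen_pi hpi _ _ rfl
      have cM : X.Ty (cl ρ₂ M) (cl ρ₂ (pi A B)) := h.e₂.cl hM'
      have cN : X.Ty (cl ρ₂ N) (cl ρ₂ A) := h.e₂.cl hN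
      have cpi : X.Ty (cl ρ₂ (pi A B)) (sort s) := h.e₂.cl hpi
      have cA : X.Ty (cl ρ₂ A) (sort a) := h.e₂.cl hA
      have cM' : X.Ty (cl ρ (sub θ M)) (cl ρ (sub θ (pi A B))) := h.e.cl (tyf_sub hM' h.th)
      have cB : X.Ty (cl ρ₂ (inst N B)) (sort b) := h.e₂.cl (tyf_inst h.w₂ hB hN)
      have d2 : domT X (cl ρ₂ M) = nf (cl ρ₂ A) := domT_eq cM
      have d1 : domT X (cl ρ (sub θ M)) = nf (cl ρ₂ A) := by
        rw [sub_pi, cl_pi] at cM'
        rw [domT_eq cM', h.nf (X.wn _ _ cA)]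
      rw [d1]
      rw [d2] at hg1 hg2 hg3
      refine ⟨hg1, ?_, fun q hq => ihN h hr hN q hq (hg3 q hq)⟩
      rw [h.nf (X.wn _ _ cN), pack_congr (fun q hq => ev_sub hT N h hN q hq)]
      refine ihM h hr hM' _ ?_ hg2
      rw [cl_pi] at cpi ⊢
      refine valid_cons_of cpi cN (pack_mem _ _) ?_
      rw [← cl_inst, nf_congr (X.wn _ _ cB) (BetaEq.symm (BetaEq.sub e _))]
      exact hp
  | lam A M _ ihM =>
      intro Γ₂ Γ θ ρ ρ₂ T r₂ r h hr hM p hp hg
      obtain ⟨B, s, hM', hpi, e⟩ := fgen_lam hM A M rfl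
      obtain ⟨a, b, c, hA, hB, ru, -⟩ := fgen_pi hpi _ _ rfl
      have cpi : X.Ty (cl ρ₂ (pi A B)) (sort s) := h.e₂.cl hpi
      cases p with
      | nil => exact trivial
      | cons x p =>
          have hp' : Valid (nf (cl ρ₂ (pi A B))) (x :: p) := by
            rw [nf_congr (X.wn _ _ cpi) (BetaEq.symm (BetaEq.sub e _))]
            exact hp
          rw [cl_pi] at cpi hp'
          obtain ⟨h1, h2, h3, h4⟩ := valid_pi_inv cpi hp'
          refine ihM (h.cons hA h1) (hr.cons A x) hM' p ?_ hg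
          rw [cl_econs]
          exact h4
  | pi A B ihA ihB =>
      intro Γ₂ Γ θ ρ ρ₂ T r₂ r h hr hM p hp hg
      obtain ⟨a, b, c, hA, hB, ru, e⟩ := fgen_pi hM A B rfl
      have hK : nf (cl ρ₂ T) = sort c := nf_unique (BetaEq.sub e _) (normal_sort c)
      rw [hK] at hp
      have hc : X.idx c = X.i := by
        cases p with
        | nil =>
            obtain ⟨s, h1, h2⟩ := hp
            cases h1
            exact h2
        | cons x p =>
            obtain ⟨A', B', h1, _⟩ := hp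
            cases h1
      obtain ⟨ra, rb⟩ := X.rl a b c ru
      have cA : X.Ty (cl ρ₂ A) (sort a) := h.e₂.cl hA
      obtain ⟨hg1, hg2⟩ := hg
      refine ⟨fun hh => ?_, fun x hx hn hj hh => ?_⟩
      · have hh' : ¬ HighN X (cl ρ₂ A) := by
          unfold HighN at hh ⊢
          rwa [h.nf (X.wn _ _ cA)] at hh
        refine ihA h hr hA [] ⟨a, nf_sort a, ?_⟩ (hg1 hh')
        have : ¬ X.i < X.idx a := fun ha => hh' ⟨a, ty_nf cA, ha⟩
        omega
      · rw [h.nf (X.wn _ _ cA)] at hx hj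
        have hx' : X.Ty x.1 (cl ρ₂ A) := .conv hx cA (BetaEq.symm (nf_eq (X.wn _ _ cA)))
        have h' := h.cons hA hx'
        have cB : X.Ty (cl (econs x ρ₂) B) (sort b) := h'.e₂.cl hB
        have hh' : ¬ HighN X (cl (econs x ρ₂) B) := by
          unfold HighN at hh ⊢
          rwa [h'.nf (X.wn _ _ cB)] at hh
        refine ihB h' (hr.cons A x) hB [] ⟨b, nf_sort b, ?_⟩ (hg2 x hx hn hj hh')
        have : ¬ X.i < X.idx b := fun hb => hh' ⟨b, ty_nf cB, hb⟩
        omega

/-- the rigidity of the head is stable under reduction -/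
theorem rig_beta {r : ℕ → Prop} {M M' : Term S} (h : Beta M M') (hM : Rig r M) : Rig r M' := by
  induction h with
  | redex A M N => exact absurd hM id
  | appL N _ ih => exact ih hM
  | appR M _ _ => exact hM
  | lamA M _ _ => exact absurd hM id
  | lamM A _ _ => exact absurd hM id
  | piA B _ _ => exact absurd hM id
  | piB A _ _ => exact absurd hM id

/-- **beta invariance** on good terms -/
theorem ev_beta (hT : Thin X) {M M' : Term S} (hb : Beta M M') : ∀ {Γ : ℕ → Term S} {ρ : Env X}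
    {T : Term S} {r : ℕ → Prop}, WfF X.P Γ → EnvT Γ ρ → BdE ρ → EnvR r ρ → TyF X.P Γ M T →
    ∀ p, Valid (nf (cl ρ T)) p → Gd M r ρ p → ev M ρ p = ev M' ρ p ∧ Gd M' r ρ p := by
  induction hb with
  | redex A M N =>
      intro Γ ρ T r w he hbd hr hM p hp hg
      rw [subst_eq]
      rcases hg with hg | ⟨hg1, hg2, hg3⟩
      · exact absurd hg id
      obtain ⟨A₁, B₁, hL, hN, e⟩ := fgen_app hM _ _ rfl
      obtain ⟨B, s, hM', hpi, e'⟩ := fgen_lam hL _ _ rfl
      obtain ⟨e1, e2⟩ := pi_inj e'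
      obtain ⟨a, b, c, hA, hB, ru, -⟩ := fgen_pi hpi _ _ rfl
      have hN' : TyF X.P Γ N A := .conv hN hA e1
      have cL : X.Ty (cl ρ (lam A M)) (cl ρ (pi A B)) := he.cl (.abs hM' hpi)
      have cN : X.Ty (cl ρ N) (cl ρ A) := he.cl hN'
      have cA : X.Ty (cl ρ A) (sort a) := he.cl hA
      have cB : X.Ty (cl ρ (inst N B)) (sort b) := he.cl (tyf_inst w hB hN')
      have d : domT X (cl ρ (lam A M)) = nf (cl ρ A) := domT_eq cL
      rw [d] at hg1 hg2 hg3
      rw [ev_app, ev_lam_cons, d]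
      set x : Arg X := (nf (cl ρ N), pack (nf (cl ρ A)) (ev N ρ)) with hx
      have hx1 : X.Ty x.1 (cl ρ A) := ty_nf' cN
      have eC : cl (econs x ρ) (fcons A Γ 0) = cl ρ A := cl_wk x ρ A
      have hS : SubE (fcons A Γ) Γ (scons N var) ρ (econs x ρ) := by
        refine ⟨w, w.cons hA, (SubF.var w).scons (by rwa [sub_id]), he, he.cons hx1, hbd, ?_⟩
        intro k
        cases k with
        | zero =>
            refine Or.inr ⟨nf_red (X.wn _ _ cN), ?_, ?_, ?_⟩
            · rw [eC]; exact nf_normal (X.wn _ _ cA)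
            · rw [eC]; exact hg1
            · rw [eC]; rfl
        | succ k => exact Or.inl ⟨k, rfl, rfl⟩
      have hR : SubR (rcons r) r (fcons A Γ) (scons N var) ρ (econs x ρ) := by
        intro k
        cases k with
        | zero =>
            refine Or.inr ⟨id, fun q hq => ?_⟩
            rw [eC] at hq
            exact hg3 q hq
        | succ k => exact Or.inl ⟨k, rfl, rfl, fun h => h⟩
      have hv : Valid (nf (cl (econs x ρ) B)) p := by
        have h1 : nf (cl (econs x ρ) B) = nf (cl ρ T) := by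
          have h2 : BetaEq (cl ρ (inst N B)) (cl ρ T) :=
            BetaEq.sub (BetaEq.trans (BetaEq.sub (BetaEq.symm e2) _) (BetaEq.symm e)) _
          rw [← nf_congr (X.wn _ _ cB) h2]
          exact (hS.nf (X.wn _ _ (hS.e₂.cl hB))).symm
        rw [h1]
        exact hp
      exact ⟨(ev_sub hT M hS hM' p hv).symm, gd_sub hT M hS hR hM' p hv hg2⟩
  | @appL M M' N hb ih =>
      intro Γ ρ T r w he hbd hr hM p hp hg
      rcases hg with hg | ⟨hg1, hg2, hg3⟩
      · have hg' : Rig r M' := rig_beta hb hg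
        rw [ev_app, ev_app, ev_rig hr hg, ev_rig hr hg']
        exact ⟨rfl, Or.inl hg'⟩
      obtain ⟨A, B, hM', hN, e⟩ := fgen_app hM M N rfl
      obtain ⟨s, hpi⟩ := fpi_typed w hM'
      obtain ⟨a, b, c, hA, hB, ru, -⟩ := fgen_pi hpi _ _ rfl
      have cN : X.Ty (cl ρ N) (cl ρ A) := he.cl hN
      have cpi : X.Ty (cl ρ (pi A B)) (sort s) := he.cl hpi
      have cB : X.Ty (cl ρ (inst N B)) (sort b) := he.cl (tyf_inst w hB hN)
      have d1 : domT X (cl ρ M) = nf (cl ρ A) := domT_eq (he.cl hM')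
      have d2 : domT X (cl ρ M') = nf (cl ρ A) := domT_eq (he.cl (fsr hM' w _ hb))
      have hv : Valid (nf (cl ρ (pi A B))) ((nf (cl ρ N), pack (nf (cl ρ A)) (ev N ρ)) :: p) := by
        rw [cl_pi] at cpi ⊢
        refine valid_cons_of cpi cN (pack_mem _ _) ?_
        rw [← cl_inst, nf_congr (X.wn _ _ cB) (BetaEq.symm (BetaEq.sub e _))]
        exact hp
      rw [d1] at hg1 hg2 hg3
      obtain ⟨h1, h2⟩ := ih w he hbd hr hM' _ hv hg2
      refine ⟨?_, Or.inr ?_⟩
      · rw [ev_app, ev_app, d1, d2]; exact h1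
      · rw [d2]; exact ⟨hg1, h2, hg3⟩
  | @appR M N N' hb ih =>
      intro Γ ρ T r w he hbd hr hM p hp hg
      rcases hg with hg | ⟨hg1, hg2, hg3⟩
      · rw [ev_app, ev_app, ev_rig hr hg, ev_rig hr hg]
        exact ⟨rfl, Or.inl hg⟩
      obtain ⟨A, B, hM', hN, e⟩ := fgen_app hM M N rfl
      obtain ⟨s, hpi⟩ := fpi_typed w hM'
      obtain ⟨a, b, c, hA, hB, ru, -⟩ := fgen_pi hpi _ _ rfl
      have cN : X.Ty (cl ρ N) (cl ρ A) := he.cl hN
      have d1 : domT X (cl ρ M) = nf (cl ρ A) := domT_eq (he.cl hM')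
      have e1 : nf (cl ρ N') = nf (cl ρ N) :=
        (nf_congr (X.wn _ _ cN) (Red.eq (.single (Beta.sub hb _)))).symm
      have e2 : pack (domT X (cl ρ M)) (ev N' ρ) = pack (domT X (cl ρ M)) (ev N ρ) := by
        refine pack_congr fun q hq => ?_
        refine ((ih w he hbd hr hN q ?_ (hg3 q hq)).1).symm
        rw [← d1]; exact hq
      refine ⟨?_, Or.inr ⟨hg1, ?_, fun q hq => ?_⟩⟩
      · rw [ev_app, ev_app, e1, e2]
      · rw [e1, e2]; exact hg2
      · exact (ih w he hbd hr hN q (by rw [← d1]; exact hq) (hg3 q hq)).2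
  | @lamA A A' M hb _ =>
      intro Γ ρ T r w he hbd hr hM p hp hg
      cases p with
      | nil => exact ⟨by rw [ev_lam_nil, ev_lam_nil], trivial⟩
      | cons x p => exact ⟨by rw [ev_lam_cons, ev_lam_cons], hg⟩
  | @lamM A M M' hb ih =>
      intro Γ ρ T r w he hbd hr hM p hp hg
      obtain ⟨B, s, hM', hpi, e⟩ := fgen_lam hM A M rfl
      obtain ⟨a, b, c, hA, hB, ru, -⟩ := fgen_pi hpi _ _ rfl
      have cpi : X.Ty (cl ρ (pi A B)) (sort s) := he.cl hpi
      cases p with
      | nil => exact ⟨by rw [ev_lam_nil, ev_lam_nil], trivial⟩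
      | cons x p =>
          have hp' : Valid (nf (cl ρ (pi A B))) (x :: p) := by
            rw [nf_congr (X.wn _ _ cpi) (BetaEq.symm (BetaEq.sub e _))]
            exact hp
          rw [cl_pi] at cpi hp'
          obtain ⟨h1, h2, h3, h4⟩ := valid_pi_inv cpi hp'
          rw [ev_lam_cons, ev_lam_cons]
          refine ih (w.cons hA) (he.cons h1) (hbd.cons x) (hr.cons x) hM' p ?_ hg
          rw [cl_econs]
          exact h4
  | @piA A A' B hb ih =>
      intro Γ ρ T r w he hbd hr hM p hp hg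
      obtain ⟨a, b, c, hA, hB, ru, e⟩ := fgen_pi hM A B rfl
      have hK : nf (cl ρ T) = sort c := nf_unique (BetaEq.sub e _) (normal_sort c)
      rw [hK] at hp
      have hc : X.idx c = X.i := by
        cases p with
        | nil =>
            obtain ⟨s, h1, h2⟩ := hp
            cases h1
            exact h2
        | cons x p =>
            obtain ⟨A', B', h1, _⟩ := hp
            cases h1
      obtain ⟨ra, rb⟩ := X.rl a b c ru
      have cA : X.Ty (cl ρ A) (sort a) := he.cl hA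
      have en : nf (cl ρ A') = nf (cl ρ A) :=
        (nf_congr (X.wn _ _ cA) (Red.eq (.single (Beta.sub hb _)))).symm
      obtain ⟨hg1, hg2⟩ := hg
      have key : ¬ HighN X (cl ρ A) → ev A ρ [] = ev A' ρ [] ∧ Gd A' r ρ [] := by
        intro hh
        refine ih w he hbd hr hA [] ⟨a, nf_sort a, ?_⟩ (hg1 hh)
        have : ¬ X.i < X.idx a := fun ha => hh ⟨a, ty_nf cA, ha⟩
        omega
      have eA : RR A ρ = RR A' ρ := by
        unfold RR RRv
        rw [en]
        by_cases hh : HighN X (cl ρ A)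
        · exact X.cst_high _ _ _ hh
        · rw [(key hh).1]
      refine ⟨?_, ?_, ?_⟩
      · rw [ev_pi, ev_pi, eA, en]
      · intro hh
        refine (key ?_).2
        unfold HighN at hh ⊢
        rwa [en] at hh
      · rw [en]; exact hg2
  | @piB A B B' hb ih =>
      intro Γ ρ T r w he hbd hr hM p hp hg
      obtain ⟨a, b, c, hA, hB, ru, e⟩ := fgen_pi hM A B rfl
      have hK : nf (cl ρ T) = sort c := nf_unique (BetaEq.sub e _) (normal_sort c)
      rw [hK] at hp
      have hc : X.idx c = X.i := by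
        cases p with
        | nil =>
            obtain ⟨s, h1, h2⟩ := hp
            cases h1
            exact h2
        | cons x p =>
            obtain ⟨A', B', h1, _⟩ := hp
            cases h1
      obtain ⟨ra, rb⟩ := X.rl a b c ru
      have cA : X.Ty (cl ρ A) (sort a) := he.cl hA
      obtain ⟨hg1, hg2⟩ := hg
      have en : ∀ x : Arg X, X.Ty x.1 (cl ρ A) →
          nf (cl (econs x ρ) B') = nf (cl (econs x ρ) B) := by
        intro x hx
        exact (nf_congr (X.wn _ _ ((he.cons hx).cl hB))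
          (Red.eq (.single (Beta.sub hb _)))).symm
      have key : ∀ x : Arg X, X.Ty x.1 (nf (cl ρ A)) → Normal x.1 →
          x.2 ∈ (qr (nf (cl ρ A)) : Set (Inf X)) → ¬ HighN X (cl (econs x ρ) B) →
          ev B (econs x ρ) [] = ev B' (econs x ρ) [] ∧ Gd B' (rcons r) (econs x ρ) [] := by
        intro x hx hn hj hh
        have hx' : X.Ty x.1 (cl ρ A) := .conv hx cA (BetaEq.symm (nf_eq (X.wn _ _ cA)))
        have cB : X.Ty (cl (econs x ρ) B) (sort b) := (he.cons hx').cl hB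
        refine ih (w.cons hA) (he.cons hx') (hbd.cons x) (hr.cons x) hB [] ⟨b, nf_sort b, ?_⟩
          (hg2 x hx hn hj hh)
        have : ¬ X.i < X.idx b := fun hb => hh ⟨b, ty_nf cB, hb⟩
        omega
      have eB : ∀ x : Arg X, X.Ty x.1 (nf (cl ρ A)) → Normal x.1 →
          x.2 ∈ (qr (nf (cl ρ A)) : Set (Inf X)) → RR B (econs x ρ) = RR B' (econs x ρ) := by
        intro x hx hn hj
        have hx' : X.Ty x.1 (cl ρ A) := .conv hx cA (BetaEq.symm (nf_eq (X.wn _ _ cA)))
        unfold RR RRv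
        rw [en x hx']
        by_cases hh : HighN X (cl (econs x ρ) B)
        · exact X.cst_high _ _ _ hh
        · rw [(key x hx hn hj hh).1]
      refine ⟨?_, hg1, ?_⟩
      · rw [ev_pi, ev_pi]
        ext v
        simp only [Set.mem_ofPred_eq]
        have ty : ∀ w ∈ RR A ρ, X.Ty (nf (MT.er w)) (nf (cl ρ A)) ∧ Normal (nf (MT.er w)) := by
          intro w hw
          have h1 : X.Ty (MT.er w) (nf (cl ρ A)) := X.cst_typed _ _ _ hw
          exact ⟨ty_nf' h1, nf_normal (X.wn _ _ h1)⟩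
        constructor
        · intro hv w hw j hj
          rw [← eB (nf (MT.er w), j) (ty w hw).1 (ty w hw).2 hj]
          exact hv w hw j hj
        · intro hv w hw j hj
          rw [eB (nf (MT.er w), j) (ty w hw).1 (ty w hw).2 hj]
          exact hv w hw j hj
      · intro x hx hn hj hh
        have hx' : X.Ty x.1 (cl ρ A) := .conv hx cA (BetaEq.symm (nf_eq (X.wn _ _ cA)))
        refine (key x hx hn hj ?_).2
        unfold HighN at hh ⊢
        rwa [en x hx'] at hh

theorem ev_red (hT : Thin X) {M M' : Term S} (hb : Red M M') {Γ : ℕ → Term S} {ρ : Env X}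
    {T : Term S} {r : ℕ → Prop} (w : WfF X.P Γ) (he : EnvT Γ ρ) (hbd : BdE ρ) (hr : EnvR r ρ)
    (hM : TyF X.P Γ M T) (p : List (Arg X)) (hp : Valid (nf (cl ρ T)) p) (hg : Gd M r ρ p) :
    ev M ρ p = ev M' ρ p ∧ Gd M' r ρ p := by
  induction hb with
  | refl => exact ⟨rfl, hg⟩
  | @tail b c hab hbc ih =>
      obtain ⟨h1, h2⟩ := ih
      obtain ⟨h3, h4⟩ := ev_beta hT hbc w he hbd hr (FSR w hM hab) p hp h2
      exact ⟨h1.trans h3, h4⟩

end Crest.Agent.R298.Sem198
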