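import Crest.Agent.R298.Rk5_198

/-!
R298 (S0452), helper198: normal terms are good; instantiation of the realizer sets (R4).
-/

set_option autoImplicit false

namespace Crest.Agent.R298.Sem198

open Crest.LogicCS.PTS Crest.LogicCS.PTS.Term Relation
open Crest.Agent.R298.Sub452 Crest.Agent.R298.Par452 Crest.Agent.R298.Ty452
open Crest.Agent.R298.TyF452 Crest.Agent.R298.Mem360

variable {S : Type} {X : Setup S}

/-- every variable is rigid or has a live type -/
def Lv (r : ℕ → Prop) (Γ : ℕ → Term S) (ρ : Env X) : Prop :=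
  ∀ k, r k ∨ ¬ Dead X (nf (cl ρ (Γ k)))

theorem Lv.cons {r : ℕ → Prop} {Γ : ℕ → Term S} {ρ : Env X} (h : Lv r Γ ρ) (x : Arg X)
    {A : Term S} (hA : ¬ Dead X (nf (cl ρ A))) : Lv (rcons r) (fcons A Γ) (econs x ρ) := by
  intro k
  cases k with
  | zero =>
      refine Or.inr ?_
      have eC : cl (econs x ρ) (fcons A Γ 0) = cl ρ A := cl_wk x ρ A
      rw [eC]; exact hA
  | succ k =>
      have eC : cl (econs x ρ) (fcons A Γ (k + 1)) = cl ρ (Γ k) := cl_wk x ρ (Γ k)
      rcases h k with h | h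
      · exact Or.inl h
      · refine Or.inr ?_
        rw [eC]; exact h

/-- heads that are not rigid have live types -/
theorem neu_live {r : ℕ → Prop} {M : Term S} (hn : Uniq452.Neu M) : ∀ {Γ : ℕ → Term S}
    {ρ : Env X} {T : Term S}, WfF X.P Γ → EnvT Γ ρ → Lv r Γ ρ → ¬ Rig r M → TyF X.P Γ M T →
    ∀ p : List (Arg X), Valid (X := X) (nf (cl ρ T)) p → ¬ Dead X (nf (cl ρ T)) := by
  induction hn with
  | var k =>
      intro Γ ρ T w he hl hr hM p _
      obtain ⟨⟨s, hs⟩, e⟩ := fgen_var hM k rfl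
      have e' : nf (cl ρ (Γ k)) = nf (cl ρ T) :=
        nf_congr (X.wn _ _ (he.cl hs)) (BetaEq.symm (BetaEq.sub e _))
      rw [← e']
      rcases hl k with h | h
      · exact absurd h hr
      · exact h
  | @app M N hn ih =>
      intro Γ ρ T w he hl hr hM p hp
      obtain ⟨A, B, hM', hN, e⟩ := fgen_app hM M N rfl
      obtain ⟨s, hpi⟩ := fpi_typed w hM'
      obtain ⟨a, b, c, hA, hB, ru, -⟩ := fgen_pi hpi _ _ rfl
      have cN : X.Ty (cl ρ N) (cl ρ A) := he.cl hN
      have cpi : X.Ty (cl ρ (pi A B)) (sort s) := he.cl hpi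
      have cB : X.Ty (cl ρ (inst N B)) (sort b) := he.cl (tyf_inst w hB hN)
      have eT : nf (cl ρ (inst N B)) = nf (cl ρ T) :=
        nf_congr (X.wn _ _ cB) (BetaEq.symm (BetaEq.sub e _))
      obtain ⟨j, hj⟩ := rng_nonempty (X := X) (nf (cl ρ A))
      have hv : Valid (nf (cl ρ (pi A B))) ((nf (cl ρ N), j) :: p) := by
        rw [cl_pi] at cpi ⊢
        refine valid_cons_of cpi cN hj ?_
        rw [← cl_inst, eT]
        exact hp
      have h1 := ih w he hl hr hM' _ hv
      rw [← eT, cl_inst]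
      rw [cl_pi] at h1 hv cpi
      have wp := X.wn _ _ cpi
      obtain ⟨wA, wB⟩ := wn_pi_inv wp
      rw [nf_pi wp] at h1 hv
      obtain ⟨h2, h3, h4, h5⟩ := valid_pi.1 hv
      have h6 := not_dead_cod h1 h2 h3 h5.rel
      have h7 : nf (inst (nf (cl ρ N)) (nf (sub (ups fun k => (ρ k).1) B))) =
          nf (inst (cl ρ N) (sub (ups fun k => (ρ k).1) B)) := by
        rw [cl_inst] at cB
        refine (nf_congr (X.wn _ _ cB) ?_).symm
        exact BetaEq.inst (nf_eq (X.wn _ _ cN)) (nf_eq wB)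
      rw [← h7]
      exact h6

theorem neu_of_normal {M N : Term S} (h : Normal (app M N)) (w : ∃ Γ P A B, TyF (S := S) P Γ M (pi A B)) :
    Uniq452.Neu M := by
  induction M generalizing N with
  | var k => exact .var k
  | app M M' ih _ =>
      have h' : Normal (app M M') := fun K hK => h _ (.appL _ hK)
      obtain ⟨Γ, P, A, B, hM⟩ := w
      obtain ⟨A', B', h1, _⟩ := fgen_app hM _ _ rfl
      exact .app _ (ih h' ⟨Γ, P, A', B', h1⟩)
  | lam A M => exact absurd (Beta.redex A M N) (h _)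
  | sort s =>
      obtain ⟨Γ, P, A, B, hM⟩ := w
      obtain ⟨s', _, e⟩ := fgen_sort hM s rfl
      exact absurd (BetaEq.symm e) not_sort_pi
  | pi A' B' =>
      obtain ⟨Γ, P, A, B, hM⟩ := w
      obtain ⟨_, _, s, _, _, _, e⟩ := fgen_pi hM _ _ rfl
      exact absurd (BetaEq.symm e) not_sort_pi

/-- **normal terms are good** -/
theorem gd_normal (M : Term S) : ∀ {Γ : ℕ → Term S} {ρ : Env X} {T : Term S} {r : ℕ → Prop},
    Normal M → WfF X.P Γ → EnvT Γ ρ → Lv r Γ ρ → TyF X.P Γ M T → ¬ Dead X (nf (cl ρ T)) →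
    ∀ p : List (Arg X), Valid (X := X) (nf (cl ρ T)) p → Gd M r ρ p := by
  induction M with
  | var k => intros; exact trivial
  | sort s => intros; exact trivial
  | app M N ihM ihN =>
      intro Γ ρ T r hn w he hl hM hd p hp
      by_cases hr : Rig r M
      · exact Or.inl hr
      right
      obtain ⟨A, B, hM', hN, e⟩ := fgen_app hM M N rfl
      obtain ⟨s, hpi⟩ := fpi_typed w hM'
      obtain ⟨a, b, c, hA, hB, ru, -⟩ := fgen_pi hpi _ _ rfl
      have cN : X.Ty (cl ρ N) (cl ρ A) := he.cl hN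
      have cpi : X.Ty (cl ρ (pi A B)) (sort s) := he.cl hpi
      have cB : X.Ty (cl ρ (inst N B)) (sort b) := he.cl (tyf_inst w hB hN)
      have d : domT X (cl ρ M) = nf (cl ρ A) := domT_eq (he.cl hM')
      have hnM : Normal M := fun K hK => hn _ (.appL _ hK)
      have hnN : Normal N := fun K hK => hn _ (.appR _ hK)
      have hneu : Uniq452.Neu M := neu_of_normal hn ⟨Γ, X.P, A, B, hM'⟩
      have hv : Valid (nf (cl ρ (pi A B))) ((nf (cl ρ N), pack (nf (cl ρ A)) (ev N ρ)) :: p) := by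
        rw [cl_pi] at cpi ⊢
        refine valid_cons_of cpi cN (pack_mem _ _) ?_
        rw [← cl_inst, nf_congr (X.wn _ _ cB) (BetaEq.symm (BetaEq.sub e _))]
        exact hp
      have hdM := neu_live hneu w he hl hr hM' _ hv
      have hdA : ¬ Dead X (nf (cl ρ A)) := by
        rw [cl_pi] at hdM hv cpi
        rw [nf_pi (X.wn _ _ cpi)] at hdM hv
        exact not_dead_dom hdM hv.rel
      rw [d]
      exact ⟨hdA, ihM hnM w he hl hM' hdM _ hv, fun q hq => ihN hnN w he hl hN hdA q hq⟩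
  | lam A M _ ihM =>
      intro Γ ρ T r hn w he hl hM hd p hp
      obtain ⟨B, s, hM', hpi, e⟩ := fgen_lam hM A M rfl
      obtain ⟨a, b, c, hA, hB, ru, -⟩ := fgen_pi hpi _ _ rfl
      have cpi : X.Ty (cl ρ (pi A B)) (sort s) := he.cl hpi
      cases p with
      | nil => exact trivial
      | cons x p =>
          have eT : nf (cl ρ (pi A B)) = nf (cl ρ T) :=
            nf_congr (X.wn _ _ cpi) (BetaEq.symm (BetaEq.sub e _))
          rw [← eT] at hp hd
          rw [cl_pi] at cpi hp hd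
          obtain ⟨h1, h2, h3, h4⟩ := valid_pi_inv cpi hp
          have wp := X.wn _ _ cpi
          obtain ⟨wA, wB⟩ := wn_pi_inv wp
          rw [nf_pi wp] at hp hd
          have hdA := not_dead_dom hd hp.rel
          obtain ⟨h5, h6, h7, h8⟩ := valid_pi.1 hp
          have hdB := not_dead_cod hd h5 h6 h8.rel
          have h9 : nf (inst x.1 (nf (sub (ups fun k => (ρ k).1) B))) =
              nf (cl (econs x ρ) B) := by
            rw [cl_econs]
            refine (nf_congr ?_ (BetaEq.inst (BetaEq.refl _) (nf_eq wB))).symm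
            rw [← cl_econs]
            exact X.wn _ _ ((he.cons h1).cl hB)
          rw [h9] at hdB h8
          exact ihM (fun K hK => hn _ (.lamM _ hK)) (w.cons hA) (he.cons h1) (hl.cons x hdA)
            hM' hdB p h8
  | pi A B ihA ihB =>
      intro Γ ρ T r hn w he hl hM hd p hp
      obtain ⟨a, b, c, hA, hB, ru, e⟩ := fgen_pi hM A B rfl
      have hK : nf (cl ρ T) = sort c := nf_unique (BetaEq.sub e _) (normal_sort c)
      rw [hK] at hp
      have hc : X.idx c = X.i := by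
        cases p with
        | nil =>
            obtain ⟨s, h1, h2⟩ := hp
            cases h1
            exact h2
        | cons x p =>
            obtain ⟨A', B', h1, _⟩ := hp
            cases h1
      obtain ⟨ra, rb⟩ := X.rl a b c ru
      have cA : X.Ty (cl ρ A) (sort a) := he.cl hA
      have hsort : ∀ t : S, ¬ Dead X (sort t : Term S) := by
        rintro t ⟨h1, _⟩
        refine h1 ⟨_, ?_⟩
        rintro C ⟨E, h1, _⟩
        cases h1
      refine ⟨fun hh => ?_, fun x hx hnx hj hh => ?_⟩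
      · have : ¬ X.i < X.idx a := fun ha => hh ⟨a, ty_nf cA, ha⟩
        refine ihA (fun K hK => hn _ (.piA _ hK)) w he hl hA ?_ [] ⟨a, nf_sort a, by omega⟩
        rw [cl_sort, nf_sort]
        exact hsort a
      · have hx' : X.Ty x.1 (cl ρ A) := .conv hx cA (BetaEq.symm (nf_eq (X.wn _ _ cA)))
        have cB : X.Ty (cl (econs x ρ) B) (sort b) := (he.cons hx').cl hB
        have hib : ¬ X.i < X.idx b := fun hb => hh ⟨b, ty_nf cB, hb⟩
        have hdb : DBr X (nf (cl ρ A)) := ⟨a, b, c, ty_nf cA, ru, by omega, hc⟩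
        refine ihB (fun K hK => hn _ (.piB _ hK)) (w.cons hA) (he.cons hx')
          (hl.cons x (not_dead_of_qr (Or.inl hdb))) hB ?_ [] ⟨b, nf_sort b, by omega⟩
        rw [cl_sort, nf_sort]
        exact hsort b

/-- **instantiation** (R4): `N : A`, `B : b` with `b` of the stage, `A` live -/
theorem rr_inst (hT : Thin X) {Γ : ℕ → Term S} {ρ : Env X} {r : ℕ → Prop} {A B N : Term S}
    {a b : S} (wn : ∀ M T, TyF X.P Γ M T → WN M) (wn1 : ∀ M T, TyF X.P (fcons A Γ) M T → WN M)
    (w : WfF X.P Γ) (he : EnvT Γ ρ) (hbd : BdE ρ) (hr : EnvR r ρ)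
    (hl : Lv r Γ ρ) (hA : TyF X.P Γ A (sort a)) (hB : TyF X.P (fcons A Γ) B (sort b))
    (hb : X.idx b = X.i) (hN : TyF X.P Γ N A) (hd : ¬ Dead X (nf (cl ρ A))) :
    RR (nf B) (econs (nf (cl ρ N), pack (nf (cl ρ A)) (ev (nf N) ρ)) ρ) =
      RR (nf (inst N B)) ρ := by
  have wN := wn _ _ hN
  have wB := wn1 _ _ hB
  have hiN : TyF X.P Γ (inst N B) (sort b) := tyf_inst w hB hN
  have hnN : TyF X.P Γ (nf N) A := FSR w hN (nf_red wN)
  have hnB : TyF X.P (fcons A Γ) (nf B) (sort b) := FSR (w.cons hA) hB (nf_red wB)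
  have cN : X.Ty (cl ρ N) (cl ρ A) := he.cl hN
  have cA : X.Ty (cl ρ A) (sort a) := he.cl hA
  set x : Arg X := (nf (cl ρ N), pack (nf (cl ρ A)) (ev (nf N) ρ)) with hx
  have hx1 : X.Ty x.1 (cl ρ A) := ty_nf' cN
  have eC : cl (econs x ρ) (fcons A Γ 0) = cl ρ A := cl_wk x ρ A
  have hS : SubE (fcons A Γ) Γ (scons (nf N) var) ρ (econs x ρ) := by
    refine ⟨w, w.cons hA, (SubF.var w).scons (by rwa [sub_id]), he, he.cons hx1, hbd, ?_⟩
    intro k
    cases k with
    | zero =>
        refine Or.inr ⟨?_, ?_, ?_, ?_⟩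
        · have h1 : BetaEq (cl ρ (nf N)) (nf (cl ρ N)) :=
            BetaEq.trans (BetaEq.symm (BetaEq.sub (nf_eq wN) _)) (nf_eq (X.wn _ _ cN))
          exact red_of_eq_normal h1 (nf_normal (X.wn _ _ cN))
        · rw [eC]; exact nf_normal (X.wn _ _ cA)
        · rw [eC]; exact hd
        · rw [eC]; rfl
    | succ k => exact Or.inl ⟨k, rfl, rfl⟩
  have hR : SubR (rcons r) r (fcons A Γ) (scons (nf N) var) ρ (econs x ρ) := by
    intro k
    cases k with
    | zero =>
        refine Or.inr ⟨id, fun q hq => ?_⟩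
        rw [eC] at hq
        exact gd_normal (nf N) (nf_normal wN) w he hl hnN hd q hq
    | succ k => exact Or.inl ⟨k, rfl, rfl, fun h => h⟩
  have hv0 : ∀ σ : Env X, Valid (X := X) (nf (cl σ (sort b))) [] := fun σ => ⟨b, nf_sort b, hb⟩
  have hds : ∀ σ : Env X, ¬ Dead X (nf (cl σ (sort b))) := by
    rintro σ ⟨h1, _⟩
    refine h1 ⟨_, ?_⟩
    rw [cl_sort, nf_sort]
    rintro C ⟨E, h1, _⟩
    cases h1
  have hg : Gd (nf B) (rcons r) (econs x ρ) [] :=
    gd_normal (nf B) (nf_normal wB) (w.cons hA) hS.e₂ (hl.cons x hd) hnB (hds _) [] (hv0 _)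
  have e1 : ev (sub (scons (nf N) var) (nf B)) ρ [] = ev (nf B) (econs x ρ) [] :=
    ev_sub hT (nf B) hS hnB [] (hv0 _)
  have g1 : Gd (sub (scons (nf N) var) (nf B)) r ρ [] :=
    gd_sub hT (nf B) hS hR hnB [] (hv0 _) hg
  have t1 : TyF X.P Γ (sub (scons (nf N) var) (nf B)) (sort b) := tyf_inst w hnB hnN
  have be : BetaEq (inst N B) (sub (scons (nf N) var) (nf B)) :=
    BetaEq.inst (nf_eq wN) (nf_eq wB)
  have wI := wn _ _ hiN
  have r1 : Red (sub (scons (nf N) var) (nf B)) (nf (inst N B)) :=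
    red_of_eq_normal (BetaEq.trans (BetaEq.symm be) (nf_eq wI)) (nf_normal wI)
  obtain ⟨e2, _⟩ := ev_red hT r1 w he hbd hr t1 [] (hv0 ρ) g1
  have cB : X.Ty (cl (econs x ρ) (nf B)) (sort b) := hS.e₂.cl hnB
  unfold RR RRv
  rw [← e1, e2]
  congr 1
  rw [← hS.nf (X.wn _ _ cB)]
  refine nf_congr (X.wn _ _ (he.cl t1)) (BetaEq.sub r1.eq _)

end Crest.Agent.R298.Sem198
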