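import Crest.Agent.R298.Cand_704
import Crest.Agent.R298.Uniq_452
import Crest.Agent.R298.WorldF_657

/-!
R298 (S0452), helper646: STAGE MODEL IN ONE WORLD (T6), part 1: normal forms, classes, the record
`TyEval` (type evaluator), environments `Env`, realizer sets `RR`, `R`, and (R0)-(R3), (R5)-(R8).

Everything is over one world `D`. `θ x = er (sig x)` are the closed terms of the environment,
`inf x` the infos.
-/

set_option autoImplicit false

namespace Crest.Agent.R298.SM646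

open Crest.LogicCS.PTS Relation
open Crest.Agent.R298.Sub452 Crest.Agent.R298.Par452 Crest.Agent.R298.Ty452
open Crest.Agent.R298.Mem360 Crest.Agent.R298.TyF452 Crest.Agent.R298.TyMF452
open Crest.Agent.R298.Uniq452 Crest.Agent.R298.Main865 Crest.Agent.R298.Cand704
open Crest.Agent.R298.StrF657
open Crest.Agent.R298.Mem360.MT (er emb er_emb IsL isL_of_dist dist mren mwk mups msub mscons
  minst er_mren er_mups er_msub er_minst)

universe u v

variable {S : Type u}

/-! ### normal forms -/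

open Classical in
/-- the normal form of a weakly normalising term (the term itself otherwise) -/
noncomputable def nf (T : Term S) : Term S := if h : WN T then Classical.choose h else T

theorem nf_spec {T : Term S} (h : WN T) : Red T (nf T) ∧ Normal (nf T) := by
  classical
  have e : nf T = Classical.choose h := by rw [nf, dif_pos h]
  rw [e]
  exact Classical.choose_spec h

theorem nf_red {T : Term S} (h : WN T) : Red T (nf T) := (nf_spec h).1

theorem nf_normal {T : Term S} (h : WN T) : Normal (nf T) := (nf_spec h).2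

theorem nf_betaEq {T : Term S} (h : WN T) : BetaEq T (nf T) := (nf_red h).eq

theorem wn_of_normal {T : Term S} (h : Normal T) : WN T := ⟨T, .refl, h⟩

theorem nf_of_normal {T : Term S} (h : Normal T) : nf T = T :=
  normal_red h (nf_red (wn_of_normal h))

theorem wn_conv {T T' : Term S} (h : WN T) (e : BetaEq T T') : WN T' :=
  ⟨nf T, red_of_eq_normal (BetaEq.trans (BetaEq.symm e) (nf_betaEq h)) (nf_normal h),
    nf_normal h⟩

theorem nf_eq {T T' : Term S} (h : WN T) (e : BetaEq T T') : nf T = nf T' := by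
  have h' := wn_conv h e
  exact normal_unique (BetaEq.trans (BetaEq.symm (nf_betaEq h)) (BetaEq.trans e (nf_betaEq h')))
    (nf_normal h) (nf_normal h')

theorem nf_unique {T N : Term S} (h : Normal N) (e : BetaEq T N) : nf T = N := by
  rw [← nf_of_normal h]
  exact (nf_eq (wn_of_normal h) (BetaEq.symm e)).symm

theorem nf_ren (r : ℕ → ℕ) (T : Term S) : nf (ren r T) = ren r (nf T) := by
  classical
  by_cases h : WN T
  · exact nf_unique (normal_ren (nf_normal h) r) (BetaEq.ren (nf_betaEq h) r)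
  · have h' : ¬ WN (ren r T) := fun k => h (wn_of_ren k)
    rw [nf, dif_neg h', nf, dif_neg h]

theorem normal_sort (s : S) : Normal (Term.sort s : Term S) := by
  intro N b
  cases b

theorem nf_sort (s : S) : nf (.sort s : Term S) = .sort s := nf_of_normal (normal_sort s)

theorem normal_pi {A B : Term S} (hA : Normal A) (hB : Normal B) : Normal (.pi A B) := by
  intro N b
  cases b with
  | piA _ b => exact hA _ b
  | piB _ b => exact hB _ b

theorem normal_pi_inv {A B : Term S} (h : Normal (.pi A B)) : Normal A ∧ Normal B :=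
  ⟨fun _ b => h _ (.piA _ b), fun _ b => h _ (.piB _ b)⟩

theorem nf_pi {A B : Term S} (hA : WN A) (hB : WN B) : nf (.pi A B) = .pi (nf A) (nf B) :=
  nf_unique (normal_pi (nf_normal hA) (nf_normal hB))
    (BetaEq.pi (nf_betaEq hA) (nf_betaEq hB))

theorem wn_pi_inv {A B : Term S} (h : WN (.pi A B)) : WN A ∧ WN B := by
  obtain ⟨N, r, n⟩ := h
  obtain ⟨A', B', rfl, rA, rB⟩ := red_pi r
  obtain ⟨nA, nB⟩ := normal_pi_inv n
  exact ⟨⟨A', rA, nA⟩, ⟨B', rB, nB⟩⟩

/-! ### classes -/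

/-- the type `T` has class at least `i` in `G` -/
def Cl (P : Spec S) (idx : S → ℕ) (i : ℕ) (G : ℕ → Term S) (T : Term S) : Prop :=
  ∃ s, Sg P G T s ∧ i ≤ idx s

/-- the type `T` is high in `G`: some sort of class above `i` -/
def Hi (P : Spec S) (idx : S → ℕ) (i : ℕ) (G : ℕ → Term S) (T : Term S) : Prop :=
  ∃ s, Sg P G T s ∧ i < idx s

variable {P : Spec S} {idx : S → ℕ} {i : ℕ}

theorem Cl.conv {G : ℕ → Term S} {T T' : Term S} (h : Cl P idx i G T) (e : BetaEq T T') :
    Cl P idx i G T' := by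
  obtain ⟨s, h1, h2⟩ := h
  exact ⟨s, h1.conv (BetaEq.symm e), h2⟩

theorem Hi.conv {G : ℕ → Term S} {T T' : Term S} (h : Hi P idx i G T) (e : BetaEq T T') :
    Hi P idx i G T' := by
  obtain ⟨s, h1, h2⟩ := h
  exact ⟨s, h1.conv (BetaEq.symm e), h2⟩

theorem hi_congr {G : ℕ → Term S} {T T' : Term S} (e : BetaEq T T') :
    Hi P idx i G T ↔ Hi P idx i G T' := ⟨fun h => h.conv e, fun h => h.conv (BetaEq.symm e)⟩

theorem Cl.ren {G G' : ℕ → Term S} {T : Term S} {r : ℕ → ℕ} (h : Cl P idx i G T)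
    (hr : RenF r G G') : Cl P idx i G' (Sub452.ren r T) := by
  obtain ⟨s, h1, h2⟩ := h
  exact ⟨s, h1.ren hr, h2⟩

theorem Cl.sub {G G' : ℕ → Term S} {T : Term S} {σ : ℕ → Term S} (h : Cl P idx i G T)
    (hs : SubF P σ G G') : Cl P idx i G' (Sub452.sub σ T) := by
  obtain ⟨s, h1, h2⟩ := h
  exact ⟨s, h1.sub hs, h2⟩

/-- strengthening of the sorts of a type -/
theorem sg_wk_inv {G : ℕ → Term S} (w : WfF P G) {A T : Term S} {s a : S}
    (hA : TyF P G A (.sort a)) (hT : WN T)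
    (h : Sg P (fcons A G) (wk T) s) : Sg P G T s := by
  have n : Normal (wk (nf T)) := normal_ren (nf_normal hT) _
  have h0 : TyF P (fcons A G) (wk (nf T)) (.sort s) :=
    (Sg.normal (w.cons hA) n).1 (h.conv (BetaEq.symm (BetaEq.ren (nf_betaEq hT) _)))
  have hr : RenX Nat.succ Set.univ G (fcons A G) :=
    ⟨fun i _ j _ e => Nat.succ_injective e, fun i _ => fv_univ _, fun i _ => rfl⟩
  exact ⟨nf T, nf_betaEq hT, strF_sort (nf_normal hT) hr w (fv_univ _) h0⟩

theorem Cl.wk_inv {G : ℕ → Term S} (w : WfF P G) {A T : Term S} {a : S}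
    (hA : TyF P G A (.sort a)) (hT : WN T) (h : Cl P idx i (fcons A G) (wk T)) :
    Cl P idx i G T := by
  obtain ⟨s, h1, h2⟩ := h
  exact ⟨s, sg_wk_inv w hA hT h1, h2⟩

/-! ### type evaluators -/

/-- extension of an environment of infos -/
def isc {X : Type v} (j : X) (ν : ℕ → X) : ℕ → X
  | 0 => j
  | n + 1 => ν n

@[simp] theorem isc_zero {X : Type v} (j : X) (ν : ℕ → X) : isc j ν 0 = j := rfl
@[simp] theorem isc_succ {X : Type v} (j : X) (ν : ℕ → X) (n : ℕ) : isc j ν (n + 1) = ν n := rfl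

open Classical in
/-- realizer set of the source type `T` at closed terms `θ` and infos `ν`: all typed members of
`Wn` if the closed type is high, the value clamped to a candidate otherwise -/
noncomputable def RRof (P : Spec S) (idx : S → ℕ) (i : ℕ) (D : ℕ → Term S) {Inf : Type v}
    (ev : Term S → (ℕ → Term S) → (ℕ → Inf) → Set (MT S)) (T : Term S) (θ : ℕ → Term S)
    (ν : ℕ → Inf) : Set (MT S) :=
  if Hi P idx i D (sub θ T) then Wt P idx (i + 1) D (sub θ T)
  else cst P idx (i + 1) D (sub θ T) (ev T θ ν)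

/-- TYPE EVALUATOR at stage `i` over the world `D`: `ev T θ ν` = value of the source type `T` at
the empty argument list, for closed terms `θ` and infos `ν` of the variables; `IQ K j`: the info
`j` is admitted for variables of the closed type `K`. -/
structure TyEval (P : Spec S) (idx : S → ℕ) (i : ℕ) (D : ℕ → Term S) where
  /-- infos of variables -/
  Inf : Type v
  /-- infos over which a product with closed domain `K` ranges -/
  IQ : Term S → Inf → Prop
  ne : ∀ K, ∃ j, IQ K j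
  iq_conv : ∀ {K K' : Term S} {j : Inf}, BetaEq K K' → IQ K j → IQ K' j
  /-- info of the variables of types of low class -/
  dfl : Inf
  /-- value of a raw type at the empty argument list -/
  ev : Term S → (ℕ → Term S) → (ℕ → Inf) → Set (MT S)
  ev_ren : ∀ (T : Term S) (r : ℕ → ℕ) (θ : ℕ → Term S) (ν : ℕ → Inf),
    ev (ren r T) θ ν = ev T (fun k => θ (r k)) (fun k => ν (r k))
  ev_sort : ∀ (s : S) (θ : ℕ → Term S) (ν : ℕ → Inf), (∀ v, v ∉ ev (.sort s) θ ν) ∨
    ev (.sort s) θ ν = Wt P idx (i + 1) D (.sort s)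
  ev_pi : ∀ (A B : Term S) (θ : ℕ → Term S) (ν : ℕ → Inf) (c : S),
    TyF P D (sub θ (.pi A B)) (.sort c) → idx c = i → ¬ Hi P idx i D (sub θ (.pi A B)) →
    ev (.pi A B) θ ν = PiSet P idx (i + 1) D (sub θ (.pi A B)) (RRof P idx i D ev A θ ν)
      (fun _ j => IQ (sub θ A) j) (fun w j => RRof P idx i D ev B (scons (er w) θ) (isc j ν))

variable {D : ℕ → Term S}

namespace TyEval

variable (Z : TyEval.{u, v} P idx i D)

/-- realizer sets -/
noncomputable def RR (T : Term S) (θ : ℕ → Term S) (ν : ℕ → Z.Inf) : Set (MT S) :=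
  RRof P idx i D Z.ev T θ ν

theorem rr_high {T : Term S} {θ : ℕ → Term S} {ν : ℕ → Z.Inf}
    (h : Hi P idx i D (sub θ T)) : Z.RR T θ ν = Wt P idx (i + 1) D (sub θ T) := by
  unfold RR RRof
  rw [if_pos h]

theorem rr_low {T : Term S} {θ : ℕ → Term S} {ν : ℕ → Z.Inf}
    (h : ¬ Hi P idx i D (sub θ T)) :
    Z.RR T θ ν = cst P idx (i + 1) D (sub θ T) (Z.ev T θ ν) := by
  unfold RR RRof
  rw [if_neg h]

theorem rr_cand (T : Term S) (θ : ℕ → Term S) (ν : ℕ → Z.Inf) :
    Cand P idx (i + 1) D (sub θ T) (Z.RR T θ ν) := by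
  by_cases h : Hi P idx i D (sub θ T)
  · rw [Z.rr_high h]; exact cand_wt _ _ _ _ _
  · rw [Z.rr_low h]; exact cand_cst _ _ _ _ _ _

theorem rr_ren (T : Term S) (r : ℕ → ℕ) (θ : ℕ → Term S) (ν : ℕ → Z.Inf) :
    Z.RR (ren r T) θ ν = Z.RR T (fun k => θ (r k)) (fun k => ν (r k)) := by
  unfold RR RRof
  rw [sub_ren, Z.ev_ren]

theorem rr_pi {A B : Term S} {θ : ℕ → Term S} {ν : ℕ → Z.Inf} {c : S}
    (h : TyF P D (sub θ (.pi A B)) (.sort c)) (hc : idx c = i)
    (hn : ¬ Hi P idx i D (sub θ (.pi A B))) :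
    Z.RR (.pi A B) θ ν = PiSet P idx (i + 1) D (sub θ (.pi A B)) (Z.RR A θ ν)
      (fun _ j => Z.IQ (sub θ A) j) (fun w j => Z.RR B (scons (er w) θ) (isc j ν)) := by
  rw [Z.rr_low hn, Z.ev_pi A B θ ν c h hc hn]
  refine cst_of_cand ?_
  refine cand_pi (A := sub θ A) (B := sub (ups θ) B) ?_ ?_
  · intro w hw
    exact (Z.rr_cand A θ ν).sub w hw
  · intro w _ j _
    have := Z.rr_cand B (scons (er w) θ) (isc j ν)
    rwa [sub_scons] at this

theorem rr_sort {θ : ℕ → Term S} {ν : ℕ → Z.Inf} {s : S} {k : ℕ} (hk : TMF P D (.var k) (.sort s)) :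
    Z.RR (.sort s) θ ν = Wt P idx (i + 1) D (.sort s) := by
  by_cases h : Hi P idx i D (sub θ (.sort s))
  · exact Z.rr_high h
  · rw [Z.rr_low h]
    rcases Z.ev_sort s θ ν with h' | h'
    · show cst P idx (i + 1) D (.sort s) (Z.ev (.sort s) θ ν) = _
      unfold cst
      rw [if_neg]
      intro hc
      exact h' _ (hc.var hk)
    · rw [h']
      exact cst_of_cand (cand_wt _ _ _ _ _)

end TyEval

/-! ### environments -/

/-- environments of the source context `G` in the world `D` -/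
structure Env (Z : TyEval.{u, v} P idx i D) (G : ℕ → Term S) where
  /-- substitution -/
  sig : ℕ → MT S
  /-- infos -/
  inf : ℕ → Z.Inf
  typ : MSubF P sig G D
  mem : ∀ x, Cl P idx i G (G x) → sig x ∈ Z.RR (nf (G x)) (fun k => er (sig k)) inf
  iq : ∀ x, Cl P idx i G (G x) → Z.IQ (sub (fun k => er (sig k)) (G x)) (inf x)
  low : ∀ x, ¬ Cl P idx i G (G x) → (∃ k, sig x = .var k) ∧ inf x = Z.dfl

namespace Env

variable {Z : TyEval.{u, v} P idx i D} {G : ℕ → Term S}

/-- the closed terms of an environment -/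
def th (ρ : Env Z G) : ℕ → Term S := fun k => er (ρ.sig k)

/-- realizers of the source type `T` -/
noncomputable def R (ρ : Env Z G) (T : Term S) : Set (MT S) := Z.RR (nf T) ρ.th ρ.inf

/-- `ρ'` extends `ρ` -/
def Ext {A : Term S} (ρ : Env Z G) (ρ' : Env Z (fcons A G)) : Prop :=
  (∀ n, ρ'.sig (n + 1) = ρ.sig n) ∧ ∀ n, ρ'.inf (n + 1) = ρ.inf n

theorem subF (ρ : Env Z G) : SubF P ρ.th G D := ρ.typ.subF

theorem Ext.th {A : Term S} {ρ : Env Z G} {ρ' : Env Z (fcons A G)} (h : ρ.Ext ρ') :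
    ρ'.th = scons (er (ρ'.sig 0)) ρ.th := by
  funext n
  cases n with
  | zero => rfl
  | succ n => show er (ρ'.sig (n + 1)) = er (ρ.sig n); rw [h.1]

theorem Ext.sig {A : Term S} {ρ : Env Z G} {ρ' : Env Z (fcons A G)} (h : ρ.Ext ρ') :
    ρ'.sig = mscons (ρ'.sig 0) ρ.sig := by
  funext n
  cases n with
  | zero => rfl
  | succ n => exact h.1 n

theorem Ext.inf {A : Term S} {ρ : Env Z G} {ρ' : Env Z (fcons A G)} (h : ρ.Ext ρ') :
    ρ'.inf = isc (ρ'.inf 0) ρ.inf := by
  funext n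
  cases n with
  | zero => rfl
  | succ n => exact h.2 n

/-- (R6) variables: every variable is a realizer of its type -/
theorem var_mem (ρ : Env Z G) (x : ℕ) (hx : Cl P idx i G (G x)) : ρ.sig x ∈ ρ.R (G x) :=
  ρ.mem x hx

/-- an extension assigns a realizer with an admitted info to the new variable -/
theorem Ext.zero {ρ : Env Z G} {A : Term S} {ρ' : Env Z (fcons A G)} (h : ρ.Ext ρ')
    (hc : Cl P idx i G A) : ρ'.sig 0 ∈ ρ.R A ∧ Z.IQ (sub ρ.th A) (ρ'.inf 0) := by
  have hc' : Cl P idx i (fcons A G) (wk A) := hc.ren (RenF.wk G A)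
  have e1 : (fun n => ρ'.th (n + 1)) = ρ.th := by
    funext n; exact congrArg er (h.1 n)
  have e2 : (fun n => ρ'.inf (n + 1)) = ρ.inf := by
    funext n; exact h.2 n
  constructor
  · have := ρ'.mem 0 hc'
    rw [fcons_zero, wk, nf_ren, Z.rr_ren] at this
    change ρ'.sig 0 ∈ Z.RR (nf A) (fun n => ρ'.th (n + 1)) (fun n => ρ'.inf (n + 1)) at this
    rwa [e1, e2] at this
  · have := ρ'.iq 0 hc'
    rw [fcons_zero, wk, sub_ren] at this
    change Z.IQ (sub (fun n => ρ'.th (n + 1)) A) (ρ'.inf 0) at this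
    rwa [e1] at this

theorem cl_dom {A B : Term S} (hr : ∀ a b c, P.rule a b c → idx c ≤ idx a ∧ idx c ≤ idx b)
    (w : WfF P G) (hc : Cl P idx i G (.pi A B)) : Cl P idx i G A := by
  obtain ⟨c, h1, h2⟩ := hc
  obtain ⟨a, b, ru, h3, _⟩ := h1.pi_inv w
  exact ⟨a, h3, h2.trans (hr a b c ru).1⟩

theorem cl_cod {A B : Term S} {a : S} (hr : ∀ a b c, P.rule a b c → idx c ≤ idx a ∧ idx c ≤ idx b)
    (w : WfF P G) (hA : TyF P G A (.sort a)) (hc : Cl P idx i G (.pi A B)) :
    Cl P idx i (fcons A G) B := by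
  obtain ⟨c, h1, h2⟩ := hc
  obtain ⟨a', b, ru, _, A', rA, hA', T0, e0, h0⟩ := h1.pi_inv w
  exact ⟨b, ⟨T0, e0, fctx_conv w h0 hA' hA (BetaEq.symm rA.eq)⟩, h2.trans (hr a' b c ru).2⟩

/-- (R7) sorts -/
theorem R_sort (w : World657.World P D) (ρ : Env Z G) {s t : S}
    (hT : TyF P G (.sort s) (.sort t)) :
    ρ.R (.sort s) = Wt P idx (i + 1) D (.sort s) := by
  have h : TyF P D (.sort s) (.sort t) := tyf_sub hT ρ.subF
  obtain ⟨k, -, hk⟩ := w.full _ _ h 0
  have hv : TMF P D (.var k) (.sort s) := by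
    have := tmf_var w.good.wf k
    rwa [hk] at this
  unfold R
  rw [nf_sort]
  exact Z.rr_sort hv

section
variable (hP : ∀ (Γ : List (Term S)) (M : Term S), Legal P Γ M → WN M)
include hP

/-- (R0) realizer sets are candidates -/
theorem cand (w : WfF P D) (g : Good P G) (ρ : Env Z G) {T : Term S} {s : S}
    (hT : TyF P G T (.sort s)) :
    Cand P idx (i + 1) D (sub ρ.th T) (ρ.R T) := by
  have hw : WN T := (g.wn hP hT).1
  have h1 : TyF P D (sub ρ.th T) (.sort s) := tyf_sub hT ρ.subF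
  have h2 : TyF P D (sub ρ.th (nf T)) (.sort s) := tyf_sub (FSR g.wf hT (nf_red hw)) ρ.subF
  exact (Z.rr_cand (nf T) ρ.th ρ.inf).conv' w h2 h1 (BetaEq.symm (BetaEq.sub (nf_betaEq hw) _))

/-- (R1) conversion -/
theorem R_conv (g : Good P G) (ρ : Env Z G) {T T' : Term S} {s : S}
    (hT : TyF P G T (.sort s)) (e : BetaEq T T') : ρ.R T = ρ.R T' := by
  unfold R
  rw [nf_eq (g.wn hP hT).1 e]

/-- (R2) types which are high at run time -/
theorem R_high (w : WfF P D) (g : Good P G) (ρ : Env Z G) {T : Term S} {s : S}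
    (hT : TyF P G T (.sort s)) (h : Hi P idx i D (sub ρ.th T)) :
    ρ.R T = Wt P idx (i + 1) D (sub ρ.th T) := by
  have hw : WN T := (g.wn hP hT).1
  have h1 : TyF P D (sub ρ.th T) (.sort s) := tyf_sub hT ρ.subF
  have h2 : TyF P D (sub ρ.th (nf T)) (.sort s) := tyf_sub (FSR g.wf hT (nf_red hw)) ρ.subF
  have e : BetaEq (sub ρ.th T) (sub ρ.th (nf T)) := BetaEq.sub (nf_betaEq hw) _
  unfold R
  rw [Z.rr_high (h.conv e)]
  exact (wt_conv w h1 h2 e).symm

/-- (R3) products, in terms of values -/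
theorem mem_pi (w : WfF P D) (g : Good P G) (ρ : Env Z G) {A B : Term S} {s : S}
    (hT : TyF P G (.pi A B) (.sort s)) (hc : Cl P idx i G (.pi A B))
    (hn : ¬ Hi P idx i D (sub ρ.th (.pi A B))) (v : MT S) :
    v ∈ ρ.R (.pi A B) ↔ TMF P D v (sub ρ.th (.pi A B)) ∧ Wn P idx (i + 1) D v ∧
      ∀ x ∈ ρ.R A, ∀ j, Z.IQ (sub ρ.th A) j →
        .app v x ∈ Z.RR (nf B) (scons (er x) ρ.th) (isc j ρ.inf) := by
  have hw : WN (Term.pi A B) := (g.wn hP hT).1
  obtain ⟨hA, hB⟩ := wn_pi_inv hw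
  have e0 : nf (Term.pi A B) = .pi (nf A) (nf B) := nf_pi hA hB
  have e : BetaEq (sub ρ.th (.pi A B)) (sub ρ.th (.pi (nf A) (nf B))) := by
    rw [← e0]; exact BetaEq.sub (nf_betaEq hw) _
  obtain ⟨c, h1, h2⟩ := hc
  have h3 : TyF P G (.pi (nf A) (nf B)) (.sort c) := by
    rw [← e0]
    exact (Sg.normal g.wf (nf_normal hw)).1 (h1.conv (BetaEq.symm (nf_betaEq hw)))
  have h4 : TyF P D (sub ρ.th (.pi (nf A) (nf B))) (.sort c) := tyf_sub h3 ρ.subF
  have hn' : ¬ Hi P idx i D (sub ρ.th (.pi (nf A) (nf B))) := fun h =>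
    hn (h.conv (BetaEq.symm e))
  have h5 : idx c = i := by
    refine le_antisymm ?_ h2
    by_contra h
    exact hn' ⟨c, Sg.of h4, not_le.1 h⟩
  have h6 : TyF P D (sub ρ.th (.pi A B)) (.sort s) := tyf_sub hT ρ.subF
  unfold R
  rw [e0, Z.rr_pi h4 h5 hn']
  show (TMF P D v (sub ρ.th (.pi (nf A) (nf B))) ∧ Wn P idx (i + 1) D v ∧
      ∀ x ∈ Z.RR (nf A) ρ.th ρ.inf, ∀ j, Z.IQ (sub ρ.th (nf A)) j →
        .app v x ∈ Z.RR (nf B) (scons (er x) ρ.th) (isc j ρ.inf)) ↔ _
  have eA : BetaEq (sub ρ.th A) (sub ρ.th (nf A)) := BetaEq.sub (nf_betaEq hA) _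
  constructor
  · rintro ⟨a, b, c⟩
    exact ⟨(tmf_conv_iff w h6 h4 e v).2 a, b, fun x hx j hj => c x hx j (Z.iq_conv eA hj)⟩
  · rintro ⟨a, b, c⟩
    exact ⟨(tmf_conv_iff w h6 h4 e v).1 a, b,
      fun x hx j hj => c x hx j (Z.iq_conv (BetaEq.symm eA) hj)⟩

/-- extension of an environment -/
noncomputable def extend (g : Good P G) (ρ : Env Z G) {A : Term S} {a : S}
    (hA : TyF P G A (.sort a)) (m : MT S) (j : Z.Inf) (hm : TMF P D m (sub ρ.th A))
    (h1 : Cl P idx i G A → m ∈ ρ.R A ∧ Z.IQ (sub ρ.th A) j)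
    (h2 : ¬ Cl P idx i G A → (∃ k, m = .var k) ∧ j = Z.dfl) : Env Z (fcons A G) where
  sig := mscons m ρ.sig
  inf := isc j ρ.inf
  typ := ρ.typ.scons hm
  mem := by
    intro x hx
    cases x with
    | zero =>
        rw [fcons_zero] at hx ⊢
        have := (h1 (hx.wk_inv g.wf hA (g.wn hP hA).1)).1
        unfold R at this
        rw [wk, nf_ren, Z.rr_ren]
        exact this
    | succ x =>
        rw [fcons_succ] at hx ⊢
        obtain ⟨s, hs⟩ := g.wf x
        have := ρ.mem x (hx.wk_inv g.wf hA (g.wn hP hs).1)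
        rw [wk, nf_ren, Z.rr_ren]
        exact this
  iq := by
    intro x hx
    cases x with
    | zero =>
        rw [fcons_zero] at hx ⊢
        have := (h1 (hx.wk_inv g.wf hA (g.wn hP hA).1)).2
        rw [wk, sub_ren]
        exact this
    | succ x =>
        rw [fcons_succ] at hx ⊢
        obtain ⟨s, hs⟩ := g.wf x
        have := ρ.iq x (hx.wk_inv g.wf hA (g.wn hP hs).1)
        rw [wk, sub_ren]
        exact this
  low := by
    intro x hx
    cases x with
    | zero =>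
        rw [fcons_zero] at hx
        exact h2 (fun h => hx (h.ren (RenF.wk G A)))
    | succ x =>
        rw [fcons_succ] at hx
        exact ρ.low x (fun h => hx (h.ren (RenF.wk G A)))

theorem extend_ext (g : Good P G) (ρ : Env Z G) {A : Term S} {a : S}
    (hA : TyF P G A (.sort a)) (m : MT S) (j : Z.Inf) (hm : TMF P D m (sub ρ.th A))
    (h1 : Cl P idx i G A → m ∈ ρ.R A ∧ Z.IQ (sub ρ.th A) j)
    (h2 : ¬ Cl P idx i G A → (∃ k, m = .var k) ∧ j = Z.dfl) :
    ρ.Ext (extend hP g ρ hA m j hm h1 h2) := ⟨fun _ => rfl, fun _ => rfl⟩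

/-- (R3) products, in terms of extensions -/
theorem mem_pi_ext (hr : ∀ a b c, P.rule a b c → idx c ≤ idx a ∧ idx c ≤ idx b)
    (w : WfF P D) (g : Good P G) (ρ : Env Z G) {A B : Term S} {s : S}
    (hT : TyF P G (.pi A B) (.sort s)) (hc : Cl P idx i G (.pi A B))
    (hn : ¬ Hi P idx i D (sub ρ.th (.pi A B))) (v : MT S) :
    v ∈ ρ.R (.pi A B) ↔ TMF P D v (sub ρ.th (.pi A B)) ∧ Wn P idx (i + 1) D v ∧
      ∀ ρ' : Env Z (fcons A G), ρ.Ext ρ' → .app v (ρ'.sig 0) ∈ ρ'.R B := by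
  obtain ⟨a, b, c, hA, hB, ru, _⟩ := fgen_pi hT _ _ rfl
  have hcA : Cl P idx i G A := cl_dom hr g.wf hc
  rw [mem_pi hP w g ρ hT hc hn]
  constructor
  · rintro ⟨h1, h2, h3⟩
    refine ⟨h1, h2, fun ρ' he => ?_⟩
    obtain ⟨h4, h5⟩ := he.zero hcA
    have := h3 _ h4 _ h5
    unfold R
    rw [he.th, he.inf]
    exact this
  · rintro ⟨h1, h2, h3⟩
    refine ⟨h1, h2, fun x hx j hj => ?_⟩
    have hx' : TMF P D x (sub ρ.th A) := ((cand hP w g ρ hA).sub x hx).1
    have he := extend_ext hP g ρ hA x j hx' (fun _ => ⟨hx, hj⟩) (fun h => absurd hcA h)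
    have := h3 _ he
    unfold R at this
    rw [he.th, he.inf] at this
    exact this

/-- (R5) fresh variables -/
theorem fresh (w : World657.World P D) (g : Good P G) (ρ : Env Z G) {A : Term S} {a : S}
    (hA : TyF P G A (.sort a)) (m : ℕ) : ∃ (k : ℕ) (ρ' : Env Z (fcons A G)),
    m ≤ k ∧ D k = sub ρ.th A ∧ ρ.Ext ρ' ∧ ρ'.sig 0 = .var k := by
  have h : TyF P D (sub ρ.th A) (.sort a) := tyf_sub hA ρ.subF
  obtain ⟨k, hm, hk⟩ := w.full _ _ h m
  have hv : TMF P D (.var k) (sub ρ.th A) := by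
    have := tmf_var w.good.wf k
    rwa [hk] at this
  by_cases hc : Cl P idx i G A
  · obtain ⟨j, hj⟩ := Z.ne (sub ρ.th A)
    have hR := (cand hP w.good.wf g ρ hA).var hv
    exact ⟨k, _, hm, hk, extend_ext hP g ρ hA (.var k) j hv (fun _ => ⟨hR, hj⟩)
      (fun h => absurd hc h), rfl⟩
  · exact ⟨k, _, hm, hk, extend_ext hP g ρ hA (.var k) Z.dfl hv (fun h => absurd h hc)
      (fun _ => ⟨⟨k, rfl⟩, rfl⟩), rfl⟩

open Classical in
/-- (R8) the identity environment -/
theorem exists_ident (Z : TyEval.{u, v} P idx i D) (g : Good P D) :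
    ∃ ρ : Env Z D, ρ.sig = .var := by
  refine ⟨⟨.var, fun x => if Cl P idx i D (D x) then Classical.choose (Z.ne (D x)) else Z.dfl,
    MSubF.var g.wf, ?_, ?_, ?_⟩, rfl⟩
  · intro x hx
    obtain ⟨s, hs⟩ := g.wf x
    have hw := (g.wn hP hs).1
    have h1 := Z.rr_cand (nf (D x)) (fun k => er (MT.var k))
      (fun x => if Cl P idx i D (D x) then Classical.choose (Z.ne (D x)) else Z.dfl)
    refine h1.var ?_
    show TMF P D (.var x) (sub Term.var (nf (D x)))
    rw [sub_id]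
    exact tmf_red_type g.wf (tmf_var g.wf x) (nf_red hw)
  · intro x hx
    show Z.IQ (sub Term.var (D x)) _
    rw [sub_id, if_pos hx]
    exact Classical.choose_spec (Z.ne (D x))
  · intro x hx
    exact ⟨⟨x, rfl⟩, by rw [if_neg hx]⟩

end

end Env

/-- **(R4)**: the one semantic statement about the evaluator `Z` -/
def TyEval.Inst (Z : TyEval.{u, v} P idx i D) : Prop :=
  ∀ (G : ℕ → Term S) (ρ : Env Z G) (A B : Term S) (N : MT S) (s : S), Good P G →
    TyF P G (.pi A B) (.sort s) → Cl P idx i G (.pi A B) →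
    ¬ Hi P idx i D (sub ρ.th (.pi A B)) → TMF P G N A → MT.msub ρ.sig N ∈ ρ.R A →
    ∃ j, Z.IQ (sub ρ.th A) j ∧
      ∀ v, v ∈ Z.RR (nf B) (scons (sub ρ.th (er N)) ρ.th) (isc j ρ.inf) →
        v ∈ Z.RR (nf (inst (er N) B)) ρ.th ρ.inf

end Crest.Agent.R298.SM646
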