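import Crest.Agent.R298.Ev_658

/-!
R298 (S0452), helper658: typed substitution lemma, beta invariance, and "normal terms are good"
for the evaluation `E`; the instantiation theorem (`R4` of the stage model).
-/

set_option autoImplicit false

namespace Crest.Agent.R298.Sb658

open Crest.LogicCS.PTS Crest.LogicCS.PTS.Term Relation
open Crest.Agent.R298.Sub452 Crest.Agent.R298.Par452 Crest.Agent.R298.Ty452
open Crest.Agent.R298.TyF452 Crest.Agent.R298.Cl658 Crest.Agent.R298.Dm658
open Crest.Agent.R298.Mem360 Crest.Agent.R298.TyMF452 Crest.Agent.R298.Ev658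
open Crest.Agent.R298.Mem360.MT (er)

variable {S : Type} {m : Md S}

theorem beq_ups {σ τ : ℕ → Term S} (h : ∀ i, BetaEq (σ i) (τ i)) : ∀ i, BetaEq (ups σ i) (ups τ i)
  | 0 => .refl _
  | i + 1 => BetaEq.ren (h i) _

theorem beq_sub {σ τ : ℕ → Term S} (h : ∀ i, BetaEq (σ i) (τ i)) (M : Term S) :
    BetaEq (sub σ M) (sub τ M) := by
  induction M generalizing σ τ with
  | var i => exact h i
  | sort s => exact .refl _
  | app M N h1 h2 => exact BetaEq.app (h1 h) (h2 h)
  | lam A M h1 h2 => exact BetaEq.lam (h1 h) (h2 (beq_ups h))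
  | pi A B h1 h2 => exact BetaEq.pi (h1 h) (h2 (beq_ups h))

/-- closed instances of typed terms -/
abbrev EOk (ρ : Env m) (G : ℕ → Term S) : Prop := SubF m.P (tm ρ) G m.D0

theorem EOk.cons {ρ : Env m} {G : ℕ → Term S} (h : EOk ρ G) {A : Term S} {x : Arg m}
    (hx : TyF m.P m.D0 x.1 (sub (tm ρ) A)) : EOk (ec x ρ) (fcons A G) := by
  show SubF m.P (tm (ec x ρ)) _ _
  rw [tm_ec]
  exact SubF.scons h hx

theorem sub_tm_ec (x : Arg m) (ρ : Env m) (B : Term S) :
    sub (tm (ec x ρ)) B = inst x.1 (sub (ups (tm ρ)) B) := by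
  rw [tm_ec, sub_scons]

theorem sub_tm_wk (x : Arg m) (ρ : Env m) (B : Term S) :
    sub (tm (ec x ρ)) (wk B) = sub (tm ρ) B := by
  rw [wk, sub_ren]; rfl

theorem hi_of {K : Term S} {s : S} (h : TyF m.P m.D0 K (sort s)) (hs : s ∈ m.hi) : Hi m K :=
  ⟨s, hs, K, .refl _, h⟩

/-- equality of realizer sets -/
theorem RR_congr {T T' : Term S} {ρ ρ' : Env m} (e : BetaEq (sub (tm ρ) T) (sub (tm ρ') T'))
    (h : ¬ Hi m (sub (tm ρ) T) → (E m T ρ []).1 = (E m T' ρ' []).1) : RR T ρ = RR T' ρ' := by
  unfold RR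
  rw [nfr_congr e]
  by_cases hh : Hi m (sub (tm ρ) T)
  · obtain ⟨s, hs, h'⟩ := hh
    exact m.cs_hi _ _ _ s hs (sig_conv h' (BetaEq.trans e (BetaEq.symm (nfr_beta _))))
  · rw [h hh]

theorem RR_typed {A : Term S} {ρ : Env m} {a : S} (hA : TyF m.P m.D0 (sub (tm ρ) A) (sort a))
    {w : MT S} (hw : w ∈ RR A ρ) : TyF m.P m.D0 (nfr (er w)) (sub (tm ρ) A) := by
  have h1 := m.cs_ty _ _ _ hw
  exact .conv (m.w.nfr h1.typed) hA (nfr_beta _)

/-- the pair of a product only depends on the pairs of its parts -/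
theorem pi_congr {A A' B B' : Term S} {ρ ρ' : Env m} {a b : S}
    (hA : TyF m.P m.D0 (sub (tm ρ) A) (sort a))
    (ha : a ∈ m.D ∨ a ∈ m.hi) (hb : b ∈ m.D ∨ b ∈ m.hi)
    (eA : BetaEq (sub (tm ρ) A) (sub (tm ρ') A'))
    (eP : BetaEq (sub (tm ρ) (pi A B)) (sub (tm ρ') (pi A' B')))
    (hB : ∀ x : Arg m, TyF m.P m.D0 x.1 (sub (tm ρ) A) →
      TyF m.P m.D0 (sub (tm (ec x ρ)) B) (sort b))
    (eB : ∀ x : Arg m, TyF m.P m.D0 x.1 (sub (tm ρ) A) →
      BetaEq (sub (tm (ec x ρ)) B) (sub (tm (ec x ρ')) B'))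
    (h1 : ¬ Hi m (sub (tm ρ) A) → a ∈ m.D → E m A ρ [] = E m A' ρ' [])
    (h2 : ∀ x : Arg m, TyF m.P m.D0 x.1 (sub (tm ρ) A) →
      shp x.2 = qsh m.P m.D0 m.D (sub (tm ρ) A) → ¬ Hi m (sub (tm (ec x ρ)) B) → b ∈ m.D →
      E m B (ec x ρ) [] = E m B' (ec x ρ') []) (p : List (Arg m)) :
    E m (pi A B) ρ p = E m (pi A' B') ρ' p := by
  have k1 : ¬ Hi m (sub (tm ρ) A) → E m A ρ [] = E m A' ρ' [] := by
    intro h
    rcases ha with ha | ha
    · exact h1 h ha
    · exact absurd (hi_of hA ha) h
  have k2 : ∀ x : Arg m, TyF m.P m.D0 x.1 (sub (tm ρ) A) →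
      shp x.2 = qsh m.P m.D0 m.D (sub (tm ρ) A) → ¬ Hi m (sub (tm (ec x ρ)) B) →
      E m B (ec x ρ) [] = E m B' (ec x ρ') [] := by
    intro x hx hs h
    rcases hb with hb | hb
    · exact h2 x hx hs h hb
    · exact absurd (hi_of (hB x hx) hb) h
  have rA : RR A ρ = RR A' ρ' := RR_congr eA fun h => by rw [k1 h]
  have qA : qsh m.P m.D0 m.D (sub (tm ρ) A) = qsh m.P m.D0 m.D (sub (tm ρ') A') := qsh_congr eA
  rw [E_pi, E_pi]
  refine Prod.ext ?_ ?_
  · show {v | _} = {v | _}
    ext v
    simp only [Set.mem_ofPred_eq]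
    rw [nfr_congr eP, ← rA, ← qA]
    refine and_congr Iff.rfl (forall_congr' fun w => forall_congr' fun hw =>
      forall_congr' fun j => forall_congr' fun hj => ?_)
    have hx := RR_typed hA hw
    rw [RR_congr (eB (nfr (er w), j) hx) fun h => by rw [k2 (nfr (er w), j) hx hj h]]
  · refine propext (and_congr ?_ ?_)
    · constructor
      · intro h h'
        have h'' : ¬ Hi m (sub (tm ρ) A) := fun h3 => h' ((hi_congr eA).1 h3)
        rw [← k1 h'']; exact h h''
      · intro h h'
        have h'' : ¬ Hi m (sub (tm ρ') A') := fun h3 => h' ((hi_congr eA).2 h3)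
        rw [k1 h']; exact h h''
    · rw [nfr_congr eA]
      constructor
      · intro h x j hx hj hh
        have hx' : TyF m.P m.D0 x (sub (tm ρ) A) :=
          .conv hx hA (BetaEq.trans (nfr_beta _) (BetaEq.symm eA))
        have hj' := hj.trans qA.symm
        have hh' : ¬ Hi m (sub (tm (ec (x, j) ρ)) B) := fun h3 =>
          hh ((hi_congr (eB (x, j) hx')).1 h3)
        rw [← k2 (x, j) hx' hj' hh']
        exact h x j hx hj' hh'
      · intro h x j hx hj hh
        have hx' : TyF m.P m.D0 x (sub (tm ρ) A) :=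
          .conv hx hA (BetaEq.trans (nfr_beta _) (BetaEq.symm eA))
        have hh' : ¬ Hi m (sub (tm (ec (x, j) ρ')) B') := fun h3 =>
          hh ((hi_congr (eB (x, j) hx')).2 h3)
        rw [k2 (x, j) hx' hj hh]
        exact h x j hx (hj.trans qA) hh'

/-- pushing a closed argument keeps validity -/
theorem lf_push {G : ℕ → Term S} {M N A B : Term S} {ρ : Env m} (wG : WfF m.P G)
    (hM : TyF m.P G M (pi A B)) (hN : TyF m.P G N A) (hρ : EOk ρ G) {p : List (Arg m)}
    (hl : Lf m.P m.D0 m.D (sub (tm ρ) (inst N B)) (p.map sp))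
    {j : Inf m} (hj : shp j = xsh m.P m.D0 m.D (sub (tm ρ) A)) :
    Lf m.P m.D0 m.D (sub (tm ρ) (pi A B)) ((((nfr (sub (tm ρ) N), j) : Arg m) :: p).map sp) := by
  obtain ⟨c, hp⟩ := fpi_typed wG hM
  have hp' := tyf_sub hp hρ
  have hN' := tyf_sub hN hρ
  rw [List.map_cons]
  have : sp ((nfr (sub (tm ρ) N), j) : Arg m) = (nfr (sub (tm ρ) N), xsh m.P m.D0 m.D (sub (tm ρ) A)) := by
    unfold sp; rw [hj]
  rw [this]
  refine Lf.cons (.refl _) hp' (m.w.nfr hN') (hl.conv ?_)
  rw [sub_inst]
  exact BetaEq.inst (BetaEq.symm (nfr_beta _)) (.refl _)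

theorem pack_dead {K : Term S} {g g' : List (Arg m) → Set (MT S)} (h : ¬ Live m K) :
    pack K g = pack K g' := by
  unfold pack
  have h1 : ¬ sgn m.P m.D0 m.D true K := fun h' => h (.inl h')
  have h2 : ¬ sgn m.P m.D0 m.D false K := fun h' => h (.inr h')
  by_cases hr : Rel m.P m.D0 m.D K
  · have : xsh m.P m.D0 m.D K = .dfl := by simp only [xsh, if_pos hr, if_neg h1, if_neg h2]
    rw [this]
  · have : xsh m.P m.D0 m.D K = .non := by simp only [xsh, if_neg hr]
    rw [this]

/-- **substitution lemma** -/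
theorem E_sub {G : ℕ → Term S} {M K : Term S} (h : TyF m.P G M K) : WfF m.P G →
    ∀ (θ : ℕ → Term S) (ρ ρ' : Env m) (p : List (Arg m)), EOk ρ' G →
      (∀ k, BetaEq (tm ρ' k) (sub (tm ρ) (θ k))) →
      (∀ (k : ℕ) (q : List (Arg m)), Lf m.P m.D0 m.D (sub (tm ρ') (G k)) (q.map sp) →
        E m (θ k) ρ q = (ap (ρ' k).2 q, True)) →
      Lf m.P m.D0 m.D (sub (tm ρ') K) (p.map sp) → E m (sub θ M) ρ p = E m M ρ' p := by
  have ext : ∀ {G : ℕ → Term S} {θ : ℕ → Term S} {ρ ρ' : Env m} (A : Term S) (x : Arg m),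
      (∀ k, BetaEq (tm ρ' k) (sub (tm ρ) (θ k))) →
      (∀ (k : ℕ) (q : List (Arg m)), Lf m.P m.D0 m.D (sub (tm ρ') (G k)) (q.map sp) →
        E m (θ k) ρ q = (ap (ρ' k).2 q, True)) →
      (∀ k, BetaEq (tm (ec x ρ') k) (sub (tm (ec x ρ)) (ups θ k))) ∧
      (∀ (k : ℕ) (q : List (Arg m)),
        Lf m.P m.D0 m.D (sub (tm (ec x ρ')) (fcons A G k)) (q.map sp) →
        E m (ups θ k) (ec x ρ) q = (ap (ec x ρ' k).2 q, True)) := by
    intro G θ ρ ρ' A x h1 h2
    constructor
    · intro k
      cases k with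
      | zero => exact .refl _
      | succ k =>
          rw [ups_succ, sub_tm_wk]
          exact h1 k
    · intro k q hq
      cases k with
      | zero => rfl
      | succ k =>
          rw [fcons_succ, sub_tm_wk] at hq
          rw [ups_succ, wk, E_ren]
          exact h2 k q hq
  induction h with
  | ax _ => intro _ θ ρ ρ' p _ _ _ _; rfl
  | @var G i s _ _ =>
      intro _ θ ρ ρ' p _ _ h2 hl
      exact h2 i p hl
  | @prod G A B a b c hA hB r ihA ihB =>
      intro wG θ ρ ρ' p hρ h1 h2 hl
      cases p with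
      | cons x p => exact (hl.not_sort_cons (.refl _)).elim
      | nil =>
      have hc : c ∈ m.D := hl.sort_inv
      obtain ⟨ha, hb⟩ := m.rl _ _ _ r hc
      have tA := tyf_sub hA hρ
      have eT : ∀ T : Term S, BetaEq (sub (tm ρ) (sub θ T)) (sub (tm ρ') T) := by
        intro T
        rw [sub_sub]
        exact beq_sub (fun k => BetaEq.symm (h1 k)) T
      rw [sub_pi]
      symm
      refine pi_congr (a := a) (b := b) tA ha hb (BetaEq.symm (eT A)) ?_ ?_ ?_ ?_ ?_ []
      · have := BetaEq.symm (eT (pi A B))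
        rwa [sub_pi θ] at this
      · intro x hx
        exact tyf_sub hB (hρ.cons hx)
      · intro x hx
        rw [sub_sub]
        exact beq_sub (ext A x h1 h2).1 B
      · intro _ ha'
        exact (ihA wG θ ρ ρ' [] hρ h1 h2 (lf_sort ha')).symm
      · intro x hx _ _ hb'
        exact (ihB (wG.cons hA) (ups θ) (ec x ρ) (ec x ρ') [] (hρ.cons hx) (ext A x h1 h2).1
          (ext A x h1 h2).2 (lf_sort hb')).symm
  | @abs G A M B s hM hp ihM _ =>
      intro wG θ ρ ρ' p hρ h1 h2 hl
      have hp' := tyf_sub hp hρ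
      obtain ⟨sA, hA⟩ := fpi_dom hp
      cases p with
      | nil =>
          obtain ⟨s', _, e⟩ := hl.nil_inv
          exact (not_sort_pi (BetaEq.symm e)).elim
      | cons x p =>
          rw [List.map_cons] at hl
          obtain ⟨g1, _, g3⟩ := hl.pi_inv (.refl _) hp'
          rw [show (sp x).1 = x.1 from rfl, ← sub_tm_ec] at g3
          have ih := ihM (wG.cons hA) (ups θ) (ec x ρ) (ec x ρ') p (hρ.cons g1)
            (ext A x h1 h2).1 (ext A x h1 h2).2 g3
          have eA : BetaEq (sub (tm ρ) (sub θ A)) (sub (tm ρ') A) := by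
            rw [sub_sub]
            exact beq_sub (fun k => BetaEq.symm (h1 k)) A
          rw [sub_lam, E_lam_cons, E_lam_cons, ih, rel_congr eA, live_congr eA]
  | @appl G M N A B hM hN ihM ihN =>
      intro wG θ ρ ρ' p hρ h1 h2 hl
      have eT : ∀ T : Term S, BetaEq (sub (tm ρ) (sub θ T)) (sub (tm ρ') T) := by
        intro T
        rw [sub_sub]
        exact beq_sub (fun k => BetaEq.symm (h1 k)) T
      have hK : kd m.P m.D0 (sub (tm ρ') M) = nfr (sub (tm ρ') A) := kd_eq m.w (tyf_sub hM hρ)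
      have hN' : ∀ q : List (Arg m), Lf m.P m.D0 m.D (nfr (sub (tm ρ') A)) (q.map sp) →
          E m (sub θ N) ρ q = E m N ρ' q := fun q hq =>
        ihN wG θ ρ ρ' q hρ h1 h2 (hq.conv (nfr_beta _))
      have hi : info (nfr (sub (tm ρ') A)) (sub θ N) ρ = info (nfr (sub (tm ρ') A)) N ρ' := by
        unfold info
        congr 1
        funext q
        exact clq_congr rfl fun hq => by rw [hN' q hq]
      have hM' := ihM wG θ ρ ρ' ((nfr (sub (tm ρ') N), info (nfr (sub (tm ρ') A)) N ρ') :: p) hρ
        h1 h2 (lf_push wG hM hN hρ hl (by rw [info, shp_pack, xsh_nfr]))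
      rw [sub_app, E_app, E_app, kd_congr (eT M), nfr_congr (eT N), hK, hi, hM']
      refine Prod.ext rfl (propext (and_congr Iff.rfl ?_))
      refine forall_congr' fun _ => forall_congr' fun q => forall_congr' fun hq => ?_
      rw [hN' q hq]
  | @conv G M A B s _ _ e ih _ =>
      intro wG θ ρ ρ' p hρ h1 h2 hl
      exact ih wG θ ρ ρ' p hρ h1 h2 (hl.conv (BetaEq.symm (BetaEq.sub e _)))

/-! ### beta invariance -/

/-- **one step of beta** -/
theorem E_beta {G : ℕ → Term S} {M K : Term S} (h : TyF m.P G M K) : WfF m.P G →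
    ∀ (M' : Term S), Beta M M' → ∀ (ρ : Env m) (p : List (Arg m)), Bd ρ → EOk ρ G →
      Lf m.P m.D0 m.D (sub (tm ρ) K) (p.map sp) → (E m M ρ p).2 → E m M ρ p = E m M' ρ p := by
  induction h with
  | ax _ => intro _ M' b; cases b
  | var _ _ => intro _ M' b; cases b
  | @prod G A B a b c hA hB r ihA ihB =>
      intro wG M' bt ρ p hb hρ hl h2
      cases p with
      | cons x p => exact (hl.not_sort_cons (.refl _)).elim
      | nil =>
      have hc : c ∈ m.D := hl.sort_inv
      obtain ⟨ha, hb'⟩ := m.rl _ _ _ r hc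
      have tA := tyf_sub hA hρ
      rw [E_pi] at h2
      obtain ⟨h3, h4⟩ := h2
      cases bt with
      | @piA _ A' _ bt =>
          refine pi_congr (a := a) (b := b) tA ha hb' (.rel _ _ (Beta.sub bt _))
            (.rel _ _ (Beta.sub (.piA _ bt) _)) ?_ (fun _ _ => .refl _) ?_ (fun _ _ _ _ _ => rfl) []
          · intro x hx
            exact tyf_sub hB (hρ.cons hx)
          · intro hh ha'
            exact ihA wG _ bt ρ [] hb hρ (lf_sort ha') (h3 hh)
      | @piB _ _ B' bt =>
          refine pi_congr (a := a) (b := b) tA ha hb' (.refl _)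
            (.rel _ _ (Beta.sub (.piB _ bt) _)) ?_ (fun _ _ => .rel _ _ (Beta.sub bt _))
            (fun _ _ => rfl) ?_ []
          · intro x hx
            exact tyf_sub hB (hρ.cons hx)
          · intro x hx hs hh hb''
            exact ihB (wG.cons hA) _ bt (ec x ρ) [] (hb.cons x) (hρ.cons hx) (lf_sort hb'')
              (h4 x.1 x.2 (.conv hx (m.w.nfr tA) (BetaEq.symm (nfr_beta _))) hs hh)
  | @abs G A M B s hM hp ihM _ =>
      intro wG M' bt ρ p hb hρ hl h2
      have hp' := tyf_sub hp hρ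
      obtain ⟨sA, hA⟩ := fpi_dom hp
      cases p with
      | nil =>
          obtain ⟨s', _, e⟩ := hl.nil_inv
          exact (not_sort_pi (BetaEq.symm e)).elim
      | cons x p =>
          rw [List.map_cons] at hl
          obtain ⟨g1, _, g3⟩ := hl.pi_inv (.refl _) hp'
          rw [show (sp x).1 = x.1 from rfl, ← sub_tm_ec] at g3
          rw [E_lam_cons] at h2
          cases bt with
          | @lamA _ A' _ bt =>
              have eA : BetaEq (sub (tm ρ) A) (sub (tm ρ) A') := .rel _ _ (Beta.sub bt _)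
              rw [E_lam_cons, E_lam_cons, rel_congr eA, live_congr eA]
          | @lamM _ _ M' bt =>
              rw [E_lam_cons, E_lam_cons,
                ihM (wG.cons hA) _ bt (ec x ρ) p (hb.cons x) (hρ.cons g1) g3 h2.2]
  | @appl G M N A B hM hN ihM ihN =>
      intro wG M' bt ρ p hb hρ hl h2
      have hK : kd m.P m.D0 (sub (tm ρ) M) = nfr (sub (tm ρ) A) := kd_eq m.w (tyf_sub hM hρ)
      rw [E_app, hK] at h2
      obtain ⟨h3, h4⟩ := h2
      cases bt with
      | redex A0 M0 _ =>
          rw [subst_eq]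
          obtain ⟨B0, s', c, d, e⟩ := fgen_lam hM _ _ rfl
          obtain ⟨e1, e2⟩ := pi_inj e
          obtain ⟨s0, hA0⟩ := fpi_dom d
          have eK : BetaEq (nfr (sub (tm ρ) A)) (sub (tm ρ) A0) :=
            BetaEq.trans (nfr_beta _) (BetaEq.sub e1 _)
          rw [E_lam_cons] at h3
          have hx : TyF m.P m.D0 (nfr (sub (tm ρ) N)) (sub (tm ρ) A0) :=
            m.w.nfr (tyf_sub (.conv hN hA0 e1) hρ)
          have key := E_sub (m := m) c (wG.cons hA0) (scons N Term.var) ρ
            (ec (nfr (sub (tm ρ) N), info (nfr (sub (tm ρ) A)) N ρ) ρ) p (hρ.cons hx)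
            (by
              intro k
              cases k with
              | zero => exact nfr_beta _
              | succ k => exact .refl _)
            (by
              intro k q hq
              cases k with
              | zero =>
                  rw [fcons_zero, sub_tm_wk] at hq
                  have hq' := hq.conv (BetaEq.symm eK)
                  have hlive : Live m (nfr (sub (tm ρ) A)) := (live_congr eK).2 (h3.1 hq.rel)
                  show E m N ρ q = (ap (info (nfr (sub (tm ρ) A)) N ρ) q, True)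
                  rw [ap_info hb hq' hlive]
                  exact Prod.ext rfl (eq_true (h4 hlive q hq'))
              | succ k => rfl)
            (hl.conv (by
              rw [sub_tm_ec, sub_inst]
              exact BetaEq.inst (BetaEq.symm (nfr_beta _)) (BetaEq.sub e2 _)))
          rw [E_app, hK, E_lam_cons]
          show _ = E m (sub (scons N Term.var) M0) ρ p
          rw [key]
          refine Prod.ext rfl ?_
          show (_ ∧ _) = _
          rw [eq_true h3.2]
          exact eq_true ⟨⟨h3.1, trivial⟩, h4⟩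
      | @appL _ M' _ bt =>
          have eM : BetaEq (sub (tm ρ) M) (sub (tm ρ) M') := .rel _ _ (Beta.sub bt _)
          rw [E_app, E_app, ← kd_congr eM, hK,
            ihM wG _ bt ρ _ hb hρ (lf_push wG hM hN hρ hl (by rw [info, shp_pack, xsh_nfr])) h3]
      | @appR _ _ N' bt =>
          have eN : BetaEq (sub (tm ρ) N) (sub (tm ρ) N') := .rel _ _ (Beta.sub bt _)
          have hN' : Live m (nfr (sub (tm ρ) A)) → ∀ q : List (Arg m),
              Lf m.P m.D0 m.D (nfr (sub (tm ρ) A)) (q.map sp) → E m N ρ q = E m N' ρ q :=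
            fun hL q hq => ihN wG _ bt ρ q hb hρ (hq.conv (nfr_beta _)) (h4 hL q hq)
          have hi : info (nfr (sub (tm ρ) A)) N ρ = info (nfr (sub (tm ρ) A)) N' ρ := by
            by_cases hL : Live m (nfr (sub (tm ρ) A))
            · unfold info
              congr 1
              funext q
              exact clq_congr rfl fun hq => by rw [hN' hL q hq]
            · exact pack_dead hL
          rw [E_app, E_app, hK, ← nfr_congr eN, ← hi]
          refine Prod.ext rfl (propext (and_congr Iff.rfl ?_))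
          refine forall_congr' fun hL => forall_congr' fun q => forall_congr' fun hq => ?_
          rw [hN' hL q hq]
  | @conv G M A B s _ _ e ih _ =>
      intro wG M' bt ρ p hb hρ hl h2
      exact ih wG M' bt ρ p hb hρ (hl.conv (BetaEq.symm (BetaEq.sub e _))) h2

/-- many steps -/
theorem E_red {G : ℕ → Term S} {M M' K : Term S} (h : TyF m.P G M K) (wG : WfF m.P G)
    (r : Red M M') {ρ : Env m} {p : List (Arg m)} (hb : Bd ρ) (hρ : EOk ρ G)
    (hl : Lf m.P m.D0 m.D (sub (tm ρ) K) (p.map sp)) (h2 : (E m M ρ p).2) :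
    E m M ρ p = E m M' ρ p := by
  induction r with
  | refl => rfl
  | tail r b ih =>
      rw [ih]
      exact E_beta (FSR wG h r) wG _ b ρ p hb hρ hl (ih ▸ h2)

/-! ### normal terms are good -/

theorem not_lam_sort {G : ℕ → Term S} {A N : Term S} {s : S} (h : TyF m.P G (lam A N) (sort s)) :
    False := by
  obtain ⟨B, s', _, _, e⟩ := fgen_lam h _ _ rfl
  exact not_sort_pi e

theorem normal_pi_left {A B : Term S} (h : Normal (pi A B)) : Normal A :=
  fun _ b => h _ (.piA _ b)
theorem normal_pi_right {A B : Term S} (h : Normal (pi A B)) : Normal B :=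
  fun _ b => h _ (.piB _ b)
theorem normal_lam_right {A B : Term S} (h : Normal (lam A B)) : Normal B :=
  fun _ b => h _ (.lamM _ b)
theorem normal_app_left {A B : Term S} (h : Normal (app A B)) : Normal A :=
  fun _ b => h _ (.appL _ b)
theorem normal_app_right {A B : Term S} (h : Normal (app A B)) : Normal B :=
  fun _ b => h _ (.appR _ b)
theorem normal_app_not_lam {M N : Term S} (h : Normal (app M N)) : ¬ ∃ A B, M = lam A B := by
  rintro ⟨A, B, rfl⟩
  exact h _ (.redex _ _ _)

/-- **normal terms are good** -/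
theorem E_normal {G : ℕ → Term S} {M K : Term S} (h : TyF m.P G M K) : WfF m.P G → Normal M →
    ∀ (ρ : Env m) (p : List (Arg m)), EOk ρ G → Lf m.P m.D0 m.D (sub (tm ρ) K) (p.map sp) →
      ((∃ A N, M = lam A N) → Live m (sub (tm ρ) K)) → (E m M ρ p).2 := by
  induction h with
  | ax _ => intro _ _ ρ p _ _ _; trivial
  | var _ _ => intro _ _ ρ p _ _ _; trivial
  | @prod G A B a b c hA hB r ihA ihB =>
      intro wG n ρ p hρ hl _
      cases p with
      | cons x p => exact (hl.not_sort_cons (.refl _)).elim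
      | nil =>
      have hc : c ∈ m.D := hl.sort_inv
      obtain ⟨ha, hb⟩ := m.rl _ _ _ r hc
      have tA := tyf_sub hA hρ
      rw [E_pi]
      refine ⟨fun hh => ?_, fun x j hx hj hh => ?_⟩
      · rcases ha with ha | ha
        · refine ihA wG (normal_pi_left n) ρ [] hρ (lf_sort ha) ?_
          rintro ⟨A0, N0, rfl⟩
          exact (not_lam_sort hA).elim
        · exact absurd (hi_of tA ha) hh
      · have hx' : TyF m.P m.D0 ((x, j) : Arg m).1 (sub (tm ρ) A) := .conv hx tA (nfr_beta _)
        rcases hb with hb | hb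
        · refine ihB (wG.cons hA) (normal_pi_right n) (ec (x, j) ρ) [] (hρ.cons hx')
            (lf_sort hb) ?_
          rintro ⟨A0, N0, rfl⟩
          exact (not_lam_sort hB).elim
        · exact absurd (hi_of (tyf_sub hB (hρ.cons hx')) hb) hh
  | @abs G A M B s hM hp ihM _ =>
      intro wG n ρ p hρ hl hL
      have hp' := tyf_sub hp hρ
      obtain ⟨sA, hA⟩ := fpi_dom hp
      cases p with
      | nil => trivial
      | cons x p =>
          rw [List.map_cons] at hl
          obtain ⟨g1, _, g3⟩ := hl.pi_inv (.refl _) hp'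
          have hrel := hl.rel
          have hL' : Live m (pi (sub (tm ρ) A) (sub (ups (tm ρ)) B)) := hL ⟨_, _, rfl⟩
          rw [E_lam_cons]
          refine ⟨fun hA' => ?_, ?_⟩
          · rcases hL' with h | h
            · exact .inr (sgn_dom m.w.wf h hp' hrel hA')
            · exact .inl (sgn_dom m.w.wf h hp' hrel hA')
          · have g3' := g3
            rw [show (sp x).1 = x.1 from rfl, ← sub_tm_ec] at g3'
            refine ihM (wG.cons hA) (normal_lam_right n) (ec x ρ) p (hρ.cons g1) g3' fun _ => ?_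
            rw [sub_tm_ec]
            rcases hL' with h | h
            · exact .inl (sgn_cod m.w.wf h g1 g3.rel)
            · exact .inr (sgn_cod m.w.wf h g1 g3.rel)
  | @appl G M N A B hM hN ihM ihN =>
      intro wG n ρ p hρ hl _
      have hK : kd m.P m.D0 (sub (tm ρ) M) = nfr (sub (tm ρ) A) := kd_eq m.w (tyf_sub hM hρ)
      rw [E_app, hK]
      refine ⟨ihM wG (normal_app_left n) ρ _ hρ
        (lf_push wG hM hN hρ hl (by rw [info, shp_pack, xsh_nfr])) ?_, ?_⟩
      · intro h; exact (normal_app_not_lam n h).elim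
      · intro hL q hq
        exact ihN wG (normal_app_right n) ρ q hρ (hq.conv (nfr_beta _)) fun _ =>
          (live_congr (nfr_beta _)).1 hL
  | @conv G M A B s _ _ e ih _ =>
      intro wG n ρ p hρ hl hL
      have e' := BetaEq.symm (BetaEq.sub e (tm ρ))
      exact ih wG n ρ p hρ (hl.conv e') fun h => (live_congr e').1 (hL h)

/-! ### instantiation -/

/-- **instantiation** (`R4`): for a `D`-bound domain, the value of a normal codomain at the info
of the argument is the value of the normal form of the instance. -/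
theorem E_inst {G : ℕ → Term S} {A B N : Term S} {a b c : S} (wG : WfF m.P G)
    (hA : TyF m.P G A (sort a)) (hB : TyF m.P (fcons A G) B (sort b)) (nB : Normal B)
    (hN : TyF m.P G N A) (nN : Normal N) (r : m.P.rule a b c) (hb : b ∈ m.D) (hc : c ∈ m.D)
    {ρ : Env m} (hρ : EOk ρ G) (hbd : Bd ρ) {B' : Term S} (hB' : Red (inst N B) B') :
    shp (info (sub (tm ρ) A) N ρ) = qsh m.P m.D0 m.D (sub (tm ρ) A) ∧
    E m B (ec (nfr (sub (tm ρ) N), info (sub (tm ρ) A) N ρ) ρ) [] = E m B' ρ [] := by
  have tA := tyf_sub hA hρ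
  have hs : Rel m.P m.D0 m.D (sub (tm ρ) A) → sgn m.P m.D0 m.D true (sub (tm ρ) A) := fun hr =>
    sgn_bound m.w.wf ⟨_, .refl _, tA⟩ r hb hc hr
  have hx : TyF m.P m.D0 (nfr (sub (tm ρ) N)) (sub (tm ρ) A) := m.w.nfr (tyf_sub hN hρ)
  refine ⟨?_, ?_⟩
  · unfold info
    rw [shp_pack]
    unfold xsh qsh
    by_cases hr : Rel m.P m.D0 m.D (sub (tm ρ) A)
    · simp only [if_pos hr, if_pos (hs hr)]
    · simp only [if_neg hr]
  · have key := E_sub (m := m) hB (wG.cons hA) (scons N Term.var) ρ
      (ec (nfr (sub (tm ρ) N), info (sub (tm ρ) A) N ρ) ρ) [] (hρ.cons hx)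
      (by
        intro k
        cases k with
        | zero => exact nfr_beta _
        | succ k => exact .refl _)
      (by
        intro k q hq
        cases k with
        | zero =>
            rw [fcons_zero, sub_tm_wk] at hq
            have hL : Live m (sub (tm ρ) A) := .inl (hs hq.rel)
            show E m N ρ q = (ap (info (sub (tm ρ) A) N ρ) q, True)
            rw [ap_info hbd hq hL]
            exact Prod.ext rfl (eq_true (E_normal hN wG nN ρ q hρ hq fun _ => hL))
        | succ k => rfl)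
      (lf_sort hb)
    rw [← key]
    have hgood : (E m B (ec (nfr (sub (tm ρ) N), info (sub (tm ρ) A) N ρ) ρ) []).2 := by
      refine E_normal hB (wG.cons hA) nB _ [] (hρ.cons hx) (lf_sort hb) ?_
      rintro ⟨A0, N0, rfl⟩
      exact (not_lam_sort hB).elim
    rw [← key] at hgood
    exact E_red (tyf_inst wG hB hN) wG hB' hbd hρ (lf_sort hb) hgood

end Crest.Agent.R298.Sb658
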