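import Crest.Agent.R298.Cons_360
import Crest.Agent.R298.Ty_452

/-!
R298 (S0452), helper511: the stages block, part 1.
* `Jd P C`: an abstract typing judgement (subject, type) over an abstract type `C` of contexts,
  with its metatheory as fields.  Instances: `Typed P` (file `Stg2_511`), function contexts, big
  context.
* `FS`: beta conversion up to the final sort; types of one term are `FS`-equal (`Jd.uniq`).
* `Jd.Ge rk i Γ A`: "the class of the type `A` is at least `i`".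
-/

set_option autoImplicit false

namespace Crest.Agent.R298.Stg511

open Crest.LogicCS.PTS Crest.LogicCS.PTS.Term Relation
open Crest.Agent.R298.Sub452 Crest.Agent.R298.Par452
open Crest.Agent.R298.Mem360 Crest.Agent.R298.Mem360.MT

universe u v
variable {S : Type u}

/-! ### conversion up to the final sort -/

/-- equality up to the final sort -/
inductive Fin : Term S → Term S → Prop
  | sort (s t : S) : Fin (.sort s) (.sort t)
  | pi {B B' : Term S} (A : Term S) : Fin B B' → Fin (.pi A B) (.pi A B')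

theorem Fin.symm {A B : Term S} (h : Fin A B) : Fin B A := by
  induction h with
  | sort s t => exact .sort t s
  | pi A _ ih => exact .pi A ih

theorem Fin.trans {A B D : Term S} (h : Fin A B) (h' : Fin B D) : Fin A D := by
  induction h generalizing D with
  | sort s t => cases h' with | sort _ u => exact .sort s u
  | pi A _ ih => cases h' with | pi _ h' => exact .pi A (ih h')

theorem Fin.sub {A B : Term S} (h : Fin A B) (σ : ℕ → Term S) :
    Fin (Sub452.sub σ A) (Sub452.sub σ B) := by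
  induction h generalizing σ with
  | sort s t => exact .sort s t
  | pi A _ ih => exact .pi _ (ih _)

theorem Fin.beta {A B B' : Term S} (h : Fin A B) (r : Beta B B') : ∃ A', Beta A A' ∧ Fin A' B' := by
  induction h generalizing B' with
  | sort s t => cases r
  | pi A h ih =>
      cases r with
      | piA _ r => exact ⟨_, .piA _ r, .pi _ h⟩
      | piB _ r =>
          obtain ⟨A', r', h'⟩ := ih r
          exact ⟨_, .piB _ r', .pi _ h'⟩

theorem Fin.red {A B B' : Term S} (h : Fin A B) (r : Red B B') : ∃ A', Red A A' ∧ Fin A' B' := by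
  induction r with
  | refl => exact ⟨A, .refl, h⟩
  | tail _ r ih =>
      obtain ⟨A', r', h'⟩ := ih
      obtain ⟨A'', r'', h''⟩ := h'.beta r
      exact ⟨A'', r'.tail r'', h''⟩

/-- beta conversion up to the final sort -/
def FS (A B : Term S) : Prop :=
  BetaEq A B ∨ ∃ A' B', BetaEq A A' ∧ BetaEq B B' ∧ Fin A' B'

theorem FS.of_eq {A B : Term S} (h : BetaEq A B) : FS A B := .inl h

theorem FS.refl (A : Term S) : FS A A := .inl (.refl A)

theorem FS.of_fin {A B : Term S} (h : Fin A B) : FS A B := .inr ⟨A, B, .refl _, .refl _, h⟩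

theorem FS.sort (s t : S) : FS (.sort s) (.sort t) := .of_fin (.sort s t)

theorem FS.symm {A B : Term S} (h : FS A B) : FS B A := by
  rcases h with h | ⟨A', B', h1, h2, h3⟩
  · exact .inl h.symm
  · exact .inr ⟨B', A', h2, h1, h3.symm⟩

theorem FS.trans {A B D : Term S} (h : FS A B) (h' : FS B D) : FS A D := by
  rcases h with h | ⟨A', B', h1, h2, h3⟩
  · rcases h' with h' | ⟨B'', D', h1', h2', h3'⟩
    · exact .inl (BetaEq.trans h h')
    · exact .inr ⟨B'', D', BetaEq.trans h h1', h2', h3'⟩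
  · rcases h' with h' | ⟨B'', D', h1', h2', h3'⟩
    · exact .inr ⟨A', B', h1, BetaEq.trans (BetaEq.symm h') h2, h3⟩
    · obtain ⟨Q, r, r'⟩ := CR (BetaEq.trans (BetaEq.symm h2) h1')
      obtain ⟨A1, ra, ha⟩ := h3.red r
      obtain ⟨D1, rd, hd⟩ := h3'.symm.red r'
      exact .inr ⟨A1, D1, BetaEq.trans h1 ra.eq, BetaEq.trans h2' rd.eq, ha.trans hd.symm⟩

theorem FS.sub {A B : Term S} (h : FS A B) (σ : ℕ → Term S) :
    FS (Sub452.sub σ A) (Sub452.sub σ B) := by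
  rcases h with h | ⟨A', B', h1, h2, h3⟩
  · exact .inl (BetaEq.sub h σ)
  · exact .inr ⟨_, _, BetaEq.sub h1 σ, BetaEq.sub h2 σ, h3.sub σ⟩

theorem FS.pi {B B' : Term S} (A : Term S) (h : FS B B') : FS (.pi A B) (.pi A B') := by
  rcases h with h | ⟨A', B', h1, h2, h3⟩
  · exact .inl (BetaEq.pi (.refl _) h)
  · exact .inr ⟨_, _, BetaEq.pi (.refl A) h1, BetaEq.pi (.refl A) h2, h3.pi A⟩

/-- a term `FS`-equal to a product reduces to a product -/
theorem FS.pi_left {A B X : Term S} (h : FS (.pi A B) X) :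
    ∃ C D, Red X (.pi C D) ∧ BetaEq A C ∧ FS B D := by
  rcases h with h | ⟨Y, Z, h1, h2, h3⟩
  · obtain ⟨Q, r, r'⟩ := CR h
    obtain ⟨C, D, rfl, rc, rd⟩ := red_pi r
    exact ⟨C, D, r', rc.eq, .inl rd.eq⟩
  · cases h3 with
    | sort s t => exact (not_sort_pi (BetaEq.symm h1)).elim
    | pi A0 h3 =>
        rename_i B0 B1
        obtain ⟨e1, e2⟩ := pi_inj h1
        obtain ⟨Q, r, r'⟩ := CR h2
        obtain ⟨C, D, rfl, rc, rd⟩ := red_pi r'
        exact ⟨C, D, r, BetaEq.trans e1 rc.eq, .inr ⟨_, _, e2, BetaEq.symm rd.eq, h3⟩⟩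

theorem FS.pi_inj {A B A' B' : Term S} (h : FS (.pi A B) (.pi A' B')) :
    BetaEq A A' ∧ FS B B' := by
  obtain ⟨C, D, r, h1, h2⟩ := h.pi_left
  obtain ⟨C', D', e, rc, rd⟩ := red_pi r
  injection e with e1 e2
  subst e1; subst e2
  exact ⟨BetaEq.trans h1 (BetaEq.symm rc.eq), h2.trans (.inl (BetaEq.symm rd.eq))⟩

theorem FS.inst {B B' : Term S} (h : FS B B') (N : Term S) :
    FS (Sub452.inst N B) (Sub452.inst N B') := h.sub _

/-! ### abstract typing judgements -/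

/-- An abstract typing judgement for the specification `P`, over a type `C` of contexts. -/
structure Jd (P : Spec S) (C : Type v) where
  /-- `T Γ M A`: the term `M` has type `A` in the context `Γ` -/
  T : C → Term S → Term S → Prop
  /-- context extension -/
  cons : Term S → C → C
  /-- `Sb σ Γ Δ`: typed substitutions, `σ` sends `Γ`-terms to `Δ`-terms -/
  Sb : (ℕ → Term S) → C → C → Prop
  /-- the declared variables -/
  Dom : C → ℕ → Prop
  conv : ∀ {Γ M A B s}, T Γ M A → T Γ B (.sort s) → BetaEq A B → T Γ M B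
  tc : ∀ {Γ M A}, T Γ M A → (∃ s, A = .sort s) ∨ ∃ s, T Γ A (.sort s)
  gen_sort : ∀ {Γ s A}, T Γ (.sort s) A → ∃ s', P.ax s s' ∧ BetaEq A (.sort s')
  var_unique : ∀ {Γ i A B}, T Γ (.var i) A → T Γ (.var i) B → BetaEq A B
  gen_pi : ∀ {Γ A B D}, T Γ (.pi A B) D → ∃ s₁ s₂ s₃, T Γ A (.sort s₁) ∧
    T (cons A Γ) B (.sort s₂) ∧ P.rule s₁ s₂ s₃ ∧ BetaEq D (.sort s₃)
  gen_lam : ∀ {Γ A M D}, T Γ (.lam A M) D → ∃ B s, T (cons A Γ) M B ∧ T Γ (.pi A B) (.sort s) ∧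
    BetaEq D (.pi A B)
  gen_app : ∀ {Γ M N D}, T Γ (.app M N) D → ∃ A B, T Γ M (.pi A B) ∧ T Γ N A ∧
    BetaEq D (inst N B)
  sr : ∀ {Γ M M' A}, T Γ M A → Beta M M' → T Γ M' A
  var_zero : ∀ {Γ A s}, T Γ A (.sort s) → T (cons A Γ) (.var 0) (wk A)
  dom_var : ∀ {Γ i A}, T Γ (.var i) A → Dom Γ i
  dom_succ : ∀ {Γ i A}, Dom (cons A Γ) (i + 1) → Dom Γ i
  var_dom : ∀ {Γ i M B}, T Γ M B → Dom Γ i → ∃ D, T Γ (.var i) D
  sub : ∀ {σ Γ Δ M A}, Sb σ Γ Δ → T Γ M A → T Δ (Sub452.sub σ M) (Sub452.sub σ A)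
  sb_ups : ∀ {σ Γ Δ A s}, Sb σ Γ Δ → T Δ (Sub452.sub σ A) (.sort s) →
    Sb (ups σ) (cons A Γ) (cons (Sub452.sub σ A) Δ)
  sb_wk : ∀ {Γ A s}, T Γ A (.sort s) → Sb (fun i => .var (i + 1)) Γ (cons A Γ)
  sb_inst : ∀ {Γ A N s}, T Γ A (.sort s) → T Γ N A → Sb (scons N .var) (cons A Γ) Γ
  sb_conv : ∀ {Γ A A' s s'}, T Γ A (.sort s) → T Γ A' (.sort s') → BetaEq A A' →
    Sb .var (cons A Γ) (cons A' Γ)

namespace Jd

variable {P : Spec S} {C : Type v} (J : Jd P C)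

theorem SR {Γ : C} {M M' A : Term S} (h : J.T Γ M A) (r : Red M M') : J.T Γ M' A := by
  induction r with
  | refl => exact h
  | tail _ b ih => exact J.sr ih b

theorem red_type {Γ : C} {M A A' : Term S} (h : J.T Γ M A) (r : Red A A') : J.T Γ M A' := by
  rcases J.tc h with ⟨s, rfl⟩ | ⟨s, hA⟩
  · rw [red_sort r]; exact h
  · exact J.conv h (J.SR hA r) r.eq

theorem sort_of_eq {Γ : C} {M A : Term S} {s : S} (h : J.T Γ M A) (e : BetaEq A (.sort s)) :
    J.T Γ M (.sort s) := J.red_type h (red_of_eq_sort e)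

theorem pi_typed {Γ : C} {M A B : Term S} (h : J.T Γ M (.pi A B)) :
    ∃ s, J.T Γ (.pi A B) (.sort s) := by
  rcases J.tc h with ⟨s, e⟩ | h
  · cases e
  · exact h

theorem dom_typed {Γ : C} {A B D : Term S} (h : J.T Γ (.pi A B) D) : ∃ s, J.T Γ A (.sort s) := by
  obtain ⟨s₁, s₂, s₃, h1, _⟩ := J.gen_pi h
  exact ⟨s₁, h1⟩

theorem ann_typed {Γ : C} {A M D : Term S} (h : J.T Γ (.lam A M) D) : ∃ s, J.T Γ A (.sort s) := by
  obtain ⟨B, s, _, h2, _⟩ := J.gen_lam h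
  exact J.dom_typed h2

theorem weak {Γ : C} {M B A : Term S} {s : S} (h : J.T Γ M B) (h' : J.T Γ A (.sort s)) :
    J.T (J.cons A Γ) (wk M) (wk B) := by
  have := J.sub (J.sb_wk h') h
  rwa [← ren_eq_sub (fun i => i + 1), ← ren_eq_sub (fun i => i + 1)] at this

theorem inst {Γ : C} {A M B N : Term S} {s : S} (h : J.T (J.cons A Γ) M B)
    (hA : J.T Γ A (.sort s)) (hN : J.T Γ N A) : J.T Γ (Sub452.inst N M) (Sub452.inst N B) :=
  J.sub (J.sb_inst hA hN) h

/-- types are unique up to the final sort -/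
theorem uniq {Γ : C} {M A B : Term S} (h : J.T Γ M A) (h' : J.T Γ M B) : FS A B := by
  induction M generalizing Γ A B with
  | var i => exact .of_eq (J.var_unique h h')
  | sort s =>
      obtain ⟨s1, _, e1⟩ := J.gen_sort h
      obtain ⟨s2, _, e2⟩ := J.gen_sort h'
      exact (FS.of_eq e1).trans ((FS.sort s1 s2).trans (FS.of_eq e2).symm)
  | app F N ihF _ =>
      obtain ⟨A1, B1, h1, h2, e1⟩ := J.gen_app h
      obtain ⟨A2, B2, h3, h4, e2⟩ := J.gen_app h'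
      obtain ⟨-, e⟩ := (ihF h1 h3).pi_inj
      exact (FS.of_eq e1).trans ((e.inst N).trans (FS.of_eq e2).symm)
  | lam A0 M ih1 ih2 =>
      obtain ⟨B1, s1, h1, h2, e1⟩ := J.gen_lam h
      obtain ⟨B2, s2, h3, h4, e2⟩ := J.gen_lam h'
      exact (FS.of_eq e1).trans (((ih2 h1 h3).pi A0).trans (FS.of_eq e2).symm)
  | pi A0 B0 ih1 ih2 =>
      obtain ⟨_, _, s1, _, _, _, e1⟩ := J.gen_pi h
      obtain ⟨_, _, s2, _, _, _, e2⟩ := J.gen_pi h'
      exact (FS.of_eq e1).trans ((FS.sort s1 s2).trans (FS.of_eq e2).symm)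

/-! ### the class of a type -/

/-- the class of the type `A` is at least `i`: some legal type which equals `A` up to the final
sort has a sort of rank at least `i` -/
def Ge (rk : S → ℕ) (i : ℕ) (Γ : C) (A : Term S) : Prop :=
  ∃ A' s, FS A A' ∧ J.T Γ A' (.sort s) ∧ i ≤ rk s

variable {rk : S → ℕ} {i j : ℕ}

theorem Ge.of_typed {J : Jd P C} {Γ : C} {A : Term S} {s : S} (h : J.T Γ A (.sort s))
    (hs : i ≤ rk s) : J.Ge rk i Γ A := ⟨A, s, .refl A, h, hs⟩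

theorem Ge.mono {J : Jd P C} {Γ : C} {A : Term S} (h : J.Ge rk j Γ A) (hi : i ≤ j) :
    J.Ge rk i Γ A := by
  obtain ⟨A', s, h1, h2, h3⟩ := h
  exact ⟨A', s, h1, h2, hi.trans h3⟩

theorem Ge.fs {J : Jd P C} {Γ : C} {A B : Term S} (h : J.Ge rk i Γ A) (e : FS A B) :
    J.Ge rk i Γ B := by
  obtain ⟨A', s, h1, h2, h3⟩ := h
  exact ⟨A', s, e.symm.trans h1, h2, h3⟩

theorem Ge.eq {J : Jd P C} {Γ : C} {A B : Term S} (h : J.Ge rk i Γ A) (e : BetaEq A B) :
    J.Ge rk i Γ B := h.fs (.of_eq e)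

theorem Ge.sub {J : Jd P C} {Γ Δ : C} {A : Term S} {σ : ℕ → Term S} (h : J.Ge rk i Γ A)
    (hs : J.Sb σ Γ Δ) : J.Ge rk i Δ (Sub452.sub σ A) := by
  obtain ⟨A', s, h1, h2, h3⟩ := h
  exact ⟨_, s, h1.sub σ, J.sub hs h2, h3⟩

theorem Ge.inst {J : Jd P C} {Γ : C} {A B N : Term S} {s : S} (h : J.Ge rk i (J.cons A Γ) B)
    (hA : J.T Γ A (.sort s)) (hN : J.T Γ N A) : J.Ge rk i Γ (Sub452.inst N B) :=
  h.sub (J.sb_inst hA hN)

theorem Ge.wk {J : Jd P C} {Γ : C} {A B : Term S} {s : S} (h : J.Ge rk i Γ B)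
    (hA : J.T Γ A (.sort s)) : J.Ge rk i (J.cons A Γ) (Sub452.wk B) := by
  have := h.sub (J.sb_wk hA)
  rwa [← ren_eq_sub (fun i => i + 1)] at this

theorem Ge.ctx {J : Jd P C} {Γ : C} {A A' B : Term S} {s s' : S} (h : J.Ge rk i (J.cons A Γ) B)
    (hA : J.T Γ A (.sort s)) (hA' : J.T Γ A' (.sort s')) (e : BetaEq A A') :
    J.Ge rk i (J.cons A' Γ) B := by
  have := h.sub (J.sb_conv hA hA' e)
  rwa [sub_id] at this

theorem Ge.zero {J : Jd P C} {Γ : C} {M A : Term S} (h : J.T Γ M A) (hA : ∀ s, A ≠ .sort s) :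
    J.Ge rk 0 Γ A := by
  rcases J.tc h with ⟨s, e⟩ | ⟨s, h⟩
  · exact (hA s e).elim
  · exact .of_typed h (Nat.zero_le _)

/-- class of a product versus the classes of domain and codomain -/
theorem Ge.pi_inv {J : Jd P C} (hrk : ∀ a b c, P.rule a b c → rk c ≤ rk a ∧ rk c ≤ rk b)
    {Γ : C} {A B : Term S} {s : S} (h : J.Ge rk i Γ (.pi A B)) (hA : J.T Γ A (.sort s)) :
    J.Ge rk i Γ A ∧ J.Ge rk i (J.cons A Γ) B := by
  obtain ⟨X, t, h1, h2, h3⟩ := h
  obtain ⟨C', D, r, e1, e2⟩ := h1.pi_left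
  obtain ⟨a, b, c, ha, hb, hr, e3⟩ := J.gen_pi (J.SR h2 r)
  have e4 := sort_inj e3
  subst e4
  obtain ⟨h4, h5⟩ := hrk a b t hr
  refine ⟨⟨C', a, .of_eq e1, ha, h3.trans h4⟩, ?_⟩
  have hB : J.Ge rk i (J.cons C' Γ) B := ⟨D, b, e2, hb, h3.trans h5⟩
  exact hB.ctx ha hA (BetaEq.symm e1)

/-- the class of a function term -/
def Rge (rk : S → ℕ) (i : ℕ) (Γ : C) (F : Term S) : Prop :=
  ∃ A, J.T Γ F A ∧ J.Ge rk i Γ A

theorem Rge.mono {J : Jd P C} {Γ : C} {F : Term S} (h : J.Rge rk j Γ F) (hi : i ≤ j) :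
    J.Rge rk i Γ F := by
  obtain ⟨A, h1, h2⟩ := h
  exact ⟨A, h1, h2.mono hi⟩

/-- the class does not depend on the type chosen -/
theorem Rge.ge {J : Jd P C} {Γ : C} {F A : Term S} (h : J.Rge rk i Γ F) (hF : J.T Γ F A) :
    J.Ge rk i Γ A := by
  obtain ⟨B, h1, h2⟩ := h
  exact h2.fs (J.uniq h1 hF)

theorem Rge.sub {J : Jd P C} {Γ Δ : C} {F : Term S} {σ : ℕ → Term S} (h : J.Rge rk i Γ F)
    (hs : J.Sb σ Γ Δ) : J.Rge rk i Δ (Sub452.sub σ F) := by
  obtain ⟨A, h1, h2⟩ := h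
  exact ⟨_, J.sub hs h1, h2.sub hs⟩

theorem Rge.red {J : Jd P C} {Γ : C} {F F' : Term S} (h : J.Rge rk i Γ F) (r : Red F F') :
    J.Rge rk i Γ F' := by
  obtain ⟨A, h1, h2⟩ := h
  exact ⟨A, J.SR h1 r, h2⟩

theorem Rge.of_lam {J : Jd P C} (hrk : ∀ a b c, P.rule a b c → rk c ≤ rk a ∧ rk c ≤ rk b)
    {Γ : C} {A M : Term S} (h : J.Rge rk i Γ (.lam A M)) :
    J.Ge rk i Γ A ∧ J.Rge rk i (J.cons A Γ) M := by
  obtain ⟨D, h1, h2⟩ := h
  obtain ⟨B, s, h3, h4, h5⟩ := J.gen_lam h1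
  obtain ⟨s', h6⟩ := J.dom_typed h4
  obtain ⟨h7, h8⟩ := (h2.eq h5).pi_inv hrk h6
  exact ⟨h7, B, h3, h8⟩

end Jd

end Crest.Agent.R298.Stg511
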