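import Crest.Agent.R298.Stg1_511

/-!
R298 (S0452), helper511: the stages block, part 2.
* `Jd.MOk Γ M`: every subterm of the memory term `M` is typed (in its local context);
* `Jd.GG rk i Γ M`: every redex of `M` has class at least `i`;
* preservation of both by every step of the memory calculus;
* `Jd.StepI rk i`: steps which contract a redex of class not above `i`, `Jd.SNi`;
* `Jd.Stage`, `Jd.stage_of_sni`, assembly `Jd.mwn_of_stages`.
-/

set_option autoImplicit false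

namespace Crest.Agent.R298.Stg511

open Crest.LogicCS.PTS Crest.LogicCS.PTS.Term Relation
open Crest.Agent.R298.Sub452 Crest.Agent.R298.Par452
open Crest.Agent.R298.Mem360 Crest.Agent.R298.Mem360.MT

universe u v
variable {S : Type u}

namespace Jd

variable {P : Spec S} {C : Type v} (J : Jd P C)

/-! ### typed memory terms -/

/-- every subterm of the memory term (also inside the memories) has a typed erasure in its local
context -/
def MOk : C → MT S → Prop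
  | Γ, .var j => ∃ A, J.T Γ (.var j) A
  | Γ, .sort s => ∃ A, J.T Γ (.sort s) A
  | Γ, .app F Q => (∃ A, J.T Γ (.app (er F) (er Q)) A) ∧ MOk Γ F ∧ MOk Γ Q
  | Γ, .lam A M => (∃ D, J.T Γ (.lam (er A) (er M)) D) ∧ MOk Γ A ∧ MOk (J.cons (er A) Γ) M
  | Γ, .pi A B => (∃ D, J.T Γ (.pi (er A) (er B)) D) ∧ MOk Γ A ∧ MOk (J.cons (er A) Γ) B
  | Γ, .mem M N => MOk Γ M ∧ MOk Γ N

variable {J}

theorem MOk.typed {Γ : C} {M : MT S} (h : J.MOk Γ M) : ∃ A, J.T Γ (er M) A := by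
  induction M generalizing Γ with
  | var i => exact h
  | sort s => exact h
  | app F Q _ _ => exact h.1
  | lam A M _ _ => exact h.1
  | pi A B _ _ => exact h.1
  | mem M N ih _ => exact ih h.1

theorem MOk.emb {Γ : C} {M A : Term S} (h : J.T Γ M A) : J.MOk Γ (emb M) := by
  induction M generalizing Γ A with
  | var i => exact ⟨A, h⟩
  | sort s => exact ⟨A, h⟩
  | app F Q ih1 ih2 =>
      obtain ⟨A1, B1, h1, h2, _⟩ := J.gen_app h
      exact ⟨⟨A, by simpa using h⟩, ih1 h1, ih2 h2⟩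
  | lam A0 M ih1 ih2 =>
      obtain ⟨B, s, h1, h2, _⟩ := J.gen_lam h
      obtain ⟨s', h3⟩ := J.dom_typed h2
      exact ⟨⟨A, by simpa using h⟩, ih1 h3, by simpa using ih2 h1⟩
  | pi A0 B0 ih1 ih2 =>
      obtain ⟨_, _, _, h1, h2, _⟩ := J.gen_pi h
      exact ⟨⟨A, by simpa using h⟩, ih1 h1, by simpa using ih2 h2⟩

/-- renaming of a typed memory term -/
theorem MOk.mren {Γ Δ : C} {M : MT S} {ρ : ℕ → ℕ} (h : J.MOk Γ M)
    (hs : J.Sb (fun i => .var (ρ i)) Γ Δ) : J.MOk Δ (mren ρ M) := by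
  induction M generalizing Γ Δ ρ with
  | var i =>
      obtain ⟨A, h⟩ := h
      exact ⟨_, J.sub hs h⟩
  | sort s =>
      obtain ⟨A, h⟩ := h
      exact ⟨_, J.sub hs h⟩
  | app F Q ih1 ih2 =>
      obtain ⟨⟨A, h0⟩, h1, h2⟩ := h
      have := J.sub hs h0
      rw [← ren_eq_sub, ren_app, ← er_mren, ← er_mren] at this
      exact ⟨⟨_, this⟩, ih1 h1 hs, ih2 h2 hs⟩
  | mem F Q ih1 ih2 => exact ⟨ih1 h.1 hs, ih2 h.2 hs⟩
  | lam A M ih1 ih2 =>
      obtain ⟨⟨D, h0⟩, h1, h2⟩ := h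
      have h3 := J.sub hs h0
      rw [← ren_eq_sub] at h3
      obtain ⟨s, h4⟩ := J.ann_typed h3
      have hs' : J.Sb (fun i => .var (up ρ i)) (J.cons (er A) Γ) (J.cons (ren ρ (er A)) Δ) := by
        have := J.sb_ups hs (by rwa [ren_eq_sub] at h4)
        rwa [ups_ren, ← ren_eq_sub] at this
      refine ⟨⟨Sub452.sub (fun i => .var (ρ i)) D, ?_⟩, ih1 h1 hs, ?_⟩
      · rw [er_mren, er_mren]; exact h3
      · rw [er_mren]; exact ih2 h2 hs'
  | pi A M ih1 ih2 =>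
      obtain ⟨⟨D, h0⟩, h1, h2⟩ := h
      have h3 := J.sub hs h0
      rw [← ren_eq_sub] at h3
      obtain ⟨s, h4⟩ := J.dom_typed h3
      have hs' : J.Sb (fun i => .var (up ρ i)) (J.cons (er A) Γ) (J.cons (ren ρ (er A)) Δ) := by
        have := J.sb_ups hs (by rwa [ren_eq_sub] at h4)
        rwa [ups_ren, ← ren_eq_sub] at this
      refine ⟨⟨Sub452.sub (fun i => .var (ρ i)) D, ?_⟩, ih1 h1 hs, ?_⟩
      · rw [er_mren, er_mren]; exact h3
      · rw [er_mren]; exact ih2 h2 hs'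

theorem MOk.mwk {Γ : C} {M : MT S} {A : Term S} {s : S} (h : J.MOk Γ M)
    (hA : J.T Γ A (.sort s)) : J.MOk (J.cons A Γ) (mwk M) := h.mren (J.sb_wk hA)

variable (J) in
/-- typed substitutions of memory terms -/
def MSb (σ : ℕ → MT S) (Γ Δ : C) : Prop :=
  J.Sb (fun i => er (σ i)) Γ Δ ∧ ∀ i, J.Dom Γ i → J.MOk Δ (σ i)

theorem MSb.mups {Γ Δ : C} {σ : ℕ → MT S} (h : J.MSb σ Γ Δ) {A : Term S} {s : S}
    (hA : J.T Δ (Sub452.sub (fun i => er (σ i)) A) (.sort s)) :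
    J.MSb (mups σ) (J.cons A Γ) (J.cons (Sub452.sub (fun i => er (σ i)) A) Δ) := by
  refine ⟨?_, ?_⟩
  · rw [er_mups]; exact J.sb_ups h.1 hA
  · intro i hi
    cases i with
    | zero => exact ⟨_, J.var_zero hA⟩
    | succ i => exact (h.2 i (J.dom_succ hi)).mwk hA

theorem MOk.msub {Γ Δ : C} {M : MT S} {σ : ℕ → MT S} (h : J.MOk Γ M)
    (hs : J.MSb σ Γ Δ) : J.MOk Δ (msub σ M) := by
  induction M generalizing Γ Δ σ with
  | var i =>
      obtain ⟨A, h⟩ := h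
      exact hs.2 i (J.dom_var h)
  | sort s =>
      obtain ⟨A, h⟩ := h
      exact ⟨_, J.sub hs.1 h⟩
  | app F Q ih1 ih2 =>
      obtain ⟨⟨A, h0⟩, h1, h2⟩ := h
      have := J.sub hs.1 h0
      rw [sub_app, ← er_msub, ← er_msub] at this
      exact ⟨⟨_, this⟩, ih1 h1 hs, ih2 h2 hs⟩
  | mem F Q ih1 ih2 => exact ⟨ih1 h.1 hs, ih2 h.2 hs⟩
  | lam A M ih1 ih2 =>
      obtain ⟨⟨D, h0⟩, h1, h2⟩ := h
      have h3 := J.sub hs.1 h0
      obtain ⟨s, h4⟩ := J.ann_typed h3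
      refine ⟨⟨Sub452.sub (fun i => er (σ i)) D, ?_⟩, ih1 h1 hs, ?_⟩
      · rw [er_msub, er_msub, er_mups]; exact h3
      · rw [er_msub]; exact ih2 h2 (hs.mups h4)
  | pi A M ih1 ih2 =>
      obtain ⟨⟨D, h0⟩, h1, h2⟩ := h
      have h3 := J.sub hs.1 h0
      obtain ⟨s, h4⟩ := J.dom_typed h3
      refine ⟨⟨Sub452.sub (fun i => er (σ i)) D, ?_⟩, ih1 h1 hs, ?_⟩
      · rw [er_msub, er_msub, er_mups]; exact h3
      · rw [er_msub]; exact ih2 h2 (hs.mups h4)

theorem MSb.inst {Γ : C} {A : Term S} {s : S} {Q : MT S} (hA : J.T Γ A (.sort s))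
    (hQ : J.T Γ (er Q) A) (h : J.MOk Γ Q) : J.MSb (mscons Q .var) (J.cons A Γ) Γ := by
  refine ⟨?_, ?_⟩
  · rw [er_mscons]; exact J.sb_inst hA hQ
  · intro i hi
    cases i with
    | zero => exact h
    | succ i => exact J.var_dom hQ (J.dom_succ hi)

theorem MOk.minst {Γ : C} {A : Term S} {s : S} {Q M : MT S} (hM : J.MOk (J.cons A Γ) M)
    (hA : J.T Γ A (.sort s)) (hQ : J.T Γ (er Q) A) (h : J.MOk Γ Q) : J.MOk Γ (minst Q M) :=
  hM.msub (.inst hA hQ h)

theorem MOk.ctx {Γ : C} {A A' : Term S} {s s' : S} {M : MT S} (h : J.MOk (J.cons A Γ) M)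
    (hA : J.T Γ A (.sort s)) (hA' : J.T Γ A' (.sort s')) (e : BetaEq A A') :
    J.MOk (J.cons A' Γ) M := by
  have := h.mren (ρ := fun i => i) (J.sb_conv hA hA' e)
  rwa [mren_id] at this

theorem er_step_red {M M' : MT S} (h : MStep M M') : Red (er M) (er M') :=
  er_red (.single h)

/-- the data of a redex at a distance -/
theorem MOk.redex {Γ : C} {F Q R : MT S} (h : J.MOk Γ (.app F Q)) (d : dist F Q = some R) :
    ∃ A M B s, er F = .lam A M ∧ er R = Sub452.inst (er Q) M ∧ J.T (J.cons A Γ) M B ∧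
      J.T Γ A (.sort s) ∧ J.T Γ (er Q) A ∧ J.T Γ (.lam A M) (.pi A B) := by
  obtain ⟨A, M, e1, e2⟩ := dist_er d
  obtain ⟨⟨D, h0⟩, -, -⟩ := h
  rw [e1] at h0
  obtain ⟨A1, B1, h1, h2, -⟩ := J.gen_app h0
  obtain ⟨B, s, h3, h4, h5⟩ := J.gen_lam h1
  obtain ⟨s', h6⟩ := J.dom_typed h4
  exact ⟨A, M, B, s', e1, e2, h3, h6, J.conv h2 h6 (pi_inj h5).1, J.conv h1 h4 h5⟩

/-- contraction at a distance preserves `MOk` -/
theorem MOk.dist {Γ : C} {F Q R : MT S} {A : Term S} (hF : J.MOk Γ F) (hQ : J.MOk Γ Q)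
    (hQA : J.T Γ (er Q) A) (hA : ∃ M, er F = .lam A M) (d : dist F Q = some R) :
    J.MOk Γ R := by
  induction F generalizing R with
  | lam A' M _ _ =>
      rw [dist_lam, Option.some.injEq] at d
      subst d
      obtain ⟨M', e⟩ := hA
      injection e with e1 e2
      obtain ⟨⟨D, h0⟩, h1, h2⟩ := hF
      obtain ⟨s, h3⟩ := J.ann_typed h0
      rw [← e1] at hQA
      exact ⟨⟨h2.minst h3 hQA hQ, hQ⟩, h1⟩
  | mem F N ih _ =>
      rw [dist_mem, Option.map_eq_some_iff] at d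
      obtain ⟨R', hR', rfl⟩ := d
      exact ⟨ih hF.1 hA hR', hF.2⟩
  | var i => simp at d
  | sort s => simp at d
  | app M N _ _ => simp at d
  | pi M N _ _ => simp at d

theorem T_sr {Γ : C} {M M' : MT S} {A : Term S} (h : J.T Γ (er M) A) (r : MStep M M') :
    J.T Γ (er M') A := J.SR h (er_step_red r)

/-- subject reduction for typed memory terms -/
theorem MOk.step {Γ : C} {M M' : MT S} (h : J.MOk Γ M) (r : MStep M M') : J.MOk Γ M' := by
  induction r generalizing Γ with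
  | beta d =>
      obtain ⟨A, M, B, s, e1, -, -, -, h2, -⟩ := h.redex d
      exact MOk.dist h.2.1 h.2.2 h2 ⟨M, e1⟩ d
  | appL N r ih =>
      obtain ⟨⟨A, h0⟩, h1, h2⟩ := h
      exact ⟨⟨A, J.SR h0 (Red.app (er_step_red r) .refl)⟩, ih h1, h2⟩
  | appR M r ih =>
      obtain ⟨⟨A, h0⟩, h1, h2⟩ := h
      exact ⟨⟨A, J.SR h0 (Red.app .refl (er_step_red r))⟩, h1, ih h2⟩
  | lamA B r ih =>
      obtain ⟨⟨D, h0⟩, h1, h2⟩ := h
      obtain ⟨s, h3⟩ := J.ann_typed h0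
      exact ⟨⟨D, J.SR h0 (Red.lam (er_step_red r) .refl)⟩, ih h1,
        h2.ctx h3 (J.SR h3 (er_step_red r)) (er_step_red r).eq⟩
  | lamM B r ih =>
      obtain ⟨⟨D, h0⟩, h1, h2⟩ := h
      exact ⟨⟨D, J.SR h0 (Red.lam .refl (er_step_red r))⟩, h1, ih h2⟩
  | piA B r ih =>
      obtain ⟨⟨D, h0⟩, h1, h2⟩ := h
      obtain ⟨s, h3⟩ := J.dom_typed h0
      exact ⟨⟨D, J.SR h0 (Red.pi (er_step_red r) .refl)⟩, ih h1,
        h2.ctx h3 (J.SR h3 (er_step_red r)) (er_step_red r).eq⟩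
  | piB B r ih =>
      obtain ⟨⟨D, h0⟩, h1, h2⟩ := h
      exact ⟨⟨D, J.SR h0 (Red.pi .refl (er_step_red r))⟩, h1, ih h2⟩
  | memP N r ih => exact ⟨ih h.1, h.2⟩
  | memN N r ih => exact ⟨h.1, ih h.2⟩

theorem MOk.red {Γ : C} {M M' : MT S} (h : J.MOk Γ M) (r : MRed M M') : J.MOk Γ M' := by
  induction r with
  | refl => exact h
  | tail _ r ih => exact ih.step r

/-! ### terms all of whose redexes have class at least `i` -/

variable (J) in
/-- every redex of `M` has class at least `i` -/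
def GG (rk : S → ℕ) (i : ℕ) : C → MT S → Prop
  | _, .var _ => True
  | _, .sort _ => True
  | Γ, .app F Q => (IsL F → J.Rge rk i Γ (er F)) ∧ GG rk i Γ F ∧ GG rk i Γ Q
  | Γ, .lam A M => GG rk i Γ A ∧ GG rk i (J.cons (er A) Γ) M
  | Γ, .pi A B => GG rk i Γ A ∧ GG rk i (J.cons (er A) Γ) B
  | Γ, .mem M N => GG rk i Γ M ∧ GG rk i Γ N

variable {rk : S → ℕ} {i : ℕ}

theorem isL_er {F : MT S} (h : IsL F) : ∃ A M, er F = .lam A M := by
  obtain ⟨R, hR⟩ := exists_dist h F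
  obtain ⟨A, M, h1, _⟩ := dist_er hR
  exact ⟨A, M, h1⟩

theorem GG.mono {i j : ℕ} {Γ : C} {M : MT S} (h : J.GG rk j Γ M) (hi : i ≤ j) :
    J.GG rk i Γ M := by
  induction M generalizing Γ with
  | var k => trivial
  | sort s => trivial
  | app F Q ih1 ih2 => exact ⟨fun hl => (h.1 hl).mono hi, ih1 h.2.1, ih2 h.2.2⟩
  | lam A M ih1 ih2 => exact ⟨ih1 h.1, ih2 h.2⟩
  | pi A M ih1 ih2 => exact ⟨ih1 h.1, ih2 h.2⟩
  | mem M N ih1 ih2 => exact ⟨ih1 h.1, ih2 h.2⟩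

theorem GG.zero {Γ : C} {M : MT S} (h : J.MOk Γ M) : J.GG rk 0 Γ M := by
  induction M generalizing Γ with
  | var k => trivial
  | sort s => trivial
  | app F Q ih1 ih2 =>
      refine ⟨fun hl => ?_, ih1 h.2.1, ih2 h.2.2⟩
      obtain ⟨A, M, e⟩ := isL_er hl
      obtain ⟨D, hD⟩ := h.2.1.typed
      rw [e] at hD ⊢
      obtain ⟨B, s, _, h4, h5⟩ := J.gen_lam hD
      exact ⟨_, J.conv hD h4 h5, .of_typed h4 (Nat.zero_le _)⟩
  | lam A M ih1 ih2 => exact ⟨ih1 h.2.1, ih2 h.2.2⟩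
  | pi A M ih1 ih2 => exact ⟨ih1 h.2.1, ih2 h.2.2⟩
  | mem M N ih1 ih2 => exact ⟨ih1 h.1, ih2 h.2⟩

theorem isL_mren {F : MT S} {ρ : ℕ → ℕ} : IsL (mren ρ F) ↔ IsL F := by
  induction F with
  | var k => simp
  | sort s => simp
  | app F Q _ _ => simp
  | lam A M _ _ => simp
  | pi A M _ _ => simp
  | mem M N ih _ => simpa using ih

theorem GG.mren {Γ Δ : C} {M : MT S} {ρ : ℕ → ℕ} (h : J.GG rk i Γ M) (hM : J.MOk Γ M)
    (hs : J.Sb (fun i => .var (ρ i)) Γ Δ) : J.GG rk i Δ (mren ρ M) := by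
  induction M generalizing Γ Δ ρ with
  | var i => trivial
  | sort s => trivial
  | app F Q ih1 ih2 =>
      refine ⟨fun hl => ?_, ih1 h.2.1 hM.2.1 hs, ih2 h.2.2 hM.2.2 hs⟩
      have := (h.1 (isL_mren.1 hl)).sub hs
      rwa [← ren_eq_sub, ← er_mren] at this
  | mem F Q ih1 ih2 => exact ⟨ih1 h.1 hM.1 hs, ih2 h.2 hM.2 hs⟩
  | lam A M ih1 ih2 =>
      obtain ⟨⟨D, h0⟩, h1, h2⟩ := hM
      have h3 := J.sub hs h0
      rw [← ren_eq_sub] at h3
      obtain ⟨s, h4⟩ := J.ann_typed h3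
      have hs' : J.Sb (fun i => .var (up ρ i)) (J.cons (er A) Γ) (J.cons (ren ρ (er A)) Δ) := by
        have := J.sb_ups hs (by rwa [ren_eq_sub] at h4)
        rwa [ups_ren, ← ren_eq_sub] at this
      refine ⟨ih1 h.1 h1 hs, ?_⟩
      rw [er_mren]; exact ih2 h.2 h2 hs'
  | pi A M ih1 ih2 =>
      obtain ⟨⟨D, h0⟩, h1, h2⟩ := hM
      have h3 := J.sub hs h0
      rw [← ren_eq_sub] at h3
      obtain ⟨s, h4⟩ := J.dom_typed h3
      have hs' : J.Sb (fun i => .var (up ρ i)) (J.cons (er A) Γ) (J.cons (ren ρ (er A)) Δ) := by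
        have := J.sb_ups hs (by rwa [ren_eq_sub] at h4)
        rwa [ups_ren, ← ren_eq_sub] at this
      refine ⟨ih1 h.1 h1 hs, ?_⟩
      rw [er_mren]; exact ih2 h.2 h2 hs'

theorem GG.mwk {Γ : C} {M : MT S} {A : Term S} {s : S} (h : J.GG rk i Γ M) (hM : J.MOk Γ M)
    (hA : J.T Γ A (.sort s)) : J.GG rk i (J.cons A Γ) (mwk M) := h.mren hM (J.sb_wk hA)

theorem GG.ctx {Γ : C} {A A' : Term S} {s s' : S} {M : MT S} (h : J.GG rk i (J.cons A Γ) M)
    (hM : J.MOk (J.cons A Γ) M)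
    (hA : J.T Γ A (.sort s)) (hA' : J.T Γ A' (.sort s')) (e : BetaEq A A') :
    J.GG rk i (J.cons A' Γ) M := by
  have := h.mren hM (ρ := fun i => i) (J.sb_conv hA hA' e)
  rwa [mren_id] at this

variable (J) in
/-- typed substitutions which create only redexes of class at least `i` -/
def GSb (rk : S → ℕ) (i : ℕ) (σ : ℕ → MT S) (Γ Δ : C) : Prop :=
  J.MSb σ Γ Δ ∧ ∀ j, J.Dom Γ j → J.GG rk i Δ (σ j) ∧ (IsL (σ j) → J.Rge rk i Δ (er (σ j)))

theorem Rge.wk {Γ : C} {F A : Term S} {s : S} (h : J.Rge rk i Γ F) (hA : J.T Γ A (.sort s)) :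
    J.Rge rk i (J.cons A Γ) (Sub452.wk F) := by
  have := h.sub (J.sb_wk hA)
  rwa [← ren_eq_sub (fun i => i + 1)] at this

theorem GSb.mups {Γ Δ : C} {σ : ℕ → MT S} (h : J.GSb rk i σ Γ Δ) {A : Term S} {s : S}
    (hA : J.T Δ (Sub452.sub (fun i => er (σ i)) A) (.sort s)) :
    J.GSb rk i (mups σ) (J.cons A Γ) (J.cons (Sub452.sub (fun i => er (σ i)) A) Δ) := by
  refine ⟨h.1.mups hA, ?_⟩
  intro j hj
  cases j with
  | zero => exact ⟨trivial, fun hl => hl.elim⟩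
  | succ j =>
      have hj' := J.dom_succ hj
      obtain ⟨h1, h2⟩ := h.2 j hj'
      refine ⟨h1.mwk (h.1.2 j hj') hA, fun hl => ?_⟩
      have h3 := (h2 (isL_mren.1 hl)).wk hA
      rw [mups_succ, MT.mwk, er_mren]
      exact h3

/-- a substituted term is an abstraction (under memories) only if it was one or is a variable
replaced by one -/
theorem isL_msub_inv {F : MT S} {σ : ℕ → MT S} (h : IsL (msub σ F)) :
    IsL F ∨ ∃ j, er F = .var j ∧ IsL (σ j) ∧ er (msub σ F) = er (σ j) := by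
  induction F with
  | var k => exact .inr ⟨k, rfl, h, rfl⟩
  | sort s => exact h.elim
  | app F Q _ _ => exact h.elim
  | lam A M _ _ => exact .inl trivial
  | pi A M _ _ => exact h.elim
  | mem M N ih _ => exact ih h

theorem GG.msub {Γ Δ : C} {M : MT S} {σ : ℕ → MT S} (h : J.GG rk i Γ M) (hM : J.MOk Γ M)
    (hs : J.GSb rk i σ Γ Δ) : J.GG rk i Δ (msub σ M) := by
  induction M generalizing Γ Δ σ with
  | var j =>
      obtain ⟨A, hM⟩ := hM
      exact (hs.2 j (J.dom_var hM)).1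
  | sort s => trivial
  | app F Q ih1 ih2 =>
      refine ⟨fun hl => ?_, ih1 h.2.1 hM.2.1 hs, ih2 h.2.2 hM.2.2 hs⟩
      rcases isL_msub_inv hl with hF | ⟨j, e1, e2, e3⟩
      · have := (h.1 hF).sub hs.1.1
        rwa [← er_msub] at this
      · obtain ⟨A, hA⟩ := hM.2.1.typed
        rw [e1] at hA
        rw [e3]
        exact (hs.2 j (J.dom_var hA)).2 e2
  | mem F Q ih1 ih2 => exact ⟨ih1 h.1 hM.1 hs, ih2 h.2 hM.2 hs⟩
  | lam A M ih1 ih2 =>
      obtain ⟨⟨D, h0⟩, h1, h2⟩ := hM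
      have h3 := J.sub hs.1.1 h0
      obtain ⟨s, h4⟩ := J.ann_typed h3
      refine ⟨ih1 h.1 h1 hs, ?_⟩
      rw [er_msub]; exact ih2 h.2 h2 (hs.mups h4)
  | pi A M ih1 ih2 =>
      obtain ⟨⟨D, h0⟩, h1, h2⟩ := hM
      have h3 := J.sub hs.1.1 h0
      obtain ⟨s, h4⟩ := J.dom_typed h3
      refine ⟨ih1 h.1 h1 hs, ?_⟩
      rw [er_msub]; exact ih2 h.2 h2 (hs.mups h4)

/-- substitution of an argument whose type has class at least `i` -/
theorem GG.minst {Γ : C} {A : Term S} {s : S} {Q M : MT S} (h : J.GG rk i (J.cons A Γ) M)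
    (hM : J.MOk (J.cons A Γ) M) (hA : J.T Γ A (.sort s)) (hQ : J.T Γ (er Q) A)
    (hQo : J.MOk Γ Q) (hQg : J.GG rk i Γ Q) (hc : IsL Q → J.Ge rk i Γ A) :
    J.GG rk i Γ (minst Q M) := by
  refine h.msub hM ⟨.inst hA hQ hQo, ?_⟩
  intro j hj
  cases j with
  | zero => exact ⟨hQg, fun hl => ⟨A, hQ, hc hl⟩⟩
  | succ j => exact ⟨trivial, fun hl => hl.elim⟩

/-- contraction at a distance of a redex of class at least `i` preserves `GG` -/
theorem GG.dist {Γ : C} {F Q R : MT S} {A : Term S} (hF : J.MOk Γ F) (hQ : J.MOk Γ Q)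
    (gF : J.GG rk i Γ F) (gQ : J.GG rk i Γ Q)
    (hQA : J.T Γ (er Q) A) (hA : ∃ M, er F = .lam A M) (hc : J.Ge rk i Γ A)
    (d : dist F Q = some R) : J.GG rk i Γ R := by
  induction F generalizing R with
  | lam A' M _ _ =>
      rw [dist_lam, Option.some.injEq] at d
      subst d
      obtain ⟨M', e⟩ := hA
      injection e with e1 e2
      obtain ⟨⟨D, h0⟩, h1, h2⟩ := hF
      obtain ⟨s, h3⟩ := J.ann_typed h0
      rw [← e1] at hQA hc
      exact ⟨⟨gF.2.minst h2 h3 hQA hQ gQ (fun _ => hc), gQ⟩, gF.1⟩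
  | mem F N ih _ =>
      rw [dist_mem, Option.map_eq_some_iff] at d
      obtain ⟨R', hR', rfl⟩ := d
      exact ⟨ih hF.1 gF.1 hA hR', gF.2⟩
  | var i => simp at d
  | sort s => simp at d
  | app M N _ _ => simp at d
  | pi M N _ _ => simp at d

/-- the creation lemma: the contractum of a redex of class at least `i` is a function of class
at least `i` -/
theorem rge_contractum (hrk : ∀ a b c, P.rule a b c → rk c ≤ rk a ∧ rk c ≤ rk b)
    {Γ : C} {F Q R : MT S} (h : J.MOk Γ (.app F Q)) (d : dist F Q = some R)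
    (hc : J.Rge rk i Γ (er F)) : J.Rge rk i Γ (er R) := by
  obtain ⟨A, M, B, s, e1, e2, h1, h2, h3, h4⟩ := h.redex d
  rw [e1] at hc
  obtain ⟨-, h6⟩ := hc.of_lam hrk
  have h7 := h6.ge h1
  rw [e2]
  exact ⟨_, J.inst h1 h2 h3, h7.inst h2 h3⟩

theorem GG.step_aux (hrk : ∀ a b c, P.rule a b c → rk c ≤ rk a ∧ rk c ≤ rk b)
    {M M' : MT S} (r : MStep M M') {Γ : C} (h : J.MOk Γ M) (hg : J.GG rk i Γ M) :
    J.GG rk i Γ M' ∧ (IsL M' → ¬ IsL M → J.Rge rk i Γ (er M')) := by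
  induction r generalizing Γ with
  | @beta F Q R d =>
      have hc := hg.1 (isL_of_dist d)
      have h8 := rge_contractum hrk h d hc
      obtain ⟨A, M, B, s, e1, -, -, -, h2, -⟩ := h.redex d
      rw [e1] at hc
      exact ⟨GG.dist h.2.1 h.2.2 hg.2.1 hg.2.2 h2 ⟨M, e1⟩ (hc.of_lam hrk).1 d, fun _ _ => h8⟩
  | appL N r ih =>
      obtain ⟨h1, h2⟩ := ih h.2.1 hg.2.1
      refine ⟨⟨fun hl => ?_, h1, hg.2.2⟩, fun hl => hl.elim⟩
      rename_i M0 M0'
      by_cases hM : IsL M0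
      · exact (hg.1 hM).red (er_step_red r)
      · exact h2 hl hM
  | appR M r ih =>
      obtain ⟨h1, h2⟩ := ih h.2.2 hg.2.2
      exact ⟨⟨hg.1, hg.2.1, h1⟩, fun hl => hl.elim⟩
  | lamA B r ih =>
      obtain ⟨⟨D, h0⟩, h1, h2⟩ := h
      obtain ⟨s, h3⟩ := J.ann_typed h0
      exact ⟨⟨(ih h1 hg.1).1, hg.2.ctx h2 h3 (J.SR h3 (er_step_red r)) (er_step_red r).eq⟩,
        fun _ hn => (hn trivial).elim⟩
  | lamM B r ih => exact ⟨⟨hg.1, (ih h.2.2 hg.2).1⟩, fun _ hn => (hn trivial).elim⟩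
  | piA B r ih =>
      obtain ⟨⟨D, h0⟩, h1, h2⟩ := h
      obtain ⟨s, h3⟩ := J.dom_typed h0
      exact ⟨⟨(ih h1 hg.1).1, hg.2.ctx h2 h3 (J.SR h3 (er_step_red r)) (er_step_red r).eq⟩,
        fun hl => hl.elim⟩
  | piB B r ih => exact ⟨⟨hg.1, (ih h.2.2 hg.2).1⟩, fun hl => hl.elim⟩
  | memP N r ih =>
      obtain ⟨h1, h2⟩ := ih h.1 hg.1
      exact ⟨⟨h1, hg.2⟩, h2⟩
  | memN N r ih => exact ⟨⟨hg.1, (ih h.2 hg.2).1⟩, fun hl hn => (hn hl).elim⟩

/-- every step preserves `GG i` -/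
theorem GG.step (hrk : ∀ a b c, P.rule a b c → rk c ≤ rk a ∧ rk c ≤ rk b)
    {Γ : C} {M M' : MT S} (hg : J.GG rk i Γ M) (h : J.MOk Γ M) (r : MStep M M') :
    J.GG rk i Γ M' := (GG.step_aux hrk r h hg).1

theorem GG.red (hrk : ∀ a b c, P.rule a b c → rk c ≤ rk a ∧ rk c ≤ rk b)
    {Γ : C} {M M' : MT S} (hg : J.GG rk i Γ M) (h : J.MOk Γ M) (r : MRed M M') :
    J.GG rk i Γ M' := by
  induction r with
  | refl => exact hg
  | tail r0 r ih => exact ih.step hrk (h.red r0) r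

/-- a term all of whose redexes have class above all ranks is normal -/
theorem GG.normal {N : ℕ} (hN : ∀ s, rk s ≤ N) {Γ : C} {M : MT S}
    (hg : J.GG rk (N + 1) Γ M) : MNormal M := by
  intro M' r
  induction r generalizing Γ with
  | beta d =>
      obtain ⟨A, _, A', s, _, _, h⟩ := hg.1 (isL_of_dist d)
      have := hN s
      omega
  | appL N r ih => exact ih hg.2.1
  | appR N r ih => exact ih hg.2.2
  | lamA N r ih => exact ih hg.1
  | lamM N r ih => exact ih hg.2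
  | piA N r ih => exact ih hg.1
  | piB N r ih => exact ih hg.2
  | memP N r ih => exact ih hg.1
  | memN N r ih => exact ih hg.2

/-! ### stages -/

variable (J) in
/-- one step which contracts a redex of class not above `i` -/
inductive StepI (rk : S → ℕ) (i : ℕ) : C → MT S → MT S → Prop
  | beta {Γ : C} {F Q R : MT S} : dist F Q = some R → ¬ J.Rge rk (i + 1) Γ (er F) →
      StepI rk i Γ (app F Q) R
  | appL {Γ : C} {M M' : MT S} (N : MT S) : StepI rk i Γ M M' → StepI rk i Γ (app M N) (app M' N)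
  | appR {Γ : C} (M : MT S) {N N' : MT S} : StepI rk i Γ N N' → StepI rk i Γ (app M N) (app M N')
  | lamA {Γ : C} {A A' : MT S} (M : MT S) : StepI rk i Γ A A' → StepI rk i Γ (lam A M) (lam A' M)
  | lamM {Γ : C} (A : MT S) {M M' : MT S} : StepI rk i (J.cons (er A) Γ) M M' →
      StepI rk i Γ (lam A M) (lam A M')
  | piA {Γ : C} {A A' : MT S} (B : MT S) : StepI rk i Γ A A' → StepI rk i Γ (pi A B) (pi A' B)
  | piB {Γ : C} (A : MT S) {B B' : MT S} : StepI rk i (J.cons (er A) Γ) B B' →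
      StepI rk i Γ (pi A B) (pi A B')
  | memP {Γ : C} {P P' : MT S} (N : MT S) : StepI rk i Γ P P' → StepI rk i Γ (mem P N) (mem P' N)
  | memN {Γ : C} (P : MT S) {N N' : MT S} : StepI rk i Γ N N' → StepI rk i Γ (mem P N) (mem P N')

theorem StepI.step {Γ : C} {M M' : MT S} (h : J.StepI rk i Γ M M') : MStep M M' := by
  induction h with
  | beta d _ => exact .beta d
  | appL N _ ih => exact .appL N ih
  | appR N _ ih => exact .appR N ih
  | lamA N _ ih => exact .lamA N ih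
  | lamM N _ ih => exact .lamM N ih
  | piA N _ ih => exact .piA N ih
  | piB N _ ih => exact .piB N ih
  | memP N _ ih => exact .memP N ih
  | memN N _ ih => exact .memN N ih

/-- a normal form for the stage `i` has only redexes of class above `i` -/
theorem GG.of_nf {Γ : C} {M : MT S} (h : ∀ M', ¬ J.StepI rk i Γ M M') : J.GG rk (i + 1) Γ M := by
  induction M generalizing Γ with
  | var k => trivial
  | sort s => trivial
  | app F Q ih1 ih2 =>
      refine ⟨fun hl => ?_, ih1 fun M' r => h _ (.appL _ r), ih2 fun M' r => h _ (.appR _ r)⟩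
      by_contra hc
      obtain ⟨R, hR⟩ := exists_dist hl Q
      exact h _ (.beta hR hc)
  | lam A M ih1 ih2 => exact ⟨ih1 fun M' r => h _ (.lamA _ r), ih2 fun M' r => h _ (.lamM _ r)⟩
  | pi A M ih1 ih2 => exact ⟨ih1 fun M' r => h _ (.piA _ r), ih2 fun M' r => h _ (.piB _ r)⟩
  | mem M N ih1 ih2 => exact ⟨ih1 fun M' r => h _ (.memP _ r), ih2 fun M' r => h _ (.memN _ r)⟩

variable (J) in
/-- strong normalisation of the steps of stage `i` -/
def SNi (rk : S → ℕ) (i : ℕ) (Γ : C) (M : MT S) : Prop :=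
  Acc (fun a b => J.StepI rk i Γ b a) M

variable (J) in
/-- stage `i`: a typed memory term all of whose redexes have class at least `i` reduces to one
all of whose redexes have class at least `i + 1` -/
def Stage (rk : S → ℕ) (i : ℕ) : Prop :=
  ∀ (Γ : C) (M : MT S), J.MOk Γ M → J.GG rk i Γ M →
    ∃ M', MRed M M' ∧ J.GG rk (i + 1) Γ M'

theorem exists_nf_of_sni {Γ : C} {M : MT S} (h : J.SNi rk i Γ M) :
    ∃ M', MRed M M' ∧ J.GG rk (i + 1) Γ M' := by
  induction h with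
  | intro M _ ih =>
      by_cases hn : ∃ M', J.StepI rk i Γ M M'
      · obtain ⟨M', r⟩ := hn
        obtain ⟨M'', r', g⟩ := ih M' r
        exact ⟨M'', .head r.step r', g⟩
      · exact ⟨M, .refl, .of_nf fun M' r => hn ⟨M', r⟩⟩

theorem stage_of_sni (h : ∀ (Γ : C) (M : MT S), J.MOk Γ M → J.GG rk i Γ M → J.SNi rk i Γ M) :
    J.Stage rk i := fun Γ M hM hg => exists_nf_of_sni (h Γ M hM hg)

/-- assembly of the stages: all typed memory terms are weakly normalising -/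
theorem mwn_of_stages {N : ℕ} (hN : ∀ s, rk s ≤ N) (hst : ∀ i ≤ N, J.Stage rk i)
    {Γ : C} {M : MT S} (h : J.MOk Γ M) : MWN M := by
  have key : ∀ i ≤ N + 1, ∃ M', MRed M M' ∧ J.GG rk i Γ M' := by
    intro i
    induction i with
    | zero => intro _; exact ⟨M, .refl, .zero h⟩
    | succ i ih =>
        intro hi
        obtain ⟨M', r, g⟩ := ih (by omega)
        obtain ⟨M'', r', g'⟩ := hst i (by omega) Γ M' (h.red r) g
        exact ⟨M'', r.trans r', g'⟩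
  obtain ⟨M', r, g⟩ := key (N + 1) le_rfl
  exact ⟨M', r, g.normal hN⟩

/-- assembly, for frozen terms: strong normalisation of all typed terms -/
theorem sn_of_stages {N : ℕ} (hN : ∀ s, rk s ≤ N) (hst : ∀ i ≤ N, J.Stage rk i)
    {Γ : C} {M A : Term S} (h : J.T Γ M A) : SN M :=
  sn_of_wn_emb (mwn_of_stages hN hst (MOk.emb h))

end Jd

end Crest.Agent.R298.Stg511
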