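import Crest.Agent.R298.Stg2_511
import Crest.Agent.R298.TyF_452

/-!
R298 (S0452), helper511: the stages block, part 3: the judgements `Typed P` (list contexts) and
`TyF P` (function contexts, helper452) are instances of `Jd`; the calculus of frozen terms all of
whose redexes have class at least `i` (`Jd.RR`).
-/

set_option autoImplicit false

namespace Crest.Agent.R298.Stg511

open Crest.LogicCS.PTS Crest.LogicCS.PTS.Term Relation
open Crest.Agent.R298.Sub452 Crest.Agent.R298.Par452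
open Crest.Agent.R298.Mem360 Crest.Agent.R298.Mem360.MT
open Crest.Agent.R298.Ty452 (Lk Wf SubOk)
open Crest.Agent.R298.TyF452 (TyF WfF SubF fcons)

universe u v
variable {S : Type u}

theorem wk_eq_sub (M : Term S) : wk M = Sub452.sub (fun i => .var (i + 1)) M := ren_eq_sub _ M

/-- the frozen typing judgement, over list contexts -/
def listJ (P : Spec S) : Jd P (List (Term S)) where
  T := Typed P
  cons A Γ := A :: Γ
  Sb σ Γ Δ := Wf P Δ ∧ SubOk P σ Γ Δ
  Dom Γ i := i < Γ.length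
  conv h h' e := .conv h h' e
  tc h := Ty452.type_correct h
  gen_sort h := Ty452.gen_sort h
  var_unique h h' := by
    obtain ⟨A, h1, e1⟩ := Ty452.gen_var h
    obtain ⟨B, h2, e2⟩ := Ty452.gen_var h'
    rw [h1.unique h2] at e1
    exact BetaEq.trans e1 (BetaEq.symm e2)
  gen_pi h := Ty452.gen_pi h
  gen_lam h := Ty452.gen_lam h
  gen_app h := Ty452.gen_app h
  sr h r := Ty452.sr h _ r
  var_zero h := Ty452.t_start h
  dom_var h := by
    obtain ⟨A, h1, _⟩ := Ty452.gen_var h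
    exact h1.lt
  dom_succ h := by simpa using h
  var_dom h hi := by
    obtain ⟨A, hA⟩ := Lk.exists_of_lt hi
    exact ⟨A, Ty452.var_wf hA (Ty452.twf h)⟩
  sub hs h := Ty452.typed_sub h hs.1 hs.2
  sb_ups hs h := ⟨.cons hs.1 h, hs.2.ups h⟩
  sb_wk {Γ A s} h := ⟨.cons (Ty452.twf h) h, fun i B hl => by
    rw [← wk_eq_sub]
    exact Ty452.t_weak (Ty452.var_wf hl (Ty452.twf h)) h⟩
  sb_inst _ h := ⟨Ty452.twf h, (SubOk.var (Ty452.twf h)).scons (by rwa [sub_id])⟩
  sb_conv {Γ A A' s s'} hA hA' e := by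
    have w := Ty452.twf hA
    have w' : Wf P (A' :: Γ) := .cons w hA'
    refine ⟨w', ?_⟩
    intro i D hl
    rw [sub_id]
    cases hl with
    | zero _ _ =>
        refine .conv (Ty452.t_start hA') (Ty452.t_weak hA hA') ?_
        exact BetaEq.symm (BetaEq.ren e _)
    | succ _ hl => exact Ty452.t_weak (Ty452.var_wf hl w) hA'

/-- the typing judgement over function contexts -/
def funJ (P : Spec S) : Jd P (ℕ → Term S) where
  T D M A := WfF P D ∧ TyF P D M A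
  cons A D := fcons A D
  Sb σ D D' := WfF P D' ∧ SubF P σ D D'
  Dom _ _ := True
  conv h h' e := ⟨h.1, .conv h.2 h'.2 e⟩
  tc h := by
    rcases TyF452.ftype_correct h.1 h.2 with h' | ⟨s, h'⟩
    · exact .inl h'
    · exact .inr ⟨s, h.1, h'⟩
  gen_sort h := TyF452.fgen_sort h.2 _ rfl
  var_unique h h' := BetaEq.trans (TyF452.fgen_var h.2 _ rfl).2
    (BetaEq.symm (TyF452.fgen_var h'.2 _ rfl).2)
  gen_pi h := by
    obtain ⟨s₁, s₂, s₃, h1, h2, h3, h4⟩ := TyF452.fgen_pi h.2 _ _ rfl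
    exact ⟨s₁, s₂, s₃, ⟨h.1, h1⟩, ⟨h.1.cons h1, h2⟩, h3, h4⟩
  gen_lam h := by
    obtain ⟨B, s, h1, h2, h3⟩ := TyF452.fgen_lam h.2 _ _ rfl
    obtain ⟨s', h4⟩ := TyF452.fpi_dom h2
    exact ⟨B, s, ⟨h.1.cons h4, h1⟩, ⟨h.1, h2⟩, h3⟩
  gen_app h := by
    obtain ⟨A, B, h1, h2, h3⟩ := TyF452.fgen_app h.2 _ _ rfl
    exact ⟨A, B, ⟨h.1, h1⟩, ⟨h.1, h2⟩, h3⟩
  sr h r := ⟨h.1, TyF452.fsr h.2 h.1 _ r⟩
  var_zero {Γ A s} h := ⟨h.1.cons h.2, TyF.var (D := fcons A Γ) (i := 0) (TyF452.tyf_wk h.2 _)⟩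
  dom_var _ := trivial
  dom_succ _ := trivial
  var_dom h _ := ⟨_, h.1, TyF452.tyf_var h.1 _⟩
  sub hs h := ⟨hs.1, TyF452.tyf_sub h.2 hs.2⟩
  sb_ups hs h := ⟨hs.1.cons h.2, hs.2.ups h.2⟩
  sb_wk {Γ A s} h := ⟨h.1.cons h.2, SubF.of_ren (h.1.cons h.2) (TyF452.RenF.wk Γ A)⟩
  sb_inst _ h := ⟨h.1, (SubF.var h.1).scons (by rw [sub_id]; exact h.2)⟩
  sb_conv {Γ A A' s s'} hA hA' e := by
    refine ⟨hA.1.cons hA'.2, ?_⟩
    intro i
    rw [sub_id]
    cases i with
    | zero =>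
        refine .conv (TyF.var (D := fcons A' Γ) (i := 0) (TyF452.tyf_wk hA'.2 _))
          (TyF452.tyf_wk hA.2 _) ?_
        exact BetaEq.symm (BetaEq.ren e _)
    | succ i => exact TyF452.tyf_wk (TyF452.tyf_var hA.1 i) _

namespace Jd

variable {P : Spec S} {C : Type v} {J : Jd P C} {rk : S → ℕ} {i : ℕ}

theorem MOk.er_emb {Γ : C} {M : MT S} (h : J.MOk Γ M) : J.MOk Γ (MT.emb (er M)) := by
  obtain ⟨A, hA⟩ := h.typed
  exact MOk.emb hA

theorem GG.er_emb {Γ : C} {M : MT S} (h : J.GG rk i Γ M) : J.GG rk i Γ (MT.emb (er M)) := by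
  induction M generalizing Γ with
  | var k => trivial
  | sort s => trivial
  | app F Q ih1 ih2 =>
      refine ⟨fun hl => ?_, ih1 h.2.1, ih2 h.2.2⟩
      obtain ⟨A, M, e⟩ := isL_er hl
      rw [MT.er_emb] at e
      rw [MT.er_emb]
      exact h.1 (isL_of_er e)
  | lam A M ih1 ih2 =>
      refine ⟨ih1 h.1, ?_⟩
      rw [MT.er_emb]; exact ih2 h.2
  | pi A M ih1 ih2 =>
      refine ⟨ih1 h.1, ?_⟩
      rw [MT.er_emb]; exact ih2 h.2
  | mem M N ih1 _ => exact ih1 h.1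

variable (J) in
/-- frozen terms all of whose redexes have a function type of class at least `i` -/
def RR (rk : S → ℕ) (i : ℕ) (Γ : C) (M : Term S) : Prop := J.GG rk i Γ (MT.emb M)

theorem RR.var (Γ : C) (k : ℕ) : J.RR rk i Γ (.var k) := trivial

theorem RR.sort (Γ : C) (s : S) : J.RR rk i Γ (.sort s) := trivial

theorem isL_emb {F : Term S} : IsL (MT.emb F) ↔ ∃ A M, F = .lam A M := by
  constructor
  · intro h
    obtain ⟨A, M, e⟩ := isL_er h
    exact ⟨A, M, by rwa [MT.er_emb] at e⟩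
  · rintro ⟨A, M, rfl⟩; trivial

theorem RR.app_iff {Γ : C} {F Q : Term S} : J.RR rk i Γ (.app F Q) ↔
    ((∃ A M, F = .lam A M) → J.Rge rk i Γ F) ∧ J.RR rk i Γ F ∧ J.RR rk i Γ Q := by
  unfold RR
  simp only [MT.emb, GG, isL_emb, MT.er_emb]

theorem RR.lam_iff {Γ : C} {A M : Term S} : J.RR rk i Γ (.lam A M) ↔
    J.RR rk i Γ A ∧ J.RR rk i (J.cons A Γ) M := by
  unfold RR
  simp only [MT.emb, GG, MT.er_emb]

theorem RR.pi_iff {Γ : C} {A M : Term S} : J.RR rk i Γ (.pi A M) ↔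
    J.RR rk i Γ A ∧ J.RR rk i (J.cons A Γ) M := by
  unfold RR
  simp only [MT.emb, GG, MT.er_emb]

/-- normal terms have no redexes -/
theorem RR.normal {Γ : C} {M : Term S} (h : Normal M) : J.RR rk i Γ M := by
  induction M generalizing Γ with
  | var k => trivial
  | sort s => trivial
  | app F Q ih1 ih2 =>
      rw [RR.app_iff]
      refine ⟨?_, ih1 fun N r => h _ (.appL _ r), ih2 fun N r => h _ (.appR _ r)⟩
      rintro ⟨A, M, rfl⟩
      exact (h _ (.redex A M Q)).elim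
  | lam A M ih1 ih2 =>
      rw [RR.lam_iff]
      exact ⟨ih1 fun N r => h _ (.lamA _ r), ih2 fun N r => h _ (.lamM _ r)⟩
  | pi A M ih1 ih2 =>
      rw [RR.pi_iff]
      exact ⟨ih1 fun N r => h _ (.piA _ r), ih2 fun N r => h _ (.piB _ r)⟩

/-- the calculus of `RR` terms is closed under beta reduction -/
theorem RR.beta (hrk : ∀ a b c, P.rule a b c → rk c ≤ rk a ∧ rk c ≤ rk b)
    {Γ : C} {M M' A : Term S} (h : J.RR rk i Γ M) (hM : J.T Γ M A) (r : Beta M M') :
    J.RR rk i Γ M' := by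
  obtain ⟨N, hN, e⟩ := lift_step (M := MT.emb M) (N := M') (by rwa [MT.er_emb])
  have := (GG.step hrk h (MOk.emb hM) hN).er_emb
  rwa [e] at this

theorem RR.red (hrk : ∀ a b c, P.rule a b c → rk c ≤ rk a ∧ rk c ≤ rk b)
    {Γ : C} {M M' A : Term S} (h : J.RR rk i Γ M) (hM : J.T Γ M A) (r : Red M M') :
    J.RR rk i Γ M' := by
  induction r with
  | refl => exact h
  | tail r0 r ih => exact ih.beta hrk (J.SR hM r0) r

/-- ... and under substitution for a variable whose type has class at least `i` -/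
theorem RR.inst {Γ : C} {A M N B : Term S} {s : S} (h : J.RR rk i (J.cons A Γ) M)
    (hM : J.T (J.cons A Γ) M B) (hA : J.T Γ A (.sort s)) (hN : J.T Γ N A)
    (hN' : J.RR rk i Γ N) (hc : J.Ge rk i Γ A) : J.RR rk i Γ (Sub452.inst N M) := by
  have := GG.minst (Q := MT.emb N) h (MOk.emb hM) hA (by rwa [MT.er_emb]) (MOk.emb hN) hN'
    (fun _ => hc)
  rw [RR, MT.emb_inst]
  exact this

end Jd

end Crest.Agent.R298.Stg511
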