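import Crest.Agent.R298.Fr_201
import Crest.Agent.R298.Ok_599
import Crest.Agent.R298.SM1_646

/-!
R298 (S0452), helper254: the frame of stage `i` over a world `W` (values = sets of m-terms) and its
`Ok599.Sys` instance.
-/

set_option autoImplicit false

namespace Crest.Agent.R298.Z254

open Crest.LogicCS.PTS Crest.LogicCS.PTS.Term Relation
open Crest.Agent.R298.Sub452 Crest.Agent.R298.Par452 Crest.Agent.R298.Ty452
open Crest.Agent.R298.Mem360 Crest.Agent.R298.TyF452 Crest.Agent.R298.TyMF452
open Crest.Agent.R298.Uniq452 Crest.Agent.R298.Main865 Crest.Agent.R298.Cand704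
open Crest.Agent.R298.Md254 Crest.Agent.R298.Fr201 Crest.Agent.R298.SM646
open Crest.Agent.R298.Fl113 (Rl RelS)
open Crest.Agent.R298.Cod893 Crest.Agent.R298.Vt786
open Crest.Agent.R298.Mem360.MT (er)

variable {S : Type}

/-- values -/
abbrev Val (S : Type) : Type := Set (MT S)

section defs

variable (P : Spec S) (idx : S → ℕ) (i : ℕ) (W : ℕ → Term S)

/-- infos of small types -/
abbrev SIz : Type := SIw P (Lvl idx i) W (Val S)

/-- entries of products -/
abbrev PEz := PEnt (Term S) (SIz P idx i W) (Val S)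

/-- path functions -/
abbrev UFz := UF (Term S) (SIz P idx i W) (Val S)

open Classical in
/-- realizer set of a closed type with a given value -/
noncomputable def RRq (q : Term S) (X : Val S) : Val S :=
  if Hi P idx i W q then Wt P idx (i + 1) W q else cst P idx (i + 1) W q X

/-- entries admitted for the variables of a closed type -/
def adm (q : Term S) (e : PEz P idx i W) : Prop :=
  rngS (skel P (Lvl idx i) W) (sgQ P (Lvl idx i) W) q e.ent.sh ∨
    ((∀ e' : PEz P idx i W,
      ¬ rngS (skel P (Lvl idx i) W) (sgQ P (Lvl idx i) W) q e'.ent.sh) ∧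
      e = Sum.inr (fun _ => default))

/-- product operation -/
noncomputable def opz (qA qPi : Term S) (v : Val S) (f : Term S → PEz P idx i W → Val S) :
    Val S :=
  PiSet P idx (i + 1) W qPi (RRq P idx i W qA v) (fun _ e => adm P idx i W qA e)
    (fun w e => RRq P idx i W (kcod qPi (er w)) (f (cl (er w)) e))

/-- the frame -/
noncomputable def frz : Frame S (Term S) (SIz P idx i W) (Val S) :=
  fr P (Lvl idx i) W (fun _ => ∅) (opz P idx i W)

end defs

variable {P : Spec S} {idx : S → ℕ} {i : ℕ} {W : ℕ → Term S}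

theorem frz_std : Std (skel P (Lvl idx i) W) (sgQ P (Lvl idx i) W) (frz P idx i W) := fr_std

@[simp] theorem frz_cl : (frz P idx i W).cl = cl := rfl
@[simp] theorem frz_b : (frz P idx i W).b = default := rfl
theorem frz_rep (q : Term S) : (frz P idx i W).rep q = q := rfl

theorem adm_ne (q : Term S) : ∃ e, adm P idx i W q e := by
  by_cases h : ∃ e' : PEz P idx i W,
      rngS (skel P (Lvl idx i) W) (sgQ P (Lvl idx i) W) q e'.ent.sh
  · obtain ⟨e, he⟩ := h
    exact ⟨e, .inl he⟩
  · exact ⟨_, .inr ⟨fun e' h' => h ⟨e', h'⟩, rfl⟩⟩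

/-- monotonicity of the index along rules -/
def Mon (P : Spec S) (idx : S → ℕ) : Prop :=
  ∀ a b c, P.rule a b c → idx c ≤ idx a ∧ idx c ≤ idx b

/-- the instance of the codomain is not high: the domain is `D`-bound -/
theorem bound_of (hm : Mon P idx) (w : WfF P W) {A B N : Term S} {c : S}
    (h : TyF P W (pi A B) (sort c)) (hc : c ∈ Lvl idx i) (hN : TyF P W N A)
    (hn : ¬ Hi P idx i W (inst N B)) :
    ∃ a b, P.rule a b c ∧ b ∈ Lvl idx i ∧ TyF P W A (sort a) ∧
      TyF P (fcons A W) B (sort b) := by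
  obtain ⟨a, b, c', hA, hB, r, e⟩ := fgen_pi h _ _ rfl
  obtain rfl : c = c' := sort_inj e
  refine ⟨a, b, r, ?_, hA, hB⟩
  have h1 : idx c ≤ idx b := (hm a b c r).2
  have h2 : TyF P W (inst N B) (sort b) := tyf_inst w hB hN
  have h3 : ¬ i < idx b := fun h => hn ⟨b, Sg.of h2, h⟩
  have h4 : idx c = i := hc
  show idx b = i
  omega

/-- no valid path: the entries look constant -/
theorem look_dead {q : Term S} (h1 : ∀ a, ¬ klive P (Lvl idx i) W q a)
    (h2 : ¬ kleaf (Lvl idx i) q) {e : Ent (Term S) (SIz P idx i W) (Val S)}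
    (he : rngS (skel P (Lvl idx i) W) (sgQ P (Lvl idx i) W) q e.sh) :
    look (frz P idx i W) e = fun _ => (frz P idx i W).b := by
  have hT : Inf786.Tame (skel P (Lvl idx i) W) q := Inf786.tame_of_dead h1
  cases e with
  | co c => exact absurd hT he.1
  | mi f => exact absurd hT he.1
  | sm s =>
    obtain ⟨_, hs⟩ := he
    rw [Inf786.info_eq (fun _ => True) hT] at hs
    obtain ⟨F, hF, hs⟩ := hs
    have hF0 : F = fun _ => default := by
      funext l
      refine hF l ?_
      cases l with
      | nil => exact h2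
      | cons x l => exact fun h => h1 _ h.1
    funext p
    cases ht : toS p with
    | none => simp only [look, ht]
    | some l =>
      simp only [look, ht]
      show getS (skel P (Lvl idx i) W) s l = default
      unfold getS
      rw [hs, Dom201.app_codeF (supp_tame hT hF), hF0]

/-- the same for the admitted entries of products -/
theorem look_adm_dead {q : Term S} (h1 : ∀ a, ¬ klive P (Lvl idx i) W q a)
    (h2 : ¬ kleaf (Lvl idx i) q) {e : PEz P idx i W} (he : adm P idx i W q e) :
    look (frz P idx i W) e.ent = fun _ => (frz P idx i W).b := by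
  rcases he with he | ⟨_, rfl⟩
  · exact look_dead h1 h2 he
  · funext p
    cases ht : toM p with
    | none => simp only [PEnt.ent, look, ht]
    | some l =>
      simp only [PEnt.ent, look, ht]
      rfl

/-- **the laws of the frame** -/
noncomputable def sysz (w : WfF P W) (hwn : ∀ M A, TyF P W M A → WN M)
    (hF : TF P (Lvl idx i) W) (hm : Mon P idx) : Ok599.Sys P W (frz P idx i W) where
  D := Lvl idx i
  vt := vt (skel P (Lvl idx i) W) (sgQ P (Lvl idx i) W)
  Live := Live P (Lvl idx i) W
  Rel := Rl P (Lvl idx i) W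
  Strict q := ¬ Hi P idx i W q
  eok := rngS (skel P (Lvl idx i) W) (sgQ P (Lvl idx i) W)
  PR qA qPi a e := TyF P W a qA ∧ adm P idx i W qA e ∧ ¬ Hi P idx i W (kcod qPi a)
  wf := w
  nz_id _ _ _ := rfl
  cl_eq h := cl_congr h
  rep_cl M := cl_eq M
  rep_ty h := cl_typed w hwn h
  dty_eq h := dtQ_cl w hwn h
  vt_pi_nil A B h := not_kleaf_pi (cl_eq (pi A B)) h
  vt_sort_cons c x s h := by
    obtain ⟨⟨_, A, B, e, _⟩, _⟩ := h
    exact not_sort_pi (BetaEq.trans (BetaEq.symm (cl_eq (sort c))) e)
  vt_sort c := by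
    constructor
    · rintro ⟨s, hs, e⟩
      have e2 : BetaEq (sort c : Term S) (sort s) :=
        BetaEq.trans (BetaEq.symm (cl_eq (sort c))) e
      rw [sort_inj e2]
      exact hs
    · intro h
      exact ⟨c, h, cl_eq (sort c)⟩
  vt_cons := by
    intro A B a e s hT
    obtain ⟨t, hT⟩ := hT
    obtain ⟨a', b', c', hA, hB, r, _⟩ := fgen_pi hT _ _ rfl
    have h1 : BetaEq (cl (pi A B)) (pi A B) := cl_eq _
    show (klive P (Lvl idx i) W (cl (pi A B)) a ∧
      rngS _ _ (kdom (cl (pi A B))) e ∧ vt _ _ (kcod (cl (pi A B)) a) s) ↔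
      Live P (Lvl idx i) W (cl (pi A B)) ∧ TyF P W a A ∧ rngS _ _ (cl A) e ∧
        vt _ _ (cl (inst a B)) s
    rw [kdom_pi h1, kcod_pi h1, klive_pi w h1 hA]
    constructor
    · rintro ⟨⟨g1, g2, _⟩, g4, g5⟩
      exact ⟨g1, g2, g4, g5⟩
    · rintro ⟨g1, g2, g4, g5⟩
      exact ⟨⟨g1, g2, rl_conv w (rl_of_vt w g5) (cl_eq _)⟩, g4, g5⟩
  rel_vt q s h := rl_of_vt w h
  rel_pi := by
    intro A B N _ hN h
    exact rl_conv w (rl_of_inst w (.refl _) hN (rl_conv w h (cl_eq _)))
      (BetaEq.symm (cl_eq _))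
  live_inst := by
    intro A B N A' B' _ hl hN _ hr
    have h1 : Live P (Lvl idx i) W (pi A B) := (live_iff w (cl_eq _)).1 hl
    exact (live_iff w (cl_eq _)).2
      (h1.cod w (.refl _) hN (rl_conv w hr (cl_eq _)))
  live_dom := by
    intro A B A' B' _ hl _ hr
    have h1 : Live P (Lvl idx i) W (pi A B) := (live_iff w (cl_eq _)).1 hl
    exact (live_iff w (cl_eq _)).2 (h1.dom w (.refl _) (rl_conv w hr (cl_eq _)))
  eok_entry u _ _ := frz_std.entry_ok _ u
  look_entry := by
    intro A u p _ hu hp
    exact frz_std.look_entry (thin w hF) _ hu hp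
  entry_congr := by
    intro A u v _ h
    exact frz_std.entry_congr h
  op_congr := by
    intro A B v v' f f' hv hf
    have e1 : RRq P idx i W (cl A) v = RRq P idx i W (cl A) v' := by
      unfold RRq
      by_cases h : Hi P idx i W (cl A)
      · rw [if_pos h, if_pos h]
      · rw [hv h]
    show opz P idx i W (cl A) (cl (pi A B)) v f = opz P idx i W (cl A) (cl (pi A B)) v' f'
    unfold opz
    rw [e1]
    ext m
    refine and_congr_right fun _ => and_congr_right fun _ => ?_
    refine forall_congr' fun x => imp_congr_right fun hx => forall_congr' fun e =>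
      imp_congr_right fun he => ?_
    have e2 : RRq P idx i W (kcod (cl (pi A B)) (er x)) (f (cl (er x)) e) =
        RRq P idx i W (kcod (cl (pi A B)) (er x)) (f' (cl (er x)) e) := by
      by_cases h : Hi P idx i W (kcod (cl (pi A B)) (er x))
      · unfold RRq
        rw [if_pos h, if_pos h]
      · have hx1 : TMF P W x (cl A) := by
          unfold RRq at hx
          split_ifs at hx
          · exact hx.1
          · exact ((cand_cst P idx (i + 1) W (cl A) v').sub x hx).1
        rw [hf (cl (er x)) e ⟨cl_typed w hwn hx1.typed, he, ?_⟩]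
        intro h'
        refine h ?_
        have e3 : kcod (cl (pi A B)) (cl (er x)) = kcod (cl (pi A B)) (er x) := by
          rw [kcod_pi (cl_eq (pi A B)), kcod_pi (cl_eq (pi A B))]
          exact cl_congr (BetaEq.inst (cl_eq (er x)) (.refl _))
        have h2 : Hi P idx i W (kcod (cl (pi A B)) (cl (er x))) := h'
        rwa [e3] at h2
    show _ ∈ RRq P idx i W (kcod (cl (pi A B)) (er x)) (f (cl (er x)) e) ↔
      _ ∈ RRq P idx i W (kcod (cl (pi A B)) (er x)) (f' (cl (er x)) e)
    rw [e2]
  pr := by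
    intro A B c a e hT hc ⟨h1, h2, h3⟩
    obtain ⟨a', b', c', hA, hB, r, _⟩ := fgen_pi hT _ _ rfl
    have ha : TyF P W a A := .conv h1 hA (cl_eq A)
    have hn : ¬ Hi P idx i W (cl (inst a B)) := by
      have h3' : ¬ Hi P idx i W (kcod (cl (pi A B)) a) := h3
      rwa [kcod_pi (cl_eq (pi A B))] at h3'
    refine ⟨ha, ?_, hn⟩
    rintro ⟨_, g1, g2⟩
    refine (g2 ?_).elim
    obtain ⟨a1, b1, r1, hb1, hA1, _⟩ := bound_of hm w hT hc ha
      (fun h => hn (h.conv (BetaEq.symm (cl_eq _))))
    have h4 : NotO P (Lvl idx i) W A := notO_bound w r1 hb1 hc (Sg.of hA1)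
    exact (live_iff w (cl_eq A)).2 (h4 (rl_conv w g1 (cl_eq A)))
  strict_dom := by
    intro A a b c hA r hc hs
    have h1 : idx c ≤ idx a := (hm a b c r).1
    have h3 : ¬ i < idx a := fun h => hs ⟨a, (Sg.of hA).conv (cl_eq A), h⟩
    have h4 : idx c = i := hc
    show idx a = i
    omega
  strict_cod := by
    intro B a b c hB r hc hs
    have h1 : idx c ≤ idx b := (hm a b c r).2
    have h3 : ¬ i < idx b := fun h => hs ⟨b, (Sg.of hB).conv (cl_eq B), h⟩
    have h4 : idx c = i := hc
    show idx b = i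
    omega

end Crest.Agent.R298.Z254
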