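import Crest.Agent.R298.Cod2_893
import Crest.Agent.R298.Gd_452

/-!
R298 (S0452), helper795: T4 over the frames of `Cod_893`.

* `TL`: the laws of the closed types of one world which are used (validity `vt` of the clamps,
  wide validity `vw` of the statements);
* `den_SUB`: typed substitution lemma for ALL typed terms, at wide valid paths;
* `den_beta`, `den_red`: beta invariance of the values of good terms (`Gd_452`);
* `den_R4`: value of the normal form of an instance.
-/

set_option autoImplicit false

namespace Crest.Agent.R298.T4795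

open Crest.LogicCS.PTS Crest.LogicCS.PTS.Term Relation
open Crest.Agent.R298.Sub452 Crest.Agent.R298.Par452 Crest.Agent.R298.TyF452
open Crest.Agent.R298.Cod893 Crest.Agent.R298.Gd452
open Crest.Agent.R298.Fl113 (RelS)

variable {S Q SI C : Type}

/-- laws of the closed types of the world `W` used by the interpretation `den F` -/
structure TL (P : Spec S) (D : Set S) (W : ℕ → Term S) (F : Frame S Q SI C)
    (vt vw : Q → Sh Q SI C → Prop) (rg : Q → ESh Q SI C → Prop) : Prop where
  wf : WfF P W
  vl : VLaws F vt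
  cl_eq : ∀ {M N : Term S}, BetaEq M N → F.cl M = F.cl N
  rep_cl : ∀ M : Term S, BetaEq (F.rep (F.cl M)) M
  rep_ty : ∀ {M A : Term S}, TyF P W M A → TyF P W (F.rep (F.cl M)) A
  dty : ∀ {M A B : Term S}, TyF P W M (pi A B) → F.dty (F.cl M) = F.cl A
  vw_of_vt : ∀ (q : Q) (s : Sh Q SI C), vt q s → vw q s
  ok : ∀ (A : Q) (u : UF Q SI C), rg A (entry F A u).sh
  vw_sort : ∀ (c : S) (s : Sh Q SI C), vw (F.cl (sort c)) s → c ∈ D
  vw_nil : ∀ c ∈ D, vw (F.cl (sort c)) []
  vw_inv : ∀ {A B : Term S} {c : S}, TyF P W (pi A B) (sort c) →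
    ∀ (x : Q × ESh Q SI C) (s : Sh Q SI C), vw (F.cl (pi A B)) (x :: s) →
      TyF P W (F.rep x.1) A ∧ vw (F.cl (inst (F.rep x.1) B)) s
  vw_cons : ∀ {A B N : Term S} {c : S}, TyF P W (pi A B) (sort c) → TyF P W N A →
    ∀ (e : ESh Q SI C) (s : Sh Q SI C), rg (F.cl A) e → vw (F.cl (inst N B)) s →
      vw (F.cl (pi A B)) ((F.cl N, e) :: s)
  vw_rt : ∀ (T : Term S) (s : Sh Q SI C), vw (F.cl T) s → RT P D W T
  notO : ∀ {A : Term S} {a : S}, Uniq452.Sg P W A a → (RelS P D a → Sgn P D a) →
    ∀ s : Sh Q SI C, vw (F.cl A) s → vt (F.cl A) s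
  op_congr : ∀ {A B : Term S} {a b c : S}, P.rule a b c → c ∈ D → TyF P W A (sort a) →
    TyF P (fcons A W) B (sort b) → ∀ {X X' : C} {Y Y' : Q → PEnt Q SI C → C},
      (a ∈ D → X = X') → (b ∈ D → ∀ q e, TyF P W (F.rep q) A → Y q e = Y' q e) →
      F.op (F.cl A) (F.cl (pi A B)) X Y = F.op (F.cl A) (F.cl (pi A B)) X' Y'

variable {P : Spec S} {D : Set S} {W : ℕ → Term S} {F : Frame S Q SI C}
  {vt vw : Q → Sh Q SI C → Prop} {rg : Q → ESh Q SI C → Prop}

/-- extension of closed environments -/
theorem subF_scons {θ : ℕ → Term S} {G : ℕ → Term S} (hθ : SubF P θ G W) {A N : Term S}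
    (hN : TyF P W N (sub θ A)) : SubF P (scons N θ) (fcons A G) W := hθ.scons hN

theorem sub_scons_wk (θ : ℕ → Term S) (N T : Term S) : sub (scons N θ) (wk T) = sub θ T := by
  rw [wk, sub_ren]
  rfl

/-- **TYPED SUBSTITUTION LEMMA** -/
theorem den_SUB (L : TL P D W F vt vw rg) (M : Term S) :
    ∀ {G G' : ℕ → Term S} {T : Term S} {σ θ θ' : ℕ → Term S} {ν ν' : ℕ → UF Q SI C},
      TyF P G M T → SubF P σ G G' → SubF P θ' G' W → SubF P θ G W →
      (∀ x, BetaEq (θ x) (sub θ' (σ x))) →
      (∀ x p, vw (F.cl (sub θ (G x))) (sh p) → ν x p = den F (σ x) θ' ν' p) →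
      ∀ p, vw (F.cl (sub θ T)) (sh p) → den F (sub σ M) θ' ν' p = den F M θ ν p := by
  induction M with
  | var x =>
      intro G G' T σ θ θ' ν ν' hM hσ hθ' hθ e H p hp
      obtain ⟨_, e1⟩ := fgen_var hM x rfl
      rw [L.vl.den_var]
      refine (H x p ?_).symm
      rwa [L.cl_eq (BetaEq.sub (BetaEq.symm e1) θ)]
  | sort s =>
      intro G G' T σ θ θ' ν ν' hM hσ hθ' hθ e H p hp
      rw [sub_sort, L.vl.den_sort, L.vl.den_sort]
  | app M N ihM ihN =>
      intro G G' T σ θ θ' ν ν' hM hσ hθ' hθ e H p hp
      obtain ⟨A, B, h1, h2, e1⟩ := fgen_app hM _ _ rfl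
      have hcl : ∀ t : Term S, F.cl (sub θ' (sub σ t)) = F.cl (sub θ t) := fun t => by
        rw [Sub452.sub_sub]
        exact L.cl_eq (betaEq_subs t (fun x => BetaEq.symm (e x)))
      have hM' : TyF P W (sub θ M) (pi (sub θ A) (sub (ups θ) B)) := tyf_sub h1 hθ
      have hN' : TyF P W (sub θ N) (sub θ A) := tyf_sub h2 hθ
      obtain ⟨c, hc⟩ := fpi_typed L.wf hM'
      rw [sub_app, L.vl.den_app, L.vl.den_app, hcl, hcl, L.dty hM']
      have he : entry F (F.cl (sub θ A)) (den F (sub σ N) θ' ν') =
          entry F (F.cl (sub θ A)) (den F N θ ν) :=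
        L.vl.entry_congr (fun q hq => ihN h2 hσ hθ' hθ e H q (L.vw_of_vt _ _ hq))
      rw [he]
      refine ihM h1 hσ hθ' hθ e H _ ?_
      rw [sh_cons]
      refine L.vw_cons hc hN' _ _ (L.ok _ _) ?_
      have e2 := BetaEq.sub e1 θ
      rw [sub_inst] at e2
      rwa [← L.cl_eq e2]
  | lam A M ihA ihM =>
      intro G G' T σ θ θ' ν ν' hM hσ hθ' hθ e H p hp
      obtain ⟨B, s, h1, h2, e1⟩ := fgen_lam hM _ _ rfl
      obtain ⟨a, hA⟩ := fpi_dom h2
      cases p with
      | nil => rw [sub_lam, L.vl.den_lam_nil, L.vl.den_lam_nil]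
      | cons x p =>
          rw [sub_lam, L.vl.den_lam_cons, L.vl.den_lam_cons]
          have h3 : TyF P W (pi (sub θ A) (sub (ups θ) B)) (sort s) := tyf_sub h2 hθ
          rw [sh_cons, L.cl_eq (BetaEq.sub e1 θ), sub_pi] at hp
          obtain ⟨h4, h5⟩ := L.vw_inv h3 _ _ hp
          have h6 : BetaEq (sub θ A) (sub θ' (sub σ A)) := by
            rw [Sub452.sub_sub]
            exact betaEq_subs A e
          refine ihM h1 (hσ.ups (tyf_sub hA hσ)) ?_ (hθ.scons h4) ?_ ?_ p ?_
          · refine hθ'.scons (TyF.conv (s := a) h4 ?_ h6)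
            exact tyf_sub (tyf_sub hA hσ) hθ'
          · intro y
            cases y with
            | zero => exact BetaEq.refl _
            | succ y =>
                show BetaEq (θ y) (sub (scons (F.rep x.1) θ') (wk (σ y)))
                rw [sub_scons_wk]
                exact e y
          · intro y q hq
            cases y with
            | zero =>
                show look F x.2 q = den F (var 0) _ _ q
                rw [L.vl.den_var]
                rfl
            | succ y =>
                show ν y q = den F (wk (σ y)) _ _ q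
                rw [den_wk]
                refine H y q ?_
                rwa [fcons_succ, sub_scons_wk] at hq
          · rwa [sub_scons]
  | pi A B ihA ihB =>
      intro G G' T σ θ θ' ν ν' hM hσ hθ' hθ e H p hp
      obtain ⟨a, b, c, hA, hB, r, e1⟩ := fgen_pi hM _ _ rfl
      have hcl : ∀ t : Term S, F.cl (sub θ' (sub σ t)) = F.cl (sub θ t) := fun t => by
        rw [Sub452.sub_sub]
        exact L.cl_eq (betaEq_subs t (fun x => BetaEq.symm (e x)))
      have hc : c ∈ D := by
        rw [L.cl_eq (BetaEq.sub e1 θ), sub_sort] at hp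
        exact L.vw_sort _ _ hp
      have hA' : TyF P W (sub θ A) (sort a) := tyf_sub hA hθ
      have hT' : TyF P (fcons (sub θ A) W) (sub (ups θ) B) (sort b) :=
        tyf_sub hB (hθ.ups hA')
      have e2 : F.cl (sub θ' (pi (sub σ A) (sub (ups σ) B))) = F.cl (sub θ (pi A B)) :=
        hcl (pi A B)
      rw [sub_pi, L.vl.den_pi, L.vl.den_pi, e2, hcl]
      refine L.op_congr r hc hA' hT' ?_ ?_
      · intro ha
        exact ihA hA hσ hθ' hθ e H [] (L.vw_nil a ha)
      · intro hb q v hq
        have h6 : BetaEq (sub θ A) (sub θ' (sub σ A)) := by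
          rw [Sub452.sub_sub]
          exact betaEq_subs A e
        refine ihB hB (hσ.ups (tyf_sub hA hσ)) ?_ (hθ.scons hq) ?_ ?_ [] (L.vw_nil b hb)
        · refine hθ'.scons (TyF.conv (s := a) hq ?_ h6)
          exact tyf_sub (tyf_sub hA hσ) hθ'
        · intro y
          cases y with
          | zero => exact BetaEq.refl _
          | succ y =>
              show BetaEq (θ y) (sub (scons (F.rep q) θ') (wk (σ y)))
              rw [sub_scons_wk]
              exact e y
        · intro y q' hq'
          cases y with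
          | zero =>
              show look F v.ent q' = den F (var 0) _ _ q'
              rw [L.vl.den_var]
              rfl
          | succ y =>
              show ν y q' = den F (wk (σ y)) _ _ q'
              rw [den_wk]
              refine H y q' ?_
              rwa [fcons_succ, sub_scons_wk] at hq'

/-- contraction of a redex whose closed domain is not in mode `O` -/
theorem den_contract (L : TL P D W F vt vw rg) {G : ℕ → Term S} (w : WfF P G)
    {A B C0 M N T : Term S} {θ : ℕ → Term S} {ν : ℕ → UF Q SI C}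
    (hθ : SubF P θ G W) (hν : ∀ x, Cod893.Good (ν x))
    (hF : TyF P G (lam C0 M) (pi A B)) (hN : TyF P G N A)
    (hO : ∀ s : Sh Q SI C, vw (F.cl (sub θ A)) s → vt (F.cl (sub θ A)) s)
    (eT : BetaEq T (inst N B)) (p : UPath Q SI C) (hp : vw (F.cl (sub θ T)) (sh p)) :
    den F (app (lam C0 M) N) θ ν p = den F (inst N M) θ ν p := by
  obtain ⟨B', s, h1, h2, e1⟩ := fgen_lam hF _ _ rfl
  obtain ⟨a, hC⟩ := fpi_dom h2
  obtain ⟨eA, eB⟩ := pi_inj e1
  have hN' : TyF P G N C0 := TyF.conv hN hC eA
  have hM' : TyF P W (sub θ (lam C0 M)) (pi (sub θ A) (sub (ups θ) B)) := tyf_sub hF hθ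
  have eA' : F.cl (sub θ A) = F.cl (sub θ C0) := L.cl_eq (BetaEq.sub eA θ)
  rw [L.vl.den_app, L.vl.den_lam_cons, L.dty hM']
  set q := F.cl (sub θ N) with hq
  set e := entry F (F.cl (sub θ A)) (den F N θ ν) with he
  have hr : TyF P W (F.rep q) (sub θ C0) := L.rep_ty (tyf_sub hN' hθ)
  refine (den_SUB L M (σ := scons N var) (G' := G) (θ := scons (F.rep q) θ) (T := B') h1 ?_ hθ
    (hθ.scons hr) ?_ ?_ p ?_).symm
  · exact (SubF.var w).scons (by rwa [sub_id])
  · intro x
    cases x with
    | zero => exact L.rep_cl _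
    | succ x => exact BetaEq.refl _
  · intro x p' hp'
    cases x with
    | zero =>
        rw [fcons_zero, sub_scons_wk, ← eA'] at hp'
        exact L.vl.look_entry (den_good F N θ hν) (hO _ hp')
    | succ x =>
        show ν x p' = den F (var x) θ ν p'
        rw [L.vl.den_var]
  · have e2 : BetaEq (sub (scons (F.rep q) θ) B') (sub θ T) := by
      rw [sub_scons]
      have e3 := BetaEq.sub eT θ
      rw [sub_inst] at e3
      refine BetaEq.trans ?_ (BetaEq.symm e3)
      exact BetaEq.inst (L.rep_cl _) (BetaEq.sub (BetaEq.symm eB) _)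
    rwa [L.cl_eq e2]

/-- **BETA INVARIANCE** of the values of good terms, one step -/
theorem den_beta (L : TL P D W F vt vw rg) {G : ℕ → Term S} {M T : Term S}
    (h : Gd P D G M T) : ∀ {θ : ℕ → Term S} {ν : ℕ → UF Q SI C}, WfF P G → SubF P θ G W →
      (∀ x, Cod893.Good (ν x)) → ∀ {M' : Term S}, Beta M M' →
      ∀ p, vw (F.cl (sub θ T)) (sh p) → den F M θ ν p = den F M' θ ν p := by
  induction h with
  | irr h hn =>
      intro θ ν w hθ hν M' b p hp
      exact absurd ((L.vw_rt _ _ hp).of_sub hθ) hn
  | var h => intro θ ν w hθ hν M' b; cases b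
  | sort h => intro θ ν w hθ hν M' b; cases b
  | @pi G A B T a b0 c h hA hB r e ih ih' =>
      intro θ ν w hθ hν M' b p hp
      have hc : c ∈ D := by
        rw [L.cl_eq (BetaEq.sub e θ), sub_sort] at hp
        exact L.vw_sort _ _ hp
      have hA' : TyF P W (sub θ A) (sort a) := tyf_sub hA.typed hθ
      have hT' : TyF P (fcons (sub θ A) W) (sub (ups θ) B) (sort b0) :=
        tyf_sub hB.typed (hθ.ups hA')
      cases b with
      | @piA _ A1 _ b =>
          have e1 : F.cl (sub θ A) = F.cl (sub θ A1) :=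
            L.cl_eq (BetaEq.sub (.rel _ _ b) θ)
          have e2 : F.cl (sub θ (Term.pi A B)) = F.cl (sub θ (Term.pi A1 B)) :=
            L.cl_eq (BetaEq.sub (.rel _ _ (.piA _ b)) θ)
          rw [L.vl.den_pi, L.vl.den_pi, ← e1, ← e2]
          refine L.op_congr r hc hA' hT' ?_ ?_
          · intro ha
            exact ih w hθ hν b [] (L.vw_nil a ha)
          · intro _ _ _ _
            rfl
      | @piB _ _ B1 b =>
          have e2 : F.cl (sub θ (Term.pi A B)) = F.cl (sub θ (Term.pi A B1)) :=
            L.cl_eq (BetaEq.sub (.rel _ _ (.piB _ b)) θ)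
          rw [L.vl.den_pi, L.vl.den_pi, ← e2]
          refine L.op_congr r hc hA' hT' ?_ ?_
          · intro _
            rfl
          · intro hb q v hq
            refine ih' (w.cons hA.typed) (hθ.scons hq) ?_ b [] (L.vw_nil b0 hb)
            intro y
            cases y with
            | zero => exact look_good F _
            | succ y => exact hν y
  | @lam G A M B T h hM e ih =>
      intro θ ν w hθ hν M' b p hp
      obtain ⟨B', s, h1, h2, e1⟩ := fgen_lam h _ _ rfl
      obtain ⟨a, hA⟩ := fpi_dom h2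
      cases p with
      | nil =>
          cases b with
          | lamA _ b => rw [L.vl.den_lam_nil, L.vl.den_lam_nil]
          | lamM _ b => rw [L.vl.den_lam_nil, L.vl.den_lam_nil]
      | cons x p =>
          cases b with
          | lamA _ b => rw [L.vl.den_lam_cons, L.vl.den_lam_cons]
          | lamM _ b =>
              rw [L.vl.den_lam_cons, L.vl.den_lam_cons]
              have h3 : TyF P W (Term.pi (sub θ A) (sub (ups θ) B')) (sort s) := tyf_sub h2 hθ
              have hp2 := hp
              rw [sh_cons, L.cl_eq (BetaEq.sub e1 θ), sub_pi] at hp2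
              obtain ⟨h4, h5⟩ := L.vw_inv h3 _ _ hp2
              have e2 : BetaEq B' B := (pi_inj (BetaEq.trans (BetaEq.symm e1) e)).2
              refine ih (w.cons hA) (hθ.scons h4) ?_ b p ?_
              · intro y
                cases y with
                | zero => exact look_good F _
                | succ y => exact hν y
              · rw [sub_scons, ← L.cl_eq (BetaEq.sub (BetaEq.sub e2 (ups θ)) _)]
                exact h5
  | @app G F0 N A B T h hF hN e hl ih ih' =>
      intro θ ν w hθ hν M' b p hp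
      have hF' : TyF P W (sub θ F0) (Term.pi (sub θ A) (sub (ups θ) B)) := tyf_sub hF.typed hθ
      have hN' : TyF P W (sub θ N) (sub θ A) := tyf_sub hN.typed hθ
      obtain ⟨c, hc⟩ := fpi_typed L.wf hF'
      have e2 : BetaEq (sub θ T) (inst (sub θ N) (sub (ups θ) B)) := by
        have := BetaEq.sub e θ
        rwa [sub_inst] at this
      have hp2 : ∀ en : Ent Q SI C, rg (F.cl (sub θ A)) en.sh →
          vw (F.cl (sub θ (Term.pi A B))) (sh ((F.cl (sub θ N), en) :: p)) := by
        intro en hen
        rw [sh_cons]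
        refine L.vw_cons hc hN' _ _ hen ?_
        rwa [← L.cl_eq e2]
      cases b with
      | @appL _ F1 _ b =>
          have e3 : F.cl (sub θ F0) = F.cl (sub θ F1) := L.cl_eq (BetaEq.sub (.rel _ _ b) θ)
          rw [L.vl.den_app, L.vl.den_app, ← e3, L.dty hF']
          exact ih w hθ hν b _ (hp2 _ (L.ok _ _))
      | @appR _ _ N1 b =>
          have e3 : F.cl (sub θ N) = F.cl (sub θ N1) := L.cl_eq (BetaEq.sub (.rel _ _ b) θ)
          rw [L.vl.den_app, L.vl.den_app, ← e3, L.dty hF']
          have he : entry F (F.cl (sub θ A)) (den F N θ ν) =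
              entry F (F.cl (sub θ A)) (den F N1 θ ν) :=
            L.vl.entry_congr (fun q hq => ih' w hθ hν b q (L.vw_of_vt _ _ hq))
          rw [he]
      | redex A0 P0 _ =>
          rw [subst_eq]
          obtain ⟨c', hc', hs⟩ := hl trivial
          have hrt : RT P D G (inst N B) := ((L.vw_rt _ _ hp).of_sub hθ).conv e
          obtain ⟨a, b, r, hA, _, _, h4⟩ := signed_parts w hc' hs hN.typed hrt
          exact den_contract L w hθ hν hF.typed hN.typed (L.notO (hA.sub hθ) h4) e p hp

/-- **BETA INVARIANCE** of the values of good terms -/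
theorem den_red (L : TL P D W F vt vw rg) {G : ℕ → Term S} {M M' T : Term S}
    (w : WfF P G) (h : Gd P D G M T) (r : Red M M') {θ : ℕ → Term S} {ν : ℕ → UF Q SI C}
    (hθ : SubF P θ G W) (hν : ∀ x, Cod893.Good (ν x)) (p : UPath Q SI C)
    (hp : vw (F.cl (sub θ T)) (sh p)) : den F M θ ν p = den F M' θ ν p := by
  induction r with
  | refl => rfl
  | tail r b ih => rw [ih, den_beta L (gd_red w h r) w hθ hν b p hp]

/-- values of variables matter only through admitted paths, closed terms up to conversion -/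
theorem den_env (L : TL P D W F vt vw rg) {G : ℕ → Term S} {M T : Term S}
    (w : WfF P G) (hM : TyF P G M T) {θ θ' : ℕ → Term S} {ν ν' : ℕ → UF Q SI C}
    (hθ : SubF P θ G W) (hθ' : SubF P θ' G W) (e : ∀ x, BetaEq (θ x) (θ' x))
    (H : ∀ x p, vw (F.cl (sub θ (G x))) (sh p) → ν x p = ν' x p) (p : UPath Q SI C)
    (hp : vw (F.cl (sub θ T)) (sh p)) : den F M θ' ν' p = den F M θ ν p := by
  have := den_SUB L M (σ := var) (ν := ν) (ν' := ν') hM (SubF.var w) hθ' hθ
    (fun x => e x) (fun x q hq => by rw [L.vl.den_var]; exact H x q hq) p hp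
  rwa [sub_id] at this

/-- **(R4)**: the value of the normal form of an instance -/
theorem den_R4 (L : TL P D W F vt vw rg) {G : ℕ → Term S} (w : WfF P G)
    {A B N T K : Term S} {a b c : S} (hB : TyF P (fcons A G) B T) (nB : Normal B)
    (hN : TyF P G N A) (nN : Normal N) (hA : TyF P G A (sort a)) (r : P.rule a b c)
    (hb : b ∈ D) (hc : c ∈ D) (hK : Red (inst N B) K) {θ : ℕ → Term S} {ν : ℕ → UF Q SI C}
    (hθ : SubF P θ G W) (hν : ∀ x, Cod893.Good (ν x)) {N' : Term S}
    (hN' : TyF P W N' (sub θ A)) (eN : BetaEq N' (sub θ N)) (p : UPath Q SI C)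
    (hp : vw (F.cl (sub θ (inst N T))) (sh p)) :
    den F K θ ν p = den F B (scons N' θ)
      (icons (look F (entry F (F.cl (sub θ A)) (den F N θ ν))) ν) p := by
  rw [← den_red L w (gd_start w hB nB hN nN hA r hb hc) hK hθ hν p hp]
  refine den_SUB L B (σ := scons N var) (G' := G) (θ := scons N' θ) (T := T) hB ?_ hθ
    (hθ.scons hN') ?_ ?_ p ?_
  · exact (SubF.var w).scons (by rwa [sub_id])
  · intro x
    cases x with
    | zero => exact eN
    | succ x => exact BetaEq.refl _
  · intro x p' hp'
    cases x with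
    | zero =>
        rw [fcons_zero, sub_scons_wk] at hp'
        refine L.vl.look_entry (den_good F N θ hν) ?_
        exact L.notO (Uniq452.Sg.of (tyf_sub hA hθ)) (fun ha => ⟨true, .base r hb hc ha⟩) _ hp'
    | succ x =>
        show ν x p' = den F (var x) θ ν p'
        rw [L.vl.den_var]
  · have e2 : BetaEq (sub (scons N' θ) T) (sub θ (inst N T)) := by
      rw [sub_scons, sub_inst]
      exact BetaEq.inst eN (BetaEq.refl _)
    rwa [L.cl_eq e2]

end Crest.Agent.R298.T4795
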