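import Crest.Agent.R298.Fl2_113
import Crest.Agent.R298.Uniq_452

/-!
R298 (S0452), helper157: T7a, closed classes at a stage.

`D` a function context (the world), `k` a level, `𝒟 = {s | idx s = k}`.
`Cl D k T`: some sort of `T` has index `≥ k` (class `≥ k`).
For a product `pi A B` of class `≥ k` which is not of class `≥ k + 1` ("strict"):
either every instance of `B` has class `≥ k + 1`, or `A` is `𝒟`-bound, and then, if it is relevant,
it has a sort with sign `true`.
-/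

set_option autoImplicit false

namespace Crest.Agent.R298.T7a157

open Crest.LogicCS.PTS Crest.LogicCS.PTS.Term Relation
open Crest.Agent.R298.Sub452 Crest.Agent.R298.Par452 Crest.Agent.R298.TyF452
open Crest.Agent.R298.Fl113

universe u
variable {S : Type u} {P : Spec S} {idx : S → ℕ} {D : ℕ → Term S}

/-- class at least `k` -/
def Cl (P : Spec S) (idx : S → ℕ) (k : ℕ) (D : ℕ → Term S) (T : Term S) : Prop :=
  ∃ s, Uniq452.Sg P D T s ∧ k ≤ idx s

/-- the class is exactly `k` -/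
def Str (P : Spec S) (idx : S → ℕ) (k : ℕ) (D : ℕ → Term S) (T : Term S) : Prop :=
  Cl P idx k D T ∧ ¬ Cl P idx (k + 1) D T

/-- sign of a type: sign of one of its sorts -/
def SgT (P : Spec S) (E : Set S) (D : ℕ → Term S) (T : Term S) (e : Bool) : Prop :=
  ∃ t, Uniq452.Sg P D T t ∧ Fl113.Sg P E t e

/-- the monotonicity of the index -/
def Mono (P : Spec S) (idx : S → ℕ) : Prop :=
  ∀ a b c, P.rule a b c → idx c ≤ idx a ∧ idx c ≤ idx b

theorem Cl.conv {k : ℕ} {T T' : Term S} (h : Cl P idx k D T) (e : BetaEq T' T) :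
    Cl P idx k D T' := by
  obtain ⟨s, h, hk⟩ := h
  exact ⟨s, h.conv e, hk⟩

theorem Cl.mono {k l : ℕ} {T : Term S} (h : Cl P idx k D T) (hl : l ≤ k) : Cl P idx l D T := by
  obtain ⟨s, h, hk⟩ := h
  exact ⟨s, h, hl.trans hk⟩

theorem Str.conv {k : ℕ} {T T' : Term S} (h : Str P idx k D T) (e : BetaEq T' T) :
    Str P idx k D T' := ⟨h.1.conv e, fun h' => h.2 (h'.conv (BetaEq.symm e))⟩

theorem SgT.conv {E : Set S} {T T' : Term S} {e : Bool} (h : SgT P E D T e) (q : BetaEq T' T) :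
    SgT P E D T' e := by
  obtain ⟨t, h, ht⟩ := h
  exact ⟨t, h.conv q, ht⟩

/-- the sorts of a strict type have index at most `k`, and one of them has index `k` -/
theorem Str.exists_sort {k : ℕ} {T : Term S} (h : Str P idx k D T) :
    ∃ s, Uniq452.Sg P D T s ∧ idx s = k := by
  obtain ⟨⟨s, hs, hk⟩, hn⟩ := h
  refine ⟨s, hs, le_antisymm ?_ hk⟩
  by_contra hc
  exact hn ⟨s, hs, by omega⟩

theorem Str.le {k : ℕ} {T : Term S} (h : Str P idx k D T) {s : S} (hs : Uniq452.Sg P D T s) :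
    idx s ≤ k := by
  by_contra hc
  exact h.2 ⟨s, hs, by omega⟩

/-- components of a product of class `≥ k` -/
theorem Cl.pi_inv {k : ℕ} (hm : Mono P idx) (w : WfF P D) {A B : Term S}
    (h : Cl P idx k D (pi A B)) : Cl P idx k D A ∧ ∀ N, TyF P D N A → (∃ s, TyF P D A (sort s)) →
      Cl P idx k D (inst N B) := by
  obtain ⟨c, hc, hk⟩ := h
  obtain ⟨a, b, r, hA, A', rA, hA', hB⟩ := hc.pi_inv w
  obtain ⟨h1, h2⟩ := hm _ _ _ r
  refine ⟨⟨a, hA, hk.trans h1⟩, fun N hN _ => ?_⟩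
  exact ⟨b, hB.inst w (.conv hN hA' rA.eq), hk.trans h2⟩

/-- the data of a strict product -/
theorem Str.pi_split {k : ℕ} (hm : Mono P idx) (w : WfF P D) {A B : Term S}
    (h : Str P idx k D (pi A B)) : ∃ a b c A', P.rule a b c ∧ Red A A' ∧ TyF P D A' (sort a) ∧
      Uniq452.Sg P (fcons A' D) B b ∧ idx c = k ∧ k ≤ idx b := by
  obtain ⟨c, hc, hk⟩ := h.exists_sort
  obtain ⟨a, b, r, -, A', rA, hA', hB⟩ := hc.pi_inv w
  exact ⟨a, b, c, A', r, rA, hA', hB, hk, hk ▸ (hm _ _ _ r).2⟩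

/-- **the case distinction at a strict product** -/
theorem Str.pi_cases {k : ℕ} (hm : Mono P idx) (w : WfF P D) {A B : Term S}
    (h : Str P idx k D (pi A B)) :
    (∀ N, TyF P D N A → Cl P idx (k + 1) D (inst N B)) ∨
      (Rl P {s | idx s = k} D A → SgT P {s | idx s = k} D A true) := by
  obtain ⟨a, b, c, A', r, rA, hA', hB, hc, hb⟩ := h.pi_split hm w
  rcases Nat.lt_or_ge k (idx b) with hlt | hge
  · left
    intro N hN
    exact ⟨b, hB.inst w (.conv hN hA' rA.eq), hlt⟩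
  · right
    intro hR
    refine ⟨a, ⟨A', rA.eq, hA'⟩, .base r (le_antisymm hge hb) hc ?_⟩
    exact (hR.red w rA).relS w hA'

/-- components of a strict product have class `≥ k` -/
theorem Str.dom_cl {k : ℕ} (hm : Mono P idx) (w : WfF P D) {A B : Term S}
    (h : Str P idx k D (pi A B)) : Cl P idx k D A := (h.1.pi_inv hm w).1

theorem Str.cod_cl {k : ℕ} (hm : Mono P idx) (w : WfF P D) {A B : Term S}
    (h : Str P idx k D (pi A B)) {N : Term S} (hN : TyF P D N A) : Cl P idx k D (inst N B) := by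
  obtain ⟨a, b, c, A', r, rA, hA', hB, hc, hb⟩ := h.pi_split hm w
  exact ⟨b, hB.inst w (.conv hN hA' rA.eq), hb⟩

/-- an instance of a strict product is strict or high -/
theorem Str.cod_cases {k : ℕ} (hm : Mono P idx) (w : WfF P D) {A B : Term S}
    (h : Str P idx k D (pi A B)) {N : Term S} (hN : TyF P D N A) :
    Cl P idx (k + 1) D (inst N B) ∨ Str P idx k D (inst N B) := by
  by_cases hh : Cl P idx (k + 1) D (inst N B)
  · exact .inl hh
  · exact .inr ⟨h.cod_cl hm w hN, hh⟩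

/-- signs of the components of a signed type -/
theorem SgT.cod {E : Set S} (w : WfF P D) {A B : Term S} {e : Bool}
    (h : SgT P E D (pi A B) e) {N : Term S} (hN : TyF P D N A) (hr : Rl P E D (inst N B)) :
    SgT P E D (inst N B) e := by
  obtain ⟨c, hc, hs⟩ := h
  obtain ⟨a, b, r, -, A', rA, hA', hB⟩ := hc.pi_inv w
  have h1 := hB.inst w (.conv hN hA' rA.eq)
  obtain ⟨T', r1, h2⟩ := h1.red w
  exact ⟨b, h1, .cod r ((hr.red w r1).relS w h2) hs⟩

theorem SgT.dom {E : Set S} (w : WfF P D) {A B : Term S} {e : Bool}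
    (h : SgT P E D (pi A B) e) (hr : Rl P E D (pi A B)) (hrA : Rl P E D A) :
    SgT P E D A (!e) := by
  obtain ⟨c, hc, hs⟩ := h
  obtain ⟨T', r0, hT'⟩ := hc.red w
  obtain ⟨A', B', rfl, rA, rB⟩ := red_pi r0
  obtain ⟨a, b, c', hA, hB, r, e'⟩ := fgen_pi hT' _ _ rfl
  have hcc : c = c' := sort_inj e'
  subst hcc
  refine ⟨a, ⟨A', rA.eq, hA⟩, .dom r ((hrA.red w rA).relS w hA) ?_ hs⟩
  exact (hr.red w r0).relS_cod w hA hB

/-- **Theorem F for `SgT`** -/
theorem tame_of_both {E : Set S} [_root_.Finite S] (w : WfF P D)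
    (hwn : ∀ T t, TyF P D T (sort t) → ∃ T0, Red T T0 ∧ Normal T0) (hF : ¬ Fl113.Fat P E)
    {T : Term S} (h1 : SgT P E D T true) (h2 : SgT P E D T false) : Tame P E D T := by
  obtain ⟨t, ht, hs⟩ := h1
  obtain ⟨t', ht', hs'⟩ := h2
  obtain ⟨T1, r1, k1⟩ := ht.red w
  obtain ⟨T2, r2, k2⟩ := ht'.red w
  obtain ⟨T3, q1, q2⟩ := confluence r1 r2
  refine Tame.of_red w ?_ (r1.trans q1)
  exact theoremF w hwn hF (FSR w k1 q1) (FSR w k2 q2) hs hs'

end Crest.Agent.R298.T7a157
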