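import Crest.Agent.R298.SM1_646
import Crest.Agent.R298.Md2_254
import Crest.Agent.R298.Ok_599

/-!
R298 (S0452), helper599: the T model in one world: frame, laws (`Ok599.Sys`), type evaluator
(`SM646.TyEval`) and the instance law (`SM646.TyEval.Inst`).

Closed terms and types are represented by `Md254.cl`; the value domain is `Set (MT S)`; the value of
a product is `Cand704.PiSet`; the value of a sort is `∅` (clamped to all typed members of `Wn`).
-/

set_option autoImplicit false

namespace Crest.Agent.R298.TE599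

open Crest.LogicCS.PTS Crest.LogicCS.PTS.Term Relation
open Crest.Agent.R298.Sub452 Crest.Agent.R298.Par452 Crest.Agent.R298.Ty452
open Crest.Agent.R298.Mem360 Crest.Agent.R298.TyF452 Crest.Agent.R298.TyMF452
open Crest.Agent.R298.Uniq452 Crest.Agent.R298.Main865 Crest.Agent.R298.Cand704
open Crest.Agent.R298.Cod893 Crest.Agent.R298.Md254
open Crest.Agent.R298.Mem360.MT (er msub)

variable {S : Type}

section defs

variable (P : Spec S) (idx : S → ℕ) (i : ℕ) (W : ℕ → Term S)

/-- skeleton -/
noncomputable abbrev KK : Inf786.Skel (Term S) (Term S) := skel P (Lvl idx i) W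

/-- colour -/
abbrev GG : Term S → Prop := sgQ P (Lvl idx i) W

/-- small infos -/
abbrev SIW : Type := Vt786.SI (KK P idx i W) (Set (MT S))

/-- function values -/
abbrev UFW : Type 1 := UF (Term S) (SIW P idx i W) (Set (MT S))

/-- product entries -/
abbrev PEW : Type 1 := PEnt (Term S) (SIW P idx i W) (Set (MT S))

open Classical in
/-- realizers of a closed type with value `X` -/
noncomputable def RC (q : Term S) (X : Set (MT S)) : Set (MT S) :=
  if SM646.Hi P idx i W q then Wt P idx (i + 1) W q else cst P idx (i + 1) W q X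

/-- admitted product entries of a closed type -/
def Adm (q : Term S) (e : PEW P idx i W) : Prop :=
  Vt786.rngS (KK P idx i W) (GG P idx i W) q e.ent.sh ∨
    (¬ Inf786.Tame (KK P idx i W) q ∧ ¬ GG P idx i W q ∧ e = .inr fun _ => default)

/-- value of a product -/
noncomputable def opQ (qA qT : Term S) (X : Set (MT S))
    (Y : Term S → PEW P idx i W → Set (MT S)) : Set (MT S) :=
  PiSet P idx (i + 1) W qT (RC P idx i W qA X) (fun _ e => Adm P idx i W qA e)
    (fun w e => RC P idx i W (kcod qT (er w)) (Y (cl (er w)) e))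

open Classical in
/-- domain type of a closed function term -/
noncomputable def dtyQ (q : Term S) : Term S :=
  if h : ∃ A B, TyF P W q (pi A B) then cl (Classical.choose h) else q

/-- the frame -/
noncomputable def FF : Frame S (Term S) (SIW P idx i W) (Set (MT S)) :=
  Vt786.stdFrame (KK P idx i W) (GG P idx i W) cl id (fun _ _ c => c) (dtyQ P W)
    (fun _ => default) (opQ P idx i W)

end defs

variable {P : Spec S} {idx : S → ℕ} {i : ℕ} {W : ℕ → Term S}

theorem FF_std : Vt786.Std (KK P idx i W) (GG P idx i W) (FF P idx i W) :=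
  ⟨rfl, rfl, rfl, rfl, rfl⟩

/-! ### conversion of `RC` -/

theorem cst_conv (w : WfF P W) {T T' : Term S} {s s' : S} (hT : TyF P W T (.sort s))
    (hT' : TyF P W T' (.sort s')) (e : BetaEq T T') (X : Set (MT S)) :
    cst P idx (i + 1) W T X = cst P idx (i + 1) W T' X := by
  unfold cst
  by_cases h : Cand P idx (i + 1) W T X
  · rw [if_pos h, if_pos (h.conv' w hT hT' e)]
  · rw [if_neg h, if_neg fun h' => h (h'.conv' w hT' hT (BetaEq.symm e)), wt_conv w hT hT' e]

theorem RC_conv (w : WfF P W) {T T' : Term S} {s s' : S} (hT : TyF P W T (.sort s))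
    (hT' : TyF P W T' (.sort s')) (e : BetaEq T T') (X : Set (MT S)) :
    RC P idx i W T X = RC P idx i W T' X := by
  unfold RC
  by_cases h : SM646.Hi P idx i W T
  · rw [if_pos h, if_pos (h.conv e), wt_conv w hT hT' e]
  · rw [if_neg h, if_neg fun h' => h (h'.conv (BetaEq.symm e)), cst_conv w hT hT' e]

theorem RC_cand (T : Term S) (X : Set (MT S)) :
    Cand P idx (i + 1) W T (RC P idx i W T X) := by
  unfold RC
  split_ifs
  · exact cand_wt _ _ _ _ _
  · exact cand_cst _ _ _ _ _ _

theorem RC_typed {T : Term S} {X : Set (MT S)} {w : MT S} (h : w ∈ RC P idx i W T X) :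
    TyF P W (er w) T := ((RC_cand T X).sub w h).1.typed

theorem RC_high {T : Term S} (h : SM646.Hi P idx i W T) (X X' : Set (MT S)) :
    RC P idx i W T X = RC P idx i W T X' := by
  unfold RC
  rw [if_pos h, if_pos h]

/-! ### admitted entries -/

theorem adm_ne (q : Term S) : ∃ e, Adm P idx i W q e := by
  by_cases h : Inf786.Tame (KK P idx i W) q
  · exact ⟨.inl (Vt786.putS _ q fun _ => default), .inl ⟨h, Vt786.putS_mem h _⟩⟩
  · by_cases h' : GG P idx i W q
    · exact ⟨.inr fun _ => default, .inl ⟨h, h'⟩⟩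
    · exact ⟨.inr fun _ => default, .inr ⟨h, h', rfl⟩⟩

/-- packed values of types which are tame or of the bound colour are product entries -/
theorem entry_pent {q : Term S}
    (h : ¬ Inf786.Tame (KK P idx i W) q → GG P idx i W q) (u : UFW P idx i W) :
    ∃ e : PEW P idx i W, Adm P idx i W q e ∧ entry (FF P idx i W) q u = e.ent := by
  by_cases hq : Inf786.Tame (KK P idx i W) q
  · rw [FF_std.entry_tame hq]
    exact ⟨.inl _, .inl ⟨hq, Vt786.putS_mem hq _⟩, rfl⟩
  · rw [FF_std.entry_minus hq (h hq)]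
    exact ⟨.inr _, .inl ⟨hq, h hq⟩, rfl⟩

/-- admitted entries of types without valid paths have the default value -/
theorem look_dead {q : Term S} (h1 : ∀ a, ¬ (KK P idx i W).live q a)
    (h2 : ¬ (KK P idx i W).leaf q) {e : PEW P idx i W} (he : Adm P idx i W q e) :
    look (FF P idx i W) e.ent = fun _ => (FF P idx i W).b := by
  have hq : Inf786.Tame (KK P idx i W) q := Inf786.tame_of_dead h1
  rcases he with he | ⟨he, _⟩
  · cases e with
    | inr f => exact absurd hq he.1
    | inl s =>
        obtain ⟨_, hs⟩ := he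
        rw [Inf786.info_eq (fun _ => True) hq] at hs
        obtain ⟨F, hF, e⟩ := hs
        funext p
        cases hp : toS p with
        | none =>
            simp only [look, PEnt.ent, hp]
        | some l =>
            have e2 : look (FF P idx i W) (PEnt.ent (.inl s)) p =
                Vt786.getS (KK P idx i W) s l := by
              simp only [look, PEnt.ent, hp]
              rfl
            rw [e2]
            show Vt786.getS (KK P idx i W) s l = default
            unfold Vt786.getS
            rw [e, Dom201.app_codeF (Vt786.supp_tame hq hF)]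
            refine hF _ fun hv => ?_
            cases l with
            | nil => exact h2 hv
            | cons x l => exact h1 _ hv.1
  · exact absurd hq he

/-! ### laws of the frame -/

section laws

variable (w : WfF P W) (hwn : ∀ M A, TyF P W M A → WN M) (hF : TF P (Lvl idx i) W)
  (hr : ∀ a b c, P.rule a b c → idx c ≤ idx a ∧ idx c ≤ idx b)

include w hwn in
theorem dty_eq {M A B : Term S} (h : TyF P W M (pi A B)) : dtyQ P W (cl M) = cl A := by
  have h1 : ∃ A B, TyF P W (cl M) (pi A B) := ⟨A, B, cl_typed w hwn h⟩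
  unfold dtyQ
  rw [dif_pos h1]
  obtain ⟨B', h2⟩ := Classical.choose_spec h1
  exact cl_congr (funiq h2 (cl_typed w hwn h)).pi_inv.1

theorem kcod_cl (A B a : Term S) : kcod (cl (pi A B)) a = cl (inst a B) := kcod_pi (cl_eq _) a

theorem not_hi_le {T : Term S} (h : ¬ SM646.Hi P idx i W T) {s : S} (hs : Sg P W T s) :
    idx s ≤ i := by
  by_contra hc
  exact h ⟨s, hs, not_le.1 hc⟩

theorem hi_cl {T : Term S} : SM646.Hi P idx i W (cl T) ↔ SM646.Hi P idx i W T :=
  SM646.hi_congr (cl_eq T)

include w hwn in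
theorem op_congr {A B : Term S} {v v' : Set (MT S)}
    {f f' : Term S → PEW P idx i W → Set (MT S)}
    (h1 : ¬ SM646.Hi P idx i W (cl A) → v = v')
    (h2 : ∀ a e, TyF P W a (cl A) ∧ Adm P idx i W (cl A) e ∧
      ¬ SM646.Hi P idx i W (kcod (cl (pi A B)) a) → f a e = f' a e) :
    opQ P idx i W (cl A) (cl (pi A B)) v f = opQ P idx i W (cl A) (cl (pi A B)) v' f' := by
  have e1 : RC P idx i W (cl A) v = RC P idx i W (cl A) v' := by
    by_cases h : SM646.Hi P idx i W (cl A)
    · exact RC_high h _ _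
    · rw [h1 h]
  unfold opQ
  rw [e1]
  have key : ∀ x ∈ RC P idx i W (cl A) v', ∀ e, Adm P idx i W (cl A) e →
      RC P idx i W (kcod (cl (pi A B)) (er x)) (f (cl (er x)) e) =
      RC P idx i W (kcod (cl (pi A B)) (er x)) (f' (cl (er x)) e) := by
    intro x hx e he
    by_cases h : SM646.Hi P idx i W (kcod (cl (pi A B)) (er x))
    · exact RC_high h _ _
    · have hx' := RC_typed hx
      rw [h2 (cl (er x)) e ⟨cl_typed w hwn hx', he, fun h' => h ?_⟩]
      rw [kcod_cl] at h' ⊢
      rw [hi_cl] at h' ⊢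
      exact h'.conv (BetaEq.inst (cl_eq _) (.refl _))
  ext x
  constructor
  · rintro ⟨a, b, c⟩
    refine ⟨a, b, fun y hy e he => ?_⟩
    have := c y hy e he
    change MT.app x y ∈ RC P idx i W (kcod (cl (pi A B)) (er y)) (f (cl (er y)) e) at this
    rw [key y hy e he] at this
    exact this
  · rintro ⟨a, b, c⟩
    refine ⟨a, b, fun y hy e he => ?_⟩
    have := c y hy e he
    change MT.app x y ∈ RC P idx i W (kcod (cl (pi A B)) (er y)) (f' (cl (er y)) e) at this
    rw [← key y hy e he] at this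
    exact this

include w hr in
theorem live_of_bound {A : Term S} {a b c : S} (r : P.rule a b c) (hb : idx b ≤ i)
    (hc : idx c = i) (hA : Sg P W A a) (hR : Fl113.Rl P (Lvl idx i) W A) :
    Live P (Lvl idx i) W A :=
  notO_bound w r (show idx b = i from le_antisymm hb (hc ▸ (hr _ _ _ r).2)) hc hA hR

/-- the laws used for the typed substitution lemma -/
noncomputable def sys : Ok599.Sys P W (FF P idx i W) where
  D := Lvl idx i
  vt := Vt786.vt (KK P idx i W) (GG P idx i W)
  Live := Live P (Lvl idx i) W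
  Rel := Fl113.Rl P (Lvl idx i) W
  Strict := fun q => ¬ SM646.Hi P idx i W q
  eok := Vt786.rngS (KK P idx i W) (GG P idx i W)
  PR := fun qA qT a e => TyF P W a qA ∧ Adm P idx i W qA e ∧ ¬ SM646.Hi P idx i W (kcod qT a)
  wf := w
  nz_id := fun _ _ _ => rfl
  cl_eq := fun h => cl_congr h
  rep_cl := fun M => cl_eq M
  rep_ty := fun h => cl_typed w hwn h
  dty_eq := fun h => dty_eq w hwn h
  vt_pi_nil := fun A B => not_kleaf_pi (cl_eq _)
  vt_sort_cons := by
    rintro c x s ⟨⟨_, A, B, e, _⟩, _⟩
    exact not_sort_pi (BetaEq.trans (BetaEq.symm (cl_eq _)) e)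
  vt_sort := by
    intro c
    constructor
    · rintro ⟨s, hs, e⟩
      have : c = s := sort_inj (BetaEq.trans (BetaEq.symm (cl_eq _)) e)
      exact this ▸ hs
    · intro h
      exact ⟨c, h, cl_eq _⟩
  vt_cons := by
    rintro A B a e s ⟨t, ht⟩
    obtain ⟨t', hA⟩ := fpi_dom ht
    have e0 : BetaEq (cl (pi A B)) (pi A B) := cl_eq _
    show (klive P (Lvl idx i) W (cl (pi A B)) a ∧
      Vt786.rngS _ _ (kdom (cl (pi A B))) e ∧ Vt786.vt _ _ (kcod (cl (pi A B)) a) s) ↔ _
    rw [klive_pi w e0 hA, kdom_pi e0, kcod_pi e0]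
    constructor
    · rintro ⟨⟨h1, h2, h3⟩, h4, h5⟩
      exact ⟨h1, h2, h4, h5⟩
    · rintro ⟨h1, h2, h4, h5⟩
      exact ⟨⟨h1, h2, rl_of_vt w ((vt_cl w).1 h5)⟩, h4, h5⟩
  rel_vt := fun q s h => rl_of_vt w h
  rel_pi := by
    intro A B N _ hN h
    exact (rl_iff w (cl_eq _)).2 (rl_of_inst w (.refl _) hN ((rl_iff w (cl_eq _)).1 h))
  live_inst := by
    intro A B N A' B' _ h hN _ hR
    exact (live_iff w (cl_eq _)).2
      (((live_iff w (cl_eq _)).1 h).cod w (.refl _) hN ((rl_iff w (cl_eq _)).1 hR))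
  live_dom := by
    intro A B A' B' _ h _ hR
    exact (live_iff w (cl_eq _)).2
      (((live_iff w (cl_eq _)).1 h).dom w (.refl _) ((rl_iff w (cl_eq _)).1 hR))
  eok_entry := fun u _ _ => FF_std.entry_ok _ u
  look_entry := fun _ hu hp => FF_std.look_entry (thin w hF) _ hu hp
  entry_congr := fun _ h => FF_std.entry_congr h
  op_congr := fun h1 h2 => op_congr w hwn h1 h2
  pr := by
    rintro A B c a e hc hcD ⟨h1, h2, h3⟩
    obtain ⟨x, b, c', hA, hB, r, e'⟩ := fgen_pi hc _ _ rfl
    have hcc : c = c' := sort_inj e'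
    subst hcc
    have ha : TyF P W a A := .conv h1 hA (cl_eq _)
    replace h3 : ¬ SM646.Hi P idx i W (kcod (cl (pi A B)) a) := h3
    rw [kcod_cl] at h3
    refine ⟨ha, ?_, h3⟩
    rintro ⟨_, h5, h6⟩
    have hb : idx b ≤ i := not_hi_le h3
      ((Sg.of (tyf_inst w hB ha)).conv (cl_eq _))
    exact absurd ((live_iff w (cl_eq _)).2
      (live_of_bound w hr r hb hcD (.of hA) ((rl_iff w (cl_eq _)).1 h5))) h6
  strict_dom := by
    intro A a b c hA r hc h
    exact le_antisymm (not_hi_le h ((Sg.of hA).conv (cl_eq _))) ((show idx c = i from hc) ▸ (hr _ _ _ r).1)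
  strict_cod := by
    intro B a b c hB r hc h
    exact le_antisymm (not_hi_le h ((Sg.of hB).conv (cl_eq _))) ((show idx c = i from hc) ▸ (hr _ _ _ r).2)

end laws

/-! ### the type evaluator -/

section eval

variable (w : WfF P W) (hwn : ∀ M A, TyF P W M A → WN M) (hF : TF P (Lvl idx i) W)
  (hr : ∀ a b c, P.rule a b c → idx c ≤ idx a ∧ idx c ≤ idx b)

theorem isc_eq {X : Type 1} (j : X) (ν : ℕ → X) (n : ℕ) :
    SM646.isc j ν n = (match n with | 0 => j | n + 1 => ν n) := by
  cases n <;> rfl

theorem isc_icons (j : UFW P idx i W) (ν : ℕ → UFW P idx i W) : SM646.isc j ν = icons j ν := by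
  funext n
  cases n <;> rfl

theorem den_scons {F : Frame S (Term S) (SIW P idx i W) (Set (MT S))}
    (hcl : ∀ M N : Term S, BetaEq M N → F.cl M = F.cl N) (B : Term S) {a a' : Term S}
    (e : BetaEq a a') (θ : ℕ → Term S) (ν : ℕ → UFW P idx i W) :
    den F B (scons a θ) ν = den F B (scons a' θ) ν := by
  refine den_congr F hcl B (fun x => ?_) (fun x => ?_)
  · cases x with
    | zero => exact e
    | succ x => exact .refl _
  · cases x with
    | zero =>
        funext p
        show F.nz (F.cl a) _ _ = F.nz (F.cl a') _ _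
        rw [hcl _ _ e]
    | succ x => rfl

/-- the type evaluator of the stage -/
noncomputable def zz : SM646.TyEval.{0, 1} P idx i W where
  Inf := UFW P idx i W
  IQ := fun T j => ∃ e : PEW P idx i W, Adm P idx i W (cl T) e ∧ j = look (FF P idx i W) e.ent
  ne := by
    intro T
    obtain ⟨e, he⟩ := adm_ne (P := P) (idx := idx) (i := i) (W := W) (cl T)
    exact ⟨_, e, he, rfl⟩
  iq_conv := by
    rintro T T' j e ⟨x, h1, h2⟩
    exact ⟨x, cl_congr e ▸ h1, h2⟩
  dfl := fun _ => default
  ev := fun T θ ν => den (FF P idx i W) T θ ν []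
  ev_ren := by
    intro T r θ ν
    exact congrFun (den_ren (FF P idx i W) T r (fun k => θ (r k)) θ (fun k => ν (r k)) ν
      (fun _ => rfl) (fun _ => rfl)) []
  ev_sort := fun s θ ν => .inl fun v hv => hv
  ev_pi := by
    intro A B θ ν c hc hi hn
    have hc' : TyF P W (pi (sub θ A) (sub (ups θ) B)) (sort c) := hc
    obtain ⟨x, b, c', hA, hB, r, e'⟩ := fgen_pi hc' _ _ rfl
    have hT : TyF P W (cl (pi (sub θ A) (sub (ups θ) B))) (sort c) := cl_typed w hwn hc'
    have hA' : TyF P W (cl (sub θ A)) (sort x) := cl_typed w hwn hA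
    have eR : ∀ X, RC P idx i W (cl (sub θ A)) X = RC P idx i W (sub θ A) X :=
      fun X => RC_conv w hA' hA (cl_eq _) X
    show opQ P idx i W (cl (sub θ A)) (cl (pi (sub θ A) (sub (ups θ) B)))
      (den (FF P idx i W) A θ ν []) (fun a e => den (FF P idx i W) B (scons a θ)
        (icons (look (FF P idx i W) e.ent) ν) []) = _
    unfold opQ
    rw [eR]
    have key : ∀ y ∈ RC P idx i W (sub θ A) (den (FF P idx i W) A θ ν []),
        ∀ e : PEW P idx i W,
        RC P idx i W (kcod (cl (pi (sub θ A) (sub (ups θ) B))) (er y))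
          (den (FF P idx i W) B (scons (cl (er y)) θ)
            (icons (look (FF P idx i W) e.ent) ν) []) =
        RC P idx i W (sub (scons (er y) θ) B) (den (FF P idx i W) B (scons (er y) θ)
            (icons (look (FF P idx i W) e.ent) ν) []) := by
      intro y hy e
      have hy' := RC_typed hy
      have h1 := tyf_inst w hB hy'
      rw [kcod_cl, den_scons (fun M N h => cl_congr h) B (cl_eq (er y)) θ,
        RC_conv w (cl_typed w hwn h1) h1 (cl_eq _), sub_scons]
    ext v
    constructor
    · rintro ⟨h1, h2, h3⟩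
      refine ⟨(tmf_conv_iff w hT hc' (cl_eq _) v).1 h1, h2, ?_⟩
      rintro y hy j ⟨e, he, rfl⟩
      have := h3 y hy e he
      change MT.app v y ∈ RC P idx i W (kcod (cl (pi (sub θ A) (sub (ups θ) B))) (er y))
          (den (FF P idx i W) B (scons (cl (er y)) θ)
            (icons (look (FF P idx i W) e.ent) ν) []) at this
      rw [key y hy e, ← isc_icons] at this
      exact this
    · rintro ⟨h1, h2, h3⟩
      refine ⟨(tmf_conv_iff w hT hc' (cl_eq _) v).2 h1, h2, ?_⟩
      rintro y hy e he
      have := h3 y hy _ ⟨e, he, rfl⟩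
      change MT.app v y ∈ RC P idx i W (kcod (cl (pi (sub θ A) (sub (ups θ) B))) (er y))
          (den (FF P idx i W) B (scons (cl (er y)) θ)
            (icons (look (FF P idx i W) e.ent) ν) [])
      rw [key y hy e, ← isc_icons]
      exact this

end eval

/-! ### the instance law -/

section inst

variable (w : WfF P W) (hwn : ∀ M A, TyF P W M A → WN M) (hF : TF P (Lvl idx i) W)
  (hr : ∀ a b c, P.rule a b c → idx c ≤ idx a ∧ idx c ≤ idx b)

theorem good_dfl : Good (fun _ => default : UFW P idx i W) := fun _ => SS.const _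

/-- environments of the stage model are environments of the evaluation -/
theorem env_ok {G : ℕ → Term S} (wG : WfF P G) (ρ : SM646.Env (zz (idx := idx) (i := i) w hwn) G) :
    Ok599.Env (sys w hwn hF hr) G ρ.th ρ.inf where
  wf := wG
  sub := ρ.subF
  good := by
    intro x
    by_cases h : SM646.Cl P idx i G (G x)
    · obtain ⟨e, _, he⟩ := ρ.iq x h
      rw [he]
      exact look_good _ _
    · rw [(ρ.low x h).2]
      exact good_dfl
  dead := by
    rintro x ⟨⟨A, B, h1⟩, h2, h3⟩
    by_cases h : SM646.Cl P idx i G (G x)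
    · obtain ⟨e, he, he'⟩ := ρ.iq x h
      rw [he']
      refine look_dead (fun a ha => h3 ha.1) (fun hl => ?_) he
      exact not_kleaf_pi (BetaEq.trans (cl_eq _) h1) hl
    · rw [(ρ.low x h).2]
      rfl

include hF hr in
/-- **the instance law (R4)** -/
theorem inst_ok (hP : ∀ (Γ : List (Term S)) (M : Term S), Legal P Γ M → WN M) :
    (zz (idx := idx) (i := i) w hwn).Inst := by
  intro G ρ A B N s g hpi hcl hnh hN _
  have hn : TyF P G (er N) A := hN.typed
  obtain ⟨x0, b0, c0, hA0, hB0, r0, _⟩ := fgen_pi hpi _ _ rfl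
  have hwB : WN B := (g.cons hA0).wn hP hB0 |>.1
  have hwN : WN (er N) := (g.wn hP hn).1
  have hI0 : TyF P G (inst (er N) B) (sort b0) := tyf_inst g.wf hB0 hn
  have hwI : WN (inst (er N) B) := (g.wn hP hI0).1
  have hM : TyF P (fcons A G) (SM646.nf B) (sort b0) :=
    FSR (g.cons hA0).wf hB0 (SM646.nf_red hwB)
  have hK : TyF P G (SM646.nf (inst (er N) B)) (sort b0) := FSR g.wf hI0 (SM646.nf_red hwI)
  have hNn : TyF P G (SM646.nf (er N)) A := FSR g.wf hn (SM646.nf_red hwN)
  have eK : BetaEq (inst (er N) (SM646.nf B)) (SM646.nf (inst (er N) B)) :=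
    BetaEq.trans (BetaEq.symm (BetaEq.sub (SM646.nf_betaEq hwB) _)) (SM646.nf_betaEq hwI)
  have eM : sub (scons (sub ρ.th (er N)) ρ.th) (SM646.nf B) =
      sub ρ.th (inst (er N) (SM646.nf B)) := by
    rw [sub_inst, sub_scons]
  have eT : BetaEq (sub (scons (sub ρ.th (er N)) ρ.th) (SM646.nf B))
      (sub ρ.th (SM646.nf (inst (er N) B))) := by
    rw [eM]
    exact BetaEq.sub eK _
  have tM : TyF P W (sub (scons (sub ρ.th (er N)) ρ.th) (SM646.nf B)) (sort b0) := by
    rw [eM]
    exact tyf_sub (tyf_inst g.wf hM hn) ρ.subF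
  have tK : TyF P W (sub ρ.th (SM646.nf (inst (er N) B))) (sort b0) := tyf_sub hK ρ.subF
  by_cases hH : SM646.Hi P idx i W (sub (scons (sub ρ.th (er N)) ρ.th) (SM646.nf B))
  · obtain ⟨j, hj⟩ := (zz (idx := idx) (i := i) w hwn).ne (sub ρ.th A)
    refine ⟨j, hj, fun v hv => ?_⟩
    rw [(zz (idx := idx) (i := i) w hwn).rr_high hH] at hv
    rw [(zz (idx := idx) (i := i) w hwn).rr_high (hH.conv eT), ← wt_conv w tM tK eT]
    exact hv
  · obtain ⟨c, hc, hic⟩ := hcl
    obtain ⟨a, b, r, hA1, A', rA, hA', hB'⟩ := hc.pi_inv g.wf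
    have hci : idx c = i := le_antisymm (not_hi_le hnh (hc.sub ρ.subF)) hic
    have hBA : Sg P (fcons A G) (SM646.nf B) b := by
      obtain ⟨T0, e0, h0⟩ := hB'
      exact ⟨T0, BetaEq.trans (BetaEq.symm (SM646.nf_betaEq hwB)) e0,
        fctx_conv g.wf h0 hA' hA0 (BetaEq.symm rA.eq)⟩
    have hb : idx b = i := by
      refine le_antisymm (not_hi_le hH ?_) (hci ▸ (hr _ _ _ r).2)
      rw [eM]
      exact (hBA.inst g.wf hn).sub ρ.subF
    have tMb : TyF P (fcons A G) (SM646.nf B) (sort b) :=
      (Sg.normal (g.cons hA0).wf (SM646.nf_normal hwB)).1 hBA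
    have hAc : Sg P W (sub ρ.th A) a := hA1.sub ρ.subF
    have hnd : ¬ (sys w hwn hF hr).Dead (sub ρ.th A) := by
      rintro ⟨_, h2, h3⟩
      exact h3 ((live_iff w (cl_eq _)).2
        (live_of_bound w hr r hb.le hci hAc ((rl_iff w (cl_eq _)).1 h2)))
    have hsg : ¬ Inf786.Tame (KK P idx i W) (cl (sub ρ.th A)) → GG P idx i W (cl (sub ρ.th A)) :=
      bound_sg w r hb hci (hAc.conv (cl_eq _))
    obtain ⟨e, he, hee⟩ := entry_pent hsg (den (FF P idx i W) (SM646.nf (er N)) ρ.th ρ.inf)
    refine ⟨look (FF P idx i W) e.ent, ⟨e, he, rfl⟩, fun v hv => ?_⟩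
    have hv1 : v ∈ cst P idx (i + 1) W (sub (scons (sub ρ.th (er N)) ρ.th) (SM646.nf B))
        (den (FF P idx i W) (SM646.nf B) (scons (sub ρ.th (er N)) ρ.th)
          (icons (look (FF P idx i W) e.ent) ρ.inf) []) := by
      rw [(zz (idx := idx) (i := i) w hwn).rr_low hH] at hv
      have e4 : den (FF P idx i W) (SM646.nf B) (scons (sub ρ.th (er N)) ρ.th)
          (SM646.isc (look (FF P idx i W) e.ent) ρ.inf) =
          den (FF P idx i W) (SM646.nf B) (scons (sub ρ.th (er N)) ρ.th)
            (icons (look (FF P idx i W) e.ent) ρ.inf) := congrArg _ (isc_icons _ _)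
      exact (congrArg (fun u : UFW P idx i W => v ∈ cst P idx (i + 1) W
        (sub (scons (sub ρ.th (er N)) ρ.th) (SM646.nf B)) (u [])) e4).mp hv
    rw [(zz (idx := idx) (i := i) w hwn).rr_low fun h => hH (h.conv (BetaEq.symm eT))]
    show v ∈ cst P idx (i + 1) W (sub ρ.th (SM646.nf (inst (er N) B)))
      (den (FF P idx i W) (SM646.nf (inst (er N) B)) ρ.th ρ.inf [])
    have eRed : Red (inst (SM646.nf (er N)) (SM646.nf B)) (SM646.nf (inst (er N) B)) := by
      refine red_of_eq_normal (BetaEq.trans ?_ eK) (SM646.nf_normal hwI)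
      exact BetaEq.inst (BetaEq.symm (SM646.nf_betaEq hwN)) (.refl _)
    have key := Ok599.den_nf_inst (env_ok w hwn hF hr g.wf ρ) hA0 tMb hNn
      (SM646.nf_normal hwB) (SM646.nf_normal hwN) hnd (p := [])
      (((sys w hwn hF hr).vt_sort b).2 hb) eRed
    rw [key, ← cst_conv w tM tK eT]
    have e3 : den (FF P idx i W) (SM646.nf B)
        (scons ((FF P idx i W).rep ((FF P idx i W).cl (sub ρ.th (SM646.nf (er N))))) ρ.th)
        (icons (look (FF P idx i W) (entry (FF P idx i W) ((FF P idx i W).cl (sub ρ.th A))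
          (den (FF P idx i W) (SM646.nf (er N)) ρ.th ρ.inf))) ρ.inf) =
        den (FF P idx i W) (SM646.nf B) (scons (sub ρ.th (er N)) ρ.th)
          (icons (look (FF P idx i W) e.ent) ρ.inf) := by
      rw [← hee]
      refine den_scons (fun M N h => cl_congr h) _ ?_ _ _
      exact BetaEq.trans (cl_eq _) (BetaEq.sub (BetaEq.symm (SM646.nf_betaEq hwN)) _)
    rw [e3]
    exact hv1

end inst

/-- **block (T), the semantic input**: every level which is not fat has a type evaluator with the
instance law over every world -/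
theorem exists_inst [_root_.Finite S] (hP : ∀ (Γ : List (Term S)) (M : Term S),
    Legal P Γ M → WN M)
    (hr : ∀ a b c, P.rule a b c → idx c ≤ idx a ∧ idx c ≤ idx b) (g : Good P W)
    (hf : ¬ Fl113.Fat P (Lvl idx i)) : ∃ Z : SM646.TyEval.{0, 1} P idx i W, Z.Inst := by
  have hwn : ∀ M A, TyF P W M A → WN M := fun M A h => (g.wn hP h).1
  have hF : TF P (Lvl idx i) W := tf_of_not_fat g.wf (fun T t h => hwn T _ h) hf
  exact ⟨zz g.wf hwn, inst_ok g.wf hwn hF hr hP⟩

end Crest.Agent.R298.TE599
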