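import Crest.Agent.R298.TE_599
import Crest.Agent.R298.SM2_646

/-!
R298 (S0452), helper599: **BLOCK (T)**: `BlockTW FatP` from the type evaluator of `TE_599` and
the stage model of 646 / 833.
-/

set_option autoImplicit false

namespace Crest.Agent.R298.TE599

open Crest.LogicCS.PTS
open Crest.Agent.R298.Main865 Crest.Agent.R298.SM646

/-- the semantic input of block (T) -/
theorem evalT : SM646.EvalT.{1} FatP := fun _ _ _ _ hS hi _ w _ _ hF =>
  exists_inst hS.wn (fun _ _ _ r => ⟨hi.rule_left r, hi.rule_right r⟩) w.good hF

/-- **block (T)** -/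
theorem blockT : BlockTW FatP := SM646.blockTW_of evalT

end Crest.Agent.R298.TE599
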