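import Crest.Agent.R298.Tw1_987
import Crest.Agent.R298.HPar_705

/-!
R298 (S0452), part P, helper987: the tower of doc 2233 (B) over a fat configuration of sorts
(`Fat L`) and the instance of the abstract paradox `HPar705.paradox`.
-/

set_option autoImplicit false

namespace Crest.Agent.R298.Tw987

open Crest.LogicCS.PTS Crest.LogicCS.PTS.Term Relation
open Crest.Agent.R298.Sub452 Crest.Agent.R298.Par452 Crest.Agent.R298.Ty452
open Crest.Agent.R298.TyF452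

universe u
variable {S : Type u} {P : Spec S} {Δ : ℕ → Term S}

theorem sub_scons_wk (N M : Term S) : sub (scons N var) (ren Nat.succ M) = M := inst_wk N M

theorem inst_def (N M : Term S) : inst N M = sub (scons N var) M := rfl

/-! ### derived connectives -/

namespace Logic
variable (L : Logic P Δ)

def neg (n : ℕ) (X : Term S) : Term S := L.imp n X (L.bot n)
def and (n : ℕ) (X Y : Term S) : Term S := L.neg n (L.imp n X (L.neg n Y))
def iff (n : ℕ) (X Y : Term S) : Term S := L.and n (L.imp n X Y) (L.imp n Y X)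
def ex (d : S) (n : ℕ) (K Z : Term S) : Term S := L.neg n (L.all d n K (L.neg (n + 1) Z))

section sub
variable {n m : ℕ} {σ : ℕ → Term S} (h : Base n m σ)
include h

theorem neg_sub (X : Term S) : sub σ (L.neg n X) = L.neg m (sub σ X) := by
  simp only [neg, L.imp_sub _ _ h, L.bot_sub h]

theorem and_sub (X Y : Term S) : sub σ (L.and n X Y) = L.and m (sub σ X) (sub σ Y) := by
  simp only [and, L.neg_sub h, L.imp_sub _ _ h]

theorem iff_sub (X Y : Term S) : sub σ (L.iff n X Y) = L.iff m (sub σ X) (sub σ Y) := by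
  simp only [iff, L.and_sub h, L.imp_sub _ _ h]

theorem ex_sub {d : S} (hd : L.Bd d) (K Z : Term S) :
    sub σ (L.ex d n K Z) = L.ex d m (sub σ K) (sub (ups σ) Z) := by
  simp only [ex, L.neg_sub h, L.all_sub _ _ hd h, L.neg_sub h.ups]
end sub

section ty
variable {n : ℕ} {D : ℕ → Term S} {X Y : Term S} (hD : Ext Δ n D)
include hD

theorem neg_ty (hX : TyF P D X (sort L.o)) : TyF P D (L.neg n X) (sort L.o) :=
  L.imp_ty hD hX (L.bot_ty hD)
theorem and_ty (hX : TyF P D X (sort L.o)) (hY : TyF P D Y (sort L.o)) :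
    TyF P D (L.and n X Y) (sort L.o) :=
  L.neg_ty hD (L.imp_ty hD hX (L.neg_ty hD hY))
theorem iff_ty (hX : TyF P D X (sort L.o)) (hY : TyF P D Y (sort L.o)) :
    TyF P D (L.iff n X Y) (sort L.o) :=
  L.and_ty hD (L.imp_ty hD hX hY) (L.imp_ty hD hY hX)
theorem ex_ty {d : S} {K Z : Term S} (hd : L.Bd d) (hK : TyF P D K (sort d))
    (hZ : TyF P (fcons K D) Z (sort L.o)) : TyF P D (L.ex d n K Z) (sort L.o) :=
  L.neg_ty hD (L.all_ty hd hD hK (L.neg_ty (hD.cons K) hZ))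
end ty

section tr
variable {X Y : Term S}

theorem neg_tr (hX : TyF P Δ X (sort L.o)) : L.Tr (L.neg 0 X) ↔ ¬ L.Tr X := by
  rw [neg, L.imp_tr hX (L.bot_ty (Ext.zero Δ))]
  exact ⟨fun h x => L.bot_tr (h x), fun h x => absurd x h⟩

theorem and_tr (hX : TyF P Δ X (sort L.o)) (hY : TyF P Δ Y (sort L.o)) :
    L.Tr (L.and 0 X Y) ↔ (L.Tr X ∧ L.Tr Y) := by
  have z := Ext.zero Δ
  rw [and, L.neg_tr (L.imp_ty z hX (L.neg_ty z hY)), L.imp_tr hX (L.neg_ty z hY), L.neg_tr hY]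
  tauto

theorem iff_tr (hX : TyF P Δ X (sort L.o)) (hY : TyF P Δ Y (sort L.o)) :
    L.Tr (L.iff 0 X Y) ↔ (L.Tr X ↔ L.Tr Y) := by
  have z := Ext.zero Δ
  rw [iff, L.and_tr (L.imp_ty z hX hY) (L.imp_ty z hY hX), L.imp_tr hX hY, L.imp_tr hY hX]
  tauto

theorem ex_tr {d : S} {K Z : Term S} (hd : L.Bd d) (hK : TyF P Δ K (sort d))
    (hZ : TyF P (fcons K Δ) Z (sort L.o)) :
    L.Tr (L.ex d 0 K Z) ↔ ∃ M, TyF P Δ M K ∧ L.Tr (inst M Z) := by
  have z := Ext.zero Δ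
  have hn := L.neg_ty (z.cons K) hZ
  rw [ex, L.neg_tr (L.all_ty hd z hK hn), L.all_tr hd hK hn]
  push Not
  refine exists_congr fun M => ?_
  constructor
  · rintro ⟨hM, h⟩
    refine ⟨hM, ?_⟩
    rw [inst_def, L.neg_sub (Base.inst 0 M), L.neg_tr (tyf_inst' (B := sort L.o) hZ hM)] at h
    exact not_not.mp h
  · rintro ⟨hM, h⟩
    refine ⟨hM, ?_⟩
    rw [inst_def, L.neg_sub (Base.inst 0 M), L.neg_tr (tyf_inst' (B := sort L.o) hZ hM)]
    exact not_not.mpr h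
end tr

end Logic

/-! ### casts between odd wrappers of the same kind -/

section cast
variable {L : Logic P Δ} {r d y : S}

/-- cast `h.Om K → p.Om K` -/
def cst (h : Path L r d) (p : Path L r y) (n : ℕ) (K G : Term S) : Term S :=
  p.comp n K (h.test (n + 1) (wk K) (wk G) (var 0))

theorem cst_sub {h : Path L r d} {p : Path L r y} (hh : h.odd = true) (hp : p.odd = true)
    {n m : ℕ} {σ : ℕ → Term S} (hs : Base n m σ) (K G : Term S) :
    sub σ (cst h p n K G) = cst h p m (sub σ K) (sub σ G) := by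
  simp only [cst, p.comp_sub hs, hp, dsub_true, h.test_sub hs.ups, hh, Bool.not_true, dsub_false,
    sub_wk, sub_var, ups_zero]

theorem cst_ty {h : Path L r d} {p : Path L r y} (hh : h.odd = true) (hp : p.odd = true)
    {n : ℕ} {D : ℕ → Term S} {K G : Term S} (hD : Ext Δ n D) (hK : TyF P D K (sort r))
    (hG : TyF P D G (h.Om n K)) : TyF P D (cst h p n K G) (p.Om n K) := by
  refine p.comp_ty hD hK ?_
  rw [hp]
  refine h.test_ty (hD.cons K) (tyf_wk hK K) ?_ ?_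
  · rw [← Path.Om_wk]
    exact tyf_wk hG K
  · rw [hh]
    exact TyF.var (D := fcons K D) (i := 0) (tyf_wk hK _)

theorem cst_law {h : Path L r d} {p : Path L r y} (hh : h.odd = true) (hp : p.odd = true)
    {K G k : Term S} (hK : TyF P Δ K (sort r)) (hG : TyF P Δ G (h.Om 0 K)) (hk : TyF P Δ k K) :
    L.Tr (p.test 0 K (cst h p 0 K G) k) ↔ L.Tr (h.test 0 K G k) := by
  have hD := Ext.zero Δ
  have h1 : DOk L p.odd Δ K (h.test (0 + 1) (wk K) (wk G) (var 0)) := by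
    rw [hp]
    refine h.test_ty (hD.cons K) (tyf_wk hK K) ?_ ?_
    · rw [← Path.Om_wk]
      exact tyf_wk hG K
    · rw [hh]
      exact TyF.var (D := fcons K Δ) (i := 0) (tyf_wk hK _)
  have h2 : DOk L (!p.odd) Δ K k := by rw [hp]; exact hk
  rw [cst, p.law hK h1 h2, hp, pair_true, inst_def, h.test_sub (Base.inst 0 k), hh]
  simp only [Bool.not_true, dsub_false, sub_scons_wk, sub_var, scons_zero]

end cast

/-! ### the tower -/

structure Fat (L : Logic P Δ) where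
  u : S
  au : S
  b : S
  c : S
  y : S
  db : S
  dy : S
  A : LK P Δ au u
  hV : P.rule au b c
  al : Path L u b
  xi : Path L c u
  par : al.odd = xi.odd
  p : Path L b y
  hp : p.odd = true
  q : Path L y b
  hq : q.odd = true
  hb : Path L b db
  hbo : hb.odd = true
  bdb : L.Bd db
  hy : Path L y dy
  hyo : hy.odd = true
  bdy : L.Bd dy

namespace Fat
variable {L : Logic P Δ} (F : Fat L)

def B (n : ℕ) (X : Term S) : Term S := F.al.Om n (F.A.out n X)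
def C0 (n : ℕ) (X : Term S) : Term S := F.hb.Om n (F.B n X)
def C0y (n : ℕ) (X : Term S) : Term S := F.p.Om n (F.B n X)
def C1 (n : ℕ) (X : Term S) : Term S := F.hy.Om n (F.C0y n X)
def C1y (n : ℕ) (X : Term S) : Term S := F.q.Om n (F.C0y n X)
def C2 (n : ℕ) (X : Term S) : Term S := F.hb.Om n (F.C1y n X)
def C2y (n : ℕ) (X : Term S) : Term S := F.p.Om n (F.C1y n X)
def W3 (n : ℕ) (X : Term S) : Term S := F.q.Om n (F.C2y n X)
def V (n : ℕ) : Term S := pi (lft n F.A.N) (F.W3 (n + 1) (var 0))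
def A0 (n : ℕ) : Term S := F.A.inn n (F.xi.Om n (F.V n))

/-- even path from the sort of `V` to the sort of `B` -/
def xa : Path L F.c F.b := F.xi.append F.al

theorem xa_odd : F.xa.odd = false := by
  rw [xa, Path.append_odd, F.par]; simp

def s0 (n : ℕ) (X x : Term S) : Term S := cst F.hb F.p n (F.B n X) x
def s1 (n : ℕ) (X x : Term S) : Term S := cst F.hy F.q n (F.C0y n X) x
def s2 (n : ℕ) (X x : Term S) : Term S := cst F.hb F.p n (F.C1y n X) x
def m1 (n : ℕ) (X G x : Term S) : Term S := F.q.test n (F.C0y n X) G x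
def m2 (n : ℕ) (X G x : Term S) : Term S := F.p.test n (F.C1y n X) G x
def m3 (n : ℕ) (X G x : Term S) : Term S := F.q.test n (F.C2y n X) G x

def le (n : ℕ) (X Z Z' : Term S) : Term S :=
  L.all F.db n (F.C0 n X) (L.imp (n + 1)
    (F.m1 (n + 1) (wk X) (wk Z) (F.s0 (n + 1) (wk X) (var 0)))
    (F.m1 (n + 1) (wk X) (wk Z') (F.s0 (n + 1) (wk X) (var 0))))

def child (n : ℕ) (X T Z T' : Term S) : Term S :=
  L.all F.dy n (F.C1 n X) (L.iff (n + 1)
    (F.m2 (n + 1) (wk X) (wk T') (F.s1 (n + 1) (wk X) (var 0)))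
    (L.and (n + 1) (F.m2 (n + 1) (wk X) (wk T) (F.s1 (n + 1) (wk X) (var 0)))
      (L.and (n + 1) (F.le (n + 1) (wk X) (F.s1 (n + 1) (wk X) (var 0)) (wk Z))
        (L.neg (n + 1) (F.le (n + 1) (wk X) (wk Z) (F.s1 (n + 1) (wk X) (var 0)))))))

/-- `code(X, T) : C0 (A0)` for `T : C2y X` -/
def code (n : ℕ) (X T : Term S) : Term S :=
  F.hb.comp n (F.B n (F.A0 n)) (F.xa.test (n + 1) (F.V (n + 1)) (var 0)
    (F.m3 (n + 2) (wk (wk X)) (app (var 0) (wk (wk X))) (wk (wk T))))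

def ccode (n : ℕ) (X T : Term S) : Term S := F.s0 n (F.A0 n) (F.code n X T)

def eqc (n : ℕ) (a w : Term S) : Term S :=
  L.all F.dy n (F.C1 n (F.A0 n)) (L.imp (n + 1)
    (F.m1 (n + 1) (F.A0 (n + 1)) (F.s1 (n + 1) (F.A0 (n + 1)) (var 0)) (wk a))
    (F.m1 (n + 1) (F.A0 (n + 1)) (F.s1 (n + 1) (F.A0 (n + 1)) (var 0)) (wk w)))

/-- the inner part of `Phi` -/
def Psi (n : ℕ) (X T Z w : Term S) : Term S :=
  L.ex F.db n (F.C2 n X) (L.and (n + 1)
    (F.child (n + 1) (wk X) (wk T) (wk Z) (F.s2 (n + 1) (wk X) (var 0)))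
    (F.eqc (n + 1) (F.ccode (n + 1) (wk X) (F.s2 (n + 1) (wk X) (var 0))) (wk w)))

def Phi (n : ℕ) (X T w : Term S) : Term S :=
  L.ex F.dy n (F.C1 n X) (L.and (n + 1)
    (F.m2 (n + 1) (wk X) (wk T) (F.s1 (n + 1) (wk X) (var 0)))
    (F.Psi (n + 1) (wk X) (wk T) (F.s1 (n + 1) (wk X) (var 0)) (wk w)))

def Fw (n : ℕ) (w : Term S) : Term S :=
  lam (lft n F.A.N) (F.q.comp (n + 1) (F.C2y (n + 1) (var 0))
    (F.Phi (n + 2) (var 1) (var 0) (wk (wk w))))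

def E (n : ℕ) (w v : Term S) : Term S :=
  F.p.test n (F.B n (F.A0 n)) v (F.xa.comp n (F.V n) (F.Fw n w))

/-! #### commutation with substitutions -/

section sub
variable {n m : ℕ} {σ : ℕ → Term S} (h : Base n m σ)
include h

theorem B_sub (X : Term S) : sub σ (F.B n X) = F.B m (sub σ X) := by
  simp only [B, Path.Om_sub _ h, F.A.out_sub _ h]
theorem C0_sub (X : Term S) : sub σ (F.C0 n X) = F.C0 m (sub σ X) := by
  simp only [C0, Path.Om_sub _ h, F.B_sub h]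
theorem C0y_sub (X : Term S) : sub σ (F.C0y n X) = F.C0y m (sub σ X) := by
  simp only [C0y, Path.Om_sub _ h, F.B_sub h]
theorem C1_sub (X : Term S) : sub σ (F.C1 n X) = F.C1 m (sub σ X) := by
  simp only [C1, Path.Om_sub _ h, F.C0y_sub h]
theorem C1y_sub (X : Term S) : sub σ (F.C1y n X) = F.C1y m (sub σ X) := by
  simp only [C1y, Path.Om_sub _ h, F.C0y_sub h]
theorem C2_sub (X : Term S) : sub σ (F.C2 n X) = F.C2 m (sub σ X) := by
  simp only [C2, Path.Om_sub _ h, F.C1y_sub h]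
theorem C2y_sub (X : Term S) : sub σ (F.C2y n X) = F.C2y m (sub σ X) := by
  simp only [C2y, Path.Om_sub _ h, F.C1y_sub h]
theorem W3_sub (X : Term S) : sub σ (F.W3 n X) = F.W3 m (sub σ X) := by
  simp only [W3, Path.Om_sub _ h, F.C2y_sub h]
theorem V_sub : sub σ (F.V n) = F.V m := by
  simp only [V, sub_pi, h.lft, F.W3_sub h.ups, sub_var, ups_zero]
theorem A0_sub : sub σ (F.A0 n) = F.A0 m := by
  simp only [A0, F.A.inn_sub _ h, Path.Om_sub _ h, F.V_sub h]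
theorem s0_sub (X x : Term S) : sub σ (F.s0 n X x) = F.s0 m (sub σ X) (sub σ x) := by
  simp only [s0, cst_sub F.hbo F.hp h, F.B_sub h]
theorem s1_sub (X x : Term S) : sub σ (F.s1 n X x) = F.s1 m (sub σ X) (sub σ x) := by
  simp only [s1, cst_sub F.hyo F.hq h, F.C0y_sub h]
theorem s2_sub (X x : Term S) : sub σ (F.s2 n X x) = F.s2 m (sub σ X) (sub σ x) := by
  simp only [s2, cst_sub F.hbo F.hp h, F.C1y_sub h]
theorem m1_sub (X G x : Term S) :
    sub σ (F.m1 n X G x) = F.m1 m (sub σ X) (sub σ G) (sub σ x) := by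
  simp only [m1, Path.test_sub _ h, F.C0y_sub h, F.hq, Bool.not_true, dsub_false]
theorem m2_sub (X G x : Term S) :
    sub σ (F.m2 n X G x) = F.m2 m (sub σ X) (sub σ G) (sub σ x) := by
  simp only [m2, Path.test_sub _ h, F.C1y_sub h, F.hp, Bool.not_true, dsub_false]
theorem m3_sub (X G x : Term S) :
    sub σ (F.m3 n X G x) = F.m3 m (sub σ X) (sub σ G) (sub σ x) := by
  simp only [m3, Path.test_sub _ h, F.C2y_sub h, F.hq, Bool.not_true, dsub_false]
theorem le_sub (X Z Z' : Term S) :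
    sub σ (F.le n X Z Z') = F.le m (sub σ X) (sub σ Z) (sub σ Z') := by
  simp only [le, L.all_sub _ _ F.bdb h, F.C0_sub h, L.imp_sub _ _ h.ups, F.m1_sub h.ups,
    F.s0_sub h.ups, sub_wk, sub_var, ups_zero]
theorem child_sub (X T Z T' : Term S) :
    sub σ (F.child n X T Z T') = F.child m (sub σ X) (sub σ T) (sub σ Z) (sub σ T') := by
  simp only [child, L.all_sub _ _ F.bdy h, F.C1_sub h, L.iff_sub h.ups, L.and_sub h.ups,
    L.neg_sub h.ups, F.le_sub h.ups, F.m2_sub h.ups, F.s1_sub h.ups, sub_wk, sub_var, ups_zero]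
theorem code_sub (X T : Term S) :
    sub σ (F.code n X T) = F.code m (sub σ X) (sub σ T) := by
  simp only [code, Path.comp_sub _ h, F.B_sub h, F.A0_sub h, F.hbo, dsub_true,
    Path.test_sub _ h.ups, F.V_sub h.ups, F.xa_odd, Bool.not_false, F.m3_sub h.ups.ups,
    sub_app, sub_wk, sub_var, ups_zero]
theorem ccode_sub (X T : Term S) :
    sub σ (F.ccode n X T) = F.ccode m (sub σ X) (sub σ T) := by
  simp only [ccode, F.s0_sub h, F.A0_sub h, F.code_sub h]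
theorem eqc_sub (a w : Term S) :
    sub σ (F.eqc n a w) = F.eqc m (sub σ a) (sub σ w) := by
  simp only [eqc, L.all_sub _ _ F.bdy h, F.C1_sub h, F.A0_sub h, L.imp_sub _ _ h.ups,
    F.m1_sub h.ups, F.A0_sub h.ups, F.s1_sub h.ups, sub_wk, sub_var, ups_zero]
theorem Psi_sub (X T Z w : Term S) :
    sub σ (F.Psi n X T Z w) = F.Psi m (sub σ X) (sub σ T) (sub σ Z) (sub σ w) := by
  simp only [Psi, L.ex_sub h F.bdb, F.C2_sub h, L.and_sub h.ups, F.child_sub h.ups,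
    F.s2_sub h.ups, F.eqc_sub h.ups, F.ccode_sub h.ups, sub_wk, sub_var, ups_zero]
theorem Phi_sub (X T w : Term S) :
    sub σ (F.Phi n X T w) = F.Phi m (sub σ X) (sub σ T) (sub σ w) := by
  simp only [Phi, L.ex_sub h F.bdy, F.C1_sub h, L.and_sub h.ups, F.m2_sub h.ups,
    F.s1_sub h.ups, F.Psi_sub h.ups, sub_wk, sub_var, ups_zero]
theorem Fw_sub (w : Term S) : sub σ (F.Fw n w) = F.Fw m (sub σ w) := by
  simp only [Fw, sub_lam, h.lft, Path.comp_sub _ h.ups, F.C2y_sub h.ups, F.hq, dsub_true,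
    F.Phi_sub h.ups.ups, sub_wk, sub_var, ups_zero]
  rfl
theorem E_sub (w v : Term S) : sub σ (F.E n w v) = F.E m (sub σ w) (sub σ v) := by
  simp only [E, Path.test_sub _ h, F.B_sub h, F.A0_sub h, F.hp, Bool.not_true, dsub_false,
    Path.comp_sub _ h, F.V_sub h, F.xa_odd, F.Fw_sub h]
end sub

theorem wk_of {f : ℕ → Term S → Term S}
    (h : ∀ {n m : ℕ} {σ : ℕ → Term S}, Base n m σ → ∀ X, sub σ (f n X) = f m (sub σ X))
    (n : ℕ) (X : Term S) : wk (f n X) = f (n + 1) (wk X) := by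
  rw [wk_sub, wk_sub, h (Base.succ n)]

theorem B_wk (n : ℕ) (X : Term S) : wk (F.B n X) = F.B (n + 1) (wk X) := wk_of F.B_sub n X
theorem C0_wk (n : ℕ) (X : Term S) : wk (F.C0 n X) = F.C0 (n + 1) (wk X) := wk_of F.C0_sub n X
theorem C0y_wk (n : ℕ) (X : Term S) : wk (F.C0y n X) = F.C0y (n + 1) (wk X) :=
  wk_of F.C0y_sub n X
theorem C1_wk (n : ℕ) (X : Term S) : wk (F.C1 n X) = F.C1 (n + 1) (wk X) := wk_of F.C1_sub n X
theorem C1y_wk (n : ℕ) (X : Term S) : wk (F.C1y n X) = F.C1y (n + 1) (wk X) :=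
  wk_of F.C1y_sub n X
theorem C2_wk (n : ℕ) (X : Term S) : wk (F.C2 n X) = F.C2 (n + 1) (wk X) := wk_of F.C2_sub n X
theorem C2y_wk (n : ℕ) (X : Term S) : wk (F.C2y n X) = F.C2y (n + 1) (wk X) :=
  wk_of F.C2y_sub n X
theorem W3_wk (n : ℕ) (X : Term S) : wk (F.W3 n X) = F.W3 (n + 1) (wk X) := wk_of F.W3_sub n X
theorem V_wk (n : ℕ) : wk (F.V n) = F.V (n + 1) := by
  rw [wk_sub, F.V_sub (Base.succ n)]
theorem A0_wk (n : ℕ) : wk (F.A0 n) = F.A0 (n + 1) := by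
  rw [wk_sub, F.A0_sub (Base.succ n)]

/-! #### typing -/

theorem var0 {D : ℕ → Term S} {K : Term S} {s : S} (h : TyF P D K (sort s)) :
    TyF P (fcons K D) (var 0) (wk K) :=
  TyF.var (D := fcons K D) (i := 0) (tyf_wk h _)

section ty
variable {n : ℕ} {D : ℕ → Term S} (hD : Ext Δ n D)
include hD

section X
variable {X : Term S} (hX : TyF P D X (lft n F.A.N))
include hX

theorem B_ty : TyF P D (F.B n X) (sort F.b) := F.al.Om_ty hD (F.A.out_ty hD hX)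
theorem C0_ty : TyF P D (F.C0 n X) (sort F.db) := F.hb.Om_ty hD (F.B_ty hD hX)
theorem C0y_ty : TyF P D (F.C0y n X) (sort F.y) := F.p.Om_ty hD (F.B_ty hD hX)
theorem C1_ty : TyF P D (F.C1 n X) (sort F.dy) := F.hy.Om_ty hD (F.C0y_ty hD hX)
theorem C1y_ty : TyF P D (F.C1y n X) (sort F.b) := F.q.Om_ty hD (F.C0y_ty hD hX)
theorem C2_ty : TyF P D (F.C2 n X) (sort F.db) := F.hb.Om_ty hD (F.C1y_ty hD hX)
theorem C2y_ty : TyF P D (F.C2y n X) (sort F.y) := F.p.Om_ty hD (F.C1y_ty hD hX)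
theorem W3_ty : TyF P D (F.W3 n X) (sort F.b) := F.q.Om_ty hD (F.C2y_ty hD hX)

theorem s0_ty {x : Term S} (hx : TyF P D x (F.C0 n X)) : TyF P D (F.s0 n X x) (F.C0y n X) :=
  cst_ty F.hbo F.hp hD (F.B_ty hD hX) hx
theorem s1_ty {x : Term S} (hx : TyF P D x (F.C1 n X)) : TyF P D (F.s1 n X x) (F.C1y n X) :=
  cst_ty F.hyo F.hq hD (F.C0y_ty hD hX) hx
theorem s2_ty {x : Term S} (hx : TyF P D x (F.C2 n X)) : TyF P D (F.s2 n X x) (F.C2y n X) :=
  cst_ty F.hbo F.hp hD (F.C1y_ty hD hX) hx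
theorem m1_ty {G x : Term S} (hG : TyF P D G (F.C1y n X)) (hx : TyF P D x (F.C0y n X)) :
    TyF P D (F.m1 n X G x) (sort L.o) :=
  F.q.test_ty hD (F.C0y_ty hD hX) hG (by rw [F.hq]; exact hx)
theorem m2_ty {G x : Term S} (hG : TyF P D G (F.C2y n X)) (hx : TyF P D x (F.C1y n X)) :
    TyF P D (F.m2 n X G x) (sort L.o) :=
  F.p.test_ty hD (F.C1y_ty hD hX) hG (by rw [F.hp]; exact hx)
theorem m3_ty {G x : Term S} (hG : TyF P D G (F.W3 n X)) (hx : TyF P D x (F.C2y n X)) :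
    TyF P D (F.m3 n X G x) (sort L.o) :=
  F.q.test_ty hD (F.C2y_ty hD hX) hG (by rw [F.hq]; exact hx)

omit hD in
theorem X_wk (K : Term S) : TyF P (fcons K D) (wk X) (lft (n + 1) F.A.N) := by
  rw [← wk_lft]; exact tyf_wk hX K

theorem le_ty {Z Z' : Term S} (hZ : TyF P D Z (F.C1y n X)) (hZ' : TyF P D Z' (F.C1y n X)) :
    TyF P D (F.le n X Z Z') (sort L.o) := by
  have hK := F.C0_ty hD hX
  have hX' := F.X_wk hX (F.C0 n X)
  have hD' := hD.cons (F.C0 n X)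
  have hx := F.s0_ty hD' hX' (x := var 0) (by rw [← F.C0_wk]; exact var0 hK)
  refine L.all_ty F.bdb hD hK (L.imp_ty hD' (F.m1_ty hD' hX' ?_ hx) (F.m1_ty hD' hX' ?_ hx))
  · rw [← F.C1y_wk]; exact tyf_wk hZ _
  · rw [← F.C1y_wk]; exact tyf_wk hZ' _

theorem child_ty {T Z T' : Term S} (hT : TyF P D T (F.C2y n X)) (hZ : TyF P D Z (F.C1y n X))
    (hT' : TyF P D T' (F.C2y n X)) : TyF P D (F.child n X T Z T') (sort L.o) := by
  have hK := F.C1_ty hD hX
  have hX' := F.X_wk hX (F.C1 n X)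
  have hD' := hD.cons (F.C1 n X)
  have hx := F.s1_ty hD' hX' (x := var 0) (by rw [← F.C1_wk]; exact var0 hK)
  have wT : TyF P (fcons (F.C1 n X) D) (wk T) (F.C2y (n + 1) (wk X)) := by
    rw [← F.C2y_wk]; exact tyf_wk hT _
  have wT' : TyF P (fcons (F.C1 n X) D) (wk T') (F.C2y (n + 1) (wk X)) := by
    rw [← F.C2y_wk]; exact tyf_wk hT' _
  have wZ : TyF P (fcons (F.C1 n X) D) (wk Z) (F.C1y (n + 1) (wk X)) := by
    rw [← F.C1y_wk]; exact tyf_wk hZ _
  exact L.all_ty F.bdy hD hK (L.iff_ty hD' (F.m2_ty hD' hX' wT' hx)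
    (L.and_ty hD' (F.m2_ty hD' hX' wT hx) (L.and_ty hD' (F.le_ty hD' hX' hx wZ)
      (L.neg_ty hD' (F.le_ty hD' hX' wZ hx)))))

end X

theorem V_ty : TyF P D (F.V n) (sort F.c) := by
  have hN := hD.ty F.A.N_ty
  refine .prod hN (F.W3_ty (hD.cons _) ?_) F.hV
  rw [← wk_lft]
  exact var0 hN

theorem A0_ty : TyF P D (F.A0 n) (lft n F.A.N) := F.A.inn_ty hD (F.xi.Om_ty hD (F.V_ty hD))

omit hD in
theorem B_eq (n : ℕ) : BetaEq (F.B n (F.A0 n)) (F.xa.Om n (F.V n)) := by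
  rw [xa, Path.append_Om]
  exact F.al.Om_eq n (F.A.out_inn n _)

theorem xaV_ty : TyF P D (F.xa.Om n (F.V n)) (sort F.b) := F.xa.Om_ty hD (F.V_ty hD)

/-- the data of `code` -/
theorem codeD_ty {X T : Term S} (hX : TyF P D X (lft n F.A.N)) (hT : TyF P D T (F.C2y n X)) :
    TyF P (fcons (F.V n) D) (F.m3 (n + 1) (wk X) (app (var 0) (wk X)) (wk T)) (sort L.o) := by
  have hV := F.V_ty hD
  have hD' := hD.cons (F.V n)
  have hX' := F.X_wk hX (F.V n)
  refine F.m3_ty hD' hX' ?_ (by rw [← F.C2y_wk]; exact tyf_wk hT _)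
  have h0 : TyF P (fcons (F.V n) D) (var 0) (F.V (n + 1)) := by
    rw [← F.V_wk]; exact var0 hV
  have := TyF.appl (show TyF P (fcons (F.V n) D) (var 0)
    (pi (lft (n + 1) F.A.N) (F.W3 (n + 1 + 1) (var 0))) from h0) hX'
  rw [inst_def, F.W3_sub (Base.inst _ _)] at this
  exact this

theorem code_ty {X T : Term S} (hX : TyF P D X (lft n F.A.N)) (hT : TyF P D T (F.C2y n X)) :
    TyF P D (F.code n X T) (F.C0 n (F.A0 n)) := by
  have hB := F.B_ty hD (F.A0_ty hD)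
  refine F.hb.comp_ty hD hB ?_
  rw [F.hbo]
  have hD' := hD.cons (F.B n (F.A0 n))
  refine F.xa.test_ty hD' (F.V_ty hD') ?_ ?_
  · refine .conv (var0 hB) (F.xaV_ty hD') ?_
    rw [F.B_wk, F.A0_wk]
    exact F.B_eq _
  · rw [F.xa_odd]
    refine F.codeD_ty hD' (F.X_wk hX _) ?_
    rw [← F.C2y_wk]
    exact tyf_wk hT _

theorem ccode_ty {X T : Term S} (hX : TyF P D X (lft n F.A.N)) (hT : TyF P D T (F.C2y n X)) :
    TyF P D (F.ccode n X T) (F.C0y n (F.A0 n)) :=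
  F.s0_ty hD (F.A0_ty hD) (F.code_ty hD hX hT)

theorem eqc_ty {a w : Term S} (ha : TyF P D a (F.C0y n (F.A0 n)))
    (hw : TyF P D w (F.C0y n (F.A0 n))) : TyF P D (F.eqc n a w) (sort L.o) := by
  have hA := F.A0_ty hD
  have hK := F.C1_ty hD hA
  have hD' := hD.cons (F.C1 n (F.A0 n))
  have hA' := F.A0_ty hD'
  have hx := F.s1_ty hD' hA' (x := var 0) (by rw [← F.A0_wk, ← F.C1_wk]; exact var0 hK)
  refine L.all_ty F.bdy hD hK (L.imp_ty hD' (F.m1_ty hD' hA' hx ?_) (F.m1_ty hD' hA' hx ?_))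
  · rw [← F.A0_wk, ← F.C0y_wk]; exact tyf_wk ha _
  · rw [← F.A0_wk, ← F.C0y_wk]; exact tyf_wk hw _

theorem PsiD_ty {X T Z w : Term S} (hX : TyF P D X (lft n F.A.N)) (hT : TyF P D T (F.C2y n X))
    (hZ : TyF P D Z (F.C1y n X)) (hw : TyF P D w (F.C0y n (F.A0 n))) :
    TyF P (fcons (F.C2 n X) D) (L.and (n + 1)
    (F.child (n + 1) (wk X) (wk T) (wk Z) (F.s2 (n + 1) (wk X) (var 0)))
    (F.eqc (n + 1) (F.ccode (n + 1) (wk X) (F.s2 (n + 1) (wk X) (var 0))) (wk w)))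
      (sort L.o) := by
  have hK := F.C2_ty hD hX
  have hX' := F.X_wk hX (F.C2 n X)
  have hD' := hD.cons (F.C2 n X)
  have hx := F.s2_ty hD' hX' (x := var 0) (by rw [← F.C2_wk]; exact var0 hK)
  refine L.and_ty hD' (F.child_ty hD' hX' ?_ ?_ hx) (F.eqc_ty hD' (F.ccode_ty hD' hX' hx) ?_)
  · rw [← F.C2y_wk]; exact tyf_wk hT _
  · rw [← F.C1y_wk]; exact tyf_wk hZ _
  · rw [← F.A0_wk, ← F.C0y_wk]; exact tyf_wk hw _

theorem Psi_ty {X T Z w : Term S} (hX : TyF P D X (lft n F.A.N)) (hT : TyF P D T (F.C2y n X))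
    (hZ : TyF P D Z (F.C1y n X)) (hw : TyF P D w (F.C0y n (F.A0 n))) :
    TyF P D (F.Psi n X T Z w) (sort L.o) :=
  L.ex_ty hD F.bdb (F.C2_ty hD hX) (F.PsiD_ty hD hX hT hZ hw)

theorem PhiD_ty {X T w : Term S} (hX : TyF P D X (lft n F.A.N)) (hT : TyF P D T (F.C2y n X))
    (hw : TyF P D w (F.C0y n (F.A0 n))) :
    TyF P (fcons (F.C1 n X) D) (L.and (n + 1)
    (F.m2 (n + 1) (wk X) (wk T) (F.s1 (n + 1) (wk X) (var 0)))
    (F.Psi (n + 1) (wk X) (wk T) (F.s1 (n + 1) (wk X) (var 0)) (wk w))) (sort L.o) := by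
  have hK := F.C1_ty hD hX
  have hX' := F.X_wk hX (F.C1 n X)
  have hD' := hD.cons (F.C1 n X)
  have hx := F.s1_ty hD' hX' (x := var 0) (by rw [← F.C1_wk]; exact var0 hK)
  have wT : TyF P (fcons (F.C1 n X) D) (wk T) (F.C2y (n + 1) (wk X)) := by
    rw [← F.C2y_wk]; exact tyf_wk hT _
  refine L.and_ty hD' (F.m2_ty hD' hX' wT hx) (F.Psi_ty hD' hX' wT hx ?_)
  rw [← F.A0_wk, ← F.C0y_wk]; exact tyf_wk hw _

theorem Phi_ty {X T w : Term S} (hX : TyF P D X (lft n F.A.N)) (hT : TyF P D T (F.C2y n X))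
    (hw : TyF P D w (F.C0y n (F.A0 n))) : TyF P D (F.Phi n X T w) (sort L.o) :=
  L.ex_ty hD F.bdy (F.C1_ty hD hX) (F.PhiD_ty hD hX hT hw)

/-- the body of `Fw`, at `X` -/
theorem FwD_ty {X w : Term S} (hX : TyF P D X (lft n F.A.N))
    (hw : TyF P D w (F.C0y n (F.A0 n))) :
    TyF P (fcons (F.C2y n X) D) (F.Phi (n + 1) (wk X) (var 0) (wk w)) (sort L.o) := by
  have hK := F.C2y_ty hD hX
  refine F.Phi_ty (hD.cons _) (F.X_wk hX _) ?_ ?_
  · rw [← F.C2y_wk]; exact var0 hK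
  · rw [← F.A0_wk, ← F.C0y_wk]; exact tyf_wk hw _

theorem Fw_ty {w : Term S} (hw : TyF P D w (F.C0y n (F.A0 n))) :
    TyF P D (F.Fw n w) (F.V n) := by
  have hN := hD.ty F.A.N_ty
  have hD' := hD.cons (lft n F.A.N)
  have hX : TyF P (fcons (lft n F.A.N) D) (var 0) (lft (n + 1) F.A.N) := by
    rw [← wk_lft]; exact var0 hN
  refine .abs ?_ (F.V_ty hD)
  refine F.q.comp_ty hD' (F.C2y_ty hD' hX) ?_
  rw [F.hq]
  refine F.FwD_ty hD' hX ?_
  rw [← F.A0_wk, ← F.C0y_wk]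
  exact tyf_wk hw _

theorem pt_ty {w : Term S} (hw : TyF P D w (F.C0y n (F.A0 n))) :
    TyF P D (F.xa.comp n (F.V n) (F.Fw n w)) (F.B n (F.A0 n)) := by
  refine .conv (F.xa.comp_ty hD (F.V_ty hD) ?_) (F.B_ty hD (F.A0_ty hD)) (BetaEq.symm (F.B_eq n))
  rw [F.xa_odd]
  exact F.Fw_ty hD hw

theorem E_ty {w v : Term S} (hw : TyF P D w (F.C0y n (F.A0 n)))
    (hv : TyF P D v (F.C0y n (F.A0 n))) : TyF P D (F.E n w v) (sort L.o) := by
  refine F.p.test_ty hD (F.B_ty hD (F.A0_ty hD)) hv ?_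
  rw [F.hp]
  exact F.pt_ty hD hw

end ty

/-! #### the structure -/

/-- the Henkin structure -/
def str : HPar705.HStr.{u} where
  U := {M : Term S // TyF P Δ M (F.C0 0 (F.A0 0))}
  P := {M : Term S // TyF P Δ M (F.C1 0 (F.A0 0))}
  Q := {M : Term S // TyF P Δ M (F.C2 0 (F.A0 0))}
  m1 Z x := L.Tr (F.m1 0 (F.A0 0) (F.s1 0 (F.A0 0) Z.1) (F.s0 0 (F.A0 0) x.1))
  m2 T Z := L.Tr (F.m2 0 (F.A0 0) (F.s2 0 (F.A0 0) T.1) (F.s1 0 (F.A0 0) Z.1))
  code T := ⟨F.code 0 (F.A0 0) (F.s2 0 (F.A0 0) T.1), F.code_ty (Ext.zero Δ)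
    (F.A0_ty (Ext.zero Δ)) (F.s2_ty (Ext.zero Δ) (F.A0_ty (Ext.zero Δ)) T.2)⟩
  E w v := L.Tr (F.E 0 (F.s0 0 (F.A0 0) w.1) (F.s0 0 (F.A0 0) v.1))

end Fat

end Crest.Agent.R298.Tw987
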