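import Mathlib
import Crest.Prelude.Def_PTS
import Crest.Agent.R298.RawCR_631

/-!
R298, Lean base, part 3: typed metatheory of the frozen `Typed` for an arbitrary specification:
valid contexts, substitution lemma, thinning, generation, correctness of types, subject reduction,
context conversion, legality of subterms.
-/

set_option autoImplicit false

namespace Crest.Agent.R298.Raw631

open Crest.LogicCS.PTS Crest.LogicCS.PTS.Term Relation

universe u
variable {S : Type u} {P : Spec S}

/-- `Look Γ i B`: the variable `i` has (shifted) declared type `B` in `Γ`. -/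
inductive Look : List (Term S) → ℕ → Term S → Prop
  | zero (Γ : List (Term S)) (A : Term S) : Look (A :: Γ) 0 (shift 0 A)
  | succ {Γ : List (Term S)} {i : ℕ} {B : Term S} (A : Term S) : Look Γ i B →
      Look (A :: Γ) (i + 1) (shift 0 B)

/-- valid contexts. -/
inductive Ctx (P : Spec S) : List (Term S) → Prop
  | nil : Ctx P []
  | cons {Γ : List (Term S)} {A : Term S} {s : S} : Ctx P Γ → Typed P Γ A (sort s) →
      Ctx P (A :: Γ)

theorem typed_ctx {Γ : List (Term S)} {M A : Term S} (h : Typed P Γ M A) : Ctx P Γ := by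
  induction h with
  | ax _ => exact Ctx.nil
  | start h ih => exact Ctx.cons ih h
  | weak _ h _ ih => exact Ctx.cons ih h
  | prod _ _ _ ih _ => exact ih
  | abs _ _ _ ih => exact ih
  | appl _ _ ih _ => exact ih
  | conv _ _ _ ih _ => exact ih

theorem ctx_tail {Γ : List (Term S)} {A : Term S} (h : Ctx P (A :: Γ)) : Ctx P Γ := by
  cases h with
  | cons h _ => exact h

theorem ctx_head {Γ : List (Term S)} {A : Term S} (h : Ctx P (A :: Γ)) :
    ∃ s, Typed P Γ A (sort s) := by
  cases h with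
  | cons _ h => exact ⟨_, h⟩

theorem typed_sort {Γ : List (Term S)} (h : Ctx P Γ) {s t : S} (hs : P.ax s t) :
    Typed P Γ (sort s) (sort t) := by
  induction h with
  | nil => exact Typed.ax hs
  | cons _ hA ih => exact Typed.weak ih hA

theorem typed_var {Γ : List (Term S)} {i : ℕ} {B : Term S} (hl : Look Γ i B) (h : Ctx P Γ) :
    Typed P Γ (var i) B := by
  induction hl with
  | zero Γ A =>
    obtain ⟨s, hs⟩ := ctx_head h
    exact Typed.start hs
  | succ A _ ih =>
    obtain ⟨s, hs⟩ := ctx_head h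
    have := Typed.weak (ih (ctx_tail h)) hs
    simpa [shift] using this

/-- every declared type is typed by a sort (in the full context). -/
theorem look_typed {Γ : List (Term S)} {i : ℕ} {B : Term S} (hl : Look Γ i B) (h : Ctx P Γ) :
    ∃ s, Typed P Γ B (sort s) := by
  induction hl with
  | zero Γ A =>
    obtain ⟨s, hs⟩ := ctx_head h
    exact ⟨s, Typed.weak hs hs⟩
  | succ A _ ih =>
    obtain ⟨s, hs⟩ := ctx_head h
    obtain ⟨t, ht⟩ := ih (ctx_tail h)
    exact ⟨t, Typed.weak ht hs⟩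

theorem look_func {Γ : List (Term S)} {i : ℕ} {B C : Term S} (h : Look Γ i B)
    (h' : Look Γ i C) : B = C := by
  induction h generalizing C with
  | zero Γ A => cases h'; rfl
  | succ A _ ih =>
    cases h' with
    | succ _ h' => rw [ih h']

/-- typed substitutions. -/
def TySub (P : Spec S) (Γ Δ : List (Term S)) (σ : ℕ → Term S) : Prop :=
  ∀ i B, Look Γ i B → Typed P Δ (σ i) (sub σ B)

theorem tySub_tail {Γ Δ : List (Term S)} {A : Term S} {σ : ℕ → Term S}
    (h : TySub P (A :: Γ) Δ σ) : TySub P Γ Δ (σ ∘ Nat.succ) := by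
  intro i B hl
  have := h (i + 1) _ (Look.succ A hl)
  rw [shift_zero_eq, sub_ren] at this
  exact this

theorem tySub_up {Γ Δ : List (Term S)} {A : Term S} {σ : ℕ → Term S} {s : S}
    (h : TySub P Γ Δ σ) (hA : Typed P Δ (sub σ A) (sort s)) :
    TySub P (A :: Γ) (sub σ A :: Δ) (up σ) := by
  intro i B hl
  cases hl with
  | zero =>
    rw [sub_up_shift]
    exact Typed.start hA
  | succ _ hl =>
    rw [sub_up_shift, up_succ, ← shift_zero_eq]
    exact Typed.weak (h _ _ hl) hA

/-- the substitution lemma (parallel form). -/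
theorem typed_sub {Γ : List (Term S)} {M A : Term S} (h : Typed P Γ M A) :
    ∀ {Δ : List (Term S)} {σ : ℕ → Term S}, Ctx P Δ → TySub P Γ Δ σ →
      Typed P Δ (sub σ M) (sub σ A) := by
  induction h with
  | ax h => intro Δ σ hΔ _; exact typed_sort hΔ h
  | start _ _ => intro Δ σ _ hσ; exact hσ 0 _ (Look.zero _ _)
  | weak _ _ ih1 _ =>
    intro Δ σ hΔ hσ
    rw [shift_zero_eq, shift_zero_eq, sub_ren, sub_ren]
    exact ih1 hΔ (tySub_tail hσ)
  | prod _ _ hr ih1 ih2 =>
    intro Δ σ hΔ hσ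
    have hA := ih1 hΔ hσ
    exact Typed.prod hA (ih2 (Ctx.cons hΔ hA) (tySub_up hσ hA)) hr
  | @abs Γ A M B s _ _ ih1 ih2 =>
    intro Δ σ hΔ hσ
    have hpi := ih2 hΔ hσ
    -- the type of the domain is needed to extend the context; it is recovered below
    have hctx : ∃ t, Typed P Δ (sub σ A) (sort t) := by
      have key : ∀ {Θ : List (Term S)} {X Y : Term S}, Typed P Θ X Y →
          ∀ A' B', X = pi A' B' → ∃ t, Typed P Θ A' (sort t) := by
        intro Θ X Y hX
        induction hX with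
        | ax _ => intro A' B' h; cases h
        | start _ _ => intro A' B' h; cases h
        | @weak Γ' M' B'' A'' s' _ hA'' ih _ =>
          intro A' B' h
          cases M' with
          | pi C D =>
            simp only [shift, Term.pi.injEq] at h
            obtain ⟨t, ht⟩ := ih C D rfl
            rw [← h.1]
            exact ⟨t, Typed.weak ht hA''⟩
          | var i => simp only [shift] at h; split_ifs at h
          | _ => simp [shift] at h
        | prod hA _ _ _ _ => intro A' B' h; cases h; exact ⟨_, hA⟩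
        | abs _ _ _ _ => intro A' B' h; cases h
        | appl _ _ _ _ => intro A' B' h; cases h
        | conv _ _ _ ih _ => intro A' B' h; exact ih A' B' h
      exact key hpi _ _ rfl
    obtain ⟨t, ht⟩ := hctx
    exact Typed.abs (ih1 (Ctx.cons hΔ ht) (tySub_up hσ ht)) hpi
  | appl _ _ ih1 ih2 =>
    intro Δ σ hΔ hσ
    rw [sub_subst]
    exact Typed.appl (ih1 hΔ hσ) (ih2 hΔ hσ)
  | conv _ _ hb ih1 ih2 =>
    intro Δ σ hΔ hσ
    exact Typed.conv (ih1 hΔ hσ) (ih2 hΔ hσ) (betaEq_sub hb σ)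

/-- typed renamings. -/
def TyRen (Γ Δ : List (Term S)) (r : ℕ → ℕ) : Prop :=
  ∀ i B, Look Γ i B → Look Δ (r i) (ren r B)

theorem typed_ren {Γ Δ : List (Term S)} {M A : Term S} {r : ℕ → ℕ} (h : Typed P Γ M A)
    (hΔ : Ctx P Δ) (hr : TyRen Γ Δ r) : Typed P Δ (ren r M) (ren r A) := by
  rw [ren_eq_sub, ren_eq_sub]
  refine typed_sub h hΔ ?_
  intro i B hl
  rw [← ren_eq_sub]
  exact typed_var (hr i B hl) hΔ

theorem tyRen_succ (Γ : List (Term S)) (A : Term S) : TyRen Γ (A :: Γ) Nat.succ := by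
  intro i B hl
  rw [← shift_zero_eq]
  exact Look.succ A hl

theorem tyRen_up {Γ Δ : List (Term S)} {r : ℕ → ℕ} (h : TyRen Γ Δ r) (A : Term S) :
    TyRen (A :: Γ) (ren r A :: Δ) (upr r) := by
  intro i B hl
  cases hl with
  | zero =>
    rw [ren_upr_shift]
    exact Look.zero _ _
  | succ _ hl =>
    rw [ren_upr_shift]
    exact Look.succ _ (h _ _ hl)

/-- substitution of one variable. -/
theorem tySub_inst {Γ : List (Term S)} {N A : Term S} (hN : Typed P Γ N A) :
    TySub P (A :: Γ) Γ (inst N) := by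
  intro i B hl
  cases hl with
  | zero =>
    rw [shift_zero_eq, sub_inst_ren_succ]
    exact hN
  | succ _ hl =>
    rw [shift_zero_eq, sub_inst_ren_succ]
    exact typed_var hl (typed_ctx hN)

theorem typed_subst {Γ : List (Term S)} {M N A B : Term S} (hM : Typed P (A :: Γ) M B)
    (hN : Typed P Γ N A) : Typed P Γ (subst N M) (subst N B) := by
  rw [subst_eq, subst_eq]
  exact typed_sub hM (typed_ctx hN) (tySub_inst hN)

theorem typed_shift {Γ : List (Term S)} {M B A : Term S} {s : S} (h : Typed P Γ M B)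
    (hA : Typed P Γ A (sort s)) : Typed P (A :: Γ) (shift 0 M) (shift 0 B) :=
  Typed.weak h hA

/-! ### generation -/

/-- the relation between the types of a fixed subject: equality, or convertibility to a type which
is typed by a sort. -/
def Cv (P : Spec S) (Γ : List (Term S)) (A B : Term S) : Prop :=
  A = B ∨ (BetaEq A B ∧ ∃ s, Typed P Γ B (sort s))

theorem cv_refl {Γ : List (Term S)} (A : Term S) : Cv P Γ A A := Or.inl rfl

theorem cv_betaEq {Γ : List (Term S)} {A B : Term S} (h : Cv P Γ A B) : BetaEq A B := by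
  rcases h with rfl | h
  · exact betaEq_refl _
  · exact h.1

theorem cv_trans {Γ : List (Term S)} {A B C : Term S} (h : Cv P Γ A B) (h' : Cv P Γ B C) :
    Cv P Γ A C := by
  rcases h' with rfl | h'
  · exact h
  · exact Or.inr ⟨betaEq_trans (cv_betaEq h) h'.1, h'.2⟩

theorem cv_shift {Γ : List (Term S)} {A B C : Term S} {s : S} (h : Cv P Γ A B)
    (hC : Typed P Γ C (sort s)) : Cv P (C :: Γ) (shift 0 A) (shift 0 B) := by
  rcases h with rfl | ⟨h, t, ht⟩
  · exact cv_refl _
  · exact Or.inr ⟨betaEq_shift h, t, Typed.weak ht hC⟩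

theorem typed_cv {Γ : List (Term S)} {M A B : Term S} (h : Typed P Γ M A) (h' : Cv P Γ A B) :
    Typed P Γ M B := by
  rcases h' with rfl | ⟨h', s, hs⟩
  · exact h
  · exact Typed.conv h hs h'

/-- the generation statement for the subject `M` and the type `C`. -/
def Gen (P : Spec S) (Γ : List (Term S)) : Term S → Term S → Prop
  | var i, C => ∃ B, Look Γ i B ∧ Cv P Γ B C
  | sort s, C => ∃ t, P.ax s t ∧ Cv P Γ (sort t) C
  | app M N, C => ∃ A B, Typed P Γ M (pi A B) ∧ Typed P Γ N A ∧ Cv P Γ (subst N B) C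
  | lam A M, C => ∃ B s, Typed P (A :: Γ) M B ∧ Typed P Γ (pi A B) (sort s) ∧
      Cv P Γ (pi A B) C
  | pi A B, C => ∃ s₁ s₂ s₃, Typed P Γ A (sort s₁) ∧ Typed P (A :: Γ) B (sort s₂) ∧
      P.rule s₁ s₂ s₃ ∧ Cv P Γ (sort s₃) C

theorem gen_cv {Γ : List (Term S)} {M A B : Term S} (h : Gen P Γ M A) (h' : Cv P Γ A B) :
    Gen P Γ M B := by
  cases M with
  | var i => obtain ⟨C, h1, h2⟩ := h; exact ⟨C, h1, cv_trans h2 h'⟩
  | sort s => obtain ⟨C, h1, h2⟩ := h; exact ⟨C, h1, cv_trans h2 h'⟩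
  | app M N => obtain ⟨C, D, h1, h2, h3⟩ := h; exact ⟨C, D, h1, h2, cv_trans h3 h'⟩
  | lam M N => obtain ⟨C, D, h1, h2, h3⟩ := h; exact ⟨C, D, h1, h2, cv_trans h3 h'⟩
  | pi M N =>
    obtain ⟨s1, s2, s3, h1, h2, h3, h4⟩ := h; exact ⟨s1, s2, s3, h1, h2, h3, cv_trans h4 h'⟩

/-- shifting under a new binder, keeping the last declaration. -/
theorem typed_shift1 {Γ : List (Term S)} {M B A C : Term S} {s t : S}
    (h : Typed P (C :: Γ) M B) (hC : Typed P Γ C (sort t)) (hA : Typed P Γ A (sort s)) :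
    Typed P (shift 0 C :: A :: Γ) (shift 1 M) (shift 1 B) := by
  have hr : TyRen (C :: Γ) (ren Nat.succ C :: A :: Γ) (upr Nat.succ) :=
    tyRen_up (tyRen_succ Γ A) C
  have e : shr 1 = upr Nat.succ := by
    rw [← shr_zero, upr_shr]
  rw [shift_zero_eq C, shift_eq_ren M 1, shift_eq_ren B 1, e]
  refine typed_ren h ?_ hr
  rw [← shift_zero_eq]
  exact Ctx.cons (Ctx.cons (typed_ctx hA) hA) (Typed.weak hC hA)

theorem gen_of_typed {Γ : List (Term S)} {M C : Term S} (h : Typed P Γ M C) : Gen P Γ M C := by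
  induction h with
  | ax h => exact ⟨_, h, cv_refl _⟩
  | start h _ => exact ⟨_, Look.zero _ _, cv_refl _⟩
  | @weak Γ M B A s hM hA ih _ =>
    cases M with
    | var i =>
      obtain ⟨C, h1, h2⟩ := ih
      refine ⟨shift 0 C, ?_, cv_shift h2 hA⟩
      exact Look.succ A h1
    | sort s =>
      obtain ⟨t, h1, h2⟩ := ih
      exact ⟨t, h1, cv_shift h2 hA⟩
    | app M N =>
      obtain ⟨C, D, h1, h2, h3⟩ := ih
      refine ⟨shift 0 C, shift 1 D, Typed.weak h1 hA, Typed.weak h2 hA, ?_⟩
      have := cv_shift h3 hA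
      rw [shift_zero_eq (subst N D), ren_subst] at this
      have e : shift 1 D = ren (upr Nat.succ) D := by
        rw [shift_eq_ren, ← shr_zero, upr_shr]
      rw [e]
      have e2 : shift 0 N = ren Nat.succ N := shift_zero_eq N
      rw [e2]
      exact this
    | lam C N =>
      obtain ⟨D, t, h1, h2, h3⟩ := ih
      have hC : ∃ t', Typed P Γ C (sort t') := ctx_head (typed_ctx h1)
      obtain ⟨t', ht'⟩ := hC
      exact ⟨shift 1 D, t, typed_shift1 h1 ht' hA, Typed.weak h2 hA, cv_shift h3 hA⟩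
    | pi C D =>
      obtain ⟨s1, s2, s3, h1, h2, h3, h4⟩ := ih
      exact ⟨s1, s2, s3, Typed.weak h1 hA, typed_shift1 h2 h1 hA, h3, cv_shift h4 hA⟩
  | prod h1 h2 h3 _ _ => exact ⟨_, _, _, h1, h2, h3, cv_refl _⟩
  | abs h1 h2 _ _ => exact ⟨_, _, h1, h2, cv_refl _⟩
  | appl h1 h2 _ _ => exact ⟨_, _, h1, h2, cv_refl _⟩
  | conv _ h2 h3 ih _ => exact gen_cv ih (Or.inr ⟨h3, _, h2⟩)

/-! ### correctness of types -/

/-- a type is a sort or is typed by a sort. -/
theorem typed_type {Γ : List (Term S)} {M A : Term S} (h : Typed P Γ M A) :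
    (∃ s, A = sort s) ∨ ∃ s, Typed P Γ A (sort s) := by
  induction h with
  | ax _ => exact Or.inl ⟨_, rfl⟩
  | start h _ => exact Or.inr ⟨_, Typed.weak h h⟩
  | weak _ hA ih _ =>
    rcases ih with ⟨s, rfl⟩ | ⟨s, hs⟩
    · exact Or.inl ⟨s, rfl⟩
    · exact Or.inr ⟨s, Typed.weak hs hA⟩
  | prod _ _ _ _ _ => exact Or.inl ⟨_, rfl⟩
  | abs _ h _ _ => exact Or.inr ⟨_, h⟩
  | appl _ hN ih _ =>
    rcases ih with ⟨s, h⟩ | ⟨s, hs⟩
    · cases h
    · obtain ⟨s1, s2, s3, h1, h2, h3, h4⟩ := gen_of_typed hs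
      exact Or.inr ⟨s2, by simpa [subst, substAt] using typed_subst h2 hN⟩
  | conv _ h _ _ _ => exact Or.inr ⟨_, h⟩

/-- a product type is typed by a sort, with its parts. -/
theorem typed_pi_type {Γ : List (Term S)} {M A B : Term S} (h : Typed P Γ M (pi A B)) :
    ∃ s₁ s₂ s₃, Typed P Γ A (sort s₁) ∧ Typed P (A :: Γ) B (sort s₂) ∧ P.rule s₁ s₂ s₃ ∧
      Typed P Γ (pi A B) (sort s₃) := by
  rcases typed_type h with ⟨s, h⟩ | ⟨s, hs⟩
  · cases h
  · obtain ⟨s1, s2, s3, h1, h2, h3, h4⟩ := gen_of_typed hs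
    exact ⟨s1, s2, s3, h1, h2, h3, Typed.prod h1 h2 h3⟩

/-! ### context conversion -/

theorem typed_ctx_conv {Γ : List (Term S)} {A A' M B : Term S} {s : S}
    (h : Typed P (A :: Γ) M B) (hA' : Typed P Γ A' (sort s)) (hb : BetaEq A A') :
    Typed P (A' :: Γ) M B := by
  obtain ⟨t, ht⟩ := ctx_head (typed_ctx h)
  have hΔ : Ctx P (A' :: Γ) := Ctx.cons (typed_ctx hA') hA'
  have := typed_sub h hΔ (σ := var) (by
    intro i C hl
    rw [sub_var]
    cases hl with
    | zero =>
      exact Typed.conv (typed_var (Look.zero _ _) hΔ) (Typed.weak ht hA')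
        (betaEq_shift (betaEq_symm hb))
    | succ _ hl => exact typed_var (Look.succ _ hl) hΔ)
  rwa [sub_var, sub_var] at this

/-! ### subject reduction -/

theorem typed_beta {M M' : Term S} (hb : Beta M M') : ∀ {Γ : List (Term S)} {C : Term S},
    Typed P Γ M C → Typed P Γ M' C := by
  induction hb with
  | redex A M N =>
    intro Γ C h
    obtain ⟨A1, B1, h1, h2, h3⟩ := gen_of_typed h
    obtain ⟨B, s, h4, h5, h6⟩ := gen_of_typed h1
    obtain ⟨hA, hB⟩ := betaEq_pi_inj (cv_betaEq h6)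
    obtain ⟨t, ht⟩ := ctx_head (typed_ctx h4)
    have hN : Typed P Γ N A := Typed.conv h2 ht (betaEq_symm hA)
    have hM := typed_subst h4 hN
    obtain ⟨s1, s2, s3, g1, g2, g3, g4⟩ := typed_pi_type h1
    have hB1 : Typed P Γ (subst N B1) (sort s2) := by
      simpa [subst, substAt] using typed_subst g2 h2
    have : Typed P Γ (subst N M) (subst N B1) :=
      Typed.conv hM hB1 (betaEq_subst hB (betaEq_refl N))
    exact typed_cv this h3
  | appL N hb ih =>
    intro Γ C h
    obtain ⟨A1, B1, h1, h2, h3⟩ := gen_of_typed h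
    exact typed_cv (Typed.appl (ih h1) h2) h3
  | @appR M N N' hb ih =>
    intro Γ C h
    obtain ⟨A1, B1, h1, h2, h3⟩ := gen_of_typed h
    obtain ⟨s1, s2, s3, g1, g2, g3, g4⟩ := typed_pi_type h1
    have hB1 : Typed P Γ (subst N B1) (sort s2) := by
      simpa [subst, substAt] using typed_subst g2 h2
    have e : BetaEq (subst N' B1) (subst N B1) :=
      betaEq_subst (betaEq_refl B1) (betaEq_symm (betaEq_of_beta hb))
    exact typed_cv (Typed.conv (Typed.appl h1 (ih h2)) hB1 e) h3
  | @lamA A A' M hb ih =>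
    intro Γ C h
    obtain ⟨B, s, h4, h5, h6⟩ := gen_of_typed h
    obtain ⟨s1, s2, s3, g1, g2, g3, g4⟩ := gen_of_typed h5
    have hA' := ih g1
    have k1 := typed_ctx_conv h4 hA' (betaEq_of_beta hb)
    have k2 := typed_ctx_conv g2 hA' (betaEq_of_beta hb)
    have k3 : Typed P Γ (pi A' B) (sort s3) := Typed.prod hA' k2 g3
    have k4 : Typed P Γ (lam A' M) (pi A' B) := Typed.abs k1 k3
    exact typed_cv (Typed.conv k4 h5 (betaEq_pi (betaEq_symm (betaEq_of_beta hb))
      (betaEq_refl B))) h6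
  | lamM A hb ih =>
    intro Γ C h
    obtain ⟨B, s, h4, h5, h6⟩ := gen_of_typed h
    exact typed_cv (Typed.abs (ih h4) h5) h6
  | @piA A A' B hb ih =>
    intro Γ C h
    obtain ⟨s1, s2, s3, g1, g2, g3, g4⟩ := gen_of_typed h
    have hA' := ih g1
    exact typed_cv (Typed.prod hA' (typed_ctx_conv g2 hA' (betaEq_of_beta hb)) g3) g4
  | piB A hb ih =>
    intro Γ C h
    obtain ⟨s1, s2, s3, g1, g2, g3, g4⟩ := gen_of_typed h
    exact typed_cv (Typed.prod g1 (ih g2) g3) g4

theorem typed_reds {M M' : Term S} (hb : Reds M M') {Γ : List (Term S)} {C : Term S}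
    (h : Typed P Γ M C) : Typed P Γ M' C := by
  induction hb with
  | refl => exact h
  | tail _ hb ih => exact typed_beta hb ih

/-- types may be reduced. -/
theorem typed_type_beta {Γ : List (Term S)} {M A A' : Term S} (h : Typed P Γ M A)
    (hb : Beta A A') : Typed P Γ M A' := by
  rcases typed_type h with ⟨s, rfl⟩ | ⟨s, hs⟩
  · cases hb
  · exact Typed.conv h (typed_beta hb hs) (betaEq_of_beta hb)

theorem typed_type_reds {Γ : List (Term S)} {M A A' : Term S} (h : Typed P Γ M A)
    (hb : Reds A A') : Typed P Γ M A' := by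
  induction hb with
  | refl => exact h
  | tail _ hb ih => exact typed_type_beta ih hb

/-! ### legality -/

theorem legal_reds {Γ : List (Term S)} {M M' : Term S} (h : Legal P Γ M) (hb : Reds M M') :
    Legal P Γ M' := by
  obtain ⟨N, h | h⟩ := h
  · exact ⟨N, Or.inl (typed_reds hb h)⟩
  · exact ⟨N, Or.inr (typed_type_reds h hb)⟩

theorem legal_typed {Γ : List (Term S)} {M A : Term S} (h : Typed P Γ M A) : Legal P Γ M :=
  ⟨A, Or.inl h⟩

theorem legal_type {Γ : List (Term S)} {M A : Term S} (h : Typed P Γ M A) : Legal P Γ A :=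
  ⟨M, Or.inr h⟩

/-- a legal term is typable or a sort. -/
theorem legal_iff {Γ : List (Term S)} {M : Term S} :
    Legal P Γ M → (∃ A, Typed P Γ M A) ∨ (∃ s, M = sort s) := by
  rintro ⟨N, h | h⟩
  · exact Or.inl ⟨N, h⟩
  · rcases typed_type h with h | ⟨s, h⟩
    · exact Or.inr h
    · exact Or.inl ⟨_, h⟩

theorem typed_app_inv {Γ : List (Term S)} {M N C : Term S} (h : Typed P Γ (app M N) C) :
    ∃ A B, Typed P Γ M (pi A B) ∧ Typed P Γ N A ∧ Cv P Γ (subst N B) C := gen_of_typed h

theorem typed_lam_inv {Γ : List (Term S)} {A M C : Term S} (h : Typed P Γ (lam A M) C) :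
    ∃ B s, Typed P (A :: Γ) M B ∧ Typed P Γ (pi A B) (sort s) ∧ Cv P Γ (pi A B) C :=
  gen_of_typed h

theorem typed_pi_inv {Γ : List (Term S)} {A B C : Term S} (h : Typed P Γ (pi A B) C) :
    ∃ s₁ s₂ s₃, Typed P Γ A (sort s₁) ∧ Typed P (A :: Γ) B (sort s₂) ∧
      P.rule s₁ s₂ s₃ ∧ Cv P Γ (sort s₃) C := gen_of_typed h

theorem typed_var_inv {Γ : List (Term S)} {i : ℕ} {C : Term S} (h : Typed P Γ (var i) C) :
    ∃ B, Look Γ i B ∧ Cv P Γ B C := gen_of_typed h

theorem typed_sort_inv {Γ : List (Term S)} {s : S} {C : Term S} (h : Typed P Γ (sort s) C) :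
    ∃ t, P.ax s t ∧ Cv P Γ (sort t) C := gen_of_typed h

/-! ### reduction of the normalisation statement to typable terms -/

theorem sn_sort (s : S) : SN (sort s : Term S) := by
  rintro ⟨f, h0, hf⟩
  have := hf 0
  rw [h0] at this
  cases this

/-- `SN` as accessibility. -/
theorem sn_iff_acc {M : Term S} : SN M ↔ Acc (fun N M : Term S => Beta M N) M := by
  constructor
  · intro h
    by_contra hn
    have step : ∀ X : {X : Term S // ¬ Acc (fun N M : Term S => Beta M N) X},
        ∃ Y : {X : Term S // ¬ Acc (fun N M : Term S => Beta M N) X}, Beta X.1 Y.1 := by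
      rintro ⟨X, hX⟩
      by_contra hc
      push Not at hc
      exact hX (Acc.intro X (fun Y hY => by
        by_contra hY'
        exact hc ⟨Y, hY'⟩ hY))
    choose g hg using step
    let f : ℕ → {X : Term S // ¬ Acc (fun N M : Term S => Beta M N) X} :=
      fun n => Nat.rec ⟨M, hn⟩ (fun _ X => g X) n
    exact h ⟨fun n => (f n).1, rfl, fun n => hg (f n)⟩
  · intro h
    induction h with
    | intro M _ ih =>
      rintro ⟨f, h0, hf⟩
      subst h0
      exact ih (f 1) (hf 0) ⟨fun n => f (n + 1), rfl, fun n => hf (n + 1)⟩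

end Crest.Agent.R298.Raw631
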