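import Crest.Agent.R298.SM1_646
import Crest.Agent.R298.Sub_893

/-!
R298 (S0452), helper226: laws of the type evaluator read off `Cod893.den`
(`SM646.TyEval.ev_ren`), and conversion lemmas for `cst` / `RRof` used by `ev_pi`.
-/

set_option autoImplicit false

namespace Crest.Agent.R298.TyE226

open Crest.LogicCS.PTS Relation
open Crest.Agent.R298.Sub452 Crest.Agent.R298.Par452 Crest.Agent.R298.Ty452
open Crest.Agent.R298.Mem360 Crest.Agent.R298.TyF452 Crest.Agent.R298.TyMF452
open Crest.Agent.R298.Uniq452 Crest.Agent.R298.Main865 Crest.Agent.R298.Cand704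
open Crest.Agent.R298.SM646 Crest.Agent.R298.Cod893
open Crest.Agent.R298.Mem360.MT (er emb er_emb IsL isL_of_dist dist mren mwk mups msub mscons
  minst er_mren er_mups er_msub er_minst)

universe u v

section den
variable {S Q SI C : Type}

/-- **field `ev_ren` of `TyEval`** for `ev T θ ν := den F T θ ν []` (and at every path) -/
theorem ev_ren (F : Frame S Q SI C) (T : Term S) (r : ℕ → ℕ) (θ : ℕ → Term S)
    (ν : ℕ → UF Q SI C) :
    den F (ren r T) θ ν = den F T (fun k => θ (r k)) (fun k => ν (r k)) :=
  den_ren F T r _ _ _ _ (fun _ => rfl) (fun _ => rfl)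

/-- the two extensions of an environment of infos agree -/
theorem isc_eq_icons (j : UF Q SI C) (ν : ℕ → UF Q SI C) : isc j ν = icons j ν := by
  funext n; cases n <;> rfl

/-- closed terms of the environment only matter up to conversion (identity node clamp or not) -/
theorem den_scons (F : Frame S Q SI C) (hcl : ∀ M N : Term S, BetaEq M N → F.cl M = F.cl N)
    (T : Term S) {a b : Term S} (e : BetaEq a b) (θ : ℕ → Term S) (ν : ℕ → UF Q SI C) :
    den F T (scons a θ) ν = den F T (scons b θ) ν := by
  refine den_congr F hcl T (fun x => ?_) (fun x => ?_)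
  · cases x with
    | zero => exact e
    | succ x => exact BetaEq.refl _
  · cases x with
    | zero =>
        funext p
        show F.nz (F.cl a) (sh p) (ν 0 p) = F.nz (F.cl b) (sh p) (ν 0 p)
        rw [hcl _ _ e]
    | succ x => rfl

end den

section cst
variable {S : Type u} {P : Spec S} {idx : S → ℕ} {k i : ℕ} {D : ℕ → Term S}

/-- the clamp depends on the type up to conversion only -/
theorem cst_conv (w : WfF P D) {T T' : Term S} {s s' : S} (hT : TyF P D T (.sort s))
    (hT' : TyF P D T' (.sort s')) (e : BetaEq T T') (X : Set (MT S)) :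
    cst P idx k D T X = cst P idx k D T' X := by
  by_cases h : Cand P idx k D T X
  · rw [cst_of_cand h, cst_of_cand (h.conv' w hT hT' e)]
  · have h' : ¬ Cand P idx k D T' X := fun h' => h (h'.conv' w hT' hT (BetaEq.symm e))
    unfold cst
    rw [if_neg h, if_neg h']
    exact wt_conv w hT hT' e

/-- conversion of realizer sets -/
theorem rrof_conv {Inf : Type v} (w : WfF P D)
    {ev : Term S → (ℕ → Term S) → (ℕ → Inf) → Set (MT S)} {T T' : Term S} {θ θ' : ℕ → Term S}
    {ν ν' : ℕ → Inf} {s s' : S} (hT : TyF P D (sub θ T) (.sort s))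
    (hT' : TyF P D (sub θ' T') (.sort s')) (e : BetaEq (sub θ T) (sub θ' T'))
    (he : ev T θ ν = ev T' θ' ν') :
    RRof P idx i D ev T θ ν = RRof P idx i D ev T' θ' ν' := by
  unfold RRof
  by_cases h : Hi P idx i D (sub θ T)
  · rw [if_pos h, if_pos (h.conv e)]
    exact wt_conv w hT hT' e
  · rw [if_neg h, if_neg (fun h' => h (h'.conv (BetaEq.symm e))), he]
    exact cst_conv w hT hT' e _

/-- the closed term of a variable may be changed up to conversion in a realizer set of the
codomain of a typed product -/
theorem rrof_scons {S : Type} {Q SI : Type} {P : Spec S} {idx : S → ℕ} {i : ℕ}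
    {D : ℕ → Term S} (w : WfF P D) (F : Frame S Q SI (Set (MT S)))
    (hcl : ∀ M N : Term S, BetaEq M N → F.cl M = F.cl N)
    {A B : Term S} {θ : ℕ → Term S} {c : S} (h : TyF P D (sub θ (.pi A B)) (.sort c))
    {a b : Term S} (ha : TyF P D a (sub θ A)) (hb : TyF P D b (sub θ A)) (e : BetaEq a b)
    (ν : ℕ → UF Q SI (Set (MT S))) :
    RRof P idx i D (fun T θ ν => den F T θ ν []) B (scons a θ) ν =
      RRof P idx i D (fun T θ ν => den F T θ ν []) B (scons b θ) ν := by
  obtain ⟨s1, s2, s3, hA, hB, -, -⟩ := fgen_pi h _ _ rfl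
  have h1 : TyF P D (sub (scons a θ) B) (.sort s2) := by
    rw [sub_scons]; exact tyf_inst w hB ha
  have h2 : TyF P D (sub (scons b θ) B) (.sort s2) := by
    rw [sub_scons]; exact tyf_inst w hB hb
  refine rrof_conv w h1 h2 ?_ ?_
  · rw [sub_scons, sub_scons]
    exact BetaEq.inst e (BetaEq.refl _)
  · show den F B (scons a θ) ν [] = den F B (scons b θ) ν []
    rw [den_scons F hcl B e]

end cst

end Crest.Agent.R298.TyE226
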