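import Mathlib.Tactic
import Mathlib.Order.WellFounded

/-!
R298 (S0452), helper40, vertical T, file 1: the value domains.

* `U`: values of the types with both signs (well-founded recursion over `R`);
* `V`, `W`: values of the wild types (`W` = all functionals, `V` = functionals of finite rank),
  everything in `Type`.
-/

set_option autoImplicit false

namespace Crest.Agent.R298.V40

/-! ### the family `U` -/

section U

variable {Tm : Type} {R : Tm → Tm → Prop} (hR : WellFounded R) (C : Type)

/-- values of a type `T`: functionals on lists of (term, optional value at a smaller type) -/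
def U : Tm → Type :=
  hR.fix (fun T ih => List (Tm × Option (Σ T1 : {T1 // R T1 T}, ih T1.1 T1.2)) → C)

theorem U_eq (T : Tm) :
    U hR C T = (List (Tm × Option (Σ T1 : {T1 // R T1 T}, U hR C T1.1)) → C) :=
  WellFounded.fix_eq _ _ _

/-- unfolding -/
def unf {T : Tm} (u : U hR C T) : List (Tm × Option (Σ T1 : {T1 // R T1 T}, U hR C T1.1)) → C :=
  cast (U_eq hR C T) u

/-- folding -/
def fld {T : Tm} (f : List (Tm × Option (Σ T1 : {T1 // R T1 T}, U hR C T1.1)) → C) : U hR C T :=
  cast (U_eq hR C T).symm f

@[simp] theorem unf_fld {T : Tm}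
    (f : List (Tm × Option (Σ T1 : {T1 // R T1 T}, U hR C T1.1)) → C) :
    unf hR C (fld hR C f) = f := by
  unfold unf fld
  rw [cast_cast, cast_eq]

end U

/-! ### functionals of finite rank -/

section V

variable (Tm Ti C : Type)

/-- (codes of) functionals of rank at most `n` -/
def Vle : ℕ → Type
  | 0 => PEmpty
  | n + 1 => Vle n ⊕ (List (Tm × Option (Ti ⊕ (List (Tm × Option (Ti ⊕ Vle n)) → C))) → C)

/-- all functionals of finite rank -/
def V : Type :=
  Σ n : ℕ, (List (Tm × Option (Ti ⊕ (List (Tm × Option (Ti ⊕ Vle Tm Ti C n)) → C))) → C)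

/-- all functionals on lists with entries of finite rank -/
abbrev W : Type := List (Tm × Option (Ti ⊕ V Tm Ti C)) → C

variable {Tm Ti C}

/-- the rank -/
def lev (v : V Tm Ti C) : ℕ := v.1 + 1

/-- the inclusion -/
def incl : (n : ℕ) → Vle Tm Ti C n → V Tm Ti C
  | 0, x => x.elim
  | n + 1, .inl x => incl n x
  | n + 1, .inr f => ⟨n, f⟩

theorem lev_incl : ∀ (n : ℕ) (x : Vle Tm Ti C n), lev (incl n x) ≤ n
  | 0, x => x.elim
  | n + 1, .inl x => (lev_incl n x).trans (Nat.le_succ n)
  | _ + 1, .inr _ => le_refl _

theorem exists_incl : ∀ (n : ℕ) (v : V Tm Ti C), lev v ≤ n → ∃ x, incl n x = v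
  | 0, v, h => by
      unfold lev at h
      omega
  | n + 1, v, h => by
      by_cases h' : lev v ≤ n
      · obtain ⟨x, hx⟩ := exists_incl n v h'
        exact ⟨.inl x, hx⟩
      · obtain ⟨m, f⟩ := v
        have : m = n := by
          unfold lev at h h'
          simp only at h h'
          omega
        subst this
        exact ⟨.inr f, rfl⟩

/-- entry of a list, with the codes changed -/
def emap {X Y : Type} (f : X → Y) (x : Tm × Option (Ti ⊕ X)) : Tm × Option (Ti ⊕ Y) :=
  (x.1, x.2.map (Sum.map id f))

/-- agreement of functionals on lists with entries of rank at most `N` -/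
def WR (N : ℕ) (w w' : W Tm Ti C) : Prop :=
  ∀ l : List (Tm × Option (Ti ⊕ V Tm Ti C)),
    (∀ x ∈ l, ∀ v, x.2 = some (.inr v) → lev v ≤ N) → w l = w' l

theorem WR.refl (N : ℕ) (w : W Tm Ti C) : WR N w w := fun _ _ => rfl

theorem WR.symm {N : ℕ} {w w' : W Tm Ti C} (h : WR N w w') : WR N w' w :=
  fun l hl => (h l hl).symm

theorem WR.mono {N M : ℕ} (hNM : N ≤ M) {w w' : W Tm Ti C} (h : WR M w w') : WR N w w' :=
  fun l hl => h l (fun x hx v hv => (hl x hx v hv).trans hNM)

/-- relation of entries -/
inductive ER (N : ℕ) : Tm × Option (Ti ⊕ W Tm Ti C) → Tm × Option (Ti ⊕ W Tm Ti C) → Prop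
  | none (a : Tm) : ER N (a, none) (a, none)
  | inl (a : Tm) (t : Ti) : ER N (a, some (.inl t)) (a, some (.inl t))
  | inr (a : Tm) {w w' : W Tm Ti C} : WR N w w' → ER N (a, some (.inr w)) (a, some (.inr w'))

/-- restriction of a functional to rank at most `n` -/
def res (n : ℕ) (w : W Tm Ti C) : List (Tm × Option (Ti ⊕ Vle Tm Ti C n)) → C :=
  fun l => w (l.map (emap (incl n)))

/-- decoding -/
def dec (v : V Tm Ti C) (p : List (Tm × Option (Ti ⊕ W Tm Ti C))) : C :=
  v.2 (p.map (emap (res v.1)))

theorem res_congr {n N : ℕ} (hn : n ≤ N) {w w' : W Tm Ti C} (h : WR N w w') :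
    res n w = res n w' := by
  funext l
  refine h _ ?_
  intro x hx v hv
  obtain ⟨y, _, rfl⟩ := List.mem_map.1 hx
  obtain ⟨a, e⟩ := y
  cases e with
  | none => cases hv
  | some e =>
      cases e with
      | inl t => cases hv
      | inr u =>
          simp only [emap, Option.map_some, Sum.map_inr, Option.some.injEq, Sum.inr.injEq] at hv
          subst hv
          exact (lev_incl n u).trans hn

theorem dec_congr {v : V Tm Ti C} {N : ℕ} (hv : lev v ≤ N)
    {p p' : List (Tm × Option (Ti ⊕ W Tm Ti C))} (h : List.Forall₂ (ER N) p p') :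
    dec v p = dec v p' := by
  have key : p.map (emap (res v.1)) = p'.map (emap (res v.1)) := by
    induction h with
    | nil => rfl
    | cons h _ ih =>
      simp only [List.map_cons, ih]
      congr 1
      cases h with
      | none a => rfl
      | inl a t => rfl
      | inr a h =>
          have : v.1 ≤ N := by unfold lev at hv; omega
          simp only [emap, Option.map_some, Sum.map_inr, res_congr this h]
  unfold dec
  rw [key]

open Classical in
/-- extension of a functional of rank at most `N` -/
noncomputable def ext (N : ℕ) (w : List (Tm × Option (Ti ⊕ Vle Tm Ti C N)) → C) : W Tm Ti C :=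
  fun l => w (l.map (fun x => (x.1, match x.2 with
    | none => none
    | some (.inl t) => some (.inl t)
    | some (.inr v) => if h : lev v ≤ N then some (.inr (exists_incl N v h).choose) else none)))

theorem ext_res (N : ℕ) (w : W Tm Ti C) : WR N w (ext N (res N w)) := by
  intro l hl
  unfold ext res
  simp only [List.map_map]
  congr 1
  symm
  rw [List.map_eq_iff]
  intro i
  cases hi : l[i]? with
  | none => rfl
  | some x =>
      simp only [Option.map_some]
      have hx : x ∈ l := List.mem_of_getElem? hi
      obtain ⟨a, e⟩ := x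
      cases e with
      | none => rfl
      | some e =>
          cases e with
          | inl t => rfl
          | inr v =>
              have hv : lev v ≤ N := hl _ hx v rfl
              simp only [Function.comp, dif_pos hv, emap, Option.map_some, Sum.map_inr,
                (exists_incl N v hv).choose_spec]

/-- every functional depending only on the restrictions to rank at most `N` has a code -/
theorem exists_dec (N : ℕ) (g : List (Tm × Option (Ti ⊕ W Tm Ti C)) → C)
    (hg : ∀ p p', List.Forall₂ (ER N) p p' → g p = g p') :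
    ∃ v : V Tm Ti C, lev v ≤ N + 1 ∧ dec v = g := by
  refine ⟨⟨N, fun q => g (q.map (emap (ext N)))⟩, le_refl _, ?_⟩
  funext p
  unfold dec
  simp only [List.map_map]
  symm
  apply hg
  induction p with
  | nil => exact .nil
  | cons x p ih =>
      refine .cons ?_ ih
      obtain ⟨a, e⟩ := x
      cases e with
      | none => exact .none a
      | some e =>
          cases e with
          | inl t => exact .inl a t
          | inr w => exact .inr a (ext_res N w)

theorem exists_min (g : List (Tm × Option (Ti ⊕ W Tm Ti C)) → C)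
    (h : ∃ v : V Tm Ti C, dec v = g) :
    ∃ v : V Tm Ti C, dec v = g ∧ ∀ v' : V Tm Ti C, dec v' = g → lev v ≤ lev v' := by
  classical
  have key : ∃ n, ∃ v : V Tm Ti C, dec v = g ∧ lev v = n := ⟨_, h.choose, h.choose_spec, rfl⟩
  obtain ⟨v, h1, h2⟩ := Nat.find_spec key
  exact ⟨v, h1, fun v' h' => h2.le.trans (Nat.find_min' key ⟨v', h', rfl⟩)⟩

/-- a junk code -/
def vdef (d : C) : V Tm Ti C := ⟨0, fun _ => d⟩

open Classical in
/-- the code of smallest rank -/
noncomputable def enc (g : List (Tm × Option (Ti ⊕ W Tm Ti C)) → C) (d : C) : V Tm Ti C :=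
  if h : ∃ v : V Tm Ti C, dec v = g then (exists_min g h).choose else vdef d

theorem enc_spec {N : ℕ} {g : List (Tm × Option (Ti ⊕ W Tm Ti C)) → C} (d : C)
    (hg : ∀ p p', List.Forall₂ (ER N) p p' → g p = g p') :
    dec (enc g d) = g ∧ lev (enc g d) ≤ N + 1 := by
  obtain ⟨v, h1, h2⟩ := exists_dec N g hg
  have h : ∃ v : V Tm Ti C, dec v = g := ⟨v, h2⟩
  have hs := (exists_min g h).choose_spec
  unfold enc
  rw [dif_pos h]
  exact ⟨hs.1, (hs.2 v h2).trans h1⟩

end V

end Crest.Agent.R298.V40
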