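import Crest.Agent.R298.V1_40
import Crest.Agent.R298.Mem_360

/-!
R298 (S0452), helper40, vertical T, file 2: informations, evaluation on raw terms, the finite
rank lemma, faithfulness of packed arguments.
-/

set_option autoImplicit false

namespace Crest.Agent.R298.V40

open Crest.LogicCS.PTS
open Crest.Agent.R298.Sub452 Crest.Agent.R298.Mem360

/-- the modes of closed normal types -/
inductive Mode
  | irr | both | qu | ar | junk

/-- the data on which the evaluation depends -/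
structure Dat (S : Type) where
  nf : Term S → Term S
  mode : Term S → Mode
  R : Term S → Term S → Prop
  wf : WellFounded R
  leaf : S → Prop
  ty : Term S → Term S → Prop
  cst : Term S → Set (MT S) → Set (MT S)
  dom : Term S → Term S
  wt : Term S → Set (MT S)

variable {S : Type} (𝒟 : Dat S)

/-- values of types with both signs -/
abbrev UU (T : Term S) : Type := U 𝒟.wf (Set (MT S)) T

/-- all values of types with both signs -/
abbrev Ti : Type := Σ T : Term S, UU 𝒟 T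

/-- informations -/
inductive Inf
  | none | dflt
  | bo (t : Ti 𝒟)
  | ar (v : V (Term S) (Ti 𝒟) (Set (MT S)))
  | qu (w : W (Term S) (Ti 𝒟) (Set (MT S)))

/-- arguments: closed term, information -/
abbrev Arg : Type := Term S × Inf 𝒟

open Classical in
/-- restriction of an argument -/
noncomputable def toB (K : Term S) (x : Arg 𝒟) :
    Term S × Option (Σ T1 : {T1 // 𝒟.R T1 K}, UU 𝒟 T1.1) :=
  (x.1, match x.2 with
    | .bo t => if h : 𝒟.R t.1 K then some ⟨⟨t.1, h⟩, t.2⟩ else none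
    | _ => none)

/-- inclusion of arguments -/
def ofB (K : Term S) (y : Term S × Option (Σ T1 : {T1 // 𝒟.R T1 K}, UU 𝒟 T1.1)) : Arg 𝒟 :=
  (y.1, match y.2 with
    | none => .none
    | some u => .bo ⟨u.1.1, u.2⟩)

/-- restriction of an argument -/
def toQ (x : Arg 𝒟) : Term S × Option (Ti 𝒟 ⊕ V (Term S) (Ti 𝒟) (Set (MT S))) :=
  (x.1, match x.2 with
    | .bo t => some (.inl t)
    | .ar v => some (.inr v)
    | _ => none)

/-- inclusion of arguments -/
def ofQ (y : Term S × Option (Ti 𝒟 ⊕ V (Term S) (Ti 𝒟) (Set (MT S)))) : Arg 𝒟 :=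
  (y.1, match y.2 with
    | none => .none
    | some (.inl t) => .bo t
    | some (.inr v) => .ar v)

/-- restriction of an argument -/
def toA (x : Arg 𝒟) : Term S × Option (Ti 𝒟 ⊕ W (Term S) (Ti 𝒟) (Set (MT S))) :=
  (x.1, match x.2 with
    | .bo t => some (.inl t)
    | .qu w => some (.inr w)
    | _ => none)

/-- inclusion of arguments -/
def ofA (y : Term S × Option (Ti 𝒟 ⊕ W (Term S) (Ti 𝒟) (Set (MT S)))) : Arg 𝒟 :=
  (y.1, match y.2 with
    | none => .none
    | some (.inl t) => .bo t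
    | some (.inr w) => .qu w)

/-- application of an information to a list of arguments -/
noncomputable def ap (j : Inf 𝒟) (p : List (Arg 𝒟)) : Set (MT S) :=
  match j with
  | .none => ∅
  | .dflt => ∅
  | .bo t => unf 𝒟.wf (Set (MT S)) t.2 (p.map (toB 𝒟 t.1))
  | .ar v => dec v (p.map (toA 𝒟))
  | .qu w => w (p.map (toQ 𝒟))

/-- informations of the elements of a closed normal type -/
def IOk (K : Term S) (j : Inf 𝒟) : Prop :=
  match 𝒟.mode K with
  | .irr => j = .none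
  | .both => ∃ u : UU 𝒟 K, j = .bo ⟨K, u⟩
  | .qu => ∃ w, j = .qu w
  | .ar => ∃ v, j = .ar v
  | .junk => False

/-- informations ranged over by products -/
def IQ (K : Term S) (j : Inf 𝒟) : Prop :=
  match 𝒟.mode K with
  | .irr => j = .none
  | .both => ∃ u : UU 𝒟 K, j = .bo ⟨K, u⟩
  | .qu => ∃ w, j = .qu w
  | .ar => j = .dflt
  | .junk => j = .dflt

/-- complete argument lists of a closed normal type -/
def POk : List (Arg 𝒟) → Term S → Prop
  | [], K => ∃ s, K = .sort s ∧ 𝒟.leaf s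
  | x :: p, K => ∃ A B, K = .pi A B ∧ 𝒟.ty x.1 A ∧ IOk 𝒟 A x.2 ∧ POk p (𝒟.nf (inst x.1 B))

/-- iterated application -/
def apps (M : Term S) : List (Arg 𝒟) → Term S
  | [] => M
  | x :: p => apps (.app M x.1) p

open Classical in
/-- clamped value -/
noncomputable def val (K a : Term S) (f : List (Arg 𝒟) → Set (MT S)) (q : List (Arg 𝒟)) :
    Set (MT S) :=
  if POk 𝒟 q K then 𝒟.cst (𝒟.nf (apps 𝒟 a q)) (f q) else ∅

/-- the information of an argument of closed type `K` -/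
noncomputable def pack (K a : Term S) (f : List (Arg 𝒟) → Set (MT S)) : Inf 𝒟 :=
  match 𝒟.mode K with
  | .irr => .none
  | .junk => .dflt
  | .both => .bo ⟨K, fld 𝒟.wf (Set (MT S)) (fun q => val 𝒟 K a f (q.map (ofB 𝒟 K)))⟩
  | .qu => .qu (fun q => val 𝒟 K a f (q.map (ofQ 𝒟)))
  | .ar => .ar (enc (fun q => val 𝒟 K a f (q.map (ofA 𝒟))) ∅)

/-- extension of an environment -/
def acons (x : Arg 𝒟) (ρ : ℕ → Arg 𝒟) : ℕ → Arg 𝒟
  | 0 => x
  | k + 1 => ρ k

@[simp] theorem acons_zero (x : Arg 𝒟) (ρ : ℕ → Arg 𝒟) : acons 𝒟 x ρ 0 = x := rfl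
@[simp] theorem acons_succ (x : Arg 𝒟) (ρ : ℕ → Arg 𝒟) (k : ℕ) :
    acons 𝒟 x ρ (k + 1) = ρ k := rfl

/-- the closed instance of a term in an environment -/
def cl (ρ : ℕ → Arg 𝒟) (M : Term S) : Term S := sub (fun k => (ρ k).1) M

/-- the evaluation -/
noncomputable def ev : Term S → (ℕ → Arg 𝒟) → List (Arg 𝒟) → Set (MT S)
  | .var k => fun ρ p => ap 𝒟 (ρ k).2 p
  | .sort _ => fun _ _ => ∅
  | .app M N => fun ρ p =>
      ev M ρ ((𝒟.nf (cl 𝒟 ρ N), pack 𝒟 (𝒟.dom (cl 𝒟 ρ M)) (𝒟.nf (cl 𝒟 ρ N)) (ev N ρ)) :: p)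
  | .lam _ M => fun ρ p =>
      match p with
      | [] => ∅
      | x :: p => ev M (acons 𝒟 x ρ) p
  | .pi A B => fun ρ _ =>
      {v | v ∈ 𝒟.wt (𝒟.nf (cl 𝒟 ρ (.pi A B))) ∧
        ∀ w ∈ 𝒟.cst (𝒟.nf (cl 𝒟 ρ A)) (ev A ρ []), ∀ j, IQ 𝒟 (𝒟.nf (cl 𝒟 ρ A)) j →
          MT.app v w ∈ 𝒟.cst (𝒟.nf (cl 𝒟 (acons 𝒟 (𝒟.nf (MT.er w), j) ρ) B))
            (ev B (acons 𝒟 (𝒟.nf (MT.er w), j) ρ) [])}

/-- the argument `N` of a function of closed type with domain `K` -/
noncomputable def arg (K : Term S) (ρ : ℕ → Arg 𝒟) (N : Term S) : Arg 𝒟 :=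
  (𝒟.nf (cl 𝒟 ρ N), pack 𝒟 K (𝒟.nf (cl 𝒟 ρ N)) (ev 𝒟 N ρ))

@[simp] theorem ev_var (k : ℕ) (ρ : ℕ → Arg 𝒟) (p : List (Arg 𝒟)) :
    ev 𝒟 (.var k) ρ p = ap 𝒟 (ρ k).2 p := rfl
@[simp] theorem ev_sort (s : S) (ρ : ℕ → Arg 𝒟) (p : List (Arg 𝒟)) :
    ev 𝒟 (.sort s) ρ p = ∅ := rfl
theorem ev_app (M N : Term S) (ρ : ℕ → Arg 𝒟) (p : List (Arg 𝒟)) :
    ev 𝒟 (.app M N) ρ p = ev 𝒟 M ρ (arg 𝒟 (𝒟.dom (cl 𝒟 ρ M)) ρ N :: p) := rfl
@[simp] theorem ev_lam_nil (A M : Term S) (ρ : ℕ → Arg 𝒟) : ev 𝒟 (.lam A M) ρ [] = ∅ := rfl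
@[simp] theorem ev_lam_cons (A M : Term S) (ρ : ℕ → Arg 𝒟) (x : Arg 𝒟) (p : List (Arg 𝒟)) :
    ev 𝒟 (.lam A M) ρ (x :: p) = ev 𝒟 M (acons 𝒟 x ρ) p := rfl

/-- realizers of a source type -/
noncomputable def RR (T : Term S) (ρ : ℕ → Arg 𝒟) : Set (MT S) :=
  𝒟.cst (𝒟.nf (cl 𝒟 ρ T)) (ev 𝒟 T ρ [])

theorem ev_pi (A B : Term S) (ρ : ℕ → Arg 𝒟) (p : List (Arg 𝒟)) :
    ev 𝒟 (.pi A B) ρ p = {v | v ∈ 𝒟.wt (𝒟.nf (cl 𝒟 ρ (.pi A B))) ∧
      ∀ w ∈ RR 𝒟 A ρ, ∀ j, IQ 𝒟 (𝒟.nf (cl 𝒟 ρ A)) j →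
        MT.app v w ∈ RR 𝒟 B (acons 𝒟 (𝒟.nf (MT.er w), j) ρ)} := rfl

/-! ### the finite rank lemma -/

variable {𝒟}

/-- relation of arguments: `ar`-entries of rank at most `m`, `qu`-entries compared up to rank `N` -/
inductive AR (m N : ℕ) : Arg 𝒟 → Arg 𝒟 → Prop
  | none (a : Term S) : AR m N (a, .none) (a, .none)
  | dflt (a : Term S) : AR m N (a, .dflt) (a, .dflt)
  | bo (a : Term S) (t : Ti 𝒟) : AR m N (a, .bo t) (a, .bo t)
  | ar (a : Term S) (v : V (Term S) (Ti 𝒟) (Set (MT S))) : lev v ≤ m →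
      AR m N (a, .ar v) (a, .ar v)
  | qu (a : Term S) {w w' : W (Term S) (Ti 𝒟) (Set (MT S))} : WR N w w' →
      AR m N (a, .qu w) (a, .qu w')

theorem AR.fst {m N : ℕ} {x x' : Arg 𝒟} (h : AR m N x x') : x.1 = x'.1 := by
  cases h <;> rfl

theorem AR.mono {m m' N N' : ℕ} (hm : m ≤ m') (hN : N' ≤ N) {x x' : Arg 𝒟} (h : AR m N x x') :
    AR m' N' x x' := by
  cases h with
  | none a => exact .none a
  | dflt a => exact .dflt a
  | bo a t => exact .bo a t
  | ar a v h => exact .ar a v (h.trans hm)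
  | qu a h => exact .qu a (h.mono hN)

theorem AR.left {m N : ℕ} {x x' : Arg 𝒟} (h : AR m N x x') (N' : ℕ) : AR m N' x x := by
  cases h with
  | none a => exact .none a
  | dflt a => exact .dflt a
  | bo a t => exact .bo a t
  | ar a v h => exact .ar a v h
  | qu a h => exact .qu a (WR.refl _ _)

theorem AR.iok {m N : ℕ} {x x' : Arg 𝒟} (h : AR m N x x') (K : Term S) :
    IOk 𝒟 K x.2 ↔ IOk 𝒟 K x'.2 := by
  cases h with
  | qu a h => unfold IOk; cases 𝒟.mode K <;> simp
  | _ => rfl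

theorem AR.refl_of {m : ℕ} (N : ℕ) {x : Arg 𝒟} (h : ∀ v, x.2 = .ar v → lev v ≤ m) :
    AR m N x x := by
  obtain ⟨a, j⟩ := x
  cases j with
  | none => exact .none a
  | dflt => exact .dflt a
  | bo t => exact .bo a t
  | ar v => exact .ar a v (h v rfl)
  | qu w => exact .qu a (WR.refl _ _)

theorem forall₂_refl {α : Type} {r : α → α → Prop} : ∀ {l : List α}, (∀ x ∈ l, r x x) →
    List.Forall₂ r l l
  | [], _ => .nil
  | x :: l, h => .cons (h x (by simp)) (forall₂_refl (fun y hy => h y (by simp [hy])))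

theorem iq_refl {K : Term S} {j : Inf 𝒟} (h : IQ 𝒟 K j) (m N : ℕ) (a : Term S) :
    AR m N (a, j) (a, j) := by
  refine AR.refl_of N ?_
  rintro v rfl
  unfold IQ at h
  cases h' : 𝒟.mode K <;> simp [h'] at h

theorem pok_congr {m N : ℕ} {p p' : List (Arg 𝒟)} (h : List.Forall₂ (AR m N) p p') :
    ∀ K, POk 𝒟 p K ↔ POk 𝒟 p' K := by
  induction h with
  | nil => intro K; rfl
  | cons h _ ih =>
      intro K
      simp only [POk]
      have h1 := h.fst
      rw [← h1]
      constructor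
      · rintro ⟨A, B, e, h2, h3, h4⟩
        exact ⟨A, B, e, h2, (h.iok A).1 h3, (ih _).1 h4⟩
      · rintro ⟨A, B, e, h2, h3, h4⟩
        exact ⟨A, B, e, h2, (h.iok A).2 h3, (ih _).2 h4⟩

theorem apps_congr {m N : ℕ} {p p' : List (Arg 𝒟)} (h : List.Forall₂ (AR m N) p p') :
    ∀ M, apps 𝒟 M p = apps 𝒟 M p' := by
  induction h with
  | nil => intro K; rfl
  | cons h _ ih =>
      intro M
      simp only [apps, h.fst, ih]

theorem val_congr {m N : ℕ} {K a : Term S} {f f' : List (Arg 𝒟) → Set (MT S)}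
    {p p' : List (Arg 𝒟)} (h : List.Forall₂ (AR m N) p p') (hf : f p = f' p') :
    val 𝒟 K a f p = val 𝒟 K a f' p' := by
  unfold val
  rw [apps_congr h, hf]
  by_cases h' : POk 𝒟 p K
  · rw [if_pos h', if_pos ((pok_congr h K).1 h')]
  · rw [if_neg h', if_neg (fun h'' => h' ((pok_congr h K).2 h''))]

theorem map_toB_congr {m N : ℕ} {p p' : List (Arg 𝒟)} (h : List.Forall₂ (AR m N) p p')
    (K : Term S) : p.map (toB 𝒟 K) = p'.map (toB 𝒟 K) := by
  induction h with
  | nil => rfl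
  | cons h _ ih =>
      rw [List.map_cons, List.map_cons, ih]
      congr 1
      cases h <;> rfl

theorem map_toQ_congr {m N : ℕ} {p p' : List (Arg 𝒟)} (h : List.Forall₂ (AR m N) p p') :
    p.map (toQ 𝒟) = p'.map (toQ 𝒟) := by
  induction h with
  | nil => rfl
  | cons h _ ih =>
      rw [List.map_cons, List.map_cons, ih]
      congr 1
      cases h <;> rfl

theorem map_toQ_lev {m N : ℕ} {p p' : List (Arg 𝒟)} (h : List.Forall₂ (AR m N) p p') :
    ∀ x ∈ p.map (toQ 𝒟), ∀ v, x.2 = some (.inr v) → lev v ≤ m := by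
  induction h with
  | nil => intro x hx; simp at hx
  | cons h _ ih =>
      intro x hx v hv
      rw [List.map_cons, List.mem_cons] at hx
      rcases hx with rfl | hx
      · cases h with
        | ar a v' h =>
            simp only [toQ, Option.some.injEq, Sum.inr.injEq] at hv
            exact hv ▸ h
        | _ => simp [toQ] at hv
      · exact ih x hx v hv

theorem map_toA_congr {m N : ℕ} {p p' : List (Arg 𝒟)} (h : List.Forall₂ (AR m N) p p') :
    List.Forall₂ (ER N) (p.map (toA 𝒟)) (p'.map (toA 𝒟)) := by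
  induction h with
  | nil => exact .nil
  | cons h _ ih =>
      rw [List.map_cons, List.map_cons]
      refine .cons ?_ ih
      cases h with
      | none a => exact .none a
      | dflt a => exact .none a
      | bo a t => exact .inl a t
      | ar a v h => exact .none a
      | qu a h => exact .inr a h

theorem map_ofB_refl (m N : ℕ) (K : Term S)
    (q : List (Term S × Option (Σ T1 : {T1 // 𝒟.R T1 K}, UU 𝒟 T1.1))) :
    List.Forall₂ (AR m N) (q.map (ofB 𝒟 K)) (q.map (ofB 𝒟 K)) := by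
  refine forall₂_refl fun x hx => ?_
  obtain ⟨y, _, rfl⟩ := List.mem_map.1 hx
  obtain ⟨a, e⟩ := y
  cases e with
  | none => exact .none a
  | some e => exact .bo a _

theorem map_ofQ_refl {m : ℕ} (N : ℕ)
    {q : List (Term S × Option (Ti 𝒟 ⊕ V (Term S) (Ti 𝒟) (Set (MT S))))}
    (h : ∀ x ∈ q, ∀ v, x.2 = some (.inr v) → lev v ≤ m) :
    List.Forall₂ (AR m N) (q.map (ofQ 𝒟)) (q.map (ofQ 𝒟)) := by
  refine forall₂_refl fun x hx => ?_
  obtain ⟨y, hy, rfl⟩ := List.mem_map.1 hx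
  obtain ⟨a, e⟩ := y
  rcases e with _ | e | v
  · exact .none a
  · exact .bo a _
  · exact .ar a v (h _ hy v rfl)

theorem map_ofA_congr (m : ℕ) {N : ℕ}
    {q q' : List (Term S × Option (Ti 𝒟 ⊕ W (Term S) (Ti 𝒟) (Set (MT S))))}
    (h : List.Forall₂ (ER N) q q') :
    List.Forall₂ (AR m N) (q.map (ofA 𝒟)) (q'.map (ofA 𝒟)) := by
  induction h with
  | nil => exact .nil
  | cons h _ ih =>
      rw [List.map_cons, List.map_cons]
      refine .cons ?_ ih
      cases h with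
      | none a => exact .none a
      | inl a t => exact .bo a t
      | inr a h => exact .qu a h

theorem er_refl (N : ℕ) (q : List (Term S × Option (Ti 𝒟 ⊕ W (Term S) (Ti 𝒟) (Set (MT S))))) :
    List.Forall₂ (ER N) q q := by
  refine forall₂_refl fun x _ => ?_
  obtain ⟨a, e⟩ := x
  rcases e with _ | e | w
  · exact .none a
  · exact .inl a e
  · exact .inr a (WR.refl _ _)

theorem ap_congr {m N : ℕ} (hm : m ≤ N) {x x' : Arg 𝒟} (h : AR m N x x') {p p' : List (Arg 𝒟)}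
    (hp : List.Forall₂ (AR m N) p p') : ap 𝒟 x.2 p = ap 𝒟 x'.2 p' := by
  cases h with
  | none a => rfl
  | dflt a => rfl
  | bo a t => simp only [ap, map_toB_congr hp]
  | ar a v h => exact dec_congr (h.trans hm) (map_toA_congr hp)
  | @qu a w w' h =>
      simp only [ap]
      rw [← map_toQ_congr hp]
      exact h _ (fun x hx v hv => (map_toQ_lev hp x hx v hv).trans hm)

/-- **the finite rank lemma**, for all raw terms -/
theorem rank (M : Term S) : ∀ m : ℕ, ∃ N : ℕ, ∀ (ρ ρ' : ℕ → Arg 𝒟) (p p' : List (Arg 𝒟)),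
    (∀ k, AR m N (ρ k) (ρ' k)) → List.Forall₂ (AR m N) p p' → ev 𝒟 M ρ p = ev 𝒟 M ρ' p' := by
  have hcl : ∀ {m N : ℕ} {ρ ρ' : ℕ → Arg 𝒟}, (∀ k, AR m N (ρ k) (ρ' k)) → ∀ M,
      cl 𝒟 ρ M = cl 𝒟 ρ' M := by
    intro m N ρ ρ' h M
    unfold cl
    congr 1
    funext k
    exact (h k).fst
  have hcons : ∀ {m N : ℕ} {ρ ρ' : ℕ → Arg 𝒟} {x x' : Arg 𝒟}, (∀ k, AR m N (ρ k) (ρ' k)) →
      AR m N x x' → ∀ k, AR m N (acons 𝒟 x ρ k) (acons 𝒟 x' ρ' k) := by
    intro m N ρ ρ' x x' h hx k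
    cases k with
    | zero => exact hx
    | succ k => exact h k
  induction M with
  | var k =>
      intro m
      exact ⟨m, fun ρ ρ' p p' h hp => ap_congr (le_refl _) (h k) hp⟩
  | sort s => intro m; exact ⟨0, fun _ _ _ _ _ _ => rfl⟩
  | lam A M _ ih =>
      intro m
      obtain ⟨N, hN⟩ := ih m
      refine ⟨N, fun ρ ρ' p p' h hp => ?_⟩
      cases hp with
      | nil => rfl
      | cons hx hp => exact hN _ _ _ _ (hcons h hx) hp
  | pi A B ihA ihB =>
      intro m
      obtain ⟨N1, h1⟩ := ihA m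
      obtain ⟨N2, h2⟩ := ihB m
      refine ⟨max N1 N2, fun ρ ρ' p p' h hp => ?_⟩
      have hA : RR 𝒟 A ρ = RR 𝒟 A ρ' := by
        unfold RR
        rw [hcl h, h1 ρ ρ' [] [] (fun k => (h k).mono (le_refl _) (le_max_left _ _)) .nil]
      have hB : ∀ a j, IQ 𝒟 (𝒟.nf (cl 𝒟 ρ A)) j →
          RR 𝒟 B (acons 𝒟 (a, j) ρ) = RR 𝒟 B (acons 𝒟 (a, j) ρ') := by
        intro a j hj
        have h3 := hcons h (iq_refl hj m (max N1 N2) a)
        unfold RR
        rw [hcl h3, h2 _ _ [] [] (fun k => (h3 k).mono (le_refl _) (le_max_right _ _)) .nil]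
      rw [ev_pi, ev_pi, ← hA, ← hcl h A, ← hcl h (.pi A B)]
      ext v
      simp only [Set.mem_ofPred_eq]
      refine and_congr_right fun _ => forall_congr' fun w => forall_congr' fun _ =>
        forall_congr' fun j => forall_congr' fun hj => ?_
      rw [hB _ j hj]
  | app M N ihM ihN =>
      intro m
      obtain ⟨n1, h1⟩ := ihN m
      obtain ⟨n2, h2⟩ := ihM (max m (n1 + 1))
      obtain ⟨n3, h3⟩ := ihN (max m n2)
      refine ⟨max n1 (max n2 n3), fun ρ ρ' p p' h hp => ?_⟩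
      have le1 : n1 ≤ max n1 (max n2 n3) := le_max_left _ _
      have le2 : n2 ≤ max n1 (max n2 n3) := (le_max_left _ _).trans (le_max_right _ _)
      have le3 : n3 ≤ max n1 (max n2 n3) := (le_max_right _ _).trans (le_max_right _ _)
      rw [ev_app, ev_app]
      refine h2 _ _ _ _ (fun k => (h k).mono (le_max_left _ _) le2) (.cons ?_ ?_)
      · unfold arg
        rw [hcl h N, hcl h M]
        generalize 𝒟.nf (cl 𝒟 ρ' N) = a
        generalize 𝒟.dom (cl 𝒟 ρ' M) = K
        have hr1 : ∀ k, AR m n1 (ρ k) (ρ' k) := fun k => (h k).mono (le_refl _) le1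
        unfold pack
        cases hK : 𝒟.mode K with
        | irr => exact .none a
        | junk => exact .dflt a
        | both =>
            have : (fun q => val 𝒟 K a (ev 𝒟 N ρ) (List.map (ofB 𝒟 K) q)) =
                fun q => val 𝒟 K a (ev 𝒟 N ρ') (List.map (ofB 𝒟 K) q) := by
              funext q
              have hq := map_ofB_refl (𝒟 := 𝒟) m n1 K q
              exact val_congr hq (h1 _ _ _ _ hr1 hq)
            simp only [this]
            exact .bo a _
        | qu =>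
            refine .qu a ?_
            intro l hl
            have hq := map_ofQ_refl (𝒟 := 𝒟) (m := max m n2) n3
              (fun x hx v hv => (hl x hx v hv).trans (le_max_right m n2))
            exact val_congr hq (h3 _ _ _ _
              (fun k => (h k).mono (le_max_left _ _) le3) hq)
        | ar =>
            have : (fun q => val 𝒟 K a (ev 𝒟 N ρ) (List.map (ofA 𝒟) q)) =
                fun q => val 𝒟 K a (ev 𝒟 N ρ') (List.map (ofA 𝒟) q) := by
              funext q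
              have hq := map_ofA_congr m (er_refl (𝒟 := 𝒟) n1 q)
              exact val_congr hq (h1 _ _ _ _ hr1 hq)
            simp only [this]
            refine .ar a _ ?_
            refine ((enc_spec (N := n1) ∅ ?_).2).trans (le_max_right _ _)
            intro q q' hq
            have hq' := map_ofA_congr m hq
            rw [← congrFun this q, ← congrFun this q']
            exact val_congr hq' (h1 _ _ _ _ (fun k => (h k).left n1) hq')
      · exact hp.imp (fun x y hxy => hxy.mono (le_max_left _ _) le2)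

/-- bounded environments -/
def Bdd (ρ : ℕ → Arg 𝒟) : Prop := ∃ m : ℕ, ∀ k v, (ρ k).2 = .ar v → lev v ≤ m

theorem Bdd.cons {ρ : ℕ → Arg 𝒟} (h : Bdd ρ) (x : Arg 𝒟) : Bdd (acons 𝒟 x ρ) := by
  obtain ⟨m, h⟩ := h
  obtain ⟨n, hn⟩ : ∃ n, ∀ v, x.2 = .ar v → lev v ≤ n := by
    cases hx : x.2 with
    | ar v => exact ⟨lev v, fun v' h' => by injection h' with h'; rw [h']⟩
    | _ => exact ⟨0, fun v h => by cases h⟩
  refine ⟨max m n, ?_⟩
  intro k v hv
  cases k with
  | zero => exact (hn v hv).trans (le_max_right _ _)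
  | succ k => exact (h k v hv).trans (le_max_left _ _)

/-- the packed value of an open term in a bounded environment has a code -/
theorem dec_pack {ρ : ℕ → Arg 𝒟} (hρ : Bdd ρ) (K a M : Term S) :
    dec (enc (fun q => val 𝒟 K a (ev 𝒟 M ρ) (List.map (ofA 𝒟) q)) ∅) =
      fun q => val 𝒟 K a (ev 𝒟 M ρ) (List.map (ofA 𝒟) q) := by
  obtain ⟨m, hm⟩ := hρ
  obtain ⟨N, hN⟩ := rank M m
  refine (enc_spec (N := N) ∅ ?_).1
  intro q q' hq
  have hq' := map_ofA_congr (𝒟 := 𝒟) m hq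
  exact val_congr hq' (hN _ _ _ _ (fun k => AR.refl_of N (hm k)) hq')

end Crest.Agent.R298.V40
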