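import Crest.Agent.R298.V2_40
import Crest.Agent.R298.Fl2_113
import Crest.Agent.R298.TyMF_452
import Crest.Agent.R298.Uniq_452

/-!
R298 (S0452), helper40, vertical T, file 3: the data of a stage (normal forms, modes from the
signs of the sorts, the well-founded relation on types with both signs), closure laws, and
faithfulness of packed arguments.
-/

set_option autoImplicit false

namespace Crest.Agent.R298.V40

open Crest.LogicCS.PTS Crest.LogicCS.PTS.Term Relation
open Crest.Agent.R298.Sub452 Crest.Agent.R298.Par452 Crest.Agent.R298.Ty452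
open Crest.Agent.R298.TyF452 Crest.Agent.R298.Uniq452 Crest.Agent.R298.Mem360
open Crest.Agent.R298.Fl113 (Rl Tame Cs RelS Rd)

/-! ### normal forms -/

section nf

variable {S : Type}

open Classical in
/-- a normal form of `M`, if there is one -/
noncomputable def nf (M : Term S) : Term S :=
  if h : ∃ N, Red M N ∧ Normal N then h.choose else M

theorem red_nf (M : Term S) : Red M (nf M) := by
  unfold nf
  split
  · next h => exact h.choose_spec.1
  · exact .refl

theorem nf_normal {M : Term S} (h : WN M) : Normal (nf M) := by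
  have h' : ∃ N, Red M N ∧ Normal N := h
  unfold nf
  rw [dif_pos h']
  exact h'.choose_spec.2

theorem nf_beq (M : Term S) : BetaEq M (nf M) := (red_nf M).eq

theorem wn_of_beq {M N : Term S} (e : BetaEq M N) (h : WN M) : WN N := by
  obtain ⟨M', r, n⟩ := h
  exact ⟨M', red_of_eq_normal (BetaEq.trans (BetaEq.symm e) (Red.eq r)) n, n⟩

theorem nf_eq {M N : Term S} (e : BetaEq M N) (h : WN M) : nf M = nf N :=
  normal_unique (BetaEq.trans (BetaEq.symm (nf_beq M)) (BetaEq.trans e (nf_beq N)))
    (nf_normal h) (nf_normal (wn_of_beq e h))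

theorem nf_of_normal {M : Term S} (h : Normal M) : nf M = M := normal_red h (red_nf M)

theorem normal_pi {A B : Term S} (h : Normal (pi A B)) : Normal A ∧ Normal B :=
  ⟨fun _ b => h _ (.piA _ b), fun _ b => h _ (.piB _ b)⟩

theorem pi_normal {A B : Term S} (hA : Normal A) (hB : Normal B) : Normal (pi A B) := by
  intro N b
  cases b with
  | piA _ b => exact hA _ b
  | piB _ b => exact hB _ b

theorem sort_normal (s : S) : Normal (sort s) := by
  intro N b; cases b

theorem wn_pi {A B : Term S} (hA : WN A) (hB : WN B) : WN (pi A B) :=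
  ⟨pi (nf A) (nf B), Red.pi (red_nf A) (red_nf B), pi_normal (nf_normal hA) (nf_normal hB)⟩

theorem nf_pi {A B : Term S} (hA : WN A) (hB : WN B) : nf (pi A B) = pi (nf A) (nf B) :=
  normal_unique (BetaEq.trans (BetaEq.symm (nf_beq _)) (Red.pi (red_nf A) (red_nf B)).eq)
    (nf_normal (wn_pi hA hB)) (pi_normal (nf_normal hA) (nf_normal hB))

theorem nf_sort (s : S) : nf (sort s) = sort s := nf_of_normal (sort_normal s)

end nf

/-! ### the data of a stage -/

section stage

variable {S : Type} (P : Spec S) (idx : S → ℕ) (i : ℕ) (W : ℕ → Term S)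

/-- hypotheses of a stage -/
structure Hyp : Prop where
  fin : _root_.Finite S
  good : Good P W
  hP : ∀ (Γ : List (Term S)) (M : Term S), Legal P Γ M → WN M
  left : ∀ a b c, P.rule a b c → idx c ≤ idx a
  right : ∀ a b c, P.rule a b c → idx c ≤ idx b
  nofat : ¬ Fl113.Fat P {x | idx x = i}

/-- signs of closed types -/
def SgT (e : Bool) (K : Term S) : Prop :=
  ∃ t, TyF P W K (.sort t) ∧ Fl113.Sg P {x | idx x = i} t e

open Classical in
/-- modes of closed types -/
noncomputable def md (K : Term S) : Mode :=
  if Rl P {x | idx x = i} W K then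
    if SgT P idx i W true K then
      if SgT P idx i W false K then .both else .qu
    else
      if SgT P idx i W false K then .ar else .junk
  else .irr

/-- codomain instances of normal types -/
def CsN (T T' : Term S) : Prop :=
  ∃ A B a, T = pi A B ∧ Normal a ∧ TyF P W a A ∧ T' = nf (inst a B)

/-- relevant domains of codomain instances -/
def R0 (T1 T : Term S) : Prop :=
  ∃ B, ReflTransGen (CsN P W) T (pi T1 B) ∧ Rl P {x | idx x = i} W (pi T1 B) ∧
    Rl P {x | idx x = i} W T1

/-- `R0` restricted to accessible types -/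
def R1 (T1 T : Term S) : Prop := R0 P idx i W T1 T ∧ Acc (R0 P idx i W) T

theorem R1_wf : WellFounded (R1 P idx i W) := by
  have h : ∀ T, Acc (R0 P idx i W) T → Acc (R1 P idx i W) T := by
    intro T hT
    induction hT with
    | intro T _ ih => exact .intro T fun T1 h1 => ih T1 h1.1
  refine ⟨fun T => .intro T fun T1 h1 => ?_⟩
  exact h T1 (h1.2.inv h1.1)

open Classical in
/-- the domain of the types of a closed term -/
noncomputable def dm (F : Term S) : Term S :=
  if h : ∃ A B, TyF P W F (pi A B) then nf h.choose else F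

/-- the types of the elements of a closed type are in normal form -/
def tyN (a A : Term S) : Prop := Normal a ∧ TyF P W a A

/-- types with a sort above the stage -/
def High (T : Term S) : Prop := ∃ s, TyF P W T (.sort s) ∧ i < idx s

/-- types of class exactly `i` -/
def St (T : Term S) : Prop := (∃ s, TyF P W T (.sort s) ∧ idx s = i) ∧ ¬ High P idx i W T

/-- what is needed about the clamp -/
structure CstOk (cst : Term S → Set (MT S) → Set (MT S)) : Prop where
  idem : ∀ T X, cst T (cst T X) = cst T X
  const : ∀ T X Y, ¬ St P idx i W T → cst T X = cst T Y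
  typed : ∀ T X v, v ∈ cst T X → TyF P W (MT.er v) T

/-- the data of the stage -/
noncomputable def dat (cst : Term S → Set (MT S) → Set (MT S)) (wt : Term S → Set (MT S)) :
    Dat S where
  nf := nf
  mode := md P idx i W
  R := R1 P idx i W
  wf := R1_wf P idx i W
  leaf := fun s => idx s = i
  ty := tyN P W
  cst := cst
  dom := dm P W
  wt := wt

end stage

section laws

variable {S : Type} {P : Spec S} {idx : S → ℕ} {i : ℕ} {W : ℕ → Term S}

theorem Hyp.wn (H : Hyp P idx i W) {G : ℕ → Term S} (g : Good P G) {M A : Term S}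
    (h : TyF P G M A) : WN M ∧ WN A := g.wn H.hP h

theorem SgT.dom (w : WfF P W) {A B : Term S} {e : Bool} (h : SgT P idx i W e (pi A B))
    (hr : Rl P {x | idx x = i} W (pi A B)) (hA : Rl P {x | idx x = i} W A) :
    SgT P idx i W (!e) A := by
  obtain ⟨t, ht, hs⟩ := h
  obtain ⟨a, b, c, h1, h2, r, e'⟩ := fgen_pi ht _ _ rfl
  have := sort_inj e'
  subst this
  exact ⟨a, h1, .dom r (hA.relS w h1) (hr.relS_cod w h1 h2) hs⟩

theorem SgT.cod (w : WfF P W) {A B a : Term S} {e : Bool} (h : SgT P idx i W e (pi A B))
    (ha : TyF P W a A) (hB : Rl P {x | idx x = i} W (nf (inst a B))) :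
    SgT P idx i W e (nf (inst a B)) := by
  obtain ⟨t, ht, hs⟩ := h
  obtain ⟨a', b, c, h1, h2, r, e'⟩ := fgen_pi ht _ _ rfl
  have := sort_inj e'
  subst this
  have h3 := FSR w (tyf_inst w h2 ha) (red_nf _)
  exact ⟨b, h3, .cod r (hB.relS w h3) hs⟩

/-- types bound by products of the stage have sign `true` -/
theorem SgT.base (w : WfF P W) {A : Term S} {a b c : S} (r : P.rule a b c) (hb : idx b = i)
    (hc : idx c = i) (hA : TyF P W A (.sort a)) (hr : Rl P {x | idx x = i} W A) :
    SgT P idx i W true A :=
  ⟨a, hA, .base r hb hc (hr.relS w hA)⟩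

theorem SgT.conv (w : WfF P W) {A A' : Term S} {e : Bool} (h : SgT P idx i W e A)
    (r : Red A A') : SgT P idx i W e A' := by
  obtain ⟨t, ht, hs⟩ := h
  exact ⟨t, FSR w ht r, hs⟩

theorem md_irr {K : Term S} (h : ¬ Rl P {x | idx x = i} W K) : md P idx i W K = .irr := by
  unfold md; rw [if_neg h]

theorem md_sg {K : Term S} (h : Rl P {x | idx x = i} W K) (e : Bool)
    (hs : SgT P idx i W e K) : md P idx i W K ≠ .junk ∧ md P idx i W K ≠ .irr := by
  unfold md
  rw [if_pos h]
  cases e
  · split <;> simp
  · rw [if_pos hs]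
    split <;> simp

theorem md_both {K : Term S} (h : Rl P {x | idx x = i} W K) (h1 : SgT P idx i W true K)
    (h2 : SgT P idx i W false K) : md P idx i W K = .both := by
  unfold md
  rw [if_pos h, if_pos h1, if_pos h2]

theorem md_both_inv {K : Term S} (h : md P idx i W K = .both) :
    Rl P {x | idx x = i} W K ∧ SgT P idx i W true K ∧ SgT P idx i W false K := by
  unfold md at h
  split at h
  · next hr =>
      split at h
      · next h1 =>
          split at h
          · next h2 => exact ⟨hr, h1, h2⟩
          · cases h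
      · split at h <;> cases h
  · cases h

theorem md_qu_inv {K : Term S} (h : md P idx i W K = .qu) :
    Rl P {x | idx x = i} W K ∧ SgT P idx i W true K := by
  unfold md at h
  split at h
  · next hr =>
      split at h
      · next h1 => exact ⟨hr, h1⟩
      · split at h <;> cases h
  · cases h

theorem md_ar_inv {K : Term S} (h : md P idx i W K = .ar) :
    Rl P {x | idx x = i} W K ∧ SgT P idx i W false K := by
  unfold md at h
  split at h
  · next hr =>
      split at h
      · split at h <;> cases h
      · split at h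
        · next h1 => exact ⟨hr, h1⟩
        · cases h
  · cases h

/-- relevant signed types: the possible modes -/
theorem md_true {K : Term S} (h : Rl P {x | idx x = i} W K) (h1 : SgT P idx i W true K) :
    md P idx i W K = .both ∨ md P idx i W K = .qu := by
  unfold md
  rw [if_pos h, if_pos h1]
  split
  · exact .inl rfl
  · exact .inr rfl

theorem md_false {K : Term S} (h : Rl P {x | idx x = i} W K) (h1 : SgT P idx i W false K) :
    md P idx i W K = .both ∨ md P idx i W K = .ar := by
  unfold md
  rw [if_pos h]
  split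
  · exact .inl rfl
  · exact .inr rfl

/-- a signed mode -/
theorem md_signed {K : Term S} (h : md P idx i W K ≠ .junk) (h' : md P idx i W K ≠ .irr) :
    ∃ e, SgT P idx i W e K := by
  cases hm : md P idx i W K with
  | irr => exact (h' hm).elim
  | junk => exact (h hm).elim
  | both => exact ⟨true, (md_both_inv hm).2.1⟩
  | qu => exact ⟨true, (md_qu_inv hm).2⟩
  | ar => exact ⟨false, (md_ar_inv hm).2⟩

/-! ### accessibility -/

theorem csn_cs {T T' : Term S} (h : ReflTransGen (CsN P W) T T') :
    ∃ T'', ReflTransGen (Cs P W) T T'' ∧ Red T'' T' := by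
  induction h with
  | refl => exact ⟨T, .refl, .refl⟩
  | tail _ h ih =>
      obtain ⟨T'', h1, h2⟩ := ih
      obtain ⟨A, B, a, rfl, _, h4, rfl⟩ := h
      exact ⟨inst a B, h1.tail ⟨A, B, a, h2, h4, rfl⟩, red_nf _⟩

theorem acc_of_tame {T : Term S} (h : Tame P {x | idx x = i} W T) :
    Acc (R0 P idx i W) T := by
  induction h with
  | mk _ ih =>
      refine .intro _ fun T1 h1 => ?_
      obtain ⟨B, h2, h3, h4⟩ := h1
      obtain ⟨T'', h5, h6⟩ := csn_cs h2
      exact ih T'' T1 B h5 h6 h3 h4

theorem Hyp.acc (H : Hyp P idx i W) {K : Term S} (h : md P idx i W K = .both) :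
    Acc (R0 P idx i W) K := by
  obtain ⟨_, ⟨t, h1, h2⟩, ⟨t', h3, h4⟩⟩ := md_both_inv h
  have := H.fin
  refine acc_of_tame (Fl113.theoremF H.good.wf (fun T t hT => ?_) H.nofat h1 h3 h2 h4)
  exact (H.wn H.good hT).1

/-! ### complete paths -/

variable {cst : Term S → Set (MT S) → Set (MT S)} {wt : Term S → Set (MT S)}

theorem pok_rl {p : List (Arg (dat P idx i W cst wt))} : ∀ {K : Term S},
    POk (dat P idx i W cst wt) p K → Rl P {x | idx x = i} W K := by
  induction p with
  | nil =>
      rintro K ⟨s, rfl, hs⟩
      exact .leaf .refl hs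
  | cons x p ih =>
      rintro K ⟨A, B, rfl, hx, _, hp⟩
      exact .step ⟨A, B, x.1, .refl, hx.2, rfl⟩ ((ih hp).of_red (red_nf _))

theorem pok_irr {K : Term S} (h : md P idx i W K = .irr)
    {p : List (Arg (dat P idx i W cst wt))} (hp : POk (dat P idx i W cst wt) p K) : False := by
  have := pok_rl hp
  unfold md at h
  rw [if_pos this] at h
  split at h <;> split at h <;> cases h

theorem iok_cases {K : Term S} {j : Inf (dat P idx i W cst wt)}
    (h : IOk (dat P idx i W cst wt) K j) :
    (md P idx i W K = .irr ∧ j = .none) ∨ (md P idx i W K = .both ∧ ∃ u, j = .bo ⟨K, u⟩) ∨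
    (md P idx i W K = .qu ∧ ∃ w, j = .qu w) ∨ (md P idx i W K = .ar ∧ ∃ v, j = .ar v) := by
  unfold IOk at h
  change (match md P idx i W K with
    | .irr => j = .none
    | .both => ∃ u, j = .bo ⟨K, u⟩
    | .qu => ∃ w, j = .qu w
    | .ar => ∃ v, j = .ar v
    | .junk => False) at h
  cases hm : md P idx i W K with
  | irr => rw [hm] at h; exact .inl ⟨rfl, h⟩
  | both => rw [hm] at h; exact .inr (.inl ⟨rfl, h⟩)
  | qu => rw [hm] at h; exact .inr (.inr (.inl ⟨rfl, h⟩))
  | ar => rw [hm] at h; exact .inr (.inr (.inr ⟨rfl, h⟩))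
  | junk => rw [hm] at h; exact h.elim

/-- entries of the paths of types with both signs -/
theorem pok_both (H : Hyp P idx i W) {p : List (Arg (dat P idx i W cst wt))} :
    ∀ {K : Term S}, POk (dat P idx i W cst wt) p K → md P idx i W K = .both →
      ∀ x ∈ p, x.2 = .none ∨ ∃ T1 u, x.2 = .bo ⟨T1, u⟩ ∧ R1 P idx i W T1 K := by
  induction p with
  | nil => intro K _ _ x hx; simp at hx
  | cons y p ih =>
      rintro K ⟨A, B, rfl, hy, hj, hp⟩ hm x hx
      obtain ⟨hr, s1, s2⟩ := md_both_inv hm
      have w := H.good.wf
      rcases List.mem_cons.1 hx with rfl | hx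
      · by_cases hA : Rl P {x | idx x = i} W A
        · have hA' := md_both hA (s2.dom w hr hA) (s1.dom w hr hA)
          rcases iok_cases hj with h | h | h | h
          · exact .inl h.2
          · obtain ⟨_, u, h⟩ := h
            refine .inr ⟨A, u, h, ⟨B, .refl, hr, hA⟩, H.acc hm⟩
          · rw [hA'] at h; cases h.1
          · rw [hA'] at h; cases h.1
        · rcases iok_cases hj with h | h | h | h
          · exact .inl h.2
          all_goals rw [md_irr hA] at h; cases h.1
      · have hB := pok_rl hp
        rcases ih hp (md_both hB (s1.cod w hy.2 hB) (s2.cod w hy.2 hB)) x hx with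
          h | ⟨T1, u, h, h'⟩
        · exact .inl h
        · refine .inr ⟨T1, u, h, ?_, H.acc hm⟩
          obtain ⟨⟨C, h1, h2, h3⟩, _⟩ := h'
          exact ⟨C, .head ⟨A, B, y.1, rfl, hy.1, hy.2, rfl⟩ h1, h2, h3⟩

/-- entries of the paths of types with a given sign -/
theorem pok_sg (H : Hyp P idx i W) {p : List (Arg (dat P idx i W cst wt))} :
    ∀ {K : Term S} {e : Bool}, POk (dat P idx i W cst wt) p K → SgT P idx i W e K →
      ∀ x ∈ p, x.2 = .none ∨ (∃ t, x.2 = .bo t) ∨
        ((e = true ∧ ∃ v, x.2 = .ar v) ∨ (e = false ∧ ∃ w, x.2 = .qu w)) := by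
  induction p with
  | nil => intro K e _ _ x hx; simp at hx
  | cons y p ih =>
      rintro K e ⟨A, B, rfl, hy, hj, hp⟩ hs x hx
      have w := H.good.wf
      have hr : Rl P {x | idx x = i} W (pi A B) :=
        .step ⟨A, B, y.1, .refl, hy.2, rfl⟩ ((pok_rl hp).of_red (red_nf _))
      rcases List.mem_cons.1 hx with rfl | hx
      · rcases iok_cases hj with h | h | h | h
        · exact .inl h.2
        · obtain ⟨_, u, h⟩ := h
          exact .inr (.inl ⟨_, h⟩)
        · cases e with
          | true =>
              have hA := (md_qu_inv h.1).1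
              have h1 := hs.dom w hr hA
              rcases md_false hA h1 with h2 | h2
              · rw [h2] at h; cases h.1
              · rw [h2] at h; cases h.1
          | false => exact .inr (.inr (.inr ⟨rfl, h.2⟩))
        · cases e with
          | true => exact .inr (.inr (.inl ⟨rfl, h.2⟩))
          | false =>
              have hA := (md_ar_inv h.1).1
              have h1 := hs.dom w hr hA
              rcases md_true hA h1 with h2 | h2
              · rw [h2] at h; cases h.1
              · rw [h2] at h; cases h.1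
      · exact ih hp (hs.cod w hy.2 (pok_rl hp)) x hx

theorem map_map_id {α β : Type} {f : α → β} {g : β → α} : ∀ {p : List α},
    (∀ x ∈ p, g (f x) = x) → (p.map f).map g = p
  | [], _ => rfl
  | x :: p, h => by
      rw [List.map_cons, List.map_cons, h x (by simp),
        map_map_id (fun y hy => h y (by simp [hy]))]

/-- **faithfulness** of packed arguments -/
theorem ap_pack (H : Hyp P idx i W) {ρ : ℕ → Arg (dat P idx i W cst wt)} (hρ : Bdd ρ)
    {K a M : Term S} {p : List (Arg (dat P idx i W cst wt))}
    (hp : POk (dat P idx i W cst wt) p K) (hm : md P idx i W K ≠ .junk) :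
    ap _ (pack _ K a (ev _ M ρ)) p = cst (nf (apps _ a p)) (ev _ M ρ p) := by
  have hval : val (dat P idx i W cst wt) K a (ev _ M ρ) p =
      cst (nf (apps _ a p)) (ev _ M ρ p) := by
    unfold val
    rw [if_pos hp]
    rfl
  rw [← hval]
  unfold pack
  change ap _ (match md P idx i W K with
    | .irr => .none
    | .junk => .dflt
    | .both => .bo ⟨K, fld _ (Set (MT S)) (fun q => val _ K a (ev _ M ρ) (q.map (ofB _ K)))⟩
    | .qu => .qu (fun q => val _ K a (ev _ M ρ) (q.map (ofQ _)))
    | .ar => .ar (enc (fun q => val _ K a (ev _ M ρ) (q.map (ofA _))) ∅)) p = _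
  cases hK : md P idx i W K with
  | irr => exact (pok_irr hK hp).elim
  | junk => exact (hm hK).elim
  | both =>
      simp only [ap, unf_fld]
      congr 1
      refine map_map_id fun x hx => ?_
      obtain ⟨b, j⟩ := x
      rcases pok_both H hp hK _ hx with h | ⟨T1, u, h, h'⟩
      · simp only at h
        subst h
        rfl
      · simp only at h
        subst h
        have h'' : (dat P idx i W cst wt).R T1 K := h'
        simp only [toB, ofB, dif_pos h'']
  | qu =>
      simp only [ap]
      congr 1
      refine map_map_id fun x hx => ?_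
      obtain ⟨b, j⟩ := x
      rcases pok_sg H hp (md_qu_inv hK).2 _ hx with h | ⟨t, h⟩ | ⟨_, v, h⟩ | ⟨h, _⟩
      · simp only at h
        subst h
        rfl
      · simp only at h
        subst h
        rfl
      · simp only at h
        subst h
        rfl
      · cases h
  | ar =>
      simp only [ap]
      rw [dec_pack hρ]
      show val _ K a (ev _ M ρ) (List.map (ofA _) (List.map (toA _) p)) = _
      congr 1
      refine map_map_id fun x hx => ?_
      obtain ⟨b, j⟩ := x
      rcases pok_sg H hp (md_ar_inv hK).2 _ hx with h | ⟨t, h⟩ | ⟨h, _⟩ | ⟨_, v, h⟩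
      · simp only at h
        subst h
        rfl
      · simp only at h
        subst h
        rfl
      · cases h
      · simp only at h
        subst h
        rfl

/-- the packed information has the right shape -/
theorem iok_pack {K : Term S} (a : Term S) (f : List (Arg (dat P idx i W cst wt)) → Set (MT S))
    (hm : md P idx i W K ≠ .junk) : IOk (dat P idx i W cst wt) K (pack _ K a f) := by
  unfold IOk pack
  change (match md P idx i W K with
    | .irr => _
    | .both => _
    | .qu => _
    | .ar => _
    | .junk => False)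
  cases hK : md P idx i W K with
  | junk => exact (hm hK).elim
  | _ => simp [dat, hK]

theorem pack_ne_dflt {K : Term S} (a : Term S)
    (f : List (Arg (dat P idx i W cst wt)) → Set (MT S)) (hm : md P idx i W K ≠ .junk) :
    pack (dat P idx i W cst wt) K a f ≠ .dflt := by
  rcases iok_cases (iok_pack a f hm) with h | h | h | h
  · rw [h.2]; simp
  · obtain ⟨_, u, h⟩ := h; rw [h]; simp
  · obtain ⟨_, u, h⟩ := h; rw [h]; simp
  · obtain ⟨_, u, h⟩ := h; rw [h]; simp

end laws

end Crest.Agent.R298.V40
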