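import Crest.Agent.R298.V3_40

/-!
R298 (S0452), helper40, vertical T, file 4: renaming, good terms, the substitution lemma.
-/

set_option autoImplicit false

namespace Crest.Agent.R298.V40

open Crest.LogicCS.PTS Crest.LogicCS.PTS.Term Relation
open Crest.Agent.R298.Sub452 Crest.Agent.R298.Par452 Crest.Agent.R298.Ty452
open Crest.Agent.R298.TyF452 Crest.Agent.R298.Uniq452 Crest.Agent.R298.Mem360
open Crest.Agent.R298.Fl113 (Rl Tame Cs RelS Rd)

/-! ### raw part -/

section raw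

variable {S : Type} {𝒟 : Dat S}

theorem cl_ren (ρ : ℕ → Arg 𝒟) (r : ℕ → ℕ) (M : Term S) :
    cl 𝒟 ρ (ren r M) = cl 𝒟 (fun k => ρ (r k)) M := sub_ren _ _ _

theorem acons_up (x : Arg 𝒟) (ρ : ℕ → Arg 𝒟) (r : ℕ → ℕ) :
    (fun k => acons 𝒟 x ρ (up r k)) = acons 𝒟 x (fun k => ρ (r k)) := by
  funext k; cases k <;> rfl

theorem cl_acons (x : Arg 𝒟) (ρ : ℕ → Arg 𝒟) (M : Term S) :
    cl 𝒟 (acons 𝒟 x ρ) M = inst x.1 (sub (ups fun k => (ρ k).1) M) := by
  rw [← sub_scons]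
  unfold cl
  congr 1
  funext k; cases k <;> rfl

theorem cl_beq (ρ : ℕ → Arg 𝒟) {M N : Term S} (e : BetaEq M N) :
    BetaEq (cl 𝒟 ρ M) (cl 𝒟 ρ N) := BetaEq.sub e _

theorem cl_acons_wk (x : Arg 𝒟) (ρ : ℕ → Arg 𝒟) (M : Term S) :
    cl 𝒟 (acons 𝒟 x ρ) (wk M) = cl 𝒟 ρ M := by
  rw [wk, cl_ren]
  rfl

theorem ev_ren (M : Term S) : ∀ (r : ℕ → ℕ) (ρ : ℕ → Arg 𝒟),
    ev 𝒟 (ren r M) ρ = ev 𝒟 M (fun k => ρ (r k)) := by
  induction M with
  | var k => intro r ρ; rfl
  | sort s => intro r ρ; rfl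
  | app M N ihM ihN =>
      intro r ρ
      funext p
      rw [ren_app, ev_app, ev_app, ihM]
      unfold arg
      rw [ihN, cl_ren, cl_ren]
  | lam A M _ ihM =>
      intro r ρ
      funext p
      cases p with
      | nil => rfl
      | cons x p => rw [ren_lam, ev_lam_cons, ev_lam_cons, ihM, acons_up]
  | pi A B ihA ihB =>
      intro r ρ
      funext p
      rw [ren_pi, ev_pi, ev_pi]
      unfold RR
      have h : cl 𝒟 ρ (.pi (ren r A) (ren (up r) B)) = cl 𝒟 (fun k => ρ (r k)) (.pi A B) :=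
        cl_ren ρ r (.pi A B)
      rw [ihA, cl_ren ρ r A, h]
      simp only [ihB, cl_ren, acons_up]

theorem arg_wk (K : Term S) (x : Arg 𝒟) (ρ : ℕ → Arg 𝒟) (N : Term S) :
    arg 𝒟 K (acons 𝒟 x ρ) (wk N) = arg 𝒟 K ρ N := by
  unfold arg
  rw [cl_acons_wk, wk, ev_ren]
  rfl

/-- the head variable carries no information -/
def Dead : Term S → (ℕ → Arg 𝒟) → Prop
  | .var k, ρ => (ρ k).2 = .dflt
  | .app M _, ρ => Dead M ρ
  | _, _ => False

theorem ev_dead {M : Term S} {ρ : ℕ → Arg 𝒟} (h : Dead M ρ) : ∀ p, ev 𝒟 M ρ p = ∅ := by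
  induction M with
  | var k =>
      intro p
      have h' : (ρ k).2 = .dflt := h
      rw [ev_var, h']
      rfl
  | app M N ih _ =>
      intro p
      rw [ev_app]
      exact ih h _
  | sort s => exact h.elim
  | lam A M _ _ => exact h.elim
  | pi A M _ _ => exact h.elim

theorem dead_ren (M : Term S) (r : ℕ → ℕ) (ρ : ℕ → Arg 𝒟) :
    Dead (ren r M) ρ ↔ Dead M (fun k => ρ (r k)) := by
  induction M with
  | app M N ih _ => exact ih
  | _ => rfl

/-- good terms: the evaluated positions contain only redexes with signed domain -/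
def Gd (ST : Term S → Prop) : Term S → (ℕ → Arg 𝒟) → List (Arg 𝒟) → Prop
  | .var _ => fun _ _ => True
  | .sort _ => fun _ _ => True
  | .app M N => fun ρ p => Dead M ρ ∨ (𝒟.mode (𝒟.dom (cl 𝒟 ρ M)) ≠ .junk ∧
      Gd ST M ρ (arg 𝒟 (𝒟.dom (cl 𝒟 ρ M)) ρ N :: p) ∧
      ∀ q, POk 𝒟 q (𝒟.dom (cl 𝒟 ρ M)) → ST (𝒟.nf (apps 𝒟 (𝒟.nf (cl 𝒟 ρ N)) q)) → Gd ST N ρ q)
  | .lam _ M => fun ρ p =>
      match p with
      | [] => True
      | x :: p => Gd ST M (acons 𝒟 x ρ) p
  | .pi A B => fun ρ _ => (ST (𝒟.nf (cl 𝒟 ρ A)) → Gd ST A ρ []) ∧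
      ∀ a j, 𝒟.ty a (𝒟.nf (cl 𝒟 ρ A)) → IQ 𝒟 (𝒟.nf (cl 𝒟 ρ A)) j →
        ST (𝒟.nf (cl 𝒟 (acons 𝒟 (a, j) ρ) B)) → Gd ST B (acons 𝒟 (a, j) ρ) []

theorem gd_ren (ST : Term S → Prop) (M : Term S) : ∀ (r : ℕ → ℕ) (ρ : ℕ → Arg 𝒟)
    (p : List (Arg 𝒟)), Gd ST (ren r M) ρ p ↔ Gd ST M (fun k => ρ (r k)) p := by
  induction M with
  | var k => intro r ρ p; rfl
  | sort s => intro r ρ p; rfl
  | app M N ihM ihN =>
      intro r ρ p
      simp only [ren_app, Gd, dead_ren, cl_ren, ihM, ihN, arg, ev_ren]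
  | lam A M _ ihM =>
      intro r ρ p
      cases p with
      | nil => rfl
      | cons x p =>
          show Gd ST (ren (up r) M) (acons 𝒟 x ρ) p ↔ _
          rw [ihM, acons_up]
          rfl
  | pi A B ihA ihB =>
      intro r ρ p
      simp only [ren_pi, Gd, cl_ren, ihA, ihB, acons_up]

end raw

/-! ### typed part -/

section typed

variable {S : Type} {P : Spec S} {idx : S → ℕ} {i : ℕ} {W : ℕ → Term S}
variable {cst : Term S → Set (MT S) → Set (MT S)} {wt : Term S → Set (MT S)}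

/-- environments for a context -/
structure EOk (G : ℕ → Term S) (ρ : ℕ → Arg (dat P idx i W cst wt)) : Prop where
  sub : SubF P (fun k => (ρ k).1) G W
  nrm : ∀ k, Normal (ρ k).1
  inf : ∀ k, (ρ k).2 = .dflt ∨ IOk _ (nf (cl _ ρ (G k))) (ρ k).2
  bdd : Bdd ρ

theorem EOk.ty {G : ℕ → Term S} {ρ : ℕ → Arg (dat P idx i W cst wt)} (h : EOk G ρ)
    {M K : Term S} (hM : TyF P G M K) : TyF P W (cl _ ρ M) (cl _ ρ K) := tyf_sub hM h.sub

theorem EOk.wn (H : Hyp P idx i W) {G : ℕ → Term S} {ρ : ℕ → Arg (dat P idx i W cst wt)}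
    (h : EOk G ρ) {M K : Term S} (hM : TyF P G M K) : WN (cl _ ρ M) ∧ WN (cl _ ρ K) :=
  H.wn H.good (h.ty hM)

theorem EOk.tyn (H : Hyp P idx i W) {G : ℕ → Term S} {ρ : ℕ → Arg (dat P idx i W cst wt)}
    (h : EOk G ρ) {M K : Term S} (hM : TyF P G M K) :
    tyN P W (nf (cl _ ρ M)) (nf (cl _ ρ K)) :=
  ⟨nf_normal (h.wn H hM).1, tyf_red_type H.good.wf (FSR H.good.wf (h.ty hM) (red_nf _))
    (red_nf _)⟩

theorem EOk.cons {G : ℕ → Term S} {ρ : ℕ → Arg (dat P idx i W cst wt)}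
    (h : EOk G ρ) {A : Term S} {s : S} (hA : TyF P G A (.sort s))
    {x : Arg (dat P idx i W cst wt)} (hx : tyN P W x.1 (nf (cl _ ρ A)))
    (hj : x.2 = .dflt ∨ IOk _ (nf (cl _ ρ A)) x.2) : EOk (fcons A G) (acons _ x ρ) := by
  have hA' : TyF P W (cl _ ρ A) (.sort s) := h.ty hA
  refine ⟨?_, ?_, ?_, h.bdd.cons x⟩
  · have h1 : TyF P W x.1 (Sub452.sub (fun k => (ρ k).1) A) :=
      .conv hx.2 hA' (BetaEq.symm (nf_beq _))
    have h2 := h.sub.scons h1
    have h3 : (fun k => (acons (dat P idx i W cst wt) x ρ k).1) =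
        scons x.1 (fun k => (ρ k).1) := by
      funext k; cases k <;> rfl
    rw [h3]
    exact h2
  · intro k
    cases k with
    | zero => exact hx.1
    | succ k => exact h.nrm k
  · intro k
    cases k with
    | zero => rw [fcons_zero, cl_acons_wk]; exact hj
    | succ k => rw [fcons_succ, cl_acons_wk]; exact h.inf k

/-- typing of complete applications -/
theorem apps_ty (H : Hyp P idx i W) {p : List (Arg (dat P idx i W cst wt))} :
    ∀ {a K : Term S}, TyF P W a K → POk _ p K →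
      ∃ s, idx s = i ∧ TyF P W (apps _ a p) (.sort s) := by
  induction p with
  | nil =>
      rintro a K h ⟨s, rfl, hs⟩
      exact ⟨s, hs, h⟩
  | cons x p ih =>
      rintro a K h ⟨A, B, rfl, hx, _, hp⟩
      exact ih (tyf_red_type H.good.wf (.appl h hx.2) (red_nf _)) hp

theorem apps_beq {𝒟 : Dat S} {p : List (Arg 𝒟)} : ∀ {a a' : Term S}, BetaEq a a' →
    BetaEq (apps 𝒟 a p) (apps 𝒟 a' p) := by
  induction p with
  | nil => intro a a' h; exact h
  | cons x p ih => intro a a' h; exact ih (BetaEq.app h (.refl _))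

theorem lf_eq (H : Hyp P idx i W) {p : List (Arg (dat P idx i W cst wt))} {a a' K : Term S}
    (h : TyF P W a K) (hp : POk _ p K) (e : BetaEq a a') :
    nf (apps _ a p) = nf (apps _ a' p) := by
  obtain ⟨s, _, hs⟩ := apps_ty H h hp
  exact nf_eq (apps_beq e) (H.wn H.good hs).1

theorem iq_ok {K : Term S} {j : Inf (dat P idx i W cst wt)} (h : IQ _ K j) :
    j = .dflt ∨ IOk _ K j := by
  unfold IQ at h
  unfold IOk
  cases hm : (dat P idx i W cst wt).mode K with
  | irr => rw [hm] at h; exact .inr h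
  | both => rw [hm] at h; exact .inr h
  | qu => rw [hm] at h; exact .inr h
  | ar => rw [hm] at h; exact .inl h
  | junk => rw [hm] at h; exact .inl h

theorem iq_exists (K : Term S) : ∃ j : Inf (dat P idx i W cst wt), IQ _ K j := by
  unfold IQ
  cases hm : (dat P idx i W cst wt).mode K with
  | irr => exact ⟨_, rfl⟩
  | both => exact ⟨_, fld _ _ (fun _ => ∅), rfl⟩
  | qu => exact ⟨_, fun _ => ∅, rfl⟩
  | ar => exact ⟨_, rfl⟩
  | junk => exact ⟨_, rfl⟩

/-- the domain of the type of a closed term -/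
theorem dm_eq (H : Hyp P idx i W) {F A B : Term S} (h : TyF P W F (.pi A B)) :
    dm P W F = nf A := by
  have hex : ∃ A B, TyF P W F (.pi A B) := ⟨A, B, h⟩
  unfold dm
  rw [dif_pos hex]
  obtain ⟨B', h'⟩ := hex.choose_spec
  obtain ⟨e, _⟩ := (funiq h' h).pi_inv
  obtain ⟨s, hs⟩ := fpi_typed H.good.wf h'
  obtain ⟨s', hs'⟩ := fpi_dom hs
  exact nf_eq e (H.wn H.good hs').1

theorem dm_beq (H : Hyp P idx i W) {F F' A B A' B' : Term S} (h : TyF P W F (.pi A B))
    (h' : TyF P W F' (.pi A' B')) (e : BetaEq F F') : dm P W F = dm P W F' := by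
  obtain ⟨Q, r, r'⟩ := CR e
  rw [dm_eq H h, dm_eq H h', ← dm_eq H (FSR H.good.wf h r), ← dm_eq H (FSR H.good.wf h' r')]

/-! ### substitutions -/

/-- `θ : G2 → G` with environments `ρ2` for `G2`, `ρ` for `G` -/
structure SOk (θ : ℕ → Term S) (G2 G : ℕ → Term S) (ρ2 ρ : ℕ → Arg (dat P idx i W cst wt)) :
    Prop where
  sub : SubF P θ G2 G
  ent : ∀ k, (∃ m, θ k = .var m ∧ ρ2 k = ρ m) ∨
    (ρ2 k = arg _ (nf (cl _ ρ2 (G2 k))) ρ (θ k) ∧ md P idx i W (nf (cl _ ρ2 (G2 k))) ≠ .junk ∧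
      ∀ q, POk _ q (nf (cl _ ρ2 (G2 k))) → St P idx i W (nf (apps _ (nf (cl _ ρ (θ k))) q)) →
        Gd (St P idx i W) (θ k) ρ q)

theorem SOk.red {θ : ℕ → Term S} {G2 G : ℕ → Term S}
    {ρ2 ρ : ℕ → Arg (dat P idx i W cst wt)} (h : SOk θ G2 G ρ2 ρ) (k : ℕ) :
    Red (cl _ ρ (θ k)) (ρ2 k).1 := by
  rcases h.ent k with ⟨m, e, e'⟩ | ⟨e, _, _⟩
  · rw [e, e']
    exact .refl
  · rw [e]
    exact red_nf _

theorem SOk.cl_red {θ : ℕ → Term S} {G2 G : ℕ → Term S}
    {ρ2 ρ : ℕ → Arg (dat P idx i W cst wt)} (h : SOk θ G2 G ρ2 ρ) (M : Term S) :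
    Red (cl _ ρ (Sub452.sub θ M)) (cl _ ρ2 M) := by
  unfold cl
  rw [sub_sub]
  exact red_sub h.red M

theorem SOk.nf_cl (H : Hyp P idx i W) {θ : ℕ → Term S} {G2 G : ℕ → Term S}
    {ρ2 ρ : ℕ → Arg (dat P idx i W cst wt)} (h : SOk θ G2 G ρ2 ρ) (h2 : EOk G2 ρ2)
    {M K : Term S} (hM : TyF P G2 M K) :
    nf (cl _ ρ (Sub452.sub θ M)) = nf (cl _ ρ2 M) :=
  (nf_eq (BetaEq.symm (h.cl_red M).eq) (h2.wn H hM).1).symm

theorem SOk.up {θ : ℕ → Term S} {G2 G : ℕ → Term S}
    {ρ2 ρ : ℕ → Arg (dat P idx i W cst wt)} (h : SOk θ G2 G ρ2 ρ) {A : Term S} {s : S}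
    (hA : TyF P G (Sub452.sub θ A) (.sort s)) (x : Arg (dat P idx i W cst wt)) :
    SOk (ups θ) (fcons A G2) (fcons (Sub452.sub θ A) G) (acons _ x ρ2) (acons _ x ρ) := by
  refine ⟨h.sub.ups hA, ?_⟩
  intro k
  cases k with
  | zero => exact .inl ⟨0, rfl, rfl⟩
  | succ k =>
      rcases h.ent k with ⟨m, e, e'⟩ | ⟨e, h1, h2⟩
      · refine .inl ⟨m + 1, ?_, e'⟩
        rw [ups_succ, e]
        rfl
      · refine .inr ?_
        rw [fcons_succ, cl_acons_wk, acons_succ, ups_succ, arg_wk]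
        refine ⟨e, h1, ?_⟩
        intro q hq hS
        rw [cl_acons_wk] at hS
        rw [wk, gd_ren]
        exact h2 q hq hS

theorem SOk.dead {θ : ℕ → Term S} {G2 G : ℕ → Term S}
    {ρ2 ρ : ℕ → Arg (dat P idx i W cst wt)} (h : SOk θ G2 G ρ2 ρ) {M : Term S}
    (hM : Dead M ρ2) : Dead (Sub452.sub θ M) ρ := by
  induction M with
  | var k =>
      have h' : (ρ2 k).2 = .dflt := hM
      rcases h.ent k with ⟨m, e, e'⟩ | ⟨e, h1, _⟩
      · rw [sub_var, e]
        show (ρ m).2 = .dflt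
        rw [← e']; exact h'
      · rw [e] at h'
        exact (pack_ne_dflt _ _ h1 h').elim
  | app M N ih _ => exact ih hM
  | sort s => exact hM.elim
  | lam A M _ _ => exact hM.elim
  | pi A M _ _ => exact hM.elim

/-- paths of a product -/
theorem pok_pi {A B : Term S} {p : List (Arg (dat P idx i W cst wt))}
    (h : POk _ p (.pi A B)) : ∃ x p', p = x :: p' ∧ tyN P W x.1 A ∧ IOk _ A x.2 ∧
      POk _ p' (nf (inst x.1 B)) := by
  cases p with
  | nil => obtain ⟨s, e, _⟩ := h; cases e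
  | cons x p' =>
      obtain ⟨A', B', e, h1, h2, h3⟩ := h
      injection e with e1 e2
      subst e1; subst e2
      exact ⟨x, p', rfl, h1, h2, h3⟩

/-- paths of a sort -/
theorem pok_sort {s : S} {p : List (Arg (dat P idx i W cst wt))} (h : POk _ p (.sort s)) :
    p = [] ∧ idx s = i := by
  cases p with
  | nil => obtain ⟨s', e, h'⟩ := h; injection e with e; subst e; exact ⟨rfl, h'⟩
  | cons x p' => obtain ⟨A', B', e, _⟩ := h; cases e

/-- **the substitution lemma** -/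
theorem subst_lemma (H : Hyp P idx i W) (hc : CstOk P idx i W cst) (M : Term S) :
    ∀ {G2 G θ : ℕ → Term S} {ρ2 ρ : ℕ → Arg (dat P idx i W cst wt)} {K : Term S}
      {p : List (Arg (dat P idx i W cst wt))}, Good P G2 → Good P G → SOk θ G2 G ρ2 ρ →
      EOk G2 ρ2 → EOk G ρ → TyF P G2 M K → POk _ p (nf (cl _ ρ2 K)) →
      St P idx i W (nf (apps _ (cl _ ρ2 M) p)) → Gd (St P idx i W) M ρ2 p →
      Gd (St P idx i W) (sub θ M) ρ p ∧
        cst (nf (apps _ (cl _ ρ2 M) p)) (ev _ (sub θ M) ρ p) =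
          cst (nf (apps _ (cl _ ρ2 M) p)) (ev _ M ρ2 p) := by
  induction M with
  | var k =>
      intro G2 G θ ρ2 ρ K p g2 g hs h2 h hM hp hS _
      rcases hs.ent k with ⟨m, e, e'⟩ | ⟨e, h3, h4⟩
      · rw [sub_var, e, ev_var, ev_var, e']
        exact ⟨trivial, rfl⟩
      · have hK : nf (cl _ ρ2 K) = nf (cl _ ρ2 (G2 k)) :=
          nf_eq (cl_beq _ (fgen_var hM _ rfl).2) (h2.wn H hM).2
        rw [hK] at hp
        have hl : cl _ ρ2 (Term.var k) = nf (cl _ ρ (θ k)) := by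
          show (ρ2 k).1 = _
          rw [e]; rfl
        rw [hl] at hS ⊢
        refine ⟨h4 p hp hS, ?_⟩
        rw [ev_var, e]
        unfold arg
        rw [ap_pack H h.bdd hp h3]
        exact (hc.idem _ _).symm
  | sort s =>
      intro G2 G θ ρ2 ρ K p g2 g hs h2 h hM hp hS _
      exact ⟨trivial, rfl⟩
  | lam A M _ ihM =>
      intro G2 G θ ρ2 ρ K p g2 g hs h2 h hM hp hS hg
      obtain ⟨B0, s, hM0, hpi, e⟩ := fgen_lam hM _ _ rfl
      obtain ⟨a, b, c, hA, hB, r, -⟩ := fgen_pi hpi _ _ rfl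
      have hA' : TyF P G (sub θ A) (.sort a) := tyf_sub hA hs.sub
      have hB1 : TyF P (fcons (cl _ ρ2 A) W) (sub (ups fun k => (ρ2 k).1) B0) (.sort b) :=
        tyf_sub hB (h2.sub.ups (h2.ty hA))
      have gA : Good P (fcons (cl _ ρ2 A) W) := H.good.cons (h2.ty hA)
      have hK : nf (cl _ ρ2 K) = .pi (nf (cl _ ρ2 A))
          (nf (sub (ups fun k => (ρ2 k).1) B0)) := by
        rw [nf_eq (cl_beq _ e) (h2.wn H hM).2]
        exact nf_pi (h2.wn H hA).1 (H.wn gA hB1).1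
      rw [hK] at hp
      obtain ⟨x, p', rfl, hx, hj, hp'⟩ := pok_pi hp
      have hA2 : nf (cl _ ρ (sub θ A)) = nf (cl _ ρ2 A) := hs.nf_cl H h2 hA
      have E2 : EOk (fcons A G2) (acons _ x ρ2) := h2.cons hA hx (.inr hj)
      have E1 : EOk (fcons (sub θ A) G) (acons _ x ρ) :=
        h.cons hA' (by rw [hA2]; exact hx) (by rw [hA2]; exact .inr hj)
      have hp2 : POk _ p' (nf (cl _ (acons _ x ρ2) B0)) := by
        rw [nf_eq (M := cl _ (acons _ x ρ2) B0)
          (N := inst x.1 (nf (sub (ups fun k => (ρ2 k).1) B0)))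
          (by rw [cl_acons]; exact BetaEq.inst (.refl _) (nf_beq _)) (E2.wn H hB).1]
        exact hp'
      have hlf : nf (apps _ (cl _ ρ2 (lam A M)) (x :: p')) =
          nf (apps _ (cl _ (acons _ x ρ2) M) p') := by
        symm
        refine lf_eq H (tyf_red_type H.good.wf (E2.ty hM0) (red_nf _)) hp2 ?_
        rw [cl_acons]
        exact BetaEq.symm (Red.eq (.single (beta_redex _ _ _)))
      rw [hlf] at hS ⊢
      exact ihM (g2.cons hA) (g.cons hA') (hs.up hA' x) E2 E1 hM0 hp2 hS hg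
  | pi A B ihA ihB =>
      intro G2 G θ ρ2 ρ K p g2 g hs h2 h hM hp hS hg
      obtain ⟨a, b, c, hA, hB, r, e⟩ := fgen_pi hM _ _ rfl
      have hK : nf (cl _ ρ2 K) = .sort c := by
        rw [nf_eq (cl_beq _ e) (h2.wn H hM).2]
        exact nf_sort c
      rw [hK] at hp
      obtain ⟨rfl, hci⟩ := pok_sort hp
      have hA' : TyF P G (sub θ A) (.sort a) := tyf_sub hA hs.sub
      have hA2 : nf (cl _ ρ (sub θ A)) = nf (cl _ ρ2 A) := hs.nf_cl H h2 hA
      have hT : nf (cl _ ρ (.pi (sub θ A) (sub (ups θ) B))) = nf (cl _ ρ2 (.pi A B)) :=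
        hs.nf_cl H h2 hM
      obtain ⟨hg1, hg2⟩ := hg
      -- the domain
      have keyA : St P idx i W (nf (cl _ ρ2 A)) → Gd (St P idx i W) (sub θ A) ρ [] ∧
          cst (nf (cl _ ρ2 A)) (ev _ (sub θ A) ρ []) = cst (nf (cl _ ρ2 A)) (ev _ A ρ2 []) := by
        intro hSA
        have hai : idx a = i := by
          have h3 := H.left _ _ _ r
          have h4 : ¬ i < idx a := fun h4 => hSA.2 ⟨a, FSR H.good.wf (h2.ty hA) (red_nf _), h4⟩
          omega
        exact ihA (p := []) g2 g hs h2 h hA ⟨a, nf_sort a, hai⟩ hSA (hg1 hSA)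
      have eqA : RR _ (sub θ A) ρ = RR _ A ρ2 := by
        unfold RR
        show cst (nf (cl _ ρ (sub θ A))) _ = cst (nf (cl _ ρ2 A)) _
        rw [hA2]
        by_cases hSA : St P idx i W (nf (cl _ ρ2 A))
        · exact (keyA hSA).2
        · exact hc.const _ _ _ hSA
      -- the codomain
      have keyB : ∀ (a' : Term S) (j : Inf (dat P idx i W cst wt)),
          tyN P W a' (nf (cl _ ρ2 A)) → IQ _ (nf (cl _ ρ2 A)) j →
          nf (cl _ (acons _ (a', j) ρ) (sub (ups θ) B)) = nf (cl _ (acons _ (a', j) ρ2) B) ∧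
          (St P idx i W (nf (cl _ (acons _ (a', j) ρ2) B)) →
            Gd (St P idx i W) (sub (ups θ) B) (acons _ (a', j) ρ) [] ∧
            cst (nf (cl _ (acons _ (a', j) ρ2) B)) (ev _ (sub (ups θ) B) (acons _ (a', j) ρ) []) =
              cst (nf (cl _ (acons _ (a', j) ρ2) B)) (ev _ B (acons _ (a', j) ρ2) [])) := by
        intro a' j ha' hj
        have E2 : EOk (fcons A G2) (acons _ (a', j) ρ2) := h2.cons hA ha' (iq_ok hj)
        have E1 : EOk (fcons (sub θ A) G) (acons _ (a', j) ρ) :=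
          h.cons hA' (by rw [hA2]; exact ha') (by rw [hA2]; exact iq_ok hj)
        have hs' := hs.up hA' ((a', j) : Arg (dat P idx i W cst wt))
        refine ⟨hs'.nf_cl H E2 hB, fun hSB => ?_⟩
        have hbi : idx b = i := by
          have h3 := H.right _ _ _ r
          have h4 : ¬ i < idx b := fun h4 => hSB.2 ⟨b, FSR H.good.wf (E2.ty hB) (red_nf _), h4⟩
          omega
        exact ihB (p := []) (g2.cons hA) (g.cons hA') hs' E2 E1 hB ⟨b, nf_sort b, hbi⟩ hSB
          (hg2 a' j ha' hj hSB)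
      refine ⟨⟨?_, ?_⟩, ?_⟩
      · intro hSA
        change St P idx i W (nf (cl _ ρ (sub θ A))) at hSA
        rw [hA2] at hSA
        exact (keyA hSA).1
      · intro a' j ha' hj hSB
        change tyN P W a' (nf (cl _ ρ (sub θ A))) at ha'
        change IQ _ (nf (cl _ ρ (sub θ A))) j at hj
        change St P idx i W (nf (cl _ (acons _ (a', j) ρ) (sub (ups θ) B))) at hSB
        rw [hA2] at ha' hj
        obtain ⟨h3, h4⟩ := keyB a' j ha' hj
        rw [h3] at hSB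
        exact (h4 hSB).1
      · congr 1
        show ev _ (.pi (sub θ A) (sub (ups θ) B)) ρ [] = _
        rw [ev_pi, ev_pi, eqA]
        change {v | v ∈ wt (nf (cl _ ρ (.pi (sub θ A) (sub (ups θ) B)))) ∧
          ∀ w ∈ RR _ A ρ2, ∀ j, IQ _ (nf (cl _ ρ (sub θ A))) j →
            MT.app v w ∈ RR _ (sub (ups θ) B) (acons _ (nf (MT.er w), j) ρ)} =
          {v | v ∈ wt (nf (cl _ ρ2 (.pi A B))) ∧ ∀ w ∈ RR _ A ρ2, ∀ j,
            IQ _ (nf (cl _ ρ2 A)) j → MT.app v w ∈ RR _ B (acons _ (nf (MT.er w), j) ρ2)}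
        rw [hA2, hT]
        ext v
        simp only [Set.mem_ofPred_eq]
        refine and_congr_right fun _ => forall_congr' fun w => forall_congr' fun hw =>
          forall_congr' fun j => forall_congr' fun hj => ?_
        have hw1 : TyF P W (MT.er w) (nf (cl _ ρ2 A)) := hc.typed _ _ _ hw
        have hw2 : tyN P W (nf (MT.er w)) (nf (cl _ ρ2 A)) :=
          ⟨nf_normal (H.wn H.good hw1).1, FSR H.good.wf hw1 (red_nf _)⟩
        obtain ⟨h3, h4⟩ := keyB _ j hw2 hj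
        have : RR _ (sub (ups θ) B) (acons _ (nf (MT.er w), j) ρ) =
            RR _ B (acons _ (nf (MT.er w), j) ρ2) := by
          unfold RR
          show cst (nf (cl _ (acons _ (nf (MT.er w), j) ρ) (sub (ups θ) B))) _ =
            cst (nf (cl _ (acons _ (nf (MT.er w), j) ρ2) B)) _
          rw [h3]
          by_cases hSB : St P idx i W (nf (cl _ (acons _ (nf (MT.er w), j) ρ2) B))
          · exact (h4 hSB).2
          · exact hc.const _ _ _ hSB
        rw [this]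
  | app F N ihF ihN =>
      intro G2 G θ ρ2 ρ K p g2 g hs h2 h hM hp hS hg
      obtain ⟨A, B, hF, hN, e⟩ := fgen_app hM _ _ rfl
      rcases hg with hd | ⟨hm, hg1, hg2⟩
      · refine ⟨.inl (hs.dead hd), ?_⟩
        rw [ev_dead (M := F.app N) hd]
        rw [ev_dead (M := sub θ (F.app N)) (hs.dead (M := F.app N) hd)]
      · obtain ⟨s, hpi⟩ := fpi_typed g2.wf hF
        obtain ⟨a, b, c, hA, hB, r, -⟩ := fgen_pi hpi _ _ rfl
        have hdom : dm P W (cl _ ρ2 F) = nf (cl _ ρ2 A) := dm_eq H (h2.ty hF)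
        have hF' : TyF P G (sub θ F) (.pi (sub θ A) (sub (ups θ) B)) := tyf_sub hF hs.sub
        have hdom' : dm P W (cl _ ρ (sub θ F)) = nf (cl _ ρ2 A) := by
          rw [dm_eq H (h.ty hF')]
          exact hs.nf_cl H h2 hA
        change md P idx i W (dm P W (cl _ ρ2 F)) ≠ _ at hm
        change Gd _ F ρ2 (arg _ (dm P W (cl _ ρ2 F)) ρ2 N :: p) at hg1
        change ∀ q, POk _ q (dm P W (cl _ ρ2 F)) → St P idx i W (nf (apps _ (nf (cl _ ρ2 N)) q)) →
          Gd _ N ρ2 q at hg2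
        rw [hdom] at hm hg1 hg2
        have hnN : nf (cl _ ρ (sub θ N)) = nf (cl _ ρ2 N) := hs.nf_cl H h2 hN
        -- the argument
        have keyN : ∀ q, POk _ q (nf (cl _ ρ2 A)) →
            St P idx i W (nf (apps _ (nf (cl _ ρ2 N)) q)) →
            Gd (St P idx i W) (sub θ N) ρ q ∧
            cst (nf (apps _ (nf (cl _ ρ2 N)) q)) (ev _ (sub θ N) ρ q) =
              cst (nf (apps _ (nf (cl _ ρ2 N)) q)) (ev _ N ρ2 q) := by
          intro q hq hSq
          have hlf : nf (apps _ (nf (cl _ ρ2 N)) q) = nf (apps _ (cl _ ρ2 N) q) :=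
            lf_eq H (h2.tyn H hN).2 hq (BetaEq.symm (nf_beq _))
          have h4 := hg2 q hq hSq
          rw [hlf] at hSq ⊢
          exact ihN g2 g hs h2 h hN hq hSq h4
        have harg : arg (dat P idx i W cst wt) (nf (cl _ ρ2 A)) ρ (sub θ N) =
            arg _ (nf (cl _ ρ2 A)) ρ2 N := by
          have hval : val (dat P idx i W cst wt) (nf (cl _ ρ2 A)) (nf (cl _ ρ2 N))
              (ev _ (sub θ N) ρ) =
              val _ (nf (cl _ ρ2 A)) (nf (cl _ ρ2 N)) (ev _ N ρ2) := by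
            funext q
            unfold val
            by_cases hq : POk (dat P idx i W cst wt) q (nf (cl _ ρ2 A))
            · rw [if_pos hq, if_pos hq]
              show cst (nf (apps _ (nf (cl _ ρ2 N)) q)) _ =
                cst (nf (apps _ (nf (cl _ ρ2 N)) q)) _
              by_cases hSq : St P idx i W (nf (apps _ (nf (cl _ ρ2 N)) q))
              · exact (keyN q hq hSq).2
              · exact hc.const _ _ _ hSq
            · rw [if_neg hq, if_neg hq]
          unfold arg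
          show (nf (cl _ ρ (sub θ N)), pack _ _ (nf (cl _ ρ (sub θ N))) _) =
            (nf (cl _ ρ2 N), pack _ _ (nf (cl _ ρ2 N)) _)
          rw [hnN]
          congr 1
          unfold pack
          rw [hval]
        have hB1 : TyF P (fcons (cl _ ρ2 A) W) (sub (ups fun k => (ρ2 k).1) B) (.sort b) :=
          tyf_sub hB (h2.sub.ups (h2.ty hA))
        have gA : Good P (fcons (cl _ ρ2 A) W) := H.good.cons (h2.ty hA)
        have hKF : nf (cl _ ρ2 (.pi A B)) = .pi (nf (cl _ ρ2 A))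
            (nf (sub (ups fun k => (ρ2 k).1) B)) :=
          nf_pi (h2.wn H hA).1 (H.wn gA hB1).1
        have hK : nf (cl _ ρ2 K) = nf (inst (nf (cl _ ρ2 N))
            (nf (sub (ups fun k => (ρ2 k).1) B))) := by
          refine nf_eq ?_ (h2.wn H hM).2
          refine BetaEq.trans (cl_beq _ e) ?_
          unfold cl
          rw [sub_inst]
          exact BetaEq.inst (nf_beq _) (nf_beq _)
        have hpF : POk _ (arg _ (nf (cl _ ρ2 A)) ρ2 N :: p) (nf (cl _ ρ2 (.pi A B))) := by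
          rw [hKF]
          refine ⟨_, _, rfl, h2.tyn H hN, iok_pack _ _ hm, ?_⟩
          rw [hK] at hp
          exact hp
        have hlf : nf (apps _ (cl _ ρ2 (F.app N)) p) =
            nf (apps _ (cl _ ρ2 F) (arg _ (nf (cl _ ρ2 A)) ρ2 N :: p)) := by
          show nf (apps _ (app (cl _ ρ2 F) (cl _ ρ2 N)) p) =
            nf (apps _ (app (cl _ ρ2 F) (nf (cl _ ρ2 N))) p)
          have h5 : TyF P W (app (cl _ ρ2 F) (cl _ ρ2 N)) (nf (cl _ ρ2 K)) :=
            tyf_red_type H.good.wf (h2.ty hM) (red_nf _)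
          exact lf_eq H h5 hp (BetaEq.app (.refl _) (nf_beq _))
        rw [hlf] at hS ⊢
        obtain ⟨h6, h7⟩ := ihF g2 g hs h2 h hF hpF hS hg1
        refine ⟨.inr ⟨?_, ?_, ?_⟩, ?_⟩
        · show md P idx i W (dm P W (cl _ ρ (sub θ F))) ≠ _
          rw [hdom']; exact hm
        · show Gd _ (sub θ F) ρ (arg _ (dm P W (cl _ ρ (sub θ F))) ρ (sub θ N) :: p)
          rw [hdom', harg]; exact h6
        · show ∀ q, POk _ q (dm P W (cl _ ρ (sub θ F))) →
            St P idx i W (nf (apps _ (nf (cl _ ρ (sub θ N))) q)) → Gd _ (sub θ N) ρ q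
          rw [hdom', hnN]
          intro q hq hSq
          exact (keyN q hq hSq).1
        · show cst _ (ev _ (sub θ F) ρ (arg _ (dm P W (cl _ ρ (sub θ F))) ρ (sub θ N) :: p)) =
            cst _ (ev _ F ρ2 (arg _ (dm P W (cl _ ρ2 F)) ρ2 N :: p))
          rw [hdom', harg, hdom]; exact h7

end typed

end Crest.Agent.R298.V40
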