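import Crest.Agent.R298.V4_40

/-!
R298 (S0452), helper40, vertical T, file 5: beta invariance, normal terms are good, and the
instantiation equality (R4).
-/

set_option autoImplicit false

namespace Crest.Agent.R298.V40

open Crest.LogicCS.PTS Crest.LogicCS.PTS.Term Relation
open Crest.Agent.R298.Sub452 Crest.Agent.R298.Par452 Crest.Agent.R298.Ty452
open Crest.Agent.R298.TyF452 Crest.Agent.R298.Uniq452 Crest.Agent.R298.Mem360
open Crest.Agent.R298.Fl113 (Rl Tame Cs RelS Rd Ne)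

section beta

variable {S : Type} {P : Spec S} {idx : S → ℕ} {i : ℕ} {W : ℕ → Term S}
variable {cst : Term S → Set (MT S) → Set (MT S)} {wt : Term S → Set (MT S)}

theorem dead_beta {𝒟 : Dat S} {M M' : Term S} (b : Beta M M') {ρ : ℕ → Arg 𝒟}
    (h : Dead M ρ) : Dead M' ρ := by
  induction b with
  | redex A M N => exact h.elim
  | appL N _ ih => exact ih h
  | appR M _ _ => exact h
  | lamA _ _ _ => exact h.elim
  | lamM _ _ _ => exact h.elim
  | piA _ _ _ => exact h.elim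
  | piB _ _ _ => exact h.elim

/-- the closed type of a product -/
theorem nf_cl_pi (H : Hyp P idx i W) {G : ℕ → Term S} {ρ : ℕ → Arg (dat P idx i W cst wt)}
    (h : EOk G ρ) {A B : Term S} {a b : S} (hA : TyF P G A (.sort a))
    (hB : TyF P (fcons A G) B (.sort b)) :
    nf (cl _ ρ (.pi A B)) = .pi (nf (cl _ ρ A)) (nf (sub (ups fun k => (ρ k).1) B)) := by
  have hB1 : TyF P (fcons (cl _ ρ A) W) (sub (ups fun k => (ρ k).1) B) (.sort b) :=
    tyf_sub hB (h.sub.ups (h.ty hA))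
  have gA : Good P (fcons (cl _ ρ A) W) := H.good.cons (h.ty hA)
  exact nf_pi (h.wn H hA).1 (H.wn gA hB1).1

/-- paths of abstractions -/
theorem pok_lam (H : Hyp P idx i W) {G : ℕ → Term S} {ρ : ℕ → Arg (dat P idx i W cst wt)}
    (h : EOk G ρ) {A M K : Term S} {p : List (Arg (dat P idx i W cst wt))}
    (hM : TyF P G (lam A M) K) (hp : POk _ p (nf (cl _ ρ K))) :
    ∃ x p' B0 a b, p = x :: p' ∧ TyF P G A (.sort a) ∧ TyF P (fcons A G) B0 (.sort b) ∧
      TyF P (fcons A G) M B0 ∧ EOk (fcons A G) (acons _ x ρ) ∧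
      tyN P W x.1 (nf (cl _ ρ A)) ∧ IOk _ (nf (cl _ ρ A)) x.2 ∧
      POk _ p' (nf (cl _ (acons _ x ρ) B0)) ∧
      nf (apps _ (cl _ ρ (lam A M)) (x :: p')) = nf (apps _ (cl _ (acons _ x ρ) M) p') := by
  obtain ⟨B0, s, hM0, hpi, e⟩ := fgen_lam hM _ _ rfl
  obtain ⟨a, b, c, hA, hB, r, -⟩ := fgen_pi hpi _ _ rfl
  have hK : nf (cl _ ρ K) = .pi (nf (cl _ ρ A)) (nf (sub (ups fun k => (ρ k).1) B0)) := by
    rw [nf_eq (cl_beq _ e) (h.wn H hM).2]
    exact nf_cl_pi H h hA hB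
  rw [hK] at hp
  obtain ⟨x, p', rfl, hx, hj, hp'⟩ := pok_pi hp
  have E2 : EOk (fcons A G) (acons _ x ρ) := h.cons hA hx (.inr hj)
  have hp2 : POk _ p' (nf (cl _ (acons _ x ρ) B0)) := by
    rw [nf_eq (M := cl _ (acons _ x ρ) B0)
      (N := inst x.1 (nf (sub (ups fun k => (ρ k).1) B0)))
      (by rw [cl_acons]; exact BetaEq.inst (.refl _) (nf_beq _)) (E2.wn H hB).1]
    exact hp'
  refine ⟨x, p', B0, a, b, rfl, hA, hB, hM0, E2, hx, hj, hp2, ?_⟩
  symm
  refine lf_eq H (tyf_red_type H.good.wf (E2.ty hM0) (red_nf _)) hp2 ?_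
  rw [cl_acons]
  exact BetaEq.symm (Red.eq (.single (beta_redex _ _ _)))

/-- paths of applications -/
theorem pok_app (H : Hyp P idx i W) {G : ℕ → Term S} {ρ : ℕ → Arg (dat P idx i W cst wt)}
    (h : EOk G ρ) {F N A B K : Term S} {a b : S} {p : List (Arg (dat P idx i W cst wt))}
    (hM : TyF P G (app F N) K) (hA : TyF P G A (.sort a)) (hB : TyF P (fcons A G) B (.sort b))
    (hN : TyF P G N A) (e : BetaEq K (inst N B)) (hp : POk _ p (nf (cl _ ρ K)))
    (hm : md P idx i W (nf (cl _ ρ A)) ≠ .junk) :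
    POk _ (arg _ (nf (cl _ ρ A)) ρ N :: p) (nf (cl _ ρ (.pi A B))) ∧
      nf (apps _ (cl _ ρ (F.app N)) p) =
        nf (apps _ (cl _ ρ F) (arg _ (nf (cl _ ρ A)) ρ N :: p)) := by
  have hK : nf (cl _ ρ K) = nf (inst (nf (cl _ ρ N)) (nf (sub (ups fun k => (ρ k).1) B))) := by
    refine nf_eq ?_ (h.wn H hM).2
    refine BetaEq.trans (cl_beq _ e) ?_
    unfold cl
    rw [sub_inst]
    exact BetaEq.inst (nf_beq _) (nf_beq _)
  constructor
  · rw [nf_cl_pi H h hA hB]
    refine ⟨_, _, rfl, h.tyn H hN, iok_pack _ _ hm, ?_⟩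
    rw [hK] at hp
    exact hp
  · show nf (apps _ (app (cl _ ρ F) (cl _ ρ N)) p) = nf (apps _ (app (cl _ ρ F) (nf (cl _ ρ N))) p)
    have h5 : TyF P W (app (cl _ ρ F) (cl _ ρ N)) (nf (cl _ ρ K)) :=
      tyf_red_type H.good.wf (h.ty hM) (red_nf _)
    exact lf_eq H h5 hp (BetaEq.app (.refl _) (nf_beq _))

/-- equality of packed arguments -/
theorem arg_eq (hc : CstOk P idx i W cst) {ρ : ℕ → Arg (dat P idx i W cst wt)} {K N N' : Term S}
    (hn : nf (cl _ ρ N') = nf (cl _ ρ N))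
    (hv : ∀ q, POk (dat P idx i W cst wt) q K → St P idx i W (nf (apps _ (nf (cl _ ρ N)) q)) →
      cst (nf (apps _ (nf (cl _ ρ N)) q)) (ev _ N' ρ q) =
        cst (nf (apps _ (nf (cl _ ρ N)) q)) (ev _ N ρ q)) :
    arg (dat P idx i W cst wt) K ρ N' = arg _ K ρ N := by
  have hval : val (dat P idx i W cst wt) K (nf (cl _ ρ N)) (ev _ N' ρ) =
      val _ K (nf (cl _ ρ N)) (ev _ N ρ) := by
    funext q
    unfold val
    by_cases hq : POk (dat P idx i W cst wt) q K
    · rw [if_pos hq, if_pos hq]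
      show cst (nf (apps _ (nf (cl _ ρ N)) q)) _ = cst (nf (apps _ (nf (cl _ ρ N)) q)) _
      by_cases hSq : St P idx i W (nf (apps _ (nf (cl _ ρ N)) q))
      · exact hv q hq hSq
      · exact hc.const _ _ _ hSq
    · rw [if_neg hq, if_neg hq]
  unfold arg
  show (nf (cl _ ρ N'), pack _ _ (nf (cl _ ρ N')) _) = (nf (cl _ ρ N), pack _ _ (nf (cl _ ρ N)) _)
  rw [hn]
  congr 1
  unfold pack
  rw [hval]

/-- equality of the values of products -/
theorem pi_eq (H : Hyp P idx i W) (hc : CstOk P idx i W cst)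
    {ρ : ℕ → Arg (dat P idx i W cst wt)} {A B A' B' : Term S}
    (hA : nf (cl _ ρ A') = nf (cl _ ρ A)) (hT : nf (cl _ ρ (.pi A' B')) = nf (cl _ ρ (.pi A B)))
    (eA : St P idx i W (nf (cl _ ρ A)) →
      cst (nf (cl _ ρ A)) (ev _ A' ρ []) = cst (nf (cl _ ρ A)) (ev _ A ρ []))
    (eB : ∀ a j, tyN P W a (nf (cl _ ρ A)) → IQ _ (nf (cl _ ρ A)) j →
      nf (cl _ (acons _ (a, j) ρ) B') = nf (cl _ (acons _ (a, j) ρ) B) ∧
      (St P idx i W (nf (cl _ (acons _ (a, j) ρ) B)) →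
        cst (nf (cl _ (acons _ (a, j) ρ) B)) (ev _ B' (acons _ (a, j) ρ) []) =
          cst (nf (cl _ (acons _ (a, j) ρ) B)) (ev _ B (acons _ (a, j) ρ) []))) :
    ev _ (.pi A' B') ρ [] = ev _ (.pi A B) ρ [] := by
  have eqA : RR _ A' ρ = RR _ A ρ := by
    unfold RR
    show cst (nf (cl _ ρ A')) _ = cst (nf (cl _ ρ A)) _
    rw [hA]
    by_cases hSA : St P idx i W (nf (cl _ ρ A))
    · exact eA hSA
    · exact hc.const _ _ _ hSA
  rw [ev_pi, ev_pi, eqA]
  change {v | v ∈ wt (nf (cl _ ρ (.pi A' B'))) ∧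
    ∀ w ∈ RR _ A ρ, ∀ j, IQ _ (nf (cl _ ρ A')) j →
      MT.app v w ∈ RR _ B' (acons _ (nf (MT.er w), j) ρ)} =
    {v | v ∈ wt (nf (cl _ ρ (.pi A B))) ∧ ∀ w ∈ RR _ A ρ, ∀ j,
      IQ _ (nf (cl _ ρ A)) j → MT.app v w ∈ RR _ B (acons _ (nf (MT.er w), j) ρ)}
  rw [hA, hT]
  ext v
  simp only [Set.mem_ofPred_eq]
  refine and_congr_right fun _ => forall_congr' fun w => forall_congr' fun hw =>
    forall_congr' fun j => forall_congr' fun hj => ?_
  have hw1 : TyF P W (MT.er w) (nf (cl _ ρ A)) := hc.typed _ _ _ hw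
  have hw2 : tyN P W (nf (MT.er w)) (nf (cl _ ρ A)) :=
    ⟨nf_normal (H.wn H.good hw1).1, FSR H.good.wf hw1 (red_nf _)⟩
  obtain ⟨h3, h4⟩ := eB _ j hw2 hj
  have : RR _ B' (acons _ (nf (MT.er w), j) ρ) =
      RR _ B (acons _ (nf (MT.er w), j) ρ) := by
    unfold RR
    show cst (nf (cl _ (acons _ (nf (MT.er w), j) ρ) B')) _ =
      cst (nf (cl _ (acons _ (nf (MT.er w), j) ρ) B)) _
    rw [h3]
    by_cases hSB : St P idx i W (nf (cl _ (acons _ (nf (MT.er w), j) ρ) B))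
    · exact h4 hSB
    · exact hc.const _ _ _ hSB
  rw [this]

theorem St.eq_of_le {T : Term S} (h : St P idx i W T) {s : S} (hT : TyF P W T (.sort s))
    (hs : i ≤ idx s) : idx s = i := by
  have : ¬ i < idx s := fun h4 => h.2 ⟨s, hT, h4⟩
  omega

/-- **beta invariance** -/
theorem beta_lemma (H : Hyp P idx i W) (hc : CstOk P idx i W cst) {M M' : Term S}
    (bt : Beta M M') : ∀ {G : ℕ → Term S} {ρ : ℕ → Arg (dat P idx i W cst wt)} {K : Term S}
      {p : List (Arg (dat P idx i W cst wt))}, Good P G → EOk G ρ → TyF P G M K →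
      POk _ p (nf (cl _ ρ K)) → St P idx i W (nf (apps _ (cl _ ρ M) p)) →
      Gd (St P idx i W) M ρ p →
      Gd (St P idx i W) M' ρ p ∧
        cst (nf (apps _ (cl _ ρ M) p)) (ev _ M' ρ p) =
          cst (nf (apps _ (cl _ ρ M) p)) (ev _ M ρ p) := by
  induction bt with
  | redex A P0 N =>
      intro G ρ K p g h hM hp hS hg
      rw [subst_eq]
      obtain ⟨A1, B1, hF, hN, e⟩ := fgen_app hM _ _ rfl
      obtain ⟨B0, s, hP0, hpi, e1⟩ := fgen_lam hF _ _ rfl
      obtain ⟨a, b, c, hA, hB, r, -⟩ := fgen_pi hpi _ _ rfl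
      obtain ⟨e2, e3⟩ := pi_inj e1
      have hN' : TyF P G N A := .conv hN hA e2
      have hF' : TyF P G (lam A P0) (.pi A B0) := .abs hP0 hpi
      rcases hg with hd | ⟨hm, hg1, hg2⟩
      · exact hd.elim
      have hdom : dm P W (cl _ ρ (lam A P0)) = nf (cl _ ρ A) := dm_eq H (h.ty hF')
      change md P idx i W (dm P W (cl _ ρ (lam A P0))) ≠ _ at hm
      change Gd _ P0 (acons _ (arg _ (dm P W (cl _ ρ (lam A P0))) ρ N) ρ) p at hg1
      change ∀ q, POk _ q (dm P W (cl _ ρ (lam A P0))) →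
        St P idx i W (nf (apps _ (nf (cl _ ρ N)) q)) → Gd _ N ρ q at hg2
      rw [hdom] at hm hg1 hg2
      have E2 : EOk (fcons A G) (acons _ (arg _ (nf (cl _ ρ A)) ρ N) ρ) :=
        h.cons hA (h.tyn H hN') (.inr (iok_pack _ _ hm))
      have hs : SOk (scons N var) (fcons A G) G (acons _ (arg _ (nf (cl _ ρ A)) ρ N) ρ) ρ := by
        refine ⟨(SubF.var g.wf).scons (by rwa [sub_id]), ?_⟩
        intro k
        cases k with
        | zero =>
            refine .inr ?_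
            rw [fcons_zero, cl_acons_wk]
            exact ⟨rfl, hm, hg2⟩
        | succ k => exact .inl ⟨k, rfl, rfl⟩
      have hK : nf (cl _ (acons _ (arg _ (nf (cl _ ρ A)) ρ N) ρ) B0) = nf (cl _ ρ K) := by
        symm
        refine nf_eq ?_ (h.wn H hM).2
        refine BetaEq.trans (cl_beq _ (BetaEq.trans e (BetaEq.sub e3 _))) ?_
        exact (hs.cl_red B0).eq
      have hlf : nf (apps _ (cl _ ρ (app (lam A P0) N)) p) =
          nf (apps _ (cl _ (acons _ (arg _ (nf (cl _ ρ A)) ρ N) ρ) P0) p) := by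
        refine lf_eq H (tyf_red_type H.good.wf (h.ty hM) (red_nf _)) hp ?_
        refine BetaEq.trans (cl_beq _ (Red.eq (.single (beta_redex A P0 N)))) ?_
        exact (hs.cl_red P0).eq
      rw [hlf] at hS ⊢
      have := subst_lemma H hc P0 (g.cons hA) g hs E2 h hP0 (by rw [hK]; exact hp) hS hg1
      refine ⟨this.1, this.2.trans ?_⟩
      rw [ev_app, ev_lam_cons]
      show _ = cst _ (ev _ P0 (acons _ (arg _ (dm P W (cl _ ρ (lam A P0))) ρ N) ρ) p)
      rw [hdom]
  | @appL F F' N bF ih =>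
      intro G ρ K p g h hM hp hS hg
      obtain ⟨A, B, hF, hN, e⟩ := fgen_app hM _ _ rfl
      rcases hg with hd | ⟨hm, hg1, hg2⟩
      · refine ⟨.inl (dead_beta bF hd), ?_⟩
        rw [ev_dead (M := F.app N) hd, ev_dead (M := F'.app N) (dead_beta bF hd)]
      obtain ⟨s, hpi⟩ := fpi_typed g.wf hF
      obtain ⟨a, b, c, hA, hB, r, -⟩ := fgen_pi hpi _ _ rfl
      have hdom : dm P W (cl _ ρ F) = nf (cl _ ρ A) := dm_eq H (h.ty hF)
      have hdom' : dm P W (cl _ ρ F') = nf (cl _ ρ A) := dm_eq H (h.ty (fsr hF g.wf _ bF))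
      change md P idx i W (dm P W (cl _ ρ F)) ≠ _ at hm
      change Gd _ F ρ (arg _ (dm P W (cl _ ρ F)) ρ N :: p) at hg1
      change ∀ q, POk _ q (dm P W (cl _ ρ F)) →
        St P idx i W (nf (apps _ (nf (cl _ ρ N)) q)) → Gd _ N ρ q at hg2
      rw [hdom] at hm hg1 hg2
      obtain ⟨hpF, hlf⟩ := pok_app H h hM hA hB hN e hp hm
      rw [hlf] at hS ⊢
      obtain ⟨h6, h7⟩ := ih g h hF hpF hS hg1
      refine ⟨.inr ⟨?_, ?_, ?_⟩, ?_⟩
      · show md P idx i W (dm P W (cl _ ρ F')) ≠ _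
        rw [hdom']; exact hm
      · show Gd _ F' ρ (arg _ (dm P W (cl _ ρ F')) ρ N :: p)
        rw [hdom']; exact h6
      · show ∀ q, POk _ q (dm P W (cl _ ρ F')) →
          St P idx i W (nf (apps _ (nf (cl _ ρ N)) q)) → Gd _ N ρ q
        rw [hdom']; exact hg2
      · show cst _ (ev _ F' ρ (arg _ (dm P W (cl _ ρ F')) ρ N :: p)) =
          cst _ (ev _ F ρ (arg _ (dm P W (cl _ ρ F)) ρ N :: p))
        rw [hdom', hdom]; exact h7
  | @appR F N N' bN ih =>
      intro G ρ K p g h hM hp hS hg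
      obtain ⟨A, B, hF, hN, e⟩ := fgen_app hM _ _ rfl
      rcases hg with hd | ⟨hm, hg1, hg2⟩
      · refine ⟨.inl hd, ?_⟩
        rw [ev_dead (M := F.app N) hd, ev_dead (M := F.app N') hd]
      obtain ⟨s, hpi⟩ := fpi_typed g.wf hF
      obtain ⟨a, b, c, hA, hB, r, -⟩ := fgen_pi hpi _ _ rfl
      have hdom : dm P W (cl _ ρ F) = nf (cl _ ρ A) := dm_eq H (h.ty hF)
      change md P idx i W (dm P W (cl _ ρ F)) ≠ _ at hm
      change Gd _ F ρ (arg _ (dm P W (cl _ ρ F)) ρ N :: p) at hg1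
      change ∀ q, POk _ q (dm P W (cl _ ρ F)) →
        St P idx i W (nf (apps _ (nf (cl _ ρ N)) q)) → Gd _ N ρ q at hg2
      rw [hdom] at hm hg1 hg2
      have hn : nf (cl _ ρ N') = nf (cl _ ρ N) :=
        (nf_eq (cl_beq _ (Red.eq (.single bN))) (h.wn H hN).1).symm
      have keyN : ∀ q, POk _ q (nf (cl _ ρ A)) →
          St P idx i W (nf (apps _ (nf (cl _ ρ N)) q)) →
          Gd (St P idx i W) N' ρ q ∧
          cst (nf (apps _ (nf (cl _ ρ N)) q)) (ev _ N' ρ q) =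
            cst (nf (apps _ (nf (cl _ ρ N)) q)) (ev _ N ρ q) := by
        intro q hq hSq
        have hlf : nf (apps _ (nf (cl _ ρ N)) q) = nf (apps _ (cl _ ρ N) q) :=
          lf_eq H (h.tyn H hN).2 hq (BetaEq.symm (nf_beq _))
        have h4 := hg2 q hq hSq
        rw [hlf] at hSq ⊢
        exact ih g h hN hq hSq h4
      have harg : arg (dat P idx i W cst wt) (nf (cl _ ρ A)) ρ N' = arg _ (nf (cl _ ρ A)) ρ N :=
        arg_eq hc hn (fun q hq hSq => (keyN q hq hSq).2)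
      refine ⟨.inr ⟨?_, ?_, ?_⟩, ?_⟩
      · show md P idx i W (dm P W (cl _ ρ F)) ≠ _
        rw [hdom]; exact hm
      · show Gd _ F ρ (arg _ (dm P W (cl _ ρ F)) ρ N' :: p)
        rw [hdom, harg]; exact hg1
      · show ∀ q, POk _ q (dm P W (cl _ ρ F)) →
          St P idx i W (nf (apps _ (nf (cl _ ρ N')) q)) → Gd _ N' ρ q
        rw [hdom, hn]
        intro q hq hSq
        exact (keyN q hq hSq).1
      · show cst _ (ev _ F ρ (arg _ (dm P W (cl _ ρ F)) ρ N' :: p)) =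
          cst _ (ev _ F ρ (arg _ (dm P W (cl _ ρ F)) ρ N :: p))
        rw [hdom, harg]
  | @lamA A A' M bA ih =>
      intro G ρ K p g h hM hp hS hg
      cases p with
      | nil => exact ⟨trivial, rfl⟩
      | cons x p => exact ⟨hg, rfl⟩
  | @lamM A M M' bM ih =>
      intro G ρ K p g h hM hp hS hg
      obtain ⟨x, p', B0, a, b, rfl, hA, hB, hM0, E2, hx, hj, hp2, hlf⟩ := pok_lam H h hM hp
      rw [hlf] at hS ⊢
      exact ih (g.cons hA) E2 hM0 hp2 hS hg
  | @piA A A' B bA ih =>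
      intro G ρ K p g h hM hp hS hg
      obtain ⟨a, b, c, hA, hB, r, e⟩ := fgen_pi hM _ _ rfl
      have hK : nf (cl _ ρ K) = .sort c := by
        rw [nf_eq (cl_beq _ e) (h.wn H hM).2]
        exact nf_sort c
      rw [hK] at hp
      obtain ⟨rfl, hci⟩ := pok_sort hp
      obtain ⟨hg1, hg2⟩ := hg
      have hnA : nf (cl _ ρ A') = nf (cl _ ρ A) :=
        (nf_eq (cl_beq _ (Red.eq (.single bA))) (h.wn H hA).1).symm
      have keyA : St P idx i W (nf (cl _ ρ A)) → Gd (St P idx i W) A' ρ [] ∧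
          cst (nf (cl _ ρ A)) (ev _ A' ρ []) = cst (nf (cl _ ρ A)) (ev _ A ρ []) := by
        intro hSA
        have hai : idx a = i := hSA.eq_of_le (FSR H.good.wf (h.ty hA) (red_nf _))
          (by have := H.left _ _ _ r; omega)
        exact ih (p := []) g h hA ⟨a, nf_sort a, hai⟩ hSA (hg1 hSA)
      refine ⟨⟨?_, ?_⟩, ?_⟩
      · intro hSA
        change St P idx i W (nf (cl _ ρ A')) at hSA
        rw [hnA] at hSA
        exact (keyA hSA).1
      · intro a' j ha' hj hSB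
        change tyN P W a' (nf (cl _ ρ A')) at ha'
        change IQ _ (nf (cl _ ρ A')) j at hj
        rw [hnA] at ha' hj
        exact hg2 a' j ha' hj hSB
      · congr 1
        refine pi_eq H hc hnA ?_ (fun hSA => (keyA hSA).2) (fun a' j ha' hj => ⟨rfl, fun _ => rfl⟩)
        exact (nf_eq (cl_beq _ (Red.eq (.single (.piA _ bA)))) (h.wn H hM).1).symm
  | @piB A B B' bB ih =>
      intro G ρ K p g h hM hp hS hg
      obtain ⟨a, b, c, hA, hB, r, e⟩ := fgen_pi hM _ _ rfl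
      have hK : nf (cl _ ρ K) = .sort c := by
        rw [nf_eq (cl_beq _ e) (h.wn H hM).2]
        exact nf_sort c
      rw [hK] at hp
      obtain ⟨rfl, hci⟩ := pok_sort hp
      obtain ⟨hg1, hg2⟩ := hg
      have keyB : ∀ (a' : Term S) (j : Inf (dat P idx i W cst wt)),
          tyN P W a' (nf (cl _ ρ A)) → IQ _ (nf (cl _ ρ A)) j →
          nf (cl _ (acons _ (a', j) ρ) B') = nf (cl _ (acons _ (a', j) ρ) B) ∧
          (St P idx i W (nf (cl _ (acons _ (a', j) ρ) B)) →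
            Gd (St P idx i W) B' (acons _ (a', j) ρ) [] ∧
            cst (nf (cl _ (acons _ (a', j) ρ) B)) (ev _ B' (acons _ (a', j) ρ) []) =
              cst (nf (cl _ (acons _ (a', j) ρ) B)) (ev _ B (acons _ (a', j) ρ) [])) := by
        intro a' j ha' hj
        have E2 : EOk (fcons A G) (acons _ (a', j) ρ) := h.cons hA ha' (iq_ok hj)
        refine ⟨(nf_eq (cl_beq _ (Red.eq (.single bB))) (E2.wn H hB).1).symm, fun hSB => ?_⟩
        have hbi : idx b = i := hSB.eq_of_le (FSR H.good.wf (E2.ty hB) (red_nf _))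
          (by have := H.right _ _ _ r; omega)
        exact ih (p := []) (g.cons hA) E2 hB ⟨b, nf_sort b, hbi⟩ hSB (hg2 a' j ha' hj hSB)
      refine ⟨⟨hg1, ?_⟩, ?_⟩
      · intro a' j ha' hj hSB
        obtain ⟨h3, h4⟩ := keyB a' j ha' hj
        change St P idx i W (nf (cl _ (acons _ (a', j) ρ) B')) at hSB
        rw [h3] at hSB
        exact (h4 hSB).1
      · congr 1
        refine pi_eq H hc rfl ?_ (fun hSA => rfl) (fun a' j ha' hj => ?_)
        · exact (nf_eq (cl_beq _ (Red.eq (.single (.piB _ bB)))) (h.wn H hM).1).symm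
        · obtain ⟨h3, h4⟩ := keyB a' j ha' hj
          exact ⟨h3, fun hSB => (h4 hSB).2⟩

/-- beta invariance along reductions -/
theorem red_lemma (H : Hyp P idx i W) (hc : CstOk P idx i W cst) {M M' : Term S}
    (rd : Red M M') {G : ℕ → Term S} {ρ : ℕ → Arg (dat P idx i W cst wt)} {K : Term S}
    {p : List (Arg (dat P idx i W cst wt))} (g : Good P G) (h : EOk G ρ) (hM : TyF P G M K)
    (hp : POk _ p (nf (cl _ ρ K))) (hS : St P idx i W (nf (apps _ (cl _ ρ M) p)))
    (hg : Gd (St P idx i W) M ρ p) :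
    Gd (St P idx i W) M' ρ p ∧
      cst (nf (apps _ (cl _ ρ M) p)) (ev _ M' ρ p) =
        cst (nf (apps _ (cl _ ρ M) p)) (ev _ M ρ p) := by
  induction rd with
  | refl => exact ⟨hg, rfl⟩
  | @tail M1 M2 r b ih =>
      obtain ⟨h1, h2⟩ := ih
      have hlf : nf (apps _ (cl _ ρ M) p) = nf (apps _ (cl _ ρ M1) p) :=
        lf_eq H (tyf_red_type H.good.wf (h.ty hM) (red_nf _)) hp (cl_beq _ (Red.eq r))
      have := beta_lemma H hc b g h (FSR g.wf hM r) hp (by rw [← hlf]; exact hS) h1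
      rw [← hlf] at this
      exact ⟨this.1, this.2.trans h2⟩

/-! ### normal terms are good -/

theorem md_ne_irr {K : Term S} (h : Rl P {x | idx x = i} W K) : md P idx i W K ≠ .irr := by
  unfold md
  rw [if_pos h]
  split <;> split <;> simp

/-- the closed type of a live neutral term is signed -/
theorem ne_sg (H : Hyp P idx i W) {k : ℕ} {M : Term S} (hn : Ne k M) :
    ∀ {G : ℕ → Term S} {ρ : ℕ → Arg (dat P idx i W cst wt)} {K : Term S}, Good P G → EOk G ρ →
      TyF P G M K → (ρ k).2 ≠ .dflt → Rl P {x | idx x = i} W (nf (cl _ ρ K)) →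
      ∃ e, SgT P idx i W e (nf (cl _ ρ K)) := by
  induction hn with
  | var =>
      intro G ρ K g h hM hd hr
      have hK : nf (cl _ ρ K) = nf (cl _ ρ (G k)) :=
        nf_eq (cl_beq _ (fgen_var hM _ rfl).2) (h.wn H hM).2
      rw [hK] at hr ⊢
      rcases h.inf k with hi | hi
      · exact (hd hi).elim
      · refine md_signed ?_ (md_ne_irr hr)
        intro hj
        rcases iok_cases hi with h' | h' | h' | h' <;> rw [hj] at h' <;> cases h'.1
  | @app M N _ ih =>
      intro G ρ K g h hM hd hr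
      obtain ⟨A, B, hF, hN, e⟩ := fgen_app hM _ _ rfl
      obtain ⟨s, hpi⟩ := fpi_typed g.wf hF
      obtain ⟨a, b, c, hA, hB, r, -⟩ := fgen_pi hpi _ _ rfl
      have hK : nf (cl _ ρ K) = nf (inst (nf (cl _ ρ N)) (nf (sub (ups fun k => (ρ k).1) B))) := by
        refine nf_eq ?_ (h.wn H hM).2
        refine BetaEq.trans (cl_beq _ e) ?_
        unfold cl
        rw [sub_inst]
        exact BetaEq.inst (nf_beq _) (nf_beq _)
      have hF' := nf_cl_pi H h hA hB
      rw [hK] at hr ⊢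
      have hr' : Rl P {x | idx x = i} W (nf (cl _ ρ (.pi A B))) := by
        rw [hF']
        exact .step ⟨_, _, _, .refl, (h.tyn H hN).2, rfl⟩ (hr.of_red (red_nf _))
      obtain ⟨e', he'⟩ := ih g h hF hd hr'
      rw [hF'] at he'
      exact ⟨e', he'.cod H.good.wf (h.tyn H hN).2 hr⟩

theorem ne_dead {𝒟 : Dat S} {k : ℕ} {M : Term S} (hn : Ne k M) {ρ : ℕ → Arg 𝒟}
    (h : (ρ k).2 = .dflt) : Dead M ρ := by
  induction hn with
  | var => exact h
  | app _ ih => exact ih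

/-- **normal terms are good** -/
theorem ng (H : Hyp P idx i W) (M : Term S) :
    ∀ {G : ℕ → Term S} {ρ : ℕ → Arg (dat P idx i W cst wt)} {K : Term S}
      {p : List (Arg (dat P idx i W cst wt))}, Good P G → EOk G ρ → Normal M → TyF P G M K →
      POk _ p (nf (cl _ ρ K)) → St P idx i W (nf (apps _ (cl _ ρ M) p)) →
      Gd (St P idx i W) M ρ p := by
  induction M with
  | var k => intro _ _ _ _ _ _ _ _ _ _; trivial
  | sort s => intro _ _ _ _ _ _ _ _ _ _; trivial
  | lam A M _ ihM =>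
      intro G ρ K p g h hn hM hp hS
      obtain ⟨x, p', B0, a, b, rfl, hA, hB, hM0, E2, hx, hj, hp2, hlf⟩ := pok_lam H h hM hp
      rw [hlf] at hS
      exact ihM (g.cons hA) E2 (fun M' b => hn _ (.lamM _ b)) hM0 hp2 hS
  | pi A B ihA ihB =>
      intro G ρ K p g h hn hM hp hS
      obtain ⟨a, b, c, hA, hB, r, e⟩ := fgen_pi hM _ _ rfl
      have hK : nf (cl _ ρ K) = .sort c := by
        rw [nf_eq (cl_beq _ e) (h.wn H hM).2]
        exact nf_sort c
      rw [hK] at hp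
      obtain ⟨rfl, hci⟩ := pok_sort hp
      refine ⟨fun hSA => ?_, fun a' j ha' hj hSB => ?_⟩
      · have hai : idx a = i := St.eq_of_le (P := P) (W := W) hSA
          (FSR H.good.wf (h.ty hA) (red_nf _)) (by have := H.left _ _ _ r; omega)
        exact ihA (p := []) g h (normal_pi hn).1 hA ⟨a, nf_sort a, hai⟩ hSA
      · have E2 : EOk (fcons A G) (acons _ (a', j) ρ) := h.cons hA ha' (iq_ok hj)
        have hbi : idx b = i := St.eq_of_le (P := P) (W := W) hSB
          (FSR H.good.wf (E2.ty hB) (red_nf _)) (by have := H.right _ _ _ r; omega)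
        exact ihB (p := []) (g.cons hA) E2 (normal_pi hn).2 hB ⟨b, nf_sort b, hbi⟩ hSB
  | app F N ihF ihN =>
      intro G ρ K p g h hn hM hp hS
      obtain ⟨A, B, hF, hN, e⟩ := fgen_app hM _ _ rfl
      obtain ⟨s, hpi⟩ := fpi_typed g.wf hF
      obtain ⟨a, b, c, hA, hB, r, -⟩ := fgen_pi hpi _ _ rfl
      have nF : Normal F := fun M' b => hn _ (.appL _ b)
      have nN : Normal N := fun M' b => hn _ (.appR _ b)
      obtain ⟨k, hk⟩ : ∃ k, Fl113.Ne k F := by
        rcases Fl113.normal_type hn hM with ⟨s, e⟩ | ⟨A, B, e⟩ | ⟨A, B, e⟩ | ⟨k, hk⟩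
        · cases e
        · cases e
        · cases e
        · cases hk with
          | app hk => exact ⟨k, hk⟩
      by_cases hd : (ρ k).2 = .dflt
      · exact .inl (ne_dead hk hd)
      · have hdom : dm P W (cl _ ρ F) = nf (cl _ ρ A) := dm_eq H (h.ty hF)
        have hF' := nf_cl_pi H h hA hB
        have hK : nf (cl _ ρ K) =
            nf (inst (nf (cl _ ρ N)) (nf (sub (ups fun k => (ρ k).1) B))) := by
          refine nf_eq ?_ (h.wn H hM).2
          refine BetaEq.trans (cl_beq _ e) ?_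
          unfold cl
          rw [sub_inst]
          exact BetaEq.inst (nf_beq _) (nf_beq _)
        have hr := pok_rl hp
        have hr' : Rl P {x | idx x = i} W (nf (cl _ ρ (.pi A B))) := by
          rw [hK] at hr
          rw [hF']
          exact .step ⟨_, _, _, .refl, (h.tyn H hN).2, rfl⟩ (hr.of_red (red_nf _))
        obtain ⟨e', he'⟩ := ne_sg H hk g h hF hd hr'
        have hm : md P idx i W (nf (cl _ ρ A)) ≠ .junk := by
          rw [hF'] at he' hr'
          by_cases hA' : Rl P {x | idx x = i} W (nf (cl _ ρ A))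
          · exact (md_sg hA' _ (he'.dom H.good.wf hr' hA')).1
          · rw [md_irr hA']; simp
        obtain ⟨hpF, hlf⟩ := pok_app H h hM hA hB hN e hp hm
        rw [hlf] at hS
        refine .inr ⟨?_, ?_, ?_⟩
        · show md P idx i W (dm P W (cl _ ρ F)) ≠ _
          rw [hdom]; exact hm
        · show Gd _ F ρ (arg _ (dm P W (cl _ ρ F)) ρ N :: p)
          rw [hdom]
          exact ihF g h nF hF hpF hS
        · show ∀ q, POk _ q (dm P W (cl _ ρ F)) →
            St P idx i W (nf (apps _ (nf (cl _ ρ N)) q)) → Gd _ N ρ q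
          rw [hdom]
          intro q hq hSq
          have hlf' : nf (apps _ (nf (cl _ ρ N)) q) = nf (apps _ (cl _ ρ N) q) :=
            lf_eq H (h.tyn H hN).2 hq (BetaEq.symm (nf_beq _))
          rw [hlf'] at hSq
          exact ihN g h nN hN hq hSq

/-! ### the instantiation equality -/

theorem iq_of_true {K : Term S} {j : Inf (dat P idx i W cst wt)}
    (hm : Rl P {x | idx x = i} W K → SgT P idx i W true K) (h : IOk _ K j) : IQ _ K j := by
  have hcase : md P idx i W K = .irr ∨ md P idx i W K = .both ∨ md P idx i W K = .qu := by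
    by_cases hr : Rl P {x | idx x = i} W K
    · exact .inr (md_true hr (hm hr))
    · exact .inl (md_irr hr)
  unfold IOk at h
  unfold IQ
  have hd : (dat P idx i W cst wt).mode K = md P idx i W K := rfl
  rw [hd] at h ⊢
  rcases hcase with h' | h' | h' <;> rw [h'] at h ⊢ <;> exact h

/-- **instantiation**: the equality behind (R4) -/
theorem inst_eq (H : Hyp P idx i W) (hc : CstOk P idx i W cst) {G : ℕ → Term S}
    {ρ : ℕ → Arg (dat P idx i W cst wt)} (g : Good P G) (h : EOk G ρ) {A B N : Term S}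
    {a b c : S} (r : P.rule a b c) (hA : TyF P G A (.sort a))
    (hB : TyF P (fcons A G) B (.sort b)) (hN : TyF P G N A) (hb : idx b = i) (hci : idx c = i)
    (hS : St P idx i W (nf (cl _ ρ (inst N B)))) :
    ∃ j : Inf (dat P idx i W cst wt), IQ _ (nf (cl _ ρ A)) j ∧
      IOk _ (nf (cl _ ρ A)) j ∧
      RR _ (nf B) (acons _ (nf (cl _ ρ N), j) ρ) = RR _ (nf (inst N B)) ρ := by
  have gA := g.cons hA
  have nN : Normal (nf N) := nf_normal (H.wn g hN).1
  have nB : Normal (nf B) := nf_normal (H.wn gA hB).1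
  have tN : TyF P G (nf N) A := FSR g.wf hN (red_nf _)
  have tB : TyF P (fcons A G) (nf B) (.sort b) := FSR gA.wf hB (red_nf _)
  have tK : TyF P W (nf (cl _ ρ A)) (.sort a) := FSR H.good.wf (h.ty hA) (red_nf _)
  have hsg : Rl P {x | idx x = i} W (nf (cl _ ρ A)) → SgT P idx i W true (nf (cl _ ρ A)) :=
    fun hr => SgT.base H.good.wf r hb hci tK hr
  have hm : md P idx i W (nf (cl _ ρ A)) ≠ .junk := by
    by_cases hr : Rl P {x | idx x = i} W (nf (cl _ ρ A))
    · exact (md_sg hr _ (hsg hr)).1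
    · rw [md_irr hr]; simp
  have hj : IOk (dat P idx i W cst wt) (nf (cl _ ρ A))
      (pack _ (nf (cl _ ρ A)) (nf (cl _ ρ (nf N))) (ev _ (nf N) ρ)) := iok_pack _ _ hm
  refine ⟨_, iq_of_true hsg hj, hj, ?_⟩
  have hnn : nf (cl _ ρ N) = nf (cl _ ρ (nf N)) := nf_eq (cl_beq _ (nf_beq N)) (h.wn H hN).1
  rw [hnn]
  show RR _ (nf B) (acons _ (arg _ (nf (cl _ ρ A)) ρ (nf N)) ρ) = _
  have E2 : EOk (fcons A G) (acons _ (arg _ (nf (cl _ ρ A)) ρ (nf N)) ρ) :=
    h.cons hA (h.tyn H tN) (.inr hj)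
  have hs : SOk (scons (nf N) var) (fcons A G) G
      (acons _ (arg _ (nf (cl _ ρ A)) ρ (nf N)) ρ) ρ := by
    refine ⟨(SubF.var g.wf).scons (by rwa [sub_id]), ?_⟩
    intro k
    cases k with
    | zero =>
        refine .inr ?_
        rw [fcons_zero, cl_acons_wk]
        refine ⟨rfl, hm, ?_⟩
        intro q hq hSq
        have hlf' : nf (apps _ (nf (cl _ ρ (nf N))) q) = nf (apps _ (cl _ ρ (nf N)) q) :=
          lf_eq H (h.tyn H tN).2 hq (BetaEq.symm (nf_beq _))
        change St P idx i W (nf (apps _ (nf (cl _ ρ (nf N))) q)) at hSq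
        rw [hlf'] at hSq
        exact ng H (nf N) g h nN tN hq hSq
    | succ k => exact .inl ⟨k, rfl, rfl⟩
  -- the leaf
  have hI : TyF P G (inst N B) (.sort b) := tyf_inst g.wf hB hN
  have hI' : TyF P G (inst (nf N) (nf B)) (.sort b) := tyf_inst g.wf tB tN
  have e1 : BetaEq (inst (nf N) (nf B)) (inst N B) :=
    BetaEq.symm (red_inst (red_nf N) (red_nf B)).eq
  have hT : nf (cl _ (acons _ (arg _ (nf (cl _ ρ A)) ρ (nf N)) ρ) (nf B)) =
      nf (cl _ ρ (inst (nf N) (nf B))) :=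
    (nf_eq (hs.cl_red (nf B)).eq (h.wn H hI').1).symm
  have hT2 : nf (cl _ ρ (inst (nf N) (nf B))) = nf (cl _ ρ (inst N B)) :=
    nf_eq (cl_beq _ e1) (h.wn H hI').1
  have hT3 : nf (cl _ ρ (nf (inst N B))) = nf (cl _ ρ (inst N B)) :=
    (nf_eq (cl_beq _ (nf_beq _)) (h.wn H hI).1).symm
  have hS1 : St P idx i W (nf (cl _ (acons _ (arg _ (nf (cl _ ρ A)) ρ (nf N)) ρ) (nf B))) := by
    rw [hT, hT2]; exact hS
  have gB : Gd (St P idx i W) (nf B) (acons _ (arg _ (nf (cl _ ρ A)) ρ (nf N)) ρ) [] :=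
    ng H (nf B) (p := []) gA E2 nB tB ⟨b, nf_sort b, hb⟩ hS1
  obtain ⟨h3, h4⟩ := subst_lemma H hc (nf B) (p := []) gA g hs E2 h tB ⟨b, nf_sort b, hb⟩ hS1 gB
  have hred : Red (inst (nf N) (nf B)) (nf (inst N B)) :=
    red_of_eq_normal (BetaEq.trans e1 (nf_beq _)) (nf_normal (H.wn g hI).1)
  have hS2 : St P idx i W (nf (apps (dat P idx i W cst wt)
      (cl (dat P idx i W cst wt) ρ (inst (nf N) (nf B))) [])) := by
    show St P idx i W (nf (cl _ ρ (inst (nf N) (nf B))))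
    rw [hT2]; exact hS
  obtain ⟨h5, h6⟩ := red_lemma H hc hred (p := []) g h hI' ⟨b, nf_sort b, hb⟩ hS2 h3
  change cst (nf (cl _ (acons _ (arg _ (nf (cl _ ρ A)) ρ (nf N)) ρ) (nf B)))
    (ev _ (inst (nf N) (nf B)) ρ []) = _ at h4
  change cst (nf (cl _ ρ (inst (nf N) (nf B)))) (ev _ (nf (inst N B)) ρ []) =
    cst (nf (cl _ ρ (inst (nf N) (nf B)))) _ at h6
  unfold RR
  show cst (nf (cl _ (acons _ (arg _ (nf (cl _ ρ A)) ρ (nf N)) ρ) (nf B))) _ =
    cst (nf (cl _ ρ (nf (inst N B)))) _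
  change _ = cst (nf (cl _ (acons _ (arg _ (nf (cl _ ρ A)) ρ (nf N)) ρ) (nf B))) _ at h4
  rw [← h4, hT, ← h6, hT2, hT3]

end beta

end Crest.Agent.R298.V40
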