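import Crest.Agent.R298.MainF_865
import Crest.Agent.R298.Uniq_452
import Crest.Agent.R298.Dom_201
import Crest.Agent.R298.Fl1_113

/-!
R298 (S0452), helper891, insurance for block (T), file 1: the closed world.
`In` (membership up to conversion), relevance by instance chains `Rel`, modes of closed types,
tame types, the infos of tame types, valid argument lists `VL`, and `pack`.
-/

set_option autoImplicit false

namespace Crest.Agent.R298.T891

open Crest.LogicCS.PTS Crest.LogicCS.PTS.Term Relation
open Crest.Agent.R298.Sub452 Crest.Agent.R298.Par452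
open Crest.Agent.R298.TyF452 Crest.Agent.R298.Mem360
open Crest.Agent.R298.Dom201 (X Pt Neg Val Args Supp AgA AgV AgN ArgLt PtLt codeF app_codeF
  app_supp exists_bound exists_bound_of_factor)
open Crest.Agent.R298.Fl113 (RelS)

variable {S : Type} {P : Spec S} {W : ℕ → Term S} {D : Set S}

/-- leaf values -/
def CS (S : Type) : Type := Set (MT S)

instance : Inhabited (CS S) := ⟨(Set.univ : Set (MT S))⟩

theorem default_CS : (default : CS S) = (Set.univ : Set (MT S)) := rfl

/-! ### membership, relevance -/

/-- `a` has a type convertible to `A` -/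
def In (P : Spec S) (W : ℕ → Term S) (a A : Term S) : Prop := ∃ A', BetaEq A A' ∧ TyF P W a A'

theorem In.of {a A : Term S} (h : TyF P W a A) : In P W a A := ⟨A, .refl _, h⟩

theorem In.conv {a A A' : Term S} (h : In P W a A) (e : BetaEq A A') : In P W a A' := by
  obtain ⟨A0, e0, h0⟩ := h
  exact ⟨A0, BetaEq.trans (BetaEq.symm e) e0, h0⟩

theorem In.typed {a A : Term S} {s : S} (h : In P W a A) (hA : TyF P W A (sort s)) :
    TyF P W a A := by
  obtain ⟨A0, e0, h0⟩ := h
  exact .conv h0 hA (BetaEq.symm e0)

/-- relevance: some instance chain of codomains ends in a sort of `D` -/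
inductive Rel (P : Spec S) (W : ℕ → Term S) (D : Set S) : Term S → Prop
  | leaf {T : Term S} {s : S} : BetaEq T (sort s) → s ∈ D → Rel P W D T
  | step {T A B a : Term S} : BetaEq T (pi A B) → In P W a A → Rel P W D (inst a B) →
      Rel P W D T

theorem Rel.conv {T T' : Term S} (h : Rel P W D T) (e : BetaEq T T') : Rel P W D T' := by
  cases h with
  | leaf e0 hs => exact .leaf (BetaEq.trans (BetaEq.symm e) e0) hs
  | step e0 ha h => exact .step (BetaEq.trans (BetaEq.symm e) e0) ha h

/-- the sorts of a type -/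
abbrev Srt (P : Spec S) (W : ℕ → Term S) (T : Term S) (t : S) : Prop := Uniq452.Sg P W T t

theorem Rel.relS (w : WfF P W) {T : Term S} (h : Rel P W D T) :
    ∀ {t : S}, Srt P W T t → RelS P D t := by
  induction h with
  | @leaf T s e hs =>
      intro t ht
      obtain ⟨T', r, hT'⟩ := ht.red w
      have r' : Red T' (sort s) := red_of_eq_sort (BetaEq.trans (BetaEq.symm r.eq) e)
      obtain ⟨s', ha, e'⟩ := fgen_sort (FSR w hT' r') _ rfl
      have := sort_inj e'
      subst this
      exact .base hs ha
  | @step T A B a e ha _ ih =>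
      intro t ht
      obtain ⟨a1, b1, r, _, A', rA, hA', hB⟩ := (Uniq452.Sg.conv ht (BetaEq.symm e)).pi_inv w
      have ha' : TyF P W a A' := (ha.conv rA.eq).typed hA'
      exact .up r (ih (hB.inst w ha'))

/-- the mode of a closed type -/
def Mode (P : Spec S) (W : ℕ → Term S) (D : Set S) (T : Term S) (e : Bool) : Prop :=
  ∃ t, Srt P W T t ∧ Fl113.Sg P D t e

theorem Mode.conv {T T' : Term S} {b : Bool} (h : Mode P W D T b) (e : BetaEq T T') :
    Mode P W D T' b := by
  obtain ⟨t, h1, h2⟩ := h
  exact ⟨t, h1.conv (BetaEq.symm e), h2⟩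

theorem Mode.cod (w : WfF P W) {A B a : Term S} {b : Bool} (h : Mode P W D (pi A B) b)
    (ha : In P W a A) (hr : Rel P W D (inst a B)) : Mode P W D (inst a B) b := by
  obtain ⟨t, h1, h2⟩ := h
  obtain ⟨a1, b1, r, _, A', rA, hA', hB⟩ := h1.pi_inv w
  have ha' : TyF P W a A' := (ha.conv rA.eq).typed hA'
  have hB' := hB.inst w ha'
  exact ⟨b1, hB', .cod r (hr.relS w hB') h2⟩

theorem Mode.dom (w : WfF P W) {A B a : Term S} {b : Bool} (h : Mode P W D (pi A B) b)
    (ha : In P W a A) (hr : Rel P W D (inst a B)) (hA : Rel P W D A) : Mode P W D A (!b) := by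
  obtain ⟨t, h1, h2⟩ := h
  obtain ⟨a1, b1, r, hA1, A', rA, hA', hB⟩ := h1.pi_inv w
  have ha' : TyF P W a A' := (ha.conv rA.eq).typed hA'
  have hB' := hB.inst w ha'
  exact ⟨a1, hA1, .dom r (hA.relS w hA1) (hr.relS w hB') h2⟩

/-! ### domain steps, tame types -/

/-- codomain instances -/
inductive Desc (P : Spec S) (W : ℕ → Term S) (T : Term S) : Term S → Prop
  | base {T' : Term S} : BetaEq T T' → Desc P W T T'
  | step {T1 A B a : Term S} : Desc P W T T1 → BetaEq T1 (pi A B) → In P W a A →
      Desc P W T (inst a B)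

theorem Desc.conv_left {T T' K : Term S} (h : Desc P W T K) (e : BetaEq T T') :
    Desc P W T' K := by
  induction h with
  | base e0 => exact .base (BetaEq.trans (BetaEq.symm e) e0)
  | step _ e1 ha ih => exact .step ih e1 ha

theorem Desc.trans {T T1 T2 : Term S} (h : Desc P W T T1) (h' : Desc P W T1 T2) :
    ∃ T3, BetaEq T3 T2 ∧ Desc P W T T3 := by
  induction h' with
  | base e => exact ⟨_, e, h⟩
  | step _ e1 ha ih =>
      obtain ⟨T3, e3, h3⟩ := ih
      exact ⟨_, .refl _, .step h3 (BetaEq.trans e3 e1) ha⟩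

/-- `A` is a relevant domain of a relevant codomain instance of `T` -/
def DS (P : Spec S) (W : ℕ → Term S) (D : Set S) (A T : Term S) : Prop :=
  ∃ T1 A' B a, Desc P W T T1 ∧ BetaEq T1 (pi A' B) ∧ BetaEq A A' ∧ In P W a A' ∧
    Rel P W D (inst a B) ∧ Rel P W D A

theorem DS.conv_right {A T T' : Term S} (h : DS P W D A T) (e : BetaEq T T') :
    DS P W D A T' := by
  obtain ⟨T1, A', B, a, h1, h2⟩ := h
  exact ⟨T1, A', B, a, h1.conv_left e, h2⟩

theorem DS.conv_left {A A1 T : Term S} (h : DS P W D A T) (e : BetaEq A A1) :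
    DS P W D A1 T := by
  obtain ⟨T1, A', B, a, h1, h2, h3, h4, h5, h6⟩ := h
  exact ⟨T1, A', B, a, h1, h2, BetaEq.trans (BetaEq.symm e) h3, h4, h5, h6.conv e⟩

/-- tame types -/
def Tame (P : Spec S) (W : ℕ → Term S) (D : Set S) (T : Term S) : Prop := Acc (DS P W D) T

theorem Tame.conv {T T' : Term S} (h : Tame P W D T) (e : BetaEq T T') : Tame P W D T' :=
  Acc.intro _ fun _ hA => h.inv (hA.conv_right (BetaEq.symm e))

theorem Tame.desc {T T' : Term S} (h : Tame P W D T) (hd : Desc P W T T') : Tame P W D T' := by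
  refine Acc.intro _ fun A hA => ?_
  obtain ⟨T1, A', B, a, h1, h2, h3, h4, h5, h6⟩ := hA
  obtain ⟨T3, e3, h7⟩ := hd.trans h1
  exact h.inv ⟨T3, A', B, a, h7, BetaEq.trans e3 h2, h3, h4, h5, h6⟩

theorem Tame.cod {A B a : Term S} (h : Tame P W D (pi A B)) (ha : In P W a A) :
    Tame P W D (inst a B) := h.desc (.step (.base (.refl _)) (.refl _) ha)

theorem Tame.dom {A B a : Term S} (h : Tame P W D (pi A B)) (ha : In P W a A)
    (hr : Rel P W D (inst a B)) (hA : Rel P W D A) : Tame P W D A :=
  h.inv ⟨pi A B, A, B, a, .base (.refl _), .refl _, .refl _, ha, hr, hA⟩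

/-! ### kinds -/

/-- the kinds of closed types: irrelevant (or without mode), tame, minus, plus -/
inductive Kd
  | irr | tm | ng | ps

open Classical in
/-- the kind of a closed type -/
noncomputable def kd (P : Spec S) (W : ℕ → Term S) (D : Set S) (T : Term S) : Kd :=
  if ¬ Rel P W D T then .irr else if Tame P W D T then .tm
    else if Mode P W D T true then .ng else if Mode P W D T false then .ps else .irr

theorem kd_conv {T T' : Term S} (e : BetaEq T T') : kd P W D T = kd P W D T' := by
  unfold kd
  have h1 : Rel P W D T ↔ Rel P W D T' := ⟨fun h => h.conv e, fun h => h.conv (BetaEq.symm e)⟩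
  have h2 : Tame P W D T ↔ Tame P W D T' := ⟨fun h => h.conv e, fun h => h.conv (BetaEq.symm e)⟩
  have h3 : ∀ b, Mode P W D T b ↔ Mode P W D T' b :=
    fun b => ⟨fun h => h.conv e, fun h => h.conv (BetaEq.symm e)⟩
  have e1 := propext h1
  have e2 := propext h2
  have e3 := propext (h3 true)
  have e4 := propext (h3 false)
  rw [e1, e2, e3, e4]

theorem kd_tm {T : Term S} : kd P W D T = .tm ↔ Rel P W D T ∧ Tame P W D T := by
  unfold kd
  split_ifs <;> simp_all

theorem kd_ng {T : Term S} : kd P W D T = .ng ↔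
    Rel P W D T ∧ ¬ Tame P W D T ∧ Mode P W D T true := by
  unfold kd
  split_ifs <;> simp_all

theorem kd_ps {T : Term S} : kd P W D T = .ps ↔
    Rel P W D T ∧ ¬ Tame P W D T ∧ ¬ Mode P W D T true ∧ Mode P W D T false := by
  unfold kd
  split_ifs <;> simp_all

theorem kd_irr {T : Term S} : kd P W D T = .irr ↔
    (Rel P W D T → ¬ Tame P W D T ∧ ¬ Mode P W D T true ∧ ¬ Mode P W D T false) := by
  unfold kd
  split_ifs <;> simp_all

/-- the dummy info -/
noncomputable def dmy (S : Type) : Val (Term S) (CS S) :=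
  Sum.inl (codeF (fun _ : Args (Term S) (CS S) => (default : CS S)))

/-- admissible infos of a closed type, over a table of the infos of tame types -/
noncomputable def VMI (P : Spec S) (W : ℕ → Term S) (D : Set S) (I : Term S → Set X) (A : Term S)
    (v : Val (Term S) (CS S)) : Prop :=
  match kd P W D A with
  | .irr => v = dmy S
  | .tm => ∃ x ∈ I A, v = Sum.inl x
  | .ng => ∃ G, v = Sum.inr G
  | .ps => ∃ x, v = Sum.inl x

/-- valid argument lists of a closed type, over a table of the infos of tame types -/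
def VLI (P : Spec S) (W : ℕ → Term S) (D : Set S) (I : Term S → Set X) :
    Args (Term S) (CS S) → Term S → Prop
  | [], T => ∃ s ∈ D, BetaEq T (sort s)
  | e :: l, T => ∃ A B, BetaEq T (pi A B) ∧ In P W e.1 A ∧ Normal e.1 ∧ VMI P W D I A e.2 ∧
      VLI P W D I l (inst e.1 B)

theorem VLI.rel {I : Term S → Set X} {l : Args (Term S) (CS S)} :
    ∀ {T : Term S}, VLI P W D I l T → Rel P W D T := by
  induction l with
  | nil => rintro T ⟨s, hs, e⟩; exact .leaf e hs
  | cons e l ih => rintro T ⟨A, B, e1, h1, _, _, h4⟩; exact .step e1 h1 (ih h4)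

theorem VLI.conv {I : Term S → Set X} {l : Args (Term S) (CS S)} {T T' : Term S}
    (h : VLI P W D I l T) (e : BetaEq T T') : VLI P W D I l T' := by
  cases l with
  | nil =>
      obtain ⟨s, hs, e1⟩ := h
      exact ⟨s, hs, BetaEq.trans (BetaEq.symm e) e1⟩
  | cons x l =>
      obtain ⟨A, B, e1, h1⟩ := h
      exact ⟨A, B, BetaEq.trans (BetaEq.symm e) e1, h1⟩

theorem VMI_congr {I I' : Term S → Set X} {A : Term S}
    (h : Rel P W D A → Tame P W D A → I A = I' A) (v : Val (Term S) (CS S)) :
    VMI P W D I A v ↔ VMI P W D I' A v := by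
  unfold VMI
  cases hk : kd P W D A with
  | irr => exact Iff.rfl
  | tm => rw [h (kd_tm.1 hk).1 (kd_tm.1 hk).2]
  | ng => exact Iff.rfl
  | ps => exact Iff.rfl

theorem VLI_congr {I I' : Term S → Set X} {T : Term S}
    (h : ∀ A, DS P W D A T → Tame P W D A → I A = I' A) (l : Args (Term S) (CS S)) :
    ∀ {T1 : Term S}, Desc P W T T1 → (VLI P W D I l T1 ↔ VLI P W D I' l T1) := by
  induction l with
  | nil => intro T1 _; exact Iff.rfl
  | cons x l ih =>
      intro T1 hd
      constructor
      · rintro ⟨A, B, e1, h1, h2, h3, h4⟩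
        refine ⟨A, B, e1, h1, h2, ?_, (ih (hd.step e1 h1)).1 h4⟩
        refine (VMI_congr (fun hr ht => h A ?_ ht) _).1 h3
        exact ⟨T1, A, B, x.1, hd, e1, .refl _, h1, h4.rel, hr⟩
      · rintro ⟨A, B, e1, h1, h2, h3, h4⟩
        refine ⟨A, B, e1, h1, h2, ?_, (ih (hd.step e1 h1)).2 h4⟩
        refine (VMI_congr (fun hr ht => h A ?_ ht) _).2 h3
        exact ⟨T1, A, B, x.1, hd, e1, .refl _, h1, h4.rel, hr⟩

open Classical in
/-- restriction of a functional to the valid lists of a type -/
noncomputable def cnI (P : Spec S) (W : ℕ → Term S) (D : Set S) (I : Term S → Set X)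
    (A : Term S) (F : Args (Term S) (CS S) → CS S) : Args (Term S) (CS S) → CS S :=
  fun l => if VLI P W D I l A then F l else default

open Classical in
/-- infos of tame types, by recursion on accessibility -/
noncomputable def infoA (P : Spec S) (W : ℕ → Term S) (D : Set S) :
    ∀ T : Term S, Acc (DS P W D) T → Set X := fun _ h =>
  Acc.rec (motive := fun _ _ => Set X)
    (fun T _ ih => {x | ∃ F : Args (Term S) (CS S) → CS S, x = codeF
      (cnI P W D (fun A => if h : DS P W D A T then ih A h else ∅) T F)}) h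

open Classical in
/-- infos of tame types -/
noncomputable def info (P : Spec S) (W : ℕ → Term S) (D : Set S) (T : Term S) : Set X :=
  if h : Tame P W D T then infoA P W D T h else ∅

/-- admissible infos of a closed type -/
noncomputable def VM (P : Spec S) (W : ℕ → Term S) (D : Set S) (A : Term S)
    (v : Val (Term S) (CS S)) : Prop := VMI P W D (info P W D) A v

/-- valid argument lists of a closed type -/
def VL (P : Spec S) (W : ℕ → Term S) (D : Set S) (l : Args (Term S) (CS S)) (T : Term S) :
    Prop := VLI P W D (info P W D) l T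

/-- restriction of a functional to the valid lists of a type -/
noncomputable def cn (P : Spec S) (W : ℕ → Term S) (D : Set S) (A : Term S)
    (F : Args (Term S) (CS S) → CS S) : Args (Term S) (CS S) → CS S :=
  cnI P W D (info P W D) A F

theorem cn_valid {A : Term S} {F : Args (Term S) (CS S) → CS S} {l : Args (Term S) (CS S)}
    (h : VL P W D l A) : cn P W D A F l = F l := by
  unfold cn cnI
  exact if_pos h

theorem cn_not {A : Term S} {F : Args (Term S) (CS S) → CS S} {l : Args (Term S) (CS S)}
    (h : ¬ VL P W D l A) : cn P W D A F l = default := by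
  unfold cn cnI
  exact if_neg h

theorem info_eq {T : Term S} (h : Tame P W D T) :
    info P W D T = {x | ∃ F : Args (Term S) (CS S) → CS S, x = codeF (cn P W D T F)} := by
  classical
  unfold info
  rw [dif_pos h]
  cases h with
  | intro _ h' =>
      show {x | ∃ F : Args (Term S) (CS S) → CS S, x = codeF
        (cnI P W D (fun A => if h : DS P W D A T then infoA P W D A (h' A h) else ∅) T F)} = _
      have key : ∀ F : Args (Term S) (CS S) → CS S,
          cnI P W D (fun A => if h : DS P W D A T then infoA P W D A (h' A h) else ∅) T F =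
            cn P W D T F := by
        intro F
        funext l
        unfold cn cnI
        have := VLI_congr (P := P) (W := W) (D := D)
          (I := fun A => if h : DS P W D A T then infoA P W D A (h' A h) else ∅)
          (I' := info P W D) (T := T) (by
            intro A hA hT
            simp only [dif_pos hA]
            unfold info
            rw [dif_pos hT]) l (T1 := T) (.base (.refl _))
        simp only [this]
      simp only [key]

theorem VL.conv {l : Args (Term S) (CS S)} {T T' : Term S}
    (h : VL P W D l T) (e : BetaEq T T') : VL P W D l T' := VLI.conv h e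

theorem VL.rel {l : Args (Term S) (CS S)} {T : Term S} (h : VL P W D l T) : Rel P W D T :=
  VLI.rel h

theorem VL_iff {l : Args (Term S) (CS S)} {T T' : Term S} (e : BetaEq T T') :
    VL P W D l T ↔ VL P W D l T' := ⟨fun h => h.conv e, fun h => h.conv (BetaEq.symm e)⟩

theorem cn_conv {T T' : Term S} (e : BetaEq T T') : cn P W D T = cn P W D T' := by
  funext F l
  by_cases h : VL P W D l T
  · rw [cn_valid h, cn_valid (h.conv e)]
  · rw [cn_not h, cn_not (fun h' => h (h'.conv (BetaEq.symm e)))]

theorem info_conv {T T' : Term S} (e : BetaEq T T') : info P W D T = info P W D T' := by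
  by_cases h : Tame P W D T
  · rw [info_eq h, info_eq (h.conv e), cn_conv e]
  · unfold info
    rw [dif_neg h, dif_neg (fun h' => h (h'.conv (BetaEq.symm e)))]

theorem VM_conv {A A' : Term S} (e : BetaEq A A') (v : Val (Term S) (CS S)) :
    VM P W D A v ↔ VM P W D A' v := by
  unfold VM VMI
  rw [kd_conv e, info_conv e]

theorem VL_nil {T : Term S} : VL P W D ([] : Args (Term S) (CS S)) T ↔
    ∃ s ∈ D, BetaEq T (sort s) := Iff.rfl

theorem VL_nil_sort {s : S} : VL P W D ([] : Args (Term S) (CS S)) (sort s) ↔ s ∈ D := by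
  constructor
  · rintro ⟨s', hs, e⟩
    rwa [sort_inj e]
  · intro h; exact ⟨s, h, .refl _⟩

theorem VL_cons_sort {s : S} {e : Term S × Val (Term S) (CS S)} {l : Args (Term S) (CS S)} :
    ¬ VL P W D (e :: l) (sort s) := by
  rintro ⟨A, B, e1, _⟩
  exact not_sort_pi e1

theorem VL_nil_pi {A B : Term S} : ¬ VL P W D ([] : Args (Term S) (CS S)) (pi A B) := by
  rintro ⟨s, _, e⟩
  exact not_sort_pi (BetaEq.symm e)

theorem VL_cons_pi {A B a : Term S} {v : Val (Term S) (CS S)} {l : Args (Term S) (CS S)} :
    VL P W D ((a, v) :: l) (pi A B) ↔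
      In P W a A ∧ Normal a ∧ VM P W D A v ∧ VL P W D l (inst a B) := by
  constructor
  · rintro ⟨A', B', e, h1, h2, h3, h4⟩
    obtain ⟨e1, e2⟩ := pi_inj e
    exact ⟨h1.conv (BetaEq.symm e1), h2, (VM_conv e1 v).2 h3,
      VL.conv h4 (BetaEq.inst (.refl _) (BetaEq.symm e2))⟩
  · rintro ⟨h1, h2, h3, h4⟩
    exact ⟨A, B, .refl _, h1, h2, h3, h4⟩

end Crest.Agent.R298.T891
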