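import Crest.Agent.R298.Str_657
import Mathlib.Data.Nat.Pairing
import Mathlib.Data.Countable.Basic

/-!
R298 (S0452), helper657: the WORLD, list form.  A function `D : ℕ → Term S` gives the types of
the names `0, 1, 2, ...` (absolute levels; `D k` only mentions names below `k`); `lst D n` is the
frozen context of the first `n` names and `rv n` the renaming from names to indices (and back).
`exists_wlist`: there is a `D` all of whose `lst D n` are well formed and in which every type
which is legal over some `lst D n` occurs infinitely often.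
-/

set_option autoImplicit false

namespace Crest.Agent.R298.World657

open Crest.LogicCS.PTS Crest.LogicCS.PTS.Term Relation
open Crest.Agent.R298.Sub452 Crest.Agent.R298.Par452 Crest.Agent.R298.Ty452
open Crest.Agent.R298.Str657

universe u
variable {S : Type u} {P : Spec S}

/-- names to indices and back (an involution below `n`) -/
def rv (n k : ℕ) : ℕ := n - 1 - k

theorem rv_lt {n k : ℕ} (h : k < n) : rv n k < n := by unfold rv; omega

theorem rv_rv {n k : ℕ} (h : k < n) : rv n (rv n k) = k := by unfold rv; omega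

theorem rv_succ {n k : ℕ} (h : k < n) : rv (n + 1) k = rv n k + 1 := by unfold rv; omega

/-- the frozen context of the first `n` names -/
def lst (D : ℕ → Term S) : ℕ → List (Term S)
  | 0 => []
  | n + 1 => ren (rv n) (D n) :: lst D n

@[simp] theorem lst_length (D : ℕ → Term S) (n : ℕ) : (lst D n).length = n := by
  induction n with
  | zero => rfl
  | succ n ih => simp [lst, ih]

theorem ren_rv_rv {M : Term S} {n : ℕ} (h : Fb M n) : ren (rv n) (ren (rv n) M) = M := by
  rw [ren_ren, ren_congr h (fun i hi => rv_rv hi), ren_id]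

theorem fb_rv {M : Term S} {n : ℕ} (h : Fb M n) : Fb (ren (rv n) M) n :=
  fb_ren h (fun _ hi => rv_lt hi)

theorem wk_rv {M : Term S} {n : ℕ} (h : Fb M n) : wk (ren (rv n) M) = ren (rv (n + 1)) M := by
  rw [wk, ren_ren]
  exact ren_congr h (fun i hi => (rv_succ hi).symm)

/-- `M : A` over the first `n` names, in terms of names -/
structure At (P : Spec S) (D : ℕ → Term S) (n : ℕ) (M A : Term S) : Prop where
  fm : Fb M n
  fa : Fb A n
  ty : Typed P (lst D n) (ren (rv n) M) (ren (rv n) A)

/-- the list form of "all names are well typed" -/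
def WD (P : Spec S) (D : ℕ → Term S) : Prop :=
  ∀ n, Fb (D n) n ∧ ∃ s, Typed P (lst D n) (ren (rv n) (D n)) (sort s)

theorem WD.wf {D : ℕ → Term S} (h : WD P D) (n : ℕ) : Wf P (lst D n) := by
  induction n with
  | zero => exact .nil
  | succ n ih =>
      obtain ⟨_, s, hs⟩ := h n
      exact .cons ih hs

theorem At.succ {D : ℕ → Term S} (h : WD P D) {n : ℕ} {M A : Term S} (t : At P D n M A) :
    At P D (n + 1) M A := by
  obtain ⟨_, s, hs⟩ := h n
  refine ⟨t.fm.mono (Nat.le_succ n), t.fa.mono (Nat.le_succ n), ?_⟩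
  have := t_weak t.ty hs
  rwa [wk_rv t.fm, wk_rv t.fa] at this

theorem At.mono {D : ℕ → Term S} (h : WD P D) {n m : ℕ} {M A : Term S} (t : At P D n M A)
    (hnm : n ≤ m) : At P D m M A := by
  induction hnm with
  | refl => exact t
  | step _ ih => exact ih.succ h

/-- a typed judgment over `lst D n`, read in names -/
theorem At.of_typed {D : ℕ → Term S} {n : ℕ} {M A : Term S} (t : Typed P (lst D n) M A) :
    At P D n (ren (rv n) M) (ren (rv n) A) := by
  obtain ⟨a, b⟩ := typed_fb t
  rw [lst_length] at a b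
  refine ⟨fb_rv a, fb_rv b, ?_⟩
  rwa [ren_rv_rv a, ren_rv_rv b]

/-- lookup of a name -/
theorem lk_lst {D : ℕ → Term S} (h : ∀ n, Fb (D n) n) {n k : ℕ} (hk : k < n) :
    Lk (lst D n) (rv n k) (ren (rv n) (D k)) := by
  induction n with
  | zero => omega
  | succ n ih =>
      rcases Nat.lt_succ_iff_lt_or_eq.1 hk with hk' | rfl
      · rw [rv_succ hk', ← wk_rv ((h k).mono (le_of_lt hk'))]
        exact .succ _ (ih hk')
      · have e : rv (k + 1) k = 0 := by unfold rv; omega
        rw [e, ← wk_rv (h k)]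
        exact .zero _ _

/-- inversion of the lookup in `lst D n` -/
theorem lk_lst_inv {D : ℕ → Term S} (h : ∀ n, Fb (D n) n) {n i : ℕ} {B : Term S}
    (hl : Lk (lst D n) i B) : i < n ∧ B = ren (rv n) (D (rv n i)) := by
  have hi : i < n := by simpa using hl.lt
  refine ⟨hi, ?_⟩
  have := lk_lst h (rv_lt hi)
  rw [rv_rv hi] at this
  exact hl.unique this

theorem At.name {D : ℕ → Term S} (h : WD P D) {n k : ℕ} (hk : k < n) :
    At P D n (var k) (D k) := by
  refine ⟨hk, ((h k).1).mono (le_of_lt hk), ?_⟩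
  exact var_wf (lk_lst (fun n => (h n).1) hk) (h.wf n)

/-! ### enumeration of the raw terms -/

/-- decoder of raw terms with fuel -/
def dec (e : ℕ → S) : ℕ → ℕ → Term S
  | 0, _ => var 0
  | f + 1, n =>
      if n.unpair.1 = 0 then var n.unpair.2
      else if n.unpair.1 = 1 then sort (e n.unpair.2)
      else if n.unpair.1 = 2 then
        app (dec e f n.unpair.2.unpair.1) (dec e f n.unpair.2.unpair.2)
      else if n.unpair.1 = 3 then
        lam (dec e f n.unpair.2.unpair.1) (dec e f n.unpair.2.unpair.2)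
      else pi (dec e f n.unpair.2.unpair.1) (dec e f n.unpair.2.unpair.2)

theorem dec_surj {e : ℕ → S} (he : Function.Surjective e) (M : Term S) :
    ∃ n f0, ∀ f, f0 ≤ f → dec e f n = M := by
  induction M with
  | var i =>
      refine ⟨Nat.pair 0 i, 1, fun f hf => ?_⟩
      obtain ⟨f, rfl⟩ : ∃ g, f = g + 1 := ⟨f - 1, by omega⟩
      simp [dec]
  | sort s =>
      obtain ⟨i, hi⟩ := he s
      refine ⟨Nat.pair 1 i, 1, fun f hf => ?_⟩
      obtain ⟨f, rfl⟩ : ∃ g, f = g + 1 := ⟨f - 1, by omega⟩
      simp [dec, hi]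
  | app M N h1 h2 =>
      obtain ⟨n1, f1, h1⟩ := h1
      obtain ⟨n2, f2, h2⟩ := h2
      refine ⟨Nat.pair 2 (Nat.pair n1 n2), max f1 f2 + 1, fun f hf => ?_⟩
      obtain ⟨f, rfl⟩ : ∃ g, f = g + 1 := ⟨f - 1, by omega⟩
      simp [dec, h1 f (by omega), h2 f (by omega)]
  | lam M N h1 h2 =>
      obtain ⟨n1, f1, h1⟩ := h1
      obtain ⟨n2, f2, h2⟩ := h2
      refine ⟨Nat.pair 3 (Nat.pair n1 n2), max f1 f2 + 1, fun f hf => ?_⟩
      obtain ⟨f, rfl⟩ : ∃ g, f = g + 1 := ⟨f - 1, by omega⟩
      simp [dec, h1 f (by omega), h2 f (by omega)]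
  | pi M N h1 h2 =>
      obtain ⟨n1, f1, h1⟩ := h1
      obtain ⟨n2, f2, h2⟩ := h2
      refine ⟨Nat.pair 4 (Nat.pair n1 n2), max f1 f2 + 1, fun f hf => ?_⟩
      obtain ⟨f, rfl⟩ : ∃ g, f = g + 1 := ⟨f - 1, by omega⟩
      simp [dec, h1 f (by omega), h2 f (by omega)]

/-- a surjection onto the raw terms -/
theorem exists_enum [Countable S] [Nonempty S] : ∃ e : ℕ → Term S, Function.Surjective e := by
  obtain ⟨e, he⟩ := exists_surjective_nat S
  refine ⟨fun n => dec e n.unpair.1 n.unpair.2, fun M => ?_⟩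
  obtain ⟨n, f0, h⟩ := dec_surj he M
  exact ⟨Nat.pair f0 n, by simp [h f0 le_rfl]⟩

/-! ### the world -/

section construction

open Classical in
/-- the type of the name `n` over the context `Γ` of the first `n` names -/
noncomputable def pick (P : Spec S) (e : ℕ → Term S) (s0 : S) (Γ : List (Term S)) (n : ℕ) :
    Term S :=
  if Fb (e n.unpair.1) n ∧ ∃ s, Typed P Γ (ren (rv n) (e n.unpair.1)) (sort s)
  then e n.unpair.1 else sort s0

/-- the contexts of the world -/
noncomputable def wctx (P : Spec S) (e : ℕ → Term S) (s0 : S) : ℕ → List (Term S)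
  | 0 => []
  | n + 1 => ren (rv n) (pick P e s0 (wctx P e s0 n) n) :: wctx P e s0 n

/-- the world -/
noncomputable def wD (P : Spec S) (e : ℕ → Term S) (s0 : S) (n : ℕ) : Term S :=
  pick P e s0 (wctx P e s0 n) n

theorem lst_wD (P : Spec S) (e : ℕ → Term S) (s0 : S) (n : ℕ) :
    lst (wD P e s0) n = wctx P e s0 n := by
  induction n with
  | zero => rfl
  | succ n ih => simp only [lst, wctx, ih, wD]

theorem wd_wD {e : ℕ → Term S} {s0 t0 : S} (h0 : P.ax s0 t0) : WD P (wD P e s0) := by
  have key : ∀ n, Wf P (wctx P e s0 n) ∧ Fb (wD P e s0 n) n ∧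
      ∃ s, Typed P (wctx P e s0 n) (ren (rv n) (wD P e s0 n)) (sort s) := by
    intro n
    have step : Wf P (wctx P e s0 n) → Fb (wD P e s0 n) n ∧
        ∃ s, Typed P (wctx P e s0 n) (ren (rv n) (wD P e s0 n)) (sort s) := by
      intro w
      unfold wD pick
      split_ifs with h
      · exact h
      · exact ⟨trivial, t0, ax_wf w h0⟩
    induction n with
    | zero => exact ⟨.nil, step .nil⟩
    | succ n ih =>
        obtain ⟨w, _, s, hs⟩ := ih (by
          intro w
          unfold wD pick
          split_ifs with h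
          · exact h
          · exact ⟨trivial, t0, ax_wf w h0⟩)
        have w' : Wf P (wctx P e s0 (n + 1)) := .cons w hs
        exact ⟨w', step w'⟩
  intro n
  rw [lst_wD]
  exact (key n).2

end construction

/-- every type which is legal over finitely many names is the type of arbitrarily late names -/
def FullL (P : Spec S) (D : ℕ → Term S) : Prop :=
  ∀ (A : Term S) (s : S) (n : ℕ), At P D n A (sort s) → ∀ m, ∃ k, m ≤ k ∧ n ≤ k ∧ D k = A

theorem exists_wlist (P : Spec S) [Countable S] (h0 : ∃ s t, P.ax s t) :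
    ∃ D : ℕ → Term S, WD P D ∧ FullL P D := by
  obtain ⟨s0, t0, h0⟩ := h0
  have : Nonempty S := ⟨s0⟩
  obtain ⟨e, he⟩ := exists_enum (S := S)
  have hW := wd_wD (P := P) (e := e) h0
  refine ⟨wD P e s0, hW, ?_⟩
  intro A s n hA m
  obtain ⟨a, ha⟩ := he A
  refine ⟨Nat.pair a (max m n), le_trans (le_max_left _ _) (Nat.right_le_pair _ _),
    le_trans (le_max_right _ _) (Nat.right_le_pair _ _), ?_⟩
  have hk := hA.mono hW (le_trans (le_max_right m n) (Nat.right_le_pair a (max m n)))
  have e1 : (Nat.pair a (max m n)).unpair.1 = a := by simp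
  unfold wD pick
  rw [e1, ha, if_pos]
  refine ⟨hk.fm, s, ?_⟩
  have := hk.ty
  rw [lst_wD] at this
  exact this

end Crest.Agent.R298.World657
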