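import Crest.Agent.R298.Ok2_425
import Crest.Agent.R298.Op2_98
import Crest.Agent.R298.TyE_226
import Crest.Agent.R298.SM2_646

/-!
# R298: the type evaluator of a world and its instantiation law (helper201)

Over the frame `frW` (425) with the operations `svW`, `opW` (98): `FOk`, the record
`Z : SM646.TyEval` (98's `tyEval`), `Z.Inst`, hence `SM646.EvalT FatP` and `BlockTW FatP`.
-/

set_option autoImplicit false
set_option linter.unusedSectionVars false

namespace Crest.Agent.R298.Z201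

open Crest.LogicCS.PTS Crest.LogicCS.PTS.Term Relation
open Crest.Agent.R298.Sub452 Crest.Agent.R298.Par452 Crest.Agent.R298.Ty452
open Crest.Agent.R298.Mem360 Crest.Agent.R298.TyF452 Crest.Agent.R298.TyMF452
open Crest.Agent.R298.Mem360.MT (er)
open Crest.Agent.R298.Uniq452 (Sg)
open Crest.Agent.R298.Main865 Crest.Agent.R298.Cand704
open Crest.Agent.R298.SM646 (Hi hi_congr RRof TyEval isc nf nf_red nf_normal nf_betaEq)
open Crest.Agent.R298.Inf786 (Skel Cd Dm Thin)
open Crest.Agent.R298.Cod893 Crest.Agent.R298.Vt786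
open Crest.Agent.R298.Md254 (skel sgQ TF cl_congr cl_eq)
open Crest.Agent.R298.Op98

variable {S : Type} {P : Spec S} {idx : S → ℕ} {i : ℕ} {W : ℕ → Term S}

/-- the frame of the stage `i` over the world `W` -/
noncomputable def fz (P : Spec S) (idx : S → ℕ) (i : ℕ) (W : ℕ → Term S) :
    Frame S (Term S) (SI (skel P (Lvl idx i) W) (CV S)) (CV S) :=
  Ok425.frW P (Lvl idx i) W (svW P idx i W)
    (opW P idx i W (Md254.cl : Term S → Term S) (fun q => q) (skel P (Lvl idx i) W)
      (sgQ P (Lvl idx i) W))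

theorem fz_opF : OpF P idx i W (Md254.cl : Term S → Term S) (fun q => q)
    (skel P (Lvl idx i) W) (sgQ P (Lvl idx i) W) (fz P idx i W) :=
  ⟨rfl, rfl, fun _ _ _ => rfl, rfl, rfl⟩

theorem fz_std : Std (skel P (Lvl idx i) W) (sgQ P (Lvl idx i) W) (fz P idx i W) :=
  ⟨rfl, rfl, rfl, rfl, rfl⟩

/-- bound closed types are tame or of the minus colour -/
theorem bound_or (w : WfF P W) {A : Term S} {a b c : S} (r : P.rule a b c)
    (hb : b ∈ Lvl idx i) (hc : c ∈ Lvl idx i) (h : Sg P W A a) :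
    Inf786.Tame (skel P (Lvl idx i) W) (Md254.cl A) ∨ sgQ P (Lvl idx i) W (Md254.cl A) := by
  by_cases ht : Inf786.Tame (skel P (Lvl idx i) W) (Md254.cl A)
  · exact .inl ht
  · exact .inr (Md254.bound_sg w r hb hc (h.conv (cl_eq A)) ht)

theorem fz_ok (w : WfF P W) (hwn : ∀ M A, TyF P W M A → WN M)
    (hm : ∀ a b c, P.rule a b c → idx c ≤ idx a ∧ idx c ≤ idx b) :
    Ok425.FOk P (Lvl idx i) W (fz P idx i W) := by
  refine Ok425.frW_ok w hwn ?_
  intro A B a b c x x' f f' hc r hA hB h1 h2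
  refine opW_congr_sorts w hm (ql_cl w hwn) hc r hA hB h1 fun hb q v hq hv => ?_
  exact h2 hb q v hq (IQ_rng (bound_or w r hb hc (.of hA)) hv)

/-- **the type evaluator** of the stage `i` over the world `W` -/
noncomputable def zt (w : WfF P W) (hwn : ∀ M A, TyF P W M A → WN M) (idx : S → ℕ) (i : ℕ) :
    TyEval.{0, 1} P idx i W :=
  tyEval w (ql_cl w hwn) (fz P idx i W) fz_opF

theorem zt_good (w : WfF P W) (hwn : ∀ M A, TyF P W M A → WN M) {G : ℕ → Term S}
    (ρ : SM646.Env (zt w hwn idx i) G) (x : ℕ) :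
    Good (ρ.inf x : UF (Term S) (SI (skel P (Lvl idx i) W) (CV S)) (CV S)) := by
  by_cases h : SM646.Cl P idx i G (G x)
  · obtain ⟨e, _, he⟩ := ρ.iq x h
    rw [he]
    exact look_good _ _
  · obtain ⟨_, he⟩ := ρ.low x h
    rw [he]
    exact fun s => SS.const _

/-- **(R4)** for the evaluator -/
theorem zt_inst (w : WfF P W) (hwn : ∀ M A, TyF P W M A → WN M)
    (hP : ∀ (Γ : List (Term S)) (M : Term S), Legal P Γ M → WN M)
    (hm : ∀ a b c, P.rule a b c → idx c ≤ idx a ∧ idx c ≤ idx b)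
    (hF : TF P (Lvl idx i) W) : (zt w hwn idx i).Inst := by
  intro G ρ A B N s g hT hc hn hN _
  have hG : WfF P G := g.wf
  obtain ⟨a0, b0, c0, hA0, hB0, r0, _⟩ := fgen_pi hT _ _ rfl
  obtain ⟨c, hSc, hic⟩ := hc
  -- the index of the sort of the product is `i`
  have hSc' : Sg P W (sub ρ.th (pi A B)) c := hSc.sub ρ.subF
  have hc' : idx c = i := by
    refine le_antisymm ?_ hic
    by_contra h
    exact hn ⟨c, hSc', not_le.1 h⟩
  obtain ⟨a, b, r, hSA, A', rA, hA', hSB⟩ := hSc.pi_inv hG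
  have hNt : TyF P G (er N) A := hN.typed
  have hNA : TyF P G (er N) A' := tyf_red_type hG hNt rA
  have wN : WN (er N) := (g.wn hP hNt).1
  have wT : WN (inst (er N) B) := (g.wn hP (tyf_inst hG hB0 hNt)).1
  have wB : WN B := ((g.cons hA0).wn hP hB0).1
  have hnB : TyF P (fcons A' G) (nf B) (sort b) :=
    (Uniq452.Sg.normal (hG.cons hA') (nf_normal wB)).1
      (hSB.conv (BetaEq.symm (nf_betaEq wB)))
  -- closed instance
  have eK : sub (scons (sub ρ.th (er N)) ρ.th) B = sub ρ.th (inst (er N) B) := by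
    rw [sub_scons, sub_inst]
  have e1 : BetaEq (sub (scons (sub ρ.th (er N)) ρ.th) (nf B))
      (sub ρ.th (nf (inst (er N) B))) := by
    refine BetaEq.trans (BetaEq.symm (BetaEq.sub (nf_betaEq wB) _)) ?_
    rw [eK]
    exact BetaEq.sub (nf_betaEq wT) _
  have t1 : TyF P W (sub (scons (sub ρ.th (er N)) ρ.th) (nf B)) (sort b) := by
    rw [sub_scons]
    have h1 : TyF P (fcons (sub ρ.th A') W) (sub (ups ρ.th) (nf B)) (sort b) :=
      tyf_sub hnB (ρ.subF.ups (tyf_sub hA' ρ.subF))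
    exact tyf_inst w h1 (tyf_sub hNA ρ.subF)
  have t2 : TyF P W (sub ρ.th (nf (inst (er N) B))) (sort b0) :=
    tyf_sub (FSR hG (tyf_inst hG hB0 hNt) (nf_red wT)) ρ.subF
  by_cases hh : Hi P idx i W (sub (scons (sub ρ.th (er N)) ρ.th) (nf B))
  · obtain ⟨j, hj⟩ := (zt w hwn idx i).ne (sub ρ.th A)
    refine ⟨j, hj, fun v hv => ?_⟩
    rw [(zt w hwn idx i).rr_high hh] at hv
    rw [(zt w hwn idx i).rr_high ((hi_congr e1).1 hh), ← wt_conv w t1 t2 e1]
    exact hv
  · have hib : idx b = i := by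
      refine le_antisymm ?_ (hc' ▸ (hm _ _ _ r).2)
      by_contra h
      exact hh ⟨b, .of t1, not_le.1 h⟩
    have hSAW : Sg P W (sub ρ.th A) a := hSA.sub ρ.subF
    obtain ⟨e, he1, he2⟩ := exists_index (fz_std (P := P) (idx := idx) (i := i) (W := W))
      (bound_or (idx := idx) (i := i) w r hib hc' hSAW)
      (den (fz P idx i W) (nf (er N)) ρ.th ρ.inf)
    refine ⟨look (fz P idx i W) e.ent, ⟨e, he2, rfl⟩, fun v hv => ?_⟩
    rw [(zt w hwn idx i).rr_low hh] at hv
    rw [(zt w hwn idx i).rr_low (fun h => hh ((hi_congr e1).2 h)),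
      ← Op98.cst_conv w t1 t2 e1]
    have key : (zt w hwn idx i).ev (nf (inst (er N) B)) ρ.th ρ.inf =
        (zt w hwn idx i).ev (nf B) (scons (sub ρ.th (er N)) ρ.th)
          (isc (look (fz P idx i W) e.ent) ρ.inf) := by
      show den (fz P idx i W) (nf (inst (er N) B)) ρ.th ρ.inf [] =
        den (fz P idx i W) (nf B) (scons (sub ρ.th (er N)) ρ.th)
          (isc (look (fz P idx i W) e.ent) ρ.inf) []
      have hnN : TyF P G (nf (er N)) A' := FSR hG hNA (nf_red wN)
      have hr : Red (inst (nf (er N)) (nf B)) (nf (inst (er N) B)) := by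
        refine red_of_eq_normal (BetaEq.trans (BetaEq.symm ?_) (nf_betaEq wT)) (nf_normal wT)
        exact BetaEq.inst (nf_betaEq wN) (nf_betaEq wB)
      rw [Ok425.den_nf_inst_nil (fz_ok w hwn hm) w hwn hF hG hnB (nf_normal wB) hnN
        (nf_normal wN) hA' r hib hc' hr ρ.subF (zt_good w hwn ρ)]
      have hq : Md254.cl (sub ρ.th A') = Md254.cl (sub ρ.th A) :=
        cl_congr (BetaEq.symm (BetaEq.sub rA.eq _))
      rw [hq, he1]
      have e4 : BetaEq (Md254.cl (sub ρ.th (nf (er N)))) (sub ρ.th (er N)) :=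
        BetaEq.trans (cl_eq _) (BetaEq.symm (BetaEq.sub (nf_betaEq wN) _))
      refine (congrFun (TyE226.den_scons (fz P idx i W) (fun _ _ h => cl_congr h) (nf B)
        e4 ρ.th _) []).trans ?_
      exact congrArg (fun μ => den (fz P idx i W) (nf B) (scons (sub ρ.th (er N)) ρ.th) μ [])
        (TyE226.isc_eq_icons _ _).symm
    rw [key]
    exact hv

/-- **the semantic input of block (T)** -/
theorem evalT : SM646.EvalT.{1} Main865.FatP := by
  intro n P idx N hS hi D wD i h0 hF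
  have hwn : ∀ M A, TyF P D M A → WN M := fun M A h => (wD.good.wn hS.wn h).1
  have hTF : TF P (Lvl idx i) D := by
    refine Md254.tf_of_not_fat wD.good.wf (fun T t h => ?_) hF
    obtain ⟨T₀, h1, h2⟩ := hwn T _ h
    exact ⟨T₀, h1, h2⟩
  exact ⟨zt wD.good.wf hwn idx i, zt_inst wD.good.wf hwn hS.wn
    (fun a b c r => ⟨hi.rule_left r, hi.rule_right r⟩) hTF⟩

/-- **block (T)** -/
theorem blockTW : Main865.BlockTW Main865.FatP := SM646.blockTW_of evalT

end Crest.Agent.R298.Z201
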