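import Crest.Agent.R298.Sys_254

/-!
R298 (S0452), helper254: the TYPE EVALUATOR of stage `i` (record `SM646.TyEval`) from `Cod893.den`
over the frame `frz`, and `Inst` (R4) from helper599's `den_nf_inst`.
-/

set_option autoImplicit false

namespace Crest.Agent.R298.Z254

open Crest.LogicCS.PTS Crest.LogicCS.PTS.Term Relation
open Crest.Agent.R298.Sub452 Crest.Agent.R298.Par452 Crest.Agent.R298.Ty452
open Crest.Agent.R298.Mem360 Crest.Agent.R298.TyF452 Crest.Agent.R298.TyMF452
open Crest.Agent.R298.Uniq452 Crest.Agent.R298.Main865 Crest.Agent.R298.Cand704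
open Crest.Agent.R298.Md254 Crest.Agent.R298.Fr201 Crest.Agent.R298.SM646
open Crest.Agent.R298.Fl113 (Rl RelS)
open Crest.Agent.R298.Cod893 Crest.Agent.R298.Vt786
open Crest.Agent.R298.Mem360.MT (er)

variable {S : Type}

section defs

variable (P : Spec S) (idx : S → ℕ) (i : ℕ) (W : ℕ → Term S)

/-- values of types -/
noncomputable def evz (T : Term S) (θ : ℕ → Term S) (ν : ℕ → UFz P idx i W) : Set (MT S) :=
  den (frz P idx i W) T θ ν []

/-- infos over which the variables of a closed type range -/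
def IQz (K : Term S) (j : UFz P idx i W) : Prop :=
  ∃ e : PEz P idx i W, adm P idx i W (cl K) e ∧ j = look (frz P idx i W) e.ent

end defs

variable {P : Spec S} {idx : S → ℕ} {i : ℕ} {W : ℕ → Term S}

theorem cst_conv (w : WfF P W) {k : ℕ} {q q' : Term S} {s s' : S} (h : TyF P W q (sort s))
    (h' : TyF P W q' (sort s')) (e : BetaEq q q') (X : Set (MT S)) :
    cst P idx k W q X = cst P idx k W q' X := by
  unfold cst
  by_cases hX : Cand P idx k W q X
  · rw [if_pos hX, if_pos (hX.conv' w h h' e)]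
  · have hX' : ¬ Cand P idx k W q' X := fun g => hX (g.conv' w h' h (BetaEq.symm e))
    rw [if_neg hX, if_neg hX', wt_conv w h h' e]

theorem rrq_conv (w : WfF P W) {q q' : Term S} {s s' : S} (h : TyF P W q (sort s))
    (h' : TyF P W q' (sort s')) (e : BetaEq q q') (X : Set (MT S)) :
    RRq P idx i W q X = RRq P idx i W q' X := by
  unfold RRq
  by_cases hH : Hi P idx i W q
  · rw [if_pos hH, if_pos (hH.conv e), wt_conv w h h' e]
  · rw [if_neg hH, if_neg (fun g => hH (g.conv (BetaEq.symm e))), cst_conv w h h' e]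

theorem rrq_typed {q : Term S} {X : Set (MT S)} {v : MT S} (h : v ∈ RRq P idx i W q X) :
    TMF P W v q := by
  unfold RRq at h
  split_ifs at h
  · exact h.1
  · exact ((cand_cst P idx (i + 1) W q X).sub v h).1

theorem rrof_eq (T : Term S) (θ : ℕ → Term S) (ν : ℕ → UFz P idx i W) :
    RRof P idx i W (evz P idx i W) T θ ν =
      RRq P idx i W (sub θ T) (evz P idx i W T θ ν) := rfl

theorem evz_congr (T : Term S) {θ θ' : ℕ → Term S} (ν : ℕ → UFz P idx i W)
    (h : ∀ x, BetaEq (θ x) (θ' x)) : evz P idx i W T θ ν = evz P idx i W T θ' ν := by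
  unfold evz
  rw [den_congr (frz P idx i W) (fun _ _ e => cl_congr e) T h fun x => ?_]
  rfl

theorem isc_eq (j : UFz P idx i W) (ν : ℕ → UFz P idx i W) : isc j ν = icons j ν := by
  funext x
  cases x <;> rfl

/-- the product law -/
theorem evz_pi (w : WfF P W) (hwn : ∀ M A, TyF P W M A → WN M) (A B : Term S)
    (θ : ℕ → Term S) (ν : ℕ → UFz P idx i W) (c : S)
    (hT : TyF P W (sub θ (.pi A B)) (.sort c)) :
    evz P idx i W (.pi A B) θ ν = PiSet P idx (i + 1) W (sub θ (.pi A B))
      (RRof P idx i W (evz P idx i W) A θ ν) (fun _ j => IQz P idx i W (sub θ A) j)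
      (fun v j => RRof P idx i W (evz P idx i W) B (scons (er v) θ) (isc j ν)) := by
  obtain ⟨a, b, c', hA, hB, r, _⟩ := fgen_pi hT _ _ rfl
  have hTc : TyF P W (cl (sub θ (.pi A B))) (sort c) := cl_typed w hwn hT
  have hAc : TyF P W (cl (sub θ A)) (sort a) := cl_typed w hwn hA
  have e0 : evz P idx i W (.pi A B) θ ν = opz P idx i W (cl (sub θ A))
      (cl (sub θ (.pi A B))) (evz P idx i W A θ ν)
      (fun q e => den (frz P idx i W) B (scons q θ)
        (icons (look (frz P idx i W) e.ent) ν) []) := rfl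
  rw [e0]
  unfold opz
  have e1 : RRq P idx i W (cl (sub θ A)) (evz P idx i W A θ ν) =
      RRof P idx i W (evz P idx i W) A θ ν := by
    rw [rrof_eq]
    exact rrq_conv w hAc hA (cl_eq _) _
  rw [e1]
  have key : ∀ x : MT S, TMF P W x (sub θ A) → ∀ e : PEz P idx i W,
      RRq P idx i W (kcod (cl (sub θ (.pi A B))) (er x))
        (den (frz P idx i W) B (scons (cl (er x)) θ)
          (icons (look (frz P idx i W) e.ent) ν) []) =
      RRof P idx i W (evz P idx i W) B (scons (er x) θ)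
        (isc (look (frz P idx i W) e.ent) ν) := by
    intro x hx e
    have hx' : TyF P W (er x) (sub θ A) := hx.typed
    have h1 : TyF P W (inst (er x) (sub (ups θ) B)) (sort b) := tyf_inst w hB hx'
    have h2 : kcod (cl (sub θ (.pi A B))) (er x) = cl (inst (er x) (sub (ups θ) B)) :=
      kcod_pi (cl_eq (sub θ (.pi A B))) (er x)
    have h3 : sub (scons (er x) θ) B = inst (er x) (sub (ups θ) B) := by rw [sub_scons]
    rw [h2, rrof_eq, h3, isc_eq]
    rw [rrq_conv w (cl_typed w hwn h1) h1 (cl_eq _)]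
    congr 1
    refine evz_congr B _ fun n => ?_
    cases n with
    | zero => exact cl_eq (er x)
    | succ n => exact .refl _
  have hsub : ∀ x ∈ RRof P idx i W (evz P idx i W) A θ ν, TMF P W x (sub θ A) := by
    intro x hx
    rw [rrof_eq] at hx
    exact rrq_typed hx
  ext v
  constructor
  · rintro ⟨g1, g2, g3⟩
    refine ⟨(tmf_conv_iff w hTc hT (cl_eq _) v).1 g1, g2, fun x hx j hj => ?_⟩
    obtain ⟨e, he, rfl⟩ := hj
    have := g3 x hx e he
    show _ ∈ RRof P idx i W (evz P idx i W) B (scons (er x) θ)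
        (isc (look (frz P idx i W) e.ent) ν)
    rwa [← key x (hsub x hx) e]
  · rintro ⟨g1, g2, g3⟩
    refine ⟨(tmf_conv_iff w hTc hT (cl_eq _) v).2 g1, g2, fun x hx e he => ?_⟩
    have := g3 x hx _ ⟨e, he, rfl⟩
    show _ ∈ RRq P idx i W (kcod (cl (sub θ (.pi A B))) (er x))
        (den (frz P idx i W) B (scons (cl (er x)) θ)
          (icons (look (frz P idx i W) e.ent) ν) [])
    rwa [key x (hsub x hx) e]

/-- **the type evaluator** -/
noncomputable def tyz (w : WfF P W) (hwn : ∀ M A, TyF P W M A → WN M) :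
    TyEval.{0, 1} P idx i W where
  Inf := UFz P idx i W
  IQ := IQz P idx i W
  ne K := by
    obtain ⟨e, he⟩ := adm_ne (P := P) (idx := idx) (i := i) (W := W) (cl K)
    exact ⟨_, e, he, rfl⟩
  iq_conv := by
    rintro K K' j e ⟨x, hx, rfl⟩
    exact ⟨x, by rwa [← cl_congr e], rfl⟩
  dfl := fun _ => default
  ev := evz P idx i W
  ev_ren T r θ ν := by
    unfold evz
    rw [den_ren (frz P idx i W) T r (fun k => θ (r k)) θ (fun k => ν (r k)) ν
      (fun _ => rfl) (fun _ => rfl)]
  ev_sort s θ ν := Or.inl fun v h => h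
  ev_pi A B θ ν c h _ _ := evz_pi w hwn A B θ ν c h

/-- environments of the stage model are environments of helper599 -/
theorem env_ok (w : WfF P W) (hwn : ∀ M A, TyF P W M A → WN M) (hF : TF P (Lvl idx i) W)
    (hm : Mon P idx) {G : ℕ → Term S} (wG : WfF P G)
    (ρ : SM646.Env (tyz (P := P) (idx := idx) (i := i) w hwn) G) :
    Ok599.Env (sysz w hwn hF hm) G ρ.th ρ.inf where
  wf := wG
  sub := ρ.subF
  good x := by
    by_cases hx : Cl P idx i G (G x)
    · obtain ⟨e, _, he⟩ := ρ.iq x hx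
      rw [he]
      exact look_good _ _
    · rw [(ρ.low x hx).2]
      exact fun s => SS.const _
  dead x hd := by
    obtain ⟨⟨A, B, e⟩, h1, h2⟩ := hd
    by_cases hx : Cl P idx i G (G x)
    · obtain ⟨e', he, hj⟩ := ρ.iq x hx
      rw [hj]
      refine look_adm_dead (q := cl (sub ρ.th (G x))) ?_ ?_ he
      · intro a ha
        exact h2 ha.1
      · exact not_kleaf_pi (BetaEq.trans (cl_eq _) e)
    · rw [(ρ.low x hx).2]
      rfl

/-- **(R4)** -/
theorem inst_tyz (hP : ∀ (Γ : List (Term S)) (M : Term S), Legal P Γ M → WN M)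
    (w : WfF P W) (hwn : ∀ M A, TyF P W M A → WN M) (hF : TF P (Lvl idx i) W)
    (hm : Mon P idx) : (tyz (P := P) (idx := idx) (i := i) w hwn).Inst := by
  intro G ρ A B N s g hT hc hn hN hR
  have hθ : SubF P ρ.th G W := ρ.subF
  have hw : WN (Term.pi A B) := (g.wn hP hT).1
  obtain ⟨hA, hB⟩ := wn_pi_inv hw
  have e0 : nf (Term.pi A B) = .pi (nf A) (nf B) := nf_pi hA hB
  obtain ⟨c, h1, h2⟩ := hc
  have h3 : TyF P G (.pi (nf A) (nf B)) (.sort c) := by
    rw [← e0]
    exact (Sg.normal g.wf (nf_normal hw)).1 (h1.conv (BetaEq.symm (nf_betaEq hw)))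
  obtain ⟨a, b, c', hA', hB', r, ec⟩ := fgen_pi h3 _ _ rfl
  obtain rfl : c = c' := sort_inj ec
  -- the argument
  have hNt : TyF P G (er N) A := hN.typed
  have hNw : WN (er N) := (g.wn hP hNt).1
  have hN1 : TyF P G (nf (er N)) A := FSR g.wf hNt (nf_red hNw)
  have hN2 : TyF P G (nf (er N)) (nf A) := tyf_red_type g.wf hN1 (nf_red hA)
  have hN3 : TyF P G (er N) (nf A) := tyf_red_type g.wf hNt (nf_red hA)
  -- the instance
  have hI : TyF P G (inst (er N) (nf B)) (sort b) := tyf_inst g.wf hB' hN3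
  have eI : BetaEq (inst (er N) B) (inst (er N) (nf B)) := BetaEq.sub (nf_betaEq hB) _
  have hIw : WN (inst (er N) B) := wn_conv (g.wn hP hI).1 (BetaEq.symm eI)
  have eK : BetaEq (inst (er N) (nf B)) (nf (inst (er N) B)) :=
    BetaEq.trans (BetaEq.symm eI) (nf_betaEq hIw)
  have hKr : Red (inst (er N) (nf B)) (nf (inst (er N) B)) :=
    red_of_eq_normal eK (nf_normal hIw)
  have hK : TyF P G (nf (inst (er N) B)) (sort b) := FSR g.wf hI hKr
  -- closed
  have hAc : TyF P W (sub ρ.th (nf A)) (sort a) := tyf_sub hA' hθ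
  have hTi0 : sub (scons (sub ρ.th (er N)) ρ.th) (nf B) = sub ρ.th (inst (er N) (nf B)) := by
    rw [sub_scons, sub_inst]
  have hTi : TyF P W (sub (scons (sub ρ.th (er N)) ρ.th) (nf B)) (sort b) := by
    rw [hTi0]; exact tyf_sub hI hθ
  have hKc : TyF P W (sub ρ.th (nf (inst (er N) B))) (sort b) := tyf_sub hK hθ
  have eTK : BetaEq (sub (scons (sub ρ.th (er N)) ρ.th) (nf B))
      (sub ρ.th (nf (inst (er N) B))) := by
    rw [hTi0]; exact BetaEq.sub eK _
  have eA : BetaEq (sub ρ.th A) (sub ρ.th (nf A)) := BetaEq.sub (nf_betaEq hA) _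
  by_cases hH : Hi P idx i W (sub (scons (sub ρ.th (er N)) ρ.th) (nf B))
  · obtain ⟨j, hj⟩ := (tyz (P := P) (idx := idx) (i := i) w hwn).ne (sub ρ.th A)
    refine ⟨j, hj, fun v hv => ?_⟩
    rw [TyEval.rr_high _ hH] at hv
    rw [TyEval.rr_high _ (hH.conv eTK), ← wt_conv w hTi hKc eTK]
    exact hv
  · -- `A` is `D`-bound
    have hcT : TyF P W (sub ρ.th (.pi (nf A) (nf B))) (sort c) := tyf_sub h3 hθ
    have hn' : ¬ Hi P idx i W (sub ρ.th (.pi (nf A) (nf B))) := fun h => by
      refine hn (h.conv ?_)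
      rw [← e0]
      exact BetaEq.symm (BetaEq.sub (nf_betaEq hw) _)
    have hci : idx c = i := by
      refine le_antisymm ?_ h2
      by_contra h
      exact hn' ⟨c, Sg.of hcT, not_le.1 h⟩
    have hbi : idx b = i := by
      have k1 : idx c ≤ idx b := (hm a b c r).2
      have k2 : ¬ i < idx b := fun h => hH ⟨b, Sg.of hTi, h⟩
      omega
    have hcD : c ∈ Lvl idx i := hci
    have hbD : b ∈ Lvl idx i := hbi
    have hNO : NotO P (Lvl idx i) W (sub ρ.th (nf A)) := notO_bound w r hbD hcD (Sg.of hAc)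
    have E := env_ok w hwn hF hm g.wf ρ
    -- the entry
    obtain ⟨e1, he1⟩ : ∃ e1 : PEz P idx i W,
        e1.ent = entry (frz P idx i W) (cl (sub ρ.th (nf A)))
          (den (frz P idx i W) (nf (er N)) ρ.th ρ.inf) := by
      have hr : rngS (skel P (Lvl idx i) W) (sgQ P (Lvl idx i) W) (cl (sub ρ.th (nf A)))
          (entry (frz P idx i W) (cl (sub ρ.th (nf A)))
            (den (frz P idx i W) (nf (er N)) ρ.th ρ.inf)).sh := frz_std.entry_ok _ _
      cases hent : entry (frz P idx i W) (cl (sub ρ.th (nf A)))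
          (den (frz P idx i W) (nf (er N)) ρ.th ρ.inf) with
      | sm x => exact ⟨.inl x, rfl⟩
      | mi f => exact ⟨.inr f, rfl⟩
      | co x =>
        rw [hent] at hr
        exact absurd (bound_sg w r hbD hcD ((Sg.of hAc).conv (cl_eq _)) hr.1) hr.2
    have hadm : adm P idx i W (cl (sub ρ.th (nf A))) e1 := by
      refine .inl ?_
      rw [he1]
      exact frz_std.entry_ok _ _
    refine ⟨look (frz P idx i W) e1.ent, ⟨e1, by rwa [cl_congr eA], rfl⟩, fun v hv => ?_⟩
    -- B4
    have hd : ¬ (sysz w hwn hF hm).Dead (sub ρ.th (nf A)) := by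
      rintro ⟨_, k1, k2⟩
      exact k2 ((live_iff w (cl_eq _)).2 (hNO (rl_conv w k1 (cl_eq _))))
    have hr2 : Red (inst (nf (er N)) (nf B)) (nf (inst (er N) B)) := by
      refine red_of_eq_normal (BetaEq.trans ?_ eK) (nf_normal hIw)
      exact BetaEq.inst (BetaEq.symm (nf_betaEq hNw)) (.refl _)
    have hp : (sysz w hwn hF hm).vt ((frz P idx i W).cl
        (sub ρ.th (inst (nf (er N)) (sort b)))) (sh ([] : UPath (Term S) (SIz P idx i W)
          (Val S))) := ((sysz w hwn hF hm).vt_sort b).2 hbD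
    have h4 := Ok599.den_nf_inst E hA' hB' hN2 (nf_normal hB) (nf_normal hNw) hd hp hr2
    have h5 : evz P idx i W (nf (inst (er N) B)) ρ.th ρ.inf =
        evz P idx i W (nf B) (scons (sub ρ.th (er N)) ρ.th)
          (isc (look (frz P idx i W) e1.ent) ρ.inf) := by
      rw [isc_eq, he1]
      refine (h4.trans ?_)
      refine evz_congr (nf B) _ fun n => ?_
      cases n with
      | zero => exact BetaEq.trans (cl_eq _) (BetaEq.sub (BetaEq.symm (nf_betaEq hNw)) _)
      | succ n => exact .refl _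
    have hv' : v ∈ RRq P idx i W (sub (scons (sub ρ.th (er N)) ρ.th) (nf B))
        (evz P idx i W (nf B) (scons (sub ρ.th (er N)) ρ.th)
          (isc (look (frz P idx i W) e1.ent) ρ.inf)) := hv
    show v ∈ RRq P idx i W (sub ρ.th (nf (inst (er N) B)))
      (evz P idx i W (nf (inst (er N) B)) ρ.th ρ.inf)
    rw [h5, ← rrq_conv w hTi hKc eTK]
    exact hv'

end Crest.Agent.R298.Z254
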