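import Crest.Agent.R298.Ok2_425
import Crest.Agent.R298.Op2_98
import Crest.Agent.R298.SM3_987
import Crest.Agent.R298.MainW_865

/-!
R298 (S0452), helper425: THE LAST WIRE of block (T): the type evaluator read off `den` (frame of
`Ok2_425` with the operations of `Op_98`) satisfies (R4) (`TyEval.Inst`), hence `BlockTW FatP`.
-/

set_option autoImplicit false

namespace Crest.Agent.R298.Zi425

open Crest.LogicCS.PTS Crest.LogicCS.PTS.Term Relation
open Crest.Agent.R298.Sub452 Crest.Agent.R298.Par452 Crest.Agent.R298.Ty452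
open Crest.Agent.R298.Mem360 Crest.Agent.R298.TyF452 Crest.Agent.R298.TyMF452
open Crest.Agent.R298.Mem360.MT (er)
open Crest.Agent.R298.Main865 Crest.Agent.R298.Cand704
open Crest.Agent.R298.SM646 (Hi Cl hi_congr RRof TyEval isc Env nf nf_red nf_normal nf_betaEq)
open Crest.Agent.R298.Cod893 (Frame Ent PEnt UPath entry look den Good sh ESh SS)
open Crest.Agent.R298.Vt786 (Std rngS)
open Crest.Agent.R298.Md254 (skel sgQ vtW TF)
open Crest.Agent.R298.Ok425

variable {S : Type} {P : Spec S} {idx : S → ℕ} {i : ℕ} {D : ℕ → Term S}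

/-- the frame of the stage model -/
noncomputable def frZ (P : Spec S) (idx : S → ℕ) (i : ℕ) (D : ℕ → Term S) :
    Frame S (Term S) (Vt786.SI (skel P (Lvl idx i) D) (Op98.CV S)) (Op98.CV S) :=
  frW P (Lvl idx i) D (Op98.svW P idx i D)
    (Op98.opW P idx i D Md254.cl (fun q => q) (skel P (Lvl idx i) D) (sgQ P (Lvl idx i) D))

theorem frZ_opF : Op98.OpF P idx i D Md254.cl (fun q => q) (skel P (Lvl idx i) D)
    (sgQ P (Lvl idx i) D) (frZ P idx i D) :=
  ⟨rfl, rfl, fun _ _ _ => rfl, rfl, rfl⟩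

/-- `D`-bound closed types are tame or of the `D`-bound colour -/
theorem bound (w : WfF P D) {A : Term S} {a b c : S} (r : P.rule a b c)
    (hb : b ∈ Lvl idx i) (hc : c ∈ Lvl idx i) (h : Uniq452.Sg P D A a) :
    Inf786.Tame (skel P (Lvl idx i) D) (Md254.cl A) ∨ sgQ P (Lvl idx i) D (Md254.cl A) := by
  by_cases hT : Inf786.Tame (skel P (Lvl idx i) D) (Md254.cl A)
  · exact .inl hT
  · exact .inr (Md254.bound_sg w r hb hc (h.conv (Md254.cl_eq A)) hT)

theorem frZ_ok (w : WfF P D) (hwn : ∀ M A, TyF P D M A → WN M)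
    (hm : ∀ a b c, P.rule a b c → idx c ≤ idx a ∧ idx c ≤ idx b) :
    FOk P (Lvl idx i) D (frZ P idx i D) := by
  refine frW_ok w hwn ?_
  intro A B a b c x x' f f' hc r hA hB hX hY
  refine Op98.opW_congr_sorts w hm (Op98.ql_cl w hwn) hc r hA hB hX fun hb q e hq he => ?_
  exact hY hb q e hq (Op98.IQ_rng (bound w r hb hc (.of hA)) he)

/-- the type evaluator -/
noncomputable def zEval (w : WfF P D) (hwn : ∀ M A, TyF P D M A → WN M) :
    TyEval.{0, 1} P idx i D :=
  Op98.tyEval w (Op98.ql_cl w hwn) (frZ P idx i D) frZ_opF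

theorem good_const (F : Frame S (Term S) (Vt786.SI (skel P (Lvl idx i) D) (Op98.CV S))
    (Op98.CV S)) : Good (fun _ => F.b : UF (Term S)
      (Ent (Term S) (Vt786.SI (skel P (Lvl idx i) D) (Op98.CV S)) (Op98.CV S)) (Op98.CV S)) :=
  fun _ => SS.const _

theorem inf_good (w : WfF P D) (hwn : ∀ M A, TyF P D M A → WN M) {G : ℕ → Term S}
    (ρ : Env (zEval (idx := idx) (i := i) w hwn) G) (n : ℕ) : Good (ρ.inf n) := by
  by_cases h : Cl P idx i G (G n)
  · obtain ⟨e, _, h2⟩ := ρ.iq n h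
    rw [h2]
    exact Cod893.look_good _ _
  · obtain ⟨_, h2⟩ := ρ.low n h
    rw [h2]
    exact good_const _

theorem zInst (hP : ∀ (Γ : List (Term S)) (M : Term S), Legal P Γ M → WN M)
    (w : WfF P D) (hwn : ∀ M A, TyF P D M A → WN M)
    (hm : ∀ a b c, P.rule a b c → idx c ≤ idx a ∧ idx c ≤ idx b)
    (hF : TF P (Lvl idx i) D) : (zEval (idx := idx) (i := i) w hwn).Inst := by
  intro G ρ A B N s gG hp hcl hnh hN hmem
  obtain ⟨a0, b0, c0, hA0, hB0, r0, _⟩ := fgen_pi hp _ _ rfl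
  obtain ⟨t, ht, hti⟩ := hcl
  obtain ⟨a, b, r, hsA, A', rA, hA', hsB⟩ := ht.pi_inv gG.wf
  have hNt : TyF P G (er N) A := hN.typed
  have hN' : TyF P G (er N) A' := tyf_red_type gG.wf hNt rA
  have wnN : WN (er N) := (gG.wn hP hNt).1
  have gB : TyF452.Good P (fcons A G) := gG.cons hA0
  have wnB : WN B := (gB.wn hP hB0).1
  have hI0 : TyF P G (inst (er N) B) (sort b0) := tyf_inst gG.wf hB0 hNt
  have wnI : WN (inst (er N) B) := (gG.wn hP hI0).1
  have hs : SubF P ρ.th G D := ρ.subF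
  -- the two closed types
  have e0 : sub (scons (sub ρ.th (er N)) ρ.th) B = sub ρ.th (inst (er N) B) := by
    rw [sub_inst, sub_scons]
  have e1 : BetaEq (sub (scons (sub ρ.th (er N)) ρ.th) (nf B)) (sub ρ.th (nf (inst (er N) B))) := by
    refine BetaEq.trans (BetaEq.sub (BetaEq.symm (nf_betaEq wnB)) _) ?_
    rw [e0]
    exact BetaEq.sub (nf_betaEq wnI) _
  have hs1 : SubF P (scons (sub ρ.th (er N)) ρ.th) (fcons A G) D := hs.scons (tyf_sub hNt hs)
  have h1 : TyF P D (sub (scons (sub ρ.th (er N)) ρ.th) (nf B)) (sort b0) :=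
    tyf_sub (FSR gB.wf hB0 (nf_red wnB)) hs1
  have h2 : TyF P D (sub ρ.th (nf (inst (er N) B))) (sort b0) :=
    tyf_sub (FSR gG.wf hI0 (nf_red wnI)) hs
  by_cases hh : Hi P idx i D (sub ρ.th (nf (inst (er N) B)))
  · obtain ⟨j, hj⟩ := (zEval (idx := idx) (i := i) w hwn).ne (sub ρ.th A)
    refine ⟨j, hj, fun v hv => ?_⟩
    have hh' : Hi P idx i D (sub (scons (sub ρ.th (er N)) ρ.th) (nf B)) :=
      (hi_congr e1).2 hh
    rw [TyEval.rr_high _ hh'] at hv
    rw [TyEval.rr_high _ hh, ← wt_conv w h1 h2 e1]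
    exact hv
  · -- the class of the sorts
    have hit : idx t = i := by
      refine le_antisymm ?_ hti
      by_contra hc
      exact hnh ⟨t, ht.sub hs, by omega⟩
    have hib : idx b = i := by
      refine le_antisymm ?_ (hit ▸ (hm _ _ _ r).2)
      by_contra hc
      refine hh ⟨b, ?_, by omega⟩
      exact ((hsB.inst gG.wf hN').sub hs).conv (BetaEq.sub (BetaEq.symm (nf_betaEq wnI)) _)
    have hok := frZ_ok (idx := idx) (i := i) w hwn hm
    obtain ⟨e, he, hIQ⟩ := Op98.exists_index hok.std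
      (bound w r hib hit (hsA.sub hs)) (den (frZ P idx i D) (nf (er N)) ρ.th ρ.inf)
    refine ⟨look (frZ P idx i D) e.ent, ⟨e, hIQ, rfl⟩, fun v hv => ?_⟩
    have key := den_nf_inst_nil hok w hwn hF (Γ := G) (A := A') (B := nf B) (N := nf (er N))
      (B' := nf (inst (er N) B)) (a := a) (b := b) (c := t) gG.wf
      ((Uniq452.Sg.normal (gG.wf.cons hA') (nf_normal wnB)).1
        (hsB.conv (BetaEq.symm (nf_betaEq wnB))))
      (nf_normal wnB) (FSR gG.wf hN' (nf_red wnN)) (nf_normal wnN) hA' r hib hit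
      (red_of_eq_normal (BetaEq.trans
        (BetaEq.symm (BetaEq.inst (nf_betaEq wnN) (nf_betaEq wnB))) (nf_betaEq wnI))
        (nf_normal wnI))
      (θ := ρ.th) (ν := ρ.inf) hs (inf_good w hwn ρ)
    have key2 : den (frZ P idx i D) (nf B) (scons (sub ρ.th (er N)) ρ.th)
        (isc (look (frZ P idx i D) e.ent) ρ.inf) [] =
          den (frZ P idx i D) (nf (inst (er N) B)) ρ.th ρ.inf [] := by
      rw [key, he, den_eq_ev _ hok.nz, den_eq_ev _ hok.nz, den_eq_ev _ hok.nz]
      have e3 : Md254.cl (sub ρ.th A) = Md254.cl (sub ρ.th A') :=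
        Md254.cl_congr (BetaEq.sub rA.eq _)
      rw [e3, ← Op98.icons_isc]
      refine congrFun (ev_theta _ (hok.laws w hwn hF).cl_eq (nf B) _ (betaEq_scons ?_
        fun _ => .refl _)) []
      exact BetaEq.trans (BetaEq.sub (nf_betaEq wnN) _) (BetaEq.symm (Md254.cl_eq _))
    have e4 : (zEval (idx := idx) (i := i) w hwn).RR (nf (inst (er N) B)) ρ.th ρ.inf =
        Op98.clT P idx i D (sub ρ.th (nf (inst (er N) B)))
          (den (frZ P idx i D) (nf (inst (er N) B)) ρ.th ρ.inf []) := rfl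
    have e5 : (zEval (idx := idx) (i := i) w hwn).RR (nf B)
        (scons (sub ρ.th (er N)) ρ.th) (isc (look (frZ P idx i D) e.ent) ρ.inf) =
        Op98.clT P idx i D (sub (scons (sub ρ.th (er N)) ρ.th) (nf B))
          (den (frZ P idx i D) (nf B) (scons (sub ρ.th (er N)) ρ.th)
            (isc (look (frZ P idx i D) e.ent) ρ.inf) []) := rfl
    rw [e4, ← key2, ← Op98.clT_conv w h1 h2 e1]
    rw [e5] at hv
    exact hv

/-- **BLOCK (T)** -/
theorem blockT : BlockTW FatP := by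
  refine SM3987.blockTW_of.{1} FatP ?_
  intro n P idx N hS hI D wD i hi hF
  have w : WfF P D := wD.good.wf
  have hwn : ∀ M A, TyF P D M A → WN M := fun M A h => (wD.good.wn hS.wn h).1
  refine ⟨zEval w hwn, zInst hS.wn w hwn
    (fun a b c r => ⟨hI.rule_left r, hI.rule_right r⟩) ?_⟩
  exact Md254.tf_of_not_fat w (fun T t h => hwn T _ h) hF

end Crest.Agent.R298.Zi425
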